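/-
R169/Defs: all definitions for row 169 (S0256, S0257: no small Cohen-Macaulay module).
Author: helper14.  FROZEN (ask helper14 for changes).  See `R169/Blueprint.lean` for the proof.

Geometry behind the definitions: `KK k = k(a,b)` is the function field of the del Pezzo surface of
degree 5 with its ten lines `C 0, …, C 9`.  A degree `α : Dg` is the `ℚ`-divisor `∑ (α i / 7) C i`;
`CC k α` is its space of sections.  A family `G : Fam k V` (`V` a `KK k`-vector space) is a graded
module over `⊕ CC k α`, i.e. an equivariant torsion-free sheaf on the `(ℤ/7)^5` Kummer cover.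
-/
import Mathlib

set_option autoImplicit false
set_option linter.unusedSectionVars false

noncomputable section

namespace Crest.Agent.R169

open MvPolynomial Filter
open scoped Pointwise

/-! ### Numerics -/

/-- Degrees: coefficients of the ten lines (in units of `1/7`). -/
abbrev Dg := Fin 10 → ℤ

/-- Exponents of the five affine lines; also used for divisor classes `(h; e₁, …, e₄)`. -/
abbrev Ex := Fin 5 → ℤ

/-- The divisor of the monomial `a^β₀ b^β₁ (a-1)^β₂ (b-1)^β₃ (a-b)^β₄`. -/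
def dv : Ex →ₗ[ℤ] Dg where
  toFun β := ![β 0, β 1, β 2, β 3, β 4, β 0 + β 1 + β 4, β 2 + β 3 + β 4, -(β 0 + β 2 + β 4),
    -(β 1 + β 3 + β 4), -(β 0 + β 1 + β 2 + β 3 + β 4)]
  map_add' β β' := by ext i; fin_cases i <;> simp <;> ring
  map_smul' c β := by ext i; fin_cases i <;> simp <;> ring

/-- The divisor class in the basis `H, E₅, E₆, E₇, E₈`. -/
def cl : Dg →ₗ[ℤ] Ex where
  toFun α := ![α 0 + α 1 + α 2 + α 3 + α 4 + α 9, α 5 - α 0 - α 1 - α 4, α 6 - α 2 - α 3 - α 4,
    α 7 - α 1 - α 3 - α 9, α 8 - α 0 - α 2 - α 9]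
  map_add' β β' := by ext i; fin_cases i <;> simp <;> ring
  map_smul' c β := by ext i; fin_cases i <;> simp <;> ring

/-- The intersection form. -/
def ip (x y : Ex) : ℤ := x 0 * y 0 - x 1 * y 1 - x 2 * y 2 - x 3 * y 3 - x 4 * y 4

/-- The anticanonical class. -/
def Lc : Ex := ![3, -1, -1, -1, -1]

/-- The degree with respect to `Lc`. -/
def deg (α : Dg) : ℤ := ∑ i, α i

/-- A pentagon of lines; its class is `Lc`. -/
def ζ : Dg := ![0, 0, 0, 1, 1, 0, 1, 1, 0, 1]

/-- `ζ + dv βz` is the complementary pentagon. -/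
def βz : Ex := ![1, 1, 1, -1, -1]

/-- `2 ζ + dv (βn m)` is positive except at the `m`-th node of `ζ` with the complementary
pentagon: `(0,3), (1,7), (2,6), (4,5), (8,9)`. -/
def βn : Fin 5 → Ex :=
  ![![0, 1, 1, -2, 0], ![1, 0, 1, -1, 0], ![1, 1, 0, -1, -1], ![1, 1, 1, 0, -2], ![1, 1, 1, 0, -1]]

/-- `343 * chi D / 2` is the Euler characteristic of `D` on the Kummer cover. -/
def chi (D : Ex) : ℤ := 28 + ip D D - 5 * ip D Lc

/-- A section of `cl`. -/
def sec (D : Ex) : Dg := ![0, 0, 0, 0, 0, D 1, D 2, D 3 + D 0, D 4 + D 0, D 0]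

/-! ### Polynomials, valuations, sections -/

/-- The five affine lines. -/
def lin (A : Type) [CommRing A] : Fin 5 → MvPolynomial (Fin 2) A :=
  ![X 0, X 1, X 0 - 1, X 1 - 1, X 0 - X 1]

/-- The translation `g(a, b) ↦ g(a + 1, b + 1)`. -/
def tr1 (A : Type) [CommRing A] :
    MvPolynomial (Fin 2) A →ₐ[A] MvPolynomial (Fin 2) A := aeval fun i => X i + 1

/-- Polynomials all of whose monomials `a^i b^j` satisfy `c ≤ w₀ i + w₁ j`. -/
def Wo (A : Type) [CommRing A] (w0 w1 c : ℤ) : Submodule A (MvPolynomial (Fin 2) A) :=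
  restrictSupport A {m | c ≤ w0 * m 0 + w1 * m 1}

/-- Polynomials of order `≥ m0` at `(0,0)`, of order `≥ m1` at `(1,1)`, with
`deg_a ≤ d1`, `deg_b ≤ d2`, `deg ≤ d`. -/
def Vp (A : Type) [CommRing A] (m0 m1 d1 d2 d : ℤ) :
    Submodule A (MvPolynomial (Fin 2) A) :=
  Wo A 1 1 m0 ⊓ (Wo A 1 1 m1).comap (tr1 A).toLinearMap ⊓ Wo A (-1) 0 (-d1) ⊓ Wo A 0 (-1) (-d2) ⊓
    Wo A (-1) (-1) (-d)

/-- The exponent that normalises the first five coordinates of `α` to `[0, 7)`. -/
def nrm (α : Dg) : Ex := fun j => -(α (Fin.castLE (by norm_num) j) / 7)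

/-- The polynomial model of the sections of `α` (see `mem_CC_poly`). -/
def VC (A : Type) [CommRing A] (α : Dg) : Submodule A (MvPolynomial (Fin 2) A) :=
  Vp A (-((α + (7 : ℤ) • dv (nrm α)) 5 / 7)) (-((α + (7 : ℤ) • dv (nrm α)) 6 / 7))
    ((α + (7 : ℤ) • dv (nrm α)) 7 / 7) ((α + (7 : ℤ) • dv (nrm α)) 8 / 7)
    ((α + (7 : ℤ) • dv (nrm α)) 9 / 7)

variable (k : Type) [Field k]

/-- `k[a,b]`. -/
abbrev PP := MvPolynomial (Fin 2) k

/-- `k(a,b)`. -/
abbrev KK := FractionRing (PP k)

/-- Polynomials of total degree `≤ d`. -/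
abbrev Bd (d : ℤ) : Submodule k (PP k) := Wo k (-1) (-1) (-d)

/-- A Laurent monomial in the five lines. -/
def mon (β : Ex) : KK k := ∏ j, algebraMap (PP k) (KK k) (lin k j) ^ β j

/-- The space of sections of `α`, defined as the span of the monomials in it
(see `mem_CC` for the description by valuations). -/
def CC (α : Dg) : Submodule k (KK k) :=
  Submodule.span k (mon k '' {β | 0 ≤ (7 : ℤ) • dv β + α})

variable {k} in
/-- The weighted order. -/
def wo (w0 w1 : ℤ) (g : PP k) : ℤ :=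
  if h : g.support.Nonempty then g.support.inf' h fun m => w0 * m 0 + w1 * m 1 else 0

variable {k} in
/-- The ten special valuations on polynomials. -/
def pv (i : Fin 10) (g : PP k) : ℤ :=
  ![(multiplicity (lin k 0) g : ℤ), multiplicity (lin k 1) g, multiplicity (lin k 2) g,
    multiplicity (lin k 3) g, multiplicity (lin k 4) g, wo 1 1 g, wo 1 1 (tr1 k g), wo (-1) 0 g,
    wo 0 (-1) g, wo (-1) (-1) g] i

variable {k} in
/-- Extension of a valuation to fractions. -/
def fv (v : PP k → ℤ) (f : KK k) : ℤ :=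
  v (IsLocalization.sec (nonZeroDivisors (PP k)) f).1 -
    v (IsLocalization.sec (nonZeroDivisors (PP k)) f).2

/-- The prime divisors: ten lines and the other irreducible polynomials. -/
abbrev Pr : Type :=
  Fin 10 ⊕ {q : Associates (PP k) // Irreducible q ∧ ∀ j, q ≠ Associates.mk (lin k j)}

variable {k} in
/-- The valuation of the homogeneous element `(f, α)`, `f ≠ 0`. -/
def val (π : Pr k) (f : KK k) (α : Dg) : ℤ :=
  match π with
  | .inl i => 7 * fv (pv i) f + α i
  | .inr q => fv (fun g => (multiplicity (Quot.out q.1) g : ℤ)) f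

open Classical in
variable {k} in
/-- `(g, δ)` is a prime element for `π`. -/
def IsPE (π : Pr k) (g : KK k) (δ : Dg) : Prop :=
  g ≠ 0 ∧ ∀ π', val π' g δ = if π' = π then 1 else 0

/-- The parameters `u / z^14`, `w / z^14`; both lie in `CC k (14 • ζ)`. -/
def yy : Fin 2 → KK k := ![mon k ((2 : ℤ) • βz), ∑ m, mon k (βn m)]

/-! ### Families and lattices -/

/-- Families of subspaces indexed by degrees. -/
abbrev Fam (V : Type) [AddCommGroup V] [Module k V] := Dg → Submodule k V

section fam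
variable {k} {V V' : Type} [AddCommGroup V] [Module k V] [Module (KK k) V]
  [IsScalarTower k (KK k) V] [AddCommGroup V'] [Module k V'] [Module (KK k) V']
  [IsScalarTower k (KK k) V']

/-- A graded module. -/
def Stable (G : Fam k V) : Prop :=
  ∀ ⦃α β : Dg⦄ ⦃f : KK k⦄ ⦃x : V⦄, f ∈ CC k α → x ∈ G β → f • x ∈ G (α + β)

variable (k) in
/-- The graded module generated by a set of homogeneous elements. -/
def gen (S : Set (V × Dg)) : Fam k V := fun α =>
  Submodule.span k {y | ∃ p ∈ S, ∃ f ∈ CC k (α - p.2), y = f • p.1}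

/-- A finitely generated graded module. -/
def IsLat (G : Fam k V) : Prop := ∃ S : Set (V × Dg), S.Finite ∧ G = gen k S

/-- The generic fibre. -/
def spn (G : Fam k V) : Submodule (KK k) V :=
  Submodule.span (KK k) (⋃ α, (G α : Set V))

/-- The rank. -/
def rk (G : Fam k V) : ℕ := Module.finrank (KK k) (spn G)

/-- Intersection with a subspace. -/
def cut (G : Fam k V) (U : Submodule (KK k) V) : Fam k V := fun α => G α ⊓ U.restrictScalars k

/-- Image under a linear map. -/
def img (ψ : V →ₗ[KK k] V') (G : Fam k V) : Fam k V' := fun α => (G α).map (ψ.restrictScalars k)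

/-- Twist. -/
def shf (G : Fam k V) (δ : Dg) : Fam k V := fun α => G (α + δ)

/-- The Hilbert function: the sum over the `7^5` sectors. -/
def hf (G : Fam k V) (α : Dg) : ℕ :=
  ∑ β : Fin 5 → Fin 7, Module.finrank k (G (α + dv fun j => (β j : ℤ)))

/-- Riemann-Roch data: rank `r`, first Chern class `c`, and `s = 2 ch₂`. -/
def HP (G : Fam k V) (r : ℕ) (c : Ex) (s : ℤ) : Prop :=
  ∀ α : Dg, ∀ᶠ t : ℕ in atTop, 2 * (hf G (α + t • ζ) : ℤ) =
    343 * (r * chi (cl (α + t • ζ)) + ip c ((2 : ℤ) • cl (α + t • ζ) - (5 : ℤ) • Lc)) + s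

/-- The Riemann-Roch data of a lattice (see `rr`). -/
def cs (G : Fam k V) : Ex × ℤ := Classical.epsilon fun p => HP G (rk G) p.1 p.2

/-- First Chern class. -/
def cc (G : Fam k V) : Ex := (cs G).1

/-- Twice the second Chern character. -/
def ss (G : Fam k V) : ℤ := (cs G).2

/-- The degree. -/
def mm (G : Fam k V) : ℤ := ip (cc G) Lc

/-- Slope semistability. -/
def SS (G : Fam k V) : Prop :=
  ∀ U : Submodule (KK k) V, (rk G : ℤ) * mm (cut G U) ≤ (rk (cut G U) : ℤ) * mm G

/-- Equality in large degrees. -/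
def EvEq (G G' : Fam k V) : Prop := ∀ α : Dg, ∀ᶠ t : ℕ in atTop, G (α + t • ζ) = G' (α + t • ζ)

/-- The ideal `(F : x)` for `x` of degree `α`. -/
def colon (F : Fam k V) (x : V) (α : Dg) : Fam k (KK k) := fun β =>
  CC k β ⊓ (F (β + α)).comap ((LinearMap.toSpanSingleton (KK k) V x).restrictScalars k)

/-- Graded prime ideals. -/
structure IsPr (J : Fam k (KK k)) : Prop where
  stable : Stable J
  le : J ≤ CC k
  proper : (1 : KK k) ∉ J 0
  prime : ∀ ⦃α β : Dg⦄ ⦃f g : KK k⦄, f ∈ CC k α → g ∈ CC k β → f * g ∈ J (α + β) →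
    f ∈ J α ∨ g ∈ J β

/-- The ideal `J` is contained in no principal prime. -/
def Pt (J : Fam k (KK k)) : Prop := ∀ π : Pr k, ∃ u β, u ∈ J β ∧ u ≠ 0 ∧ val π u β = 0

/-- The reflexive hull (see `mem_hull`). -/
def hull (G : Fam k V) : Fam k V := fun α => Submodule.span k
  {x | ∀ π : Pr k, ∃ u β, u ∈ CC k β ∧ u ≠ 0 ∧ val π u β = 0 ∧ u • x ∈ G (β + α)}

/-- Frobenius pull-back along a semilinear map `φ`. -/
def pull (φ : V → V) (p : ℕ) (G : Fam k V) : Fam k V :=
  gen k {y | ∃ α x, x ∈ G α ∧ y = (φ x, (p : ℤ) • α)}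

/-- Independence over the subfield of `p`-th powers. -/
def PInd (p : ℕ) {ι : Type} [Fintype ι] (e : ι → KK k) : Prop :=
  ∀ f : ι → KK k, ∑ i, e i * f i ^ p = 0 → ∀ i, f i = 0

variable (k) in
/-- A Frobenius structure on `V`. -/
structure IsFrob (p : ℕ) (φ : V → V) : Prop where
  add : ∀ x y, φ (x + y) = φ x + φ y
  smul : ∀ (f : KK k) x, φ (f • x) = f ^ p • φ x
  ind : ∀ e : Fin p × Fin p → KK k, PInd p e → ∀ x : Fin p × Fin p → V,
    ∑ i, e i • φ (x i) = 0 → ∀ i, x i = 0

end fam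

/-- The standard free lattice. -/
def CCr (ι : Type) : Fam k (ι → KK k) := fun α =>
  Submodule.pi Set.univ fun _ => CC k α

variable {k} in
/-- Coordinatewise `p`-th power. -/
def frob (p : ℕ) {ι : Type} (x : ι → KK k) : ι → KK k := fun i => x i ^ p

variable {k} in
/-- `(g, γ)` is a greatest common divisor of the determinants of elements of `F`. -/
structure IsDet {r : ℕ} (F : Fam k (Fin r → KK k)) (g : KK k) (γ : Dg) : Prop where
  ne : g ≠ 0
  dvd : ∀ (x : Fin r → Fin r → KK k) (α : Fin r → Dg), (∀ i, x i ∈ F (α i)) →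
    (Matrix.of x).det / g ∈ CC k (∑ i, α i - γ)
  att : ∀ π : Pr k, ∃ (x : Fin r → Fin r → KK k) (α : Fin r → Dg), (∀ i, x i ∈ F (α i)) ∧
    (Matrix.of x).det ≠ 0 ∧ val π (Matrix.of x).det (∑ i, α i) = val π g γ

/-! ### Charts -/

/-- An affine chart around the intersection point of the lines `i` and `j`, with coordinates
`mon βa`, `mon βb`; the other eight lines are removed. -/
structure Chart where
  /-- first line -/
  i : Fin 10
  /-- second line -/
  j : Fin 10
  /-- first coordinate -/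
  βa : Ex
  /-- second coordinate -/
  βb : Ex
  /-- the monomial that is inverted -/
  βq : Ex
  /-- generators of the unit group -/
  u : Fin 3 → Ex
  ne : i ≠ j
  ai : dv βa i = 1
  aj : dv βa j = 0
  bi : dv βb i = 0
  bj : dv βb j = 1
  qi : ((2 : ℤ) • ζ + dv βq) i = 0
  qj : ((2 : ℤ) • ζ + dv βq) j = 0
  ql : ∀ l, l ≠ i → l ≠ j → 1 ≤ ((2 : ℤ) • ζ + dv βq) l
  ui : ∀ l, dv (u l) i = 0
  uj : ∀ l, dv (u l) j = 0
  uspan : ∀ β, dv β i = 0 → dv β j = 0 → β ∈ Submodule.span ℤ (Set.range u)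
  upoly : ∀ (k : Type) [Field k] (l : Fin 3), mon k (u l) ∈ Subring.closure {mon k βa, mon k βb}

namespace Chart
variable (c : Chart)

/-- The degree of the inverted monomial. -/
def q : Dg := (2 : ℤ) • ζ + dv c.βq

/-- The `p`-basis of the chart. -/
def e (p : ℕ) (st : Fin p × Fin p) : KK k :=
  mon k c.βa ^ (st.1 : ℕ) * mon k c.βb ^ (st.2 : ℕ)

/-- The degree of the component `st` in the Frobenius decomposition of degree `α`. -/
def dn (p : ℕ) (α : Dg) (st : Fin p × Fin p) : Dg :=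
  Pi.single c.i ((α c.i + 7 * (st.1 : ℕ)) / p) + Pi.single c.j ((α c.j + 7 * (st.2 : ℕ)) / p)

variable {k} in
/-- Localisation at the chart. -/
def loc {V : Type} [AddCommGroup V] [Module k V] (G : Fam k V) : Fam k V := fun α =>
  ⨆ s : ℕ, G (α + s • c.q)

end Chart

/-! ### Filtered modules over `k[Y₀, Y₁]` -/

section fil
variable {k} {V : Type} [AddCommGroup V] [Module k V]

/-- A good filtration whose Rees module has depth at least two. -/
structure FilMod (Y : Fin 2 → Module.End k V) (M : ℤ → Submodule k V) : Prop where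
  comm : ∀ x, Y 0 (Y 1 x) = Y 1 (Y 0 x)
  mono : Monotone M
  map : ∀ i t x, x ∈ M t → Y i x ∈ M (t + 1)
  fin : ∀ t, FiniteDimensional k (M t)
  bot : ∃ t0, M t0 = ⊥
  gen : ∃ t1, ∀ t, t1 ≤ t → M (t + 1) ≤ M t ⊔ (M t).map (Y 0) ⊔ (M t).map (Y 1)
  dep : ∀ t x, x ∈ M t → Y 0 x ∈ M t → x ∈ M (t - 1)

/-- Homomorphisms of degree `j` to the polynomial ring. -/
def HH (Y : Fin 2 → Module.End k V) (M : ℤ → Submodule k V) (j : ℤ) :
    Submodule k (↥(⨆ t, M t) →ₗ[k] PP k) where
  carrier := {φ | (∀ i (x y : ↥(⨆ t, M t)), (y : V) = Y i x → φ y = X i * φ x) ∧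
    ∀ t (x : ↥(⨆ t, M t)), (x : V) ∈ M t → φ x ∈ Bd k (t + j)}
  zero_mem' := ⟨fun _ _ _ _ => by simp, fun _ _ _ => by simp⟩
  add_mem' := fun {φ ψ} h h' => ⟨fun i x y e => by
    simp only [LinearMap.add_apply, h.1 i x y e, h'.1 i x y e, mul_add],
    fun t x hx => Submodule.add_mem _ (h.2 t x hx) (h'.2 t x hx)⟩
  smul_mem' := fun c φ h => ⟨fun i x y e => by
    simp only [LinearMap.smul_apply, h.1 i x y e, mul_smul_comm],
    fun t x hx => Submodule.smul_mem _ c (h.2 t x hx)⟩

end fil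

variable {k} in
/-- Multiplication by the parameters. -/
def YY {V : Type} [AddCommGroup V] [Module k V] [Module (KK k) V]
    [IsScalarTower k (KK k) V] (i : Fin 2) : Module.End k V :=
  (LinearMap.lsmul (KK k) V (yy k i)).restrictScalars k

variable {k} in
/-- The filtered module of one sector. -/
def sect {V : Type} [AddCommGroup V] [Module k V] (G : Fam k V) (α : Dg) : ℤ → Submodule k V :=
  fun t => G (α + (14 * t) • ζ)

/-! ### Filtrations of a module by orders of vanishing -/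

/-- Multiplication by `τ ^ t` on coefficient sequences. -/
def up {V : Type} [Zero V] (t : ℕ) (a : ℕ → V) : ℕ → V := fun n => if t ≤ n then a (n - t) else 0

section datum
variable {k} {M V : Type} [AddCommGroup M] [Module k M] [AddCommGroup V] [Module k V]
  [Module (KK k) V] [IsScalarTower k (KK k) V]

/-- Elements of order at least `t`. -/
def ordGe (ι : M →ₗ[k] (ℕ → V)) (t : ℕ) : Submodule k M :=
  ⨅ n ∈ Finset.range t, LinearMap.ker ((LinearMap.proj n : (ℕ → V) →ₗ[k] V) ∘ₗ ι)

/-- Leading coefficients of order `t`. -/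
def lead (ι : M →ₗ[k] (ℕ → V)) (t : ℕ) : Submodule k V :=
  (ordGe ι t).map ((LinearMap.proj t : (ℕ → V) →ₗ[k] V) ∘ₗ ι)

variable (V) in
/-- Expansions of the elements of `M` in power series, one for each sector `β`. -/
structure Datum (Z U W : Module.End k M) where
  /-- the expansion -/
  ι : Ex → M →ₗ[k] (ℕ → V)
  inj : ∀ β, Function.Injective (ι β)
  act : ∀ (β' : Ex) (t' : ℕ) (f : KK k), f ∈ CC k (dv β' + t' • ζ) → ∀ x, ∃ y, ∀ β,
    ι (β + β') y = up t' (f • ι β x)
  hZ : ∀ β x, ι β (Z x) = up 1 (ι β x)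
  hU : ∀ β x, ι β (U x) = up 14 (yy k 0 • ι β x)
  hW : ∀ β x, ι β (W x) = up 14 (yy k 1 • ι β x)
  bd : ∃ H : Fam k V, IsLat H ∧ ∀ β x t, ι β x t ∈ H (dv β + t • ζ)
  top : ∀ β t, ∃ T, ordGe (ι β) T ≤
    LinearMap.range Z ⊔ (ordGe (ι β) t).map U ⊔ (ordGe (ι β) t).map W

/-- The lattice of leading coefficients. -/
def Datum.lat {Z U W : Module.End k M} (D : Datum V Z U W) : Fam k V :=
  gen k {y | ∃ β t, y.1 ∈ lead (D.ι β) t ∧ y.2 = dv β + t • ζ}

/-- `U, W` is a regular sequence on `M / Z M` with finite-dimensional quotient. -/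
structure Reg (Z U W : Module.End k M) : Prop where
  hU : ∀ x, U x ∈ LinearMap.range Z → x ∈ LinearMap.range Z
  hW : ∀ x, W x ∈ LinearMap.range Z ⊔ LinearMap.range U →
    x ∈ LinearMap.range Z ⊔ LinearMap.range U
  fin : FiniteDimensional k (M ⧸ (LinearMap.range Z ⊔ LinearMap.range U ⊔ LinearMap.range W))

end datum

/-! ### The rings -/

/-- The data of a section ring: `V t` is the space of sections of `t L` as functions. -/
structure Fil (F : Type) [Field F] [Algebra k F] where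
  /-- the filtration -/
  V : ℕ → Submodule k F
  /-- the parameters of degree `14` -/
  y : Fin 2 → F
  mul : ∀ {s t x x'}, x ∈ V s → x' ∈ V t → x * x' ∈ V (s + t)
  zero : V 0 = Submodule.span k {1}
  one : (1 : F) ∈ V 1
  hy : ∀ i, y i ∈ V 14
  fin : ∀ t, FiniteDimensional k (V t)
  gen : ∃ t0, ∀ t, t0 ≤ t → V (t + 14) ≤ V (t + 13) ⊔ y 0 • V t ⊔ y 1 • V t
  ind : AlgebraicIndependent k y
  norm : ∀ (x d : F) (c t : ℕ), d ≠ 0 → (∀ n : ℕ, d * x ^ n ∈ V (c + n * t)) → x ∈ V t

namespace Fil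
variable {k} {F : Type} [Field F] [Algebra k F] (𝔉 : Fil k F)

theorem one_mem_zero : (1 : F) ∈ 𝔉.V 0 := by rw [𝔉.zero]; exact Submodule.mem_span_singleton_self _

theorem algebraMap_mem (c : k) : algebraMap k F c ∈ 𝔉.V 0 := by
  rw [Algebra.algebraMap_eq_smul_one]; exact Submodule.smul_mem _ _ 𝔉.one_mem_zero

/-- The complete ring `∏ V t τ^t`. -/
def Rh : Subalgebra k (PowerSeries F) where
  carrier := {f | ∀ t, PowerSeries.coeff t f ∈ 𝔉.V t}
  add_mem' h h' t := by rw [map_add]; exact Submodule.add_mem _ (h t) (h' t)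
  mul_mem' h h' t := by
    rw [PowerSeries.coeff_mul]
    refine Submodule.sum_mem _ fun p hp => ?_
    rw [← show p.1 + p.2 = t by simpa using hp]
    exact 𝔉.mul (h _) (h' _)
  algebraMap_mem' c t := by
    rw [PowerSeries.algebraMap_apply, PowerSeries.coeff_C]
    split_ifs with h
    · subst h; exact 𝔉.algebraMap_mem c
    · exact Submodule.zero_mem _

/-- The graded ring `⊕ V t τ^t`. -/
def Rp : Subalgebra k (Polynomial F) where
  carrier := {f | ∀ t, f.coeff t ∈ 𝔉.V t}
  add_mem' h h' t := by rw [Polynomial.coeff_add]; exact Submodule.add_mem _ (h t) (h' t)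
  mul_mem' h h' t := by
    rw [Polynomial.coeff_mul]
    refine Submodule.sum_mem _ fun p hp => ?_
    rw [← show p.1 + p.2 = t by simpa using hp]
    exact 𝔉.mul (h _) (h' _)
  algebraMap_mem' c t := by
    rw [Polynomial.algebraMap_apply, Polynomial.coeff_C]
    split_ifs with h
    · subst h; exact 𝔉.algebraMap_mem c
    · exact Submodule.zero_mem _

/-- The grading of `Rp`. -/
def gr (t : ℕ) : Submodule k 𝔉.Rp where
  carrier := {f | ∀ n, n ≠ t → (f : Polynomial F).coeff n = 0}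
  zero_mem' n _ := by simp
  add_mem' h h' n hn := by simp [h n hn, h' n hn]
  smul_mem' c f h n hn := by simp [h n hn]

/-- A local ring between `Rp` and `Rh`. -/
structure Mid (S : Type) [CommRing S] [IsLocalRing S] [Algebra k S] where
  /-- the expansion -/
  j : S →ₐ[k] PowerSeries F
  /-- first parameter -/
  z : S
  /-- second parameter -/
  u : S
  /-- third parameter -/
  w : S
  inj : Function.Injective j
  mem : ∀ s, j s ∈ 𝔉.Rh
  sur : ∀ t x, x ∈ 𝔉.V t → ∃ s, j s = PowerSeries.monomial t x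
  max : ∀ s, s ∈ IsLocalRing.maximalIdeal S ↔ PowerSeries.constantCoeff (j s) = 0
  hz : j z = PowerSeries.monomial 1 1
  hu : j u = PowerSeries.monomial 14 (𝔉.y 0)
  hw : j w = PowerSeries.monomial 14 (𝔉.y 1)
  pow : ∀ N : ℕ, ∃ T : ℕ, ∀ s, (∀ n < T, PowerSeries.coeff n (j s) = 0) →
    s ∈ IsLocalRing.maximalIdeal S ^ N
  prim : ∃ T : ℕ, ∀ s, (∀ n < T, PowerSeries.coeff n (j s) = 0) → s ∈ Ideal.span {z, u, w}

end Fil

/-! ### The Kummer extension -/

/-- A seventh root of a line. -/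
def uu (j : Fin 5) : AlgebraicClosure (KK ℂ) :=
  Classical.choose (IsAlgClosed.exists_pow_nat_eq
    (algebraMap (KK ℂ) (AlgebraicClosure (KK ℂ)) (algebraMap (PP ℂ) (KK ℂ) (lin ℂ j)))
    (by norm_num : 0 < 7))

/-- The function field of the Kummer cover. -/
abbrev K1 : Type :=
  ↥(IntermediateField.adjoin (KK ℂ) (Set.range uu))

/-- Monomials in the roots. -/
def UU (β : Ex) : K1 :=
  ∏ j, (⟨uu j, IntermediateField.subset_adjoin _ _ ⟨j, rfl⟩⟩ : K1) ^ β j

/-- The structure sheaf of the Kummer cover. -/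
def H1 : Fam ℂ K1 := gen ℂ (Set.range fun β => (UU β, -dv β))

end Crest.Agent.R169
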