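/-
R169/Num: numerical facts about degrees and classes.  Author: helper14.
-/
import Crest.Agent.R169.Defs

set_option autoImplicit false
set_option linter.unusedSectionVars false
set_option linter.unusedVariables false
set_option linter.unusedSimpArgs false

noncomputable section

namespace Crest.Agent.R169

open MvPolynomial Filter
open scoped Pointwise


/-! Never use `simp [dv]` or `simp [cl]` (slow); use these `rfl` lemmas or `decide`. -/

theorem dv_0 (β : Ex) : dv β 0 = β 0 := rfl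
theorem dv_1 (β : Ex) : dv β 1 = β 1 := rfl
theorem dv_2 (β : Ex) : dv β 2 = β 2 := rfl
theorem dv_3 (β : Ex) : dv β 3 = β 3 := rfl
theorem dv_4 (β : Ex) : dv β 4 = β 4 := rfl
theorem dv_5 (β : Ex) : dv β 5 = β 0 + β 1 + β 4 := rfl
theorem dv_6 (β : Ex) : dv β 6 = β 2 + β 3 + β 4 := rfl
theorem dv_7 (β : Ex) : dv β 7 = -(β 0 + β 2 + β 4) := rfl
theorem dv_8 (β : Ex) : dv β 8 = -(β 1 + β 3 + β 4) := rfl
theorem dv_9 (β : Ex) : dv β 9 = -(β 0 + β 1 + β 2 + β 3 + β 4) := rfl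
theorem cl_0 (α : Dg) : cl α 0 = α 0 + α 1 + α 2 + α 3 + α 4 + α 9 := rfl
theorem cl_1 (α : Dg) : cl α 1 = α 5 - α 0 - α 1 - α 4 := rfl
theorem cl_2 (α : Dg) : cl α 2 = α 6 - α 2 - α 3 - α 4 := rfl
theorem cl_3 (α : Dg) : cl α 3 = α 7 - α 1 - α 3 - α 9 := rfl
theorem cl_4 (α : Dg) : cl α 4 = α 8 - α 0 - α 2 - α 9 := rfl

theorem dg_forall {P : Fin 10 → Prop} :
    (∀ i, P i) ↔ P 0 ∧ P 1 ∧ P 2 ∧ P 3 ∧ P 4 ∧ P 5 ∧ P 6 ∧ P 7 ∧ P 8 ∧ P 9 :=
  ⟨fun h => ⟨h _, h _, h _, h _, h _, h _, h _, h _, h _, h _⟩,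
    fun ⟨h0, h1, h2, h3, h4, h5, h6, h7, h8, h9⟩ i => by fin_cases i <;> assumption⟩

theorem ex_forall {P : Fin 5 → Prop} : (∀ i, P i) ↔ P 0 ∧ P 1 ∧ P 2 ∧ P 3 ∧ P 4 :=
  ⟨fun h => ⟨h _, h _, h _, h _, h _⟩, fun ⟨h0, h1, h2, h3, h4⟩ i => by fin_cases i <;> assumption⟩

theorem deg_eq (α : Dg) :
    deg α = α 0 + α 1 + α 2 + α 3 + α 4 + α 5 + α 6 + α 7 + α 8 + α 9 := by
  simp [deg, Fin.sum_univ_succ]; ring

theorem cl_dv (β : Ex) : cl (dv β) = 0 := by
  refine funext (ex_forall.mpr ?_)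
  simp only [cl_0, cl_1, cl_2, cl_3, cl_4,
    dv_0, dv_1, dv_2, dv_3, dv_4, dv_5, dv_6, dv_7, dv_8, dv_9, Pi.zero_apply]
  omega

theorem cl_ζ : cl ζ = Lc := by decide

theorem cl_sec (D : Ex) : cl (sec D) = D := by
  refine funext (ex_forall.mpr ?_)
  simp [cl_0, cl_1, cl_2, cl_3, cl_4, sec]

theorem dv_castLE (β : Ex) (j : Fin 5) : dv β (Fin.castLE (by norm_num) j) = β j := by
  fin_cases j <;> rfl

theorem dv_injective : Function.Injective dv := fun β β' h => funext fun j => by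
  rw [← dv_castLE β, h, dv_castLE]

theorem eq_dv_of_cl {α : Dg} (h : cl α = 0) : α = dv fun j => α (Fin.castLE (by norm_num) j) := by
  have h0 := congrFun h 0
  have h1 := congrFun h 1
  have h2 := congrFun h 2
  have h3 := congrFun h 3
  have h4 := congrFun h 4
  simp only [cl_0, cl_1, cl_2, cl_3, cl_4, Pi.zero_apply] at h0 h1 h2 h3 h4
  refine funext (dg_forall.mpr ?_)
  simp only [dv_0, dv_1, dv_2, dv_3, dv_4, dv_5, dv_6, dv_7, dv_8, dv_9]
  simp
  omega

theorem ip_comm (x y : Ex) : ip x y = ip y x := by simp [ip]; ring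
theorem ip_add_left (x y z : Ex) : ip (x + y) z = ip x z + ip y z := by simp [ip]; ring
theorem ip_add_right (x y z : Ex) : ip x (y + z) = ip x y + ip x z := by simp [ip]; ring
theorem ip_sub_left (x y z : Ex) : ip (x - y) z = ip x z - ip y z := by simp [ip]; ring
theorem ip_sub_right (x y z : Ex) : ip x (y - z) = ip x y - ip x z := by simp [ip]; ring
theorem ip_smul_left (c : ℤ) (x z : Ex) : ip (c • x) z = c * ip x z := by simp [ip]; ring
theorem ip_smul_right (c : ℤ) (x z : Ex) : ip x (c • z) = c * ip x z := by simp [ip]; ring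
theorem ip_nsmul_left (c : ℕ) (x z : Ex) : ip (c • x) z = c * ip x z := by simp [ip]; ring
theorem ip_nsmul_right (c : ℕ) (x z : Ex) : ip x (c • z) = c * ip x z := by simp [ip]; ring
theorem ip_neg_left (x z : Ex) : ip (-x) z = -ip x z := by simp [ip]; ring
theorem ip_neg_right (x z : Ex) : ip x (-z) = -ip x z := by simp [ip]; ring
@[simp] theorem ip_zero_left (z : Ex) : ip 0 z = 0 := by simp [ip]
@[simp] theorem ip_zero_right (z : Ex) : ip z 0 = 0 := by simp [ip]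
@[simp] theorem ip_Lc_Lc : ip Lc Lc = 5 := by simp [ip, Lc]

theorem ip_cl_Lc (α : Dg) : ip (cl α) Lc = deg α := by
  simp [ip, cl_0, cl_1, cl_2, cl_3, cl_4, Lc, deg_eq]; ring

theorem ip_ext {c c' : Ex} (h : ∀ D, ip c D = ip c' D) : c = c' := by
  ext i
  have := h (Pi.single i 1)
  fin_cases i <;> simpa [ip] using this

/-- Hodge index theorem. -/
theorem hodge (c : Ex) : 5 * ip c c ≤ ip c Lc ^ 2 := by
  simp only [ip, Lc]
  simp
  nlinarith [sq_nonneg (c 1 - c 2), sq_nonneg (c 1 - c 3), sq_nonneg (c 1 - c 4),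
    sq_nonneg (c 2 - c 3), sq_nonneg (c 2 - c 4), sq_nonneg (c 3 - c 4),
    sq_nonneg (4 * c 0 + 3 * (c 1 + c 2 + c 3 + c 4))]

@[simp] theorem deg_zero : deg 0 = 0 := by simp [deg]
theorem deg_add (α β : Dg) : deg (α + β) = deg α + deg β := by simp [deg, Finset.sum_add_distrib]
theorem deg_sub (α β : Dg) : deg (α - β) = deg α - deg β := by simp [deg, Finset.sum_sub_distrib]
theorem deg_neg (α : Dg) : deg (-α) = -deg α := by simp [deg]
theorem deg_smul (c : ℤ) (α : Dg) : deg (c • α) = c * deg α := by simp [deg, Finset.mul_sum]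
theorem deg_nsmul (c : ℕ) (α : Dg) : deg (c • α) = c * deg α := by simp [deg, Finset.mul_sum]
@[simp] theorem deg_dv (β : Ex) : deg (dv β) = 0 := by rw [← ip_cl_Lc, cl_dv, ip_zero_left]
@[simp] theorem deg_ζ : deg ζ = 5 := by rw [← ip_cl_Lc, cl_ζ, ip_Lc_Lc]
@[simp] theorem deg_one : deg 1 = 10 := by simp [deg]
theorem deg_nonneg {α : Dg} (h : 0 ≤ α) : 0 ≤ deg α := Finset.sum_nonneg fun i _ => h i
theorem ζ_nonneg : (0 : Dg) ≤ ζ := fun i => by revert i; decide
theorem ζ_add_dv_βz : ζ + dv βz = 1 - ζ := by decide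
theorem cl_one : cl 1 = (2 : ℤ) • Lc := by decide

/-- `chi` along the ray. -/
theorem chi_ray (α : Dg) (t : ℤ) :
    chi (cl (α + t • ζ)) = chi (cl α) + 5 * t ^ 2 + (2 * deg α - 25) * t := by
  rw [map_add, map_zsmul, cl_ζ]
  simp only [chi, ip_add_left, ip_add_right, ip_smul_left, ip_smul_right, ip_Lc_Lc,
    ip_comm Lc (cl α), ip_cl_Lc]
  ring

/-- The right hand side of `HP` as a polynomial in `t`. -/
theorem hp_rhs (α : Dg) (t : ℕ) (r : ℤ) (c : Ex) (s : ℤ) :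
    343 * (r * chi (cl (α + t • ζ)) + ip c ((2 : ℤ) • cl (α + t • ζ) - (5 : ℤ) • Lc)) + s =
      1715 * r * (t : ℤ) ^ 2 + 343 * (r * (2 * deg α - 25) + 2 * ip c Lc) * t +
        (343 * (r * chi (cl α) + ip c ((2 : ℤ) • cl α - (5 : ℤ) • Lc)) + s) := by
  rw [← natCast_zsmul, chi_ray, map_add, map_zsmul, cl_ζ]
  simp only [ip_sub_right, ip_smul_right, ip_add_right]
  ring

theorem Chart.q_nonneg (c : Chart) : 0 ≤ c.q := fun l => by
  by_cases h1 : l = c.i
  · subst h1; exact c.qi.ge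
  · by_cases h2 : l = c.j
    · subst h2; exact c.qj.ge
    · exact zero_le_one.trans (c.ql l h1 h2)

/-- Two eventually equal quadratic polynomials are equal. -/
theorem quad_unique {A B C A' B' C' : ℤ}
    (h : ∀ᶠ t : ℕ in atTop, A * (t : ℤ) ^ 2 + B * t + C = A' * (t : ℤ) ^ 2 + B' * t + C') :
    A = A' ∧ B = B' ∧ C = C' := by
  obtain ⟨t, ht⟩ := eventually_atTop.mp h
  have h0 := ht t le_rfl
  have h1 := ht (t + 1) (by omega)
  have h2 := ht (t + 2) (by omega)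
  push_cast at h1 h2
  have hA : A = A' := by linarith
  subst hA
  have hB : B = B' := by linarith
  subst hB
  exact ⟨rfl, rfl, by linarith⟩

theorem lin_le_of_ev {B C B' C' : ℤ} (h : ∀ᶠ t : ℕ in atTop, B * (t : ℤ) + C ≤ B' * t + C') :
    B ≤ B' := by
  by_contra hc
  obtain ⟨t, ht⟩ := eventually_atTop.mp h
  have := ht (t + (C' - C).natAbs + 1) (by omega)
  push_cast at this
  have h1 := le_abs_self (C' - C)
  have h2 : (0 : ℤ) ≤ t := Int.natCast_nonneg t
  have h3 : 1 ≤ B - B' := by omega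
  nlinarith [abs_nonneg (C' - C)]

theorem quad_le_of_ev {A B C A' B' C' : ℤ}
    (h : ∀ᶠ t : ℕ in atTop, A * (t : ℤ) ^ 2 + B * t + C ≤ A' * (t : ℤ) ^ 2 + B' * t + C') :
    A ≤ A' := by
  by_contra hc
  obtain ⟨t, ht⟩ := eventually_atTop.mp h
  have := ht (t + (B' - B).natAbs + (C' - C).natAbs + 1) (by omega)
  generalize hT : ((t + (B' - B).natAbs + (C' - C).natAbs + 1 : ℕ) : ℤ) = T at this
  push_cast at hT
  have h1 := le_abs_self (C' - C)
  have h1' := le_abs_self (B' - B)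
  have h2 : (0 : ℤ) ≤ t := Int.natCast_nonneg t
  have h3 : 1 ≤ A - A' := by omega
  have h4 := abs_nonneg (C' - C)
  have h5 := abs_nonneg (B' - B)
  have h6 : 1 ≤ T := by omega
  have h7 : T ^ 2 ≤ (A - A') * T ^ 2 := by nlinarith
  have h8 : (B' - B) * T ≤ |B' - B| * T := by nlinarith
  have h9 : (|B' - B| + |C' - C| + 1) * T ≤ T ^ 2 := by nlinarith
  nlinarith

end Crest.Agent.R169
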