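/-
R169/ValA: the valuations `val π` (part 1 of 3)
-/
import Crest.Agent.R169.Num

set_option autoImplicit false
set_option linter.unusedSectionVars false
set_option linter.unusedVariables false
set_option linter.unusedSimpArgs false

noncomputable section

namespace Crest.Agent.R169

open MvPolynomial Filter
open scoped Pointwise


variable {k : Type} [Field k]

/-! ### Polynomials -/

theorem lin_ne_zero (j : Fin 5) : lin k j ≠ 0 := by
  intro h
  have h1 := congrArg (eval ![1, 1]) h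
  have h2 := congrArg (eval ![0, 0]) h
  have h3 := congrArg (eval ![1, 0]) h
  fin_cases j <;> simp [lin] at h1 h2 h3

theorem ValA_prime (f g : Fin 2 → PP k) (h1 : ∀ i, aeval f (g i) = X i)
    (h2 : ∀ i, aeval g (f i) = X i) (i : Fin 2) : Prime (f i) := by
  let e : PP k ≃ₐ[k] PP k := AlgEquiv.ofAlgHom (aeval f) (aeval g)
    (algHom_ext fun i => by simpa using h1 i) (algHom_ext fun i => by simpa using h2 i)
  have := (MulEquiv.prime_iff e.toMulEquiv (p := X i)).mpr X_prime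
  simpa [e] using this

/-- Recipe: each line has total degree one (`irreducible_of_totalDegree_eq_one`, or transport
`X` along an automorphism). -/
theorem prime_lin (j : Fin 5) : Prime (lin k j) := by
  fin_cases j
  · exact X_prime
  · exact X_prime
  · exact ValA_prime (fun i => X i - 1) (fun i => X i + 1) (by simp) (by simp) 0
  · exact ValA_prime (fun i => X i - 1) (fun i => X i + 1) (by simp) (by simp) 1
  · exact ValA_prime (k := k) ![X 0 - X 1, X 1] ![X 0 + X 1, X 1] (by simp [Fin.forall_fin_two])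
      (by simp [Fin.forall_fin_two]) 0

theorem lin_dvd_lin {i j : Fin 5} (h : lin k i ∣ lin k j) : i = j := by
  have key : ∀ p : Fin 2 → k, eval p (lin k i) = 0 → eval p (lin k j) = 0 := fun p hp => by
    obtain ⟨c, hc⟩ := h
    rw [hc, map_mul, hp, zero_mul]
  have h1 := key ![0, 0]
  have h2 := key ![0, 1]
  have h3 := key ![1, 0]
  have h4 := key ![1, 1]
  fin_cases i <;> fin_cases j <;> first | rfl | (exfalso; simp [lin] at h1 h2 h3 h4)

theorem mem_Wo_iff {w0 w1 c : ℤ} {g : PP k} (hg : g ≠ 0) : g ∈ Wo k w0 w1 c ↔ c ≤ wo w0 w1 g := by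
  rw [wo, dif_pos (support_nonempty.mpr hg), Finset.le_inf'_iff]
  exact Iff.rfl

theorem ValA_mem_Wo {A : Type} [CommRing A] {w0 w1 c : ℤ} {g : MvPolynomial (Fin 2) A} :
    g ∈ Wo A w0 w1 c ↔ ∀ m ∈ g.support, c ≤ w0 * m 0 + w1 * m 1 := Iff.rfl

theorem ValA_wo_le {w0 w1 : ℤ} {g : PP k} {m : Fin 2 →₀ ℕ} (hm : m ∈ g.support) :
    wo w0 w1 g ≤ w0 * m 0 + w1 * m 1 := by
  rw [wo, dif_pos ⟨m, hm⟩]
  exact Finset.inf'_le (fun m : Fin 2 →₀ ℕ => w0 * m 0 + w1 * m 1) hm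

theorem ValA_wo_eq {w0 w1 : ℤ} {g : PP k} (m : Fin 2 →₀ ℕ) (hm : coeff m g ≠ 0)
    (h : g ∈ Wo k w0 w1 (w0 * m 0 + w1 * m 1)) : wo w0 w1 g = w0 * m 0 + w1 * m 1 :=
  le_antisymm (ValA_wo_le (mem_support_iff.mpr hm))
    ((mem_Wo_iff (ne_zero_iff.mpr ⟨m, hm⟩)).mp h)

theorem ValA_mul_mem_Wo {A : Type} [CommRing A] {w0 w1 c c' : ℤ} {g g' : MvPolynomial (Fin 2) A}
    (h : g ∈ Wo A w0 w1 c) (h' : g' ∈ Wo A w0 w1 c') : g * g' ∈ Wo A w0 w1 (c + c') := by
  classical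
  refine ValA_mem_Wo.mpr fun m hm => ?_
  obtain ⟨a, ha, b, hb, rfl⟩ := Finset.mem_add.mp (support_mul _ _ hm)
  have h1 := ValA_mem_Wo.mp h a ha
  have h2 := ValA_mem_Wo.mp h' b hb
  simp only [Finsupp.add_apply, Nat.cast_add]
  linarith

theorem ValA_exists_min (w0 w1 : ℤ) {g : PP k} (hg : g ≠ 0) : ∃ m ∈ g.support, ∀ a ∈ g.support,
    w0 * m 0 + w1 * m 1 < w0 * a 0 + w1 * a 1 ∨ w0 * m 0 + w1 * m 1 = w0 * a 0 + w1 * a 1 ∧
      (m 0 < a 0 ∨ m 0 = a 0 ∧ m 1 ≤ a 1) := by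
  obtain ⟨m, hm, h⟩ := g.support.exists_min_image (fun m : Fin 2 →₀ ℕ =>
    (toLex (w0 * m 0 + w1 * m 1, toLex (m 0, m 1)) : ℤ ×ₗ ℕ ×ₗ ℕ)) (support_nonempty.mpr hg)
  exact ⟨m, hm, fun a ha => by simpa only [Prod.Lex.toLex_le_toLex] using h a ha⟩

/-- Recipe: the product of the lowest weighted homogeneous components is not zero
(`weightedHomogeneousComponent`, or a ring homomorphism to `HahnSeries ℤ (PP k)` and
`HahnSeries.order_mul`). -/
theorem wo_mul (w0 w1 : ℤ) {g g' : PP k} (hg : g ≠ 0) (hg' : g' ≠ 0) :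
    wo w0 w1 (g * g') = wo w0 w1 g + wo w0 w1 g' := by
  classical
  obtain ⟨m, hm, h⟩ := ValA_exists_min w0 w1 hg
  obtain ⟨m', hm', h'⟩ := ValA_exists_min w0 w1 hg'
  have e1 : wo w0 w1 g = w0 * m 0 + w1 * m 1 := ValA_wo_eq m (mem_support_iff.mp hm)
    (ValA_mem_Wo.mpr fun a ha => (h a ha).elim le_of_lt fun h => h.1.le)
  have e2 : wo w0 w1 g' = w0 * m' 0 + w1 * m' 1 := ValA_wo_eq m' (mem_support_iff.mp hm')
    (ValA_mem_Wo.mpr fun a ha => (h' a ha).elim le_of_lt fun h => h.1.le)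
  have hc : coeff (m + m') (g * g') = coeff m g * coeff m' g' := by
    rw [coeff_mul]
    refine Finset.sum_eq_single_of_mem (m, m') (by simp) fun p hp hne => ?_
    by_contra hcon
    have ha := h p.1 (mem_support_iff.mpr (left_ne_zero_of_mul hcon))
    have hb := h' p.2 (mem_support_iff.mpr (right_ne_zero_of_mul hcon))
    have hp' : p.1 + p.2 = m + m' := by simpa using hp
    have e0 : p.1 0 + p.2 0 = m 0 + m' 0 := by simpa using DFunLike.congr_fun hp' 0
    have e1 : p.1 1 + p.2 1 = m 1 + m' 1 := by simpa using DFunLike.congr_fun hp' 1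
    have e0' : (p.1 0 : ℤ) + p.2 0 = m 0 + m' 0 := by exact_mod_cast e0
    have e1' : (p.1 1 : ℤ) + p.2 1 = m 1 + m' 1 := by exact_mod_cast e1
    have e : w0 * p.1 0 + w1 * p.1 1 + (w0 * p.2 0 + w1 * p.2 1) =
        w0 * m 0 + w1 * m 1 + (w0 * m' 0 + w1 * m' 1) := by
      linear_combination w0 * e0' + w1 * e1'
    refine hne (Prod.ext ?_ ?_) <;> ext i <;> fin_cases i <;> simp only [Fin.zero_eta, Fin.mk_one] <;>
      omega
  refine le_antisymm ?_ ((mem_Wo_iff (mul_ne_zero hg hg')).mp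
    (ValA_mul_mem_Wo ((mem_Wo_iff hg).mpr le_rfl) ((mem_Wo_iff hg').mpr le_rfl)))
  have := ValA_wo_le (w0 := w0) (w1 := w1) (mem_support_iff.mpr
    (hc ▸ mul_ne_zero (mem_support_iff.mp hm) (mem_support_iff.mp hm')))
  simp only [Finsupp.add_apply, Nat.cast_add] at this
  linarith

theorem tr1_injective (A : Type) [CommRing A] : Function.Injective (tr1 A) := by
  refine Function.LeftInverse.injective (g := aeval fun i => (X i - 1 : MvPolynomial (Fin 2) A))
    fun g => ?_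
  have : (aeval fun i => (X i - 1 : MvPolynomial (Fin 2) A)).comp (tr1 A) = AlgHom.id A _ :=
    algHom_ext fun i => by simp [tr1]
  exact DFunLike.congr_fun this g

theorem ValA_mult_mul {p g g' : PP k} (hp : Prime p) (hg : g ≠ 0) (hg' : g' ≠ 0) :
    (multiplicity p (g * g') : ℤ) = multiplicity p g + multiplicity p g' := by
  rw [multiplicity_mul hp (FiniteMultiplicity.of_prime_left hp (mul_ne_zero hg hg'))]
  push_cast; rfl

theorem ValA_tr1_ne {g : PP k} (hg : g ≠ 0) : tr1 k g ≠ 0 :=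
  (map_ne_zero_iff _ (tr1_injective k)).mpr hg

theorem ValA_pv0 (g : PP k) : pv 0 g = multiplicity (lin k 0) g := rfl
theorem ValA_pv1 (g : PP k) : pv 1 g = multiplicity (lin k 1) g := rfl
theorem ValA_pv2 (g : PP k) : pv 2 g = multiplicity (lin k 2) g := rfl
theorem ValA_pv3 (g : PP k) : pv 3 g = multiplicity (lin k 3) g := rfl
theorem ValA_pv4 (g : PP k) : pv 4 g = multiplicity (lin k 4) g := rfl
theorem ValA_pv5 (g : PP k) : pv 5 g = wo 1 1 g := rfl
theorem ValA_pv6 (g : PP k) : pv 6 g = wo 1 1 (tr1 k g) := rfl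
theorem ValA_pv7 (g : PP k) : pv 7 g = wo (-1) 0 g := rfl
theorem ValA_pv8 (g : PP k) : pv 8 g = wo 0 (-1) g := rfl
theorem ValA_pv9 (g : PP k) : pv 9 g = wo (-1) (-1) g := rfl

theorem ValA_pv_castLE (j : Fin 5) (g : PP k) :
    pv (Fin.castLE (by norm_num) j) g = multiplicity (lin k j) g := by
  fin_cases j <;> rfl

theorem pv_mul (i : Fin 10) {g g' : PP k} (hg : g ≠ 0) (hg' : g' ≠ 0) :
    pv i (g * g') = pv i g + pv i g' := by
  revert i
  refine dg_forall.mpr ⟨ValA_mult_mul (prime_lin 0) hg hg', ValA_mult_mul (prime_lin 1) hg hg',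
    ValA_mult_mul (prime_lin 2) hg hg', ValA_mult_mul (prime_lin 3) hg hg',
    ValA_mult_mul (prime_lin 4) hg hg', wo_mul _ _ hg hg', ?_, wo_mul _ _ hg hg',
    wo_mul _ _ hg hg', wo_mul _ _ hg hg'⟩
  rw [ValA_pv6, ValA_pv6, ValA_pv6, map_mul, wo_mul _ _ (ValA_tr1_ne hg) (ValA_tr1_ne hg')]

theorem ValA_mult_lin (i j : Fin 5) :
    (multiplicity (lin k i) (lin k j) : ℤ) = (Pi.single j 1 : Ex) i := by
  by_cases h : i = j
  · subst h; simp
  · rw [multiplicity_eq_zero.mpr fun hd => h (lin_dvd_lin hd), Pi.single_eq_of_ne h]; rfl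

theorem ValA_wo_mon (w0 w1 : ℤ) (m : Fin 2 →₀ ℕ) {a : k} (ha : a ≠ 0) :
    wo w0 w1 (monomial m a) = w0 * m 0 + w1 * m 1 :=
  ValA_wo_eq m (by simpa using ha) ((monomial_mem_restrictSupport k).mpr (Or.inl (by simp)))

theorem ValA_wo_bin (w0 w1 : ℤ) {m m' : Fin 2 →₀ ℕ} (h : m ≠ m') {a a' : k} (ha : a ≠ 0)
    (ha' : a' ≠ 0) : wo w0 w1 (monomial m a + monomial m' a') =
      min (w0 * m 0 + w1 * m 1) (w0 * m' 0 + w1 * m' 1) := by
  classical
  rcases le_total (w0 * m 0 + w1 * m 1) (w0 * m' 0 + w1 * m' 1) with hle | hle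
  · rw [min_eq_left hle]
    exact ValA_wo_eq m (by simpa [coeff_monomial, h.symm] using ha)
      (add_mem ((monomial_mem_restrictSupport k).mpr (Or.inl (by simp)))
        ((monomial_mem_restrictSupport k).mpr (Or.inl hle)))
  · rw [min_eq_right hle]
    exact ValA_wo_eq m' (by simpa [coeff_monomial, h] using ha')
      (add_mem ((monomial_mem_restrictSupport k).mpr (Or.inl hle))
        ((monomial_mem_restrictSupport k).mpr (Or.inl (by simp))))

theorem ValA_wo_X0 (w0 w1 : ℤ) : wo w0 w1 (X 0 : PP k) = w0 := by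
  simpa [X] using ValA_wo_mon w0 w1 (Finsupp.single 0 1) (one_ne_zero (α := k))

theorem ValA_wo_X1 (w0 w1 : ℤ) : wo w0 w1 (X 1 : PP k) = w1 := by
  simpa [X] using ValA_wo_mon w0 w1 (Finsupp.single 1 1) (one_ne_zero (α := k))

theorem ValA_wo_X0_add (w0 w1 : ℤ) {a : k} (ha : a ≠ 0) :
    wo w0 w1 (X 0 + C a : PP k) = min w0 0 := by
  simpa [X] using ValA_wo_bin w0 w1 (m := Finsupp.single 0 1) (m' := 0) (by simp)
    (one_ne_zero (α := k)) ha

theorem ValA_wo_X1_add (w0 w1 : ℤ) {a : k} (ha : a ≠ 0) :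
    wo w0 w1 (X 1 + C a : PP k) = min w1 0 := by
  simpa [X] using ValA_wo_bin w0 w1 (m := Finsupp.single 1 1) (m' := 0) (by simp)
    (one_ne_zero (α := k)) ha

theorem ValA_wo_sub (w0 w1 : ℤ) : wo w0 w1 (X 0 - X 1 : PP k) = min w0 w1 := by
  have := ValA_wo_bin w0 w1 (m := Finsupp.single 0 1) (m' := Finsupp.single 1 1)
    (by simp [Finsupp.single_eq_single_iff]) (one_ne_zero (α := k))
    (neg_ne_zero.mpr (one_ne_zero (α := k)))
  rw [map_neg, ← sub_eq_add_neg] at this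
  simpa [X] using this

theorem ValA_wo_lin (w0 w1 : ℤ) (j : Fin 5) :
    wo w0 w1 (lin k j) = ![w0, w1, min w0 0, min w1 0, min w0 w1] j := by
  fin_cases j
  · exact ValA_wo_X0 w0 w1
  · exact ValA_wo_X1 w0 w1
  · simpa [sub_eq_add_neg, lin] using ValA_wo_X0_add w0 w1 (neg_ne_zero.mpr (one_ne_zero (α := k)))
  · simpa [sub_eq_add_neg, lin] using ValA_wo_X1_add w0 w1 (neg_ne_zero.mpr (one_ne_zero (α := k)))
  · exact ValA_wo_sub w0 w1

theorem ValA_wo_tr1_lin (j : Fin 5) : wo 1 1 (tr1 k (lin k j)) = ![0, 0, 1, 1, 1] j := by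
  fin_cases j
  · simpa [tr1, lin] using ValA_wo_X0_add 1 1 (one_ne_zero (α := k))
  · simpa [tr1, lin] using ValA_wo_X1_add 1 1 (one_ne_zero (α := k))
  · simpa [tr1, lin] using ValA_wo_X0 (k := k) 1 1
  · simpa [tr1, lin] using ValA_wo_X1 (k := k) 1 1
  · simpa [tr1, lin] using ValA_wo_sub (k := k) 1 1

theorem pv_lin (i : Fin 10) (j : Fin 5) : pv i (lin k j) = dv (Pi.single j 1) i := by
  revert i
  refine dg_forall.mpr ⟨ValA_mult_lin 0 j, ValA_mult_lin 1 j, ValA_mult_lin 2 j,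
    ValA_mult_lin 3 j, ValA_mult_lin 4 j, ?_, ?_, ?_, ?_, ?_⟩
  · rw [ValA_pv5, ValA_wo_lin]; revert j; decide
  · rw [ValA_pv6, ValA_wo_tr1_lin]; revert j; decide
  · rw [ValA_pv7, ValA_wo_lin]; revert j; decide
  · rw [ValA_pv8, ValA_wo_lin]; revert j; decide
  · rw [ValA_pv9, ValA_wo_lin]; revert j; decide

end Crest.Agent.R169
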