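/-
R169/ValB: the valuations `val π` (part 2 of 3)
-/
import Crest.Agent.R169.ValA

set_option autoImplicit false
set_option linter.unusedSectionVars false
set_option linter.unusedVariables false
set_option linter.unusedSimpArgs false

noncomputable section

namespace Crest.Agent.R169

open MvPolynomial Filter
open scoped Pointwise


variable {k : Type} [Field k]

/-! ### Fractions -/

/-- A valuation on polynomials, trivial on constants. -/
structure ValB_IsV (v : PP k → ℤ) : Prop where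
  mul : ∀ {g g'}, g ≠ 0 → g' ≠ 0 → v (g * g') = v g + v g'
  add : ∀ {g g' c}, g ≠ 0 → g' ≠ 0 → g + g' ≠ 0 → c ≤ v g → c ≤ v g' → c ≤ v (g + g')
  const : ∀ {c : k}, c ≠ 0 → v (C c) = 0

theorem ValB_isV_mult {p : PP k} (hp : Prime p) :
    ValB_IsV fun g : PP k => (multiplicity p g : ℤ) where
  mul hg hg' := ValA_mult_mul hp hg hg'
  add {g g' c} hg hg' h h1 h2 := by
    have := (FiniteMultiplicity.of_prime_left hp h).le_multiplicity_of_pow_dvd (k := c.toNat)
      (dvd_add (pow_dvd_of_le_multiplicity (by omega)) (pow_dvd_of_le_multiplicity (by omega)))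
    omega
  const hc := by
    rw [multiplicity_of_isUnit_right hp.not_isUnit ((Ne.isUnit hc).map C)]; rfl

theorem ValB_isV_wo (w0 w1 : ℤ) : ValB_IsV (k := k) (wo w0 w1) where
  mul hg hg' := wo_mul _ _ hg hg'
  add hg hg' h h1 h2 :=
    (mem_Wo_iff h).mp (add_mem ((mem_Wo_iff hg).mpr h1) ((mem_Wo_iff hg').mpr h2))
  const hc := by simpa using ValA_wo_mon w0 w1 0 hc

theorem ValB_isV_tr : ValB_IsV (k := k) fun g => wo 1 1 (tr1 k g) where
  mul hg hg' := by rw [map_mul, wo_mul _ _ (ValA_tr1_ne hg) (ValA_tr1_ne hg')]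
  add hg hg' h h1 h2 := by
    have := ValA_tr1_ne h
    rw [map_add] at this ⊢
    exact (ValB_isV_wo 1 1).add (ValA_tr1_ne hg) (ValA_tr1_ne hg') this h1 h2
  const hc := by
    rw [show ∀ c : k, tr1 k (C c) = C c from fun c => (tr1 k).commutes c]
    exact (ValB_isV_wo 1 1).const hc

theorem ValB_isV_pv (i : Fin 10) : ValB_IsV (k := k) (pv i) := by
  revert i
  exact dg_forall.mpr ⟨ValB_isV_mult (prime_lin 0), ValB_isV_mult (prime_lin 1),
    ValB_isV_mult (prime_lin 2), ValB_isV_mult (prime_lin 3), ValB_isV_mult (prime_lin 4),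
    ValB_isV_wo _ _, ValB_isV_tr, ValB_isV_wo _ _, ValB_isV_wo _ _, ValB_isV_wo _ _⟩

theorem ValB_mk_out (q : Associates (PP k)) : Associates.mk (Quot.out q) = q := Quot.out_eq q

theorem ValB_prime_out {q : Associates (PP k)} (hq : Irreducible q) : Prime (Quot.out q) :=
  (Associates.irreducible_mk.mp ((ValB_mk_out q).symm ▸ hq)).prime

theorem ValB_ne {g : PP k} (hg : g ≠ 0) : algebraMap (PP k) (KK k) g ≠ 0 :=
  (map_ne_zero_iff _ (IsFractionRing.injective _ _)).mpr hg

theorem ValB_frac {f : KK k} (hf : f ≠ 0) : ∃ a b : PP k, a ≠ 0 ∧ b ≠ 0 ∧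
    f = algebraMap (PP k) (KK k) a / algebraMap (PP k) (KK k) b := by
  obtain ⟨a, b, hb, rfl⟩ := IsFractionRing.div_surjective (A := PP k) f
  exact ⟨a, b, fun h => hf (by simp [h]), nonZeroDivisors.ne_zero hb, rfl⟩

theorem ValB_IsV.one {v : PP k → ℤ} (hv : ValB_IsV v) : v 1 = 0 := by
  simpa using hv.const one_ne_zero

theorem ValB_IsV.fv_div {v : PP k → ℤ} (hv : ValB_IsV v) {a b : PP k} (ha : a ≠ 0) (hb : b ≠ 0) :
    fv v (algebraMap (PP k) (KK k) a / algebraMap (PP k) (KK k) b) = v a - v b := by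
  rw [fv]
  have h := IsLocalization.sec_spec (nonZeroDivisors (PP k))
    (algebraMap (PP k) (KK k) a / algebraMap (PP k) (KK k) b)
  generalize IsLocalization.sec (nonZeroDivisors (PP k))
    (algebraMap (PP k) (KK k) a / algebraMap (PP k) (KK k) b) = s at h ⊢
  have h2 : (s.2 : PP k) ≠ 0 := nonZeroDivisors.ne_zero s.2.2
  rw [div_mul_eq_mul_div, div_eq_iff (ValB_ne hb), ← map_mul, ← map_mul] at h
  have h3 := IsFractionRing.injective (PP k) (KK k) h
  have h1 : s.1 ≠ 0 := left_ne_zero_of_mul (h3 ▸ mul_ne_zero ha h2)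
  have := congrArg v h3
  rw [hv.mul ha h2, hv.mul h1 hb] at this
  linarith

theorem ValB_IsV.fv_poly {v : PP k → ℤ} (hv : ValB_IsV v) {a : PP k} (ha : a ≠ 0) :
    fv v (algebraMap (PP k) (KK k) a) = v a := by
  simpa [hv.one] using hv.fv_div ha one_ne_zero

theorem ValB_IsV.fv_mul {v : PP k → ℤ} (hv : ValB_IsV v) {f g : KK k} (hf : f ≠ 0) (hg : g ≠ 0) :
    fv v (f * g) = fv v f + fv v g := by
  obtain ⟨a, b, ha, hb, rfl⟩ := ValB_frac hf
  obtain ⟨c, d, hc, hd, rfl⟩ := ValB_frac hg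
  rw [div_mul_div_comm, ← map_mul, ← map_mul, hv.fv_div (mul_ne_zero ha hc) (mul_ne_zero hb hd),
    hv.fv_div ha hb, hv.fv_div hc hd, hv.mul ha hc, hv.mul hb hd]
  ring

theorem ValB_IsV.fv_add {v : PP k → ℤ} (hv : ValB_IsV v) {f g : KK k} (hf : f ≠ 0) (hg : g ≠ 0)
    (hfg : f + g ≠ 0) : min (fv v f) (fv v g) ≤ fv v (f + g) := by
  obtain ⟨a, b, ha, hb, rfl⟩ := ValB_frac hf
  obtain ⟨c, d, hc, hd, rfl⟩ := ValB_frac hg
  rw [div_add_div _ _ (ValB_ne hb) (ValB_ne hd), ← map_mul, ← map_mul, ← map_mul, ← map_add]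
    at hfg ⊢
  have h : a * d + b * c ≠ 0 := fun h => hfg (by simp [h])
  have := hv.add (mul_ne_zero ha hd) (mul_ne_zero hb hc) h (min_le_left _ _) (min_le_right _ _)
  rw [hv.fv_div h (mul_ne_zero hb hd), hv.fv_div ha hb, hv.fv_div hc hd, hv.mul hb hd]
  rw [hv.mul ha hd, hv.mul hb hc] at this
  omega

theorem ValB_IsV.fv_const {v : PP k → ℤ} (hv : ValB_IsV v) {c : k} (hc : c ≠ 0) :
    fv v (algebraMap k (KK k) c) = 0 := by
  rw [IsScalarTower.algebraMap_apply k (PP k) (KK k), hv.fv_poly (by simpa using hc)]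
  exact hv.const hc

theorem ValB_inl (i : Fin 10) (f : KK k) (α : Dg) : val (.inl i) f α = 7 * fv (pv i) f + α i := rfl

theorem ValB_inr (q) (f : KK k) (α : Dg) :
    val (.inr q) f α = fv (fun g => (multiplicity (Quot.out q.1) g : ℤ)) f := rfl

theorem ValB_inr_poly (q) {g : PP k} (hg : g ≠ 0) (α : Dg) :
    val (.inr q) (algebraMap (PP k) (KK k) g) α = multiplicity (Quot.out q.1) g :=
  (ValB_isV_mult (ValB_prime_out q.2.1)).fv_poly hg

theorem val_inl_poly (i : Fin 10) {g : PP k} (hg : g ≠ 0) (α : Dg) :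
    val (.inl i) (algebraMap (PP k) (KK k) g) α = 7 * pv i g + α i := by
  rw [ValB_inl, (ValB_isV_pv i).fv_poly hg]

theorem val_mul (π : Pr k) {f g : KK k} (hf : f ≠ 0) (hg : g ≠ 0) (α β : Dg) :
    val π (f * g) (α + β) = val π f α + val π g β := by
  rcases π with i | q
  · simp only [ValB_inl, (ValB_isV_pv i).fv_mul hf hg, Pi.add_apply]; ring
  · exact (ValB_isV_mult (ValB_prime_out q.2.1)).fv_mul hf hg

/-- The ultrametric inequality. -/
theorem le_val_add (π : Pr k) {f g : KK k} (hf : f ≠ 0) (hg : g ≠ 0) (hfg : f + g ≠ 0) {α : Dg}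
    {c : ℤ} (h1 : c ≤ val π f α) (h2 : c ≤ val π g α) : c ≤ val π (f + g) α := by
  rcases π with i | q
  · have := (ValB_isV_pv i).fv_add hf hg hfg
    rw [ValB_inl] at h1 h2 ⊢
    omega
  · exact (le_min h1 h2).trans ((ValB_isV_mult (ValB_prime_out q.2.1)).fv_add hf hg hfg)

theorem val_const (π : Pr k) {c : k} (hc : c ≠ 0) : val π (algebraMap k (KK k) c) 0 = 0 := by
  rcases π with i | q
  · simp [ValB_inl, (ValB_isV_pv i).fv_const hc]
  · exact (ValB_isV_mult (ValB_prime_out q.2.1)).fv_const hc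

@[simp] theorem val_one_inl (i : Fin 10) (α : Dg) : val (.inl i) (1 : KK k) α = α i := by
  have := val_const (k := k) (.inl i) one_ne_zero
  rw [map_one, ValB_inl, Pi.zero_apply] at this
  rw [ValB_inl]
  omega

@[simp] theorem val_one_inr (q) (α : Dg) : val (.inr q) (1 : KK k) α = 0 := by
  have := val_const (k := k) (.inr q) one_ne_zero
  rw [map_one] at this
  exact this

theorem val_inl_add (i : Fin 10) (f : KK k) (α β : Dg) :
    val (.inl i) f (α + β) = val (.inl i) f α + β i := by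
  simp [val, add_assoc]

theorem val_inr_eq (q) (f : KK k) (α β : Dg) : val (.inr q) f α = val (.inr q) f β := rfl

theorem val_inl_mod (i : Fin 10) (f : KK k) : ∃ v : ℤ, ∀ α, val (.inl i) f α = 7 * v + α i :=
  ⟨_, fun _ => rfl⟩

theorem ValB_smul (π : Pr k) {c : k} (hc : c ≠ 0) (f : KK k) (α : Dg) :
    val π (c • f) α = val π f α := by
  by_cases hf : f = 0
  · rw [hf, smul_zero]
  · have := val_mul π ((map_ne_zero (algebraMap k (KK k))).mpr hc) hf 0 α
    rwa [val_const π hc, zero_add, zero_add, ← Algebra.smul_def] at this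

theorem ValB_one (π : Pr k) : val π (1 : KK k) 0 = 0 := by
  simpa using val_const π one_ne_zero

theorem val_neg (π : Pr k) (f : KK k) (α : Dg) : val π (-f) α = val π f α := by
  simpa using ValB_smul π (neg_ne_zero.mpr one_ne_zero) f α

theorem val_smul (π : Pr k) {c : k} (hc : c ≠ 0) (f : KK k) (α : Dg) :
    val π (c • f) α = val π f α := by
  exact ValB_smul π hc f α

theorem val_inv (π : Pr k) {f : KK k} (hf : f ≠ 0) (α : Dg) : val π f⁻¹ (-α) = -val π f α := by
  have := val_mul π hf (inv_ne_zero hf) α (-α)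
  rw [mul_inv_cancel₀ hf, add_neg_cancel, ValB_one] at this
  linarith

theorem val_div (π : Pr k) {f g : KK k} (hf : f ≠ 0) (hg : g ≠ 0) (α β : Dg) :
    val π (f / g) (α - β) = val π f α - val π g β := by
  rw [div_eq_mul_inv, sub_eq_add_neg, val_mul π hf (inv_ne_zero hg), val_inv π hg, sub_eq_add_neg]

theorem val_pow (π : Pr k) {f : KK k} (hf : f ≠ 0) (α : Dg) (n : ℕ) :
    val π (f ^ n) ((n : ℤ) • α) = n * val π f α := by
  induction n with
  | zero => simp [ValB_one]
  | succ n ih =>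
    rw [pow_succ, Nat.cast_succ, add_smul, one_smul, val_mul π (pow_ne_zero n hf) hf, ih]
    ring

theorem val_prod (π : Pr k) {ι : Type} (s : Finset ι) {f : ι → KK k} (hf : ∀ i ∈ s, f i ≠ 0)
    (α : ι → Dg) : val π (∏ i ∈ s, f i) (∑ i ∈ s, α i) = ∑ i ∈ s, val π (f i) (α i) := by
  classical
  induction s using Finset.induction_on with
  | empty => simp [ValB_one]
  | insert a s ha ih =>
    rw [Finset.prod_insert ha, Finset.sum_insert ha, Finset.sum_insert ha,
      val_mul π (hf a (Finset.mem_insert_self _ _))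
        (Finset.prod_ne_zero_iff.mpr fun i hi => hf i (Finset.mem_insert_of_mem hi)),
      ih fun i hi => hf i (Finset.mem_insert_of_mem hi)]

theorem le_val_sum (π : Pr k) {ι : Type} (s : Finset ι) {f : ι → KK k} {α : Dg} {c : ℤ}
    (h : ∀ i ∈ s, f i = 0 ∨ c ≤ val π (f i) α) :
    ∑ i ∈ s, f i = 0 ∨ c ≤ val π (∑ i ∈ s, f i) α := by
  refine Finset.sum_induction f (fun x => x = 0 ∨ c ≤ val π x α) (fun a b ha hb => ?_)
    (Or.inl rfl) h
  by_cases h0 : a = 0
  · simpa [h0] using hb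
  by_cases h1 : b = 0
  · simpa [h1] using ha
  by_cases h2 : a + b = 0
  · exact Or.inl h2
  exact Or.inr (le_val_add π h0 h1 h2 (ha.resolve_left h0) (hb.resolve_left h1))

/-- Strict ultrametric equality. -/
theorem val_add_of_lt (π : Pr k) {f g : KK k} (hf : f ≠ 0) (hg : g ≠ 0) {α : Dg}
    (h : val π f α < val π g α) : f + g ≠ 0 ∧ val π (f + g) α = val π f α := by
  have h0 : f + g ≠ 0 := fun h0 => by
    rw [eq_neg_of_add_eq_zero_left h0, val_neg] at h
    exact lt_irrefl _ h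
  refine ⟨h0, le_antisymm ?_ (le_val_add π hf hg h0 le_rfl h.le)⟩
  by_contra hc
  have := le_val_add π h0 (neg_ne_zero.mpr hg) (by simpa using hf) (α := α)
    (c := val π f α + 1) (by omega) (by rw [val_neg]; omega)
  rw [add_neg_cancel_right] at this
  omega

end Crest.Agent.R169
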