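/-
R169/Val: the valuations `val π` (part 3 of 3)
-/
import Crest.Agent.R169.ValB

set_option autoImplicit false
set_option linter.unusedSectionVars false
set_option linter.unusedVariables false
set_option linter.unusedSimpArgs false

noncomputable section

namespace Crest.Agent.R169

open MvPolynomial Filter
open scoped Pointwise


variable {k : Type} [Field k]

theorem mon_ne_zero (β : Ex) : mon k β ≠ 0 := by
  exact Finset.prod_ne_zero_iff.mpr fun j _ => zpow_ne_zero _ (ValB_ne (lin_ne_zero j))

theorem mon_add (β β' : Ex) : mon k (β + β') = mon k β * mon k β' := by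
  rw [mon, mon, mon, ← Finset.prod_mul_distrib]
  exact Finset.prod_congr rfl fun j _ => zpow_add₀ (ValB_ne (lin_ne_zero j)) _ _

@[simp] theorem mon_zero : mon k 0 = 1 := by
  simp [mon]

theorem mon_neg (β : Ex) : mon k (-β) = (mon k β)⁻¹ := by
  simp [mon]

theorem mon_zsmul (n : ℤ) (β : Ex) : mon k (n • β) = mon k β ^ n := by
  rw [mon, mon, ← Finset.prod_zpow]
  exact Finset.prod_congr rfl fun j _ => by
    rw [Pi.smul_apply, smul_eq_mul, mul_comm, zpow_mul]

theorem mon_single (j : Fin 5) : mon k (Pi.single j 1) = algebraMap (PP k) (KK k) (lin k j) := by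
  rw [mon, Finset.prod_eq_single j (fun i _ hi => by simp [hi]) (by simp)]
  simp

theorem mon_natCast (e : Fin 5 → ℕ) :
    mon k (fun j => (e j : ℤ)) = algebraMap (PP k) (KK k) (∏ j, lin k j ^ e j) := by
  simp [mon]

theorem Val_zpow (π : Pr k) {f : KK k} (hf : f ≠ 0) (n : ℤ) :
    val π (f ^ n) 0 = n * val π f 0 := by
  obtain ⟨m, rfl | rfl⟩ := Int.eq_nat_or_neg n
  · simpa using val_pow π hf 0 m
  · have h1 := val_pow π hf 0 m
    have h2 := val_inv π (pow_ne_zero m hf) 0
    rw [smul_zero] at h1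
    rw [neg_zero, h1] at h2
    rw [zpow_neg, zpow_natCast, h2, neg_mul]

theorem Val_mon (π : Pr k) (β : Ex) :
    val π (mon k β) 0 = ∑ j, β j * val π (algebraMap (PP k) (KK k) (lin k j)) 0 := by
  have := val_prod π Finset.univ (f := fun j => algebraMap (PP k) (KK k) (lin k j) ^ β j)
    (fun j _ => zpow_ne_zero _ (ValB_ne (lin_ne_zero j))) fun _ => 0
  rw [Finset.sum_const_zero] at this
  rw [mon, this]
  exact Finset.sum_congr rfl fun j _ => Val_zpow π (ValB_ne (lin_ne_zero j)) _

theorem Val_not_dvd_lin (q : {q : Associates (PP k) // Irreducible q ∧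
    ∀ j, q ≠ Associates.mk (lin k j)}) (j : Fin 5) : ¬ Quot.out q.1 ∣ lin k j := fun h =>
  q.2.2 j <| (ValB_mk_out q.1).symm.trans <| Associates.mk_eq_mk_iff_associated.mpr <|
    (ValB_prime_out q.2.1).associated_of_dvd (prime_lin j) h

theorem val_mon_inl (i : Fin 10) (β : Ex) (α : Dg) :
    val (.inl i) (mon k β) α = 7 * dv β i + α i := by
  have h : dv β i = ∑ j, β j * dv (Pi.single j 1) i := by
    conv_lhs => rw [← Finset.univ_sum_single β, map_sum, Finset.sum_apply]
    refine Finset.sum_congr rfl fun j _ => ?_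
    rw [← smul_eq_mul, ← Pi.smul_apply, ← map_zsmul, ← Pi.single_smul, smul_eq_mul, mul_one]
  rw [← zero_add α, val_inl_add, Val_mon, zero_add, h, Finset.mul_sum]
  refine congrArg (· + α i) (Finset.sum_congr rfl fun j _ => ?_)
  rw [val_inl_poly i (lin_ne_zero j), pv_lin, Pi.zero_apply]
  ring

theorem val_mon_inr (q) (β : Ex) (α : Dg) : val (.inr q) (mon k β) α = 0 := by
  rw [val_inr_eq q _ α 0, Val_mon]
  refine Finset.sum_eq_zero fun j _ => ?_
  rw [ValB_inr_poly q (lin_ne_zero j), multiplicity_eq_zero.mpr (Val_not_dvd_lin q j)]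
  simp

theorem Val_inr_div (q) {a b : PP k} (ha : a ≠ 0) (hb : b ≠ 0) (α : Dg) :
    val (.inr q) (algebraMap (PP k) (KK k) a / algebraMap (PP k) (KK k) b) α =
      (multiplicity (Quot.out q.1) a : ℤ) - multiplicity (Quot.out q.1) b :=
  (ValB_isV_mult (ValB_prime_out q.2.1)).fv_div ha hb

theorem val_finite {f : KK k} (hf : f ≠ 0) (α : Dg) : {π : Pr k | val π f α ≠ 0}.Finite := by
  classical
  obtain ⟨a, b, ha, hb, rfl⟩ := ValB_frac hf
  have hfin := (((UniqueFactorizationMonoid.factors (a * b)).map Associates.mk).toFinset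
    ).finite_toSet.preimage (Subtype.val_injective (p := fun q : Associates (PP k) =>
      Irreducible q ∧ ∀ j, q ≠ Associates.mk (lin k j))).injOn
  refine ((Set.finite_range Sum.inl).union (hfin.image Sum.inr)).subset ?_
  rintro (i | q) h
  · exact Or.inl ⟨i, rfl⟩
  · refine Or.inr ⟨q, ?_, rfl⟩
    have hd : Quot.out q.1 ∣ a * b := by
      by_contra hc
      refine h ?_
      rw [Val_inr_div q ha hb, multiplicity_eq_zero.mpr fun h => hc (h.mul_right _),
        multiplicity_eq_zero.mpr fun h => hc (h.mul_left _), sub_self]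
    obtain ⟨p, hp, hpq⟩ := UniqueFactorizationMonoid.exists_mem_factors_of_dvd
      (mul_ne_zero ha hb) (ValB_prime_out q.2.1).irreducible hd
    simp only [Set.mem_preimage, Finset.mem_coe, Multiset.mem_toFinset, Multiset.mem_map]
    exact ⟨p, hp, (Associates.mk_eq_mk_iff_associated.mpr hpq.symm).trans (ValB_mk_out q.1)⟩

theorem val_inr_poly_nonneg (q) {g : PP k} (hg : g ≠ 0) (α : Dg) :
    0 ≤ val (.inr q) (algebraMap (PP k) (KK k) g) α := by
  rw [ValB_inr_poly q hg]
  exact Int.natCast_nonneg _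

theorem Val_isPE_inl (i : Fin 10) : IsPE (.inl i : Pr k) 1 (Pi.single i 1) := by
  refine ⟨one_ne_zero, ?_⟩
  rintro (j | q)
  · simp [Pi.single_apply]
  · simp

/-- Prime elements: `(1, e i)` for the lines, `(g, -7 v(g))` for an irreducible `g`. -/
theorem exists_isPE (π : Pr k) : ∃ g δ, IsPE π g δ := by
  rcases π with i | q
  · exact ⟨_, _, Val_isPE_inl i⟩
  · have hq := ValB_prime_out q.2.1
    refine ⟨algebraMap (PP k) (KK k) (Quot.out q.1), fun i => -(7 * pv i (Quot.out q.1)),
      ValB_ne hq.ne_zero, ?_⟩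
    rintro (j | q')
    · simp [val_inl_poly j hq.ne_zero]
    · rw [ValB_inr_poly q' hq.ne_zero]
      split_ifs with h
      · obtain rfl := Sum.inr_injective h
        simp
      · rw [multiplicity_eq_zero.mpr fun hd => h ?_]
        · rfl
        · refine congrArg Sum.inr (Subtype.ext ?_)
          rw [← ValB_mk_out q'.1, ← ValB_mk_out q.1]
          exact Associates.mk_eq_mk_iff_associated.mpr
            ((ValB_prime_out q'.2.1).associated_of_dvd hq hd)

theorem isPE_inl (i : Fin 10) : IsPE (.inl i : Pr k) 1 (Pi.single i 1) := by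
  exact Val_isPE_inl i

/-- A function without poles in the affine plane is a polynomial (unique factorisation). -/
theorem exists_poly {f : KK k} (hf : f ≠ 0) (h1 : ∀ q, 0 ≤ val (.inr q) f 0)
    (h2 : ∀ j : Fin 5, 0 ≤ val (.inl (Fin.castLE (by norm_num) j)) f 0) :
    ∃ g : PP k, f = algebraMap (PP k) (KK k) g := by
  obtain ⟨a0, b0, ha0, hb0, rfl⟩ := ValB_frac hf
  obtain ⟨a, b, c, hab, rfl, rfl⟩ := UniqueFactorizationMonoid.exists_reduced_factors' a0 b0 hb0
  have hc := left_ne_zero_of_mul hb0
  have ha := right_ne_zero_of_mul ha0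
  have hb := right_ne_zero_of_mul hb0
  rw [map_mul, map_mul, mul_div_mul_left _ _ (ValB_ne hc)] at h1 h2 ⊢
  have key : ∀ p : PP k, Prime p → p ∣ b → (multiplicity p a : ℤ) - multiplicity p b < 0 :=
    fun p hp hpb => by
      have h3 : multiplicity p b ≠ 0 := fun h => multiplicity_eq_zero.mp h hpb
      rw [multiplicity_eq_zero.mpr fun h => hp.not_isUnit (hab h hpb)]
      omega
  have hu : IsUnit b := by
    by_contra hu
    obtain ⟨p, hp, hpb⟩ := WfDvdMonoid.exists_irreducible_factor hu hb
    by_cases hl : ∃ j, Associates.mk p = Associates.mk (lin k j)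
    · obtain ⟨j, hj⟩ := hl
      have h3 := key _ (prime_lin j)
        ((Associates.mk_eq_mk_iff_associated.mp hj).symm.dvd.trans hpb)
      have h4 := h2 j
      rw [ValB_inl, (ValB_isV_pv _).fv_div ha hb, ValA_pv_castLE, ValA_pv_castLE,
        Pi.zero_apply] at h4
      omega
    · push Not at hl
      have h4 := h1 ⟨Associates.mk p, Associates.irreducible_mk.mpr hp, hl⟩
      rw [Val_inr_div _ ha hb] at h4
      exact absurd (key _ (ValB_prime_out (Associates.irreducible_mk.mpr hp))
        ((Associates.mk_quot_out p).dvd.trans hpb)) (not_lt.mpr h4)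
  obtain ⟨d, hd⟩ := hu.exists_right_inv
  refine ⟨a * d, ?_⟩
  rw [div_eq_iff (ValB_ne hb), ← map_mul, mul_assoc, mul_comm d, hd, mul_one]

end Crest.Agent.R169
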