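/-
R169/SpanA: polynomials with prescribed multiplicities are spanned by products of lines; dimension (part 1 of 2)
-/
import Crest.Agent.R169.Val

set_option autoImplicit false
set_option linter.unusedSectionVars false
set_option linter.unusedVariables false
set_option linter.unusedSimpArgs false

noncomputable section

namespace Crest.Agent.R169

open MvPolynomial Filter
open scoped Pointwise


variable {k : Type} [Field k]

/-- Products of lines with the prescribed numerical invariants. -/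
def Mons (k : Type) [Field k] (m0 m1 d1 d2 d : ℤ) : Set (PP k) :=
  {x | ∃ e : Fin 5 → ℕ, x = ∏ j, lin k j ^ e j ∧ m0 ≤ e 0 + e 1 + e 4 ∧ m1 ≤ e 2 + e 3 + e 4 ∧
    (e 0 + e 2 + e 4 : ℤ) ≤ d1 ∧ (e 1 + e 3 + e 4 : ℤ) ≤ d2 ∧
    (e 0 + e 1 + e 2 + e 3 + e 4 : ℤ) ≤ d}

theorem mem_Wo' {A : Type} [CommRing A] {w0 w1 c : ℤ} {g : MvPolynomial (Fin 2) A} :
    g ∈ Wo A w0 w1 c ↔ ∀ m, coeff m g ≠ 0 → c ≤ w0 * m 0 + w1 * m 1 := by
  rw [Wo, mem_restrictSupport_iff]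
  exact ⟨fun h m hm => h (mem_support_iff.mpr hm), fun h m hm => h m (mem_support_iff.mp hm)⟩

theorem mul_mem_Wo' {A : Type} [CommRing A] {w0 w1 c c' : ℤ} {g g' : MvPolynomial (Fin 2) A}
    (h : g ∈ Wo A w0 w1 c) (h' : g' ∈ Wo A w0 w1 c') : g * g' ∈ Wo A w0 w1 (c + c') := by
  classical
  rw [mem_Wo'] at *
  intro m hm
  rw [coeff_mul] at hm
  obtain ⟨⟨x, y⟩, hxy, h0⟩ := Finset.exists_ne_zero_of_sum_ne_zero hm
  have e : x + y = m := by simpa using hxy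
  have h1 := h x (left_ne_zero_of_mul h0)
  have h2 := h' y (right_ne_zero_of_mul h0)
  subst e
  simp only [Finsupp.add_apply, Nat.cast_add]
  linarith

theorem Wo_mono' {A : Type} [CommRing A] {w0 w1 c c' : ℤ} (h : c' ≤ c) :
    Wo A w0 w1 c ≤ Wo A w0 w1 c' := fun _ hg =>
  mem_Wo'.mpr fun m hm => h.trans (mem_Wo'.mp hg m hm)

theorem monomial_mem_Wo' {A : Type} [CommRing A] {w0 w1 c : ℤ} {m : Fin 2 →₀ ℕ} (r : A)
    (h : c ≤ w0 * m 0 + w1 * m 1) : monomial m r ∈ Wo A w0 w1 c :=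
  (monomial_mem_restrictSupport A).mpr (Or.inl h)

theorem one_mem_Wo' {A : Type} [CommRing A] {w0 w1 c : ℤ} (h : c ≤ 0) :
    (1 : MvPolynomial (Fin 2) A) ∈ Wo A w0 w1 c :=
  monomial_mem_Wo' (m := 0) 1 (by simpa using h)

theorem pow_mem_Wo' {A : Type} [CommRing A] {w0 w1 c : ℤ} {g : MvPolynomial (Fin 2) A}
    (h : g ∈ Wo A w0 w1 c) (n : ℕ) : g ^ n ∈ Wo A w0 w1 (n * c) := by
  induction n with
  | zero => simpa using one_mem_Wo' le_rfl
  | succ n ih =>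
    rw [pow_succ, Nat.cast_succ, add_mul, one_mul]
    exact mul_mem_Wo' ih h

theorem monomial_fin2' {A : Type} [CommRing A] (m : Fin 2 →₀ ℕ) (r : A) :
    monomial m r = r • (X 0 ^ m 0 * X 1 ^ m 1) := by
  rw [monomial_eq, Finsupp.prod_fintype _ _ (by simp), Fin.prod_univ_two, smul_eq_C_mul]

theorem tr1_mem_Wo' {A : Type} [CommRing A] {w0 w1 c : ℤ} (h0 : w0 ≤ 0) (h1 : w1 ≤ 0)
    {g : MvPolynomial (Fin 2) A} (hg : g ∈ Wo A w0 w1 c) : tr1 A g ∈ Wo A w0 w1 c := by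
  rw [g.as_sum, map_sum]
  refine Submodule.sum_mem _ fun m hm => ?_
  rw [monomial_fin2', map_smul, map_mul, map_pow, map_pow]
  refine Submodule.smul_mem _ _ (Wo_mono' ?_ (mul_mem_Wo' (pow_mem_Wo' (c := w0) ?_ _)
    (pow_mem_Wo' (c := w1) ?_ _)))
  · have := mem_Wo'.mp hg m (mem_support_iff.mp hm)
    linarith
  · simp only [tr1, aeval_X]
    exact Submodule.add_mem _ (monomial_mem_Wo' 1 (by simp)) (one_mem_Wo' h0)
  · simp only [tr1, aeval_X]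
    exact Submodule.add_mem _ (monomial_mem_Wo' 1 (by simp)) (one_mem_Wo' h1)

theorem X_dvd_of_coeff' {g : PP k} (i : Fin 2) (h : ∀ m, coeff m g ≠ 0 → m i ≠ 0) : X i ∣ g := by
  rw [g.as_sum]
  exact Finset.dvd_sum fun m hm => X_dvd_monomial.mpr (Or.inr (h m (mem_support_iff.mp hm)))

theorem sub_one_dvd_of_tr1' {g : PP k} (i : Fin 2) (h : X i ∣ tr1 k g) : X i - 1 ∣ g := by
  obtain ⟨q, hq⟩ := h
  have e : ∀ f : PP k, (aeval fun i => X i - 1 : PP k →ₐ[k] PP k) (tr1 k f) = f := fun f => by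
    rw [← AlgHom.comp_apply]
    have : (aeval fun i => X i - 1 : PP k →ₐ[k] PP k).comp (tr1 k) = AlgHom.id k _ := by
      ext i : 1; simp [tr1]
    rw [this]; rfl
  exact ⟨_, by rw [← e g, hq, map_mul, aeval_X]⟩

/-- Restriction to the diagonal. -/
def diag' (k : Type) [Field k] : PP k →ₐ[k] Polynomial k := aeval fun _ => Polynomial.X

theorem diag_monomial' (m : Fin 2 →₀ ℕ) (r : k) :
    diag' k (monomial m r) = r • Polynomial.X ^ (m 0 + m 1) := by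
  rw [monomial_fin2', map_smul, map_mul, map_pow, map_pow, pow_add]; simp [diag']

theorem X_pow_dvd_diag' {g : PP k} {n : ℕ} (h : g ∈ Wo k 1 1 n) : Polynomial.X ^ n ∣ diag' k g := by
  rw [g.as_sum, map_sum]
  refine Finset.dvd_sum fun m hm => ?_
  have := mem_Wo'.mp h m (mem_support_iff.mp hm)
  rw [diag_monomial', Polynomial.smul_eq_C_mul]
  exact Dvd.dvd.mul_left (pow_dvd_pow _ (by omega)) _

theorem natDegree_diag' {g : PP k} {n : ℕ} (h : g ∈ Wo k (-1) (-1) (-n)) :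
    (diag' k g).natDegree ≤ n := by
  rw [g.as_sum, map_sum]
  refine Polynomial.natDegree_sum_le_of_forall_le _ _ fun m hm => ?_
  have := mem_Wo'.mp h m (mem_support_iff.mp hm)
  rw [diag_monomial']
  refine (Polynomial.natDegree_smul_le _ _).trans ?_
  rw [Polynomial.natDegree_X_pow]; omega

theorem diag_tr1' (g : PP k) : (diag' k (tr1 k g)).comp (Polynomial.X - 1) = diag' k g := by
  induction g using MvPolynomial.induction_on with
  | C a => simp [diag', tr1]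
  | add p q hp hq => simp only [map_add, Polynomial.add_comp, hp, hq]
  | mul_X p i hp => simp only [map_mul, Polynomial.mul_comp, hp]; simp [diag', tr1]

theorem dvd_of_diag' {g : PP k} (h : diag' k g = 0) : X 0 - X 1 ∣ g := by
  have : ∀ f : PP k, X 0 - X 1 ∣ f - Polynomial.aeval (X 1 : PP k) (diag' k f) := fun f => by
    induction f using MvPolynomial.induction_on with
    | C a => simp [diag']
    | add p q hp hq =>
      have := dvd_add hp hq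
      rw [map_add, map_add]; convert this using 1; ring
    | mul_X p i hp =>
      have h1 : X 0 - X 1 ∣ (X i : PP k) - X 1 := by fin_cases i <;> simp
      have := dvd_add (hp.mul_right (X 1)) (h1.mul_left p)
      rw [map_mul, map_mul]; convert this using 1; simp [diag']; ring
  simpa [h] using this g

theorem diag_eq_zero' {g : PP k} {m0 m1 n : ℕ} (h0 : g ∈ Wo k 1 1 m0) (h1 : tr1 k g ∈ Wo k 1 1 m1)
    (h2 : g ∈ Wo k (-1) (-1) (-n)) (h : n < m0 + m1) : diag' k g = 0 := by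
  by_contra hc
  have a1 : (Polynomial.X - 1) ^ m1 ∣ diag' k g := by
    obtain ⟨q, hq⟩ := X_pow_dvd_diag' h1
    exact ⟨q.comp (Polynomial.X - 1), by rw [← diag_tr1', hq]; simp⟩
  have a2 : IsCoprime (Polynomial.X ^ m0) ((Polynomial.X - 1 : Polynomial k) ^ m1) :=
    IsCoprime.pow ⟨1, -1, by ring⟩
  have a3 := Polynomial.natDegree_le_of_dvd (a2.mul_dvd (X_pow_dvd_diag' h0) a1) hc
  have a4 : (Polynomial.X - 1 : Polynomial k).Monic := Polynomial.monic_X_sub_C 1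
  have a5 : (Polynomial.X - 1 : Polynomial k).natDegree = 1 := Polynomial.natDegree_X_sub_C 1
  rw [(Polynomial.monic_X_pow _).natDegree_mul (a4.pow _), a4.natDegree_pow, a5,
    Polynomial.natDegree_X_pow] at a3
  have := natDegree_diag' h2
  omega

theorem mem_Vp' {A : Type} [CommRing A] {m0 m1 d1 d2 d : ℤ} {g : MvPolynomial (Fin 2) A} :
    g ∈ Vp A m0 m1 d1 d2 d ↔ g ∈ Wo A 1 1 m0 ∧ tr1 A g ∈ Wo A 1 1 m1 ∧ g ∈ Wo A (-1) 0 (-d1) ∧
      g ∈ Wo A 0 (-1) (-d2) ∧ g ∈ Wo A (-1) (-1) (-d) := by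
  simp [Vp, and_assoc]

theorem mem_Vp_iff_pv {m0 m1 d1 d2 d : ℤ} {g : PP k} (hg : g ≠ 0) :
    g ∈ Vp k m0 m1 d1 d2 d ↔
      m0 ≤ pv 5 g ∧ m1 ≤ pv 6 g ∧ -d1 ≤ pv 7 g ∧ -d2 ≤ pv 8 g ∧ -d ≤ pv 9 g := by
  rw [mem_Vp', mem_Wo_iff hg, mem_Wo_iff hg, mem_Wo_iff hg, mem_Wo_iff hg,
    mem_Wo_iff (fun h => hg (tr1_injective k (by rw [h, map_zero])))]
  rfl

theorem pv_one' (i : Fin 10) : pv i (1 : PP k) = 0 := by
  have := pv_mul (k := k) i one_ne_zero one_ne_zero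
  rw [mul_one] at this; omega

theorem pv_pow' (i : Fin 10) {g : PP k} (hg : g ≠ 0) (n : ℕ) : pv i (g ^ n) = n * pv i g := by
  induction n with
  | zero => simp [pv_one']
  | succ n ih => rw [pow_succ, pv_mul i (pow_ne_zero _ hg) hg, ih]; push_cast; ring

theorem prod_lin_ne_zero' (e : Fin 5 → ℕ) : ∏ j, lin k j ^ e j ≠ 0 :=
  Finset.prod_ne_zero_iff.mpr fun j _ => pow_ne_zero _ (lin_ne_zero j)

theorem pv_prod_lin' (i : Fin 10) (e : Fin 5 → ℕ) :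
    pv i (∏ j, lin k j ^ e j) = ∑ j, e j * dv (Pi.single j 1) i := by
  have : ∀ s : Finset (Fin 5), pv i (∏ j ∈ s, lin k j ^ e j) =
      ∑ j ∈ s, e j * dv (Pi.single j 1) i := fun s => by
    induction s using Finset.induction_on with
    | empty => simp [pv_one']
    | insert a s ha ih =>
      rw [Finset.prod_insert ha, Finset.sum_insert ha, pv_mul i (pow_ne_zero _ (lin_ne_zero a))
        (Finset.prod_ne_zero_iff.mpr fun j _ => pow_ne_zero _ (lin_ne_zero j)), ih,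
        pv_pow' i (lin_ne_zero a), pv_lin]
  exact this _

theorem Mons_subset (m0 m1 d1 d2 d : ℤ) : Mons k m0 m1 d1 d2 d ⊆ Vp k m0 m1 d1 d2 d := by
  rintro _ ⟨e, rfl, h⟩
  rw [SetLike.mem_coe, mem_Vp_iff_pv (prod_lin_ne_zero' e)]
  simp only [pv_prod_lin', Fin.sum_univ_five, dv_5, dv_6, dv_7, dv_8, dv_9]
  simp
  omega

theorem span_div' {m0 m1 d1 d2 d : ℤ} {g : PP k} (hg : g ∈ Vp k m0 m1 d1 d2 d) (j : Fin 5)
    (hd : lin k j ∣ g) (ih : ∀ m0 m1 d1 d2, ∀ g ∈ Vp k m0 m1 d1 d2 (d - 1),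
      g ∈ Submodule.span k (Mons k m0 m1 d1 d2 (d - 1))) :
    g ∈ Submodule.span k (Mons k m0 m1 d1 d2 d) := by
  obtain ⟨q, rfl⟩ := hd
  rcases eq_or_ne q 0 with rfl | hq
  · simp
  rw [mem_Vp_iff_pv (mul_ne_zero (lin_ne_zero j) hq)] at hg
  simp only [pv_mul _ (lin_ne_zero j) hq, pv_lin] at hg
  have h9 : dv (Pi.single j 1) 9 = -1 := (by decide : ∀ j, dv (Pi.single j 1) 9 = -1) j
  have h1 := ih (m0 - dv (Pi.single j 1) 5) (m1 - dv (Pi.single j 1) 6) (d1 + dv (Pi.single j 1) 7)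
    (d2 + dv (Pi.single j 1) 8) q ((mem_Vp_iff_pv hq).mpr (by omega))
  have h2 := Submodule.mem_map_of_mem (f := LinearMap.mulLeft k (lin k j)) h1
  rw [Submodule.map_span] at h2
  refine Submodule.span_mono ?_ h2
  rintro _ ⟨_, ⟨e, rfl, h⟩, rfl⟩
  refine ⟨e + Pi.single j 1, ?_, ?_⟩
  · simp only [LinearMap.mulLeft_apply, Pi.add_apply, pow_add, Finset.prod_mul_distrib]
    rw [mul_comm, Finset.prod_eq_single (f := fun x => lin k x ^ (Pi.single j 1 : Fin 5 → ℕ) x) j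
      (fun b _ hb => by simp [hb]) (by simp)]
    simp
  · simp only [dv_5, dv_6, dv_7, dv_8] at h
    fin_cases j <;> simp at h ⊢ <;> omega

theorem exists_mon' {m0 m1 : ℕ} {d1 d2 d : ℤ} (h1 : m1 ≤ d1) (h2 : m1 ≤ d2) (h3 : m0 ≤ d2)
    (h4 : (m0 : ℤ) + m1 ≤ d) (μ : Fin 2 →₀ ℕ) (hμ : μ 0 + μ 1 = m1) :
    ∃ x ∈ Mons k m0 m1 d1 d2 d, tr1 k x - monomial μ 1 ∈ Wo k 1 1 (m1 + 1) := by
  obtain ⟨s, t, h5, h6, h7⟩ : ∃ s t : ℕ, s + t = m0 ∧ (s : ℤ) + μ 0 ≤ d1 ∧ (t : ℤ) + μ 1 ≤ d2 :=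
    ⟨min m0 (d1 - μ 0).toNat, m0 - min m0 (d1 - μ 0).toNat, by omega, by omega, by omega⟩
  refine ⟨_, ⟨![s, t, μ 0, μ 1, 0], rfl, by simp; omega⟩, ?_⟩
  have e : tr1 k (∏ j, lin k j ^ (![s, t, μ 0, μ 1, 0] : Fin 5 → ℕ) j) - monomial μ 1 =
      monomial μ 1 * ((X 0 + 1) ^ s * (X 1 + 1) ^ t - 1) := by
    simp [Fin.prod_univ_five, lin, tr1, monomial_fin2']; ring
  rw [e]
  refine mul_mem_Wo' (monomial_mem_Wo' 1 (by omega)) (mem_Wo'.mpr fun m hm => ?_)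
  by_contra hc
  have : m = 0 := by ext i; fin_cases i <;> simp <;> omega
  subst this
  exact hm (by rw [← constantCoeff_eq]; simp)

theorem span_step' {m0 m1 : ℕ} {d1 d2 d : ℤ} (h1 : m1 ≤ d1) (h2 : m1 ≤ d2) (h3 : m0 ≤ d2)
    (h4 : (m0 : ℤ) + m1 ≤ d) {g : PP k} (hg : g ∈ Vp k m0 m1 d1 d2 d) :
    ∃ y ∈ Submodule.span k (Mons k m0 m1 d1 d2 d), g - y ∈ Vp k m0 (m1 + 1 : ℕ) d1 d2 d := by
  classical
  choose! x hx hx' using exists_mon' (k := k) h1 h2 h3 h4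
  set S := (tr1 k g).support.filter fun μ => μ 0 + μ 1 = m1 with hS
  have hy : ∑ μ ∈ S, coeff μ (tr1 k g) • x μ ∈ Submodule.span k (Mons k m0 m1 d1 d2 d) :=
    Submodule.sum_mem _ fun μ hμ => Submodule.smul_mem _ _
      (Submodule.subset_span (hx μ (Finset.mem_filter.mp hμ).2))
  refine ⟨_, hy, ?_⟩
  have h5 := mem_Vp'.mp (Submodule.sub_mem _ hg (Submodule.span_le.mpr (Mons_subset _ _ _ _ _) hy))
  refine mem_Vp'.mpr ⟨h5.1, ?_, h5.2.2⟩
  have e : tr1 k (g - ∑ μ ∈ S, coeff μ (tr1 k g) • x μ) =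
      ∑ μ ∈ (tr1 k g).support.filter fun μ => ¬ μ 0 + μ 1 = m1, monomial μ (coeff μ (tr1 k g)) -
        ∑ μ ∈ S, coeff μ (tr1 k g) • (tr1 k (x μ) - monomial μ 1) := by
    rw [map_sub, map_sum]
    have e1 := (tr1 k g).as_sum
    rw [← Finset.sum_filter_add_sum_filter_not _ fun μ => μ 0 + μ 1 = m1] at e1
    simp only [map_smul, smul_sub, Finset.sum_sub_distrib, smul_monomial, smul_eq_mul, mul_one, hS]
    linear_combination e1
  rw [e]
  refine Submodule.sub_mem _ (Submodule.sum_mem _ fun μ hμ => monomial_mem_Wo' _ ?_)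
    (Submodule.sum_mem _ fun μ hμ => Submodule.smul_mem _ _ (hx' μ (Finset.mem_filter.mp hμ).2))
  obtain ⟨h6, h7⟩ := Finset.mem_filter.mp hμ
  have := mem_Wo'.mp (mem_Vp'.mp hg).2.1 μ (mem_support_iff.mp h6)
  omega

theorem Mons_mono' {m0 m1 m0' m1' d1 d2 d : ℤ} (h0 : m0 ≤ m0') (h1 : m1 ≤ m1') :
    Submodule.span k (Mons k m0' m1' d1 d2 d) ≤ Submodule.span k (Mons k m0 m1 d1 d2 d) :=
  Submodule.span_mono fun _ ⟨e, he, h⟩ => ⟨e, he, by omega⟩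

theorem span_aux' {d : ℤ} (ih : ∀ m0 m1 d1 d2, ∀ g ∈ Vp k m0 m1 d1 d2 (d - 1),
      g ∈ Submodule.span k (Mons k m0 m1 d1 d2 (d - 1))) (hd : 0 ≤ d) (m0 : ℕ) (d1 d2 : ℤ) (N : ℕ) :
    ∀ m1 : ℕ, d - m1 < N → ∀ g ∈ Vp k m0 m1 d1 d2 d,
      g ∈ Submodule.span k (Mons k m0 m1 d1 d2 d) := by
  have hdiv : ∀ m1 : ℕ, ∀ g ∈ Vp k m0 m1 d1 d2 d, ¬ (m1 ≤ d1 ∧ m1 ≤ d2 ∧ m0 ≤ d2 ∧
      (m0 : ℤ) + m1 ≤ d) → g ∈ Submodule.span k (Mons k m0 m1 d1 d2 d) := by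
    intro m1 g hg hc
    obtain ⟨a0, a1, a2, a3, a4⟩ := mem_Vp'.mp hg
    by_cases c1 : d1 < m1
    · refine span_div' hg 3 (sub_one_dvd_of_tr1' 1 (X_dvd_of_coeff' 1 fun m hm => ?_)) ih
      have b1 := mem_Wo'.mp a1 m hm
      have b2 := mem_Wo'.mp (tr1_mem_Wo' (by norm_num) le_rfl a2) m hm
      omega
    by_cases c2 : d2 < m1
    · refine span_div' hg 2 (sub_one_dvd_of_tr1' 0 (X_dvd_of_coeff' 0 fun m hm => ?_)) ih
      have b1 := mem_Wo'.mp a1 m hm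
      have b2 := mem_Wo'.mp (tr1_mem_Wo' le_rfl (by norm_num) a3) m hm
      omega
    by_cases c3 : d2 < m0
    · refine span_div' hg 0 (X_dvd_of_coeff' 0 fun m hm => ?_) ih
      have b1 := mem_Wo'.mp a0 m hm
      have b2 := mem_Wo'.mp a3 m hm
      omega
    obtain ⟨n, rfl⟩ := Int.eq_ofNat_of_zero_le hd
    exact span_div' hg 4 (dvd_of_diag' (diag_eq_zero' a0 a1 a4 (by omega))) ih
  induction N with
  | zero => exact fun m1 h g hg => hdiv m1 g hg (by omega)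
  | succ N ihN =>
    intro m1 h g hg
    by_cases hc : m1 ≤ d1 ∧ m1 ≤ d2 ∧ m0 ≤ d2 ∧ (m0 : ℤ) + m1 ≤ d
    · obtain ⟨y, hy, h1⟩ := span_step' hc.1 hc.2.1 hc.2.2.1 hc.2.2.2 hg
      have h2 := Mons_mono' le_rfl (show (m1 : ℤ) ≤ (m1 + 1 : ℕ) by omega)
        (ihN (m1 + 1) (by omega) _ h1)
      simpa using Submodule.add_mem _ h2 hy
    · exact hdiv m1 g hg hc

/-- Induction on `d`; divide by a line if possible, else raise `m1`. -/
theorem Vp_span {m0 m1 d1 d2 d : ℤ} {g : PP k} (hg : g ∈ Vp k m0 m1 d1 d2 d) :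
    g ∈ Submodule.span k (Mons k m0 m1 d1 d2 d) := by
  have key : ∀ n : ℕ, ∀ d : ℤ, d < n → ∀ m0 m1 d1 d2, ∀ g ∈ Vp k m0 m1 d1 d2 d,
      g ∈ Submodule.span k (Mons k m0 m1 d1 d2 d) := by
    have neg : ∀ d : ℤ, d < 0 → ∀ m0 m1 d1 d2, ∀ g ∈ Vp k m0 m1 d1 d2 d,
        g ∈ Submodule.span k (Mons k m0 m1 d1 d2 d) := fun d hd m0 m1 d1 d2 g hg => by
      have : g = 0 := by
        ext m
        by_contra hc
        have := mem_Wo'.mp (mem_Vp'.mp hg).2.2.2.2 m hc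
        omega
      rw [this]; exact Submodule.zero_mem _
    intro n
    induction n with
    | zero => exact neg
    | succ n ih =>
      intro d hd m0 m1 d1 d2 g hg
      rcases lt_or_ge d 0 with h | h
      · exact neg d h _ _ _ _ g hg
      obtain ⟨a0, a1, a2⟩ := mem_Vp'.mp hg
      refine Mons_mono' (Int.self_le_toNat m0) (Int.self_le_toNat m1)
        (span_aux' (ih (d - 1) (by omega)) h m0.toNat d1 d2 (n + 1) m1.toNat (by omega) g
          (mem_Vp'.mpr ⟨mem_Wo'.mpr fun m hm => ?_, mem_Wo'.mpr fun m hm => ?_, a2⟩))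
      · have := mem_Wo'.mp a0 m hm
        omega
      · have := mem_Wo'.mp a1 m hm
        omega
  exact key (d + 1).toNat d (by omega) _ _ _ _ g hg

end Crest.Agent.R169
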