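/-
R169/Span: polynomials with prescribed multiplicities are spanned by products of lines; dimension (part 2 of 2)
-/
import Crest.Agent.R169.SpanA

set_option autoImplicit false
set_option linter.unusedSectionVars false
set_option linter.unusedVariables false
set_option linter.unusedSimpArgs false

noncomputable section

namespace Crest.Agent.R169

open MvPolynomial Filter
open scoped Pointwise


variable {k : Type} [Field k]

theorem Span_mem_Wo {A : Type} [CommRing A] {w0 w1 c : ℤ} {g : MvPolynomial (Fin 2) A} :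
    g ∈ Wo A w0 w1 c ↔ ∀ n ∈ g.support, c ≤ w0 * n 0 + w1 * n 1 := Iff.rfl

theorem Span_mem_Vp {A : Type} [CommRing A] {m0 m1 d1 d2 d : ℤ} {g : MvPolynomial (Fin 2) A} :
    g ∈ Vp A m0 m1 d1 d2 d ↔ (∀ n ∈ g.support, m0 ≤ n 0 + n 1 ∧ (n 0 : ℤ) ≤ d1 ∧
      (n 1 : ℤ) ≤ d2 ∧ (n 0 + n 1 : ℤ) ≤ d) ∧ ∀ n ∈ (tr1 A g).support, m1 ≤ n 0 + n 1 := by
  simp only [Vp, Submodule.mem_inf, Submodule.mem_comap, Span_mem_Wo, AlgHom.toLinearMap_apply]
  constructor
  · rintro ⟨⟨⟨⟨h1, h2⟩, h3⟩, h4⟩, h5⟩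
    refine ⟨fun n hn => ?_, fun n hn => ?_⟩
    · have := h1 n hn
      have := h3 n hn
      have := h4 n hn
      have := h5 n hn
      omega
    · have := h2 n hn
      omega
  · rintro ⟨h1, h2⟩
    refine ⟨⟨⟨⟨fun n hn => ?_, fun n hn => ?_⟩, fun n hn => ?_⟩, fun n hn => ?_⟩, fun n hn => ?_⟩
    · have := h1 n hn
      omega
    · have := h2 n hn
      omega
    all_goals
      have := h1 n hn
      omega

/-- Exponent vectors as pairs. -/
def Span_e : (Fin 2 →₀ ℕ) ≃ ℕ × ℕ := Finsupp.equivFunOnFinite.trans (finTwoArrowEquiv ℕ)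

theorem Span_e_apply (n : Fin 2 →₀ ℕ) : Span_e n = (n 0, n 1) := rfl

/-- The basis of monomials. -/
def Span_basis (S : Finset (ℕ × ℕ)) :
    Module.Basis S k (restrictSupport k {n : Fin 2 →₀ ℕ | (n 0, n 1) ∈ S}) :=
  (basisRestrictSupport k _).reindex (Span_e.subtypeEquiv fun _ => Iff.rfl)

theorem Span_finrank (S : Finset (ℕ × ℕ)) :
    Module.finrank k (restrictSupport k {n : Fin 2 →₀ ℕ | (n 0, n 1) ∈ S}) = S.card := by
  rw [Module.finrank_eq_card_basis (Span_basis S), Fintype.card_coe]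

/-- The triangle `i + j < n`. -/
def Span_tri (n : ℕ) : Finset (ℕ × ℕ) := (Finset.range n).biUnion Finset.HasAntidiagonal.antidiagonal

theorem Span_mem_tri {n : ℕ} {p : ℕ × ℕ} : p ∈ Span_tri n ↔ p.1 + p.2 < n := by
  simp [Span_tri]

theorem Span_card_tri (n : ℕ) : 2 * ((Span_tri n).card : ℤ) = n * (n + 1) := by
  induction n with
  | zero => simp [Span_tri]
  | succ n ih =>
    have h : Span_tri (n + 1) = Span_tri n ∪ Finset.HasAntidiagonal.antidiagonal n := by
      ext p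
      simp only [Span_mem_tri, Finset.mem_union, Finset.HasAntidiagonal.mem_antidiagonal]
      omega
    rw [h, Finset.card_union_of_disjoint, Finset.Nat.card_antidiagonal]
    · push_cast
      linarith
    · refine Finset.disjoint_left.2 fun p h1 h2 => ?_
      rw [Span_mem_tri] at h1
      rw [Finset.HasAntidiagonal.mem_antidiagonal] at h2
      omega

theorem Span_Bd (d : ℤ) :
    Bd k d = restrictSupport k {n : Fin 2 →₀ ℕ | (n 0, n 1) ∈ Span_tri (d + 1).toNat} := by
  unfold Bd Wo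
  congr 1
  ext n
  simp only [Set.mem_ofPred_eq, Span_mem_tri]
  omega

theorem fin_Bd (d : ℤ) : FiniteDimensional k (Bd k d) := by
  rw [Span_Bd]
  exact Module.Finite.of_basis (Span_basis _)

theorem finrank_Bd {d : ℤ} (h : -2 ≤ d) : 2 * (Module.finrank k (Bd k d) : ℤ) = (d + 1) * (d + 2) := by
  rw [Span_Bd, Span_finrank, Span_card_tri]
  rcases eq_or_lt_of_le h with rfl | h
  · simp
  · rw [Int.toNat_of_nonneg (by omega)]
    ring

theorem Bd_eq_bot {d : ℤ} (h : d < 0) : Bd k d = ⊥ := by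
  refine bot_unique fun g hg => ?_
  rw [Submodule.mem_bot, ← support_eq_empty]
  refine Finset.eq_empty_of_forall_notMem fun n hn => ?_
  have := Span_mem_Wo.1 hg n hn
  omega

theorem Span_fin_Vp (m0 m1 d1 d2 d : ℤ) : FiniteDimensional k (Vp k m0 m1 d1 d2 d) :=
  have := fin_Bd (k := k) d
  Submodule.finiteDimensional_of_le (S₂ := Bd k d) inf_le_right

theorem Span_count {m0 d1 d2 d : ℕ} (h2 : d1 ≤ d) (h3 : d2 ≤ d) (h4 : m0 ≤ d1) (h5 : m0 ≤ d2)
    (h9 : d ≤ d1 + d2) :
    (Span_tri (d + 1)).card = ((Span_tri (d + 1)).filter fun p =>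
      m0 ≤ p.1 + p.2 ∧ p.1 ≤ d1 ∧ p.2 ≤ d2).card + (Span_tri m0).card +
        (Span_tri (d - d1)).card + (Span_tri (d - d2)).card := by
  have e1 : (Span_tri (d - d1)).card = ((Span_tri (d + 1)).filter fun p => d1 < p.1).card := by
    refine Finset.card_nbij' (fun p => (p.1 + (d1 + 1), p.2)) (fun p => (p.1 - (d1 + 1), p.2))
      ?_ ?_ ?_ ?_ <;>
    · rintro ⟨a, b⟩ hp
      simp only [Finset.coe_filter, Finset.mem_coe, Span_mem_tri, Set.mem_ofPred_eq,
        Prod.mk.injEq, and_true] at hp ⊢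
      omega
  have e2 : (Span_tri (d - d2)).card = ((Span_tri (d + 1)).filter fun p => d2 < p.2).card := by
    refine Finset.card_nbij' (fun p => (p.1, p.2 + (d2 + 1))) (fun p => (p.1, p.2 - (d2 + 1)))
      ?_ ?_ ?_ ?_ <;>
    · rintro ⟨a, b⟩ hp
      simp only [Finset.coe_filter, Finset.mem_coe, Span_mem_tri, Set.mem_ofPred_eq,
        Prod.mk.injEq, true_and] at hp ⊢
      omega
  rw [e1, e2, ← Finset.card_union_of_disjoint, ← Finset.card_union_of_disjoint,
    ← Finset.card_union_of_disjoint]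
  · congr 1
    ext p
    simp only [Finset.mem_union, Finset.mem_filter, Span_mem_tri]
    omega
  all_goals
    refine Finset.disjoint_left.2 fun p h1 h2 => ?_
    simp only [Finset.mem_union, Finset.mem_filter, Span_mem_tri] at h1 h2
    omega

theorem Span_base {m0 d1 d2 d : ℤ} (h0 : 0 ≤ m0) (h2 : d1 ≤ d) (h3 : d2 ≤ d)
    (h4 : m0 ≤ d1) (h5 : m0 ≤ d2) (h9 : d ≤ d1 + d2) :
    2 * (Module.finrank k (Vp k m0 0 d1 d2 d) : ℤ) = (d + 1) * (d + 2) - m0 * (m0 + 1) -
      (d - d1) * (d - d1 + 1) - (d - d2) * (d - d2 + 1) := by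
  lift m0 to ℕ using h0
  lift d1 to ℕ using by omega
  lift d2 to ℕ using by omega
  lift d to ℕ using by omega
  have e : Vp k m0 0 d1 d2 d = restrictSupport k {n : Fin 2 →₀ ℕ | (n 0, n 1) ∈
      (Span_tri (d + 1)).filter fun p => m0 ≤ p.1 + p.2 ∧ p.1 ≤ d1 ∧ p.2 ≤ d2} := by
    ext g
    rw [Span_mem_Vp, mem_restrictSupport_iff, and_iff_left fun n _ => by omega]
    refine forall_congr' fun n => imp_congr_right fun _ => ?_
    simp only [Set.mem_ofPred_eq, Finset.mem_filter, Span_mem_tri]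
    omega
  have h := Span_count (m0 := m0) (d1 := d1) (d2 := d2) (d := d) (by omega) (by omega) (by omega)
    (by omega) (by omega)
  have t0 := Span_card_tri (d + 1)
  have t1 := Span_card_tri m0
  have t2 := Span_card_tri (d - d1)
  have t3 := Span_card_tri (d - d2)
  rw [Nat.cast_sub (by omega)] at t2 t3
  rw [e, Span_finrank]
  rw [h] at t0
  push_cast at t0
  linarith

/-- The coefficients of degree `m` at the point `(1, 1)`. -/
def Span_phi (k : Type) [Field k] (m : ℕ) : PP k →ₗ[k] (Fin (m + 1) → k) :=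
  LinearMap.pi fun i => lcoeff k (Span_e.symm (i, m - i)) ∘ₗ (tr1 k).toLinearMap

theorem Span_phi_apply (m : ℕ) (g : PP k) (i : Fin (m + 1)) :
    Span_phi k m g i = coeff (Span_e.symm (i, m - i)) (tr1 k g) := rfl

theorem Span_symm_zero (p : ℕ × ℕ) : Span_e.symm p 0 = p.1 := rfl

theorem Span_symm_one (p : ℕ × ℕ) : Span_e.symm p 1 = p.2 := rfl

theorem Span_phi_mon (m s t : ℕ) (i : Fin (m + 1)) :
    Span_phi k m (∏ j, lin k j ^ (![s, t, i, m - i, 0] : Fin 5 → ℕ) j) = Pi.single i 1 := by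
  funext j
  have h1 : tr1 k (∏ j, lin k j ^ (![s, t, i, m - i, 0] : Fin 5 → ℕ) j) =
      monomial (Span_e.symm (i, m - i)) 1 * ((X 0 + 1) ^ s * (X 1 + 1) ^ t) := by
    rw [monomial_eq, Finsupp.prod_fintype _ _ fun _ => pow_zero _]
    simp [Fin.prod_univ_succ, lin, tr1, Span_symm_zero, Span_symm_one]
    ring
  rw [Span_phi_apply, h1, coeff_monomial_mul']
  by_cases h : j = i
  · subst h
    simp [← constantCoeff_eq]
  · rw [if_neg, Pi.single_eq_of_ne h]
    intro h2
    have a0 := h2 0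
    have a1 := h2 1
    simp only [Span_symm_zero, Span_symm_one] at a0 a1
    have := i.2
    have := j.2
    exact h (Fin.ext (by omega))

theorem Span_step {m0 d1 d2 d : ℤ} {m : ℕ} (h0 : 0 ≤ m0) (h6 : m ≤ d1) (h7 : m ≤ d2)
    (h8 : m0 + m ≤ d) (h9 : d ≤ d1 + d2) :
    Module.finrank k (Vp k m0 m d1 d2 d) =
      Module.finrank k (Vp k m0 (m + 1) d1 d2 d) + (m + 1) := by
  have := Span_fin_Vp (k := k) m0 m d1 d2 d
  have h := LinearMap.finrank_range_add_finrank_ker
    ((Span_phi k m).domRestrict (Vp k m0 m d1 d2 d))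
  have hle : Vp k m0 (m + 1) d1 d2 d ≤ Vp k m0 m d1 d2 d := fun g hg =>
    Span_mem_Vp.2 ⟨(Span_mem_Vp.1 hg).1, fun n hn => by
      have := (Span_mem_Vp.1 hg).2 n hn
      omega⟩
  have hker : LinearMap.ker ((Span_phi k m).domRestrict (Vp k m0 m d1 d2 d)) =
      (Vp k m0 (m + 1) d1 d2 d).comap (Vp k m0 m d1 d2 d).subtype := by
    ext ⟨g, hg⟩
    rw [LinearMap.mem_ker, LinearMap.domRestrict_apply, Submodule.mem_comap,
      Submodule.subtype_apply, Span_mem_Vp, and_iff_right (Span_mem_Vp.1 hg).1]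
    constructor
    · intro h1 n hn
      have h2 := (Span_mem_Vp.1 hg).2 n hn
      by_contra h3
      have h4 := congrFun h1 ⟨n 0, by omega⟩
      rw [Span_phi_apply] at h4
      have h5 : Span_e.symm (n 0, m - n 0) = n := by
        rw [Equiv.symm_apply_eq, Span_e_apply]
        congr 1
        omega
      exact mem_support_iff.1 hn (h5 ▸ h4)
    · intro h1
      funext i
      by_contra h2
      have h3 := h1 _ (mem_support_iff.2 h2)
      simp only [Span_symm_zero, Span_symm_one] at h3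
      have := i.2
      omega
  have hr : LinearMap.range ((Span_phi k m).domRestrict (Vp k m0 m d1 d2 d)) = ⊤ := by
    refine top_unique fun z _ => ?_
    rw [← Finset.univ_sum_single z]
    refine Submodule.sum_mem _ fun i _ => ?_
    have hi := i.2
    obtain ⟨s, t, hst⟩ : ∃ s t : ℕ, (s + t : ℤ) = m0 ∧ (s + i : ℤ) ≤ d1 ∧ (t + m - i : ℤ) ≤ d2 :=
      ⟨(min m0 (d1 - i)).toNat, (m0 - min m0 (d1 - i)).toNat, by omega⟩
    have h1 : ∏ j, lin k j ^ (![s, t, i, m - i, 0] : Fin 5 → ℕ) j ∈ Vp k m0 m d1 d2 d := by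
      refine Mons_subset _ _ _ _ _ ⟨_, rfl, ?_⟩
      simp only [Matrix.cons_val]
      omega
    have h2 : (Pi.single i (z i) : Fin (m + 1) → k) = z i • Pi.single i 1 := by
      rw [← Pi.single_smul, smul_eq_mul, mul_one]
    rw [h2]
    exact Submodule.smul_mem _ _ ⟨⟨_, h1⟩, Span_phi_mon m s t i⟩
  rw [hker, hr, (Submodule.comapSubtypeEquivOfLe hle).finrank_eq, finrank_top,
    Module.finrank_fin_fun] at h
  rw [add_comm]
  exact h.symm

/-- Recipe.  Induction on `m1`.  For `m1 = 0` count the monomials `a^s b^t`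
(`basisRestrictSupport`).  The map `Vp m0 m d1 d2 d → (Fin (m+1) → k)`, coefficients of degree `m`
of `tr1 g`, has kernel `Vp m0 (m+1) d1 d2 d` and is onto if `m ≤ m1` (elements of `Vp_span`). -/
theorem finrank_Vp {m0 m1 d1 d2 d : ℤ} (h0 : 0 ≤ m0) (h1 : 0 ≤ m1) (h2 : d1 ≤ d) (h3 : d2 ≤ d)
    (h4 : m0 ≤ d1) (h5 : m0 ≤ d2) (h6 : m1 ≤ d1) (h7 : m1 ≤ d2) (h8 : m0 + m1 ≤ d)
    (h9 : d ≤ d1 + d2) :
    2 * (Module.finrank k (Vp k m0 m1 d1 d2 d) : ℤ) = (d + 1) * (d + 2) - m0 * (m0 + 1) -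
      m1 * (m1 + 1) - (d - d1) * (d - d1 + 1) - (d - d2) * (d - d2 + 1) := by
  lift m1 to ℕ using h1
  induction m1 with
  | zero =>
    have := Span_base (k := k) h0 h2 h3 h4 h5 h9
    push_cast
    linarith
  | succ m ih =>
    have e1 := ih (by omega) (by omega) (by omega)
    rw [Span_step h0 (by omega) (by omega) (by omega) h9] at e1
    push_cast at e1 ⊢
    linarith

theorem Span_tr1_map {A B : Type} [CommRing A] [CommRing B] (ρ : A →+* B)
    (g : MvPolynomial (Fin 2) A) : tr1 B (map ρ g) = map ρ (tr1 A g) := by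
  induction g using MvPolynomial.induction_on with
  | C a => simp [tr1]
  | add p q hp hq => simp only [map_add, hp, hq]
  | mul_X p i hp =>
    rw [map_mul, map_mul, map_mul, map_mul, hp]
    simp [tr1]

/-- Change of coefficients. -/
theorem map_mem_Vp {A B : Type} [CommRing A] [CommRing B] (ρ : A →+* B) {m0 m1 d1 d2 d : ℤ}
    {g : MvPolynomial (Fin 2) A} (hg : g ∈ Vp A m0 m1 d1 d2 d) :
    map ρ g ∈ Vp B m0 m1 d1 d2 d := by
  rw [Span_mem_Vp] at hg ⊢
  rw [Span_tr1_map]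
  exact ⟨fun n hn => hg.1 n (support_map_subset _ _ hn),
    fun n hn => hg.2 n (support_map_subset _ _ hn)⟩

theorem mem_Vp_of_map {A B : Type} [CommRing A] [CommRing B] {ρ : A →+* B}
    (hρ : Function.Injective ρ) {m0 m1 d1 d2 d : ℤ} {g : MvPolynomial (Fin 2) A}
    (hg : map ρ g ∈ Vp B m0 m1 d1 d2 d) : g ∈ Vp A m0 m1 d1 d2 d := by
  rw [Span_mem_Vp] at hg ⊢
  rwa [Span_tr1_map, support_map_of_injective _ hρ, support_map_of_injective _ hρ] at hg

end Crest.Agent.R169
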