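/-
R169/CCA: the spaces `CC k α` (part 1 of 2)
-/
import Crest.Agent.R169.Span

set_option autoImplicit false
set_option linter.unusedSectionVars false
set_option linter.unusedVariables false
set_option linter.unusedSimpArgs false

noncomputable section

namespace Crest.Agent.R169

open MvPolynomial Filter
open scoped Pointwise


variable {k : Type} [Field k]

theorem mon_mem {β : Ex} {α : Dg} (h : 0 ≤ (7 : ℤ) • dv β + α) : mon k β ∈ CC k α :=
  Submodule.subset_span ⟨β, h, rfl⟩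

theorem one_mem_CC {α : Dg} (h : 0 ≤ α) : (1 : KK k) ∈ CC k α := by
  simpa using mon_mem (k := k) (β := 0) (α := α) (by simpa using h)

theorem mul_mem_CC {α β : Dg} {f g : KK k} (hf : f ∈ CC k α) (hg : g ∈ CC k β) :
    f * g ∈ CC k (α + β) := by
  have := Submodule.mul_mem_mul hf hg
  rw [CC, CC, Submodule.span_mul_span] at this
  refine Submodule.span_mono ?_ this
  rintro _ ⟨_, ⟨a, ha, rfl⟩, _, ⟨b, hb, rfl⟩, rfl⟩
  refine ⟨a + b, ?_, mon_add a b⟩
  have := add_nonneg (show (0 : Dg) ≤ _ from ha) (show (0 : Dg) ≤ _ from hb)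
  rw [Set.mem_ofPred_eq, map_add, smul_add, add_add_add_comm]
  exact this

theorem pow_mem_CC {α : Dg} {f : KK k} (hf : f ∈ CC k α) (n : ℕ) :
    f ^ n ∈ CC k ((n : ℤ) • α) := by
  induction n with
  | zero => simpa using one_mem_CC (k := k) le_rfl
  | succ n ih =>
    rw [pow_succ, Nat.cast_succ, add_smul, one_smul]
    exact mul_mem_CC ih hf

theorem prod_mem_CC {ι : Type} (s : Finset ι) {f : ι → KK k} {α : ι → Dg}
    (h : ∀ i ∈ s, f i ∈ CC k (α i)) : ∏ i ∈ s, f i ∈ CC k (∑ i ∈ s, α i) := by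
  classical
  induction s using Finset.induction_on with
  | empty => simpa using one_mem_CC (k := k) le_rfl
  | insert a s ha ih =>
    rw [Finset.prod_insert ha, Finset.sum_insert ha]
    exact mul_mem_CC (h a (Finset.mem_insert_self _ _))
      (ih fun i hi => h i (Finset.mem_insert_of_mem hi))

theorem det_mem_CC {r : ℕ} {x : Fin r → Fin r → KK k} {α : Fin r → Dg}
    (h : ∀ i j, x i j ∈ CC k (α i)) : (Matrix.of x).det ∈ CC k (∑ i, α i) := by
  rw [← Matrix.det_transpose, Matrix.det_apply]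
  refine Submodule.sum_mem _ fun σ _ => ?_
  rw [Units.smul_def]
  exact zsmul_mem (prod_mem_CC _ fun i _ => h i _) _

theorem CC_mono {α β : Dg} (h : α ≤ β) : CC k α ≤ CC k β := by
  refine Submodule.span_mono (Set.image_mono fun γ hγ => ?_)
  exact le_trans hγ (add_le_add le_rfl h)

theorem finite_mons (α : Dg) : {β : Ex | 0 ≤ (7 : ℤ) • dv β + α}.Finite := by
  refine (Set.finite_Icc (fun j : Fin 5 => -(α (Fin.castLE (by norm_num) j) / 7))
    fun j => α 9 / 7 + α 0 / 7 + α 1 / 7 + α 2 / 7 + α 3 / 7 + α 4 / 7 -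
      α (Fin.castLE (by norm_num) j) / 7).subset fun β hβ => ?_
  have h := dg_forall.mp (Pi.le_def.mp hβ)
  simp only [Pi.add_apply, Pi.smul_apply, smul_eq_mul, Pi.zero_apply, dv_0, dv_1, dv_2, dv_3, dv_4,
    dv_9] at h
  refine ⟨ex_forall.mpr ?_, ex_forall.mpr ?_⟩ <;> simp <;> omega

instance fin_CC (α : Dg) : FiniteDimensional k (CC k α) := by
  exact FiniteDimensional.span_of_finite k ((finite_mons α).image _)

theorem exists_mon_of_ne {α : Dg} {f : KK k} (hf : f ∈ CC k α) (h0 : f ≠ 0) :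
    ∃ β : Ex, 0 ≤ (7 : ℤ) • dv β + α := by
  by_contra hc
  rw [CC, Set.eq_empty_of_forall_notMem (s := {β : Ex | 0 ≤ (7 : ℤ) • dv β + α})
    fun β hβ => hc ⟨β, hβ⟩] at hf
  simp [h0] at hf

theorem deg_nonneg_of_mem {α : Dg} {f : KK k} (hf : f ∈ CC k α) (h0 : f ≠ 0) : 0 ≤ deg α := by
  obtain ⟨β, hβ⟩ := exists_mon_of_ne hf h0
  have := deg_nonneg hβ
  rwa [deg_add, deg_smul, deg_dv, mul_zero, zero_add] at this

theorem CC_eq_bot {α : Dg} (h : deg α < 0) : CC k α = ⊥ := by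
  refine (Submodule.eq_bot_iff _).mpr fun f hf => ?_
  by_contra h0
  exact absurd (deg_nonneg_of_mem hf h0) (not_le.mpr h)

theorem CCA_val {α : Dg} {f : KK k} (hf : f ∈ CC k α) : f = 0 ∨ ∀ π, 0 ≤ val π f α := by
  induction hf using Submodule.span_induction with
  | mem x hx =>
    obtain ⟨β, hβ, rfl⟩ := hx
    refine Or.inr ?_
    rintro (i | q)
    · rw [val_mon_inl]; exact hβ i
    · rw [val_mon_inr]
  | zero => exact Or.inl rfl
  | add a b _ _ ha hb =>
    by_cases h0 : a = 0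
    · simpa [h0] using hb
    by_cases h1 : b = 0
    · simpa [h1] using ha
    by_cases h2 : a + b = 0
    · exact Or.inl h2
    exact Or.inr fun π => le_val_add π h0 h1 h2 (ha.resolve_left h0 π) (hb.resolve_left h1 π)
  | smul c a _ ha =>
    by_cases hc : c = 0
    · simp [hc]
    · exact ha.imp (fun h => by rw [h, smul_zero]) fun h π => by rw [val_smul π hc]; exact h π

theorem CCA_poly {α : Dg} {f : KK k} (hf : f ≠ 0) (h : ∀ π, 0 ≤ val π f α) :
    ∃ g ∈ VC k α, f = mon k (nrm α) * algebraMap (PP k) (KK k) g := by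
  have hf' := mul_ne_zero hf (mon_ne_zero (k := k) (-nrm α))
  have h' : ∀ π, 0 ≤ val π (f * mon k (-nrm α)) (α + (7 : ℤ) • dv (nrm α)) := fun π => by
    rw [val_mul π hf (mon_ne_zero _)]
    refine add_nonneg (h π) (le_of_eq ?_)
    rcases π with i | q
    · simp [val_mon_inl]
    · rw [val_mon_inr]
  obtain ⟨g, hg⟩ := exists_poly hf' (fun q => h' (.inr q)) fun j => by
    obtain ⟨v, hv⟩ := val_inl_mod (Fin.castLE (by norm_num) j) (f * mon k (-nrm α))
    have := h' (.inl (Fin.castLE (by norm_num) j))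
    rw [hv, Pi.add_apply, Pi.smul_apply, dv_castLE, nrm, smul_eq_mul] at this
    rw [hv, Pi.zero_apply]
    omega
  have hg0 : g ≠ 0 := fun h => hf' (by rw [hg, h, map_zero])
  refine ⟨g, (mem_Vp_iff_pv hg0).mpr ?_, ?_⟩
  · have h2 : ∀ i, -((α + (7 : ℤ) • dv (nrm α)) i / 7) ≤ pv i g := fun i => by
      have := h' (.inl i)
      rw [hg, val_inl_poly i hg0] at this
      omega
    exact ⟨h2 5, h2 6, h2 7, h2 8, h2 9⟩
  · rw [← hg, mon_neg, mul_left_comm, mul_inv_cancel₀ (mon_ne_zero _), mul_one]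

theorem CCA_nrm0 (α : Dg) : nrm α 0 = -(α 0 / 7) := rfl
theorem CCA_nrm1 (α : Dg) : nrm α 1 = -(α 1 / 7) := rfl
theorem CCA_nrm2 (α : Dg) : nrm α 2 = -(α 2 / 7) := rfl
theorem CCA_nrm3 (α : Dg) : nrm α 3 = -(α 3 / 7) := rfl
theorem CCA_nrm4 (α : Dg) : nrm α 4 = -(α 4 / 7) := rfl

theorem CCA_of_poly {α : Dg} {g : PP k} (hg : g ∈ VC k α) :
    mon k (nrm α) * algebraMap (PP k) (KK k) g ∈ CC k α := by
  have := Vp_span hg
  clear hg
  induction this using Submodule.span_induction with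
  | mem x hx =>
    obtain ⟨e, rfl, he⟩ := hx
    rw [← mon_natCast, ← mon_add]
    refine mon_mem (Pi.le_def.mpr (dg_forall.mpr ?_))
    simp only [Pi.add_apply, Pi.smul_apply, smul_eq_mul, Pi.zero_apply, dv_0, dv_1, dv_2, dv_3,
      dv_4, dv_5, dv_6, dv_7, dv_8, dv_9, CCA_nrm0, CCA_nrm1, CCA_nrm2, CCA_nrm3, CCA_nrm4] at he ⊢
    omega
  | zero => simp
  | add a b _ _ ha hb => rw [map_add, mul_add]; exact add_mem ha hb
  | smul c a _ ha =>
    rw [Algebra.smul_def, map_mul, ← IsScalarTower.algebraMap_apply, mul_left_comm,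
      ← Algebra.smul_def]
    exact Submodule.smul_mem _ _ ha

/-- The description by valuations.  Recipe: `→` by `le_val_sum`/span induction and `val_mon_*`;
`←`: `f * mon (-nrm α)` is a polynomial (`exists_poly`) in `VC k α`; use `Vp_span`. -/
theorem mem_CC {α : Dg} {f : KK k} : f ∈ CC k α ↔ f = 0 ∨ ∀ π, 0 ≤ val π f α := by
  refine ⟨CCA_val, fun h => ?_⟩
  by_cases hf : f = 0
  · rw [hf]; exact zero_mem _
  · obtain ⟨g, hg, rfl⟩ := CCA_poly hf (h.resolve_left hf)
    exact CCA_of_poly hg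

theorem mem_CC_poly {α : Dg} {f : KK k} :
    f ∈ CC k α ↔ ∃ g ∈ VC k α, f = mon k (nrm α) * algebraMap (PP k) (KK k) g := by
  refine ⟨fun h => ?_, fun ⟨g, hg, e⟩ => e ▸ CCA_of_poly hg⟩
  by_cases hf : f = 0
  · exact ⟨0, zero_mem _, by simp [hf]⟩
  · exact CCA_poly hf ((CCA_val h).resolve_left hf)

/-- Riemann-Roch on the del Pezzo surface for nef classes (`finrank_Vp`). -/
theorem finrank_CC {α : Dg} (h : ∀ i, 0 ≤ ip (cl fun l => α l / 7) (cl (Pi.single i 1))) :
    2 * (Module.finrank k (CC k α) : ℤ) =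
      2 + ip (cl fun l => α l / 7) (cl fun l => α l / 7) + ip (cl fun l => α l / 7) Lc := by
  let φ : PP k →ₗ[k] KK k := LinearMap.mulLeft k (mon k (nrm α)) ∘ₗ
    (IsScalarTower.toAlgHom k (PP k) (KK k)).toLinearMap
  have hφ : Function.Injective φ := fun a b hab =>
    IsFractionRing.injective (PP k) (KK k) (mul_left_cancel₀ (mon_ne_zero (nrm α)) hab)
  have e : CC k α = (VC k α).map φ := by
    ext f
    rw [mem_CC_poly, Submodule.mem_map]
    exact exists_congr fun g => and_congr_right fun _ => eq_comm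
  have e7 : ∀ i, (α + (7 : ℤ) • dv (nrm α)) i / 7 = α i / 7 + dv (nrm α) i := fun i => by
    rw [Pi.add_apply, Pi.smul_apply, smul_eq_mul]; omega
  have e2 : VC k α = Vp k (-cl (fun l => α l / 7) 1) (-cl (fun l => α l / 7) 2)
      (cl (fun l => α l / 7) 0 + cl (fun l => α l / 7) 3)
      (cl (fun l => α l / 7) 0 + cl (fun l => α l / 7) 4) (cl (fun l => α l / 7) 0) := by
    simp only [VC, e7, dv_5, dv_6, dv_7, dv_8, dv_9, CCA_nrm0, CCA_nrm1, CCA_nrm2, CCA_nrm3,
      CCA_nrm4, cl_0, cl_1, cl_2, cl_3, cl_4]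
    congr 1 <;> ring
  generalize cl (fun l => α l / 7) = D at h e2 ⊢
  have h' := dg_forall.mp h
  simp [ip, cl_0, cl_1, cl_2, cl_3, cl_4] at h'
  rw [e, ← (Submodule.equivMapOfInjective φ hφ _).finrank_eq, e2,
    finrank_Vp (by omega) (by omega) (by omega) (by omega) (by omega) (by omega) (by omega)
    (by omega) (by omega) (by omega)]
  simp [ip, Lc]
  ring

end Crest.Agent.R169
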