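/-
R169/CC: the spaces `CC k α` (part 2 of 2)
-/
import Crest.Agent.R169.CCA

set_option autoImplicit false
set_option linter.unusedSectionVars false
set_option linter.unusedVariables false
set_option linter.unusedSimpArgs false

noncomputable section

namespace Crest.Agent.R169

open MvPolynomial Filter
open scoped Pointwise


variable {k : Type} [Field k]

/-- Homogeneous units.  Recipe: `f ∈ CC α` and `f⁻¹ ∈ CC (-α)` give `deg α = 0` and
`7 dv β + α = 0` for some `β`. -/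
theorem cl_eq_zero_of_unit {f : KK k} (hf : f ≠ 0) {α : Dg} (h : ∀ π, val π f α = 0) :
    cl α = 0 := by
  have h1 : f ∈ CC k α := mem_CC.mpr (Or.inr fun π => (h π).ge)
  have h2 : f⁻¹ ∈ CC k (-α) := mem_CC.mpr (Or.inr fun π => by rw [val_inv π hf, h π]; rfl)
  have h3 := deg_nonneg_of_mem h2 (inv_ne_zero hf)
  obtain ⟨β, hβ⟩ := exists_mon_of_ne h1 hf
  have h4 : ∑ i, ((7 : ℤ) • dv β + α) i = 0 := by
    have h5 := deg_nonneg hβ
    rw [deg_neg] at h3
    have h6 : deg ((7 : ℤ) • dv β + α) = deg α := by rw [deg_add, deg_smul, deg_dv]; ring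
    change deg _ = 0
    omega
  have h5 : (7 : ℤ) • dv β + α = 0 :=
    funext fun i => (Finset.sum_eq_zero_iff_of_nonneg fun i _ => hβ i).mp h4 i (Finset.mem_univ i)
  rw [← neg_eq_of_add_eq_zero_right h5, map_neg, map_zsmul, cl_dv, smul_zero, neg_zero]

theorem cl_eq_of_val_eq {f g : KK k} (hf : f ≠ 0) (hg : g ≠ 0) {α β : Dg}
    (h : ∀ π, val π f α = val π g β) : cl α = cl β := by
  have := cl_eq_zero_of_unit (div_ne_zero hf hg) (α := α - β) fun π => by
    rw [val_div π hf hg, h, sub_self]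
  rwa [map_sub, sub_eq_zero] at this

theorem val_one_zero' (π : Pr k) : val π (1 : KK k) 0 = 0 := by
  simpa using val_const π (one_ne_zero (α := k))

theorem val_zpow' (π : Pr k) {f : KK k} (hf : f ≠ 0) (α : Dg) (n : ℤ) :
    val π (f ^ n) (n • α) = n * val π f α := by
  obtain ⟨m, rfl | rfl⟩ := Int.eq_nat_or_neg n
  · rw [zpow_natCast, val_pow π hf]
  · rw [zpow_neg, zpow_natCast, neg_smul, val_inv π (pow_ne_zero _ hf), val_pow π hf, neg_mul]

/-- Every divisor is principal. -/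
theorem exists_val_eq (d : Pr k → ℤ) (hd : {π | d π ≠ 0}.Finite) :
    ∃ (g : KK k) (γ : Dg), g ≠ 0 ∧ ∀ π, val π g γ = d π := by
  classical
  choose g δ h using exists_isPE (k := k)
  have key : ∀ s : Finset (Pr k), ∀ π, val π (∏ i ∈ s, g i ^ d i) (∑ i ∈ s, d i • δ i) =
      if π ∈ s then d π else 0 := fun s π => by
    induction s using Finset.induction_on with
    | empty => simpa using val_one_zero' π
    | insert a s ha ih =>
      rw [Finset.prod_insert ha, Finset.sum_insert ha, val_mul π (zpow_ne_zero _ (h a).1)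
        (Finset.prod_ne_zero_iff.mpr fun i _ => zpow_ne_zero _ (h i).1), ih,
        val_zpow' π (h a).1, (h a).2]
      by_cases e : π = a
      · subst e; simp [ha]
      · simp [e]
  refine ⟨∏ i ∈ hd.toFinset, g i ^ d i, ∑ i ∈ hd.toFinset, d i • δ i,
    Finset.prod_ne_zero_iff.mpr fun i _ => zpow_ne_zero (d i) (h i).1, fun π => ?_⟩
  rw [key hd.toFinset]
  split_ifs with e
  · rfl
  · simpa [eq_comm] using e

theorem IsPE.mem {π : Pr k} {g : KK k} {δ : Dg} (h : IsPE π g δ) : g ∈ CC k δ :=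
  mem_CC.mpr (Or.inr fun π' => by rw [h.2]; split_ifs <;> norm_num)

theorem IsPE.div_mem {π : Pr k} {g f : KK k} {δ α : Dg} (h : IsPE π g δ) (hf : f ∈ CC k α)
    (h0 : f ≠ 0) (hv : val π f α ≠ 0) : f / g ∈ CC k (α - δ) := by
  refine mem_CC.mpr (Or.inr fun π' => ?_)
  have := (mem_CC.mp hf).resolve_left h0 π'
  rw [val_div π' h0 h.1, h.2]
  split_ifs with e
  · subst e; omega
  · omega

theorem exists_den_aux {ι : Type} [Finite ι] (f : ι → KK k) (α : ι → Dg) :
    ∃ u β, u ≠ 0 ∧ u ∈ CC k β ∧ (∀ π, (∀ i, f i = 0 ∨ 0 ≤ val π (f i) (α i)) → val π u β = 0) ∧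
      ∀ i, u * f i ∈ CC k (β + α i) := by
  classical
  have := Fintype.ofFinite ι
  let d : Pr k → ℤ := fun π => ∑ i, if f i = 0 then 0 else max 0 (-val π (f i) (α i))
  have h0 : ∀ π i, 0 ≤ (if f i = 0 then 0 else max 0 (-val π (f i) (α i))) := fun π i => by
    split_ifs
    · rfl
    · exact le_max_left _ _
  have hd : {π | d π ≠ 0}.Finite := by
    refine (Set.finite_iUnion fun i : {i // f i ≠ 0} => val_finite i.2 (α i)).subset fun π hπ => ?_
    obtain ⟨i, -, hi⟩ := Finset.exists_ne_zero_of_sum_ne_zero hπ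
    by_cases e : f i = 0
    · simp [e] at hi
    · refine Set.mem_iUnion.mpr ⟨⟨i, e⟩, fun h => hi ?_⟩
      rw [if_neg e, h]; rfl
  obtain ⟨u, β, hu, hv⟩ := exists_val_eq d hd
  refine ⟨u, β, hu, mem_CC.mpr (Or.inr fun π => hv π ▸ Finset.sum_nonneg fun i _ => h0 π i),
    fun π h => ?_, fun i => ?_⟩
  · rw [hv]
    refine Finset.sum_eq_zero fun i _ => ?_
    split_ifs with e
    · rfl
    · have := (h i).resolve_left e
      omega
  · by_cases e : f i = 0
    · rw [e, mul_zero]; exact Submodule.zero_mem _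
    refine mem_CC.mpr (Or.inr fun π => ?_)
    have h1 := Finset.single_le_sum (fun i _ => h0 π i) (Finset.mem_univ i)
    rw [if_neg e] at h1
    rw [val_mul π hu e, hv]
    have h2 := le_max_right 0 (-val π (f i) (α i))
    simp only [d]
    omega

/-- Common denominators. -/
theorem exists_den {ι : Type} [Finite ι] (f : ι → KK k) (α : ι → Dg) :
    ∃ u β, u ≠ 0 ∧ u ∈ CC k β ∧ ∀ i, u * f i ∈ CC k (β + α i) := by
  obtain ⟨u, β, h1, h2, -, h3⟩ := exists_den_aux f α
  exact ⟨u, β, h1, h2, h3⟩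

/-- Common denominators prime to `π`. -/
theorem exists_den_at (π : Pr k) {ι : Type} [Finite ι] (f : ι → KK k) (α : ι → Dg)
    (h : ∀ i, f i = 0 ∨ 0 ≤ val π (f i) (α i)) :
    ∃ u β, u ≠ 0 ∧ u ∈ CC k β ∧ val π u β = 0 ∧ ∀ i, u * f i ∈ CC k (β + α i) := by
  obtain ⟨u, β, h1, h2, h3, h4⟩ := exists_den_aux f α
  exact ⟨u, β, h1, h2, h3 π h, h4⟩

/-! ### The parameters -/

theorem yy_mem (i : Fin 2) : yy k i ∈ CC k ((14 : ℤ) • ζ) := by
  fin_cases i
  · exact mon_mem fun i => by revert i; decide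
  · have h : ∀ m i, (0 : Dg) i ≤ ((7 : ℤ) • dv (βn m) + (14 : ℤ) • ζ) i := by decide
    change ∑ m, mon k (βn m) ∈ _
    exact Submodule.sum_mem _ fun m _ => mon_mem (h m)

theorem yy0_ne_zero : yy k 0 ≠ 0 := mon_ne_zero _

theorem val_yy0_inl (i : Fin 10) : val (.inl i) (yy k 0) ((14 : ℤ) • ζ) = 14 * (1 - ζ i) := by
  rw [show yy k 0 = mon k ((2 : ℤ) • βz) from rfl, val_mon_inl]
  revert i; decide

theorem yy0_pow_mem {α : Dg} {s : ℕ} (h : ∀ i, 0 ≤ α i + 14 * s) :
    yy k 0 ^ s ∈ CC k (α + (28 * s : ℤ) • ζ) := by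
  rw [show yy k 0 = mon k ((2 : ℤ) • βz) from rfl, ← zpow_natCast, ← mon_zsmul]
  refine mon_mem fun i => ?_
  have h1 : dv βz i = 1 - 2 * ζ i := by revert i; decide
  have h2 := h i
  simp only [map_zsmul, Pi.add_apply, Pi.smul_apply, smul_eq_mul, h1, Pi.zero_apply]
  linarith

/-- A member of the pencil `yy 0 - c` prime to the ten lines and to a given `h`. -/
theorem exists_pencil [Infinite k] {h : KK k} (hh : h ≠ 0) :
    ∃ g : KK k, g ≠ 0 ∧ g ∈ CC k ((14 : ℤ) • ζ) ∧ (∀ i, val (.inl i) g ((14 : ℤ) • ζ) = 0) ∧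
      ∀ q, val (.inr q) g 0 = 0 ∨ val (.inr q) h 0 = 0 := by
  have hc : ∀ c : k, algebraMap k (KK k) c ∈ CC k ((14 : ℤ) • ζ) := fun c => by
    rw [Algebra.algebraMap_eq_smul_one]
    exact Submodule.smul_mem _ _ (one_mem_CC fun i => by revert i; decide)
  have hv : ∀ (c : k), c ≠ 0 → ∀ i, val (.inl i) (algebraMap k (KK k) c) ((14 : ℤ) • ζ) = 14 * ζ i :=
    fun c h0 i => by
      have := val_inl_add i (algebraMap k (KK k) c) 0 ((14 : ℤ) • ζ)
      rw [zero_add, val_const _ h0, zero_add] at this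
      exact this
  have hn : ∀ c : k, c ≠ 0 → algebraMap k (KK k) c ≠ 0 := fun c h0 => by simpa using h0
  have key : ∀ c : k, c ≠ 0 → ∀ i, yy k 0 + algebraMap k (KK k) c ≠ 0 ∧
      val (.inl i) (yy k 0 + algebraMap k (KK k) c) ((14 : ℤ) • ζ) = 0 := fun c h0 i => by
    rcases (by revert i; decide : ζ i = 0 ∨ ζ i = 1) with e | e
    · have := val_add_of_lt (.inl i) (hn c h0) yy0_ne_zero (α := (14 : ℤ) • ζ)
        (by rw [hv c h0, val_yy0_inl, e]; norm_num)
      rwa [add_comm, hv c h0, e] at this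
    · have := val_add_of_lt (.inl i) yy0_ne_zero (hn c h0) (α := (14 : ℤ) • ζ)
        (by rw [hv c h0, val_yy0_inl, e]; norm_num)
      rwa [val_yy0_inl, e] at this
  have hm : ∀ c : k, yy k 0 + algebraMap k (KK k) c ∈ CC k ((14 : ℤ) • ζ) := fun c =>
    Submodule.add_mem _ (yy_mem 0) (hc c)
  have hb : ∀ π : Pr k, {c : k | c ≠ 0 ∧ ∃ q, π = .inr q ∧
      val (.inr q) (yy k 0 + algebraMap k (KK k) c) 0 ≠ 0}.Subsingleton := by
    rintro _ c ⟨h0, q, rfl, h1⟩ c' ⟨h0', q', e, h1'⟩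
    obtain rfl := Sum.inr_injective e
    by_contra hne
    have a1 := (mem_CC.mp (hm c)).resolve_left (key c h0 0).1 (.inr q)
    have a2 := (mem_CC.mp (hm c')).resolve_left (key c' h0' 0).1 (.inr q)
    rw [val_inr_eq q _ _ 0] at a1 a2
    have e1 : yy k 0 + algebraMap k (KK k) c + -(yy k 0 + algebraMap k (KK k) c') =
        algebraMap k (KK k) (c - c') := by rw [map_sub]; ring
    have a3 := le_val_add (.inr q) (key c h0 0).1 (neg_ne_zero.mpr (key c' h0' 0).1)
      (by rw [e1]; exact hn _ (sub_ne_zero.mpr hne)) (α := 0) (c := 1) (by omega)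
      (by rw [val_neg]; omega)
    rw [e1, val_const _ (sub_ne_zero.mpr hne)] at a3
    omega
  obtain ⟨c, hc'⟩ := (((val_finite hh 0).biUnion fun π _ => (hb π).finite).insert 0).exists_notMem
  have h0 : c ≠ 0 := fun e => hc' (Or.inl e)
  refine ⟨_, (key c h0 0).1, hm c, fun i => (key c h0 i).2, fun q => ?_⟩
  by_contra hq
  push Not at hq
  exact hc' (Or.inr (Set.mem_biUnion (x := .inr q) hq.2 ⟨h0, q, rfl, hq.1⟩))

end Crest.Agent.R169
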