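/-
R169/FamA: basic API for families, lattices, Hilbert functions (part 1 of 6)
-/
import Crest.Agent.R169.CC

set_option autoImplicit false
set_option linter.unusedSectionVars false
set_option linter.unusedVariables false
set_option linter.unusedSimpArgs false

noncomputable section

namespace Crest.Agent.R169

open MvPolynomial Filter
open scoped Pointwise


variable {k : Type} [Field k] {V V' : Type} [AddCommGroup V] [Module k V] [Module (KK k) V]
  [IsScalarTower k (KK k) V] [AddCommGroup V'] [Module k V'] [Module (KK k) V']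
  [IsScalarTower k (KK k) V']

/-! ### Generation -/

theorem gen_stable (S : Set (V × Dg)) : Stable (gen k S) := by
  intro α β f x hf hx
  induction hx using Submodule.span_induction with
  | mem y hy =>
    obtain ⟨p, hp, g, hg, rfl⟩ := hy
    refine Submodule.subset_span ⟨p, hp, f * g, ?_, by rw [mul_smul]⟩
    have := mul_mem_CC hf hg
    rwa [← add_sub_assoc] at this
  | zero => rw [smul_zero]; exact Submodule.zero_mem _
  | add x y _ _ hx hy => rw [smul_add]; exact Submodule.add_mem _ hx hy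
  | smul c x _ hx => rw [smul_comm]; exact Submodule.smul_mem _ c hx

theorem mem_gen {S : Set (V × Dg)} {x : V} {α : Dg} (h : (x, α) ∈ S) : x ∈ gen k S α := by
  exact Submodule.subset_span ⟨(x, α), h, 1, one_mem_CC (by simp), by simp⟩

theorem gen_le {S : Set (V × Dg)} {G : Fam k V} (hG : Stable G) (h : ∀ p ∈ S, p.1 ∈ G p.2) :
    gen k S ≤ G := by
  intro α
  refine Submodule.span_le.mpr ?_
  rintro _ ⟨p, hp, f, hf, rfl⟩
  have := hG hf (h p hp)
  rwa [sub_add_cancel] at this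

theorem gen_mono {S T : Set (V × Dg)} (h : S ⊆ T) : gen k S ≤ gen k T := by
  exact gen_le (gen_stable T) fun p hp => mem_gen (h hp)

theorem gen_union (S T : Set (V × Dg)) : gen k (S ∪ T) = gen k S ⊔ gen k T := by
  funext α
  rw [Pi.sup_apply, gen, gen, gen, ← Submodule.span_union]
  congr 1
  ext y
  simp only [Set.mem_ofPred_eq, Set.mem_union]
  constructor
  · rintro ⟨p, hp | hp, h⟩
    · exact Or.inl ⟨p, hp, h⟩
    · exact Or.inr ⟨p, hp, h⟩
  · rintro (⟨p, hp, h⟩ | ⟨p, hp, h⟩)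
    · exact ⟨p, Or.inl hp, h⟩
    · exact ⟨p, Or.inr hp, h⟩

theorem FamA_mem_gen_range {ι : Type} [Fintype ι] {x : ι → V} {α : ι → Dg} {y : V} {β : Dg} :
    y ∈ gen k (Set.range fun i => (x i, α i)) β ↔
      ∃ f : ι → KK k, (∀ i, f i ∈ CC k (β - α i)) ∧ y = ∑ i, f i • x i := by
  classical
  constructor
  · intro hy
    induction hy using Submodule.span_induction with
    | mem y hy =>
      obtain ⟨_, ⟨i, rfl⟩, g, hg, rfl⟩ := hy
      refine ⟨Pi.single i g, fun j => ?_, ?_⟩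
      · by_cases h : j = i
        · subst h; simpa using hg
        · simp [h]
      · rw [Finset.sum_eq_single i (fun j _ hj => by simp [hj]) (by simp)]
        simp
    | zero => exact ⟨0, fun _ => Submodule.zero_mem _, by simp⟩
    | add y z _ _ hy hz =>
      obtain ⟨f, hf, rfl⟩ := hy
      obtain ⟨g, hg, rfl⟩ := hz
      exact ⟨f + g, fun i => Submodule.add_mem _ (hf i) (hg i), by
        simp [add_smul, Finset.sum_add_distrib]⟩
    | smul c y _ hy =>
      obtain ⟨f, hf, rfl⟩ := hy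
      exact ⟨c • f, fun i => Submodule.smul_mem _ c (hf i), by
        simp [Finset.smul_sum, smul_assoc]⟩
  · rintro ⟨f, hf, rfl⟩
    exact Submodule.sum_mem _ fun i _ =>
      Submodule.subset_span ⟨(x i, α i), ⟨i, rfl⟩, f i, hf i, rfl⟩

theorem mem_gen_single {x y : V} {α β : Dg} :
    y ∈ gen k {(x, α)} β ↔ ∃ f ∈ CC k (β - α), y = f • x := by
  have h : ({(x, α)} : Set (V × Dg)) = Set.range fun _ : Unit => (x, α) := by simp
  rw [h, FamA_mem_gen_range (x := fun _ : Unit => x) (α := fun _ => α)]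
  constructor
  · rintro ⟨f, hf, rfl⟩
    exact ⟨f (), hf (), by simp⟩
  · rintro ⟨f, hf, rfl⟩
    exact ⟨fun _ => f, fun _ => hf, by simp⟩

/-- Elements of a module generated by a finite family. -/
theorem mem_gen_range {ι : Type} [Fintype ι] {x : ι → V} {α : ι → Dg} {y : V} {β : Dg} :
    y ∈ gen k (Set.range fun i => (x i, α i)) β ↔
      ∃ f : ι → KK k, (∀ i, f i ∈ CC k (β - α i)) ∧ y = ∑ i, f i • x i := by
  exact FamA_mem_gen_range

theorem IsLat.exists_fin {G : Fam k V} (h : IsLat G) :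
    ∃ (m : ℕ) (x : Fin m → V) (α : Fin m → Dg), G = gen k (Set.range fun i => (x i, α i)) := by
  obtain ⟨S, hS, rfl⟩ := h
  obtain ⟨m, f, -, hf⟩ := hS.fin_param
  exact ⟨m, fun i => (f i).1, fun i => (f i).2, by rw [← hf]⟩

theorem isLat_gen {S : Set (V × Dg)} (h : S.Finite) : IsLat (gen k S) := ⟨S, h, rfl⟩

theorem IsLat.stable {G : Fam k V} (h : IsLat G) : Stable G := by
  obtain ⟨S, -, rfl⟩ := h; exact gen_stable S

theorem IsLat.fin {G : Fam k V} (h : IsLat G) (α : Dg) : FiniteDimensional k (G α) := by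
  obtain ⟨m, x, a, rfl⟩ := h.exists_fin
  let φ : (∀ i : Fin m, CC k (α - a i)) →ₗ[k] V :=
    ∑ i, ((LinearMap.toSpanSingleton (KK k) V (x i)).restrictScalars k) ∘ₗ
      (CC k (α - a i)).subtype ∘ₗ LinearMap.proj i
  refine Submodule.finiteDimensional_of_le (S₂ := LinearMap.range φ) fun y hy => ?_
  obtain ⟨f, hf, rfl⟩ := mem_gen_range.mp hy
  exact ⟨fun i => ⟨f i, hf i⟩, by simp [φ]⟩

theorem IsLat.sup {G G' : Fam k V} (h : IsLat G) (h' : IsLat G') : IsLat (G ⊔ G') := by
  obtain ⟨S, hS, rfl⟩ := h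
  obtain ⟨T, hT, rfl⟩ := h'
  exact ⟨S ∪ T, hS.union hT, (gen_union S T).symm⟩

theorem IsLat.img {G : Fam k V} (h : IsLat G) (ψ : V →ₗ[KK k] V') : IsLat (img ψ G) := by
  obtain ⟨m, x, a, rfl⟩ := h.exists_fin
  refine ⟨Set.range fun i => (ψ (x i), a i), Set.finite_range _, ?_⟩
  funext α
  ext y
  rw [mem_gen_range]
  constructor
  · rintro ⟨z, hz, rfl⟩
    obtain ⟨f, hf, rfl⟩ := mem_gen_range.mp hz
    exact ⟨f, hf, by simp⟩
  · rintro ⟨f, hf, rfl⟩
    exact ⟨∑ i, f i • x i, mem_gen_range.mpr ⟨f, hf, rfl⟩, by simp⟩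

theorem IsLat.shf {G : Fam k V} (h : IsLat G) (δ : Dg) : IsLat (shf G δ) := by
  obtain ⟨m, x, a, rfl⟩ := h.exists_fin
  refine ⟨Set.range fun i => (x i, a i - δ), Set.finite_range _, ?_⟩
  funext α
  ext y
  rw [R169.shf, mem_gen_range, mem_gen_range]
  simp only [show ∀ i, α - (a i - δ) = α + δ - a i from fun i => by abel]

theorem IsLat.bot_of_deg {G : Fam k V} (h : IsLat G) : ∃ d : ℤ, ∀ α, deg α < d → G α = ⊥ := by
  obtain ⟨m, x, a, rfl⟩ := h.exists_fin
  obtain ⟨d, hd⟩ := (Set.finite_range fun i => deg (a i)).bddBelow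
  refine ⟨d, fun α hα => (Submodule.eq_bot_iff _).mpr fun y hy => ?_⟩
  obtain ⟨f, hf, rfl⟩ := mem_gen_range.mp hy
  refine Finset.sum_eq_zero fun i _ => ?_
  have h1 : d ≤ deg (a i) := hd ⟨i, rfl⟩
  have h2 := hf i
  rw [CC_eq_bot (by rw [deg_sub]; omega), Submodule.mem_bot] at h2
  rw [h2, zero_smul]

theorem CC_eq_gen : CC k = gen k {((1 : KK k), (0 : Dg))} := by
  funext α
  ext y
  rw [mem_gen_single, sub_zero]
  simp

theorem isLat_CC : IsLat (CC k) := CC_eq_gen (k := k) ▸ isLat_gen (Set.finite_singleton _)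

theorem mem_CCr {ι : Type} {x : ι → KK k} {α : Dg} : x ∈ CCr k ι α ↔ ∀ i, x i ∈ CC k α := by
  simp [CCr, Submodule.mem_pi]

theorem isLat_CCr (r : ℕ) : IsLat (CCr k (Fin r)) := by
  refine ⟨Set.range fun i => ((Pi.single i 1 : Fin r → KK k), (0 : Dg)), Set.finite_range _, ?_⟩
  funext α
  ext y
  rw [mem_CCr, mem_gen_range]
  have h : ∀ f : Fin r → KK k, ∑ i, f i • (Pi.single i 1 : Fin r → KK k) = f := fun f => by
    conv_rhs => rw [← Finset.univ_sum_single f]
    exact Finset.sum_congr rfl fun i _ => by rw [← Pi.single_smul, smul_eq_mul, mul_one]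
  simp only [h, sub_zero]
  exact ⟨fun hy => ⟨y, hy, rfl⟩, fun ⟨f, hf, e⟩ => e ▸ hf⟩

theorem hf_CCr (r : ℕ) (α : Dg) : hf (CCr k (Fin r)) α = r * hf (CC k) α := by
  unfold hf
  rw [Finset.mul_sum]
  refine Finset.sum_congr rfl fun β _ => ?_
  generalize (α + dv fun j => (β j : ℤ)) = γ
  let e : CCr k (Fin r) γ ≃ₗ[k] (Fin r → CC k γ) :=
    { toFun := fun x i => ⟨x.1 i, mem_CCr.mp x.2 i⟩
      invFun := fun x => ⟨fun i => x i, mem_CCr.mpr fun i => (x i).2⟩
      map_add' := fun _ _ => rfl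
      map_smul' := fun _ _ => rfl
      left_inv := fun _ => rfl
      right_inv := fun _ => rfl }
  rw [e.finrank_eq, Module.finrank_pi_fintype]
  simp

end Crest.Agent.R169
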