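/-
R169/FamB: basic API for families, lattices, Hilbert functions (part 2 of 6)
-/
import Crest.Agent.R169.FamA

set_option autoImplicit false
set_option linter.unusedSectionVars false
set_option linter.unusedVariables false
set_option linter.unusedSimpArgs false

noncomputable section

namespace Crest.Agent.R169

open MvPolynomial Filter
open scoped Pointwise


variable {k : Type} [Field k] {V V' : Type} [AddCommGroup V] [Module k V] [Module (KK k) V]
  [IsScalarTower k (KK k) V] [AddCommGroup V'] [Module k V'] [Module (KK k) V']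
  [IsScalarTower k (KK k) V']

theorem Stable.cut {G : Fam k V} (h : Stable G) (U : Submodule (KK k) V) : Stable (cut G U) := by
  exact fun α β f x hf hx => ⟨h hf hx.1, U.smul_mem f hx.2⟩

theorem Stable.img {G : Fam k V} (h : Stable G) (ψ : V →ₗ[KK k] V') : Stable (img ψ G) := by
  rintro α β f _ hf ⟨x, hx, rfl⟩
  exact ⟨f • x, h hf hx, by simp⟩

theorem Stable.shf {G : Fam k V} (h : Stable G) (δ : Dg) : Stable (shf G δ) := by
  intro α β f x hf hx
  have := h hf hx
  rwa [← add_assoc] at this

theorem Stable.sup {G G' : Fam k V} (h : Stable G) (h' : Stable G') : Stable (G ⊔ G') := by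
  intro α β f x hf hx
  obtain ⟨y, hy, z, hz, rfl⟩ := Submodule.mem_sup.mp hx
  rw [smul_add]
  exact Submodule.add_mem_sup (h hf hy) (h' hf hz)

theorem Stable.inf {G G' : Fam k V} (h : Stable G) (h' : Stable G') : Stable (G ⊓ G') := by
  exact fun α β f x hf hx => ⟨h hf hx.1, h' hf hx.2⟩

theorem Stable.colon {F : Fam k V} (h : Stable F) (x : V) (α : Dg) : Stable (colon F x α) := by
  intro α' β f g hf hg
  refine ⟨mul_mem_CC hf hg.1, ?_⟩
  have h2 : g • x ∈ F (β + α) := hg.2
  have := h hf h2
  rw [← add_assoc, ← mul_smul] at this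
  exact this

theorem Stable.loc {G : Fam k V} (h : Stable G) (c : Chart) : Stable (c.loc G) := by
  intro α β f x hf hx
  induction hx using Submodule.iSup_induction' with
  | mem s x hx =>
    have := h hf hx
    rw [← add_assoc] at this
    exact Submodule.mem_iSup_of_mem s this
  | zero => rw [smul_zero]; exact Submodule.zero_mem _
  | add x y _ _ hx hy => rw [smul_add]; exact Submodule.add_mem _ hx hy

theorem mem_colon {F : Fam k V} {x : V} {α β : Dg} {f : KK k} :
    f ∈ colon F x α β ↔ f ∈ CC k β ∧ f • x ∈ F (β + α) := Iff.rfl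

theorem colon_le (F : Fam k V) (x : V) (α : Dg) : colon F x α ≤ CC k := fun _ _ h => h.1

theorem mem_cut {G : Fam k V} {U : Submodule (KK k) V} {x : V} {α : Dg} :
    x ∈ cut G U α ↔ x ∈ G α ∧ x ∈ U := Iff.rfl

theorem mem_img {G : Fam k V} {ψ : V →ₗ[KK k] V'} {y : V'} {α : Dg} :
    y ∈ img ψ G α ↔ ∃ x ∈ G α, ψ x = y := Iff.rfl

theorem cut_le (G : Fam k V) (U : Submodule (KK k) V) : cut G U ≤ G := fun _ _ h => h.1

theorem cut_cut (G : Fam k V) (U U' : Submodule (KK k) V) : cut (cut G U) U' = cut G (U ⊓ U') := by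
  funext α
  simp only [cut, inf_assoc, Submodule.restrictScalars_inf]

theorem cut_top (G : Fam k V) : cut G ⊤ = G := by
  funext α
  simp [cut]

theorem cut_spn (G : Fam k V) : cut G (spn G) = G := by
  funext α
  exact inf_eq_left.mpr fun x hx => Submodule.subset_span (Set.mem_iUnion.mpr ⟨α, hx⟩)

theorem img_cut_comap (G : Fam k V) (ψ : V →ₗ[KK k] V') (U : Submodule (KK k) V') :
    img ψ (cut G (U.comap ψ)) = cut (img ψ G) U := by
  funext α
  ext y
  constructor
  · rintro ⟨x, ⟨h1, h2⟩, rfl⟩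
    exact ⟨⟨x, h1, rfl⟩, h2⟩
  · rintro ⟨⟨x, h1, rfl⟩, h2⟩
    exact ⟨x, ⟨h1, h2⟩, rfl⟩

theorem Stable.mono {G : Fam k V} (h : Stable G) {α β : Dg} (hαβ : α ≤ β) : G α ≤ G β := by
  intro x hx
  have := h (one_mem_CC (sub_nonneg.mpr hαβ)) hx
  rwa [one_smul, sub_add_cancel] at this

theorem Stable.mem_loc {G : Fam k V} (h : Stable G) (c : Chart) {x : V} {α : Dg} :
    x ∈ c.loc G α ↔ ∃ s : ℕ, x ∈ G (α + s • c.q) := by
  refine Submodule.mem_iSup_of_directed _ (Monotone.directed_le fun s t hst => h.mono ?_)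
  exact add_le_add le_rfl (nsmul_le_nsmul_left c.q_nonneg hst)

theorem le_loc (c : Chart) (G : Fam k V) : G ≤ c.loc G := by
  intro α x hx
  exact Submodule.mem_iSup_of_mem 0 (by simpa using hx)

theorem loc_mono (c : Chart) {G G' : Fam k V} (h : G ≤ G') : c.loc G ≤ c.loc G' := by
  exact fun α => iSup_mono fun s => h _

theorem FamB_loc_le {G : Fam k V} (h : Stable G) (c : Chart) {α α' : Dg}
    (hi : α c.i = α' c.i) (hj : α c.j = α' c.j) : c.loc G α ≤ c.loc G α' := by
  refine iSup_le fun s => ?_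
  obtain ⟨n, hn⟩ := (Set.finite_range fun l => (α l - α' l).toNat).bddAbove
  refine le_trans (h.mono ?_) (le_iSup (fun s : ℕ => G (α' + s • c.q)) (s + n))
  intro l
  rw [Pi.add_apply, Pi.add_apply, Pi.smul_apply, Pi.smul_apply, nsmul_eq_mul, nsmul_eq_mul,
    Nat.cast_add]
  have hn0 : (0 : ℤ) ≤ n := Int.natCast_nonneg n
  have h0 : 0 ≤ c.q l := c.q_nonneg l
  by_cases h1 : l = c.i
  · subst h1
    rw [hi]; nlinarith
  by_cases h2 : l = c.j
  · subst h2
    rw [hj]; nlinarith
  have h3 : 1 ≤ c.q l := c.ql l h1 h2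
  have h4 : (α l - α' l).toNat ≤ n := hn ⟨l, rfl⟩
  have h5 : α l - α' l ≤ n := by omega
  nlinarith

/-- The localisation only depends on the two coordinates of the chart. -/
theorem Stable.loc_congr {G : Fam k V} (h : Stable G) (c : Chart) {α α' : Dg}
    (hi : α c.i = α' c.i) (hj : α c.j = α' c.j) : c.loc G α = c.loc G α' := by
  exact le_antisymm (FamB_loc_le h c hi hj) (FamB_loc_le h c hi.symm hj.symm)

/-- Periodicity. -/
theorem Stable.per {G : Fam k V} (h : Stable G) (β : Ex) {x : V} {α : Dg} :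
    x ∈ G (α + (7 : ℤ) • dv β) ↔ mon k β • x ∈ G α := by
  constructor
  · intro hx
    have := h (mon_mem (β := β) (α := -((7 : ℤ) • dv β)) (by simp)) hx
    rwa [show -((7 : ℤ) • dv β) + (α + (7 : ℤ) • dv β) = α by abel] at this
  · intro hx
    have := h (mon_mem (β := -β) (α := (7 : ℤ) • dv β) (by rw [map_neg, smul_neg, neg_add_cancel])) hx
    rwa [smul_smul, mon_neg, inv_mul_cancel₀ (mon_ne_zero β), one_smul, add_comm] at this

theorem Stable.finrank_per {G : Fam k V} (h : Stable G) (β : Ex) (α : Dg) :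
    Module.finrank k (G (α + (7 : ℤ) • dv β)) = Module.finrank k (G α) := by
  let e : V ≃ₗ[k] V :=
    { toFun := fun x => mon k β • x
      invFun := fun x => (mon k β)⁻¹ • x
      map_add' := fun x y => smul_add _ _ _
      map_smul' := fun c x => smul_comm _ _ _
      left_inv := fun x => by simp [smul_smul, inv_mul_cancel₀ (mon_ne_zero (k := k) β)]
      right_inv := fun x => by simp [smul_smul, mul_inv_cancel₀ (mon_ne_zero (k := k) β)] }
  have : G (α + (7 : ℤ) • dv β) = (G α).comap e.toLinearMap := by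
    ext x
    exact h.per β
  rw [this, Submodule.comap_equiv_eq_map_symm, LinearEquiv.finrank_map_eq]

end Crest.Agent.R169
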