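/-
R169/FamC: basic API for families, lattices, Hilbert functions (part 3 of 6)
-/
import Crest.Agent.R169.FamB

set_option autoImplicit false
set_option linter.unusedSectionVars false
set_option linter.unusedVariables false
set_option linter.unusedSimpArgs false

noncomputable section

namespace Crest.Agent.R169

open MvPolynomial Filter
open scoped Pointwise


variable {k : Type} [Field k] {V V' : Type} [AddCommGroup V] [Module k V] [Module (KK k) V]
  [IsScalarTower k (KK k) V] [AddCommGroup V'] [Module k V'] [Module (KK k) V']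
  [IsScalarTower k (KK k) V']

theorem FamC_rank {W W' : Type} [AddCommGroup W] [Module k W] [AddCommGroup W'] [Module k W']
    (f : W →ₗ[k] W') (S : Submodule k W) [FiniteDimensional k S] :
    Module.finrank k S = Module.finrank k ↥(S ⊓ LinearMap.ker f) + Module.finrank k (S.map f) := by
  have h := (f.domRestrict S).finrank_range_add_finrank_ker
  rw [LinearMap.range_domRestrict, LinearMap.ker_domRestrict,
    ← Submodule.finrank_map_subtype_eq, Submodule.map_comap_subtype] at h
  omega

theorem FamC_rank_inj {W W' : Type} [AddCommGroup W] [Module k W] [AddCommGroup W'] [Module k W']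
    (f : W →ₗ[k] W') (S : Submodule k W) (h : ∀ x ∈ S, f x = 0 → x = 0) :
    Module.finrank k (S.map f) = Module.finrank k S := by
  rw [← LinearMap.range_domRestrict]
  refine LinearMap.finrank_range_of_inj ?_
  rw [← LinearMap.ker_eq_bot, LinearMap.ker_eq_bot']
  exact fun x hx => Subtype.ext (h x x.2 hx)

/-- The Hilbert function only depends on the class.  Recipe: `β ↦ finrank (G (α + dv β))` factors
through `Fin 5 → ZMod 7`; translate the summation index. -/
theorem Stable.hf_dv {G : Fam k V} (h : Stable G) (α : Dg) (β : Ex) :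
    hf G (α + dv β) = hf G α := by
  let g : (Fin 5 → ZMod 7) → ℕ := fun z =>
    Module.finrank k (G (α + dv fun j => (((z j).val : ℕ) : ℤ)))
  have hg : ∀ b : Ex, Module.finrank k (G (α + dv b)) = g fun j => (b j : ZMod 7) := fun b => by
    have e : b = (fun j => ((((b j : ℤ) : ZMod 7).val : ℕ) : ℤ)) + (7 : ℤ) • fun j => b j / 7 := by
      funext j
      simp only [Pi.add_apply, Pi.smul_apply, smul_eq_mul, ZMod.val_intCast]
      omega
    conv_lhs => rw [e, map_add, map_zsmul, ← add_assoc, h.finrank_per]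
  have e1 : hf G α = ∑ z : Fin 5 → ZMod 7, g z := rfl
  rw [e1, ← Equiv.sum_comp (Equiv.addLeft fun j => (β j : ZMod 7)) g, hf]
  refine Finset.sum_congr rfl fun z _ => ?_
  rw [add_assoc, ← map_add, hg]
  refine congrArg g (funext fun j => ?_)
  rw [Pi.add_apply, Int.cast_add, Int.cast_natCast]
  exact congrArg (fun w => (β j : ZMod 7) + w) (ZMod.natCast_zmod_val (n := 7) (z j))

theorem hf_mono {G G' : Fam k V} (h : G ≤ G') (h' : ∀ α, FiniteDimensional k (G' α)) (α : Dg) :
    hf G α ≤ hf G' α := by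
  refine Finset.sum_le_sum fun β _ => ?_
  have := h' (α + dv fun j => (β j : ℤ))
  exact Submodule.finrank_mono (h _)

theorem hf_shf (G : Fam k V) (δ α : Dg) : hf (shf G δ) α = hf G (α + δ) := by
  refine Finset.sum_congr rfl fun β _ => ?_
  rw [shf, add_right_comm]

theorem hf_cut_img {G : Fam k V} (h : ∀ α, FiniteDimensional k (G α)) (ψ : V →ₗ[KK k] V')
    (α : Dg) : hf G α = hf (cut G (LinearMap.ker ψ)) α + hf (img ψ G) α := by
  unfold hf
  rw [← Finset.sum_add_distrib]
  refine Finset.sum_congr rfl fun β _ => ?_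
  have := h (α + dv fun j => (β j : ℤ))
  exact FamC_rank (ψ.restrictScalars k) _

theorem hf_img_of_inj {G : Fam k V} {ψ : V →ₗ[KK k] V'} (h : ∀ x ∈ spn G, ψ x = 0 → x = 0)
    (α : Dg) : hf (img ψ G) α = hf G α := by
  exact Finset.sum_congr rfl fun β _ => FamC_rank_inj (ψ.restrictScalars k) _ fun x hx =>
    h x (Submodule.subset_span (Set.mem_iUnion.mpr ⟨_, hx⟩))

theorem FamC_gen_single (x : V) (α γ : Dg) : gen k {(x, α)} γ =
    (CC k (γ - α)).map ((LinearMap.toSpanSingleton (KK k) V x).restrictScalars k) := by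
  ext y
  rw [mem_gen_single]
  exact ⟨fun ⟨f, hf, e⟩ => ⟨f, hf, e.symm⟩, fun ⟨f, hf, e⟩ => ⟨f, hf, e.symm⟩⟩

theorem hf_gen_single {x : V} (hx : x ≠ 0) (α γ : Dg) :
    hf (gen k {(x, α)}) γ = hf (CC k) (γ - α) := by
  refine Finset.sum_congr rfl fun β _ => ?_
  rw [FamC_gen_single, FamC_rank_inj _ _ fun f _ hf => (smul_eq_zero.mp hf).resolve_right hx,
    add_sub_right_comm]

theorem hf_gen_free {r : ℕ} {x : Fin r → V} (hx : LinearIndependent (KK k) x) (α γ : Dg) :
    hf (gen k (Set.range fun i => (x i, α))) γ = r * hf (CC k) (γ - α) := by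
  have e : gen k (Set.range fun i => (x i, α)) =
      img (Fintype.linearCombination (KK k) x) (shf (CCr k (Fin r)) (-α)) := by
    funext γ
    ext y
    rw [mem_gen_range (α := fun _ => α), mem_img]
    simp only [shf, mem_CCr, Fintype.linearCombination_apply, ← sub_eq_add_neg]
    exact ⟨fun ⟨f, hf, e⟩ => ⟨f, hf, e.symm⟩, fun ⟨f, hf, e⟩ => ⟨f, hf, e.symm⟩⟩
  rw [e, hf_img_of_inj, hf_shf, hf_CCr, ← sub_eq_add_neg]
  intro f _ hf
  exact funext (Fintype.linearIndependent_iff.mp hx f (by
    simpa [Fintype.linearCombination_apply] using hf))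

theorem hf_step {F : Fam k V} (h : ∀ α, FiniteDimensional k (F α)) (x : V) (α γ : Dg) :
    hf (F ⊔ gen k {(x, α)}) γ + hf (colon F x α) (γ - α) = hf F γ + hf (CC k) (γ - α) := by
  unfold hf
  rw [← Finset.sum_add_distrib, ← Finset.sum_add_distrib]
  refine Finset.sum_congr rfl fun β _ => ?_
  rw [← add_sub_right_comm]
  generalize (γ + dv fun j => (β j : ℤ)) = γ'
  have := h γ'
  rw [Pi.sup_apply, FamC_gen_single, colon, sub_add_cancel]
  set T := (LinearMap.toSpanSingleton (KK k) V x).restrictScalars k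
  have h1 := FamC_rank ((F γ').mkQ ∘ₗ T) (CC k (γ' - α))
  have h2 := FamC_rank (F γ').mkQ (F γ' ⊔ (CC k (γ' - α)).map T)
  rw [LinearMap.ker_comp, Submodule.ker_mkQ, Submodule.map_comp] at h1
  rw [Submodule.ker_mkQ, inf_eq_right.mpr le_sup_left, Submodule.map_sup, Submodule.mkQ_map_self,
    bot_sup_eq] at h2
  omega

end Crest.Agent.R169
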