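/-
R169/FamD: basic API for families, lattices, Hilbert functions (part 4 of 6)
-/
import Crest.Agent.R169.FamC

set_option autoImplicit false
set_option linter.unusedSectionVars false
set_option linter.unusedVariables false
set_option linter.unusedSimpArgs false

noncomputable section

namespace Crest.Agent.R169

open MvPolynomial Filter
open scoped Pointwise


variable {k : Type} [Field k] {V V' : Type} [AddCommGroup V] [Module k V] [Module (KK k) V]
  [IsScalarTower k (KK k) V] [AddCommGroup V'] [Module k V'] [Module (KK k) V']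
  [IsScalarTower k (KK k) V']

/-! ### Generic fibre and rank -/

theorem mem_spn {G : Fam k V} {x : V} {α : Dg} (h : x ∈ G α) : x ∈ spn G :=
  Submodule.subset_span (Set.mem_iUnion.mpr ⟨α, h⟩)

theorem spn_mono {G G' : Fam k V} (h : G ≤ G') : spn G ≤ spn G' := by
  exact Submodule.span_mono (Set.iUnion_mono fun α => h α)

theorem spn_gen (S : Set (V × Dg)) : spn (gen k S) = Submodule.span (KK k) (Prod.fst '' S) := by
  refine le_antisymm (Submodule.span_le.mpr (Set.iUnion_subset fun α y hy => ?_))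
    (Submodule.span_le.mpr ?_)
  · induction hy using Submodule.span_induction with
    | mem y hy =>
      obtain ⟨p, hp, f, -, rfl⟩ := hy
      exact Submodule.smul_mem _ f (Submodule.subset_span ⟨p, hp, rfl⟩)
    | zero => exact Submodule.zero_mem _
    | add y z _ _ hy hz => exact Submodule.add_mem _ hy hz
    | smul c y _ hy => exact Submodule.smul_of_tower_mem _ c hy
  · rintro _ ⟨p, hp, rfl⟩
    exact mem_spn (mem_gen (α := p.2) hp)

theorem IsLat.fin_spn {G : Fam k V} (h : IsLat G) : FiniteDimensional (KK k) (spn G) := by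
  obtain ⟨S, hS, rfl⟩ := h
  rw [spn_gen]
  exact FiniteDimensional.span_of_finite _ (hS.image _)

theorem Stable.exists_den {G : Fam k V} (h : Stable G) {x : V} (hx : x ∈ spn G) (α : Dg) :
    ∃ u β, u ≠ 0 ∧ u ∈ CC k β ∧ u • x ∈ G (β + α) := by
  induction hx using Submodule.span_induction generalizing α with
  | mem y hy =>
    obtain ⟨γ, hγ⟩ := Set.mem_iUnion.mp hy
    refine ⟨1, |γ - α|, one_ne_zero, one_mem_CC (abs_nonneg _), ?_⟩
    rw [one_smul]
    exact h.mono (sub_le_iff_le_add.mp (le_abs_self _)) hγ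
  | zero => exact ⟨1, 0, one_ne_zero, one_mem_CC le_rfl, by simp⟩
  | add y z _ _ hy hz =>
    obtain ⟨u, β, h0, hu, hy⟩ := hy α
    obtain ⟨u', β', h0', hu', hz⟩ := hz α
    refine ⟨u * u', β + β', mul_ne_zero h0 h0', mul_mem_CC hu hu', ?_⟩
    rw [smul_add]
    refine Submodule.add_mem _ ?_ ?_
    · have := h hu' hy
      rwa [smul_smul, mul_comm u', ← add_assoc, add_comm β'] at this
    · have := h hu hz
      rwa [smul_smul, ← add_assoc] at this
  | smul f y _ hy =>
    obtain ⟨u, β, h0, hu, hy⟩ := hy α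
    obtain ⟨v, γ, hv0, hv, hf⟩ := R169.exists_den (ι := Unit) (fun _ => f) fun _ => 0
    refine ⟨v * u, γ + β, mul_ne_zero hv0 h0, mul_mem_CC hv hu, ?_⟩
    have := h (hf ()) hy
    rwa [add_zero, ← add_assoc, smul_smul, mul_right_comm, mul_smul] at this

theorem Stable.spn_cut {G : Fam k V} (h : Stable G) (U : Submodule (KK k) V) :
    spn (R169.cut G U) = spn G ⊓ U := by
  refine le_antisymm (le_inf (spn_mono (cut_le G U)) (Submodule.span_le.mpr
    (Set.iUnion_subset fun α y hy => hy.2))) fun x hx => ?_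
  obtain ⟨u, β, h0, -, hu⟩ := h.exists_den hx.1 0
  have : u • x ∈ spn (R169.cut G U) := mem_spn (mem_cut.mpr ⟨hu, U.smul_mem u hx.2⟩)
  exact (Submodule.smul_mem_iff _ h0).mp this

theorem spn_img (G : Fam k V) (ψ : V →ₗ[KK k] V') : spn (img ψ G) = (spn G).map ψ := by
  rw [spn, spn, Submodule.map_span, Set.image_iUnion]
  rfl

theorem spn_shf (G : Fam k V) (δ : Dg) : spn (shf G δ) = spn G := by
  unfold spn shf
  congr 1
  exact (Equiv.addRight δ).surjective.iUnion_comp fun α => (G α : Set V)

theorem spn_CCr (r : ℕ) : spn (CCr k (Fin r)) = ⊤ := by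
  refine eq_top_iff.mpr fun x _ => ?_
  rw [← Finset.univ_sum_single x]
  refine Submodule.sum_mem _ fun i _ => ?_
  have : (Pi.single i (x i) : Fin r → KK k) = x i • (Pi.single i 1 : Fin r → KK k) := by
    rw [← Pi.single_smul, smul_eq_mul, mul_one]
  rw [this]
  refine Submodule.smul_mem _ _ (mem_spn (α := 0) (mem_CCr.mpr fun j => ?_))
  by_cases hj : j = i
  · subst hj; simpa using one_mem_CC (k := k) le_rfl
  · simp [hj]

theorem IsLat.rk_cut_img {G : Fam k V} (h : IsLat G) (ψ : V →ₗ[KK k] V') :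
    rk G = rk (cut G (LinearMap.ker ψ)) + rk (R169.img ψ G) := by
  have := h.fin_spn
  rw [rk, rk, rk, h.stable.spn_cut, spn_img]
  exact FamC_rank ψ _

theorem IsLat.rk_mono {G G' : Fam k V} (h : IsLat G') (hle : G ≤ G') : rk G ≤ rk G' := by
  have := h.fin_spn
  exact Submodule.finrank_mono (spn_mono hle)

theorem Stable.rk_cut_of_top {G : Fam k V} (h : Stable G) (ht : spn G = ⊤)
    (U : Submodule (KK k) V) : rk (R169.cut G U) = Module.finrank (KK k) U := by
  rw [rk, h.spn_cut, ht, top_inf_eq]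

theorem rk_of_top {r : ℕ} {G : Fam k (Fin r → KK k)} (ht : spn G = ⊤) : rk G = r := by
  rw [rk, ht, finrank_top, Module.finrank_fin_fun]

theorem IsLat.eq_bot_of_rk {G : Fam k V} (h : IsLat G) (h0 : rk G = 0) : G = ⊥ := by
  have := h.fin_spn
  have h1 : spn G = ⊥ := Submodule.finrank_eq_zero.mp h0
  funext α
  refine (Submodule.eq_bot_iff _).mpr fun x hx => ?_
  have := mem_spn hx
  rwa [h1, Submodule.mem_bot] at this

theorem rk_gen_single {x : V} (hx : x ≠ 0) (α : Dg) : rk (gen k {(x, α)}) = 1 := by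
  rw [rk, spn_gen, Set.image_singleton, finrank_span_singleton hx]

end Crest.Agent.R169
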