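/-
R169/FamE: basic API for families, lattices, Hilbert functions (part 5 of 6)
-/
import Crest.Agent.R169.FamD

set_option autoImplicit false
set_option linter.unusedSectionVars false
set_option linter.unusedVariables false
set_option linter.unusedSimpArgs false

noncomputable section

namespace Crest.Agent.R169

open MvPolynomial Filter
open scoped Pointwise


variable {k : Type} [Field k] {V V' : Type} [AddCommGroup V] [Module k V] [Module (KK k) V]
  [IsScalarTower k (KK k) V] [AddCommGroup V'] [Module k V'] [Module (KK k) V']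
  [IsScalarTower k (KK k) V']

/-- A basis of the generic fibre in one degree. -/
theorem IsLat.exists_free {G : Fam k V} (h : IsLat G) :
    ∃ (γ : Dg) (x : Fin (rk G) → V), (∀ i, x i ∈ G γ) ∧ LinearIndependent (KK k) x ∧
      Submodule.span (KK k) (Set.range x) = spn G := by
  have : Module.Finite (KK k) (Submodule.span (KK k) (⋃ α, (G α : Set V))) := h.fin_spn
  obtain ⟨x, h1, h2, h3⟩ := Submodule.exists_fun_fin_finrank_span_eq (KK k) (⋃ α, (G α : Set V))
  choose a ha using fun i => Set.mem_iUnion.mp (h1 i)
  refine ⟨∑ i, |a i|, x, fun i => h.stable.mono ?_ (ha i), h3, h2⟩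
  exact (le_abs_self _).trans
    (Finset.single_le_sum (f := fun i => |a i|) (fun i _ => abs_nonneg _) (Finset.mem_univ i))

/-- Every lattice embeds in a twist of the standard free lattice. -/
theorem IsLat.exists_embed {G : Fam k V} (h : IsLat G) :
    ∃ (δ : Dg) (ψ : V →ₗ[KK k] (Fin (rk G) → KK k)), (∀ x ∈ spn G, ψ x = 0 → x = 0) ∧
      spn (R169.img ψ G) = ⊤ ∧ R169.shf (R169.img ψ G) δ ≤ CCr k (Fin (rk G)) := by
  have := h.fin_spn
  have hs := h.stable
  let e : spn G ≃ₗ[KK k] (Fin (rk G) → KK k) := (Module.finBasis (KK k) (spn G)).equivFun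
  obtain ⟨ψ, hψ⟩ := LinearMap.exists_extend e.toLinearMap
  have hψ' : ∀ x : spn G, ψ x = e x := fun x => LinearMap.congr_fun hψ x
  obtain ⟨m, x, a, hG⟩ := h.exists_fin
  obtain ⟨u, β, h0, -, hu⟩ := exists_den (fun p : Fin m × Fin (rk G) => ψ (x p.1) p.2)
    fun p => a p.1
  refine ⟨-β, u • ψ, fun y hy h1 => ?_, ?_, fun α y hy => ?_⟩
  · have h2 : e ⟨y, hy⟩ = 0 := by
      rw [← hψ']
      exact (smul_eq_zero.mp h1).resolve_left h0
    exact congrArg Subtype.val (e.map_eq_zero_iff.mp h2)
  · rw [spn_img]
    refine eq_top_iff.mpr fun z _ => ⟨e.symm (u⁻¹ • z), (e.symm (u⁻¹ • z)).2, ?_⟩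
    rw [LinearMap.smul_apply, hψ', e.apply_symm_apply, smul_smul, mul_inv_cancel₀ h0, one_smul]
  · obtain ⟨z, hz, rfl⟩ := hy
    rw [hG] at hz
    obtain ⟨f, hf, rfl⟩ := mem_gen_range.mp hz
    refine mem_CCr.mpr fun j => ?_
    simp only [LinearMap.coe_restrictScalars, map_sum, map_smul, Finset.sum_apply, Pi.smul_apply,
      LinearMap.smul_apply, smul_eq_mul]
    refine Submodule.sum_mem _ fun i _ => ?_
    have := mul_mem_CC (hf i) (hu (i, j))
    rwa [show α + -β - a i + (β + a i) = α by abel] at this

/-- Cramer's rule inside a lattice. -/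
theorem Stable.single_det_mem {r : ℕ} {G : Fam k (Fin r → KK k)} (h : Stable G)
    (hle : G ≤ CCr k (Fin r)) {γ : Dg} {x : Fin r → Fin r → KK k} (hx : ∀ i, x i ∈ G γ)
    (i : Fin r) : Pi.single i (Matrix.of x).det ∈ G ((r : ℤ) • γ) := by
  have e : (Pi.single i (Matrix.of x).det : Fin r → KK k) =
      ∑ j, (Matrix.of x).adjugate i j • x j := by
    funext l
    have := congrFun (congrFun (Matrix.adjugate_mul (Matrix.of x)) i) l
    rw [Matrix.mul_apply] at this
    simp only [Finset.sum_apply, Pi.smul_apply, smul_eq_mul]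
    rw [show ∑ j, (Matrix.of x).adjugate i j * x j l = _ from this, Matrix.smul_apply,
      Matrix.one_apply, Pi.single_apply, smul_eq_mul]
    by_cases hl : l = i
    · simp [hl]
    · simp [hl, Ne.symm hl]
  rw [e]
  refine Submodule.sum_mem _ fun j _ => ?_
  have h1 : (Matrix.of x).adjugate i j ∈ CC k (∑ l, Function.update (fun _ => γ) j 0 l) := by
    rw [Matrix.adjugate_apply]
    refine det_mem_CC (x := (Matrix.of x).updateRow j (Pi.single i 1)) fun l m => ?_
    by_cases hl : l = j
    · subst hl
      rw [Matrix.updateRow_self, Function.update_self]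
      by_cases hm : m = i
      · subst hm; simpa using one_mem_CC (k := k) le_rfl
      · simp [hm]
    · rw [Matrix.updateRow_ne hl, Function.update_of_ne hl]
      exact mem_CCr.mp (hle γ (hx l)) m
  have h2 : ∑ l, Function.update (fun _ => γ) j 0 l + γ = (r : ℤ) • γ := by
    rw [Finset.sum_update_of_mem (Finset.mem_univ j), zero_add,
      ← Finset.sum_eq_sum_sdiff_singleton_add (Finset.mem_univ j) fun _ => γ]
    simp
  exact h2 ▸ h h1 (hx j)

/-- Reduced row echelon form. -/
theorem exists_rref {F : Type} [Field F] {r : ℕ} (U : Submodule F (Fin r → F)) :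
    ∃ (ι : Fin (Module.finrank F U) → Fin r) (y : Fin (Module.finrank F U) → Fin r → F),
      (∀ i j, y i (ι j) = if i = j then 1 else 0) ∧ Submodule.span F (Set.range y) = U := by
  let c : Fin r → Module.Dual F U := fun j => LinearMap.proj j ∘ₗ U.subtype
  have hc : ∀ u : U, (∀ j, c j u = 0) → u = 0 := fun u hu => Subtype.ext (funext hu)
  have htop : Submodule.span F (Set.range c) = ⊤ :=
    Submodule.span_eq_top_of_ne_zero fun z hz => by
      by_contra hcon
      push Not at hcon
      exact hz (hc z fun j => hcon _ ⟨j, rfl⟩)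
  obtain ⟨f, h1, h2, -⟩ := Submodule.exists_fun_fin_finrank_span_eq F (Set.range c)
  have hs : Module.finrank F U = Module.finrank F (Submodule.span F (Set.range c)) := by
    rw [htop, finrank_top, Subspace.dual_finrank_eq]
  choose ι hι using h1
  let φ : U →ₗ[F] (Fin (Module.finrank F U) → F) := LinearMap.pi fun i => c (ι (Fin.cast hs i))
  have hφ : Function.Injective φ := by
    rw [← LinearMap.ker_eq_bot, LinearMap.ker_eq_bot']
    intro u hu
    refine hc u fun j => ?_
    have hj : c j ∈ Submodule.span F (Set.range f) := h2.ge (Submodule.subset_span ⟨j, rfl⟩)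
    have : Submodule.span F (Set.range f) ≤ LinearMap.ker (Module.Dual.eval F U u) := by
      refine Submodule.span_le.mpr ?_
      rintro _ ⟨i, rfl⟩
      have := congrFun hu (Fin.cast hs.symm i)
      simpa [φ, hι] using this
    exact this hj
  let e := φ.linearEquivOfInjective hφ (by simp)
  refine ⟨fun i => ι (Fin.cast hs i), fun i => e.symm (Pi.single i 1), fun i j => ?_, ?_⟩
  · have := congrFun (e.apply_symm_apply (Pi.single i 1)) j
    rw [Pi.single_apply] at this
    rw [show (if i = j then (1 : F) else 0) = if j = i then 1 else 0 by simp only [eq_comm]]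
    exact this
  · have h3 := ((Pi.basisFun F (Fin (Module.finrank F U))).map e.symm).span_eq
    have h4 := congrArg (Submodule.map U.subtype) h3
    rw [Submodule.map_span, ← Set.range_comp, Submodule.map_top, Submodule.range_subtype] at h4
    convert h4 using 3
    funext i
    simp

end Crest.Agent.R169
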