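/-
R169/Fam: basic API for families, lattices, Hilbert functions (part 6 of 6)
-/
import Crest.Agent.R169.FamE

set_option autoImplicit false
set_option linter.unusedSectionVars false
set_option linter.unusedVariables false
set_option linter.unusedSimpArgs false

noncomputable section

namespace Crest.Agent.R169

open MvPolynomial Filter
open scoped Pointwise


variable {k : Type} [Field k] {V V' : Type} [AddCommGroup V] [Module k V] [Module (KK k) V]
  [IsScalarTower k (KK k) V] [AddCommGroup V'] [Module k V'] [Module (KK k) V']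
  [IsScalarTower k (KK k) V']

/-! ### Riemann-Roch data -/

theorem EvEq.symm {G G' : Fam k V} (h : EvEq G G') : EvEq G' G := fun α => (h α).mono fun _ e => e.symm

theorem EvEq.hf {G G' : Fam k V} (h : EvEq G G') (α : Dg) :
    ∀ᶠ t : ℕ in atTop, hf G (α + t • ζ) = hf G' (α + t • ζ) := by
  have : ∀ᶠ t : ℕ in atTop, ∀ β : Fin 5 → Fin 7,
      G ((α + dv fun j => (β j : ℤ)) + t • ζ) = G' ((α + dv fun j => (β j : ℤ)) + t • ζ) :=
    eventually_all.mpr fun β => h _
  filter_upwards [this] with t ht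
  unfold R169.hf
  refine Finset.sum_congr rfl fun β _ => ?_
  rw [add_right_comm, ht]

theorem HP.congr {G : Fam k V} {G' : Fam k V'} {r : ℕ} {c : Ex} {s : ℤ} (h : HP G r c s)
    (e : ∀ α, ∀ᶠ t : ℕ in atTop, hf G' (α + t • ζ) = hf G (α + t • ζ)) : HP G' r c s := by
  intro α
  filter_upwards [h α, e α] with t h1 h2
  rw [h2, h1]

/-- Recipe: `hp_rhs`, `quad_unique`, `cl_sec`, `ip_ext`. -/
theorem HP.unique {G : Fam k V} {r r' : ℕ} {c c' : Ex} {s s' : ℤ} (h : HP G r c s)
    (h' : HP G r' c' s') : r = r' ∧ c = c' ∧ s = s' := by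
  have key : ∀ α : Dg, (1715 * r : ℤ) = 1715 * r' ∧
      343 * (r * (2 * deg α - 25) + 2 * ip c Lc) = 343 * (r' * (2 * deg α - 25) + 2 * ip c' Lc) ∧
      343 * (r * chi (cl α) + ip c ((2 : ℤ) • cl α - (5 : ℤ) • Lc)) + s =
        343 * (r' * chi (cl α) + ip c' ((2 : ℤ) • cl α - (5 : ℤ) • Lc)) + s' := fun α => by
    refine quad_unique ?_
    filter_upwards [h α, h' α] with t h1 h2
    rw [← hp_rhs, ← hp_rhs, ← h1, ← h2]
  have hr : r = r' := by
    have := (key 0).1
    omega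
  subst hr
  have h1 := (key 0).2.1
  have h2 := (key 0).2.2
  rw [map_zero, ip_sub_right, ip_sub_right, ip_smul_right, ip_smul_right, ip_smul_right,
    ip_smul_right, ip_zero_right, ip_zero_right] at h2
  have hL : ip c Lc = ip c' Lc := by linarith
  have hs : s = s' := by linarith
  refine ⟨rfl, ip_ext fun D => ?_, hs⟩
  have h3 := (key (sec D)).2.2
  rw [cl_sec, ip_sub_right, ip_sub_right, ip_smul_right, ip_smul_right, ip_smul_right,
    ip_smul_right] at h3
  linarith

theorem HP.add {V'' : Type} [AddCommGroup V''] [Module k V''] {G : Fam k V''} {F : Fam k V}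
    {Q : Fam k V'} {r r' : ℕ} {c c' : Ex} {s s' : ℤ} (h : HP F r c s) (h' : HP Q r' c' s')
    (e : ∀ α, hf G α = hf F α + hf Q α) : ∀ α : Dg, ∀ᶠ t : ℕ in atTop,
      2 * (hf G (α + t • ζ) : ℤ) = 343 * (((r + r' : ℕ) : ℤ) * chi (cl (α + t • ζ)) +
        ip (c + c') ((2 : ℤ) • cl (α + t • ζ) - (5 : ℤ) • Lc)) + (s + s') := by
  intro α
  filter_upwards [h α, h' α] with t h1 h2
  rw [e, Nat.cast_add, mul_add, h1, h2, ip_add_left]
  push_cast
  ring

theorem HP.shf {G : Fam k V} {r : ℕ} {c : Ex} {s : ℤ} (h : HP G r c s) (δ : Dg) :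
    HP (shf G δ) r (c + (r : ℤ) • cl δ) (s + 343 * (2 * ip c (cl δ) + r * ip (cl δ) (cl δ))) := by
  intro α
  filter_upwards [h (α + δ)] with t ht
  rw [hf_shf, add_right_comm, ht, add_right_comm α δ, map_add (f := cl) (α + t • ζ) δ]
  generalize cl (α + t • ζ) = D
  simp only [chi, ip_add_left, ip_add_right, ip_sub_right, ip_smul_left, ip_smul_right,
    ip_comm D (cl δ)]
  ring

/-- Comparison of the leading coefficients. -/
theorem HP.le_rk {G : Fam k V} {G' : Fam k V'} {r r' : ℕ} {c c' : Ex} {s s' : ℤ} (h : HP G r c s)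
    (h' : HP G' r' c' s') {α α' : Dg}
    (e : ∀ᶠ t : ℕ in atTop, hf G (α + t • ζ) ≤ hf G' (α' + t • ζ)) : r ≤ r' := by
  have : (1715 * r : ℤ) ≤ 1715 * r' := by
    refine quad_le_of_ev (B := 343 * (r * (2 * deg α - 25) + 2 * ip c Lc))
      (C := 343 * (r * chi (cl α) + ip c ((2 : ℤ) • cl α - (5 : ℤ) • Lc)) + s)
      (B' := 343 * (r' * (2 * deg α' - 25) + 2 * ip c' Lc))
      (C' := 343 * (r' * chi (cl α') + ip c' ((2 : ℤ) • cl α' - (5 : ℤ) • Lc)) + s') ?_
    filter_upwards [h α, h' α', e] with t h1 h2 h3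
    rw [← hp_rhs, ← hp_rhs, ← h1, ← h2]
    omega
  omega

/-- Comparison of the linear coefficients. -/
theorem HP.le_lin {G : Fam k V} {G' : Fam k V'} {r : ℕ} {c c' : Ex} {s s' : ℤ} (h : HP G r c s)
    (h' : HP G' r c' s') {α α' : Dg}
    (e : ∀ᶠ t : ℕ in atTop, hf G (α + t • ζ) ≤ hf G' (α' + t • ζ)) :
    r * deg α + ip c Lc ≤ r * deg α' + ip c' Lc := by
  have : 343 * (r * (2 * deg α - 25) + 2 * ip c Lc) ≤
      343 * (r * (2 * deg α' - 25) + 2 * ip c' Lc) := by
    refine lin_le_of_ev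
      (C := 343 * (r * chi (cl α) + ip c ((2 : ℤ) • cl α - (5 : ℤ) • Lc)) + s)
      (C' := 343 * (r * chi (cl α') + ip c' ((2 : ℤ) • cl α' - (5 : ℤ) • Lc)) + s') ?_
    filter_upwards [h α, h' α', e] with t h1 h2 h3
    rw [hp_rhs] at h1 h2
    have h4 : (hf G (α + t • ζ) : ℤ) ≤ hf G' (α' + t • ζ) := by exact_mod_cast h3
    linarith
  linarith

end Crest.Agent.R169
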