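/-
R169/Tab: the tables of charts, Plücker relations and test classes.  Author: helper14.
-/
import Crest.Agent.R169.Val

set_option autoImplicit false
set_option linter.unusedSectionVars false
set_option linter.unusedVariables false
set_option linter.unusedSimpArgs false

noncomputable section

namespace Crest.Agent.R169

open MvPolynomial Filter
open scoped Pointwise


variable {k : Type} [Field k]

variable (k) in
/-- The coordinate `a`. -/
def ca : KK k := algebraMap (PP k) (KK k) (X 0)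

variable (k) in
/-- The coordinate `b`. -/
def cb : KK k := algebraMap (PP k) (KK k) (X 1)

theorem mon_eq (β : Ex) : mon k β = ca k ^ β 0 * cb k ^ β 1 * (ca k - 1) ^ β 2 * (cb k - 1) ^ β 3 *
    (ca k - cb k) ^ β 4 := by
  simp [mon, lin, Fin.prod_univ_five, ca, cb]

theorem lin_ne (j : Fin 5) : algebraMap (PP k) (KK k) (lin k j) ≠ 0 :=
  (map_ne_zero_iff _ (IsFractionRing.injective _ _)).mpr (lin_ne_zero j)

theorem ca_ne : ca k ≠ 0 := lin_ne 0
theorem cb_ne : cb k ≠ 0 := lin_ne 1
theorem ca1_ne : ca k - 1 ≠ 0 := by simpa [lin, ca] using lin_ne (k := k) 2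
theorem cb1_ne : cb k - 1 ≠ 0 := by simpa [lin, cb] using lin_ne (k := k) 3
theorem cab_ne : ca k - cb k ≠ 0 := by simpa [lin, ca, cb] using lin_ne (k := k) 4

theorem upoly_aux {x y : KK k} {u : Fin 3 → Ex} (s f : Fin 3 → ℤ)
    (h0 : mon k (u 0) = s 0 * (1 + f 0 * x)) (h1 : mon k (u 1) = s 1 * (1 + f 1 * y))
    (h2 : mon k (u 2) = s 2 * (1 + f 2 * (x * y))) (l : Fin 3) :
    mon k (u l) ∈ Subring.closure {x, y} := by
  have hx : x ∈ Subring.closure {x, y} := Subring.subset_closure (by simp)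
  have hy : y ∈ Subring.closure {x, y} := Subring.subset_closure (by simp)
  fin_cases l
  · exact h0 ▸ mul_mem (intCast_mem _ _) (add_mem (one_mem _) (mul_mem (intCast_mem _ _) hx))
  · exact h1 ▸ mul_mem (intCast_mem _ _) (add_mem (one_mem _) (mul_mem (intCast_mem _ _) hy))
  · exact h2 ▸ mul_mem (intCast_mem _ _)
      (add_mem (one_mem _) (mul_mem (intCast_mem _ _) (mul_mem hx hy)))

theorem uspan_aux {u : Fin 3 → Ex} {β : Ex} (c : Fin 3 → ℤ) (h : β = ∑ l, c l • u l) :
    β ∈ Submodule.span ℤ (Set.range u) :=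
  h ▸ Submodule.sum_mem _ fun l _ => Submodule.smul_mem _ _ (Submodule.subset_span ⟨l, rfl⟩)

/-- The chart at the node `(0, 3)`. -/
def ch0 : Chart where
  i := 0
  j := 3
  βa := ![1, -1, 0, 0, 0]
  βb := ![0, 0, -1, 1, 0]
  βq := ![0, 1, 1, -2, 0]
  u := ![![0, -1, 0, 0, 1], ![0, 0, -1, 0, 1], ![0, -1, -1, 0, 1]]
  ne := by decide
  ai := by decide
  aj := by decide
  bi := by decide
  bj := by decide
  qi := by decide
  qj := by decide
  ql := by decide
  ui := by decide
  uj := by decide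
  uspan β h h' := by
    rw [dv_0] at h; rw [dv_3] at h'
    refine uspan_aux ![(1) * β 2 + (1) * β 3 + (1) * β 4,
      (1) * β 0 + (1) * β 1 + (1) * β 4,
      (-1) * β 0 + (-1) * β 1 + (-1) * β 2 + (-1) * β 3 + (-1) * β 4] ?_
    refine funext (ex_forall.mpr ?_)
    simp [Fin.sum_univ_three]
    omega
  upoly k _ := by
    have := ca_ne (k := k); have := cb_ne (k := k); have := ca1_ne (k := k)
    have := cb1_ne (k := k); have := cab_ne (k := k)
    refine upoly_aux ![-1, 1, 1] ![-1, -1, -1] ?_ ?_ ?_ <;>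
      simp [mon_eq] <;> field_simp <;> ring

/-- The chart at the node `(0, 5)`. -/
def ch1 : Chart where
  i := 0
  j := 5
  βa := ![1, -1, -1, 1, 0]
  βb := ![0, 1, 0, -1, 0]
  βq := ![0, 1, 1, -1, -1]
  u := ![![0, -1, -1, 0, 1], ![0, 0, 0, -1, 0], ![0, 0, -1, 0, 0]]
  ne := by decide
  ai := by decide
  aj := by decide
  bi := by decide
  bj := by decide
  qi := by decide
  qj := by decide
  ql := by decide
  ui := by decide
  uj := by decide
  uspan β h h' := by
    rw [dv_0] at h; rw [dv_5] at h'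
    refine uspan_aux ![(1) * β 4,
      (-1) * β 1 + (-1) * β 3 + (-1) * β 4,
      (-1) * β 0 + (-1) * β 2 + (-1) * β 4] ?_
    refine funext (ex_forall.mpr ?_)
    simp [Fin.sum_univ_three]
    omega
  upoly k _ := by
    have := ca_ne (k := k); have := cb_ne (k := k); have := ca1_ne (k := k)
    have := cb1_ne (k := k); have := cab_ne (k := k)
    refine upoly_aux ![1, -1, -1] ![-1, -1, -1] ?_ ?_ ?_ <;>
      simp [mon_eq] <;> field_simp <;> ring

/-- The chart at the node `(0, 8)`. -/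
def ch2 : Chart where
  i := 0
  j := 8
  βa := ![1, -1, -1, 1, 0]
  βb := ![0, 0, 1, -1, 0]
  βq := ![0, 1, 1, -1, 0]
  u := ![![0, -1, -1, 0, 1], ![0, 0, 0, -1, 1], ![0, -1, 0, 0, 1]]
  ne := by decide
  ai := by decide
  aj := by decide
  bi := by decide
  bj := by decide
  qi := by decide
  qj := by decide
  ql := by decide
  ui := by decide
  uj := by decide
  uspan β h h' := by
    rw [dv_0] at h; rw [dv_8] at h'
    refine uspan_aux ![(-1) * β 0 + (-1) * β 1 + (-1) * β 2 + (-1) * β 3 + (-1) * β 4,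
      (1) * β 0 + (1) * β 1 + (1) * β 4,
      (1) * β 2 + (1) * β 3 + (1) * β 4] ?_
    refine funext (ex_forall.mpr ?_)
    simp [Fin.sum_univ_three]
    omega
  upoly k _ := by
    have := ca_ne (k := k); have := cb_ne (k := k); have := ca1_ne (k := k)
    have := cb1_ne (k := k); have := cab_ne (k := k)
    refine upoly_aux ![1, -1, -1] ![-1, -1, -1] ?_ ?_ ?_ <;>
      simp [mon_eq] <;> field_simp <;> ring

/-- The chart at the node `(1, 2)`. -/
def ch3 : Chart where
  i := 1
  j := 2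
  βa := ![-1, 1, 0, 0, 0]
  βb := ![0, 0, 1, -1, 0]
  βq := ![1, 0, 0, -1, 0]
  u := ![![-1, 0, 0, 0, 1], ![0, 0, 0, -1, 1], ![-1, 0, 0, -1, 1]]
  ne := by decide
  ai := by decide
  aj := by decide
  bi := by decide
  bj := by decide
  qi := by decide
  qj := by decide
  ql := by decide
  ui := by decide
  uj := by decide
  uspan β h h' := by
    rw [dv_1] at h; rw [dv_2] at h'
    refine uspan_aux ![(1) * β 2 + (1) * β 3 + (1) * β 4,
      (1) * β 0 + (1) * β 1 + (1) * β 4,
      (-1) * β 0 + (-1) * β 1 + (-1) * β 2 + (-1) * β 3 + (-1) * β 4] ?_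
    refine funext (ex_forall.mpr ?_)
    simp [Fin.sum_univ_three]
    omega
  upoly k _ := by
    have := ca_ne (k := k); have := cb_ne (k := k); have := ca1_ne (k := k)
    have := cb1_ne (k := k); have := cab_ne (k := k)
    refine upoly_aux ![1, -1, -1] ![-1, -1, -1] ?_ ?_ ?_ <;>
      simp [mon_eq] <;> field_simp <;> ring

/-- The chart at the node `(1, 5)`. -/
def ch4 : Chart where
  i := 1
  j := 5
  βa := ![-1, 1, 0, 0, 0]
  βb := ![1, 0, 0, 0, 0]
  βq := ![1, 0, 1, -1, -1]
  u := ![![-1, 0, 0, 0, 1], ![0, 0, 1, 0, 0], ![0, 0, 0, 1, 0]]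
  ne := by decide
  ai := by decide
  aj := by decide
  bi := by decide
  bj := by decide
  qi := by decide
  qj := by decide
  ql := by decide
  ui := by decide
  uj := by decide
  uspan β h h' := by
    rw [dv_1] at h; rw [dv_5] at h'
    refine uspan_aux ![(1) * β 4,
      (1) * β 2,
      (1) * β 3] ?_
    refine funext (ex_forall.mpr ?_)
    simp [Fin.sum_univ_three]
    omega
  upoly k _ := by
    have := ca_ne (k := k); have := cb_ne (k := k); have := ca1_ne (k := k)
    have := cb1_ne (k := k); have := cab_ne (k := k)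
    refine upoly_aux ![1, -1, -1] ![-1, -1, -1] ?_ ?_ ?_ <;>
      simp [mon_eq] <;> field_simp <;> ring

/-- The chart at the node `(1, 7)`. -/
def ch5 : Chart where
  i := 1
  j := 7
  βa := ![-1, 1, 1, -1, 0]
  βb := ![0, 0, -1, 1, 0]
  βq := ![1, 0, 1, -1, 0]
  u := ![![-1, 0, 0, -1, 1], ![0, 0, -1, 0, 1], ![-1, 0, 0, 0, 1]]
  ne := by decide
  ai := by decide
  aj := by decide
  bi := by decide
  bj := by decide
  qi := by decide
  qj := by decide
  ql := by decide
  ui := by decide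
  uj := by decide
  uspan β h h' := by
    rw [dv_1] at h; rw [dv_7] at h'
    refine uspan_aux ![(-1) * β 0 + (-1) * β 1 + (-1) * β 2 + (-1) * β 3 + (-1) * β 4,
      (1) * β 0 + (1) * β 1 + (1) * β 4,
      (1) * β 2 + (1) * β 3 + (1) * β 4] ?_
    refine funext (ex_forall.mpr ?_)
    simp [Fin.sum_univ_three]
    omega
  upoly k _ := by
    have := ca_ne (k := k); have := cb_ne (k := k); have := ca1_ne (k := k)
    have := cb1_ne (k := k); have := cab_ne (k := k)
    refine upoly_aux ![-1, 1, 1] ![-1, -1, -1] ?_ ?_ ?_ <;>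
      simp [mon_eq] <;> field_simp <;> ring

/-- The chart at the node `(2, 6)`. -/
def ch6 : Chart where
  i := 2
  j := 6
  βa := ![-1, 1, 1, -1, 0]
  βb := ![0, -1, 0, 1, 0]
  βq := ![1, 1, 0, -1, -1]
  u := ![![-1, 0, 0, -1, 1], ![0, -1, 0, 0, 0], ![-1, 0, 0, 0, 0]]
  ne := by decide
  ai := by decide
  aj := by decide
  bi := by decide
  bj := by decide
  qi := by decide
  qj := by decide
  ql := by decide
  ui := by decide
  uj := by decide
  uspan β h h' := by
    rw [dv_2] at h; rw [dv_6] at h'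
    refine uspan_aux ![(1) * β 4,
      (-1) * β 1 + (-1) * β 3 + (-1) * β 4,
      (-1) * β 0 + (-1) * β 2 + (-1) * β 4] ?_
    refine funext (ex_forall.mpr ?_)
    simp [Fin.sum_univ_three]
    omega
  upoly k _ := by
    have := ca_ne (k := k); have := cb_ne (k := k); have := ca1_ne (k := k)
    have := cb1_ne (k := k); have := cab_ne (k := k)
    refine upoly_aux ![-1, 1, 1] ![-1, -1, -1] ?_ ?_ ?_ <;>
      simp [mon_eq] <;> field_simp <;> ring

/-- The chart at the node `(2, 8)`. -/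
def ch7 : Chart where
  i := 2
  j := 8
  βa := ![-1, 0, 1, 0, 0]
  βb := ![1, 0, 0, 0, -1]
  βq := ![1, 1, 0, -1, 0]
  u := ![![-1, 0, 0, 0, 0], ![0, 1, 0, 0, -1], ![0, 0, 0, 1, -1]]
  ne := by decide
  ai := by decide
  aj := by decide
  bi := by decide
  bj := by decide
  qi := by decide
  qj := by decide
  ql := by decide
  ui := by decide
  uj := by decide
  uspan β h h' := by
    rw [dv_2] at h; rw [dv_8] at h'
    refine uspan_aux ![(-1) * β 0 + (-1) * β 1 + (-1) * β 2 + (-1) * β 3 + (-1) * β 4,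
      (1) * β 1,
      (1) * β 3] ?_
    refine funext (ex_forall.mpr ?_)
    simp [Fin.sum_univ_three]
    omega
  upoly k _ := by
    have := ca_ne (k := k); have := cb_ne (k := k); have := ca1_ne (k := k)
    have := cb1_ne (k := k); have := cab_ne (k := k)
    refine upoly_aux ![1, -1, -1] ![-1, -1, -1] ?_ ?_ ?_ <;>
      simp [mon_eq] <;> field_simp <;> ring

/-- The chart at the node `(3, 6)`. -/
def ch8 : Chart where
  i := 3
  j := 6
  βa := ![0, 0, -1, 1, 0]
  βb := ![0, 0, 1, 0, 0]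
  βq := ![1, 1, 1, -2, -1]
  u := ![![0, 0, -1, 0, 1], ![1, 0, 0, 0, 0], ![0, 1, 0, 0, 0]]
  ne := by decide
  ai := by decide
  aj := by decide
  bi := by decide
  bj := by decide
  qi := by decide
  qj := by decide
  ql := by decide
  ui := by decide
  uj := by decide
  uspan β h h' := by
    rw [dv_3] at h; rw [dv_6] at h'
    refine uspan_aux ![(1) * β 4,
      (1) * β 0,
      (1) * β 1] ?_
    refine funext (ex_forall.mpr ?_)
    simp [Fin.sum_univ_three]
    omega
  upoly k _ := by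
    have := ca_ne (k := k); have := cb_ne (k := k); have := ca1_ne (k := k)
    have := cb1_ne (k := k); have := cab_ne (k := k)
    refine upoly_aux ![1, 1, 1] ![-1, 1, 1] ?_ ?_ ?_ <;>
      simp [mon_eq] <;> field_simp <;> ring

/-- The chart at the node `(3, 7)`. -/
def ch9 : Chart where
  i := 3
  j := 7
  βa := ![0, -1, 0, 1, 0]
  βb := ![0, 1, 0, 0, -1]
  βq := ![1, 1, 1, -2, 0]
  u := ![![0, -1, 0, 0, 0], ![1, 0, 0, 0, -1], ![0, 0, 1, 0, -1]]
  ne := by decide
  ai := by decide
  aj := by decide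
  bi := by decide
  bj := by decide
  qi := by decide
  qj := by decide
  ql := by decide
  ui := by decide
  uj := by decide
  uspan β h h' := by
    rw [dv_3] at h; rw [dv_7] at h'
    refine uspan_aux ![(-1) * β 0 + (-1) * β 1 + (-1) * β 2 + (-1) * β 3 + (-1) * β 4,
      (1) * β 0,
      (1) * β 2] ?_
    refine funext (ex_forall.mpr ?_)
    simp [Fin.sum_univ_three]
    omega
  upoly k _ := by
    have := ca_ne (k := k); have := cb_ne (k := k); have := ca1_ne (k := k)
    have := cb1_ne (k := k); have := cab_ne (k := k)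
    refine upoly_aux ![1, 1, 1] ![-1, 1, 1] ?_ ?_ ?_ <;>
      simp [mon_eq] <;> field_simp <;> ring

/-- The chart at the node `(4, 5)`. -/
def ch10 : Chart where
  i := 4
  j := 5
  βa := ![-1, 0, 0, -1, 1]
  βb := ![1, 0, 0, 0, 0]
  βq := ![1, 1, 1, 0, -2]
  u := ![![-1, 1, 1, -1, 0], ![0, 0, 1, 0, 0], ![0, 0, 1, -1, 0]]
  ne := by decide
  ai := by decide
  aj := by decide
  bi := by decide
  bj := by decide
  qi := by decide
  qj := by decide
  ql := by decide
  ui := by decide
  uj := by decide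
  uspan β h h' := by
    rw [dv_4] at h; rw [dv_5] at h'
    refine uspan_aux ![(1) * β 1,
      (1) * β 2 + (1) * β 3 + (1) * β 4,
      (-1) * β 1 + (-1) * β 3 + (-1) * β 4] ?_
    refine funext (ex_forall.mpr ?_)
    simp [Fin.sum_univ_three]
    omega
  upoly k _ := by
    have := ca_ne (k := k); have := cb_ne (k := k); have := ca1_ne (k := k)
    have := cb1_ne (k := k); have := cab_ne (k := k)
    refine upoly_aux ![1, -1, 1] ![1, -1, 1] ?_ ?_ ?_ <;>
      simp [mon_eq] <;> field_simp <;> ring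

/-- The chart at the node `(4, 6)`. -/
def ch11 : Chart where
  i := 4
  j := 6
  βa := ![-1, 0, 0, -1, 1]
  βb := ![0, 0, 0, 1, 0]
  βq := ![1, 2, 1, -1, -2]
  u := ![![-1, 1, 1, -1, 0], ![0, 1, 0, 0, 0], ![-1, 1, 0, 0, 0]]
  ne := by decide
  ai := by decide
  aj := by decide
  bi := by decide
  bj := by decide
  qi := by decide
  qj := by decide
  ql := by decide
  ui := by decide
  uj := by decide
  uspan β h h' := by
    rw [dv_4] at h; rw [dv_6] at h'
    refine uspan_aux ![(1) * β 2,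
      (1) * β 0 + (1) * β 1 + (1) * β 4,
      (-1) * β 0 + (-1) * β 2 + (-1) * β 4] ?_
    refine funext (ex_forall.mpr ?_)
    simp [Fin.sum_univ_three]
    omega
  upoly k _ := by
    have := ca_ne (k := k); have := cb_ne (k := k); have := ca1_ne (k := k)
    have := cb1_ne (k := k); have := cab_ne (k := k)
    refine upoly_aux ![1, 1, 1] ![1, 1, -1] ?_ ?_ ?_ <;>
      simp [mon_eq] <;> field_simp <;> ring

/-- The chart at the node `(4, 9)`. -/
def ch12 : Chart where
  i := 4
  j := 9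
  βa := ![-1, 0, 0, 0, 1]
  βb := ![0, 0, 0, -1, 0]
  βq := ![1, 2, 2, -1, -2]
  u := ![![-1, 1, 0, 0, 0], ![0, 1, 0, -1, 0], ![-1, 1, 1, -1, 0]]
  ne := by decide
  ai := by decide
  aj := by decide
  bi := by decide
  bj := by decide
  qi := by decide
  qj := by decide
  ql := by decide
  ui := by decide
  uj := by decide
  uspan β h h' := by
    rw [dv_4] at h; rw [dv_9] at h'
    refine uspan_aux ![(-1) * β 0 + (-1) * β 2 + (-1) * β 4,
      (1) * β 0 + (1) * β 1 + (1) * β 4,
      (1) * β 2] ?_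
    refine funext (ex_forall.mpr ?_)
    simp [Fin.sum_univ_three]
    omega
  upoly k _ := by
    have := ca_ne (k := k); have := cb_ne (k := k); have := ca1_ne (k := k)
    have := cb1_ne (k := k); have := cab_ne (k := k)
    refine upoly_aux ![1, 1, 1] ![-1, 1, 1] ?_ ?_ ?_ <;>
      simp [mon_eq] <;> field_simp <;> ring

/-- The chart at the node `(7, 9)`. -/
def ch13 : Chart where
  i := 7
  j := 9
  βa := ![-1, 1, 0, 0, 0]
  βb := ![0, -1, 0, 0, 0]
  βq := ![1, 1, 2, -1, -1]
  u := ![![-1, 0, 0, 0, 1], ![0, -1, 0, 1, 0], ![-1, 0, 1, 0, 0]]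
  ne := by decide
  ai := by decide
  aj := by decide
  bi := by decide
  bj := by decide
  qi := by decide
  qj := by decide
  ql := by decide
  ui := by decide
  uj := by decide
  uspan β h h' := by
    rw [dv_7] at h; rw [dv_9] at h'
    refine uspan_aux ![(1) * β 4,
      (1) * β 3,
      (1) * β 2] ?_
    refine funext (ex_forall.mpr ?_)
    simp [Fin.sum_univ_three]
    omega
  upoly k _ := by
    have := ca_ne (k := k); have := cb_ne (k := k); have := ca1_ne (k := k)
    have := cb1_ne (k := k); have := cab_ne (k := k)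
    refine upoly_aux ![1, 1, 1] ![-1, -1, -1] ?_ ?_ ?_ <;>
      simp [mon_eq] <;> field_simp <;> ring

/-- The chart at the node `(8, 9)`. -/
def ch14 : Chart where
  i := 8
  j := 9
  βa := ![0, 0, 1, -1, 0]
  βb := ![0, 0, -1, 0, 0]
  βq := ![1, 1, 1, 0, -1]
  u := ![![0, 0, 0, -1, 1], ![1, 0, -1, 0, 0], ![0, 1, 0, -1, 0]]
  ne := by decide
  ai := by decide
  aj := by decide
  bi := by decide
  bj := by decide
  qi := by decide
  qj := by decide
  ql := by decide
  ui := by decide
  uj := by decide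
  uspan β h h' := by
    rw [dv_8] at h; rw [dv_9] at h'
    refine uspan_aux ![(1) * β 4,
      (1) * β 0,
      (1) * β 1] ?_
    refine funext (ex_forall.mpr ?_)
    simp [Fin.sum_univ_three]
    omega
  upoly k _ := by
    have := ca_ne (k := k); have := cb_ne (k := k); have := ca1_ne (k := k)
    have := cb1_ne (k := k); have := cab_ne (k := k)
    refine upoly_aux ![-1, 1, 1] ![-1, 1, 1] ?_ ?_ ?_ <;>
      simp [mon_eq] <;> field_simp <;> ring

/-- The fifteen charts. -/
def charts : Fin 15 → Chart :=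
  ![ch0, ch1, ch2, ch3, ch4, ch5, ch6, ch7, ch8, ch9, ch10, ch11, ch12, ch13, ch14]

/-- The nodes. -/
def nodes : Fin 15 → Fin 10 × Fin 10 :=
  ![(0, 3), (0, 5), (0, 8), (1, 2), (1, 5), (1, 7), (2, 6), (2, 8), (3, 6), (3, 7), (4, 5), (4, 6), (4, 9), (7, 9), (8, 9)]

theorem charts_ij (n : Fin 15) : ((charts n).i, (charts n).j) = nodes n := by
  fin_cases n <;> rfl

/-- The three reducible members of the five conic pencils. -/
def conic : Fin 5 → Fin 3 → Fin 10 × Fin 10 :=
  ![![(0, 3), (1, 2), (4, 9)],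
    ![(0, 5), (2, 6), (7, 9)],
    ![(0, 8), (1, 7), (4, 6)],
    ![(1, 5), (3, 6), (8, 9)],
    ![(2, 8), (3, 7), (4, 5)]]

/-- The quotients of the members of a pencil by the first one. -/
def conicβ : Fin 5 → Fin 3 → Ex :=
  ![![![0, 0, 0, 0, 0], ![-1, 1, 1, -1, 0], ![-1, 0, 0, -1, 1]],
    ![![0, 0, 0, 0, 0], ![-1, 0, 1, 0, 0], ![-1, 0, 0, 0, 0]],
    ![![0, 0, 0, 0, 0], ![-1, 1, 0, 0, 0], ![-1, 0, 0, 0, 1]],
    ![![0, 0, 0, 0, 0], ![0, -1, 0, 1, 0], ![0, -1, 0, 0, 0]],
    ![![0, 0, 0, 0, 0], ![0, 0, -1, 1, 0], ![0, 0, -1, 0, 1]]]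

/-- The signs in the Plücker relations. -/
def conics : Fin 5 → Fin 3 → ℤ :=
  ![![1, -1, 1], ![1, -1, -1], ![1, -1, -1], ![1, -1, -1], ![1, -1, -1]]

theorem conics_sq (r : Fin 5) (m : Fin 3) : conics r m * conics r m = 1 := by
  fin_cases r <;> fin_cases m <;> simp [conics]

theorem dv_conicβ (r : Fin 5) (m : Fin 3) :
    dv (conicβ r m) + (Pi.single (conic r 0).1 1 + Pi.single (conic r 0).2 1) =
      Pi.single (conic r m).1 1 + Pi.single (conic r m).2 1 := by
  revert r m; decide

/-- The Plücker relations. -/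
theorem pluecker (r : Fin 5) : ∑ m, (conics r m : KK k) * mon k (conicβ r m) = 0 := by
  have := ca_ne (k := k); have := cb_ne (k := k); have := ca1_ne (k := k)
  have := cb1_ne (k := k); have := cab_ne (k := k)
  fin_cases r <;> simp [Fin.sum_univ_three, conics, conicβ, mon_eq] <;> field_simp <;> ring

/-- Test classes: the ten lines and the five conics. -/
def tcl : Fin 15 → Ex :=
  ![![1, -1, 0, 0, -1], ![1, -1, 0, -1, 0], ![1, 0, -1, 0, -1], ![1, 0, -1, -1, 0], ![1, -1, -1, 0, 0], ![0, 1, 0, 0, 0], ![0, 0, 1, 0, 0], ![0, 0, 0, 1, 0], ![0, 0, 0, 0, 1], ![1, 0, 0, -1, -1], ![2, -1, -1, -1, -1], ![1, 0, 0, 0, -1], ![1, -1, 0, 0, 0], ![1, 0, 0, -1, 0], ![1, 0, -1, 0, 0]]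

theorem tcl_pos (n : Fin 15) : 1 ≤ ip (tcl n) Lc := by revert n; decide

/-- The intersection numbers of the test classes with the lines. -/
def tin (n : Fin 15) (i : Fin 10) : ℤ := ip (tcl n) (cl (Pi.single i 1))

theorem zlemma_aux : ∀ z : Fin 1024, (∀ r : Fin 5, ∀ m : Fin 3, (∀ m', m' ≠ m →
      z.1.testBit (conic r m').1 ∨ z.1.testBit (conic r m').2) →
      z.1.testBit (conic r m).1 ∨ z.1.testBit (conic r m).2) →
    (∃ n, ∀ i : Fin 10, z.1.testBit i → i = (nodes n).1 ∨ i = (nodes n).2) ∨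
      ∃ n, ∀ i : Fin 10, ¬ z.1.testBit i → tin n i ≤ 0 := by
  decide +kernel

/-- A set of lines closed under the Plücker relations lies in a node or is "irrelevant". -/
theorem zlemma (Z : Fin 10 → Prop) (h : ∀ r m, (∀ m', m' ≠ m →
      Z (conic r m').1 ∨ Z (conic r m').2) → Z (conic r m).1 ∨ Z (conic r m).2) :
    (∃ n, ∀ i, Z i → i = (nodes n).1 ∨ i = (nodes n).2) ∨ ∃ n, ∀ i, ¬ Z i → tin n i ≤ 0 := by
  classical
  have hb : ∀ i : Fin 10, (Nat.ofBits fun i : Fin 10 => decide (Z i)).testBit i ↔ Z i := fun i => by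
    rw [Nat.testBit_ofBits_lt _ _ i.2]; simp
  rcases zlemma_aux ⟨Nat.ofBits fun i : Fin 10 => decide (Z i), Nat.ofBits_lt_two_pow _⟩
    (by simpa only [hb] using h) with ⟨n, hn⟩ | ⟨n, hn⟩
  · exact Or.inl ⟨n, fun i hi => hn i ((hb i).mpr hi)⟩
  · exact Or.inr ⟨n, fun i hi => hn i (by simpa only [hb] using hi)⟩

theorem charts_i (n : Fin 15) : (charts n).i = (nodes n).1 := congrArg Prod.fst (charts_ij n)
theorem charts_j (n : Fin 15) : (charts n).j = (nodes n).2 := congrArg Prod.snd (charts_ij n)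

theorem exists_node (i : Fin 10) : ∃ n, (nodes n).1 = i ∨ (nodes n).2 = i := by revert i; decide

/-- The self-intersection of a class in terms of the coefficients of the lines. -/
theorem ip_cl_cl (α : Dg) : ip (cl α) (cl α) =
    -∑ i, α i ^ 2 + 2 * ∑ n, α (nodes n).1 * α (nodes n).2 := by
  simp [ip, cl_0, cl_1, cl_2, cl_3, cl_4, nodes, Fin.sum_univ_succ]; ring

theorem ip_tcl (n : Fin 15) (α : Dg) : ip (tcl n) (cl α) = ∑ i, α i * tin n i := by
  conv_lhs => rw [← Finset.univ_sum_single α, map_sum]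
  have : ∀ s : Finset (Fin 10), ip (tcl n) (∑ i ∈ s, cl (Pi.single i (α i))) =
      ∑ i ∈ s, α i * tin n i := fun s => by
    induction s using Finset.induction_on with
    | empty => simp
    | insert a s ha ih =>
      rw [Finset.sum_insert ha, Finset.sum_insert ha, ip_add_right, ih, tin, ← ip_smul_right,
        ← map_zsmul, ← Pi.single_smul, smul_eq_mul, mul_one]
  exact this _

theorem βn_nonneg (m : Fin 5) : 0 ≤ (2 : ℤ) • ζ + dv (βn m) := fun i => by revert m i; decide

/-- At a node of the two pentagons exactly one monomial of `yy 1` does not vanish. -/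
theorem cross_node (n : Fin 15) (h : ζ (nodes n).1 ≠ ζ (nodes n).2) : ∃ m,
    ((2 : ℤ) • ζ + dv (βn m)) (nodes n).1 = 0 ∧ ((2 : ℤ) • ζ + dv (βn m)) (nodes n).2 = 0 ∧
      ∀ m', m' ≠ m → ((2 : ℤ) • ζ + dv (βn m')) (nodes n).1 ≠ 0 ∧
        ((2 : ℤ) • ζ + dv (βn m')) (nodes n).2 ≠ 0 := by
  revert n; decide

theorem ζ_zero_or_one (i : Fin 10) : ζ i = 0 ∨ ζ i = 1 := by revert i; decide

end Crest.Agent.R169
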