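/-
R169/HPCA: Riemann-Roch for the structure sheaf (part 1 of 2)
-/
import Crest.Agent.R169.Fam
import Crest.Agent.R169.Tab

set_option autoImplicit false
set_option linter.unusedSectionVars false
set_option linter.unusedVariables false
set_option linter.unusedSimpArgs false

noncomputable section

namespace Crest.Agent.R169

open MvPolynomial Filter
open scoped Pointwise


variable {k : Type} [Field k]

theorem HPCA_per (F : ℤ → ℤ) (h : ∀ u, F (u + 7) = F u) (u : ℤ) :
    F u = F ((u : ZMod 7).val : ℕ) := by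
  have hp : Function.Periodic F 7 := h
  have h1 : (((u : ZMod 7).val : ℕ) : ℤ) = u % 7 := ZMod.val_intCast u
  rw [h1, ← hp.int_mul (u / 7) (u % 7)]
  congr 1
  simp only [Int.cast_id]
  omega

/-- `dv` modulo seven -/
def HPCAψ (l : Fin 10) (β : Fin 5 → ZMod 7) : ZMod 7 :=
  ∑ m, β m * (dv (Pi.single m 1) l : ℤ)

theorem HPCAψ_add (l : Fin 10) (β β' : Fin 5 → ZMod 7) :
    HPCAψ l (β + β') = HPCAψ l β + HPCAψ l β' := by
  simp only [HPCAψ, Pi.add_apply, add_mul, Finset.sum_add_distrib]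

theorem HPCAψ_cast (l : Fin 10) (b : Ex) :
    ((dv b l : ℤ) : ZMod 7) = HPCAψ l fun m => (b m : ZMod 7) := by
  conv_lhs => rw [← Finset.univ_sum_single b, map_sum, Finset.sum_apply]
  rw [Int.cast_sum, HPCAψ]
  refine Finset.sum_congr rfl fun m _ => ?_
  rw [← Int.cast_mul, ← smul_eq_mul, ← Pi.smul_apply, ← map_zsmul, ← Pi.single_smul, smul_eq_mul,
    mul_one]

theorem HPCA_ip (D : Ex) (α : Dg) : ip D (cl α) = ∑ i, α i * ip D (cl (Pi.single i 1)) := by
  conv_lhs => rw [← Finset.univ_sum_single α, map_sum]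
  have : ∀ s : Finset (Fin 10), ip D (∑ i ∈ s, cl (Pi.single i (α i))) =
      ∑ i ∈ s, α i * ip D (cl (Pi.single i 1)) := fun s => by
    induction s using Finset.induction_on with
    | empty => simp
    | insert a s ha ih =>
      rw [Finset.sum_insert ha, Finset.sum_insert ha, ip_add_right, ih, ← ip_smul_right,
        ← map_zsmul, ← Pi.single_smul, smul_eq_mul, mul_one]
  exact this _

/-- Equidistribution of the two chart coordinates over the sectors.  Recipe: the homomorphism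
`(Fin 5 → ZMod 7) → ZMod 7 × ZMod 7`, `β ↦ (dv β i, dv β j)` is onto (`c.ai, …, c.bj`), so all
fibres have `343` elements (`Finset.sum_fiberwise`, `MonoidHom.card_fiber_eq_of_mem_range`). -/
theorem Chart.equi (c : Chart) (F : ℤ → ℤ → ℤ) (h1 : ∀ u v, F (u + 7) v = F u v)
    (h2 : ∀ u v, F u (v + 7) = F u v) (α : Dg) :
    ∑ β : Fin 5 → Fin 7, F ((α + dv fun j => (β j : ℤ)) c.i) ((α + dv fun j => (β j : ℤ)) c.j) =
      343 * ∑ u : Fin 7, ∑ v : Fin 7, F (u : ℕ) (v : ℕ) := by
  let F' : ZMod 7 → ZMod 7 → ℤ := fun u v => F (u.val : ℕ) (v.val : ℕ)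
  have hF : ∀ u v : ℤ, F u v = F' u v := fun u v => by
    rw [HPCA_per (fun u => F u v) (fun u => h1 u v) u,
      HPCA_per (fun v => F _ v) (fun v => h2 _ v) v]
  have e1 : ∑ β : Fin 5 → Fin 7, F ((α + dv fun j => (β j : ℤ)) c.i)
      ((α + dv fun j => (β j : ℤ)) c.j) =
      ∑ β : Fin 5 → ZMod 7, F' (α c.i + HPCAψ c.i β) (α c.j + HPCAψ c.j β) := by
    refine Finset.sum_congr rfl fun β _ => ?_
    have : (fun m => (((β m : ℕ) : ℤ) : ZMod 7)) = β := by
      funext m
      rw [Int.cast_natCast]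
      exact ZMod.natCast_zmod_val (n := 7) (β m)
    rw [hF, Pi.add_apply, Pi.add_apply, Int.cast_add, Int.cast_add, HPCAψ_cast, HPCAψ_cast, this]
  have e2 : ∑ u : Fin 7, ∑ v : Fin 7, F (u : ℕ) (v : ℕ) = ∑ u : ZMod 7, ∑ v : ZMod 7, F' u v := rfl
  rw [e1, e2]
  set S := ∑ β : Fin 5 → ZMod 7, F' (α c.i + HPCAψ c.i β) (α c.j + HPCAψ c.j β) with hS
  have e3 : ∀ u v : ZMod 7, S = ∑ β : Fin 5 → ZMod 7,
      F' (α c.i + HPCAψ c.i β + u) (α c.j + HPCAψ c.j β + v) := fun u v => by
    obtain ⟨u, rfl⟩ := ZMod.intCast_surjective u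
    obtain ⟨v, rfl⟩ := ZMod.intCast_surjective v
    rw [hS, ← Equiv.sum_comp (Equiv.addRight fun m => ((u • c.βa + v • c.βb) m : ZMod 7))]
    refine Finset.sum_congr rfl fun β _ => ?_
    rw [Equiv.coe_addRight, HPCAψ_add, HPCAψ_add, ← HPCAψ_cast, ← HPCAψ_cast, map_add, map_zsmul,
      map_zsmul]
    simp only [Pi.add_apply, Pi.smul_apply, c.ai, c.aj, c.bi, c.bj, smul_eq_mul, mul_one, mul_zero,
      add_zero, zero_add, add_assoc]
  have e4 : ∑ u : ZMod 7, ∑ v : ZMod 7, S =
      ∑ β : Fin 5 → ZMod 7, ∑ u : ZMod 7, ∑ v : ZMod 7, F' u v := by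
    rw [Finset.sum_congr rfl fun u _ => Finset.sum_congr rfl fun v _ => e3 u v,
      Finset.sum_congr rfl fun u _ => Finset.sum_comm, Finset.sum_comm]
    refine Finset.sum_congr rfl fun β _ => ?_
    rw [← Equiv.sum_comp (Equiv.addLeft ((α c.i : ZMod 7) + HPCAψ c.i β)) fun u => ∑ v, F' u v]
    refine Finset.sum_congr rfl fun u _ => ?_
    rw [← Equiv.sum_comp (Equiv.addLeft ((α c.j : ZMod 7) + HPCAψ c.j β)) fun v => F' _ v]
    rfl
  simp only [Finset.sum_const, Finset.card_univ, ZMod.card, Fintype.card_pi, Finset.prod_const,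
    Fintype.card_fin, nsmul_eq_mul] at e4
  push_cast at e4
  linarith

/-- Recipe.  Write `α + dv β = 7 γ + ρ` with `ρ i = (α + dv β) i % 7`; then `7 cl γ = D - cl ρ`,
`D = cl α`.  Expand `49 *` the left side with `ip_cl_cl`, `ip_cl_Lc` and
`ip D (cl ρ) = ∑ i, ρ i * ip D (cl (Pi.single i 1))`, `∑ i, cl (Pi.single i 1) = 2 • Lc`.  By `equi`
(every line lies on a node: `charts`, `charts_ij`) `∑_β ρ i = 7^4 * 21`, `∑_β ρ i ^ 2 = 7^4 * 91`,
`∑_β ρ i ρ j = 343 * 441` for a node `(i, j)`. -/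
theorem sum_sectors (α : Dg) :
    ∑ β : Fin 5 → Fin 7, (2 + ip (cl fun l => (α + dv fun j => (β j : ℤ)) l / 7)
      (cl fun l => (α + dv fun j => (β j : ℤ)) l / 7) +
      ip (cl fun l => (α + dv fun j => (β j : ℤ)) l / 7) Lc) = 343 * chi (cl α) := by
  set ρ : (Fin 5 → Fin 7) → Dg := fun β l => (α + dv fun j => (β j : ℤ)) l % 7 with hρ
  have s1 : ∀ i, ∑ β, ρ β i = 50421 := fun i => by
    obtain ⟨n, rfl | rfl⟩ := exists_node i
    · have := (charts n).equi (fun u _ => u % 7) (fun u v => by omega) (fun _ _ => rfl) α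
      rw [charts_i] at this
      exact this.trans (by decide)
    · have := (charts n).equi (fun _ v => v % 7) (fun _ _ => rfl) (fun u v => by omega) α
      rw [charts_j] at this
      exact this.trans (by decide)
  have s2 : ∀ i, ∑ β, ρ β i ^ 2 = 218491 := fun i => by
    obtain ⟨n, rfl | rfl⟩ := exists_node i
    · have := (charts n).equi (fun u _ => (u % 7) ^ 2) (fun u v => by congr 1; omega)
        (fun _ _ => rfl) α
      rw [charts_i] at this
      exact this.trans (by decide)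
    · have := (charts n).equi (fun _ v => (v % 7) ^ 2) (fun _ _ => rfl)
        (fun u v => by congr 1; omega) α
      rw [charts_j] at this
      exact this.trans (by decide)
  have s3 : ∀ n, ∑ β, ρ β (nodes n).1 * ρ β (nodes n).2 = 151263 := fun n => by
    have := (charts n).equi (fun u v => (u % 7) * (v % 7)) (fun u v => by congr 1; omega)
      (fun u v => by congr 1; omega) α
    rw [charts_i, charts_j] at this
    exact this.trans (by decide)
  have key : ∀ β : Fin 5 → Fin 7, 49 * (2 + ip (cl fun l => (α + dv fun j => (β j : ℤ)) l / 7)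
      (cl fun l => (α + dv fun j => (β j : ℤ)) l / 7) +
      ip (cl fun l => (α + dv fun j => (β j : ℤ)) l / 7) Lc) =
      (98 + ip (cl α) (cl α) + 7 * ip (cl α) Lc) -
        2 * ∑ i, ρ β i * ip (cl α) (cl (Pi.single i 1)) +
        (-∑ i, ρ β i ^ 2 + 2 * ∑ n, ρ β (nodes n).1 * ρ β (nodes n).2) - 7 * ∑ i, ρ β i := by
    intro β
    have e : ∀ a : Dg, (7 : ℤ) • (fun l => a l / 7) = a - fun l => a l % 7 := fun a => by
      funext l
      simp only [Pi.sub_apply, Pi.smul_apply, smul_eq_mul]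
      omega
    have e2 : (7 : ℤ) • cl (fun l => (α + dv fun j => (β j : ℤ)) l / 7) = cl α - cl (ρ β) := by
      rw [← map_zsmul, e, map_sub, map_add, cl_dv, add_zero]
    rw [← HPCA_ip, ← ip_cl_cl, show ∑ i, ρ β i = ip (cl (ρ β)) Lc from (ip_cl_Lc _).symm]
    generalize cl (fun l => (α + dv fun j => (β j : ℤ)) l / 7) = g at e2 ⊢
    have e3 := congrArg (fun x => ip x x) e2
    have e4 := congrArg (fun x => ip x Lc) e2
    simp only [ip_smul_left, ip_smul_right, ip_sub_left, ip_sub_right,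
      ip_comm (cl (ρ β)) (cl α)] at e3 e4
    linarith
  have s4 : ∑ i, ip (cl α) (cl (Pi.single i 1)) = 2 * ip (cl α) Lc := by
    rw [← ip_smul_right, ← cl_one, HPCA_ip (cl α) 1]
    simp
  refine mul_left_cancel₀ (show (49 : ℤ) ≠ 0 by norm_num) ?_
  rw [Finset.mul_sum]
  simp only [key, Finset.sum_sub_distrib, Finset.sum_add_distrib, Finset.sum_neg_distrib,
    ← Finset.mul_sum]
  rw [Finset.sum_comm (f := fun β i => ρ β i * ip (cl α) (cl (Pi.single i 1))),
    Finset.sum_comm (f := fun β i => ρ β i ^ 2),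
    Finset.sum_comm (f := fun β n => ρ β (nodes n).1 * ρ β (nodes n).2),
    Finset.sum_comm (f := fun β i => ρ β i)]
  simp only [← Finset.sum_mul, s1, s2, s3, ← Finset.mul_sum, s4, Finset.sum_const, Finset.card_univ,
    Fintype.card_pi, Finset.prod_const, Fintype.card_fin, nsmul_eq_mul, chi]
  push_cast
  ring

end Crest.Agent.R169
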