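/-
R169/HPC: Riemann-Roch for the structure sheaf (part 2 of 2)
-/
import Crest.Agent.R169.HPCA

set_option autoImplicit false
set_option linter.unusedSectionVars false
set_option linter.unusedVariables false
set_option linter.unusedSimpArgs false

noncomputable section

namespace Crest.Agent.R169

open MvPolynomial Filter
open scoped Pointwise


variable {k : Type} [Field k]

theorem HPC_ip_Lc (i : Fin 10) : ip Lc (cl (Pi.single i 1)) = 1 := by
  revert i; decide

theorem HPC_cl_single (i : Fin 10) : cl (Pi.single i 1) =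
    (![![1, -1, 0, 0, -1], ![1, -1, 0, -1, 0], ![1, 0, -1, 0, -1], ![1, 0, -1, -1, 0],
      ![1, -1, -1, 0, 0], ![0, 1, 0, 0, 0], ![0, 0, 1, 0, 0], ![0, 0, 0, 1, 0], ![0, 0, 0, 0, 1],
      ![1, 0, 0, -1, -1]] : Fin 10 → Ex) i := by
  revert i; decide

theorem HPC_ip_le {ρ : Dg} (h : ∀ l, 0 ≤ ρ l ∧ ρ l ≤ 6) (i : Fin 10) :
    ip (cl ρ) (cl (Pi.single i 1)) ≤ 18 := by
  rw [HPC_cl_single]
  obtain ⟨h0, h1, h2, h3, h4, h5, h6, h7, h8, h9⟩ := dg_forall.mp h
  fin_cases i <;> simp [ip, cl_0, cl_1, cl_2, cl_3, cl_4] <;> omega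

theorem HPC_nef (α : Dg) : ∀ᶠ t : ℕ in atTop, ∀ (β : Ex) (i : Fin 10),
    0 ≤ ip (cl fun l => (α + t • ζ + dv β) l / 7) (cl (Pi.single i 1)) := by
  have h : ∀ᶠ t : ℕ in atTop, ∀ i : Fin 10, 18 - ip (cl α) (cl (Pi.single i 1)) ≤ t := by
    refine eventually_all.mpr fun i => ?_
    filter_upwards [eventually_ge_atTop (18 - ip (cl α) (cl (Pi.single i 1))).toNat] with t ht
    omega
  filter_upwards [h] with t ht β i
  have e : ∀ a : Dg, a = (7 : ℤ) • (fun l => a l / 7) + fun l => a l % 7 := fun a => by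
    funext l
    simp only [Pi.add_apply, Pi.smul_apply, smul_eq_mul]
    omega
  have e2 := congrArg (fun x => ip (cl x) (cl (Pi.single i 1))) (e (α + t • ζ + dv β))
  simp only [map_add, map_zsmul, map_nsmul, cl_dv, cl_ζ, ip_add_left, ip_smul_left, ip_nsmul_left,
    HPC_ip_Lc, ip_zero_left] at e2
  have e3 := HPC_ip_le (ρ := fun l => (α + t • ζ + dv β) l % 7)
    (fun l => ⟨by omega, by omega⟩) i
  have e4 := ht i
  omega

theorem HPC_finrank {α γ : Dg} (hα : α = (7 : ℤ) • γ) {n : ℤ} (hn : 0 ≤ n) (h : cl γ = n • Lc) :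
    2 * (Module.finrank k (CC k α) : ℤ) = 2 + 5 * n ^ 2 + 5 * n := by
  have e : (fun l => α l / 7) = γ := by
    funext l
    rw [hα, Pi.smul_apply, smul_eq_mul]
    omega
  rw [finrank_CC (by rw [e, h]; intro i; rw [ip_smul_left, HPC_ip_Lc]; omega), e, h]
  simp only [ip_smul_left, ip_smul_right, ip_Lc_Lc]
  ring

/-- Recipe: `finrank_CC` (for large `t` all classes are nef since `ip Lc (cl (Pi.single i 1)) = 1`
and `7 cl γ = cl α + t Lc - cl ρ`) and `sum_sectors`. -/
theorem hp_CC : HP (CC k) 1 0 0 := by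
  intro α
  filter_upwards [HPC_nef α] with t ht
  rw [ip_zero_left, add_zero, add_zero, Nat.cast_one, one_mul, ← sum_sectors, hf, Nat.cast_sum,
    Finset.mul_sum]
  exact Finset.sum_congr rfl fun β _ => finrank_CC (ht _)

theorem hp_gen_free {V : Type} [AddCommGroup V] [Module k V] [Module (KK k) V]
    [IsScalarTower k (KK k) V] {r : ℕ} {x : Fin r → V} (hx : LinearIndependent (KK k) x) (α : Dg) :
    HP (gen k (Set.range fun i => (x i, α))) r (-((r : ℤ) • cl α))
      (343 * r * ip (cl α) (cl α)) := by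
  intro γ
  filter_upwards [hp_CC (k := k) (γ - α)] with t ht
  rw [hf_gen_free hx, show γ + t • ζ - α = γ - α + t • ζ by abel, Nat.cast_mul, mul_left_comm, ht,
    show γ - α + t • ζ = γ + t • ζ - α by abel, map_sub]
  generalize cl (γ + t • ζ) = D
  simp only [chi, ip_sub_left, ip_sub_right, ip_neg_left, ip_smul_left, ip_smul_right,
    ip_zero_left, ip_comm D (cl α), Nat.cast_one]
  ring

/-- Dimension of one sector along the ray. -/
theorem finrank_CC_ray (t : ℕ) :
    (Module.finrank k (CC k ((14 * t : ℤ) • ζ)) : ℤ) = 1 + 10 * t ^ 2 + 5 * t := by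
  have := HPC_finrank (k := k) (α := (14 * t : ℤ) • ζ) (γ := (2 * t : ℤ) • ζ)
    (by rw [smul_smul]; congr 1; ring) (n := 2 * t) (by positivity) (by rw [map_zsmul, cl_ζ])
  linarith

theorem finrank_CC_diff {s : ℕ} (hs : 1 ≤ s) :
    Module.finrank k (CC k ((7 * s : ℤ) • 1)) ≤
      Module.finrank k (CC k ((7 * s : ℤ) • 1 - (14 : ℤ) • ζ)) + 20 * s := by
  have h1 := HPC_finrank (k := k) (α := (7 * s : ℤ) • 1) (γ := (s : ℤ) • 1)
    (by rw [smul_smul]) (n := s * 2) (by positivity) (by rw [map_zsmul, cl_one, smul_smul])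
  have h2 := HPC_finrank (k := k) (α := (7 * s : ℤ) • 1 - (14 : ℤ) • ζ)
    (γ := (s : ℤ) • 1 - (2 : ℤ) • ζ) (by rw [smul_sub, smul_smul, smul_smul]; norm_num)
    (n := s * 2 - 2) (by omega)
    (by rw [map_sub, map_zsmul, map_zsmul, cl_one, cl_ζ, smul_smul, sub_smul])
  zify
  nlinarith

end Crest.Agent.R169
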