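/-
R169/NoethA: Noetherian property and dévissage (part 1 of 3)
-/
import Crest.Agent.R169.Fam

set_option autoImplicit false
set_option linter.unusedSectionVars false
set_option linter.unusedVariables false
set_option linter.unusedSimpArgs false

noncomputable section

namespace Crest.Agent.R169

open MvPolynomial Filter
open scoped Pointwise


variable {k : Type} [Field k] {V V' : Type} [AddCommGroup V] [Module k V] [Module (KK k) V]
  [IsScalarTower k (KK k) V] [AddCommGroup V'] [Module k V'] [Module (KK k) V']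
  [IsScalarTower k (KK k) V']

/-- The ambient ring. -/
abbrev NoethA_B (k : Type) [Field k] := AddMonoidAlgebra (KK k) Dg

/-- The generators. -/
def NoethA_S (k : Type) [Field k] : Set (NoethA_B k) :=
  (Set.range fun i : Fin 10 => AddMonoidAlgebra.single (Pi.single i 1) (1 : KK k)) ∪
  ((Set.range fun j : Fin 5 => AddMonoidAlgebra.single (-((7 : ℤ) • dv (Pi.single j 1)))
      (mon k (Pi.single j 1))) ∪
    Set.range fun j : Fin 5 => AddMonoidAlgebra.single (-((7 : ℤ) • dv (-Pi.single j 1)))
      (mon k (-Pi.single j 1)))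

/-- The Cox ring. -/
def NoethA_A (k : Type) [Field k] : Subalgebra k (NoethA_B k) := Algebra.adjoin k (NoethA_S k)

theorem NoethA_noeth : IsNoetherianRing (NoethA_A k) := by
  refine isNoetherianRing_of_fg ?_
  have h : (NoethA_S k).Finite :=
    (Set.finite_range _).union ((Set.finite_range _).union (Set.finite_range _))
  exact ⟨h.toFinset, by rw [h.coe_toFinset]; rfl⟩

theorem NoethA_coeff_single {γ : Dg} {f : KK k} (hf : f ∈ CC k γ) (α : Dg) :
    (AddMonoidAlgebra.single γ f : NoethA_B k).coeff α ∈ CC k α := by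
  classical
  rw [AddMonoidAlgebra.coeff_single, Finsupp.single_apply]
  split_ifs with h
  · exact h ▸ hf
  · exact Submodule.zero_mem _

theorem NoethA_coeff_mem {b : NoethA_B k} (hb : b ∈ NoethA_A k) (α : Dg) :
    b.coeff α ∈ CC k α := by
  induction hb using Algebra.adjoin_induction generalizing α with
  | mem x hx =>
    rcases hx with ⟨i, rfl⟩ | ⟨j, rfl⟩ | ⟨j, rfl⟩
    · exact NoethA_coeff_single (one_mem_CC (Pi.single_nonneg.2 zero_le_one)) α
    · exact NoethA_coeff_single (mon_mem (by rw [add_neg_cancel])) α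
    · exact NoethA_coeff_single (mon_mem (by rw [add_neg_cancel])) α
  | algebraMap r =>
    refine NoethA_coeff_single (γ := 0) (f := algebraMap k (KK k) r) ?_ α
    rw [Algebra.algebraMap_eq_smul_one]
    exact Submodule.smul_mem _ _ (one_mem_CC le_rfl)
  | add x y _ _ hx hy =>
    rw [AddMonoidAlgebra.coeff_add, Finsupp.add_apply]
    exact Submodule.add_mem _ (hx α) (hy α)
  | mul x y _ _ hx hy =>
    rw [AddMonoidAlgebra.coeff_mul_apply_left, Finsupp.sum]
    refine Submodule.sum_mem _ fun γ _ => ?_
    have := mul_mem_CC (hx γ) (hy (-γ + α))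
    rwa [add_neg_cancel_left] at this

theorem NoethA_single_mon {β : Ex} {γ : Dg} (h : 0 ≤ (7 : ℤ) • dv β + γ) :
    (AddMonoidAlgebra.single γ (mon k β) : NoethA_B k) ∈ NoethA_A k := by
  let M : AddSubmonoid (Dg × Ex) :=
    { carrier := {p | (AddMonoidAlgebra.single p.1 (mon k p.2) : NoethA_B k) ∈ NoethA_A k}
      add_mem' := fun {p q} hp hq => by
        have := (NoethA_A k).mul_mem hp hq
        rwa [AddMonoidAlgebra.single_mul_single, ← mon_add] at this
      zero_mem' := by
        have : (1 : NoethA_B k) ∈ NoethA_A k := one_mem _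
        simpa [AddMonoidAlgebra.one_def] using this }
  let L : Ex →+ Dg × Ex :=
    { toFun := fun β => (-((7 : ℤ) • dv β), β)
      map_zero' := by rw [map_zero, smul_zero, neg_zero]; rfl
      map_add' := fun β β' => by
        rw [map_add, smul_add, neg_add]; rfl }
  have h1 : ∀ δ : Dg, 0 ≤ δ → (δ, (0 : Ex)) ∈ M := by
    intro δ hδ
    have : (δ, (0 : Ex)) = ∑ i, (δ i).toNat • ((Pi.single i 1 : Dg), (0 : Ex)) := by
      refine Prod.ext ?_ ?_
      · rw [Prod.fst_sum]
        refine (Finset.univ_sum_single δ).symm.trans ?_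
        refine Finset.sum_congr rfl fun i _ => ?_
        rw [Prod.smul_fst, ← Pi.single_smul, nsmul_one, Int.toNat_of_nonneg (hδ i)]
      · rw [Prod.snd_sum]
        simp
    rw [this]
    refine sum_mem fun i _ => nsmul_mem ?_ _
    change (AddMonoidAlgebra.single (Pi.single i 1) (mon k 0) : NoethA_B k) ∈ NoethA_A k
    rw [mon_zero]
    exact Algebra.subset_adjoin (Or.inl ⟨i, rfl⟩)
  have h2 : L β ∈ M := by
    rw [← Finset.univ_sum_single β, map_sum]
    refine sum_mem fun j _ => ?_
    obtain ⟨n, hn | hn⟩ := Int.eq_nat_or_neg (β j)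
    · have : (Pi.single j (β j) : Ex) = n • (Pi.single j 1 : Ex) := by
        rw [← Pi.single_smul, nsmul_one, hn]
      rw [this, map_nsmul]
      have h5 : L (Pi.single j 1) ∈ M := Algebra.subset_adjoin (Or.inr (Or.inl ⟨j, rfl⟩))
      exact M.nsmul_mem h5 _
    · have : (Pi.single j (β j) : Ex) = n • (-Pi.single j 1 : Ex) := by
        rw [smul_neg, ← Pi.single_smul, nsmul_one, hn, Pi.single_neg]
      rw [this, map_nsmul]
      have h5 : L (-Pi.single j 1) ∈ M := Algebra.subset_adjoin (Or.inr (Or.inr ⟨j, rfl⟩))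
      exact M.nsmul_mem h5 _
  have h3 := add_mem (h1 _ h) h2
  have h4 : ((7 : ℤ) • dv β + γ, (0 : Ex)) + L β = (γ, β) := by
    refine Prod.ext ?_ ?_
    · change (7 : ℤ) • dv β + γ + -((7 : ℤ) • dv β) = γ
      abel
    · exact zero_add β
  rw [h4] at h3
  exact h3

theorem NoethA_single_mem {γ : Dg} {f : KK k} (hf : f ∈ CC k γ) :
    (AddMonoidAlgebra.single γ f : NoethA_B k) ∈ NoethA_A k := by
  induction hf using Submodule.span_induction with
  | mem y hy =>
    obtain ⟨β, hβ, rfl⟩ := hy
    exact NoethA_single_mon hβ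
  | zero => rw [AddMonoidAlgebra.single_zero]; exact zero_mem _
  | add x y _ _ hx hy => rw [AddMonoidAlgebra.single_add]; exact add_mem hx hy
  | smul c x _ hx =>
    rw [← AddMonoidAlgebra.smul_single]
    exact Subalgebra.smul_mem _ hx c

section
variable {A : Type} [CommRing A] (ι : A →+* NoethA_B k)

/-- The homogeneous component of degree `α`. -/
def NoethA_cmp {m : ℕ} (x : Fin m → V) (a : Fin m → Dg) (y : Fin m → A) (α : Dg) : V :=
  ∑ i, (ι (y i)).coeff (α - a i) • x i

/-- The submodule attached to a stable family. -/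
def NoethA_sub (hι : ∀ b α, (ι b).coeff α ∈ CC k α) {m : ℕ} (x : Fin m → V) (a : Fin m → Dg)
    (F : Fam k V) (hF : Stable F) : Submodule A (Fin m → A) where
  carrier := {y | ∀ α, NoethA_cmp ι x a y α ∈ F α}
  zero_mem' α := by simp [NoethA_cmp]
  add_mem' {y y'} hy hy' α := by
    have := add_mem (hy α) (hy' α)
    simpa [NoethA_cmp, add_smul, Finset.sum_add_distrib] using this
  smul_mem' b y hy α := by
    have : NoethA_cmp ι x a (b • y) α = ∑ γ ∈ (ι b).coeff.support,
        (ι b).coeff γ • NoethA_cmp ι x a y (α - γ) := by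
      simp only [NoethA_cmp, Finset.smul_sum]
      rw [Finset.sum_comm]
      refine Finset.sum_congr rfl fun i _ => ?_
      rw [Pi.smul_apply, smul_eq_mul, map_mul, AddMonoidAlgebra.coeff_mul_apply_left,
        Finsupp.sum, Finset.sum_smul]
      refine Finset.sum_congr rfl fun γ _ => ?_
      rw [mul_smul, show -γ + (α - a i) = α - γ - a i by abel]
    rw [this]
    refine Submodule.sum_mem _ fun γ _ => ?_
    have := hF (hι b γ) (hy (α - γ))
    rwa [add_sub_cancel] at this

theorem NoethA_main [IsNoetherianRing A] (hι : ∀ b α, (ι b).coeff α ∈ CC k α)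
    (hs : ∀ γ f, f ∈ CC k γ → ∃ b, ι b = AddMonoidAlgebra.single γ f)
    {G F : Fam k V} (hG : IsLat G) (hF : Stable F) (h : F ≤ G) : IsLat F := by
  classical
  obtain ⟨m, x, a, rfl⟩ := hG.exists_fin
  obtain ⟨T, hT⟩ : (NoethA_sub ι hι x a F hF).FG := IsNoetherian.noetherian _
  let S : Set (V × Dg) := ⋃ y ∈ (T : Set (Fin m → A)), ⋃ i : Fin m,
    (fun γ => (NoethA_cmp ι x a y (γ + a i), γ + a i)) '' ((ι (y i)).coeff.support : Set Dg)
  have hS : S.Finite := T.finite_toSet.biUnion fun y _ =>
    Set.finite_iUnion fun i => (Finset.finite_toSet _).image _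
  refine ⟨S, hS, le_antisymm ?_ (gen_le hF ?_)⟩
  · have h1 : NoethA_sub ι hι x a F hF ≤ NoethA_sub ι hι x a (gen k S) (gen_stable S) := by
      rw [← hT, Submodule.span_le]
      intro y hy α
      by_cases h0 : ∃ i, (ι (y i)).coeff (α - a i) ≠ 0
      · obtain ⟨i, hi⟩ := h0
        refine mem_gen (Set.mem_biUnion hy (Set.mem_iUnion.2 ⟨i, α - a i, ?_, ?_⟩))
        · exact Finset.mem_coe.2 (Finsupp.mem_support_iff.2 hi)
        · simp only [sub_add_cancel]
      · push Not at h0
        have : NoethA_cmp ι x a y α = 0 := Finset.sum_eq_zero fun i _ => by rw [h0 i, zero_smul]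
        rw [this]
        exact Submodule.zero_mem _
    intro α v hv
    obtain ⟨f, hf, rfl⟩ := mem_gen_range.1 (h α hv)
    choose y hy0 using fun i => hs _ _ (hf i)
    have hy : ∀ α', NoethA_cmp ι x a y α' = if α = α' then ∑ i, f i • x i else 0 := by
      intro α'
      simp only [NoethA_cmp, hy0, AddMonoidAlgebra.coeff_single, Finsupp.single_apply, sub_left_inj]
      split_ifs with e
      · rfl
      · simp
    have h2 : y ∈ NoethA_sub ι hι x a F hF := fun α' => by
      rw [hy]
      split_ifs with e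
      · exact e ▸ hv
      · exact Submodule.zero_mem _
    have h3 := h1 h2 α
    rwa [hy, if_pos rfl] at h3
  · intro p hp
    obtain ⟨y, hy, hp⟩ := Set.mem_iUnion₂.1 hp
    obtain ⟨i, γ, -, rfl⟩ := Set.mem_iUnion.1 hp
    have : y ∈ NoethA_sub ι hι x a F hF := hT ▸ Submodule.subset_span hy
    exact this _

end

/-- Recipe.  Let `A ⊆ AddMonoidAlgebra (KK k) Dg` be the `k`-subalgebra generated by
`single (e i) 1` and `single (∓ 7 dv (e j)) (mon (± e j))` (finitely generated, hence Noetherian);
its elements are the `f` with `f α ∈ CC k α` (monomials span).  By `exists_embed` assume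
`G = CCr k (Fin r)`.  A stable `F ≤ G` gives the submodule `{x : Fin r → A | ∀ α, (x · α) ∈ F α}`;
the homogeneous components of finitely many generators generate `F`. -/
theorem IsLat.sub {G F : Fam k V} (hG : IsLat G) (hF : Stable F) (h : F ≤ G) : IsLat F := by
  have := NoethA_noeth (k := k)
  exact NoethA_main (A := NoethA_A k) (NoethA_A k).val.toRingHom (fun b α => NoethA_coeff_mem b.2 α)
    (fun γ f hf => ⟨⟨_, NoethA_single_mem hf⟩, rfl⟩) hG hF h

theorem IsLat.cut {G : Fam k V} (hG : IsLat G) (U : Submodule (KK k) V) : IsLat (cut G U) :=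
  hG.sub (hG.stable.cut U) (cut_le G U)

theorem IsLat.colon {F : Fam k V} (hF : Stable F) (x : V) (α : Dg) : IsLat (colon F x α) :=
  isLat_CC.sub (hF.colon x α) (colon_le F x α)

theorem IsPr.isLat {J : Fam k (KK k)} (h : IsPr J) : IsLat J := isLat_CC.sub h.stable h.le

end Crest.Agent.R169
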