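/-
R169/NoethB: Noetherian property and dévissage (part 2 of 3)
-/
import Crest.Agent.R169.NoethA

set_option autoImplicit false
set_option linter.unusedSectionVars false
set_option linter.unusedVariables false
set_option linter.unusedSimpArgs false

noncomputable section

namespace Crest.Agent.R169

open MvPolynomial Filter
open scoped Pointwise


variable {k : Type} [Field k] {V V' : Type} [AddCommGroup V] [Module k V] [Module (KK k) V]
  [IsScalarTower k (KK k) V] [AddCommGroup V'] [Module k V'] [Module (KK k) V']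
  [IsScalarTower k (KK k) V']

/-- The maximum condition. -/
theorem IsLat.exists_max {G : Fam k V} (hG : IsLat G) (𝒮 : Set (Fam k V)) (hne : 𝒮.Nonempty)
    (h : ∀ F ∈ 𝒮, Stable F ∧ F ≤ G) : ∃ F ∈ 𝒮, ∀ F' ∈ 𝒮, F ≤ F' → F' = F := by
  by_contra hc
  push Not at hc
  choose! nx h1 h2 h3 using hc
  obtain ⟨F0, hF0⟩ := hne
  let F : ℕ → Fam k V := fun n => nx^[n] F0
  have hF : ∀ n, F n ∈ 𝒮 := by
    intro n
    induction n with
    | zero => exact hF0
    | succ n ih =>
      show nx^[n + 1] F0 ∈ 𝒮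
      rw [Function.iterate_succ_apply']
      exact h1 _ ih
  have hs : ∀ n, F (n + 1) = nx (F n) := fun n => Function.iterate_succ_apply' _ _ _
  have hmono : Monotone F := monotone_nat_of_le_succ fun n => by rw [hs]; exact h2 _ (hF n)
  have hmem : ∀ α x, x ∈ (⨆ n, F n) α ↔ ∃ n, x ∈ F n α := by
    intro α x
    rw [iSup_apply]
    exact Submodule.mem_iSup_of_directed _ (Monotone.directed_le fun a b hab => hmono hab α)
  have hU : IsLat (⨆ n, F n) := by
    refine hG.sub (fun α β f x hf hx => ?_) (iSup_le fun n => (h _ (hF n)).2)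
    obtain ⟨n, hn⟩ := (hmem _ _).1 hx
    exact (hmem _ _).2 ⟨n, (h _ (hF n)).1 hf hn⟩
  obtain ⟨S, hS, hgen⟩ := hU
  have h4 : ∀ p : S, ∃ n, p.1.1 ∈ F n p.1.2 := fun p =>
    (hmem _ _).1 (by rw [hgen]; exact mem_gen p.2)
  choose m hm using h4
  have := hS.to_subtype
  obtain ⟨N, hN⟩ := (Set.finite_range m).bddAbove
  have h5 : (⨆ n, F n) ≤ F N := by
    rw [hgen]
    exact gen_le (h _ (hF N)).1 fun p hp => hmono (hN ⟨⟨p, hp⟩, rfl⟩) _ (hm ⟨p, hp⟩)
  refine h3 _ (hF N) (le_antisymm ?_ (h2 _ (hF N)))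
  rw [← hs]
  exact (le_iSup F (N + 1)).trans h5

/-- Dévissage: a maximal annihilator is prime. -/
theorem devissage {F0 F : Fam k V} (h0 : IsLat F0) (hF : IsLat F) (hle : F0 ≤ F)
    (Q : Fam k V → Prop) (base : Q F0)
    (step : ∀ F' x α, IsLat F' → F0 ≤ F' → F' ≤ F → x ∈ F α → IsPr (colon F' x α) → Q F' →
      Q (F' ⊔ gen k {(x, α)})) : Q F := by
  obtain ⟨F', ⟨hL, h1, h2, hQ⟩, hmax⟩ := hF.exists_max
    {F' | IsLat F' ∧ F0 ≤ F' ∧ F' ≤ F ∧ Q F'} ⟨F0, h0, le_rfl, hle, base⟩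
    fun F' h => ⟨h.1.stable, h.2.2.1⟩
  by_cases hall : F ≤ F'
  · rw [le_antisymm hall h2]; exact hQ
  exfalso
  have hex : ∃ α x, x ∈ F α ∧ x ∉ F' α := by
    by_contra hc
    push Not at hc
    exact hall fun α x hx => hc α x hx
  obtain ⟨α0, x0, hx0, hx0'⟩ := hex
  obtain ⟨_, ⟨α, x, hx, hx', rfl⟩, hJ⟩ := (isLat_CC (k := k)).exists_max
    {J | ∃ α x, x ∈ F α ∧ x ∉ F' α ∧ J = colon F' x α} ⟨_, α0, x0, hx0, hx0', rfl⟩
    (by
      rintro _ ⟨α, x, -, -, rfl⟩
      exact ⟨hL.stable.colon x α, colon_le _ _ _⟩)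
  have hpr : IsPr (colon F' x α) := by
    refine ⟨hL.stable.colon x α, colon_le _ _ _, fun h => hx' ?_, fun β γ f g hf hg hfg => ?_⟩
    · have := (mem_colon.1 h).2
      rwa [one_smul, zero_add] at this
    · by_cases hg' : g ∈ colon F' x α γ
      · exact Or.inr hg'
      left
      have h3 : g • x ∉ F' (γ + α) := fun h => hg' (mem_colon.2 ⟨hg, h⟩)
      have h4 := hJ (colon F' (g • x) (γ + α)) ⟨_, _, hF.stable hg hx, h3, rfl⟩
        fun δ u hu => by
          obtain ⟨hu1, hu2⟩ := mem_colon.1 hu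
          refine mem_colon.2 ⟨hu1, ?_⟩
          have := hL.stable hg hu2
          rwa [smul_comm, add_left_comm] at this
      rw [← h4]
      refine mem_colon.2 ⟨hf, ?_⟩
      have := (mem_colon.1 hfg).2
      rwa [mul_smul, add_assoc] at this
  have h5 := hmax (F' ⊔ gen k {(x, α)}) ⟨hL.sup (isLat_gen (Set.finite_singleton _)),
    h1.trans le_sup_left, sup_le h2 (gen_le hF.stable (by rintro _ rfl; exact hx)),
    step F' x α hL h1 h2 hx hpr hQ⟩ le_sup_left
  refine hx' ?_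
  rw [← h5]
  exact (le_sup_right : gen k {(x, α)} ≤ _) α (mem_gen rfl)

end Crest.Agent.R169
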