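/-
R169/Noeth: Noetherian property and dévissage (part 3 of 3)
-/
import Crest.Agent.R169.NoethB

set_option autoImplicit false
set_option linter.unusedSectionVars false
set_option linter.unusedVariables false
set_option linter.unusedSimpArgs false

noncomputable section

namespace Crest.Agent.R169

open MvPolynomial Filter
open scoped Pointwise


variable {k : Type} [Field k] {V V' : Type} [AddCommGroup V] [Module k V] [Module (KK k) V]
  [IsScalarTower k (KK k) V] [AddCommGroup V'] [Module k V'] [Module (KK k) V']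
  [IsScalarTower k (KK k) V']

theorem IsPr.of_pow {J : Fam k (KK k)} (h : IsPr J) {f : KK k} {α : Dg} (hf : f ∈ CC k α) {n : ℕ}
    (hn : f ^ n ∈ J ((n : ℤ) • α)) : f ∈ J α := by
  induction n with
  | zero => exact absurd (by simpa using hn) h.proper
  | succ n ih =>
    rw [pow_succ, Nat.cast_succ, add_smul, one_smul] at hn
    exact (h.prime (pow_mem_CC hf n) hf hn).elim ih id

theorem Noeth_pe {J : Fam k (KK k)} (h : Stable J) {π : Pr k} {g g' : KK k} {δ δ' : Dg}
    (h1 : IsPE π g δ) (h2 : IsPE π g' δ') (hg : g ∈ J δ) : g' ∈ J δ' := by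
  have h3 : g' / g ∈ CC k (δ' - δ) := mem_CC.2 (Or.inr fun π' => by
    rw [val_div π' h2.1 h1.1, h1.2, h2.2, sub_self])
  have h4 := h h3 hg
  rwa [smul_eq_mul, div_mul_cancel₀ _ h1.1, sub_add_cancel] at h4

theorem Noeth_factor_aux {J : Fam k (KK k)} (h : IsPr J) (S : Finset (Pr k)) (n : ℕ) :
    ∀ (f : KK k) (α : Dg), f ∈ J α → f ≠ 0 → (∀ π, π ∉ S → val π f α = 0) →
      ∑ π ∈ S, val π f α = n → ∃ π g δ, val π f α ≠ 0 ∧ IsPE π g δ ∧ g ∈ J δ := by
  classical
  induction n using Nat.strong_induction_on with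
  | _ n ih =>
    intro f α hf h0 hS hn
    have hC := h.le α hf
    have hv := (mem_CC.1 hC).resolve_left h0
    by_cases hz : ∀ π, val π f α = 0
    · exfalso
      have h1 : f⁻¹ ∈ CC k (-α) := mem_CC.2 (Or.inr fun π => by rw [val_inv π h0, hz, neg_zero])
      have h2 := h.stable h1 hf
      rw [smul_eq_mul, inv_mul_cancel₀ h0, neg_add_cancel] at h2
      exact h.proper h2
    push Not at hz
    obtain ⟨π, hπ⟩ := hz
    obtain ⟨g, δ, hg⟩ := exists_isPE π
    have hd := hg.div_mem hC h0 hπ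
    have hd0 : f / g ≠ 0 := div_ne_zero h0 hg.1
    have hvd : ∀ π', val π' (f / g) (α - δ) = val π' f α - if π' = π then 1 else 0 := fun π' => by
      rw [val_div π' h0 hg.1, hg.2]
    have hπS : π ∈ S := by
      by_contra hc
      exact hπ (hS π hc)
    rcases h.prime hd hg.mem (by rwa [div_mul_cancel₀ _ hg.1, sub_add_cancel]) with h1 | h1
    · have hv' := (mem_CC.1 hd).resolve_left hd0
      have hsum : ∑ π' ∈ S, val π' (f / g) (α - δ) = n - 1 := by
        simp only [hvd, Finset.sum_sub_distrib, hn, Finset.sum_ite_eq', hπS, if_true]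
      have hnn : 0 ≤ ∑ π' ∈ S, val π' (f / g) (α - δ) := Finset.sum_nonneg fun π' _ => hv' π'
      obtain ⟨π', g', δ', h2, h3, h4⟩ := ih (n - 1) (by omega) (f / g) (α - δ) h1 hd0
        (fun π' hπ' => by
          rw [hvd, hS π' hπ', if_neg (by rintro rfl; exact hπ' hπS), sub_zero])
        (by rw [hsum]; omega)
      refine ⟨π', g', δ', ?_, h3, h4⟩
      have h5 := hv' π'
      rw [hvd] at h2 h5
      split_ifs at h2 h5 <;> omega
    · exact ⟨π, g, δ, hπ, hg, h1⟩

theorem Noeth_factor {J : Fam k (KK k)} (h : IsPr J) {f : KK k} {α : Dg} (hf : f ∈ J α)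
    (h0 : f ≠ 0) : ∃ π g δ, val π f α ≠ 0 ∧ IsPE π g δ ∧ g ∈ J δ := by
  have hv := (mem_CC.1 (h.le α hf)).resolve_left h0
  have hnn : 0 ≤ ∑ π ∈ (val_finite h0 α).toFinset, val π f α :=
    Finset.sum_nonneg fun π _ => hv π
  exact Noeth_factor_aux h (val_finite h0 α).toFinset _ f α hf h0
    (fun π hπ => by simpa using hπ) (Int.toNat_of_nonneg hnn).symm

/-- A monomial in a prime has a factor in the prime. -/
theorem IsPr.of_mon {J : Fam k (KK k)} (h : IsPr J) {β : Ex} {α : Dg}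
    (h0 : 0 ≤ (7 : ℤ) • dv β + α) (hm : mon k β ∈ J α) :
    ∃ i, ((7 : ℤ) • dv β + α) i ≠ 0 ∧ (1 : KK k) ∈ J (Pi.single i 1) := by
  obtain ⟨π, g, δ, h1, h2, h3⟩ := Noeth_factor h hm (mon_ne_zero β)
  rcases π with i | q
  · rw [val_mon_inl] at h1
    exact ⟨i, h1, Noeth_pe h.stable h2 (isPE_inl i) h3⟩
  · exact absurd (val_mon_inr q β α) h1

theorem mon_mem_of_line {J : Fam k (KK k)} (h : Stable J) {β : Ex} {α : Dg}
    (h0 : 0 ≤ (7 : ℤ) • dv β + α) {i : Fin 10} (hi : ((7 : ℤ) • dv β + α) i ≠ 0)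
    (h1 : (1 : KK k) ∈ J (Pi.single i 1)) : mon k β ∈ J α := by
  have h2 : mon k β ∈ CC k (α - Pi.single i 1) := by
    refine mon_mem fun l => ?_
    have h3 := h0 l
    rw [← add_sub_assoc, Pi.sub_apply]
    by_cases hl : l = i
    · subst hl
      simp only [Pi.zero_apply, Pi.single_eq_same] at h3 ⊢
      omega
    · rw [Pi.single_eq_of_ne hl, sub_zero]
      exact h3
  have h3 := h h2 h1
  rwa [smul_eq_mul, mul_one, sub_add_cancel] at h3

/-- A nonzero prime contains a prime element (factorisation into prime elements). -/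
theorem IsPr.exists_isPE {J : Fam k (KK k)} (h : IsPr J) {f : KK k} {α : Dg} (hf : f ∈ J α)
    (h0 : f ≠ 0) : ∃ π g δ, IsPE π g δ ∧ g ∈ J δ := by
  obtain ⟨π, g, δ, -, h2, h3⟩ := Noeth_factor h hf h0
  exact ⟨π, g, δ, h2, h3⟩

/-- A nonzero prime is principal or of codimension at least two. -/
theorem IsPr.cases {J : Fam k (KK k)} (h : IsPr J) {f : KK k} {α : Dg} (hf : f ∈ J α)
    (h0 : f ≠ 0) : (∃ π g δ, IsPE π g δ ∧ J = gen k {(g, δ)}) ∨ Pt J := by
  obtain ⟨π, g, δ, h1, h2⟩ := h.exists_isPE hf h0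
  by_cases hP : Pt J
  · exact Or.inr hP
  left
  rw [Pt] at hP
  push Not at hP
  obtain ⟨π₀, hπ₀⟩ := hP
  have e : π₀ = π := by
    by_contra hc
    have := hπ₀ g δ h2 h1.1
    rw [h1.2, if_neg hc] at this
    exact this rfl
  subst e
  refine ⟨π₀, g, δ, h1, le_antisymm (fun β u hu => ?_) (gen_le h.stable ?_)⟩
  · by_cases hu0 : u = 0
    · rw [hu0]; exact Submodule.zero_mem _
    · exact mem_gen_single.2 ⟨u / g, h1.div_mem (h.le β hu) hu0 (hπ₀ u β hu hu0), by
        rw [smul_eq_mul, div_mul_cancel₀ _ h1.1]⟩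
  · rintro _ rfl
    exact h2

end Crest.Agent.R169
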