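/-
R169/IrrA: irrelevant primes, equality in large degrees, finiteness over the parameters.
-/
import Crest.Agent.R169.Noeth
import Crest.Agent.R169.Tab

set_option autoImplicit false
set_option linter.unusedSectionVars false
set_option linter.unusedVariables false
set_option linter.unusedSimpArgs false

noncomputable section

namespace Crest.Agent.R169

open MvPolynomial Filter
open scoped Pointwise


variable {k : Type} [Field k] {V V' : Type} [AddCommGroup V] [Module k V] [Module (KK k) V]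
  [IsScalarTower k (KK k) V] [AddCommGroup V'] [Module k V'] [Module (KK k) V']
  [IsScalarTower k (KK k) V']

/-- The lines in a prime are closed under the Plücker relations. -/
theorem IrrA_pl {J : Fam k (KK k)} (h : IsPr J) (r : Fin 5) (m : Fin 3)
    (hm : ∀ m', m' ≠ m → (1 : KK k) ∈ J (Pi.single (conic r m').1 1) ∨
      (1 : KK k) ∈ J (Pi.single (conic r m').2 1)) :
    (1 : KK k) ∈ J (Pi.single (conic r m).1 1) ∨ (1 : KK k) ∈ J (Pi.single (conic r m).2 1) := by
  set α : Dg := (7 : ℤ) • (Pi.single (conic r 0).1 1 + Pi.single (conic r 0).2 1) with hα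
  have e : ∀ m', (7 : ℤ) • dv (conicβ r m') + α =
      (7 : ℤ) • (Pi.single (conic r m').1 1 + Pi.single (conic r m').2 1 : Dg) := fun m' => by
    rw [hα, ← smul_add, dv_conicβ]
  have hs : ∀ a i : Fin 10, (0 : ℤ) ≤ (Pi.single a 1 : Dg) i := fun a i => by
    rw [Pi.single_apply]; split_ifs <;> norm_num
  have h0 : ∀ m', 0 ≤ (7 : ℤ) • dv (conicβ r m') + α := fun m' i => by
    rw [e]
    have := hs (conic r m').1 i
    have := hs (conic r m').2 i
    simp only [Pi.zero_apply, Pi.smul_apply, Pi.add_apply, smul_eq_mul]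
    omega
  have h1 : ∀ m', m' ≠ m → mon k (conicβ r m') ∈ J α := fun m' hm' => by
    rcases hm m' hm' with h1 | h1
    · refine mon_mem_of_line h.stable (h0 m') ?_ h1
      rw [e]
      have := hs (conic r m').2 (conic r m').1
      simp only [Pi.smul_apply, Pi.add_apply, smul_eq_mul, Pi.single_eq_same]
      omega
    · refine mon_mem_of_line h.stable (h0 m') ?_ h1
      rw [e]
      have := hs (conic r m').1 (conic r m').2
      simp only [Pi.smul_apply, Pi.add_apply, smul_eq_mul, Pi.single_eq_same]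
      omega
  have h2 : (conics r m : KK k) * mon k (conicβ r m) ∈ J α := by
    have := pluecker (k := k) r
    rw [← Finset.add_sum_erase _ _ (Finset.mem_univ m), add_eq_zero_iff_eq_neg] at this
    rw [this]
    refine Submodule.neg_mem _ (Submodule.sum_mem _ fun m' hm' => ?_)
    rw [← zsmul_eq_mul]
    exact zsmul_mem (h1 m' (Finset.ne_of_mem_erase hm')) _
  have h3 : mon k (conicβ r m) ∈ J α := by
    have := zsmul_mem h2 (conics r m)
    rwa [zsmul_eq_mul, ← mul_assoc, ← Int.cast_mul, conics_sq, Int.cast_one, one_mul] at this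
  obtain ⟨i, hi, hZ⟩ := h.of_mon (h0 m) h3
  by_cases e1 : i = (conic r m).1
  · exact Or.inl (e1 ▸ hZ)
  by_cases e2 : i = (conic r m).2
  · exact Or.inr (e2 ▸ hZ)
  refine (hi ?_).elim
  rw [e]
  simp only [Pi.smul_apply, Pi.add_apply, Pi.single_eq_of_ne e1, Pi.single_eq_of_ne e2, add_zero,
    smul_zero]

/-- A test class that is not positive off the lines in a prime makes it irrelevant. -/
theorem IrrA_test {J : Fam k (KK k)} (h : IsPr J) (n : Fin 15)
    (hn : ∀ i, ¬ (1 : KK k) ∈ J (Pi.single i 1) → tin n i ≤ 0) : EvEq J (CC k) := by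
  intro α
  filter_upwards [eventually_gt_atTop (ip (tcl n) (cl α)).natAbs] with t ht
  refine le_antisymm (h.le _) (Submodule.span_le.mpr ?_)
  rintro _ ⟨β, h0, rfl⟩
  by_contra hc
  have h1 : ip (tcl n) (cl ((7 : ℤ) • dv β + (α + t • ζ))) ≤ 0 := by
    rw [ip_tcl]
    refine Finset.sum_nonpos fun i _ => ?_
    by_cases hZ : (1 : KK k) ∈ J (Pi.single i 1)
    · by_cases hi : ((7 : ℤ) • dv β + (α + t • ζ)) i = 0
      · rw [hi, zero_mul]
      · exact (hc (mon_mem_of_line h.stable h0 hi hZ)).elim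
    · exact mul_nonpos_of_nonneg_of_nonpos (h0 i) (hn i hZ)
  rw [map_add, map_add, map_zsmul, map_nsmul, cl_dv, smul_zero, zero_add, cl_ζ, ip_add_right,
    ip_nsmul_right] at h1
  have h2 := tcl_pos n
  have h3 : (t : ℤ) ≤ t * ip (tcl n) Lc := le_mul_of_one_le_right (Int.natCast_nonneg t) h2
  omega

/-- Recipe.  `Z i := 1 ∈ J (e i)` is closed under the Plücker relations (`pluecker` in degree
`7 (e x + e y)`, `dv_conicβ`, `IsPr.of_mon`, `mon_mem_of_line`).  By `zlemma` either `Z ⊆ {c.i, c.j}`,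
`c = charts n`, and then `1 ∉ J c.q` (`of_mon` with `β = 0`), or there is a test class `n` with `tin n i ≤ 0` off `Z`;
a monomial of degree `α + t ζ` with exponent `e = 7 dv β + α + t ζ ≥ 0` vanishing on `Z` has
`ip (tcl n) (cl e) ≤ 0` (`ip_tcl`), impossible for large `t` (`tcl_pos`). -/
theorem IsPr.chart_or_irr {J : Fam k (KK k)} (h : IsPr J) :
    (∃ c : Chart, (1 : KK k) ∉ J c.q) ∨ EvEq J (CC k) := by
  rcases zlemma (fun i => (1 : KK k) ∈ J (Pi.single i 1)) (IrrA_pl h) with ⟨n, hn⟩ | ⟨n, hn⟩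
  · refine Or.inl ⟨charts n, fun h1 => ?_⟩
    have e : (7 : ℤ) • dv 0 + (charts n).q = (charts n).q := by rw [map_zero, smul_zero, zero_add]
    obtain ⟨i, hi, hZ⟩ := h.of_mon (β := 0) (α := (charts n).q)
      (by rw [e]; exact (charts n).q_nonneg) (by rwa [mon_zero])
    rw [e] at hi
    rcases hn i hZ with rfl | rfl
    · exact hi (charts_i n ▸ (charts n).qi)
    · exact hi (charts_j n ▸ (charts n).qj)
  · exact Or.inr (IrrA_test h n hn)

/-- A prime containing the three parameters is irrelevant.  Recipe: as in `chart_or_irr` (isolate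
its two halves as lemmas: Plücker closure of `Z`, and "test class ⇒ `EvEq`").  If `Z` lies in the
node `n`: `Z` meets both pentagons (`of_mon` for `1 = mon 0` and `yy 0 = mon (2 • βz)`,
`ζ_add_dv_βz`), so both lines of the node are in `Z` and `cross_node` applies; four monomials of
`yy 1` are in `J` (`mon_mem_of_line`), hence the fifth, hence a third line is in `Z`. -/
theorem IsPr.irr_of_params {J : Fam k (KK k)} (h : IsPr J) {e : ℕ}
    (hz : (1 : KK k) ∈ J ((e : ℤ) • ζ)) (hu : yy k 0 ∈ J ((14 : ℤ) • ζ))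
    (hw : yy k 1 ∈ J ((14 : ℤ) • ζ)) : EvEq J (CC k) := by
  rcases zlemma (fun i => (1 : KK k) ∈ J (Pi.single i 1)) (IrrA_pl h) with ⟨n, hn⟩ | ⟨n, hn⟩
  swap
  · exact IrrA_test h n hn
  exfalso
  have e0 : (7 : ℤ) • dv 0 + (e : ℤ) • ζ = (e : ℤ) • ζ := by rw [map_zero, smul_zero, zero_add]
  obtain ⟨i, hi, hZ⟩ := h.of_mon (β := 0) (α := (e : ℤ) • ζ)
    (by rw [e0]; exact smul_nonneg (Int.natCast_nonneg e) ζ_nonneg) (by rwa [mon_zero])
  have hi1 : ζ i ≠ 0 := fun h0 => hi (by rw [e0, Pi.smul_apply, h0, smul_zero])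
  have e1 : (7 : ℤ) • dv ((2 : ℤ) • βz) + (14 : ℤ) • ζ = (14 : ℤ) • (1 - ζ) := by
    rw [← ζ_add_dv_βz, map_zsmul, smul_smul, smul_add, add_comm]; rfl
  obtain ⟨j, hj, hZ'⟩ := h.of_mon (β := (2 : ℤ) • βz) (α := (14 : ℤ) • ζ)
    (by
      rw [e1]
      intro l
      have := ζ_zero_or_one l
      simp only [Pi.zero_apply, Pi.smul_apply, Pi.sub_apply, Pi.one_apply, smul_eq_mul]
      omega) hu
  have hj1 : ζ j ≠ 1 := fun h0 => hj (by
    rw [e1, Pi.smul_apply, Pi.sub_apply, Pi.one_apply, h0, sub_self, smul_zero])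
  have hij : ζ i ≠ ζ j := by
    have := ζ_zero_or_one i
    have := ζ_zero_or_one j
    omega
  have hab : ζ (nodes n).1 ≠ ζ (nodes n).2 ∧ (1 : KK k) ∈ J (Pi.single (nodes n).1 1) := by
    rcases hn i hZ with a | a <;> rcases hn j hZ' with b | b
    · exact (hij (by rw [a, b])).elim
    · exact ⟨a ▸ b ▸ hij, a ▸ hZ⟩
    · exact ⟨a ▸ b ▸ hij.symm, b ▸ hZ'⟩
    · exact (hij (by rw [a, b])).elim
  obtain ⟨m, m1, m2, hm⟩ := cross_node n hab.1
  have e2 : ∀ m', (7 : ℤ) • dv (βn m') + (14 : ℤ) • ζ = (7 : ℤ) • ((2 : ℤ) • ζ + dv (βn m')) :=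
    fun m' => by rw [smul_add, smul_smul, add_comm]; rfl
  have h0 : ∀ m', 0 ≤ (7 : ℤ) • dv (βn m') + (14 : ℤ) • ζ := fun m' => by
    rw [e2]; exact smul_nonneg (by norm_num) (βn_nonneg m')
  have h1 : mon k (βn m) ∈ J ((14 : ℤ) • ζ) := by
    have hw' : ∑ m', mon k (βn m') ∈ J ((14 : ℤ) • ζ) := hw
    rw [← Finset.add_sum_erase _ _ (Finset.mem_univ m)] at hw'
    refine (Submodule.add_mem_iff_left _ (Submodule.sum_mem _ fun m' hm' => ?_)).mp hw'
    refine mon_mem_of_line h.stable (h0 m') ?_ hab.2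
    rw [e2, Pi.smul_apply, smul_eq_mul]
    exact mul_ne_zero (by norm_num) (hm m' (Finset.ne_of_mem_erase hm')).1
  obtain ⟨l, hl, hZl⟩ := h.of_mon (h0 m) h1
  rw [e2, Pi.smul_apply] at hl
  rcases hn l hZl with rfl | rfl
  · exact hl (by rw [m1, smul_zero])
  · exact hl (by rw [m2, smul_zero])

end Crest.Agent.R169
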