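/-
R169/Irr: irrelevant primes, equality in large degrees, finiteness over the parameters.
-/
import Crest.Agent.R169.IrrA

set_option autoImplicit false
set_option linter.unusedSectionVars false
set_option linter.unusedVariables false
set_option linter.unusedSimpArgs false

noncomputable section

namespace Crest.Agent.R169

open MvPolynomial Filter
open scoped Pointwise


variable {k : Type} [Field k] {V V' : Type} [AddCommGroup V] [Module k V] [Module (KK k) V]
  [IsScalarTower k (KK k) V] [AddCommGroup V'] [Module k V'] [Module (KK k) V']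
  [IsScalarTower k (KK k) V']

/-- If all primes of a dévissage are irrelevant, the lattices agree in large degrees. -/
theorem evEq_of_primes {F0 F : Fam k V} (h0 : IsLat F0) (hF : IsLat F) (hle : F0 ≤ F)
    (h : ∀ F' x α, IsLat F' → F0 ≤ F' → F' ≤ F → x ∈ F α → IsPr (colon F' x α) →
      EvEq (colon F' x α) (CC k)) : EvEq F0 F := by
  refine devissage h0 hF hle (fun F' => EvEq F0 F') (fun α => Eventually.of_forall fun _ => rfl) ?_
  intro F' x α h1 h2 h3 h4 h5 hQ γ
  filter_upwards [hQ γ, h F' x α h1 h2 h3 h4 h5 (γ - α)] with t e1 e2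
  rw [e1, Pi.sup_apply, left_eq_sup]
  intro y hy
  obtain ⟨f, hf, rfl⟩ := mem_gen_single.1 hy
  have e3 : γ + t • ζ - α = γ - α + t • ζ := by abel
  rw [e3, ← e2] at hf
  have := (mem_colon.1 hf).2
  rwa [← e3, sub_add_cancel] at this

/-- Lattices that agree on all charts agree in large degrees.  Recipe: a prime `colon F' x α` of the
dévissage contains `1` in degree `s • c.q` for every chart, hence in degree `c.q` (`of_pow`);
`chart_or_irr`. -/
theorem evEq_of_loc {F0 F : Fam k V} (h0 : IsLat F0) (hF : IsLat F) (hle : F0 ≤ F)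
    (h : ∀ c : Chart, F ≤ c.loc F0) : EvEq F0 F := by
  refine evEq_of_primes h0 hF hle fun F' x α h1 h2 h3 h4 h5 => ?_
  refine h5.chart_or_irr.resolve_left ?_
  rintro ⟨c, hc⟩
  obtain ⟨s, hs⟩ := (h0.stable.mem_loc c).1 (h c α h4)
  refine hc (h5.of_pow (one_mem_CC c.q_nonneg) (n := s) ?_)
  rw [one_pow, natCast_zsmul]
  refine mem_colon.2 ⟨one_mem_CC (nsmul_nonneg c.q_nonneg s), ?_⟩
  rw [one_smul, add_comm]
  exact h2 _ hs

/-- Finiteness over `k[z^e, u, w]`.  Recipe: `F0 = shf G (-(e ζ)) ⊔ yy 0 • shf G (-(14 ζ)) ⊔ …` is a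
stable subfamily of `G` (use `img` along `LinearMap.lsmul`); every prime of a dévissage from `F0` to
`G` contains the three parameters; `irr_of_params`, `evEq_of_primes`. -/
theorem IsLat.fin_params {G : Fam k V} (hG : IsLat G) (e : ℕ) (α : Dg) :
    ∀ᶠ t : ℕ in atTop, G (α + t • ζ) ≤ G (α + t • ζ - (e : ℤ) • ζ) ⊔
      yy k 0 • G (α + t • ζ - (14 : ℤ) • ζ) ⊔ yy k 1 • G (α + t • ζ - (14 : ℤ) • ζ) := by
  let ψ : Fin 2 → V →ₗ[KK k] V := fun i => LinearMap.lsmul (KK k) V (yy k i)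
  let F0 : Fam k V := R169.shf G (-((e : ℤ) • ζ)) ⊔
    R169.img (ψ 0) (R169.shf G (-((14 : ℤ) • ζ))) ⊔ R169.img (ψ 1) (R169.shf G (-((14 : ℤ) • ζ)))
  have hζ : (0 : Dg) ≤ (e : ℤ) • ζ := zsmul_nonneg ζ_nonneg (Int.natCast_nonneg e)
  have h0 : IsLat F0 := ((hG.shf _).sup ((hG.shf _).img _)).sup ((hG.shf _).img _)
  have himg : ∀ i, R169.img (ψ i) (R169.shf G (-((14 : ℤ) • ζ))) ≤ G := by
    intro i γ y hy
    obtain ⟨x, hx, rfl⟩ := mem_img.1 hy
    have := hG.stable (yy_mem i) hx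
    rwa [add_comm, neg_add_cancel_right] at this
  have hle : F0 ≤ G := sup_le (sup_le (fun γ => hG.stable.mono (by simpa using hζ)) (himg 0))
    (himg 1)
  have hy : ∀ i F' x γ, R169.img (ψ i) (R169.shf G (-((14 : ℤ) • ζ))) ≤ F' → x ∈ G γ →
      yy k i ∈ R169.colon F' x γ ((14 : ℤ) • ζ) := by
    intro i F' x γ h1 hx
    refine mem_colon.2 ⟨yy_mem i, h1 _ (mem_img.2 ⟨x, ?_, rfl⟩)⟩
    show x ∈ G ((14 : ℤ) • ζ + γ + -((14 : ℤ) • ζ))
    rwa [add_comm _ γ, add_neg_cancel_right]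
  have hE := evEq_of_primes h0 hG hle fun F' x γ h1 h2 h3 h4 h5 => by
    refine h5.irr_of_params (e := e) (mem_colon.2 ⟨one_mem_CC hζ, ?_⟩)
      (hy 0 F' x γ (le_sup_right.trans (le_sup_left.trans h2)) h4)
      (hy 1 F' x γ (le_sup_right.trans h2) h4)
    rw [one_smul]
    refine (le_sup_left.trans (le_sup_left.trans h2)) _ ?_
    show x ∈ G ((e : ℤ) • ζ + γ + -((e : ℤ) • ζ))
    rwa [add_comm _ γ, add_neg_cancel_right]
  filter_upwards [hE α] with t ht
  rw [← ht]
  have hs : ∀ i, R169.img (ψ i) (R169.shf G (-((14 : ℤ) • ζ))) (α + t • ζ) ≤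
      yy k i • G (α + t • ζ - (14 : ℤ) • ζ) := by
    intro i y hy
    obtain ⟨x, hx, rfl⟩ := mem_img.1 hy
    rw [sub_eq_add_neg]
    exact Submodule.smul_mem_pointwise_smul x (yy k i) _ hx
  refine sup_le_sup (sup_le_sup ?_ (hs 0)) (hs 1)
  rw [sub_eq_add_neg]
  exact le_rfl

end Crest.Agent.R169
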