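/-
R169/BasisA: the function field as an extension of `k(yy 0, yy 1)` (part 1 of 2)
-/
import Crest.Agent.R169.Irr
import Crest.Agent.R169.HPC

set_option autoImplicit false
set_option linter.unusedSectionVars false
set_option linter.unusedVariables false
set_option linter.unusedSimpArgs false

noncomputable section

namespace Crest.Agent.R169

open MvPolynomial Filter
open scoped Pointwise


variable {k : Type} [Field k]

theorem BasisA_mem_Bd {d : ℤ} {g : PP k} :
    g ∈ Bd k d ↔ ∀ m ∈ g.support, (m 0 : ℤ) + m 1 ≤ d := by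
  rw [Bd, Wo, mem_restrictSupport_iff]
  refine forall_congr' fun m => imp_congr Iff.rfl ?_
  simp only [Set.mem_ofPred_eq]
  omega

theorem BasisA_mono {d e : ℤ} (h : d ≤ e) : Bd k d ≤ Bd k e := fun _ hg =>
  BasisA_mem_Bd.2 fun m hm => (BasisA_mem_Bd.1 hg m hm).trans h

theorem BasisA_mul {d e : ℤ} {g g' : PP k} (hg : g ∈ Bd k d) (hg' : g' ∈ Bd k e) :
    g * g' ∈ Bd k (d + e) := by
  classical
  refine BasisA_mem_Bd.2 fun m hm => ?_
  obtain ⟨a, ha, b, hb, rfl⟩ := Finset.mem_add.1 (support_mul g g' hm)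
  have h1 := BasisA_mem_Bd.1 hg a ha
  have h2 := BasisA_mem_Bd.1 hg' b hb
  simp only [Finsupp.add_apply, Nat.cast_add]
  omega

theorem BasisA_X (i : Fin 2) : (X i : PP k) ∈ Bd k 1 := by
  refine BasisA_mem_Bd.2 fun m hm => ?_
  rw [support_X, Finset.mem_singleton] at hm
  subst hm
  fin_cases i <;> simp

theorem BasisA_C (c : k) : (C c : PP k) ∈ Bd k 0 := by
  refine BasisA_mem_Bd.2 fun m hm => ?_
  have : m = 0 := by
    by_contra h
    rw [mem_support_iff, coeff_C, if_neg (Ne.symm h)] at hm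
    exact hm rfl
  simp [this]

theorem BasisA_deg (g : PP k) : g ∈ Bd k g.totalDegree := by
  refine BasisA_mem_Bd.2 fun m hm => ?_
  have h := le_totalDegree hm
  rw [Finsupp.sum_fintype _ _ fun _ => rfl, Fin.sum_univ_two] at h
  exact_mod_cast h

theorem aeval_yy_mem {d : ℤ} {g : PP k} (hg : g ∈ Bd k d) :
    aeval (yy k) g ∈ CC k ((14 * d) • ζ) := by
  rw [g.as_sum, map_sum]
  refine Submodule.sum_mem _ fun m hm => ?_
  rw [aeval_monomial, Finsupp.prod_fintype _ _ fun _ => pow_zero _, Fin.prod_univ_two,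
    ← Algebra.smul_def]
  refine Submodule.smul_mem _ _ (CC_mono ?_
    (mul_mem_CC (pow_mem_CC (yy_mem 0) (m 0)) (pow_mem_CC (yy_mem 1) (m 1))))
  rw [smul_smul, smul_smul, ← add_smul]
  have := BasisA_mem_Bd.1 hg m hm
  exact smul_le_smul_of_nonneg_right (by omega) ζ_nonneg

/-- One sector is a finite module over the parameters (`fin_params` with `e = 14`). -/
theorem exists_sect_gens {V : Type} [AddCommGroup V] [Module k V] [Module (KK k) V]
    [IsScalarTower k (KK k) V] {G : Fam k V} (hG : IsLat G) (α : Dg) :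
    ∃ (m : ℕ) (t0 : ℕ) (x : Fin m → V), (∀ i, x i ∈ sect G α t0) ∧ ∀ t : ℕ, ∀ y ∈ sect G α (t0 + t),
      ∃ g : Fin m → PP k, (∀ i, g i ∈ Bd k t) ∧ y = ∑ i, aeval (yy k) (g i) • x i := by
  obtain ⟨T, hT⟩ := eventually_atTop.1 (hG.fin_params 14 α)
  have : FiniteDimensional k (sect G α T) := hG.fin _
  let b := Module.finBasis k (sect G α T)
  refine ⟨_, T, fun i => b i, fun i => (b i).2, fun t => ?_⟩
  induction t with
  | zero =>
    intro y hy
    rw [Nat.cast_zero, add_zero] at hy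
    refine ⟨fun i => C (b.repr ⟨y, hy⟩ i), fun i => BasisA_C _, ?_⟩
    have := congrArg Subtype.val (b.sum_repr ⟨y, hy⟩)
    simp only [aeval_C, algebraMap_smul]
    simpa only [Submodule.coe_sum, Submodule.coe_smul] using this.symm
  | succ t ih =>
    intro y hy
    have e1 : α + (14 * (T + t + 1)) • ζ = α + (14 * ((T : ℤ) + ((t + 1 : ℕ) : ℤ))) • ζ := by
      rw [← natCast_zsmul]
      congr 2
    have e2 : α + (14 * (T + t + 1)) • ζ - (14 : ℤ) • ζ = α + (14 * ((T : ℤ) + t)) • ζ := by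
      rw [← natCast_zsmul, add_sub_assoc, ← sub_smul]
      congr 2
      push_cast
      ring
    have h := hT (14 * (T + t + 1)) (by omega)
    rw [Nat.cast_ofNat, e2, e1] at h
    obtain ⟨y', hy', y2, hy2, rfl⟩ := Submodule.mem_sup.1 (h hy)
    obtain ⟨y0, hy0, y1, hy1, rfl⟩ := Submodule.mem_sup.1 hy'
    obtain ⟨z1, hz1, rfl⟩ := (Submodule.mem_smul_pointwise_iff_exists _ _ _).1 hy1
    obtain ⟨z2, hz2, rfl⟩ := (Submodule.mem_smul_pointwise_iff_exists _ _ _).1 hy2
    obtain ⟨g0, a0, rfl⟩ := ih y0 hy0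
    obtain ⟨g1, a1, rfl⟩ := ih z1 hz1
    obtain ⟨g2, a2, rfl⟩ := ih z2 hz2
    refine ⟨fun i => g0 i + X 0 * g1 i + X 1 * g2 i, fun i => ?_, ?_⟩
    · refine add_mem (add_mem (BasisA_mono (by omega) (a0 i)) ?_) ?_
      · exact BasisA_mono (by omega) (BasisA_mul (BasisA_X 0) (a1 i))
      · exact BasisA_mono (by omega) (BasisA_mul (BasisA_X 1) (a2 i))
    · simp only [map_add, map_mul, aeval_X, add_smul, mul_smul, Finset.sum_add_distrib,
        Finset.smul_sum]

theorem BasisA_rank {g : PP k} (h : aeval (yy k) g = 0) (hg : g ≠ 0) (t : ℤ) :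
    Module.finrank k ((Bd k t).map (aeval (yy k) : PP k →ₐ[k] KK k).toLinearMap) +
      Module.finrank k (Bd k (t - g.totalDegree)) ≤ Module.finrank k (Bd k t) := by
  have := fin_Bd (k := k) t
  let A : Bd k t →ₗ[k] KK k := (aeval (yy k) : PP k →ₐ[k] KK k).toLinearMap.domRestrict _
  have h1 := A.finrank_range_add_finrank_ker
  rw [LinearMap.range_domRestrict] at h1
  have hm : ∀ f : Bd k (t - g.totalDegree), g * f.1 ∈ Bd k t := fun f => by
    simpa using BasisA_mul (BasisA_deg g) f.2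
  let M : Bd k (t - g.totalDegree) →ₗ[k] LinearMap.ker A :=
    { toFun := fun f => ⟨⟨g * f.1, hm f⟩, by simp [A, h]⟩
      map_add' := fun f f' => by ext1; ext1; simp [mul_add]
      map_smul' := fun c f => by ext1; ext1; simp }
  have h2 := LinearMap.finrank_le_finrank_of_injective (f := M) fun f f' e =>
    Subtype.ext (mul_left_cancel₀ hg (congrArg (fun z => z.1.1) e))
  omega

/-- Recipe: a relation of degree `d` bounds the dimension of the image of `Bd t` by
`dim Bd t - dim Bd (t - d) = O(t)`; with `exists_sect_gens` for `CC` this contradicts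
`finrank_CC_ray`. -/
theorem yy_ind {g : PP k} (h : aeval (yy k) g = 0) : g = 0 := by
  by_contra hg
  obtain ⟨m, t0, x, -, hx⟩ := exists_sect_gens (isLat_CC (k := k)) 0
  obtain ⟨d, hd⟩ : ∃ d, g.totalDegree = d := ⟨_, rfl⟩
  obtain ⟨t, ht⟩ : ∃ t : ℕ, t = m * d + d + 2 := ⟨_, rfl⟩
  have h1 := BasisA_rank h hg t
  rw [hd] at h1
  have := fin_Bd (k := k) t
  set W := (Bd k t).map (aeval (yy k) : PP k →ₐ[k] KK k).toLinearMap with hW
  let Φ : (Fin m → W) →ₗ[k] KK k :=
    { toFun := fun f => ∑ i, (f i).1 * x i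
      map_add' := fun f f' => by simp [add_mul, Finset.sum_add_distrib]
      map_smul' := fun c f => by simp [Finset.smul_sum] }
  have h2 : CC k ((14 * ((t0 + t : ℕ) : ℤ)) • ζ) ≤ LinearMap.range Φ := by
    intro y hy
    obtain ⟨f, hf, rfl⟩ := hx t y (by simpa [sect] using hy)
    exact ⟨fun i => ⟨_, f i, hf i, rfl⟩, rfl⟩
  have h3 := (Submodule.finrank_mono h2).trans Φ.finrank_range_le
  rw [Module.finrank_pi_fintype, Finset.sum_const, Finset.card_univ, Fintype.card_fin,
    smul_eq_mul] at h3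
  have h4 := finrank_CC_ray (k := k) (t0 + t)
  have h5 := finrank_Bd (k := k) (d := t) (by omega)
  have h6 := finrank_Bd (k := k) (d := (t : ℤ) - d) (by omega)
  have h1' : (Module.finrank k W : ℤ) + Module.finrank k (Bd k ((t : ℤ) - d)) ≤
      Module.finrank k (Bd k t) := by exact_mod_cast h1
  have h3' : (Module.finrank k (CC k ((14 * ((t0 + t : ℕ) : ℤ)) • ζ)) : ℤ) ≤
      m * Module.finrank k W := by exact_mod_cast h3
  have ht' : (t : ℤ) = m * d + d + 2 := by exact_mod_cast ht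
  have hd0 : (0 : ℤ) ≤ d := by positivity
  have hm0 : (0 : ℤ) ≤ m := by positivity
  have ht0 : (0 : ℤ) ≤ t0 := by positivity
  have hmd : (0 : ℤ) ≤ m * d := by positivity
  have h7 : (Module.finrank k W : ℤ) ≤ d * (t + 2) := by nlinarith
  have h8 := mul_le_mul_of_nonneg_left h7 hm0
  rw [h4] at h3'
  push_cast at h3'
  nlinarith

end Crest.Agent.R169
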