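/-
R169/Basis: the function field as an extension of `k(yy 0, yy 1)` (part 2 of 2)
-/
import Crest.Agent.R169.BasisA

set_option autoImplicit false
set_option linter.unusedSectionVars false
set_option linter.unusedVariables false
set_option linter.unusedSimpArgs false

noncomputable section

namespace Crest.Agent.R169

open MvPolynomial Filter
open scoped Pointwise


variable {k : Type} [Field k]

/-- At most twenty elements are independent.  Recipe: multiply by a common denominator so that all
`b l ∈ CC (14 c ζ)` (`exists_den`, then `yy0_pow_mem`); then `⊕ Bd t` embeds in `CC (14 (t + c) ζ)`;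
`finrank_Bd`, `finrank_CC_ray`, `quad_le_of_ev`. -/
theorem card_le_twenty {N : ℕ} (b : Fin N → KK k)
    (h : ∀ g : Fin N → PP k, ∑ l, aeval (yy k) (g l) * b l = 0 → ∀ l, g l = 0) : N ≤ 20 := by
  classical
  obtain ⟨u, β, hu0, -, hu⟩ := exists_den b (fun _ => (0 : Dg))
  obtain ⟨s, hs⟩ : ∃ s : ℕ, ∀ i, 0 ≤ (-β) i + 14 * s := by
    refine ⟨∑ i, (β i).natAbs, fun i => ?_⟩
    have h1 : (β i).natAbs ≤ ∑ i, (β i).natAbs :=
      Finset.single_le_sum (f := fun i => (β i).natAbs) (fun _ _ => Nat.zero_le _)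
        (Finset.mem_univ i)
    simp only [Pi.neg_apply]
    omega
  have hw : ∀ l, yy k 0 ^ s * u * b l ∈ CC k ((28 * s : ℤ) • ζ) := fun l => by
    have := mul_mem_CC (yy0_pow_mem (k := k) hs) (hu l)
    rw [show -β + (28 * s : ℤ) • ζ + (β + 0) = (28 * s : ℤ) • ζ by abel, ← mul_assoc] at this
    exact this
  have hw0 : yy k 0 ^ s * u ≠ 0 := mul_ne_zero (pow_ne_zero _ yy0_ne_zero) hu0
  have key : ∀ t : ℕ, (N : ℤ) * ((t + 1) * (t + 2)) ≤
      2 * (1 + 10 * ((t + 2 * s : ℕ) : ℤ) ^ 2 + 5 * ((t + 2 * s : ℕ) : ℤ)) := fun t => by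
    have := fin_Bd (k := k) t
    let Φ : (Fin N → Bd k t) →ₗ[k] KK k :=
      { toFun := fun g => ∑ l, aeval (yy k) (g l : PP k) * (yy k 0 ^ s * u * b l)
        map_add' := fun g g' => by
          simp only [Pi.add_apply, Submodule.coe_add, map_add, add_mul, Finset.sum_add_distrib]
        map_smul' := fun c g => by
          simp only [Pi.smul_apply, Submodule.coe_smul, map_smul, smul_mul_assoc, RingHom.id_apply,
            Finset.smul_sum] }
    have hΦ : ∀ g, Φ g ∈ CC k ((14 * ((t + 2 * s : ℕ) : ℤ)) • ζ) := fun g => by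
      change ∑ l, aeval (yy k) (g l : PP k) * (yy k 0 ^ s * u * b l) ∈ _
      refine Submodule.sum_mem _ fun l _ => ?_
      have := mul_mem_CC (aeval_yy_mem (g l).2) (hw l)
      rw [← add_smul] at this
      rw [show (14 * ((t + 2 * s : ℕ) : ℤ)) = 14 * t + 28 * s by push_cast; ring]
      exact this
    have hinj : Function.Injective (Φ.codRestrict _ hΦ) := by
      rw [injective_iff_map_eq_zero]
      intro g hg
      have h1 : Φ g = 0 := congrArg Subtype.val hg
      have h2 : ∑ l, aeval (yy k) (g l : PP k) * b l = 0 := by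
        apply mul_left_cancel₀ hw0
        rw [mul_zero, Finset.mul_sum, ← h1]
        exact Finset.sum_congr rfl fun l _ => by ring
      funext l
      exact Subtype.ext (h _ h2 l)
    have h3 := LinearMap.finrank_le_finrank_of_injective hinj
    rw [Module.finrank_pi_fintype, Finset.sum_const, Finset.card_univ, Fintype.card_fin,
      smul_eq_mul] at h3
    rw [← finrank_CC_ray (k := k), ← finrank_Bd (k := k) (d := t) (by omega)]
    have h4 : ((N * Module.finrank k (Bd k t) : ℕ) : ℤ) ≤
        (Module.finrank k (CC k ((14 * ((t + 2 * s : ℕ) : ℤ)) • ζ)) : ℕ) := by exact_mod_cast h3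
    push_cast at h4 ⊢
    linarith
  have := quad_le_of_ev (A := N) (B := 3 * N) (C := 2 * N) (A' := 20) (B' := 80 * s + 10)
    (C' := 2 + 80 * s ^ 2 + 20 * s) (Eventually.of_forall fun t => by
      have := key t
      push_cast at this
      linarith)
  exact_mod_cast this

/-- The subfield generated by the parameters. -/
abbrev basisK0 (k : Type) [Field k] : IntermediateField k (KK k) :=
  IntermediateField.adjoin k (Set.range (yy k))

theorem basis_aeval_mem (g : PP k) : aeval (yy k) g ∈ basisK0 k := by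
  rw [IntermediateField.mem_adjoin_range_iff]
  exact ⟨g, 1, by simp⟩

theorem basis_rank : Module.rank (basisK0 k) (KK k) ≤ (20 : ℕ) := by
  classical
  refine rank_le fun s hs => ?_
  have e := s.equivFin.symm
  refine card_le_twenty (k := k) (fun l => (e l : KK k)) fun g hg l => ?_
  have h1 := Fintype.linearIndependent_iff.mp (hs.comp e e.injective)
    (fun l => ⟨aeval (yy k) (g l), basis_aeval_mem _⟩) hg l
  exact yy_ind (congrArg Subtype.val h1)

theorem basis_frac (c : basisK0 k) :
    ∃ r s : PP k, s ≠ 0 ∧ aeval (yy k) s * (c : KK k) = aeval (yy k) r := by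
  obtain ⟨r, s, h⟩ := (IntermediateField.mem_adjoin_range_iff _ _ _).mp c.2
  by_cases hs : aeval (yy k) s = 0
  · exact ⟨0, 1, one_ne_zero, by rw [h, hs]; simp⟩
  · refine ⟨r, s, fun h0 => hs (by rw [h0, map_zero]), ?_⟩
    rw [h]; field_simp

/-- Monomials of degree at most `d`. -/
def basisT (k : Type) [Field k] (d : ℕ) : Set (KK k) :=
  {x | ∃ i j : ℕ, i + j ≤ d ∧
    x = algebraMap (PP k) (KK k) (X 0) ^ i * algebraMap (PP k) (KK k) (X 1) ^ j}

theorem basis_top : ∃ d ≤ 20, Submodule.span (basisK0 k) (basisT k d) = ⊤ := by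
  classical
  have : Module.Finite (basisK0 k) (KK k) :=
    Module.rank_lt_aleph0_iff.mp (basis_rank.trans_lt (Cardinal.natCast_lt_aleph0))
  have hfr : Module.finrank (basisK0 k) (KK k) ≤ 20 := Module.finrank_le_of_rank_le basis_rank
  set S : ℕ → Submodule (basisK0 k) (KK k) := fun d => Submodule.span _ (basisT k d) with hS
  have hmono : ∀ d, S d ≤ S (d + 1) := fun d => Submodule.span_mono (by
    rintro _ ⟨i, j, hij, rfl⟩
    exact ⟨i, j, by omega, rfl⟩)
  obtain ⟨d, hd, hSd⟩ : ∃ d ≤ 20, S d = S (d + 1) := by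
    by_contra hc
    push Not at hc
    have h1 : ∀ d ≤ 21, d ≤ Module.finrank (basisK0 k) (S d) := by
      intro d
      induction d with
      | zero => intro _; exact Nat.zero_le _
      | succ d ih =>
        intro hd
        have := Submodule.finrank_lt_finrank_of_lt
          (lt_of_le_of_ne (hmono d) (hc d (by omega)))
        have := ih (by omega)
        omega
    have := h1 21 le_rfl
    have := Submodule.finrank_le (S 21)
    omega
  refine ⟨d, hd, ?_⟩
  have hX : ∀ (n : Fin 2), ∀ x ∈ S d, algebraMap (PP k) (KK k) (X n) * x ∈ S d := by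
    intro n x hx
    induction hx using Submodule.span_induction with
    | mem x hx =>
      obtain ⟨i, j, hij, rfl⟩ := hx
      rw [hSd]
      refine Submodule.subset_span ?_
      fin_cases n
      · exact ⟨i + 1, j, by omega, by simp only [Fin.zero_eta]; ring⟩
      · exact ⟨i, j + 1, by omega, by simp only [Fin.mk_one]; ring⟩
    | zero => simp
    | add x y _ _ hx hy => rw [mul_add]; exact Submodule.add_mem _ hx hy
    | smul c x _ hx => rw [mul_smul_comm]; exact Submodule.smul_mem _ _ hx
  have hP : ∀ q : PP k, ∀ x ∈ S d, algebraMap (PP k) (KK k) q * x ∈ S d := by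
    intro q
    induction q using MvPolynomial.induction_on with
    | C c =>
      intro x hx
      have h1 : algebraMap (PP k) (KK k) (C c) = algebraMap k (KK k) c :=
        (IsScalarTower.algebraMap_apply k (PP k) (KK k) c).symm
      rw [h1, ← Algebra.smul_def, ← algebraMap_smul (basisK0 k) c x]
      exact Submodule.smul_mem _ _ hx
    | add p q hp hq =>
      intro x hx
      rw [map_add, add_mul]
      exact Submodule.add_mem _ (hp x hx) (hq x hx)
    | mul_X p n hp =>
      intro x hx
      rw [map_mul, mul_assoc]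
      exact hp _ (hX n x hx)
  have h1 : (1 : KK k) ∈ S d := Submodule.subset_span ⟨0, 0, by omega, by simp⟩
  rw [eq_top_iff]
  intro f _
  obtain ⟨p, q, hq, rfl⟩ := IsFractionRing.div_surjective (A := PP k) f
  have hq0 : algebraMap (PP k) (KK k) q ≠ 0 :=
    IsFractionRing.to_map_ne_zero_of_mem_nonZeroDivisors hq
  let μ : S d →ₗ[basisK0 k] S d :=
    (LinearMap.mulLeft (basisK0 k) (algebraMap (PP k) (KK k) q)).restrict (hP q)
  have hμ : Function.Injective μ := fun x y hxy =>
    Subtype.ext (mul_left_cancel₀ hq0 (congrArg Subtype.val hxy))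
  obtain ⟨x, hx⟩ := LinearMap.injective_iff_surjective.mp hμ
    ⟨algebraMap (PP k) (KK k) p, by simpa using hP p 1 h1⟩
  have h2 : algebraMap (PP k) (KK k) q * x = algebraMap (PP k) (KK k) p := congrArg Subtype.val hx
  rw [← h2, mul_div_cancel_left₀ _ hq0]
  exact x.2

theorem basis_mem {d : ℕ} (hd : d ≤ 20) {x : KK k} (hx : x ∈ basisT k d) :
    yy k 0 ^ 10 * x ∈ CC k ((280 : ℤ) • ζ) := by
  obtain ⟨i, j, hij, rfl⟩ := hx
  let β : Ex := fun l => ((![i, j, 0, 0, 0] : Fin 5 → ℕ) l : ℤ)
  have h1 : mon k β = algebraMap (PP k) (KK k) (X 0) ^ i * algebraMap (PP k) (KK k) (X 1) ^ j := by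
    rw [mon_natCast]
    simp [Fin.prod_univ_five, lin]
  have b0 : β 0 = i := rfl
  have b1 : β 1 = j := rfl
  have b2 : β 2 = 0 := rfl
  have b3 : β 3 = 0 := rfl
  have b4 : β 4 = 0 := rfl
  have h2 : mon k β ∈ CC k (-((7 : ℤ) • dv β)) := mon_mem (by simp)
  have h3 := yy0_pow_mem (k := k) (α := (7 : ℤ) • dv β) (s := 10) (by
    rw [dg_forall]
    simp only [Pi.smul_apply, smul_eq_mul, dv_0, dv_1, dv_2, dv_3, dv_4, dv_5, dv_6, dv_7, dv_8,
      dv_9, b0, b1, b2, b3, b4]
    omega)
  have h4 := mul_mem_CC h3 h2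
  rw [h1, show (7 : ℤ) • dv β + (28 * ((10 : ℕ) : ℤ)) • ζ + -((7 : ℤ) • dv β) = (280 : ℤ) • ζ by
    rw [show (28 * ((10 : ℕ) : ℤ)) = 280 by norm_num]; abel] at h4
  exact h4

/-- A spanning family of uniformly bounded degree.  Recipe: let `K₀ = k(yy 0, yy 1)`
(`IntermediateField.adjoin`); by `card_le_twenty`, `KK k` has dimension `≤ 20` over `K₀`.  The
increasing spans `S d` of the `a^i b^j`, `i + j ≤ d`, stabilise at some `d ≤ 20`; `S d` is then
closed under multiplication by `a`, `b`, so it is a finite-dimensional subalgebra containing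
`k[a,b]`, hence a field, hence everything.  Extract a basis and multiply it by `yy 0 ^ 10`
(`yy0_pow_mem`, `a^i b^j = mon ![i, j, 0, 0, 0]`). -/
theorem exists_bas : ∃ (N : ℕ) (b : Fin N → KK k), N ≤ 20 ∧ (∀ l, b l ∈ CC k ((280 : ℤ) • ζ)) ∧
    ∀ f : KK k, ∃ h : PP k, h ≠ 0 ∧ ∃ g : Fin N → PP k,
      aeval (yy k) h * f = ∑ l, aeval (yy k) (g l) * b l := by
  classical
  have : Module.Finite (basisK0 k) (KK k) :=
    Module.rank_lt_aleph0_iff.mp (basis_rank.trans_lt (Cardinal.natCast_lt_aleph0))
  have hfr : Module.finrank (basisK0 k) (KK k) ≤ 20 := Module.finrank_le_of_rank_le basis_rank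
  obtain ⟨d, hd, hT⟩ := basis_top (k := k)
  obtain ⟨e, he, hsp, -⟩ := Submodule.exists_fun_fin_finrank_span_eq (basisK0 k) (basisT k d)
  refine ⟨_, fun l => yy k 0 ^ 10 * e l, (Submodule.finrank_le _).trans hfr,
    fun l => basis_mem hd (he l), fun f => ?_⟩
  have h0 : yy k 0 ^ 10 ≠ 0 := pow_ne_zero _ yy0_ne_zero
  have h1 : f / yy k 0 ^ 10 ∈ Submodule.span (basisK0 k) (Set.range e) := by
    rw [hsp, hT]; trivial
  obtain ⟨c, hc⟩ := (Submodule.mem_span_range_iff_exists_fun _).mp h1
  choose r s hs hrs using fun l => basis_frac (c l)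
  refine ⟨∏ l, s l, Finset.prod_ne_zero_iff.mpr fun l _ => hs l,
    fun l => r l * ∏ m ∈ Finset.univ.erase l, s m, ?_⟩
  have h2 : f = yy k 0 ^ 10 * ∑ l, (c l : KK k) * e l := by
    have : ∑ l, (c l : KK k) * e l = f / yy k 0 ^ 10 := hc
    rw [this, mul_div_cancel₀ _ h0]
  rw [h2, Finset.mul_sum, Finset.mul_sum]
  refine Finset.sum_congr rfl fun l _ => ?_
  rw [← Finset.mul_prod_erase _ _ (Finset.mem_univ l), map_mul, map_mul, ← hrs l]
  ring

end Crest.Agent.R169
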