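/-
R169/PBasisA: `p`-bases and the Frobenius pull-back on charts (part 1 of 4)
-/
import Crest.Agent.R169.Irr

set_option autoImplicit false
set_option linter.unusedSectionVars false
set_option linter.unusedVariables false
set_option linter.unusedSimpArgs false

noncomputable section

namespace Crest.Agent.R169

open MvPolynomial Filter
open scoped Pointwise


variable {k : Type} [Field k] {V V' : Type} [AddCommGroup V] [Module k V] [Module (KK k) V]
  [IsScalarTower k (KK k) V] [AddCommGroup V'] [Module k V'] [Module (KK k) V']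
  [IsScalarTower k (KK k) V']

variable {p : ℕ} [Fact p.Prime] [CharP k p] [PerfectRing k p]

theorem charP_KK : CharP (KK k) p := by
  exact charP_of_injective_algebraMap (algebraMap k (KK k)).injective p

/-- the exponent of `a^s b^t` -/
def PBasisA_ex (s t : ℕ) : Fin 2 →₀ ℕ := Finsupp.single 0 s + Finsupp.single 1 t

theorem PBasisA_mon (s t : ℕ) :
    (X 0 ^ s * X 1 ^ t : PP k) = monomial (PBasisA_ex s t) 1 := by
  rw [X_pow_eq_monomial, X_pow_eq_monomial, monomial_mul, mul_one, PBasisA_ex]

theorem PBasisA_pow (g : PP k) : g ^ p = expand p (map (frobenius k p) g) := by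
  rw [← map_expand, map_frobenius_expand]

theorem PBasisA_poly_ind (g : Fin p × Fin p → PP k)
    (h : ∑ st : Fin p × Fin p, X 0 ^ (st.1 : ℕ) * X 1 ^ (st.2 : ℕ) * g st ^ p = 0)
    (st : Fin p × Fin p) : g st = 0 := by
  classical
  have hp : p ≠ 0 := (Fact.out : p.Prime).ne_zero
  ext n
  have h1 := congrArg (coeff (PBasisA_ex st.1 st.2 + p • n)) h
  rw [coeff_sum, Finset.sum_eq_single st] at h1
  · rw [PBasisA_mon, coeff_monomial_mul, one_mul, PBasisA_pow, coeff_expand_smul _ hp, coeff_map,
      coeff_zero] at h1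
    rw [coeff_zero]
    exact (frobenius k p).injective (h1.trans (map_zero _).symm)
  · intro st' _ hne
    rw [PBasisA_mon, coeff_monomial_mul', PBasisA_pow]
    split_ifs with hle
    · have key : ∀ a b m : ℕ, a < p → b < p → b ≤ a + p * m → p ∣ a + p * m - b → a = b := by
        intro a b m ha hb hle hd
        have h2 : b ≡ a + p * m [MOD p] := (Nat.modEq_iff_dvd' hle).2 hd
        unfold Nat.ModEq at h2
        rw [Nat.add_mul_mod_self_left, Nat.mod_eq_of_lt ha, Nat.mod_eq_of_lt hb] at h2
        exact h2.symm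
      have l0 := hle 0
      have l1 := hle 1
      simp [PBasisA_ex] at l0 l1
      by_cases d0 : p ∣ (PBasisA_ex st.1 st.2 + p • n - PBasisA_ex st'.1 st'.2) 0
      · by_cases d1 : p ∣ (PBasisA_ex st.1 st.2 + p • n - PBasisA_ex st'.1 st'.2) 1
        · exfalso
          simp [PBasisA_ex] at d0 d1
          exact hne (Prod.ext (Fin.ext (key _ _ _ st.1.2 st'.1.2 l0 d0).symm)
            (Fin.ext (key _ _ _ st.2.2 st'.2.2 l1 d1).symm))
        · rw [coeff_expand_of_not_dvd _ d1, mul_zero]
      · rw [coeff_expand_of_not_dvd _ d0, mul_zero]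
    · rfl
  · simp

theorem PBasisA_poly_span (f : PP k) : ∃ g : Fin p × Fin p → PP k,
    f = ∑ st : Fin p × Fin p, X 0 ^ (st.1 : ℕ) * X 1 ^ (st.2 : ℕ) * g st ^ p := by
  classical
  have hp : 0 < p := (Fact.out : p.Prime).pos
  induction f using MvPolynomial.induction_on' with
  | monomial m c =>
    obtain ⟨c', rfl⟩ := surjective_frobenius k p c
    let st0 : Fin p × Fin p := (⟨m 0 % p, Nat.mod_lt _ hp⟩, ⟨m 1 % p, Nat.mod_lt _ hp⟩)
    refine ⟨Pi.single st0 (monomial (PBasisA_ex (m 0 / p) (m 1 / p)) c'), ?_⟩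
    rw [Finset.sum_eq_single st0]
    · rw [Pi.single_eq_same, PBasisA_mon, monomial_pow, monomial_mul, one_mul, frobenius_def]
      congr 2
      ext i
      fin_cases i <;> simp [PBasisA_ex, st0, Nat.mod_add_div]
    · intro st _ hne
      rw [Pi.single_eq_of_ne hne, zero_pow hp.ne', mul_zero]
    · simp
  | add f f' hf hf' =>
    obtain ⟨g, rfl⟩ := hf
    obtain ⟨g', rfl⟩ := hf'
    refine ⟨g + g', ?_⟩
    rw [← Finset.sum_add_distrib]
    refine Finset.sum_congr rfl fun st _ => ?_
    rw [Pi.add_apply, add_pow_char, mul_add]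

/-- The monomials `a^s b^t`, `s, t < p`, are independent over `K^p` (clear denominators and compare
exponents modulo `p`). -/
theorem pind_std : PInd p fun st : Fin p × Fin p => ca k ^ (st.1 : ℕ) * cb k ^ (st.2 : ℕ) := by
  intro f hf st
  obtain ⟨y, hy⟩ := IsLocalization.exist_integer_multiples_of_finite (nonZeroDivisors (PP k)) f
  choose g hg using hy
  have hy0 : algebraMap (PP k) (KK k) y ≠ 0 :=
    IsFractionRing.to_map_ne_zero_of_mem_nonZeroDivisors y.2
  have h1 : ∑ st : Fin p × Fin p, X 0 ^ (st.1 : ℕ) * X 1 ^ (st.2 : ℕ) * g st ^ p = 0 := by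
    apply IsFractionRing.injective (PP k) (KK k)
    rw [map_sum, map_zero, ← mul_zero (algebraMap (PP k) (KK k) y ^ p), ← hf, Finset.mul_sum]
    refine Finset.sum_congr rfl fun st _ => ?_
    rw [map_mul, map_mul, map_pow, map_pow, map_pow, hg, Algebra.smul_def, mul_pow, ca, cb]
    ring
  have h2 := hg st
  rw [PBasisA_poly_ind g h1 st, map_zero, Algebra.smul_def] at h2
  exact (mul_eq_zero.1 h2.symm).resolve_left hy0

/-- They span (`f = x y^(p-1) / y^p`). -/
theorem pspan_std (f : KK k) :
    ∃ g : Fin p × Fin p → KK k, f = ∑ st, ca k ^ (st.1 : ℕ) * cb k ^ (st.2 : ℕ) * g st ^ p := by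
  have hp : 0 < p := (Fact.out : p.Prime).pos
  obtain ⟨x, y, hy, rfl⟩ := IsFractionRing.div_surjective (A := PP k) f
  have hy0 : algebraMap (PP k) (KK k) y ≠ 0 :=
    IsFractionRing.to_map_ne_zero_of_mem_nonZeroDivisors hy
  obtain ⟨g, hg⟩ := PBasisA_poly_span (p := p) (x * y ^ (p - 1))
  refine ⟨fun st => algebraMap (PP k) (KK k) (g st) / algebraMap (PP k) (KK k) y, ?_⟩
  have h1 := congrArg (algebraMap (PP k) (KK k)) hg
  rw [map_sum, map_mul, map_pow] at h1
  have h2 : algebraMap (PP k) (KK k) x / algebraMap (PP k) (KK k) y =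
      algebraMap (PP k) (KK k) x * algebraMap (PP k) (KK k) y ^ (p - 1) /
        algebraMap (PP k) (KK k) y ^ p := by
    obtain ⟨q, rfl⟩ : ∃ q, p = q + 1 := ⟨p - 1, by omega⟩
    rw [Nat.add_sub_cancel, pow_succ]
    field_simp
  rw [h2, h1, Finset.sum_div]
  refine Finset.sum_congr rfl fun st _ => ?_
  rw [map_mul, map_mul, map_pow, map_pow, map_pow, div_pow, ca, cb, mul_div_assoc]

theorem PBasisA_ind_iff [CharP (KK k) p] (e : Fin p × Fin p → KK k) :
    PInd p e ↔ LinearIndependent (frobenius (KK k) p).fieldRange e := by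
  rw [Fintype.linearIndependent_iff]
  constructor
  · intro h c hc st
    choose f hf using fun st => (c st).2
    have h1 : ∑ i, e i * f i ^ p = 0 := by
      rw [← hc]
      refine Finset.sum_congr rfl fun i _ => ?_
      rw [Subfield.smul_def, ← hf, frobenius_def, smul_eq_mul, mul_comm]
    apply Subtype.ext
    rw [← hf, h f h1 st, map_zero]
    rfl
  · intro h f hf st
    have h1 := h (fun i => ⟨f i ^ p, f i, rfl⟩) (by
      rw [← hf]
      refine Finset.sum_congr rfl fun i _ => ?_
      rw [Subfield.smul_def, smul_eq_mul, mul_comm]) st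
    exact pow_eq_zero_iff (Fact.out : p.Prime).ne_zero |>.1 (congrArg Subtype.val h1)

theorem PBasisA_span [CharP (KK k) p] {e : Fin p × Fin p → KK k}
    (h : ∀ f, ∃ g : Fin p × Fin p → KK k, f = ∑ st, e st * g st ^ p) :
    ⊤ ≤ Submodule.span (frobenius (KK k) p).fieldRange (Set.range e) := by
  intro f _
  obtain ⟨g, rfl⟩ := h f
  refine Submodule.sum_mem _ fun st _ => ?_
  have : e st * g st ^ p = (⟨g st ^ p, g st, rfl⟩ : (frobenius (KK k) p).fieldRange) • e st := by
    rw [Subfield.smul_def, smul_eq_mul, mul_comm]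
  rw [this]
  exact Submodule.smul_mem _ _ (Submodule.subset_span ⟨st, rfl⟩)

/-- A spanning family with `p ^ 2` elements is independent (dimension over the subfield
`(frobenius (KK k) p).fieldRange`). -/
theorem pind_of_span {e : Fin p × Fin p → KK k}
    (h : ∀ f, ∃ g : Fin p × Fin p → KK k, f = ∑ st, e st * g st ^ p) : PInd p e := by
  have : CharP (KK k) p := charP_KK
  rw [PBasisA_ind_iff]
  refine linearIndependent_of_top_le_span_of_card_eq_finrank (PBasisA_span h) ?_
  exact (Module.finrank_eq_card_basis (Module.Basis.mk ((PBasisA_ind_iff _).1 pind_std)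
    (PBasisA_span pspan_std))).symm

end Crest.Agent.R169
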