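/-
R169/PBasisB: `p`-bases and the Frobenius pull-back on charts (part 2 of 4)
-/
import Crest.Agent.R169.PBasisA

set_option autoImplicit false
set_option linter.unusedSectionVars false
set_option linter.unusedVariables false
set_option linter.unusedSimpArgs false

noncomputable section

namespace Crest.Agent.R169

open MvPolynomial Filter
open scoped Pointwise


variable {k : Type} [Field k] {V V' : Type} [AddCommGroup V] [Module k V] [Module (KK k) V]
  [IsScalarTower k (KK k) V] [AddCommGroup V'] [Module k V'] [Module (KK k) V']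
  [IsScalarTower k (KK k) V']
variable {p : ℕ} [Fact p.Prime] [CharP k p] [PerfectRing k p]

theorem PBasisB_stable : Stable (CC k) := isLat_CC.stable

theorem PBasisB_mul (c : Chart) {α β : Dg} {f g : KK k} (hf : f ∈ c.loc (CC k) α)
    (hg : g ∈ c.loc (CC k) β) : f * g ∈ c.loc (CC k) (α + β) := by
  obtain ⟨s, hs⟩ := (PBasisB_stable.mem_loc c).1 hf
  have h := PBasisB_stable.loc c hs hg
  have hi : c.q c.i = 0 := c.qi
  have hj : c.q c.j = 0 := c.qj
  rwa [PBasisB_stable.loc_congr c (α' := α + β)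
    (by simp only [Pi.add_apply, Pi.smul_apply, hi, smul_zero, add_zero])
    (by simp only [Pi.add_apply, Pi.smul_apply, hj, smul_zero, add_zero])] at h

theorem PBasisB_mon (c : Chart) {α : Dg} {β : Ex} (hi : 0 ≤ 7 * dv β c.i + α c.i)
    (hj : 0 ≤ 7 * dv β c.j + α c.j) : mon k β ∈ c.loc (CC k) α := by
  classical
  let γ : Dg := fun l => if l = c.i ∨ l = c.j then α l else -(7 * dv β l)
  rw [PBasisB_stable.loc_congr c (α' := γ) (by simp only [γ, true_or, if_true])
    (by simp only [γ, or_true, if_true])]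
  refine le_loc c (CC k) γ (mon_mem fun l => ?_)
  rw [Pi.add_apply, Pi.smul_apply, smul_eq_mul, Pi.zero_apply]
  by_cases h : l = c.i ∨ l = c.j
  · simp only [γ, if_pos h]
    rcases h with rfl | rfl
    · exact hi
    · exact hj
  · simp only [γ, if_neg h]
    omega

variable (p) in
/-- the conclusion of `Chart.decomp` -/
def PBasisB_D (c : Chart) (α : Dg) (f : KK k) : Prop :=
  ∃ g : Fin p × Fin p → KK k, (∀ st, g st ∈ c.loc (CC k) (c.dn p α st)) ∧
    f = ∑ st, c.e k p st * g st ^ p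

theorem PBasisB_D_zero (c : Chart) (α : Dg) : PBasisB_D p c α (0 : KK k) :=
  ⟨0, fun _ => Submodule.zero_mem _, by simp [(Fact.out : p.Prime).ne_zero]⟩

theorem PBasisB_D_add {c : Chart} {α : Dg} {f f' : KK k} (h : PBasisB_D p c α f)
    (h' : PBasisB_D p c α f') : PBasisB_D p c α (f + f') := by
  obtain ⟨g, hg, rfl⟩ := h
  obtain ⟨g', hg', rfl⟩ := h'
  have : CharP (KK k) p := charP_KK
  refine ⟨g + g', fun st => Submodule.add_mem _ (hg st) (hg' st), ?_⟩
  simp only [Pi.add_apply, add_pow_char, mul_add, Finset.sum_add_distrib]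

theorem PBasisB_D_smul {c : Chart} {α : Dg} {f : KK k} (a : k) (h : PBasisB_D p c α f) :
    PBasisB_D p c α (a • f) := by
  obtain ⟨g, hg, rfl⟩ := h
  obtain ⟨d, rfl⟩ := surjective_frobenius k p a
  refine ⟨d • g, fun st => Submodule.smul_mem _ _ (hg st), ?_⟩
  simp only [Pi.smul_apply, smul_pow, frobenius_def, Finset.smul_sum, mul_smul_comm]

theorem PBasisB_D_term (c : Chart) {α : Dg} {x y : ℤ} (hx : 0 ≤ 7 * x + α c.i)
    (hy : 0 ≤ 7 * y + α c.j) {g : KK k} (hg : g ∈ c.loc (CC k) 0) :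
    PBasisB_D p c α (mon k c.βa ^ x * mon k c.βb ^ y * g ^ p) := by
  classical
  have hp : (0 : ℤ) < p := by exact_mod_cast (Fact.out : p.Prime).pos
  have key : ∀ z : ℤ, ∃ (s : Fin p) (e : ℤ), z = (s : ℕ) + e * p := fun z => by
    have h1 := Int.emod_nonneg z hp.ne'
    have h2 := Int.emod_lt_of_pos z hp
    refine ⟨⟨(z % p).toNat, by omega⟩, z / p, ?_⟩
    have := Int.emod_add_ediv_mul z p
    simp only [Int.toNat_of_nonneg h1]
    omega
  obtain ⟨s, e, rfl⟩ := key x
  obtain ⟨t, e', rfl⟩ := key y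
  have key2 : ∀ (a e : ℤ) (s : ℕ), 0 ≤ 7 * (s + e * p) + a → 0 ≤ 7 * e + (a + 7 * s) / p := by
    intro a e s h
    have : -(7 * e) ≤ (a + 7 * s) / p := (Int.le_ediv_iff_mul_le hp).2 (by linarith)
    omega
  have hm : mon k (e • c.βa + e' • c.βb) * g ∈ c.loc (CC k) (c.dn p α (s, t)) := by
    have := PBasisB_mul c (PBasisB_mon (k := k) c (α := c.dn p α (s, t))
      (β := e • c.βa + e' • c.βb) ?_ ?_) hg
    · rwa [add_zero] at this
    · rw [map_add, map_smul, map_smul, Pi.add_apply, Pi.smul_apply, Pi.smul_apply, c.ai, c.bi,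
        Chart.dn, Pi.add_apply, Pi.single_eq_same, Pi.single_eq_of_ne c.ne]
      simpa using key2 _ _ _ hx
    · rw [map_add, map_smul, map_smul, Pi.add_apply, Pi.smul_apply, Pi.smul_apply, c.aj, c.bj,
        Chart.dn, Pi.add_apply, Pi.single_eq_same, Pi.single_eq_of_ne c.ne.symm]
      simpa using key2 _ _ _ hy
  refine ⟨Pi.single (s, t) (mon k (e • c.βa + e' • c.βb) * g), fun st => ?_, ?_⟩
  · by_cases h : st = (s, t)
    · rw [h, Pi.single_eq_same]; exact hm
    · rw [Pi.single_eq_of_ne h]; exact Submodule.zero_mem _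
  · rw [Finset.sum_eq_single (s, t)]
    · rw [Pi.single_eq_same, Chart.e, mon_add, mon_zsmul, mon_zsmul, zpow_add₀ (mon_ne_zero _),
        zpow_add₀ (mon_ne_zero _), zpow_mul, zpow_mul]
      simp only [zpow_natCast, mul_pow]
      ring
    · intro st _ h
      rw [Pi.single_eq_of_ne h, zero_pow (Fact.out : p.Prime).ne_zero, mul_zero]
    · simp

variable (k p) in
/-- the ring generated by the coordinates and the `p`-th powers -/
def PBasisB_R (c : Chart) : Subring (KK k) :=
  Subring.closure ({mon k c.βa, mon k c.βb} ∪ {f | ∃ g ∈ c.loc (CC k) 0, f = g ^ p})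

theorem PBasisB_D_ring (c : Chart) {α : Dg} {x y : ℤ} (hx : 0 ≤ 7 * x + α c.i)
    (hy : 0 ≤ 7 * y + α c.j) {f : KK k} (hf : f ∈ PBasisB_R k p c) :
    PBasisB_D p c α (mon k c.βa ^ x * mon k c.βb ^ y * f) := by
  have h1 : (1 : KK k) ∈ c.loc (CC k) 0 := le_loc c (CC k) 0 (one_mem_CC le_rfl)
  rw [PBasisB_R, Subring.mem_closure_iff] at hf
  induction hf using AddSubgroup.closure_induction with
  | mem f hf =>
    have : ∃ (m n : ℕ) (g : KK k), g ∈ c.loc (CC k) 0 ∧
        f = mon k c.βa ^ m * mon k c.βb ^ n * g ^ p := by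
      induction hf using Submonoid.closure_induction with
      | mem f hf =>
        rcases hf with (rfl | rfl) | ⟨g, hg, rfl⟩
        · exact ⟨1, 0, 1, h1, by simp⟩
        · exact ⟨0, 1, 1, h1, by simp⟩
        · exact ⟨0, 0, g, hg, by simp⟩
      | one => exact ⟨0, 0, 1, h1, by simp⟩
      | mul f f' _ _ h h' =>
        obtain ⟨m, n, g, hg, rfl⟩ := h
        obtain ⟨m', n', g', hg', rfl⟩ := h'
        exact ⟨m + m', n + n', g * g', by simpa using PBasisB_mul c hg hg', by ring⟩
    obtain ⟨m, n, g, hg, rfl⟩ := this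
    have := PBasisB_D_term (p := p) c (α := α) (x := x + m) (y := y + n) (by omega) (by omega) hg
    rw [zpow_add₀ (mon_ne_zero _), zpow_add₀ (mon_ne_zero _), zpow_natCast, zpow_natCast] at this
    convert this using 1
    ring
  | zero => rw [mul_zero]; exact PBasisB_D_zero c α
  | add f f' _ _ h h' => rw [mul_add]; exact PBasisB_D_add h h'
  | neg f _ h =>
    have := PBasisB_D_smul (-1 : k) h
    rwa [neg_one_smul, ← mul_neg] at this

theorem PBasisB_unit (c : Chart) {β : Ex} (hi : dv β c.i = 0) (hj : dv β c.j = 0) :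
    mon k β ∈ PBasisB_R k p c := by
  have h := c.uspan β hi hj
  suffices mon k β ∈ PBasisB_R k p c ∧ mon k (-β) ∈ PBasisB_R k p c from this.1
  clear hi hj
  induction h using Submodule.span_induction with
  | mem β hβ =>
    obtain ⟨l, rfl⟩ := hβ
    have h1 : mon k (c.u l) ∈ PBasisB_R k p c :=
      Subring.closure_mono Set.subset_union_left (c.upoly k l)
    have h2 : mon k (-c.u l) ^ p ∈ PBasisB_R k p c := Subring.subset_closure (Or.inr ⟨_,
      PBasisB_mon c (by rw [map_neg, Pi.neg_apply, c.ui]; simp)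
        (by rw [map_neg, Pi.neg_apply, c.uj]; simp), rfl⟩)
    refine ⟨h1, ?_⟩
    have h3 := mul_mem (pow_mem h1 (p - 1)) h2
    obtain ⟨n, rfl⟩ : ∃ n, p = n + 1 := ⟨p - 1, by have := (Fact.out : p.Prime).pos; omega⟩
    rw [Nat.add_sub_cancel, pow_succ, ← mul_assoc, ← mul_pow, ← mon_add, add_neg_cancel, mon_zero,
      one_pow, one_mul] at h3
    exact h3
  | zero => rw [neg_zero, mon_zero]; exact ⟨one_mem _, one_mem _⟩
  | add β β' _ _ h h' =>
    rw [neg_add, mon_add, mon_add]
    exact ⟨mul_mem h.1 h'.1, mul_mem h.2 h'.2⟩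
  | smul n β _ h =>
    obtain ⟨m, rfl | rfl⟩ := Int.eq_nat_or_neg n
    · rw [← smul_neg, mon_zsmul, mon_zsmul, zpow_natCast, zpow_natCast]
      exact ⟨pow_mem h.1 m, pow_mem h.2 m⟩
    · rw [neg_smul, neg_neg, ← smul_neg, mon_zsmul, mon_zsmul, zpow_natCast, zpow_natCast]
      exact ⟨pow_mem h.2 m, pow_mem h.1 m⟩

/-- Decomposition of the chart ring.  Recipe: it suffices to treat `f = mon β` (span; constants are
`p`-th powers).  The set `B'` of sums `∑ e st * g st ^ p` with `g st ∈ c.loc CC 0` is a subring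
containing `a' = mon βa`, `b' = mon βb`, hence `mon (u l)` (`upoly`) and their inverses
`u^(p-1) (u⁻¹)^p`, hence all `mon β'` with `dv β' i = dv β' j = 0` (`uspan`).  Write
`mon β = a'^x b'^y mon β'` (`x = dv β i`, `7 x + α i ≥ 0`), and `x + s = s' + p e`:
`a'^e g ∈ c.loc CC (dn p α (s', t'))` because `7 e + (α i + 7 s') / p ≥ 0`.
This is true for all primes `p`. -/
theorem Chart.decomp (c : Chart) {α : Dg} {f : KK k} (hf : f ∈ c.loc (CC k) α) :
    ∃ g : Fin p × Fin p → KK k, (∀ st, g st ∈ c.loc (CC k) (c.dn p α st)) ∧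
      f = ∑ st, c.e k p st * g st ^ p := by
  change PBasisB_D p c α f
  obtain ⟨s, hs⟩ := (PBasisB_stable.mem_loc c).1 hf
  clear hf
  induction hs using Submodule.span_induction with
  | mem f hf =>
    obtain ⟨β, hβ, rfl⟩ := hf
    have hi : c.q c.i = 0 := c.qi
    have hj : c.q c.j = 0 := c.qj
    have h1 := hβ c.i
    have h2 := hβ c.j
    simp only [Pi.add_apply, Pi.smul_apply, hi, hj, smul_zero, add_zero, smul_eq_mul,
      Pi.zero_apply] at h1 h2
    have h3 := PBasisB_D_ring (p := p) c h1 h2 (PBasisB_unit (k := k) c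
      (β := β - (dv β c.i • c.βa + dv β c.j • c.βb))
      (by
        rw [map_sub, map_add, map_smul, map_smul, Pi.sub_apply, Pi.add_apply, Pi.smul_apply,
          Pi.smul_apply, c.ai, c.bi]
        simp)
      (by
        rw [map_sub, map_add, map_smul, map_smul, Pi.sub_apply, Pi.add_apply, Pi.smul_apply,
          Pi.smul_apply, c.aj, c.bj]
        simp))
    rwa [← mon_zsmul, ← mon_zsmul, ← mon_add, ← mon_add, add_sub_cancel] at h3
  | zero => exact PBasisB_D_zero c α
  | add f f' _ _ h h' => exact PBasisB_D_add h h'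
  | smul a f _ h => exact PBasisB_D_smul a h

theorem Chart.pspan (c : Chart) (f : KK k) :
    ∃ g : Fin p × Fin p → KK k, f = ∑ st, c.e k p st * g st ^ p := by
  obtain ⟨u, β, hu0, hu, hf⟩ := exists_den (fun _ : Unit => f) (fun _ => 0)
  obtain ⟨g, -, hg⟩ := c.decomp (p := p)
    (le_loc c (CC k) _ (mul_mem_CC (hf ()) (pow_mem_CC hu (p - 1))))
  refine ⟨fun st => g st / u, ?_⟩
  simp only [div_pow, ← mul_div_assoc, ← Finset.sum_div, ← hg]
  obtain ⟨n, rfl⟩ : ∃ n, p = n + 1 := ⟨p - 1, by have := (Fact.out : p.Prime).pos; omega⟩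
  rw [Nat.add_sub_cancel, eq_div_iff (pow_ne_zero _ hu0)]
  ring

theorem Chart.pind (c : Chart) : PInd p (c.e k p) := pind_of_span c.pspan

end Crest.Agent.R169
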