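/-
R169/PBasisC: `p`-bases and the Frobenius pull-back on charts (part 3 of 4)
-/
import Crest.Agent.R169.PBasisB

set_option autoImplicit false
set_option linter.unusedSectionVars false
set_option linter.unusedVariables false
set_option linter.unusedSimpArgs false

noncomputable section

namespace Crest.Agent.R169

open MvPolynomial Filter
open scoped Pointwise


variable {k : Type} [Field k] {V V' : Type} [AddCommGroup V] [Module k V] [Module (KK k) V]
  [IsScalarTower k (KK k) V] [AddCommGroup V'] [Module k V'] [Module (KK k) V']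
  [IsScalarTower k (KK k) V']
variable {p : ℕ} [Fact p.Prime] [CharP k p] [PerfectRing k p]

theorem isFrob_pow : IsFrob k p fun f : KK k => f ^ p := by
  have : CharP (KK k) p := charP_KK
  refine ⟨fun x y => add_pow_char x y p, fun f x => mul_pow f x p, fun e he x hx => he x ?_⟩
  simpa only [smul_eq_mul] using hx

theorem isFrob_frob (ι : Type) : IsFrob k p (frob p : (ι → KK k) → ι → KK k) := by
  have : CharP (KK k) p := charP_KK
  refine ⟨fun x y => funext fun i => add_pow_char (x i) (y i) p,
    fun f x => funext fun i => mul_pow f (x i) p, fun e he x hx st => funext fun i => ?_⟩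
  refine he (fun st => x st i) ?_ st
  have := congrFun hx i
  simpa only [Finset.sum_apply, Pi.smul_apply, smul_eq_mul, frob, Pi.zero_apply] using this

variable {φ : V → V}

theorem IsFrob.map_zero (hφ : IsFrob k p φ) : φ 0 = 0 := by
  have := hφ.add 0 0
  rw [add_zero] at this
  exact left_eq_add.1 this

theorem IsFrob.map_sum (hφ : IsFrob k p φ) {ι : Type} (s : Finset ι) (x : ι → V) :
    φ (∑ i ∈ s, x i) = ∑ i ∈ s, φ (x i) := by
  classical
  induction s using Finset.induction_on with
  | empty => simpa using hφ.map_zero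
  | insert a s ha ih => rw [Finset.sum_insert ha, Finset.sum_insert ha, hφ.add, ih]

theorem IsFrob.linearIndependent (hφ : IsFrob k p φ) {r : ℕ} {x : Fin r → V}
    (hx : LinearIndependent (KK k) x) : LinearIndependent (KK k) fun i => φ (x i) := by
  rw [Fintype.linearIndependent_iff] at hx ⊢
  intro f hf i
  choose g hg using fun i => pspan_std (p := p) (f i)
  have h1 := hφ.ind _ pind_std (fun st => ∑ i, g i st • x i) (by
    rw [← hf]
    simp only [hφ.map_sum, hφ.smul, Finset.smul_sum, smul_smul]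
    rw [Finset.sum_comm]
    refine Finset.sum_congr rfl fun i _ => ?_
    rw [← Finset.sum_smul, ← hg i])
  rw [hg i]
  refine Finset.sum_eq_zero fun st _ => ?_
  rw [hx _ (h1 st) i, zero_pow (Fact.out : p.Prime).ne_zero, mul_zero]

theorem IsFrob.pull_gen (hφ : IsFrob k p φ) (S : Set (V × Dg)) :
    pull φ p (gen k S) = gen k ((fun y => (φ y.1, (p : ℤ) • y.2)) '' S) := by
  refine le_antisymm (gen_le (gen_stable _) ?_) (gen_mono ?_)
  · rintro _ ⟨α, x, hx, rfl⟩
    show φ x ∈ gen k _ ((p : ℤ) • α)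
    induction hx using Submodule.span_induction with
    | mem y hy =>
      obtain ⟨q, hq, f, hf, rfl⟩ := hy
      rw [hφ.smul]
      refine Submodule.subset_span ⟨_, ⟨q, hq, rfl⟩, f ^ p, ?_, rfl⟩
      rw [← smul_sub]
      exact pow_mem_CC hf p
    | zero => rw [hφ.map_zero]; exact Submodule.zero_mem _
    | add y z _ _ hy hz => rw [hφ.add]; exact Submodule.add_mem _ hy hz
    | smul c y _ hy =>
      rw [← algebraMap_smul (KK k) c y, hφ.smul, ← map_pow, algebraMap_smul]
      exact Submodule.smul_mem _ _ hy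
  · rintro _ ⟨y, hy, rfl⟩
    exact ⟨y.2, y.1, mem_gen hy, rfl⟩

theorem IsFrob.isLat (hφ : IsFrob k p φ) {G : Fam k V} (h : IsLat G) : IsLat (pull φ p G) := by
  obtain ⟨S, hS, rfl⟩ := h
  rw [hφ.pull_gen]
  exact isLat_gen (hS.image _)

theorem pull_mono (φ : V → V) (p : ℕ) {G G' : Fam k V} (h : G ≤ G') : pull φ p G ≤ pull φ p G' := by
  refine gen_mono ?_
  rintro _ ⟨α, x, hx, rfl⟩
  exact ⟨α, x, h α hx, rfl⟩

theorem mem_pull {G : Fam k V} {x : V} {α : Dg} (h : x ∈ G α) :
    φ x ∈ pull φ p G ((p : ℤ) • α) := mem_gen ⟨α, x, h, rfl⟩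

theorem IsFrob.pull_step (hφ : IsFrob k p φ) {F : Fam k V} (h : IsLat F) (x : V) (α : Dg) :
    pull φ p (F ⊔ gen k {(x, α)}) = pull φ p F ⊔ gen k {(φ x, (p : ℤ) • α)} := by
  obtain ⟨S, -, rfl⟩ := h
  rw [← gen_union, hφ.pull_gen, hφ.pull_gen, Set.image_union, gen_union, Set.image_singleton]

theorem pull_le_CCr {r : ℕ} {G : Fam k (Fin r → KK k)} (h : G ≤ CCr k (Fin r)) :
    pull (frob p) p G ≤ CCr k (Fin r) := by
  refine gen_le (isLat_CCr r).stable ?_
  rintro _ ⟨α, x, hx, rfl⟩
  exact mem_CCr.2 fun i => pow_mem_CC (mem_CCr.1 (h α hx) i) p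

end Crest.Agent.R169
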