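/-
R169/PBasis: `p`-bases and the Frobenius pull-back on charts (part 4 of 4)
-/
import Crest.Agent.R169.PBasisC

set_option autoImplicit false
set_option linter.unusedSectionVars false
set_option linter.unusedVariables false
set_option linter.unusedSimpArgs false

noncomputable section

namespace Crest.Agent.R169

open MvPolynomial Filter
open scoped Pointwise


variable {k : Type} [Field k] {V V' : Type} [AddCommGroup V] [Module k V] [Module (KK k) V]
  [IsScalarTower k (KK k) V] [AddCommGroup V'] [Module k V'] [Module (KK k) V']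
  [IsScalarTower k (KK k) V']
variable {p : ℕ} [Fact p.Prime] [CharP k p] [PerfectRing k p]
variable {φ : V → V}

theorem PBasis_loc_smul {G : Fam k V} (hG : Stable G) (c : Chart) {α β : Dg} {f : KK k} {x : V}
    (hf : f ∈ c.loc (CC k) α) (hx : x ∈ c.loc G β) : f • x ∈ c.loc G (α + β) := by
  obtain ⟨s, hs⟩ := (isLat_CC.stable.mem_loc c).1 hf
  obtain ⟨t, ht⟩ := (hG.mem_loc c).1 hx
  refine (hG.mem_loc c).2 ⟨s + t, ?_⟩
  have := hG hs ht
  rwa [show α + s • c.q + (β + t • c.q) = α + β + (s + t) • c.q by rw [add_nsmul]; abel] at this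

theorem PBasis_loc_le {G : Fam k V} (hG : Stable G) (c : Chart) {α α' : Dg}
    (hi : α c.i ≤ α' c.i) (hj : α c.j ≤ α' c.j) : c.loc G α ≤ c.loc G α' := by
  have h1 : c.loc G α ≤ c.loc G (α ⊔ α') := (hG.loc c).mono le_sup_left
  have h2 : c.loc G (α ⊔ α') = c.loc G α' :=
    hG.loc_congr c (by simp only [Pi.sup_apply]; exact sup_eq_right.2 hi)
      (by simp only [Pi.sup_apply]; exact sup_eq_right.2 hj)
  rwa [h2] at h1

theorem PBasis_dn_i (c : Chart) (p : ℕ) (α : Dg) (st : Fin p × Fin p) :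
    c.dn p α st c.i = (α c.i + 7 * (st.1 : ℕ)) / p := by
  unfold Chart.dn
  rw [Pi.add_apply, Pi.single_eq_same, Pi.single_eq_of_ne c.ne, add_zero]

theorem PBasis_dn_j (c : Chart) (p : ℕ) (α : Dg) (st : Fin p × Fin p) :
    c.dn p α st c.j = (α c.j + 7 * (st.2 : ℕ)) / p := by
  unfold Chart.dn
  rw [Pi.add_apply, Pi.single_eq_same, Pi.single_eq_of_ne c.ne.symm, zero_add]

theorem PBasis_dn_add {G : Fam k V} (hG : Stable G) (c : Chart) (α β : Dg) (st : Fin p × Fin p) :
    c.loc G (c.dn p (α + (p : ℤ) • β) st) = c.loc G (c.dn p α st + β) := by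
  have hp : (p : ℤ) ≠ 0 := by exact_mod_cast (Fact.out : p.Prime).ne_zero
  refine hG.loc_congr c ?_ ?_
  · rw [Pi.add_apply, PBasis_dn_i, PBasis_dn_i, Pi.add_apply, Pi.smul_apply, smul_eq_mul,
      add_right_comm, Int.add_mul_ediv_left _ _ hp]
  · rw [Pi.add_apply, PBasis_dn_j, PBasis_dn_j, Pi.add_apply, Pi.smul_apply, smul_eq_mul,
      add_right_comm, Int.add_mul_ediv_left _ _ hp]

theorem PBasis_e_mem (c : Chart) (α : Dg) (st : Fin p × Fin p) :
    c.e k p st ∈ c.loc (CC k) (α - (p : ℤ) • c.dn p α st) := by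
  have hp : (0 : ℤ) < p := by exact_mod_cast (Fact.out : p.Prime).pos
  have ha : mon k c.βa ∈ CC k (-((7 : ℤ) • dv c.βa)) := mon_mem (by rw [add_neg_cancel])
  have hb : mon k c.βb ∈ CC k (-((7 : ℤ) • dv c.βb)) := mon_mem (by rw [add_neg_cancel])
  have h := mul_mem_CC (pow_mem_CC ha st.1) (pow_mem_CC hb st.2)
  refine PBasis_loc_le isLat_CC.stable c ?_ ?_ (le_loc c _ _ h)
  · simp only [Pi.add_apply, Pi.smul_apply, Pi.neg_apply, Pi.sub_apply, smul_eq_mul, c.ai, c.bi,
      PBasis_dn_i]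
    have := Int.mul_ediv_self_le (x := α c.i + 7 * (st.1 : ℕ)) hp.ne'
    linarith
  · simp only [Pi.add_apply, Pi.smul_apply, Pi.neg_apply, Pi.sub_apply, smul_eq_mul, c.aj, c.bj,
      PBasis_dn_j]
    have := Int.mul_ediv_self_le (x := α c.j + 7 * (st.2 : ℕ)) hp.ne'
    linarith

theorem PBasis_loc_frob {G : Fam k V} (hG : Stable G) (c : Chart) {x : V} {β : Dg}
    (hx : x ∈ c.loc G β) : φ x ∈ c.loc (pull φ p G) ((p : ℤ) • β) := by
  obtain ⟨s, hs⟩ := (hG.mem_loc c).1 hx
  refine ((gen_stable _).mem_loc c).2 ⟨p * s, ?_⟩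
  have := mem_pull (φ := φ) (p := p) hs
  rwa [smul_add, show (p : ℤ) • s • c.q = (p * s) • c.q by
    rw [natCast_zsmul, mul_smul]] at this

theorem PBasis_uniq (hφ : IsFrob k p φ) (c : Chart) {x x' : Fin p × Fin p → V}
    (h : ∑ st, c.e k p st • φ (x st) = ∑ st, c.e k p st • φ (x' st)) (st : Fin p × Fin p) :
    x st = x' st := by
  have hs : ∀ a b, φ (a - b) = φ a - φ b := fun a b => by
    have := hφ.add (a - b) b
    rw [sub_add_cancel] at this
    rw [this, add_sub_cancel_right]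
  have := hφ.ind (c.e k p) c.pind (fun st => x st - x' st) (by
    simp only [hs, smul_sub, Finset.sum_sub_distrib, h, sub_self]) st
  exact sub_eq_zero.1 this

theorem PBasis_smul_sum (hφ : IsFrob k p φ) (c : Chart) (g : Fin p × Fin p → KK k) (x : V) :
    (∑ st, c.e k p st * g st ^ p) • φ x = ∑ st, c.e k p st • φ (g st • x) := by
  rw [Finset.sum_smul]
  exact Finset.sum_congr rfl fun st _ => by rw [hφ.smul, mul_smul]

/-- The pull-back on a chart.  Recipe: `←` since `c.e st ∈ c.loc CC (α - p • dn)`; `→` by span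
induction, `Chart.decomp` and `dn p (α - p α') st + α' = dn p α st` in the coordinates `i, j`
(`loc_congr`). -/
theorem IsFrob.mem_loc_pull (hφ : IsFrob k p φ) {G : Fam k V} (hG : Stable G) (c : Chart) {y : V}
    {α : Dg} : y ∈ c.loc (pull φ p G) α ↔ ∃ x : Fin p × Fin p → V,
      (∀ st, x st ∈ c.loc G (c.dn p α st)) ∧ y = ∑ st, c.e k p st • φ (x st) := by
  constructor
  · intro hy
    obtain ⟨s, hs⟩ := ((gen_stable _).mem_loc c).1 hy
    clear hy
    induction hs using Submodule.span_induction with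
    | mem y hy =>
      obtain ⟨q, ⟨α', x, hx, rfl⟩, f, hf, rfl⟩ := hy
      have hf' : f ∈ c.loc (CC k) (α - (p : ℤ) • α') :=
        (isLat_CC.stable.mem_loc c).2 ⟨s, by rwa [sub_add_eq_add_sub]⟩
      obtain ⟨g, hg, rfl⟩ := c.decomp (p := p) hf'
      refine ⟨fun st => g st • x, fun st => ?_, PBasis_smul_sum hφ c g x⟩
      have h1 := PBasis_loc_smul hG c (hg st) (le_loc c G _ hx)
      rwa [← PBasis_dn_add hG, sub_add_cancel] at h1
    | zero => exact ⟨0, fun st => Submodule.zero_mem _, by simp [hφ.map_zero]⟩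
    | add y y' _ _ h h' =>
      obtain ⟨x, hx, rfl⟩ := h
      obtain ⟨x', hx', rfl⟩ := h'
      refine ⟨x + x', fun st => Submodule.add_mem _ (hx st) (hx' st), ?_⟩
      simp only [Pi.add_apply, hφ.add, smul_add, Finset.sum_add_distrib]
    | smul a y _ h =>
      obtain ⟨x, hx, rfl⟩ := h
      obtain ⟨d, rfl⟩ := (PerfectRing.bijective_frobenius (R := k) (p := p)).2 a
      refine ⟨fun st => d • x st, fun st => Submodule.smul_mem _ _ (hx st), ?_⟩
      rw [Finset.smul_sum]
      refine Finset.sum_congr rfl fun st _ => ?_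
      beta_reduce
      rw [← algebraMap_smul (KK k) d (x st), hφ.smul, ← map_pow, ← algebraMap_smul (KK k) (d ^ p),
        smul_comm]
  · rintro ⟨x, hx, rfl⟩
    refine Submodule.sum_mem _ fun st _ => ?_
    have h1 := PBasis_loc_smul (gen_stable _) c (PBasis_e_mem c α st)
      (PBasis_loc_frob (φ := φ) (p := p) hG c (hx st))
    rwa [sub_add_cancel] at h1

/-- Flatness of Frobenius: annihilators.  Recipe: `≤` holds on the nose; for `evEq_of_loc` decompose
`f = ∑ e st * g st ^ p` (`decomp`) and compare `f • φ x = ∑ e st • φ (g st • x)` with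
`mem_loc_pull` using `hφ.ind`. -/
theorem IsFrob.colon_pull (hφ : IsFrob k p φ) {F : Fam k V} (hF : IsLat F) (x : V) (α : Dg) :
    EvEq (pull (fun f : KK k => f ^ p) p (colon F x α))
      (colon (pull φ p F) (φ x) ((p : ℤ) • α)) := by
  have hst : Stable (pull φ p F) := gen_stable _
  have hc : Stable (colon F x α) := hF.stable.colon x α
  refine evEq_of_loc (isFrob_pow.isLat (IsLat.colon hF.stable x α)) (IsLat.colon hst _ _) ?_ ?_
  · refine gen_le (hst.colon _ _) ?_
    rintro _ ⟨β, f, hf, rfl⟩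
    obtain ⟨h1, h2⟩ := mem_colon.1 hf
    refine mem_colon.2 ⟨pow_mem_CC h1 p, ?_⟩
    rw [← hφ.smul, ← smul_add]
    exact mem_pull h2
  · intro c β f hf
    obtain ⟨h1, h2⟩ := mem_colon.1 hf
    obtain ⟨g, hg, rfl⟩ := c.decomp (p := p) (le_loc c _ _ h1)
    obtain ⟨y, hy, e⟩ := (hφ.mem_loc_pull hF.stable c).1 (le_loc c _ _ h2)
    rw [PBasis_smul_sum hφ] at e
    refine (isFrob_pow.mem_loc_pull hc c).2 ⟨g, fun st => ?_, rfl⟩
    have h3 := hy st
    rw [← PBasis_uniq hφ c e st, PBasis_dn_add hF.stable] at h3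
    obtain ⟨s, hs⟩ := (isLat_CC.stable.mem_loc c).1 (hg st)
    obtain ⟨t, ht⟩ := (hF.stable.mem_loc c).1 h3
    have hq := c.q_nonneg
    refine (hc.mem_loc c).2 ⟨s + t, mem_colon.2 ⟨?_, ?_⟩⟩
    · refine CC_mono ?_ hs
      rw [add_nsmul, ← add_assoc]
      exact le_add_of_nonneg_right (nsmul_nonneg hq t)
    · refine hF.stable.mono ?_ ht
      rw [show c.dn p β st + (s + t) • c.q + α = c.dn p β st + α + t • c.q + s • c.q by
        rw [add_nsmul]; abel]
      exact le_add_of_nonneg_right (nsmul_nonneg hq s)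

/-- Flatness of Frobenius: intersections. -/
theorem IsFrob.cut_pull (hφ : IsFrob k p φ) {G : Fam k V} (hG : IsLat G) (U : Submodule (KK k) V) :
    EvEq (pull φ p (cut G U)) (cut (pull φ p G) (Submodule.span (KK k) (φ '' U))) := by
  have hst : Stable (pull φ p G) := gen_stable _
  have hc : Stable (cut G U) := hG.stable.cut U
  refine evEq_of_loc (hφ.isLat (hG.cut U)) ((hφ.isLat hG).cut _) ?_ ?_
  · refine gen_le (hst.cut _) ?_
    rintro _ ⟨β, x, hx, rfl⟩
    obtain ⟨h1, h2⟩ := mem_cut.1 hx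
    exact mem_cut.2 ⟨mem_pull h1, Submodule.subset_span ⟨x, h2, rfl⟩⟩
  · intro c β y hy
    obtain ⟨h1, h2⟩ := mem_cut.1 hy
    obtain ⟨x, hx, e⟩ := (hφ.mem_loc_pull hG.stable c).1 (le_loc c _ _ h1)
    have key : ∀ f : KK k, ∃ u : Fin p × Fin p → V, (∀ st, u st ∈ U) ∧
        f • y = ∑ st, c.e k p st • φ (u st) := by
      clear e h1 hy
      induction h2 using Submodule.span_induction with
      | mem y hy =>
        obtain ⟨u, hu, rfl⟩ := hy
        intro f
        obtain ⟨g, rfl⟩ := c.pspan (p := p) f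
        exact ⟨fun st => g st • u, fun st => U.smul_mem _ hu, PBasis_smul_sum hφ c g u⟩
      | zero => exact fun f => ⟨0, fun st => U.zero_mem, by simp [hφ.map_zero]⟩
      | add y y' _ _ h h' =>
        intro f
        obtain ⟨u, hu, e⟩ := h f
        obtain ⟨u', hu', e'⟩ := h' f
        refine ⟨u + u', fun st => U.add_mem (hu st) (hu' st), ?_⟩
        simp only [Pi.add_apply, hφ.add, smul_add, Finset.sum_add_distrib, e, e']
      | smul a y _ h =>
        intro f
        rw [← mul_smul]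
        exact h _
    obtain ⟨u, hu, e'⟩ := key 1
    rw [one_smul, e] at e'
    refine (hφ.mem_loc_pull hc c).2 ⟨x, fun st => ?_, e⟩
    obtain ⟨s, hs⟩ := (hG.stable.mem_loc c).1 (hx st)
    exact (hc.mem_loc c).2 ⟨s, mem_cut.2 ⟨hs, PBasis_uniq hφ c e' st ▸ hu st⟩⟩

end Crest.Agent.R169
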