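/-
R169/PointA: Hilbert functions of points and of their Frobenius powers (part 1 of 3)
-/
import Crest.Agent.R169.PBasis
import Crest.Agent.R169.HPC

set_option autoImplicit false
set_option linter.unusedSectionVars false
set_option linter.unusedVariables false
set_option linter.unusedSimpArgs false

noncomputable section

namespace Crest.Agent.R169

open MvPolynomial Filter
open scoped Pointwise


variable {k : Type} [Field k]

/-- The local colength of an ideal in one degree. -/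
def Chart.len (c : Chart) (J : Fam k (KK k)) (α : Dg) : ℕ :=
  Module.finrank k (↥(c.loc (CC k) α) ⧸ (c.loc J α).submoduleOf (c.loc (CC k) α))

/-- The local quotients are finite-dimensional. -/
def Chart.Fin (c : Chart) (J : Fam k (KK k)) : Prop :=
  ∀ α, FiniteDimensional k (↥(c.loc (CC k) α) ⧸ (c.loc J α).submoduleOf (c.loc (CC k) α))

/-- The total local colength. -/
def Chart.tot (c : Chart) (J : Fam k (KK k)) : ℕ :=
  343 * ∑ u : _root_.Fin 7, ∑ v : _root_.Fin 7,
    c.len J (Pi.single c.i ((u : ℕ) : ℤ) + Pi.single c.j ((v : ℕ) : ℤ))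

/-- Two coprime elements cut out a bounded quotient.  Recipe: with a prime element `(g, δ)` of `J`
and `(f, γ) ∈ J` prime to it, `hf (g, f) = hf (g) + hf (f) - hf (g f)`; by `hp_CC` the difference
with `hf CC` is eventually `343 * ip (cl δ) (cl γ)`. -/
theorem IsPr.bounded {J : Fam k (KK k)} (h : IsPr J) (hp : Pt J) :
    ∃ B : ℕ, ∀ α, ∀ᶠ t : ℕ in atTop, hf (CC k) (α + t • ζ) ≤ hf J (α + t • ζ) + B := by
  obtain ⟨f₀, β₀, hf₀, hf₀', -⟩ := hp (.inl 0)
  obtain ⟨π, g, δ, hg, hgJ⟩ := h.exists_isPE hf₀ hf₀'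
  obtain ⟨u, β, huJ, hu0, huv⟩ := hp π
  have hF : IsLat (gen k {(g, δ)}) := isLat_gen (Set.finite_singleton _)
  have h1 : colon (gen k {(g, δ)}) u β ≤ gen k {(g, δ)} := fun γ f hf => by
    obtain ⟨hf1, hf2⟩ := mem_colon.mp hf
    by_cases hf0 : f = 0
    · rw [hf0]
      exact Submodule.zero_mem _
    obtain ⟨w, hw, e⟩ := mem_gen_single.mp hf2
    rw [smul_eq_mul, smul_eq_mul] at e
    have hw0 : w ≠ 0 := fun hh => mul_ne_zero hf0 hu0 (by rw [e, hh, zero_mul])
    have e1 := val_mul π hf0 hu0 γ β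
    have e2 := val_mul π hw0 hg.1 (γ + β - δ) δ
    have e3 := (mem_CC.mp hw).resolve_left hw0 π
    rw [sub_add_cancel, ← e, e1, huv, hg.2 π, if_pos rfl] at e2
    refine mem_gen_single.mpr ⟨f / g, hg.div_mem hf1 hf0 (by omega), ?_⟩
    rw [smul_eq_mul, div_mul_cancel₀ _ hg.1]
  have h2 : gen k {(g, δ)} ⊔ gen k {(u, β)} ≤ J :=
    sup_le (gen_le h.stable (by rintro _ rfl; exact hgJ)) (gen_le h.stable (by rintro _ rfl; exact huJ))
  refine ⟨(343 * ip (cl δ) (cl β)).toNat, fun α => ?_⟩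
  filter_upwards [hp_CC (k := k) α, hp_CC (k := k) (α - δ), hp_CC (k := k) (α - β),
    hp_CC (k := k) (α - β - δ)] with t e1 e2 e3 e4
  have e5 := hf_step hF.fin u β (α + t • ζ)
  have e6 := hf_mono h1 hF.fin (α + t • ζ - β)
  have e7 := hf_mono h2 h.isLat.fin (α + t • ζ)
  rw [hf_gen_single hg.1] at e5 e6
  rw [show α - δ + t • ζ = α + t • ζ - δ by abel] at e2
  rw [show α - β + t • ζ = α + t • ζ - β by abel] at e3
  rw [show α - β - δ + t • ζ = α + t • ζ - β - δ by abel] at e4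
  simp only [map_sub, ip_zero_left, add_zero, Nat.cast_one, one_mul] at e1 e2 e3 e4
  have e8 : ∀ D : Ex, chi D + chi (D - cl β - cl δ) =
      chi (D - cl δ) + chi (D - cl β) + 2 * ip (cl δ) (cl β) := fun D => by
    simp only [chi, ip_sub_left, ip_sub_right, ip_comm (cl β) (cl δ), ip_comm (cl β) D,
      ip_comm (cl δ) D]
    ring
  have e9 := e8 (cl (α + t • ζ))
  have e10 := Int.self_le_toNat (343 * ip (cl δ) (cl β))
  zify at e5 e6 e7 ⊢
  linarith

theorem PointA_fin {V : Type} [AddCommGroup V] [Module k V] (A J : ℕ → Submodule k V)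
    (L N : Submodule k V) (hA : Monotone A) (hfin : ∀ n, FiniteDimensional k (A n))
    (hL : ∀ n, A n ≤ L) (hL' : ∀ x ∈ L, ∃ n, x ∈ A n) (hJ : ∀ n, J n ≤ A n) (hN : ∀ n, J n ≤ N)
    (B : ℕ) (hB : ∀ᶠ n in atTop, Module.finrank k (A n) ≤ Module.finrank k (J n) + B) :
    FiniteDimensional k (↥L ⧸ N.submoduleOf L) := by
  refine Module.rank_lt_aleph0_iff.mp (lt_of_le_of_lt (rank_le (n := B) fun s hs => ?_)
    (Cardinal.natCast_lt_aleph0))
  let φ : ∀ n, A n →ₗ[k] (↥L ⧸ N.submoduleOf L) := fun n =>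
    (N.submoduleOf L).mkQ ∘ₗ Submodule.inclusion (hL n)
  have h1 : ∀ᶠ n in atTop, ∀ x ∈ s, x ∈ LinearMap.range (φ n) := by
    refine (eventually_all_finset s).mpr fun x _ => ?_
    obtain ⟨y, rfl⟩ := (N.submoduleOf L).mkQ_surjective x
    obtain ⟨n, hn⟩ := hL' y.1 y.2
    filter_upwards [eventually_ge_atTop n] with m hm
    exact ⟨⟨y.1, hA hm hn⟩, rfl⟩
  obtain ⟨n, h2, h3⟩ := (h1.and hB).exists
  have := hfin n
  have h4 := LinearMap.finrank_range_add_finrank_ker (φ n)
  have h5 : (J n).submoduleOf (A n) ≤ LinearMap.ker (φ n) := fun x hx =>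
    (Submodule.Quotient.mk_eq_zero _).mpr (hN n hx)
  have h6 := Submodule.finrank_mono h5
  rw [(Submodule.submoduleOfEquivOfLe (hJ n)).finrank_eq] at h6
  have h7 : LinearIndependent k fun i : s => (⟨i.1, h2 i.1 i.2⟩ : LinearMap.range (φ n)) :=
    LinearIndependent.of_comp (LinearMap.range (φ n)).subtype hs
  have h8 := h7.fintype_card_le_finrank
  rw [Fintype.card_coe] at h8
  omega

theorem PointA_term_le {J : Fam k (KK k)} (hle : J ≤ CC k) {α : Dg} {B : ℕ}
    (h : hf (CC k) α ≤ hf J α + B) :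
    Module.finrank k (CC k α) ≤ Module.finrank k (J α) + B := by
  unfold hf at h
  rw [← Finset.add_sum_erase _ _ (Finset.mem_univ (0 : Fin 5 → Fin 7)),
    ← Finset.add_sum_erase _ _ (Finset.mem_univ (0 : Fin 5 → Fin 7))] at h
  have h1 : ∑ β ∈ Finset.univ.erase (0 : Fin 5 → Fin 7),
      Module.finrank k (J (α + dv fun j => (β j : ℤ))) ≤
      ∑ β ∈ Finset.univ.erase (0 : Fin 5 → Fin 7),
      Module.finrank k (CC k (α + dv fun j => (β j : ℤ))) :=
    Finset.sum_le_sum fun β _ => Submodule.finrank_mono (hle _)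
  have h2 : (α + dv fun j => (((0 : Fin 5 → Fin 7) j : ℕ) : ℤ)) = α := by
    rw [show (fun j => (((0 : Fin 5 → Fin 7) j : ℕ) : ℤ)) = 0 from rfl, map_zero, add_zero]
  rw [h2] at h
  omega

/-- Recipe: `CC (α + s q) / J (α + s q)` injects into the next one since `J` is prime and
`1 ∉ J q`; the dimensions are bounded (`bounded`, `hf_dv`, `q = 2 ζ + dv βq`). -/
theorem IsPr.chart_fin {J : Fam k (KK k)} (h : IsPr J) (hp : Pt J) {c : Chart}
    (hq : (1 : KK k) ∉ J c.q) : c.Fin J := by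
  intro α
  obtain ⟨B, hB⟩ := h.bounded hp
  refine PointA_fin (fun s => CC k (α + s • c.q)) (fun s => J (α + s • c.q)) _ _
    (fun s s' hs => CC_mono (add_le_add_right (nsmul_le_nsmul_left c.q_nonneg hs) α))
    (fun _ => inferInstance) (fun s => le_iSup (fun s : ℕ => CC k (α + s • c.q)) s)
    (fun x hx => (isLat_CC.stable.mem_loc c).mp hx) (fun s => h.le _)
    (fun s => le_iSup (fun s : ℕ => J (α + s • c.q)) s) B ?_
  have h2 : Tendsto (fun s : ℕ => s * 2) atTop atTop :=
    tendsto_atTop_mono (fun s => Nat.le_mul_of_pos_right s two_pos) tendsto_id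
  filter_upwards [h2.eventually (hB α)] with s hs
  refine PointA_term_le h.le ?_
  have e : α + s • c.q = α + (s * 2) • ζ + dv (s • c.βq) := by
    rw [Chart.q, smul_add, map_nsmul, add_assoc, mul_smul, two_smul, two_smul]
  rwa [e, isLat_CC.stable.hf_dv, h.stable.hf_dv]

end Crest.Agent.R169
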