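/-
R169/PointB: Hilbert functions of points and of their Frobenius powers (part 2 of 3)
-/
import Crest.Agent.R169.PointA

set_option autoImplicit false
set_option linter.unusedSectionVars false
set_option linter.unusedVariables false
set_option linter.unusedSimpArgs false

noncomputable section

namespace Crest.Agent.R169

open MvPolynomial Filter
open scoped Pointwise


variable {k : Type} [Field k]

/-- An increasing exhaustion of `L` eventually surjects onto the finite-dimensional `L / N`. -/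
theorem PointB_ev {V : Type} [AddCommGroup V] [Module k V] {A : ℕ → Submodule k V}
    (hA : Monotone A) (hfd : ∀ s, FiniteDimensional k (A s)) {L N : Submodule k V}
    (hL : L = ⨆ s, A s) (hfin : FiniteDimensional k (↥L ⧸ N.submoduleOf L)) :
    ∀ᶠ s : ℕ in atTop, Module.finrank k (A s) =
      Module.finrank k ↥(A s ⊓ N) + Module.finrank k (↥L ⧸ N.submoduleOf L) := by
  have hle : ∀ s, A s ≤ L := fun s => hL ▸ le_iSup A s
  let φ : ∀ s, A s →ₗ[k] (↥L ⧸ N.submoduleOf L) := fun s =>
    (N.submoduleOf L).mkQ ∘ₗ Submodule.inclusion (hle s)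
  have hmono : Monotone fun s => LinearMap.range (φ s) := by
    rintro s t hst _ ⟨x, rfl⟩
    exact ⟨⟨x.1, hA hst x.2⟩, rfl⟩
  obtain ⟨n, hn⟩ := monotone_stabilizes_iff_noetherian.mpr
    (inferInstance : IsNoetherian k (↥L ⧸ N.submoduleOf L)) ⟨_, hmono⟩
  have htop : ∀ m, n ≤ m → LinearMap.range (φ m) = ⊤ := fun m hm => by
    refine eq_top_iff.mpr fun y _ => ?_
    obtain ⟨x, rfl⟩ := (N.submoduleOf L).mkQ_surjective y
    have hx : (x : V) ∈ ⨆ s, A s := hL ▸ x.2
    obtain ⟨s, hs⟩ := (Submodule.mem_iSup_of_directed _ hA.directed_le).mp hx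
    have h1 : (N.submoduleOf L).mkQ x ∈ LinearMap.range (φ (max s m)) :=
      ⟨⟨x.1, hA (le_max_left _ _) hs⟩, rfl⟩
    have h2 : LinearMap.range (φ n) = LinearMap.range (φ (max s m)) :=
      hn _ (hm.trans (le_max_right _ _))
    have h3 : LinearMap.range (φ n) = LinearMap.range (φ m) := hn _ hm
    rwa [← h2, h3] at h1
  filter_upwards [eventually_ge_atTop n] with m hm
  have := hfd m
  have h1 := (φ m).finrank_range_add_finrank_ker
  rw [htop m hm, finrank_top] at h1
  have h2 : LinearMap.ker (φ m) = (A m ⊓ N).submoduleOf (A m) := by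
    ext x
    rw [LinearMap.mem_ker]
    change (N.submoduleOf L).mkQ _ = 0 ↔ (x : V) ∈ A m ⊓ N
    rw [Submodule.mkQ_apply, Submodule.Quotient.mk_eq_zero, Submodule.mem_inf]
    exact ⟨fun h => ⟨x.2, h⟩, fun h => h.2⟩
  rw [h2, (Submodule.submoduleOfEquivOfLe inf_le_left).finrank_eq] at h1
  omega

theorem PointB_quot {V : Type} [AddCommGroup V] [Module k V] (e : V ≃ₗ[k] V)
    {L N L' N' : Submodule k V} (hL : ∀ x, x ∈ L' ↔ e x ∈ L) (hN : ∀ x, x ∈ N' ↔ e x ∈ N) :
    Module.finrank k (↥L' ⧸ N'.submoduleOf L') = Module.finrank k (↥L ⧸ N.submoduleOf L) := by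
  let e' : L' ≃ₗ[k] L :=
    { toFun := fun x => ⟨e x, (hL x).mp x.2⟩
      invFun := fun x => ⟨e.symm x, (hL _).mpr (by simp)⟩
      map_add' := fun x y => by ext; simp
      map_smul' := fun c x => by ext; simp
      left_inv := fun x => by ext; simp
      right_inv := fun x => by ext; simp }
  refine (Submodule.Quotient.equiv _ _ e' ?_).finrank_eq
  ext x
  constructor
  · rintro ⟨y, hy, rfl⟩
    exact (hN y).mp hy
  · intro hx
    refine ⟨e'.symm x, ?_, by simp⟩
    have : (x : V) ∈ N := hx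
    exact (hN (e.symm x)).mpr (by simpa using this)

theorem PointB_len_congr (c : Chart) {J : Fam k (KK k)} (hJ : Stable J) {α α' : Dg}
    (hi : α c.i = α' c.i) (hj : α c.j = α' c.j) : c.len J α = c.len J α' := by
  unfold Chart.len
  rw [hJ.loc_congr c hi hj, (isLat_CC (k := k)).stable.loc_congr c hi hj]

theorem PointB_len_per (c : Chart) {J : Fam k (KK k)} (hJ : Stable J) (β : Ex) (α : Dg) :
    c.len J (α + (7 : ℤ) • dv β) = c.len J α := by
  let e : KK k ≃ₗ[k] KK k :=
    { toFun := fun x => mon k β • x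
      invFun := fun x => (mon k β)⁻¹ • x
      map_add' := fun x y => smul_add _ _ _
      map_smul' := fun c x => smul_comm _ _ _
      left_inv := fun x => by simp [inv_mul_cancel_left₀ (mon_ne_zero (k := k) β)]
      right_inv := fun x => by simp [mul_inv_cancel_left₀ (mon_ne_zero (k := k) β)] }
  exact PointB_quot e (fun x => ((isLat_CC (k := k)).stable.loc c).per β)
    (fun x => (hJ.loc c).per β)

theorem PointB_sum_len (c : Chart) {J : Fam k (KK k)} (hJ : Stable J) (α : Dg) :
    ∑ β : Fin 5 → Fin 7, c.len J (α + dv fun j => (β j : ℤ)) = c.tot J := by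
  have hne := c.ne
  let G : ℤ → ℤ → Dg := fun u v => Pi.single c.i u + Pi.single c.j v
  have Gi : ∀ u v, G u v c.i = u := fun u v => by simp [G, hne, hne.symm]
  have Gj : ∀ u v, G u v c.j = v := fun u v => by simp [G, hne, hne.symm]
  have key := c.equi (fun u v => (c.len J (G u v) : ℤ))
    (fun u v => by
      rw [← PointB_len_per c hJ c.βa (G u v)]
      refine congrArg _ (PointB_len_congr c hJ ?_ ?_)
      · rw [Pi.add_apply, Pi.smul_apply, Gi, Gi, c.ai]; rfl
      · rw [Pi.add_apply, Pi.smul_apply, Gj, Gj, c.aj]; simp)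
    (fun u v => by
      rw [← PointB_len_per c hJ c.βb (G u v)]
      refine congrArg _ (PointB_len_congr c hJ ?_ ?_)
      · rw [Pi.add_apply, Pi.smul_apply, Gi, Gi, c.bi]; simp
      · rw [Pi.add_apply, Pi.smul_apply, Gj, Gj, c.bj]; rfl) α
  have e2 : (c.tot J : ℤ) = 343 * ∑ u : Fin 7, ∑ v : Fin 7, (c.len J (G (u : ℕ) (v : ℕ)) : ℤ) := by
    rw [Chart.tot, Nat.cast_mul, Nat.cast_sum]
    simp only [Nat.cast_sum]
    rfl
  refine Nat.cast_injective (R := ℤ) ?_
  rw [e2, ← key, Nat.cast_sum]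
  refine Finset.sum_congr rfl fun β _ => ?_
  exact congrArg _ (PointB_len_congr c hJ (Gi _ _).symm (Gj _ _).symm)

theorem PointB_q (c : Chart) {J : Fam k (KK k)} (hJ : Stable J) (hfin : c.Fin J) (α : Dg) :
    ∀ᶠ s : ℕ in atTop, hf (CC k) (α + s • c.q) = hf (CC k ⊓ c.loc J) (α + s • c.q) + c.tot J := by
  have h1 : ∀ γ : Dg, ∀ᶠ s : ℕ in atTop, Module.finrank k (CC k (γ + s • c.q)) =
      Module.finrank k ↥((CC k ⊓ c.loc J) (γ + s • c.q)) + c.len J γ := fun γ => by
    have := PointB_ev (A := fun s : ℕ => CC k (γ + s • c.q))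
      (fun s t hst => CC_mono (add_le_add le_rfl (nsmul_le_nsmul_left c.q_nonneg hst)))
      (fun s => inferInstance) (L := c.loc (CC k) γ) (N := c.loc J γ) rfl (hfin γ)
    filter_upwards [this] with s hs
    have hqi : c.q c.i = 0 := c.qi
    have hqj : c.q c.j = 0 := c.qj
    rw [Pi.inf_apply, hJ.loc_congr c (α := γ + s • c.q) (α' := γ) (by simp [hqi]) (by simp [hqj])]
    exact hs
  have h2 := (eventually_all (ι := Fin 5 → Fin 7)).mpr fun β => h1 (α + dv fun j => (β j : ℤ))
  filter_upwards [h2] with s hs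
  unfold hf
  rw [← PointB_sum_len c hJ α, ← Finset.sum_add_distrib]
  refine Finset.sum_congr rfl fun β _ => ?_
  rw [add_right_comm]
  exact hs β

/-- A saturated ideal has eventually the local colength.  Recipe: for `J' = CC ⊓ c.loc J` the maps
`CC (α + s q) / J' (α + s q) → c.loc CC α / c.loc J α` are injective and eventually onto; apply this
to the finitely many degrees `α + dv β`, `α + ζ + dv β` and use `hf_dv`, `Chart.equi`
(`len` depends on the chart coordinates modulo `7`: `loc_congr`, `Stable.per` with `βa`, `βb`). -/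
theorem Chart.hf_sat (c : Chart) {J : Fam k (KK k)} (hJ : Stable J) (hle : J ≤ CC k)
    (hfin : c.Fin J) (α : Dg) : ∀ᶠ t : ℕ in atTop,
      hf (CC k) (α + t • ζ) = hf (CC k ⊓ c.loc J) (α + t • ζ) + c.tot J := by
  have hs : Stable (CC k ⊓ c.loc J) := (isLat_CC (k := k)).stable.inf (hJ.loc c)
  obtain ⟨n0, h0⟩ := eventually_atTop.mp (PointB_q c hJ hfin α)
  obtain ⟨n1, h1⟩ := eventually_atTop.mp (PointB_q c hJ hfin (α + ζ))
  have e : ∀ (γ : Dg) (s : ℕ), γ + s • c.q = γ + (2 * s) • ζ + dv ((s : ℤ) • c.βq) := fun γ s => by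
    rw [Chart.q, map_zsmul, smul_add, natCast_zsmul, add_assoc, mul_comm, mul_smul, two_smul,
      two_smul]
  filter_upwards [eventually_ge_atTop (2 * (n0 + n1))] with t ht
  rcases Nat.even_or_odd' t with ⟨s, rfl | rfl⟩
  · have := h0 s (by omega)
    rwa [e, hs.hf_dv, (isLat_CC (k := k)).stable.hf_dv] at this
  · have := h1 s (by omega)
    rw [e, hs.hf_dv, (isLat_CC (k := k)).stable.hf_dv] at this
    rwa [add_smul, one_smul, add_comm _ ζ, ← add_assoc]

theorem IsPr.sat {J : Fam k (KK k)} (h : IsPr J) {c : Chart} (hq : (1 : KK k) ∉ J c.q) :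
    CC k ⊓ c.loc J = J := by
  refine le_antisymm (fun α x hx => ?_) (le_inf h.le (le_loc c J))
  obtain ⟨hx1, hx2⟩ := hx
  obtain ⟨s, hs⟩ := (h.stable.mem_loc c).mp hx2
  induction s with
  | zero => simpa using hs
  | succ s ih =>
    refine ih ?_
    have h1 : x ∈ CC k (α + s • c.q) :=
      CC_mono (le_add_of_nonneg_right (nsmul_nonneg c.q_nonneg s)) hx1
    have h2 : x * 1 ∈ J (α + s • c.q + c.q) := by
      rwa [mul_one, add_assoc, ← succ_nsmul]
    exact (h.prime h1 (one_mem_CC c.q_nonneg) h2).resolve_right hq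

/-- An ideal containing a point prime and the chart monomial is irrelevant.  Recipe: the inclusion
`CC α ≤ CC (α + q)` induces injections modulo `J`, and the total dimensions agree for large `t`,
so `CC (α + q) = J (α + q) ⊔ CC α ≤ J' (α + q)`. -/
theorem IsPr.irr_of_gt {J J' : Fam k (KK k)} (h : IsPr J) (hp : Pt J) {c : Chart}
    (hq : (1 : KK k) ∉ J c.q) (h' : Stable J') (hle' : J' ≤ CC k) (hle : J ≤ J')
    (hq' : (1 : KK k) ∈ J' c.q) : EvEq J' (CC k) := by
  intro α
  have hJfin : ∀ γ, FiniteDimensional k (J γ) := fun γ =>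
    Submodule.finiteDimensional_of_le (h.le γ)
  have hinf : ∀ γ, J (γ + c.q) ⊓ CC k γ = J γ := fun γ => by
    refine le_antisymm (fun x hx => ?_)
      (le_inf (h.stable.mono (le_add_of_nonneg_right c.q_nonneg)) (h.le γ))
    have h2 : x * 1 ∈ J (γ + c.q) := by rw [mul_one]; exact hx.1
    exact (h.prime hx.2 (one_mem_CC c.q_nonneg) h2).resolve_right hq
  have hsup : ∀ γ, J (γ + c.q) ⊔ CC k γ ≤ CC k (γ + c.q) := fun γ =>
    sup_le (h.le _) (CC_mono (le_add_of_nonneg_right c.q_nonneg))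
  have hdim : ∀ γ, Module.finrank k ↥(J (γ + c.q) ⊔ CC k γ) + Module.finrank k (J γ) =
      Module.finrank k (J (γ + c.q)) + Module.finrank k (CC k γ) := fun γ => by
    have := hJfin (γ + c.q)
    rw [← Submodule.finrank_sup_add_finrank_inf_eq (J (γ + c.q)) (CC k γ), hinf]
  have hle1 : ∀ γ, Module.finrank k (J (γ + c.q)) + Module.finrank k (CC k γ) ≤
      Module.finrank k (CC k (γ + c.q)) + Module.finrank k (J γ) := fun γ => by
    rw [← hdim]
    exact Nat.add_le_add_right (Submodule.finrank_mono (hsup γ)) _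
  have e1 := c.hf_sat h.stable h.le (h.chart_fin hp hq) (α - c.q)
  have e2 := c.hf_sat h.stable h.le (h.chart_fin hp hq) α
  rw [h.sat hq] at e1 e2
  filter_upwards [e1, e2] with t h1 h2
  set γ := α - c.q + t • ζ with hγ
  have hα : α + t • ζ = γ + c.q := by rw [hγ]; abel
  rw [hα] at h2 ⊢
  have hsum : ∑ β : Fin 5 → Fin 7, (Module.finrank k (J (γ + (dv fun j => (β j : ℤ)) + c.q)) +
      Module.finrank k (CC k (γ + dv fun j => (β j : ℤ)))) =
      ∑ β : Fin 5 → Fin 7, (Module.finrank k (CC k (γ + (dv fun j => (β j : ℤ)) + c.q)) +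
        Module.finrank k (J (γ + dv fun j => (β j : ℤ)))) := by
    rw [Finset.sum_add_distrib, Finset.sum_add_distrib]
    have hc : ∀ (G : Fam k (KK k)) (δ : Dg), Module.finrank k (G (γ + δ + c.q)) =
        Module.finrank k (G (γ + c.q + δ)) := fun G δ => by rw [add_right_comm]
    simp only [hc]
    change hf J (γ + c.q) + hf (CC k) γ = hf (CC k) (γ + c.q) + hf J γ
    omega
  have h0 := (Finset.sum_eq_sum_iff_of_le fun β _ => hle1 _).mp hsum 0 (Finset.mem_univ _)
  have hz : (dv fun j : Fin 5 => (((0 : Fin 5 → Fin 7) j : ℕ) : ℤ)) = 0 := by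
    rw [← map_zero dv]; rfl
  rw [hz, add_zero, ← hdim] at h0
  have heq : J (γ + c.q) ⊔ CC k γ = CC k (γ + c.q) :=
    Submodule.eq_of_le_of_finrank_eq (hsup γ) (by omega)
  refine le_antisymm (hle' _) ?_
  rw [← heq]
  refine sup_le (hle _) fun x hx => ?_
  simpa using h' hx hq'

theorem IsPr.point_hf {J : Fam k (KK k)} (h : IsPr J) (hp : Pt J) :
    ∃ e : ℕ, ∀ α, ∀ᶠ t : ℕ in atTop, hf (CC k) (α + t • ζ) = hf J (α + t • ζ) + e := by
  rcases h.chart_or_irr with ⟨c, hq⟩ | hi
  · refine ⟨c.tot J, fun α => ?_⟩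
    simpa only [h.sat hq] using c.hf_sat h.stable h.le (h.chart_fin hp hq) α
  · exact ⟨0, fun α => (hi.hf α).mono fun t e => by rw [e, add_zero]⟩

end Crest.Agent.R169
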