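/-
R169/Point: Hilbert functions of points and of their Frobenius powers (part 3 of 3)
-/
import Crest.Agent.R169.PointB

set_option autoImplicit false
set_option linter.unusedSectionVars false
set_option linter.unusedVariables false
set_option linter.unusedSimpArgs false

noncomputable section

namespace Crest.Agent.R169

open MvPolynomial Filter
open scoped Pointwise


variable {k : Type} [Field k]

variable {p : ℕ} [Fact p.Prime] [CharP k p] [PerfectRing k p]

/-- A semilinear and a linear surjection with the same kernel have images of the same rank. -/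
theorem Point_rank_eq {M N P : Type} [AddCommGroup M] [Module k M] [AddCommGroup N] [Module k N]
    [AddCommGroup P] [Module k P] (σ : k → k) (hσ : Function.Bijective σ) (f : M →+ N)
    (hf : Function.Surjective f) (hfs : ∀ a m, f (a • m) = σ a • f m) (g : M →ₗ[k] P)
    (hg : Function.Surjective g) (hker : ∀ m, g m = 0 ↔ f m = 0) :
    Module.rank k P = Module.rank k N := by
  obtain ⟨j, hj⟩ : ∃ j : P →+ N, ∀ m, j (g m) = f m :=
    ⟨g.toAddMonoidHom.liftOfSurjective hg ⟨f, fun m hm => (hker m).1 hm⟩, fun m =>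
      AddMonoidHom.liftOfRightInverse_comp_apply g.toAddMonoidHom _ _ _ m⟩
  have hb : Function.Bijective j := by
    refine ⟨(injective_iff_map_eq_zero j).2 fun x hx => ?_, fun y => ?_⟩
    · obtain ⟨m, rfl⟩ := hg x
      exact (hker m).2 (hj m ▸ hx)
    · obtain ⟨m, rfl⟩ := hf y
      exact ⟨g m, hj m⟩
  refine rank_eq_of_equiv_equiv σ (AddEquiv.ofBijective j hb) hσ fun a x => ?_
  obtain ⟨m, rfl⟩ := hg x
  change j (a • g m) = σ a • j (g m)
  rw [← map_smul, hj, hj, hfs]

theorem Point_pull_le {J : Fam k (KK k)} (hle : J ≤ CC k) :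
    pull (fun f : KK k => f ^ p) p J ≤ CC k := by
  refine gen_le isLat_CC.stable ?_
  rintro _ ⟨α, x, hx, rfl⟩
  exact pow_mem_CC (hle α hx) p

theorem Point_rank (c : Chart) {J : Fam k (KK k)} (hJ : Stable J) (α : Dg) :
    Module.rank k (∀ st : Fin p × Fin p, ↥(c.loc (CC k) (c.dn p α st)) ⧸
      (c.loc J (c.dn p α st)).submoduleOf (c.loc (CC k) (c.dn p α st))) =
    Module.rank k (↥(c.loc (CC k) α) ⧸
      (c.loc (pull (fun f : KK k => f ^ p) p J) α).submoduleOf (c.loc (CC k) α)) := by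
  have := charP_KK (k := k) (p := p)
  have hmem : ∀ x : ∀ st : Fin p × Fin p, ↥(c.loc (CC k) (c.dn p α st)),
      ∑ st, c.e k p st * (x st : KK k) ^ p ∈ c.loc (CC k) α := fun x =>
    loc_mono c (Point_pull_le (p := p) le_rfl) α
      ((isFrob_pow.mem_loc_pull isLat_CC.stable c).2 ⟨fun st => x st, fun st => (x st).2, rfl⟩)
  let Φ : (∀ st : Fin p × Fin p, ↥(c.loc (CC k) (c.dn p α st))) →+ ↥(c.loc (CC k) α) :=
    AddMonoidHom.mk' (fun x => ⟨_, hmem x⟩) fun x y => Subtype.ext (by
      simp only [Pi.add_apply, Submodule.coe_add, add_pow_char, mul_add, Finset.sum_add_distrib])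
  have hΦ : ∀ x, (Φ x : KK k) = ∑ st, c.e k p st * (x st : KK k) ^ p := fun _ => rfl
  refine Point_rank_eq (frobenius k p) (bijective_frobenius k p)
    (((c.loc (pull (fun f : KK k => f ^ p) p J) α).submoduleOf
      (c.loc (CC k) α)).mkQ.toAddMonoidHom.comp Φ) ?_ (fun a m => ?_)
    (LinearMap.pi fun st => (Submodule.mkQ _).comp (LinearMap.proj st)) (fun y => ?_)
    fun m => ?_
  · refine (Submodule.mkQ_surjective _).comp fun y => ?_
    obtain ⟨g, hg, e⟩ := c.decomp (p := p) y.2
    exact ⟨fun st => ⟨g st, hg st⟩, Subtype.ext e.symm⟩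
  · have e : Φ (a • m) = frobenius k p a • Φ m := Subtype.ext (by
      rw [Submodule.coe_smul, hΦ, hΦ, Finset.smul_sum]
      refine Finset.sum_congr rfl fun st _ => ?_
      rw [Pi.smul_apply, Submodule.coe_smul, _root_.smul_pow, frobenius_def, mul_smul_comm])
    change Submodule.mkQ _ (Φ (a • m)) = _ • Submodule.mkQ _ (Φ m)
    rw [e, map_smul]
  · choose x hx using fun st => Submodule.mkQ_surjective _ (y st)
    exact ⟨x, funext hx⟩
  · have e1 : (LinearMap.pi fun st => (Submodule.mkQ ((c.loc J (c.dn p α st)).submoduleOf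
        (c.loc (CC k) (c.dn p α st)))).comp (LinearMap.proj st)) m = 0 ↔
        ∀ st, (m st : KK k) ∈ c.loc J (c.dn p α st) := by
      rw [funext_iff]
      exact forall_congr' fun st => Submodule.Quotient.mk_eq_zero _
    refine e1.trans (Iff.trans ?_ (Submodule.Quotient.mk_eq_zero _).symm)
    change _ ↔ (Φ m : KK k) ∈ c.loc (pull (fun f : KK k => f ^ p) p J) α
    rw [isFrob_pow.mem_loc_pull hJ c, hΦ]
    refine ⟨fun h => ⟨fun st => m st, h, rfl⟩, ?_⟩
    rintro ⟨x, hx, e⟩ st
    have h0 := c.pind (p := p) (fun st => (m st : KK k) - x st) (by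
      simp only [sub_pow_char, mul_sub, Finset.sum_sub_distrib]
      exact sub_eq_zero.2 e) st
    rw [sub_eq_zero.1 h0]
    exact hx st

/-- Recipe: by `decomp`, `mem_loc_pull`, `pind` the quotient in degree `α` is the direct sum of the
Frobenius twists of the quotients in the degrees `dn p α st` (a `k`-basis `b` of these gives the
basis `e st * b ^ p` because `k` is perfect). -/
theorem Chart.len_pull (c : Chart) {J : Fam k (KK k)} (hJ : Stable J) (hle : J ≤ CC k)
    (hfin : c.Fin J) : c.Fin (pull (fun f : KK k => f ^ p) p J) ∧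
      ∀ α, c.len (pull (fun f : KK k => f ^ p) p J) α = ∑ st, c.len J (c.dn p α st) := by
  refine ⟨fun α => ?_, fun α => ?_⟩
  · have := fun st : _root_.Fin p × _root_.Fin p => hfin (c.dn p α st)
    refine Module.rank_lt_aleph0_iff.1 ?_
    rw [← Point_rank c hJ α]
    exact Module.rank_lt_aleph0 _ _
  · have := fun st : _root_.Fin p × _root_.Fin p => hfin (c.dn p α st)
    unfold Chart.len
    rw [← Module.finrank_pi_fintype k, Module.finrank, Module.finrank, Point_rank c hJ α]

theorem Point_sum_range (a b : ℕ) (f : ℕ → ℕ) :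
    ∑ n ∈ Finset.range (a * b), f n = ∑ i : Fin a, ∑ j : Fin b, f (j + b * i) := by
  rw [← Fin.sum_univ_eq_sum_range, ← finProdFinEquiv.sum_comp, Fintype.sum_prod_type]
  rfl

theorem Point_sum (F : ℤ → ℕ) :
    ∑ u : Fin 7, ∑ s : Fin p, F ((((u : ℕ) : ℤ) + 7 * (s : ℕ)) / p) =
      p * ∑ u : Fin 7, F (u : ℕ) := by
  have hp : 0 < p := (Fact.out : p.Prime).pos
  have h1 := Point_sum_range p 7 fun n => F ((n / p : ℕ) : ℤ)
  have h2 := Point_sum_range 7 p fun n => F ((n / p : ℕ) : ℤ)
  rw [mul_comm 7 p, h1] at h2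
  rw [Finset.sum_comm, Finset.mul_sum]
  refine Eq.trans (Finset.sum_congr rfl fun s _ => Finset.sum_congr rfl fun u _ => ?_)
    (h2.trans (Finset.sum_congr rfl fun u _ => ?_))
  · push_cast
    rfl
  · rw [Finset.sum_congr rfl (g := fun _ => F (u : ℕ)) fun j _ => by
      rw [Nat.add_mul_div_left _ _ hp, Nat.div_eq_of_lt j.2, zero_add]]
    simp

/-- Recipe: `∑_{u<7} ∑_{s<p} F ((u + 7 s) / p) = p ∑_{u<7} F u`. -/
theorem Chart.tot_pull (c : Chart) {J : Fam k (KK k)} (hJ : Stable J) (hle : J ≤ CC k)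
    (hfin : c.Fin J) : c.tot (pull (fun f : KK k => f ^ p) p J) = p ^ 2 * c.tot J := by
  obtain ⟨F, hF⟩ : ∃ F : ℤ → ℤ → ℕ, ∀ x y, F x y = c.len J (Pi.single c.i x + Pi.single c.j y) :=
    ⟨_, fun _ _ => rfl⟩
  have h1 : ∀ x y : ℤ, c.len (pull (fun f : KK k => f ^ p) p J) (Pi.single c.i x + Pi.single c.j y) =
      ∑ s : _root_.Fin p, ∑ t : _root_.Fin p,
        F ((x + 7 * (s : ℕ)) / p) ((y + 7 * (t : ℕ)) / p) := by
    intro x y
    rw [(c.len_pull hJ hle hfin).2, Fintype.sum_prod_type]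
    refine Finset.sum_congr rfl fun s _ => Finset.sum_congr rfl fun t _ => ?_
    rw [hF, Chart.dn]
    simp [c.ne, c.ne.symm]
  unfold Chart.tot
  simp only [h1, ← hF]
  have h2 : ∀ u : _root_.Fin 7, ∑ v : _root_.Fin 7, ∑ s : _root_.Fin p, ∑ t : _root_.Fin p,
      F ((((u : ℕ) : ℤ) + 7 * (s : ℕ)) / p) ((((v : ℕ) : ℤ) + 7 * (t : ℕ)) / p) =
      ∑ s : _root_.Fin p, p * ∑ v : _root_.Fin 7, F ((((u : ℕ) : ℤ) + 7 * (s : ℕ)) / p) (v : ℕ) := by
    intro u
    rw [Finset.sum_comm]
    exact Finset.sum_congr rfl fun s _ => Point_sum (F _)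
  rw [Finset.sum_congr rfl fun u _ => h2 u,
    Point_sum fun x => p * ∑ v : _root_.Fin 7, F x (v : ℕ), ← Finset.mul_sum]
  ring

theorem Point_le_colon {J F : Fam k (KK k)} (hle : J ≤ CC k) (hF : Stable F)
    (hJF : pull (fun f : KK k => f ^ p) p J ≤ F) {x : KK k} {α : Dg} (hx : x ∈ CC k α)
    (hP : IsPr (colon F x α)) : J ≤ colon F x α := by
  intro β f hf
  refine hP.of_pow (hle β hf) (n := p) (mem_colon.2 ⟨pow_mem_CC (hle β hf) p, ?_⟩)
  have := hF hx (hJF _ (mem_pull (φ := fun f : KK k => f ^ p) (p := p) hf))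
  rwa [smul_eq_mul, mul_comm, add_comm] at this

/-- Recipe.  Irrelevant case: `e = 0` and every prime of a dévissage from `J^[p]` to `CC` contains
`J` (`of_pow`), so it is irrelevant.  Chart case: `e = c.tot J`; the primes of a dévissage from
`J^[p]` to `CC ⊓ c.loc J^[p]` contain `J` and `q`, so `irr_of_gt`, `evEq_of_primes`, `hf_sat`,
`tot_pull`. -/
theorem IsPr.point_hf_pull {J : Fam k (KK k)} (h : IsPr J) (hp : Pt J) {e : ℕ}
    (he : ∀ α, ∀ᶠ t : ℕ in atTop, hf (CC k) (α + t • ζ) = hf J (α + t • ζ) + e) (α : Dg) :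
    ∀ᶠ t : ℕ in atTop, hf (CC k) (α + t • ζ) =
      hf (pull (fun f : KK k => f ^ p) p J) (α + t • ζ) + p ^ 2 * e := by
  have hlat : IsLat (pull (fun f : KK k => f ^ p) p J) := isFrob_pow.isLat h.isLat
  have hle : pull (fun f : KK k => f ^ p) p J ≤ CC k := Point_pull_le h.le
  rcases h.chart_or_irr with ⟨c, hq⟩ | hi
  · have hfin := h.chart_fin hp hq
    have he' : e = c.tot J := by
      have h1 := c.hf_sat h.stable h.le hfin 0
      rw [h.sat hq] at h1
      obtain ⟨t, h2, h3⟩ := ((he 0).and h1).exists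
      omega
    have hev : EvEq (pull (fun f : KK k => f ^ p) p J)
        (CC k ⊓ c.loc (pull (fun f : KK k => f ^ p) p J)) := by
      refine evEq_of_primes hlat (isLat_CC.sub (isLat_CC.stable.inf (hlat.stable.loc c))
        inf_le_left) (le_inf hle (le_loc c _)) fun F x β hF hJF _ hx hP => ?_
      refine h.irr_of_gt hp hq hP.stable hP.le (Point_le_colon h.le hF.stable hJF hx.1 hP) ?_
      obtain ⟨s, hs⟩ := (hlat.stable.mem_loc c).1 hx.2
      refine hP.of_pow (one_mem_CC c.q_nonneg) (n := s)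
        (mem_colon.2 ⟨pow_mem_CC (one_mem_CC c.q_nonneg) s, ?_⟩)
      rw [one_pow, one_smul, add_comm, natCast_zsmul]
      exact hJF _ hs
    filter_upwards [c.hf_sat hlat.stable hle (c.len_pull h.stable h.le hfin).1 α, hev.hf α]
      with t h1 h2
    rw [h1, h2, c.tot_pull h.stable h.le hfin, he']
  · have he' : e = 0 := by
      obtain ⟨t, h2, h3⟩ := ((he 0).and (hi.hf 0)).exists
      omega
    have hev : EvEq (pull (fun f : KK k => f ^ p) p J) (CC k) := by
      refine evEq_of_primes hlat isLat_CC hle fun F x β hF hJF _ hx hP γ => ?_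
      filter_upwards [hi γ] with t ht
      exact le_antisymm (hP.le _) (ht ▸ Point_le_colon h.le hF.stable hJF hx hP _)
    filter_upwards [hev.hf α] with t ht
    rw [ht, he', mul_zero, add_zero]

end Crest.Agent.R169
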