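/-
R169/RRA: Riemann-Roch for lattices and their Frobenius pull-backs; the reflexive hull (part 1 of 5)
-/
import Crest.Agent.R169.Point

set_option autoImplicit false
set_option linter.unusedSectionVars false
set_option linter.unusedVariables false
set_option linter.unusedSimpArgs false

noncomputable section

namespace Crest.Agent.R169

open MvPolynomial Filter
open scoped Pointwise


variable {k : Type} [Field k] {V V' : Type} [AddCommGroup V] [Module k V] [Module (KK k) V]
  [IsScalarTower k (KK k) V] [AddCommGroup V'] [Module k V'] [Module (KK k) V']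
  [IsScalarTower k (KK k) V']

/-- One step along a divisor (`hf_step`, `hf_gen_single`, `hp_CC`). -/
theorem HP.step_div {F : Fam k V} (hF : IsLat F) {r : ℕ} {c : Ex} {s : ℤ} (h : HP F r c s) (x : V)
    (α : Dg) {g : KK k} {δ : Dg} (hg : g ≠ 0) (e : EvEq (gen k {(g, δ)}) (colon F x α)) :
    HP (F ⊔ gen k {(x, α)}) r (c + cl δ)
      (s - 343 * (2 * ip (cl δ) (cl α) + ip (cl δ) (cl δ))) := by
  intro γ
  filter_upwards [h γ, e.hf (γ - α), hp_CC (k := k) (γ - α), hp_CC (k := k) (γ - α - δ)] with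
    t h1 h2 h3 h4
  have h5 := hf_step hF.fin x α (γ + t • ζ)
  rw [hf_gen_single hg, show γ - α + t • ζ - δ = γ - α - δ + t • ζ by abel] at h2
  rw [show γ + t • ζ - α = γ - α + t • ζ by abel, ← h2] at h5
  have e1 : cl (γ - α + t • ζ) = cl (γ + t • ζ) - cl α := by
    rw [← map_sub, show γ - α + t • ζ = γ + t • ζ - α by abel]
  have e2 : cl (γ - α - δ + t • ζ) = cl (γ + t • ζ) - cl α - cl δ := by
    rw [← map_sub, ← map_sub, show γ - α - δ + t • ζ = γ + t • ζ - α - δ by abel]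
  rw [e1] at h3
  rw [e2] at h4
  have h6 := congrArg (Nat.cast : ℕ → ℤ) h5
  push_cast at h6
  generalize cl (γ + t • ζ) = D at h1 h3 h4 ⊢
  simp only [chi, ip_add_left, ip_sub_left, ip_sub_right, ip_smul_right, ip_zero_left,
    ip_comm D (cl α), ip_comm D (cl δ), ip_comm (cl α) (cl δ), Nat.cast_one] at h1 h3 h4 ⊢
  linarith

/-- One step at a point. -/
theorem HP.step_pt {F : Fam k V} (hF : IsLat F) {r : ℕ} {c : Ex} {s : ℤ} (h : HP F r c s) (x : V)
    (α : Dg) {e : ℕ} (he : ∀ γ, ∀ᶠ t : ℕ in atTop,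
      hf (CC k) (γ + t • ζ) = hf (colon F x α) (γ + t • ζ) + e) :
    HP (F ⊔ gen k {(x, α)}) r c (s + 2 * e) := by
  intro γ
  filter_upwards [h γ, he (γ - α)] with t h1 h2
  have h5 := hf_step hF.fin x α (γ + t • ζ)
  rw [show γ + t • ζ - α = γ - α + t • ζ by abel, h2] at h5
  have h6 : hf (F ⊔ gen k {(x, α)}) (γ + t • ζ) = hf F (γ + t • ζ) + e := by omega
  rw [h6]
  push_cast
  linarith

/-- Recipe: dévissage from the free lattice of `exists_free` (`hp_gen_free`); the annihilators are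
nonzero by `Stable.exists_den`; `IsPr.cases`. -/
theorem IsLat.exists_hp {G : Fam k V} (h : IsLat G) : ∃ c s, HP G (rk G) c s := by
  obtain ⟨γ, x, hx, hind, hspan⟩ := h.exists_free
  have h0 : IsLat (gen k (Set.range fun i => (x i, γ))) := isLat_gen (Set.finite_range _)
  have hle : gen k (Set.range fun i => (x i, γ)) ≤ G :=
    gen_le h.stable (by rintro _ ⟨i, rfl⟩; exact hx i)
  have hs : spn (gen k (Set.range fun i => (x i, γ))) = spn G := by
    rw [spn_gen, ← Set.range_comp, ← hspan]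
    rfl
  refine devissage h0 h hle (fun F => ∃ c s, HP F (rk G) c s) ⟨_, _, hp_gen_free hind γ⟩ ?_
  rintro F y α hF h1 - hy hP ⟨c, s, hcs⟩
  obtain ⟨u, β, hu0, hu, huy⟩ := hF.stable.exists_den (spn_mono h1 (hs ▸ mem_spn hy)) α
  rcases hP.cases (f := u) (α := β) ⟨hu, huy⟩ hu0 with ⟨π, g, δ, hg, e⟩ | hp
  · exact ⟨_, _, hcs.step_div hF y α hg.1 (δ := δ) fun _ => Eventually.of_forall fun _ => by rw [e]⟩
  · obtain ⟨e, he⟩ := hP.point_hf hp
    exact ⟨_, _, hcs.step_pt hF y α he⟩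

theorem IsLat.rr {G : Fam k V} (h : IsLat G) : HP G (rk G) (cc G) (ss G) := by
  obtain ⟨c, s, hcs⟩ := h.exists_hp
  exact Classical.epsilon_spec (p := fun p : Ex × ℤ => HP G (rk G) p.1 p.2) ⟨(c, s), hcs⟩

theorem HP.eq {G : Fam k V} (hG : IsLat G) {r : ℕ} {c : Ex} {s : ℤ} (h : HP G r c s) :
    rk G = r ∧ cc G = c ∧ ss G = s := hG.rr.unique h

end Crest.Agent.R169
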