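/-
R169/RRB: Riemann-Roch for lattices and their Frobenius pull-backs; the reflexive hull (part 2 of 5)
-/
import Crest.Agent.R169.RRA

set_option autoImplicit false
set_option linter.unusedSectionVars false
set_option linter.unusedVariables false
set_option linter.unusedSimpArgs false

noncomputable section

namespace Crest.Agent.R169

open MvPolynomial Filter
open scoped Pointwise


variable {k : Type} [Field k] {V V' : Type} [AddCommGroup V] [Module k V] [Module (KK k) V]
  [IsScalarTower k (KK k) V] [AddCommGroup V'] [Module k V'] [Module (KK k) V']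
  [IsScalarTower k (KK k) V']

/-- Recipe: the same dévissage, with `pull_gen`, `pull_step`, `colon_pull`, `point_hf_pull`. -/
theorem IsFrob.rr {p : ℕ} [Fact p.Prime] [CharP k p] [PerfectRing k p] {φ : V → V}
    (hφ : IsFrob k p φ) {G : Fam k V} (h : IsLat G) :
    HP (pull φ p G) (rk G) ((p : ℤ) • cc G) (p ^ 2 * ss G) := by
  obtain ⟨γ, x, hx, hind, hspan⟩ := h.exists_free
  have h0 : IsLat (gen k (Set.range fun i => (x i, γ))) := isLat_gen (Set.finite_range _)
  have hle : gen k (Set.range fun i => (x i, γ)) ≤ G :=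
    gen_le h.stable (by rintro _ ⟨i, rfl⟩; exact hx i)
  have hs : spn (gen k (Set.range fun i => (x i, γ))) = spn G := by
    rw [spn_gen, ← Set.range_comp, ← hspan]
    rfl
  have hp0 : p ≠ 0 := (Fact.out : p.Prime).ne_zero
  have key : ∃ c s, HP G (rk G) c s ∧ HP (pull φ p G) (rk G) ((p : ℤ) • c) (p ^ 2 * s) := by
    refine devissage h0 h hle
      (fun F => ∃ c s, HP F (rk G) c s ∧ HP (pull φ p F) (rk G) ((p : ℤ) • c) (p ^ 2 * s))
      ⟨_, _, hp_gen_free hind γ, ?_⟩ ?_
    · rw [hφ.pull_gen, ← Set.range_comp]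
      have h1 := hp_gen_free (hφ.linearIndependent hind) ((p : ℤ) • γ)
      have e1 : -(((rk G : ℕ) : ℤ) • cl ((p : ℤ) • γ)) = (p : ℤ) • -(((rk G : ℕ) : ℤ) • cl γ) := by
        rw [map_zsmul, smul_neg, smul_comm]
      have e2 : 343 * ((rk G : ℕ) : ℤ) * ip (cl ((p : ℤ) • γ)) (cl ((p : ℤ) • γ)) =
          p ^ 2 * (343 * ((rk G : ℕ) : ℤ) * ip (cl γ) (cl γ)) := by
        rw [map_zsmul, ip_smul_left, ip_smul_right]; ring
      rw [e1, e2] at h1
      exact h1
    · rintro F y α hF h1 - hy hP ⟨c, s, hcs, hcs'⟩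
      obtain ⟨u, β, hu0, hu, huy⟩ := hF.stable.exists_den (spn_mono h1 (hs ▸ mem_spn hy)) α
      have hcp := hφ.colon_pull hF y α
      rcases hP.cases (f := u) (α := β) ⟨hu, huy⟩ hu0 with ⟨π, g, δ, hg, e⟩ | hp
      · refine ⟨_, _, hcs.step_div hF y α hg.1 (δ := δ)
          (fun _ => Eventually.of_forall fun _ => by rw [e]), ?_⟩
        rw [hφ.pull_step hF]
        rw [e, (isFrob_pow (k := k) (p := p)).pull_gen, Set.image_singleton] at hcp
        have h2 := hcs'.step_div (hφ.isLat hF) (φ y) ((p : ℤ) • α) (pow_ne_zero p hg.1) hcp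
        have e1 : (p : ℤ) • c + cl ((p : ℤ) • δ) = (p : ℤ) • (c + cl δ) := by
          rw [map_zsmul, smul_add]
        have e2 : (p : ℤ) ^ 2 * s - 343 * (2 * ip (cl ((p : ℤ) • δ)) (cl ((p : ℤ) • α)) +
            ip (cl ((p : ℤ) • δ)) (cl ((p : ℤ) • δ))) =
            p ^ 2 * (s - 343 * (2 * ip (cl δ) (cl α) + ip (cl δ) (cl δ))) := by
          rw [map_zsmul, map_zsmul, ip_smul_left, ip_smul_left, ip_smul_right, ip_smul_right]; ring
        rw [← e1, ← e2]
        exact h2
      · obtain ⟨e, he⟩ := hP.point_hf hp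
        refine ⟨_, _, hcs.step_pt hF y α he, ?_⟩
        rw [hφ.pull_step hF]
        have h2 := hcs'.step_pt (hφ.isLat hF) (φ y) ((p : ℤ) • α) (e := p ^ 2 * e) (fun γ' => by
          filter_upwards [hP.point_hf_pull (p := p) hp he γ', hcp.hf γ'] with t h3 h4
          rw [h3, h4])
        have e2 : (p : ℤ) ^ 2 * s + 2 * ((p ^ 2 * e : ℕ) : ℤ) = p ^ 2 * (s + 2 * e) := by
          push_cast; ring
        rw [← e2]
        exact h2
  obtain ⟨c, s, hcs, hcs'⟩ := key
  obtain ⟨-, e1, e2⟩ := hcs.eq h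
  rw [e1, e2]
  exact hcs'

end Crest.Agent.R169
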