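/-
R169/RRC: Riemann-Roch for lattices and their Frobenius pull-backs; the reflexive hull (part 3 of 5)
-/
import Crest.Agent.R169.RRB

set_option autoImplicit false
set_option linter.unusedSectionVars false
set_option linter.unusedVariables false
set_option linter.unusedSimpArgs false

noncomputable section

namespace Crest.Agent.R169

open MvPolynomial Filter
open scoped Pointwise


variable {k : Type} [Field k] {V V' : Type} [AddCommGroup V] [Module k V] [Module (KK k) V]
  [IsScalarTower k (KK k) V] [AddCommGroup V'] [Module k V'] [Module (KK k) V']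
  [IsScalarTower k (KK k) V']

/-! ### Additivity and comparison -/

theorem IsLat.add {G : Fam k V} (h : IsLat G) (ψ : V →ₗ[KK k] V') :
    cc G = cc (R169.cut G (LinearMap.ker ψ)) + cc (R169.img ψ G) ∧
      ss G = ss (R169.cut G (LinearMap.ker ψ)) + ss (R169.img ψ G) := by
  have H : HP G (rk (R169.cut G (LinearMap.ker ψ)) + rk (R169.img ψ G))
      (cc (R169.cut G (LinearMap.ker ψ)) + cc (R169.img ψ G))
      (ss (R169.cut G (LinearMap.ker ψ)) + ss (R169.img ψ G)) :=
    (h.cut (LinearMap.ker ψ)).rr.add (h.img ψ).rr (hf_cut_img h.fin ψ)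
  exact (HP.eq h H).2

theorem IsLat.mm_add {G : Fam k V} (h : IsLat G) (ψ : V →ₗ[KK k] V') :
    mm G = mm (R169.cut G (LinearMap.ker ψ)) + mm (R169.img ψ G) := by
  rw [mm, (h.add ψ).1, ip_add_left]; rfl

theorem IsLat.img_inj {G : Fam k V} (h : IsLat G) {ψ : V →ₗ[KK k] V'}
    (hψ : ∀ x ∈ spn G, ψ x = 0 → x = 0) :
    rk (R169.img ψ G) = rk G ∧ cc (R169.img ψ G) = cc G ∧ ss (R169.img ψ G) = ss G := by
  exact (h.rr.congr fun α => Eventually.of_forall fun t => hf_img_of_inj hψ _).eq (h.img ψ)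

theorem IsLat.shf_eq {G : Fam k V} (h : IsLat G) (δ : Dg) :
    rk (R169.shf G δ) = rk G ∧ cc (R169.shf G δ) = cc G + (rk G : ℤ) • cl δ ∧
      ss (R169.shf G δ) = ss G + 343 * (2 * ip (cc G) (cl δ) + rk G * ip (cl δ) (cl δ)) :=
  (h.rr.shf δ).eq (h.shf δ)

theorem IsLat.of_rk_zero {G : Fam k V} (h : IsLat G) (h0 : rk G = 0) : cc G = 0 ∧ ss G = 0 := by
  have H : HP G 0 0 0 := by
    rw [h.eq_bot_of_rk h0]
    intro α
    refine Eventually.of_forall fun t => ?_
    have : hf (⊥ : Fam k V) (α + t • ζ) = 0 := by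
      unfold hf
      refine Finset.sum_eq_zero fun β _ => ?_
      exact finrank_bot k V
    rw [this, ip_zero_left]
    simp
  exact (HP.eq h H).2

theorem mm_le_of_le {F G : Fam k V} (hF : IsLat F) (hG : IsLat G) (h : F ≤ G) (hr : rk F = rk G) :
    mm F ≤ mm G := by
  have H : HP G (rk F) (cc G) (ss G) := by rw [hr]; exact hG.rr
  have := HP.le_lin hF.rr H (α := 0) (α' := 0)
    (Eventually.of_forall fun t => hf_mono h hG.fin _)
  unfold mm
  linarith

theorem mm_gen_single {x : V} (hx : x ≠ 0) (α : Dg) : mm (gen k {(x, α)}) = -deg α := by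
  have H := ((hp_CC (k := k)).shf (-α)).congr (G' := gen k {(x, α)}) fun γ =>
    Eventually.of_forall fun t => by rw [hf_gen_single hx, hf_shf, sub_eq_add_neg]
  have := (HP.eq (isLat_gen (Set.finite_singleton _)) H).2.1
  rw [mm, this, zero_add, Nat.cast_one, one_smul, ip_cl_Lc, deg_neg]

end Crest.Agent.R169
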