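/-
R169/RRD: Riemann-Roch for lattices and their Frobenius pull-backs; the reflexive hull (part 4 of 5)
-/
import Crest.Agent.R169.RRC

set_option autoImplicit false
set_option linter.unusedSectionVars false
set_option linter.unusedVariables false
set_option linter.unusedSimpArgs false

noncomputable section

namespace Crest.Agent.R169

open MvPolynomial Filter
open scoped Pointwise


variable {k : Type} [Field k] {V V' : Type} [AddCommGroup V] [Module k V] [Module (KK k) V]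
  [IsScalarTower k (KK k) V] [AddCommGroup V'] [Module k V'] [Module (KK k) V']
  [IsScalarTower k (KK k) V']

theorem RRD_hp_CCr (r : ℕ) : HP (CCr k (Fin r)) r 0 0 := fun α => by
  filter_upwards [hp_CC (k := k) α] with t ht
  rw [hf_CCr]
  push_cast
  simp only [ip_zero_left, Nat.cast_one] at ht ⊢
  linear_combination (r : ℤ) * ht

theorem RRD_mm_shf {G : Fam k V} (h : IsLat G) (δ : Dg) :
    mm (R169.shf G δ) = mm G + rk G * deg δ := by
  rw [mm, (h.shf_eq δ).2.1, ip_add_left, ip_smul_left, ip_cl_Lc]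
  rfl

theorem RRD_mm_img {G : Fam k V} (h : IsLat G) {ψ : V →ₗ[KK k] V'}
    (hψ : ∀ x ∈ spn G, ψ x = 0 → x = 0) : mm (R169.img ψ G) = mm G := by
  rw [mm, (h.img_inj hψ).2.1]
  rfl

/-- Recipe: project to the pivot coordinates of `exists_rref (spn G)`; `HP.le_lin`. -/
theorem mm_nonpos {r : ℕ} {G : Fam k (Fin r → KK k)} (hG : IsLat G) (h : G ≤ CCr k (Fin r)) :
    mm G ≤ 0 := by
  obtain ⟨ι, y, hy, hspan⟩ := exists_rref (spn G)
  set ψ : (Fin r → KK k) →ₗ[KK k] (Fin (rk G) → KK k) := LinearMap.funLeft (KK k) (KK k) ι with hψ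
  have hinj : ∀ x ∈ spn G, ψ x = 0 → x = 0 := fun x hx h0 => by
    rw [← hspan] at hx
    obtain ⟨c, rfl⟩ := (Submodule.mem_span_range_iff_exists_fun _).1 hx
    have hc : ∀ j, c j = 0 := fun j => by
      have h1 : (∑ i, c i • y i) (ι j) = 0 := congrFun h0 j
      simpa [Finset.sum_apply, hy] using h1
    simp [hc]
  have hle : img ψ G ≤ CCr k (Fin (rk G)) := fun α z hz => by
    obtain ⟨x, hx, rfl⟩ := mem_img.1 hz
    exact mem_CCr.2 fun i => mem_CCr.1 (h α hx) (ι i)
  have h1 := hG.rr.le_lin (RRD_hp_CCr (k := k) (rk G)) (α := 0) (α' := 0)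
    (Eventually.of_forall fun t => by
      rw [← hf_img_of_inj hinj]
      exact hf_mono hle (isLat_CCr _).fin _)
  rw [ip_zero_left] at h1
  exact le_of_add_le_add_left h1

theorem IsLat.mm_cut_bdd {G : Fam k V} (h : IsLat G) : ∃ B : ℤ, ∀ U, mm (R169.cut G U) ≤ B := by
  obtain ⟨δ, ψ, hψ, -, hle⟩ := h.exists_embed
  refine ⟨rk G * |deg δ|, fun U => ?_⟩
  have hF := h.cut U
  have hψ' : ∀ x ∈ spn (R169.cut G U), ψ x = 0 → x = 0 := fun x hx =>
    hψ x (spn_mono (cut_le G U) hx)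
  have h1 : mm (R169.shf (R169.img ψ (R169.cut G U)) δ) ≤ 0 :=
    mm_nonpos ((hF.img ψ).shf δ) fun α =>
      le_trans (Submodule.map_mono (cut_le G U (α + δ))) (hle α)
  rw [RRD_mm_shf (hF.img ψ), RRD_mm_img hF hψ', (hF.img_inj hψ').1] at h1
  have h2 : (rk (R169.cut G U) : ℤ) ≤ rk G := by exact_mod_cast h.rk_mono (cut_le G U)
  have h3 := mul_le_mul_of_nonneg_right h2 (abs_nonneg (deg δ))
  have h4 := mul_le_mul_of_nonneg_left (neg_le_abs (deg δ))
    (Nat.cast_nonneg (α := ℤ) (rk (R169.cut G U)))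
  linarith

theorem SS.img_inj {G : Fam k V} (hG : IsLat G) (h : SS G) {ψ : V →ₗ[KK k] V'}
    (hψ : ∀ x ∈ spn G, ψ x = 0 → x = 0) : SS (img ψ G) := by
  intro U
  have hF := hG.cut (U.comap ψ)
  have hψ' : ∀ x ∈ spn (R169.cut G (U.comap ψ)), ψ x = 0 → x = 0 := fun x hx =>
    hψ x (spn_mono (cut_le G _) hx)
  rw [← img_cut_comap, RRD_mm_img hF hψ', RRD_mm_img hG hψ, (hF.img_inj hψ').1,
    (hG.img_inj hψ).1]
  exact h _

theorem SS.shf {G : Fam k V} (hG : IsLat G) (h : SS G) (δ : Dg) : SS (shf G δ) := by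
  intro U
  have hF := hG.cut U
  have e : R169.cut (R169.shf G δ) U = R169.shf (R169.cut G U) δ := rfl
  rw [e, RRD_mm_shf hF, RRD_mm_shf hG, (hF.shf_eq δ).1, (hG.shf_eq δ).1]
  have := h U
  linarith

/-- The values along the ray. -/
theorem IsLat.ray {G : Fam k V} (h : IsLat G) : ∀ᶠ t : ℕ in atTop, 2 * (hf G (t • ζ) : ℤ) =
    343 * (rk G * (28 + 5 * (t : ℤ) ^ 2 - 25 * t) + (2 * t - 5) * mm G) + ss G := by
  filter_upwards [h.rr 0] with t ht
  rw [hp_rhs, zero_add] at ht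
  rw [ht, map_zero, smul_zero, zero_sub, ip_neg_right, ip_smul_right, deg_zero, chi]
  simp only [ip_zero_left, mm]
  ring

end Crest.Agent.R169
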