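/-
R169/RR: Riemann-Roch for lattices and their Frobenius pull-backs; the reflexive hull (part 5 of 5)
-/
import Crest.Agent.R169.RRD

set_option autoImplicit false
set_option linter.unusedSectionVars false
set_option linter.unusedVariables false
set_option linter.unusedSimpArgs false

noncomputable section

namespace Crest.Agent.R169

open MvPolynomial Filter
open scoped Pointwise


variable {k : Type} [Field k] {V V' : Type} [AddCommGroup V] [Module k V] [Module (KK k) V]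
  [IsScalarTower k (KK k) V] [AddCommGroup V'] [Module k V'] [Module (KK k) V']
  [IsScalarTower k (KK k) V']

/-! ### The hull -/

theorem RR_val_one (π : Pr k) : val π (1 : KK k) 0 = 0 := by
  simpa using val_const π (one_ne_zero (α := k))

theorem Stable.mem_hull {G : Fam k V} (h : Stable G) {x : V} {α : Dg} : x ∈ hull G α ↔
    ∀ π : Pr k, ∃ u β, u ∈ CC k β ∧ u ≠ 0 ∧ val π u β = 0 ∧ u • x ∈ G (β + α) := by
  refine ⟨fun hx => ?_, fun hx => Submodule.subset_span hx⟩
  induction hx using Submodule.span_induction with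
  | mem x hx => exact hx
  | zero => exact fun π => ⟨1, 0, one_mem_CC le_rfl, one_ne_zero, RR_val_one π, by simp⟩
  | add x y _ _ hx hy =>
    intro π
    obtain ⟨u, β, h1, h2, h3, h4⟩ := hx π
    obtain ⟨u', β', h1', h2', h3', h4'⟩ := hy π
    refine ⟨u * u', β + β', mul_mem_CC h1 h1', mul_ne_zero h2 h2',
      by rw [val_mul π h2 h2', h3, h3', add_zero], ?_⟩
    rw [smul_add]
    refine Submodule.add_mem _ ?_ ?_
    · rw [mul_comm, mul_smul, add_comm β, add_assoc]
      exact h h1' h4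
    · rw [mul_smul, add_assoc]
      exact h h1 h4'
  | smul c x _ hx =>
    intro π
    obtain ⟨u, β, h1, h2, h3, h4⟩ := hx π
    refine ⟨u, β, h1, h2, h3, ?_⟩
    rw [smul_comm]
    exact Submodule.smul_mem _ _ h4

theorem le_hull (G : Fam k V) : G ≤ hull G := by
  intro α x hx
  exact Submodule.subset_span fun π =>
    ⟨1, 0, one_mem_CC le_rfl, one_ne_zero, RR_val_one π, by simpa using hx⟩

theorem Stable.hull {G : Fam k V} (h : Stable G) : Stable (hull G) := by
  intro α β f x hf hx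
  rw [h.mem_hull] at hx ⊢
  intro π
  obtain ⟨u, γ, h1, h2, h3, h4⟩ := hx π
  refine ⟨u, γ, h1, h2, h3, ?_⟩
  rw [smul_comm, add_left_comm]
  exact h hf h4

theorem hull_le_CCr {r : ℕ} {G : Fam k (Fin r → KK k)} (h : G ≤ CCr k (Fin r)) :
    hull G ≤ CCr k (Fin r) := by
  intro α
  refine Submodule.span_le.mpr fun x hx => mem_CCr.mpr fun i => mem_CC.mpr ?_
  by_cases h0 : x i = 0
  · exact Or.inl h0
  refine Or.inr fun π => ?_
  obtain ⟨u, β, h1, h2, h3, h4⟩ := hx π
  have h5 : u * x i ∈ CC k (β + α) := mem_CCr.mp (h _ h4) i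
  have h6 := (mem_CC.mp h5).resolve_left (mul_ne_zero h2 h0) π
  rwa [val_mul π h2 h0, h3, zero_add] at h6

theorem Stable.cut_hull_le {G : Fam k V} (h : Stable G) (U : Submodule (KK k) V) :
    R169.cut (R169.hull G) U ≤ R169.hull (R169.cut G U) := by
  intro α x hx
  refine Submodule.subset_span fun π => ?_
  obtain ⟨u, β, h1, h2, h3, h4⟩ := h.mem_hull.mp (mem_cut.mp hx).1 π
  exact ⟨u, β, h1, h2, h3, mem_cut.mpr ⟨h4, U.smul_mem u (mem_cut.mp hx).2⟩⟩

/-- Recipe: dévissage; all annihilators satisfy `Pt`. -/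
theorem eq_of_le_hull {F' F : Fam k V} (h' : IsLat F') (h : IsLat F) (h1 : F' ≤ F)
    (h2 : F ≤ hull F') : rk F = rk F' ∧ cc F = cc F' ∧ ss F' ≤ ss F := by
  refine devissage h' h h1 (fun F'' => rk F'' = rk F' ∧ cc F'' = cc F' ∧ ss F' ≤ ss F'')
    ⟨rfl, rfl, le_rfl⟩ fun F'' x α hF'' hle _ hx hpr ⟨e1, e2, e3⟩ => ?_
  have hpt : Pt (colon F'' x α) := fun π => by
    obtain ⟨u, β, h1, h2, h3, h4⟩ := h'.stable.mem_hull.mp (h2 α hx) π
    exact ⟨u, β, mem_colon.mpr ⟨h1, hle _ h4⟩, h2, h3⟩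
  obtain ⟨e, he⟩ := hpr.point_hf hpt
  obtain ⟨e4, e5, e6⟩ := (HP.step_pt hF'' hF''.rr x α he).eq
    (hF''.sup (isLat_gen (Set.finite_singleton _)))
  exact ⟨e4.trans e1, e5.trans e2, by omega⟩

/-- Division in the hull by an element prime to the bad locus. -/
theorem Stable.div_mem_hull {G : Fam k V} (h : Stable G) {x : V} {α δ : Dg} {g : KK k}
    (hg : g ∈ CC k δ) (hg0 : g ≠ 0) (hx : g • x ∈ R169.hull G (δ + α))
    (hπ : ∀ π : Pr k, val π g δ ≠ 0 →
      ∃ u β, u ∈ CC k β ∧ u ≠ 0 ∧ val π u β = 0 ∧ u • x ∈ R169.hull G (β + α)) :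
    x ∈ R169.hull G α := by
  refine h.mem_hull.mpr fun π => ?_
  obtain ⟨u, β, h1, h2, h3, h4⟩ : ∃ u β, u ∈ CC k β ∧ u ≠ 0 ∧ val π u β = 0 ∧
      u • x ∈ R169.hull G (β + α) := by
    by_cases hv : val π g δ = 0
    · exact ⟨g, δ, hg, hg0, hv, hx⟩
    · exact hπ π hv
  obtain ⟨u', β', h1', h2', h3', h4'⟩ := h.mem_hull.mp h4 π
  refine ⟨u' * u, β' + β, mul_mem_CC h1' h1, mul_ne_zero h2' h2,
    by rw [val_mul π h2' h2, h3, h3', add_zero], ?_⟩
  rwa [mul_smul, add_assoc]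

end Crest.Agent.R169
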