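/-
R169/ConnA: the canonical connection: Frobenius pull-backs of semistable lattices are almost semistable (part 1 of 4)
-/
import Crest.Agent.R169.RR

set_option autoImplicit false
set_option linter.unusedSectionVars false
set_option linter.unusedVariables false
set_option linter.unusedSimpArgs false

noncomputable section

namespace Crest.Agent.R169

open MvPolynomial Filter
open scoped Pointwise


variable {k : Type} [Field k]

/-- The partial derivatives on `k(a,b)`.  Recipe: extend `pderiv i` to the fraction field (search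
`Derivation` / `Differential` / `IsLocalization` in Mathlib, e.g. via
`KaehlerDifferential.isLocalizedModule` or `Derivation.liftOfRightInverse`; or by hand
`D (x / y) = (D x * y - x * D y) / y ^ 2` with `IsLocalization.lift` into dual numbers
`TrivSqZeroExt (KK k) (KK k)`). -/
theorem exists_der (i : Fin 2) : ∃ D : Derivation k (KK k) (KK k),
    ∀ g : PP k, D (algebraMap (PP k) (KK k) g) = algebraMap (PP k) (KK k) (pderiv i g) := by
  classical
  let φ : PP k →ₐ[k] TrivSqZeroExt (KK k) (KK k) := aeval fun j =>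
    TrivSqZeroExt.inl (algebraMap (PP k) (KK k) (X j)) +
      TrivSqZeroExt.inr (algebraMap (PP k) (KK k) (pderiv i (X j : PP k)))
  have hφ : ∀ g, (φ g).fst = algebraMap (PP k) (KK k) g ∧
      (φ g).snd = algebraMap (PP k) (KK k) (pderiv i g) := by
    intro g
    induction g using MvPolynomial.induction_on with
    | C a =>
      have : φ (C a) = algebraMap k _ a := φ.commutes a
      rw [this, pderiv_C, map_zero]
      exact ⟨rfl, rfl⟩
    | add f g hf hg =>
      simp only [map_add, TrivSqZeroExt.fst_add, TrivSqZeroExt.snd_add, hf.1, hf.2, hg.1, hg.2,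
        and_self]
    | mul_X f j hf =>
      have h1 : (φ (X j)).fst = algebraMap (PP k) (KK k) (X j) := by simp [φ]
      have h2 : (φ (X j)).snd = algebraMap (PP k) (KK k) (pderiv i (X j : PP k)) := by
        simp only [φ, aeval_X, TrivSqZeroExt.snd_add, TrivSqZeroExt.snd_inl, TrivSqZeroExt.snd_inr,
          zero_add]
      simp only [map_mul, TrivSqZeroExt.fst_mul, TrivSqZeroExt.snd_mul, hf.1, hf.2, h1, h2,
        Derivation.leibniz, smul_eq_mul, map_add, op_smul_eq_mul, true_and]
      ring
  have hu : ∀ y : nonZeroDivisors (PP k), IsUnit (φ y) := fun y => by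
    rw [TrivSqZeroExt.isUnit_iff_isUnit_fst, (hφ y).1]
    exact IsLocalization.map_units (KK k) y
  let ψ : KK k →ₐ[k] TrivSqZeroExt (KK k) (KK k) := IsLocalization.liftAlgHom hu
  have hψ : ∀ g, ψ (algebraMap (PP k) (KK k) g) = φ g := fun g => IsLocalization.lift_eq hu g
  have hfst : ∀ x, (ψ x).fst = x := by
    have : ((TrivSqZeroExt.fstHom k (KK k) (KK k)).comp ψ : KK k →+* KK k) = RingHom.id _ :=
      IsLocalization.ringHom_ext (nonZeroDivisors (PP k)) (RingHom.ext fun g => by
        show (ψ (algebraMap (PP k) (KK k) g)).fst = algebraMap (PP k) (KK k) g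
        rw [hψ, (hφ g).1])
    exact fun x => RingHom.congr_fun this x
  refine ⟨Derivation.mk' (((TrivSqZeroExt.sndHom (KK k) (KK k)).restrictScalars k).comp
    ψ.toLinearMap) fun a b => ?_, fun g => ?_⟩
  · show (ψ (a * b)).snd = a • (ψ b).snd + b • (ψ a).snd
    rw [map_mul, TrivSqZeroExt.snd_mul, hfst, hfst, op_smul_eq_mul, smul_eq_mul, smul_eq_mul,
      mul_comm b]
  · show (ψ (algebraMap (PP k) (KK k) g)).snd = _
    rw [hψ, (hφ g).2]

/-- The partial derivative. -/
def der (k : Type) [Field k] (i : Fin 2) : Derivation k (KK k) (KK k) := (exists_der i).choose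

theorem der_poly (i : Fin 2) (g : PP k) :
    der k i (algebraMap (PP k) (KK k) g) = algebraMap (PP k) (KK k) (pderiv i g) :=
  (exists_der i).choose_spec g

theorem ConnA_der_prod {ι : Type} (D : Derivation k (KK k) (KK k)) (s : Finset ι) (u : ι → KK k)
    (hu : ∀ j, u j ≠ 0) (β : ι → ℤ) :
    D (∏ j ∈ s, u j ^ β j) = ∑ j ∈ s, β j • ((∏ l ∈ s, u l ^ β l) * (u j)⁻¹ * D (u j)) := by
  classical
  induction s using Finset.induction_on with
  | empty => simp
  | insert a s ha ih =>
    rw [Finset.prod_insert ha, Finset.sum_insert ha, D.leibniz, ih, D.leibniz_zpow,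
      zpow_sub_one₀ (hu a), add_comm, Finset.smul_sum]
    congr 1
    · simp only [smul_eq_mul, zsmul_eq_mul]; ring
    · refine Finset.sum_congr rfl fun j _ => ?_
      simp only [smul_eq_mul, zsmul_eq_mul]; ring

theorem ConnA_pderiv_lin (i : Fin 2) (j : Fin 5) : ∃ c : ℤ, pderiv i (lin k j) = c := by
  have hX : ∀ l : Fin 2, ∃ c : ℤ, pderiv i (X l : PP k) = c := fun l => by
    by_cases h : l = i
    · exact ⟨1, by simp [h]⟩
    · exact ⟨0, by simp [pderiv_X_of_ne h]⟩
  obtain ⟨c0, h0⟩ := hX 0
  obtain ⟨c1, h1⟩ := hX 1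
  revert j
  refine ex_forall.mpr ⟨⟨c0, h0⟩, ⟨c1, h1⟩, ⟨c0, ?_⟩, ⟨c1, ?_⟩, ⟨c0 - c1, ?_⟩⟩
  · show pderiv i (X 0 - 1 : PP k) = _
    rw [map_sub, h0, pderiv_one, sub_zero]
  · show pderiv i (X 1 - 1 : PP k) = _
    rw [map_sub, h1, pderiv_one, sub_zero]
  · show pderiv i (X 0 - X 1 : PP k) = _
    rw [map_sub, h0, h1, Int.cast_sub]

theorem ConnA_dv_single : ∀ (j : Fin 5) (l : Fin 10), dv (Pi.single j 1) l ≤ 1 := by decide

/-- Recipe: `D (mon β) = ∑ j, β j * (± 1 or 0) * mon (β - e j)` and `dv (e j) ≤ 1`. -/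
theorem der_mem (i : Fin 2) {α : Dg} {f : KK k} (hf : f ∈ CC k α) :
    der k i f ∈ CC k (α + (7 : ℤ) • 1) := by
  induction hf using Submodule.span_induction with
  | mem x hx =>
    obtain ⟨β, hβ, rfl⟩ := hx
    have hne : ∀ j, algebraMap (PP k) (KK k) (lin k j) ≠ 0 := fun j => by
      rw [← mon_single]; exact mon_ne_zero _
    rw [mon, ConnA_der_prod _ _ _ hne]
    refine Submodule.sum_mem _ fun j _ => zsmul_mem ?_ _
    obtain ⟨c, hc⟩ := ConnA_pderiv_lin (k := k) i j
    rw [der_poly, hc, map_intCast, ← mon_single, ← mon_neg, ← mon, ← mon_add, mul_comm,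
      ← zsmul_eq_mul]
    refine zsmul_mem (mon_mem fun l => ?_) _
    have h1 := hβ l
    have h2 := ConnA_dv_single j l
    rw [map_add, map_neg]
    simp only [Pi.add_apply, Pi.smul_apply, Pi.neg_apply, Pi.zero_apply, Pi.one_apply,
      smul_eq_mul] at h1 ⊢
    omega
  | zero => rw [map_zero]; exact Submodule.zero_mem _
  | add x y _ _ hx hy => rw [map_add]; exact Submodule.add_mem _ hx hy
  | smul c x _ hx => rw [Derivation.map_smul]; exact Submodule.smul_mem _ c hx

variable {p : ℕ} [Fact p.Prime] [CharP k p] [PerfectRing k p] {r : ℕ}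

theorem der_pow (i : Fin 2) (f : KK k) : der k i (f ^ p) = 0 := by
  have := charP_KK (k := k) (p := p)
  rw [Derivation.leibniz_pow, nsmul_eq_mul, CharP.cast_eq_zero, zero_mul]

/-- Recipe: `pspan_std`, `pind_std`. -/
theorem exists_root_of_der {f : KK k} (h : ∀ i, der k i f = 0) : ∃ g, f = g ^ p := by
  have := charP_KK (k := k) (p := p)
  have hp : p.Prime := Fact.out
  obtain ⟨g, hg⟩ := pspan_std (p := p) f
  have hc : ∀ n : ℕ, (n : KK k) ^ p = n := fun n => map_natCast (frobenius (KK k) p) n
  have ha0 : der k 0 (ca k) = 1 := by rw [ca, der_poly]; simp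
  have ha1 : der k 1 (ca k) = 0 := by rw [ca, der_poly]; simp
  have hb0 : der k 0 (cb k) = 0 := by rw [cb, der_poly]; simp
  have hb1 : der k 1 (cb k) = 1 := by rw [cb, der_poly]; simp
  have hpow : ∀ (x : KK k) (n : ℕ), x * ((n : KK k) * x ^ (n - 1)) = n * x ^ n := fun x n => by
    cases n with
    | zero => simp
    | succ n => rw [Nat.add_sub_cancel, pow_succ]; ring
  have h0 := pind_std (k := k) (p := p) (fun st => ((st.1 : ℕ) : KK k) * g st) (by
    have h1 := congrArg (ca k * ·) (h 0)
    simp only [hg, map_sum, mul_zero, Finset.mul_sum] at h1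
    rw [← h1]
    refine Finset.sum_congr rfl fun st _ => ?_
    rw [Derivation.leibniz, der_pow]
    simp only [Derivation.leibniz, Derivation.leibniz_pow, ha0, hb0, smul_eq_mul,
      nsmul_eq_mul, mul_zero, mul_one, zero_add, mul_pow, hc]
    linear_combination -(g st ^ p * cb k ^ (st.2 : ℕ)) * hpow (ca k) st.1)
  have h1 := pind_std (k := k) (p := p) (fun st => ((st.2 : ℕ) : KK k) * g st) (by
    have h1 := congrArg (cb k * ·) (h 1)
    simp only [hg, map_sum, mul_zero, Finset.mul_sum] at h1
    rw [← h1]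
    refine Finset.sum_congr rfl fun st _ => ?_
    rw [Derivation.leibniz, der_pow]
    simp only [Derivation.leibniz, Derivation.leibniz_pow, ha1, hb1, smul_eq_mul,
      nsmul_eq_mul, mul_zero, mul_one, zero_add, add_zero, mul_pow, hc]
    linear_combination -(g st ^ p * ca k ^ (st.1 : ℕ)) * hpow (cb k) st.2)
  have hz : ∀ s : Fin p, ((s : ℕ) : KK k) = 0 → s = ⟨0, hp.pos⟩ := fun s hs =>
    Fin.ext (Nat.eq_zero_of_dvd_of_lt ((CharP.cast_eq_zero_iff (KK k) p _).1 hs) s.2)
  refine ⟨g (⟨0, hp.pos⟩, ⟨0, hp.pos⟩), ?_⟩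
  rw [hg, Finset.sum_eq_single (⟨0, hp.pos⟩, ⟨0, hp.pos⟩)]
  · simp
  · intro st _ hst
    have : g st = 0 := by
      by_contra hne
      exact hst (Prod.ext (hz _ ((mul_eq_zero.1 (h0 st)).resolve_right hne))
        (hz _ ((mul_eq_zero.1 (h1 st)).resolve_right hne)))
    rw [this, zero_pow hp.ne_zero, mul_zero]
  · simp

/-- Cartier descent (`exists_rref`: the derivative of a row vanishes at the pivots). -/
theorem descent (U : Submodule (KK k) (Fin r → KK k))
    (h : ∀ i, ∀ x ∈ U, (fun j => der k i (x j)) ∈ U) :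
    ∃ U' : Submodule (KK k) (Fin r → KK k), U = Submodule.span (KK k) (frob p '' (U' : Set (Fin r → KK k))) := by
  have := charP_KK (k := k) (p := p)
  have hp : p.Prime := Fact.out
  obtain ⟨ι, y, hy, hU⟩ := exists_rref U
  have hz : ∀ x ∈ U, (∀ j, x (ι j) = 0) → x = 0 := fun x hx h0 => by
    rw [← hU] at hx
    obtain ⟨c, rfl⟩ := (Submodule.mem_span_range_iff_exists_fun _).1 hx
    have : ∀ j, c j = 0 := fun j => by
      have := h0 j
      simpa [Finset.sum_apply, hy] using this
    simp [this]
  have hyU : ∀ i, y i ∈ U := fun i => hU ▸ Submodule.subset_span ⟨i, rfl⟩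
  have hg : ∀ i l, ∃ g, y i l = g ^ p := fun i l => exists_root_of_der fun d =>
    congrFun (hz _ (h d _ (hyU i)) fun j => by
      rw [hy]; split_ifs <;> simp) l
  choose g hg using hg
  refine ⟨Submodule.span _ (Set.range g), le_antisymm ?_ (Submodule.span_le.2 ?_)⟩
  · conv_lhs => rw [← hU]
    refine Submodule.span_mono ?_
    rintro _ ⟨i, rfl⟩
    exact ⟨g i, Submodule.subset_span ⟨i, rfl⟩, funext fun l => (hg i l).symm⟩
  · rintro _ ⟨x, hx, rfl⟩
    induction hx using Submodule.span_induction with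
    | mem x hx =>
      obtain ⟨i, rfl⟩ := hx
      have : frob p (g i) = y i := funext fun l => (hg i l).symm
      rw [this]; exact hyU i
    | zero =>
      have : frob p (0 : Fin r → KK k) = 0 := funext fun l => zero_pow hp.ne_zero
      rw [this]; exact U.zero_mem
    | add x x' _ _ hx hx' =>
      have : frob p (x + x') = frob p x + frob p x' := funext fun l => add_pow_char _ _ _
      rw [this]; exact U.add_mem hx hx'
    | smul c x _ hx =>
      have : frob p (c • x) = c ^ p • frob p x := funext fun l => mul_pow _ _ _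
      rw [this]; exact U.smul_mem _ hx

theorem der_mem_pull {E : Fam k (Fin r → KK k)} (i : Fin 2) {x : Fin r → KK k} {α : Dg}
    (hx : x ∈ pull (frob p) p E α) :
    (fun j => der k i (x j)) ∈ pull (frob p) p E (α + (7 : ℤ) • 1) := by
  induction hx using Submodule.span_induction with
  | mem y hy =>
    obtain ⟨q, ⟨β, x, hx, rfl⟩, f, hf, rfl⟩ := hy
    refine Submodule.subset_span ⟨_, ⟨β, x, hx, rfl⟩, der k i f, ?_, funext fun j => ?_⟩
    · have := der_mem i hf
      rwa [sub_add_eq_add_sub] at this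
    · simp only [Pi.smul_apply, smul_eq_mul, frob, Derivation.leibniz, der_pow, mul_zero, zero_add]
      ring
  | zero =>
    have : (fun j => der k i ((0 : Fin r → KK k) j)) = 0 := funext fun j => map_zero _
    rw [this]; exact Submodule.zero_mem _
  | add x y _ _ hx hy =>
    have : (fun j => der k i ((x + y) j)) = (fun j => der k i (x j)) + fun j => der k i (y j) :=
      funext fun j => map_add _ _ _
    rw [this]; exact Submodule.add_mem _ hx hy
  | smul c x _ hx =>
    have : (fun j => der k i ((c • x) j)) = c • fun j => der k i (x j) :=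
      funext fun j => Derivation.map_smul _ _ _
    rw [this]; exact Submodule.smul_mem _ c hx

end Crest.Agent.R169
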