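/-
R169/ConnB: the canonical connection: Frobenius pull-backs of semistable lattices are almost semistable (part 2 of 4)
-/
import Crest.Agent.R169.ConnA

set_option autoImplicit false
set_option linter.unusedSectionVars false
set_option linter.unusedVariables false
set_option linter.unusedSimpArgs false

noncomputable section

namespace Crest.Agent.R169

open MvPolynomial Filter
open scoped Pointwise


variable {k : Type} [Field k]
variable {p : ℕ} [Fact p.Prime] [CharP k p] [PerfectRing k p] {r : ℕ}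

omit [Fact p.Prime] [CharP k p] [PerfectRing k p] in
theorem ConnB_exists_theta (i : Fin 2) (U : Submodule (KK k) (Fin r → KK k)) :
    ∃ θ : (Fin r → KK k) →ₗ[KK k] ((Fin r → KK k) ⧸ U),
      ∀ x ∈ U, θ x = U.mkQ fun j => der k i (x j) := by
  let θ₀ : U →ₗ[KK k] ((Fin r → KK k) ⧸ U) :=
    { toFun := fun x => U.mkQ fun j => der k i (x.1 j)
      map_add' := fun x y => by
        rw [← map_add]
        congr 1
        funext j
        exact map_add _ _ _
      map_smul' := fun f x => by
        have h1 : (fun j => der k i ((f • x).1 j)) =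
            f • (fun j => der k i (x.1 j)) + der k i f • x.1 := by
          funext j
          simp only [Submodule.coe_smul, Pi.smul_apply, smul_eq_mul, Derivation.leibniz,
            Pi.add_apply]
          ring
        rw [h1, map_add, map_smul, RingHom.id_apply, map_smul, Submodule.mkQ_apply U x.1,
          (Submodule.Quotient.mk_eq_zero U).2 x.2, smul_zero, add_zero] }
  obtain ⟨θ, hθ⟩ := θ₀.exists_extend
  exact ⟨θ, fun x hx => LinearMap.congr_fun hθ ⟨x, hx⟩⟩

/-- The second fundamental form.  Recipe: `θ x = D x mod U` is `KK k`-linear on `U`; let `U'` be its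
kernel and `U'' = comap U.mkQ (range θ)`.  `θ` maps `cut W U α` to `img U.mkQ (cut W U'') (α + δ)`
with kernel `cut W U' α`; extend `θ` to the whole space (`LinearMap.exists_extend`), compare
`img θ (cut W U)` with `img U.mkQ (cut W U'')` by `HP.le_lin` and use `mm_add`. -/
theorem second_form {W : Fam k (Fin r → KK k)} (hW : IsLat W) (ht : spn W = ⊤) (i : Fin 2)
    (hD : ∀ x α, x ∈ W α → (fun j => der k i (x j)) ∈ W (α + (7 : ℤ) • 1))
    (U : Submodule (KK k) (Fin r → KK k)) :
    ∃ (U' U'' : Submodule (KK k) (Fin r → KK k)) (ρ : ℕ),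
      Module.finrank (KK k) U' + ρ = Module.finrank (KK k) U ∧
      Module.finrank (KK k) U'' = Module.finrank (KK k) U + ρ ∧
      mm (cut W U) - mm (cut W U') ≤ mm (cut W U'') - mm (cut W U) + 70 * ρ ∧
      (ρ = 0 → ∀ x ∈ U, (fun j => der k i (x j)) ∈ U) := by
  obtain ⟨θ, hθ⟩ := ConnB_exists_theta i U
  have hS := hW.stable
  have hspn : ∀ T : Submodule (KK k) (Fin r → KK k), spn (cut W T) = T := fun T => by
    rw [hS.spn_cut, ht, top_inf_eq]
  have hle : U ≤ (U.map θ).comap U.mkQ := fun x hx => by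
    rw [Submodule.mem_comap, Submodule.mkQ_apply, (Submodule.Quotient.mk_eq_zero U).2 hx]
    exact zero_mem _
  have hG := hW.cut U
  have hG'' := hW.cut ((U.map θ).comap U.mkQ)
  have r1 : rk (img θ (cut W U)) = Module.finrank (KK k) (U.map θ) := by
    rw [rk, spn_img, hspn]
  have r2 : rk (img U.mkQ (cut W ((U.map θ).comap U.mkQ))) = Module.finrank (KK k) (U.map θ) := by
    rw [rk, spn_img, hspn, Submodule.map_comap_eq_of_surjective U.mkQ_surjective]
  have a1 := hG.rk_cut_img θ
  have a2 := hG''.rk_cut_img U.mkQ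
  have b1 := hG.mm_add θ
  have b2 := hG''.mm_add U.mkQ
  rw [cut_cut] at a1 a2 b1 b2
  rw [Submodule.ker_mkQ, inf_eq_right.2 hle] at a2 b2
  rw [r1, hS.rk_cut_of_top ht, hS.rk_cut_of_top ht] at a1
  rw [r2, hS.rk_cut_of_top ht, hS.rk_cut_of_top ht] at a2
  refine ⟨U ⊓ LinearMap.ker θ, (U.map θ).comap U.mkQ, Module.finrank (KK k) (U.map θ), a1.symm, a2,
    ?_, fun h0 x hx => ?_⟩
  · obtain ⟨c1, c2, -⟩ := (hG''.img U.mkQ).shf_eq ((7 : ℤ) • 1)
    have h1 := mm_le_of_le (hG.img θ) ((hG''.img U.mkQ).shf ((7 : ℤ) • 1)) (fun α y hy => by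
      obtain ⟨x, hx, rfl⟩ := mem_img.1 hy
      obtain ⟨hx1, hx2⟩ := mem_cut.1 hx
      refine mem_img.2 ⟨_, mem_cut.2 ⟨hD x α hx1, ?_⟩, (hθ x hx2).symm⟩
      rw [Submodule.mem_comap, ← hθ x hx2]
      exact Submodule.mem_map_of_mem hx2) (by rw [c1, r1, r2])
    have h2 : mm (shf (img U.mkQ (cut W ((U.map θ).comap U.mkQ))) ((7 : ℤ) • 1)) =
        mm (img U.mkQ (cut W ((U.map θ).comap U.mkQ))) + 70 * Module.finrank (KK k) (U.map θ) := by
      rw [mm, c2, ip_add_left, ip_smul_left, ip_cl_Lc, deg_smul, deg_one, r2, mm]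
      ring
    linarith
  · have h1 : θ x ∈ U.map θ := Submodule.mem_map_of_mem hx
    rw [Submodule.finrank_eq_zero.1 h0, Submodule.mem_bot, hθ x hx] at h1
    exact (Submodule.Quotient.mk_eq_zero U).1 h1

end Crest.Agent.R169
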