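/-
R169/ConnC: the canonical connection: Frobenius pull-backs of semistable lattices are almost semistable (part 3 of 4)
-/
import Crest.Agent.R169.ConnB

set_option autoImplicit false
set_option linter.unusedSectionVars false
set_option linter.unusedVariables false
set_option linter.unusedSimpArgs false

noncomputable section

namespace Crest.Agent.R169

open MvPolynomial Filter
open scoped Pointwise


variable {k : Type} [Field k]
variable {p : ℕ} [Fact p.Prime] [CharP k p] [PerfectRing k p] {r : ℕ}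

theorem ConnC_max {𝒰 : Type} (m : 𝒰 → ℤ) (d : 𝒰 → ℕ) (r : ℕ) (hr : ∀ U, d U ≤ r) (B : ℤ)
    (hB : ∀ U, m U ≤ B) (U₀ : 𝒰) (q : ℚ) :
    ∃ U, ∀ U', (m U' : ℚ) - q * d U' ≤ m U - q * d U := by
  have hq : (0 : ℚ) < q.den := by exact_mod_cast q.den_pos
  obtain ⟨_, ⟨U, rfl⟩, hU⟩ := Int.exists_greatest_of_bdd
    (P := fun z => ∃ U, z = q.den * m U - q.num * d U) ⟨q.den * B + |q.num| * r, by
      rintro _ ⟨U, rfl⟩
      have h1 : (q.den : ℤ) * m U ≤ q.den * B := mul_le_mul_of_nonneg_left (hB U) (by positivity)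
      have h2 : (d U : ℤ) ≤ r := by exact_mod_cast hr U
      have h3 : -q.num * d U ≤ |q.num| * r :=
        mul_le_mul (neg_le_abs _) h2 (by positivity) (abs_nonneg _)
      linarith⟩ ⟨_, U₀, rfl⟩
  refine ⟨U, fun U' => le_of_mul_le_mul_left ?_ hq⟩
  have h1 : ((q.den * m U' - q.num * d U' : ℤ) : ℚ) ≤ ((q.den * m U - q.num * d U : ℤ) : ℚ) :=
    Int.cast_le.2 (hU _ ⟨U', rfl⟩)
  have h2 : (q.num : ℚ) = q.den * q := by rw [mul_comm]; exact (Rat.mul_den_eq_num q).symm
  push_cast at h1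
  rw [h2] at h1
  linarith

/-- Pigeonhole substitute for the Harder-Narasimhan filtration.  Recipe: for `j = 0, …, r` choose a
maximiser `U j` of `m - (l + j * C) d` (it exists: `m` is bounded above, integer valued, `d ≤ r`);
its value is `≥` that of `U₀`; two of the `r + 1` maximisers have the same `d` (all `d` lie in an
interval with `r` elements by `hd`), hence the same `m`. -/
theorem pigeon {𝒰 : Type} (m : 𝒰 → ℤ) (d : 𝒰 → ℕ) (r : ℕ) (hr : ∀ U, d U ≤ r) (B : ℤ)
    (hB : ∀ U, m U ≤ B) (l C : ℚ) (hC : 0 ≤ C) (U₀ : 𝒰) (a : ℕ) (ha : a ≤ r)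
    (hd : ∀ (U : 𝒰) (j : ℕ), j ≤ r →
      (m U₀ : ℚ) - (l + j * C) * d U₀ ≤ m U - (l + j * C) * d U → d U ≠ a) :
    ∃ (U : 𝒰) (j j' : ℕ), j < j' ∧ j' ≤ r ∧
      (∀ U', (m U' : ℚ) - (l + j * C) * d U' ≤ m U - (l + j * C) * d U) ∧
      ∀ U', (m U' : ℚ) - (l + j' * C) * d U' ≤ m U - (l + j' * C) * d U := by
  choose U hU using fun j : ℕ => ConnC_max m d r hr B hB U₀ (l + j * C)
  have key : ∀ j j' : ℕ, j < j' → j' ≤ r → d (U j) = d (U j') →
      ∃ (U : 𝒰) (j j' : ℕ), j < j' ∧ j' ≤ r ∧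
        (∀ U', (m U' : ℚ) - (l + j * C) * d U' ≤ m U - (l + j * C) * d U) ∧
        ∀ U', (m U' : ℚ) - (l + j' * C) * d U' ≤ m U - (l + j' * C) * d U := by
    intro j j' h1 h2 e
    refine ⟨U j, j, j', h1, h2, hU j, fun U' => (hU j' U').trans ?_⟩
    have := hU j (U j')
    rw [e] at this ⊢
    linarith
  obtain ⟨j, hj, j', hj', hne, e⟩ := Finset.exists_ne_map_eq_of_card_lt_of_maps_to
    (s := Finset.range (r + 1)) (t := (Finset.range (r + 1)).erase a) (f := fun j => d (U j))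
    (Finset.card_erase_lt_of_mem (Finset.mem_range.2 (by omega))) (fun j hj =>
      Finset.mem_erase.2 ⟨hd (U j) j (Nat.lt_succ_iff.1 (Finset.mem_range.1 hj)) (hU j U₀),
        Finset.mem_range.2 (Nat.lt_succ_of_le (hr _))⟩)
  rcases lt_or_gt_of_ne hne with h | h
  · exact key j j' h (Nat.lt_succ_iff.1 (Finset.mem_range.1 hj')) e
  · exact key j' j h (Nat.lt_succ_iff.1 (Finset.mem_range.1 hj)) e.symm

theorem ConnC_rk_top {E : Fam k (Fin r → KK k)} (ht : spn E = ⊤) : rk E = r := by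
  rw [rk, ht, finrank_top, Module.finrank_fin_fun]

theorem spn_pull {E : Fam k (Fin r → KK k)} (hE : IsLat E) (ht : spn E = ⊤) :
    spn (pull (frob p) p E) = ⊤ := by
  have h := (((isFrob_frob (k := k) (p := p) (Fin r)).rr hE).eq
    ((isFrob_frob (k := k) (p := p) (Fin r)).isLat hE)).1
  rw [ConnC_rk_top ht] at h
  exact Submodule.eq_top_of_finrank_eq (h.trans (Module.finrank_fin_fun (KK k)).symm)

/-- A subspace that descends does not destabilise (`cut_pull`, `IsFrob.rr`, `HP.eq`). -/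
theorem mm_descends {E : Fam k (Fin r → KK k)} (hE : IsLat E) (ht : spn E = ⊤) (hs : SS E)
    (U' : Submodule (KK k) (Fin r → KK k)) :
    (r : ℤ) * mm (cut (pull (frob p) p E) (Submodule.span (KK k) (frob p '' (U' : Set (Fin r → KK k))))) ≤
      Module.finrank (KK k) (Submodule.span (KK k) (frob p '' (U' : Set (Fin r → KK k)))) * (p * mm E) := by
  have hφ := isFrob_frob (k := k) (p := p) (Fin r)
  have h1 : HP (cut (pull (frob p) p E)
      (Submodule.span (KK k) (frob p '' (U' : Set (Fin r → KK k))))) _ _ _ :=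
    (hφ.rr (hE.cut U')).congr (hφ.cut_pull hE U').symm.hf
  obtain ⟨h2, h3, -⟩ := h1.eq ((hφ.isLat hE).cut _)
  rw [rk, (hφ.isLat hE).stable.spn_cut, spn_pull hE ht, top_inf_eq] at h2
  have h4 := hs U'
  rw [ConnC_rk_top ht] at h4
  rw [h2, mm, h3, ip_smul_left]
  have h5 := mul_le_mul_of_nonneg_left h4 (Int.natCast_nonneg p)
  unfold mm at h5 ⊢
  linarith

end Crest.Agent.R169
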