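/-
R169/Conn: the canonical connection: Frobenius pull-backs of semistable lattices are almost semistable (part 4 of 4)
-/
import Crest.Agent.R169.ConnC

set_option autoImplicit false
set_option linter.unusedSectionVars false
set_option linter.unusedVariables false
set_option linter.unusedSimpArgs false

noncomputable section

namespace Crest.Agent.R169

open MvPolynomial Filter
open scoped Pointwise


variable {k : Type} [Field k]
variable {p : ℕ} [Fact p.Prime] [CharP k p] [PerfectRing k p] {r : ℕ}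

/-- The numerical core of `frob_bound`. -/
theorem Conn_abs {𝒰 : Type} (m : 𝒰 → ℤ) (d : 𝒰 → ℕ) (r : ℕ) (hr : ∀ U, d U ≤ r) (B : ℤ)
    (hB : ∀ U, m U ≤ B) (M : ℤ) (h0 : ∀ U, d U = 0 → m U = 0) (h1 : ∀ U, d U = r → m U = M)
    (hsf : ∀ U, (∃ (U' U'' : 𝒰) (ρ : ℕ), ρ ≠ 0 ∧ d U' + ρ = d U ∧ d U'' = d U + ρ ∧
      m U - m U' ≤ m U'' - m U + 70 * ρ) ∨ (r : ℤ) * m U ≤ d U * M) (U₀ : 𝒰) :
    (r : ℤ) * m U₀ ≤ d U₀ * (M + 71 * r ^ 2) ∧
    ((r : ℤ) - d U₀) * (M - 71 * r ^ 2) ≤ r * (M - m U₀) := by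
  rcases Nat.eq_zero_or_pos r with rfl | hpos
  · have hd : d U₀ = 0 := Nat.le_zero.mp (hr U₀)
    simp [hd]
  have hrq : (0 : ℚ) < r := by exact_mod_cast hpos
  obtain ⟨μ, hμ⟩ : ∃ μ : ℚ, (M : ℚ) = r * μ := ⟨M / r, by field_simp⟩
  have key : ∀ (l : ℚ) (U : 𝒰) (j j' : ℕ), j < j' →
      (∀ U', (m U' : ℚ) - (l + j * 71) * d U' ≤ m U - (l + j * 71) * d U) →
      (∀ U', (m U' : ℚ) - (l + j' * 71) * d U' ≤ m U - (l + j' * 71) * d U) →
      (m U : ℚ) ≤ μ * d U := by
    intro l U j j' hj a a'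
    rcases hsf U with ⟨U', U'', ρ, hρ, e1, e2, e3⟩ | h
    · exfalso
      have b1 := a' U'
      have b2 := a U''
      have e1' : (d U : ℚ) = d U' + ρ := by exact_mod_cast e1.symm
      have e2' : (d U'' : ℚ) = d U + ρ := by exact_mod_cast e2
      have e3' : (m U : ℚ) - m U' ≤ m U'' - m U + 70 * ρ := by exact_mod_cast e3
      have hρ' : (1 : ℚ) ≤ ρ := by exact_mod_cast Nat.one_le_iff_ne_zero.mpr hρ
      have hj' : (j : ℚ) + 1 ≤ j' := by exact_mod_cast hj
      rw [e2'] at b2
      rw [e1'] at b1 b2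
      have : ((j' : ℚ) - j - 1) * ρ ≥ 0 := mul_nonneg (by linarith) (by linarith)
      nlinarith
    · have h' : (r : ℚ) * m U ≤ d U * M := by exact_mod_cast h
      rw [hμ] at h'
      refine le_of_mul_le_mul_left ?_ hrq
      linarith
  have hd0 : (0 : ℚ) ≤ d U₀ := Nat.cast_nonneg _
  have hdr : (d U₀ : ℚ) ≤ r := by exact_mod_cast hr U₀
  constructor
  · by_contra hc
    have hc1 : (d U₀ : ℚ) * (M + 71 * r ^ 2) < r * m U₀ := by exact_mod_cast not_le.mp hc
    have hc2 : (d U₀ : ℚ) * (μ + 71 * r) < m U₀ := by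
      refine lt_of_mul_lt_mul_left ?_ hrq.le
      rw [hμ] at hc1
      linarith
    have hv : ∀ j : ℕ, j ≤ r → 0 < (m U₀ : ℚ) - (μ + j * 71) * d U₀ := fun j hj => by
      have hj' : (j : ℚ) ≤ r := by exact_mod_cast hj
      have : ((r : ℚ) - j) * d U₀ ≥ 0 := mul_nonneg (by linarith) hd0
      nlinarith
    obtain ⟨U, j, j', hj, hj', a, a'⟩ := pigeon m d r hr B hB μ 71 (by norm_num) U₀ 0 (Nat.zero_le _)
      fun U j hj h e => by
        have := hv j hj
        rw [h0 U e, e] at h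
        simp only [Int.cast_zero, Nat.cast_zero, mul_zero, sub_zero] at h
        linarith
    have k1 := key μ U j j' hj a a'
    have k2 := hv j (by omega)
    have k3 := a U₀
    have : (j : ℚ) * d U ≥ 0 := mul_nonneg (Nat.cast_nonneg _) (Nat.cast_nonneg _)
    nlinarith
  · by_contra hc
    have hc1 : (r : ℚ) * (M - m U₀) < (r - d U₀) * (M - 71 * r ^ 2) := by
      exact_mod_cast not_le.mp hc
    have hc2 : (r : ℚ) * μ - m U₀ < (r - d U₀) * (μ - r * 71) := by
      refine lt_of_mul_lt_mul_left ?_ hrq.le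
      rw [hμ] at hc1
      linarith
    have hv : ∀ j : ℕ, (r : ℚ) * μ - (μ - r * 71 + j * 71) * r <
        (m U₀ : ℚ) - (μ - r * 71 + j * 71) * d U₀ := fun j => by
      have : (j : ℚ) * (r - d U₀) ≥ 0 := mul_nonneg (Nat.cast_nonneg _) (by linarith)
      nlinarith
    obtain ⟨U, j, j', hj, hj', a, a'⟩ := pigeon m d r hr B hB (μ - r * 71) 71 (by norm_num) U₀ r le_rfl
      fun U j hj h e => by
        have := hv j
        rw [h1 U e, e, hμ] at h
        linarith
    have k1 := key _ U j j' hj a a'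
    have k2 := hv j
    have k3 := a U₀
    have hjr : (j : ℚ) ≤ r := by exact_mod_cast (show j ≤ r by omega)
    have hU : (d U : ℚ) ≤ r := by exact_mod_cast hr U
    have : ((r : ℚ) - j) * (r - d U) ≥ 0 := mul_nonneg (by linarith) (by linarith)
    nlinarith

/-- Recipe.  `μ = p mm E / r`, `C = 71`, `m U = mm (cut W U)`, `d U = finrank U`, `m ⊥ = 0`,
`m ⊤ = r μ`.  If the first inequality fails for `U₀`, use `pigeon` with `l = μ`, `a = 0`; if the
second fails use `l = μ - r C`, `a = r`.  The common maximiser `U` has `ρ = 0` in `second_form` for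
both `i`, so it descends and `m U ≤ μ d U`; but its value for `l + j C` is at least the value of
`U₀`, which is `> 0`, resp. `>` the value `(μ - l - j C) r` of `⊤`. -/
theorem frob_bound {E : Fam k (Fin r → KK k)} (hE : IsLat E) (ht : spn E = ⊤) (hs : SS E)
    (U : Submodule (KK k) (Fin r → KK k)) :
    (r : ℤ) * mm (cut (pull (frob p) p E) U) ≤
      Module.finrank (KK k) U * (p * mm E + 71 * r ^ 2) ∧
    ((r : ℤ) - Module.finrank (KK k) U) * (p * mm E - 71 * r ^ 2) ≤
      r * (p * mm E - mm (cut (pull (frob p) p E) U)) := by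
  have hφ := isFrob_frob (k := k) (p := p) (Fin r)
  have hW : IsLat (pull (frob p) p E) := hφ.isLat hE
  have htW : spn (pull (frob p) p E) = ⊤ := spn_pull hE ht
  obtain ⟨B, hB⟩ := hW.mm_cut_bdd
  have hfr : Module.finrank (KK k) (Fin r → KK k) = r := by simp
  refine Conn_abs (fun U : Submodule (KK k) (Fin r → KK k) => mm (cut (pull (frob p) p E) U))
    (fun U => Module.finrank (KK k) U) r (fun U => (Submodule.finrank_le U).trans hfr.le) B hB (p * mm E)
    (fun U h => ?_) (fun U h => ?_) (fun U => ?_) U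
  · have := ((hW.cut U).of_rk_zero ((hW.stable.rk_cut_of_top htW U).trans h)).1
    simp only [mm, this, ip_zero_left]
  · have hU : U = ⊤ := Submodule.eq_top_of_finrank_eq (h.trans hfr.symm)
    have := ((hφ.rr hE).eq hW).2.1
    simp only [hU, cut_top, mm, this, ip_smul_left]
  · by_cases h : ∀ i, ∀ x ∈ U, (fun j => der k i (x j)) ∈ U
    · obtain ⟨U', rfl⟩ := descent (p := p) U h
      exact Or.inr (mm_descends hE ht hs U')
    · obtain ⟨i, hi⟩ := not_forall.mp h
      obtain ⟨U', U'', ρ, e1, e2, e3, e4⟩ := second_form hW htW i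
        (fun x α hx => der_mem_pull i hx) U
      exact Or.inl ⟨U', U'', ρ, fun e => hi (e4 e), e1, e2, e3⟩

end Crest.Agent.R169
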