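/-
R169/DualA: the bound `χ ≤ h⁰ + h²` for filtered modules of depth two (part 1 of 2)
-/
import Crest.Agent.R169.Span

set_option autoImplicit false
set_option linter.unusedSectionVars false
set_option linter.unusedVariables false
set_option linter.unusedSimpArgs false

noncomputable section

namespace Crest.Agent.R169

open MvPolynomial Filter
open scoped Pointwise


variable {k V : Type} [Field k] [AddCommGroup V] [Module k V] {Y : Fin 2 → Module.End k V}
  {M : ℤ → Submodule k V}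

theorem DualA_finrank_map {S : Submodule k V} [FiniteDimensional k S] (φ : V →ₗ[k] V) :
    Module.finrank k S =
      Module.finrank k (S.map φ) + Module.finrank k ↥(S ⊓ LinearMap.ker φ) := by
  have h := LinearMap.finrank_range_add_finrank_ker (φ.domRestrict S)
  rw [LinearMap.range_domRestrict, LinearMap.ker_domRestrict,
    ← Submodule.finrank_map_subtype_eq S, Submodule.map_comap_subtype] at h
  exact h.symm

theorem FilMod.DualA_inj (h : FilMod Y M) (t : ℤ) : M t ⊓ LinearMap.ker (Y 0) = ⊥ := by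
  obtain ⟨t0, ht0⟩ := h.bot
  rw [eq_bot_iff]
  rintro x ⟨hx, h0⟩
  have h0' : Y 0 x = 0 := h0
  have key : ∀ n : ℕ, x ∈ M (t - n) := by
    intro n
    induction n with
    | zero => simpa using hx
    | succ n ih =>
      have := h.dep _ x ih (h0' ▸ Submodule.zero_mem _)
      rwa [sub_sub, ← Nat.cast_succ] at this
  have := h.mono (show t - ((t - t0).toNat : ℕ) ≤ t0 by omega) (key (t - t0).toNat)
  rwa [ht0] at this

theorem FilMod.DualA_map_le (h : FilMod Y M) (i : Fin 2) (t : ℤ) : (M t).map (Y i) ≤ M (t + 1) := by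
  rintro _ ⟨x, hx, rfl⟩
  exact h.map i t x hx

theorem FilMod.DualA_P_le (h : FilMod Y M) (t : ℤ) : M t ⊔ (M t).map (Y 0) ≤ M (t + 1) :=
  sup_le (h.mono (by omega)) (h.DualA_map_le 0 t)

theorem FilMod.DualA_dimP (h : FilMod Y M) (t : ℤ) :
    Module.finrank k ↥(M (t + 1) ⊔ (M (t + 1)).map (Y 0)) + Module.finrank k (M t) =
      2 * Module.finrank k (M (t + 1)) := by
  have := h.fin t
  have := h.fin (t + 1)
  have h1 := Submodule.finrank_sup_add_finrank_inf_eq (M (t + 1)) ((M (t + 1)).map (Y 0))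
  have h2 : M (t + 1) ⊓ (M (t + 1)).map (Y 0) = (M t).map (Y 0) := by
    apply le_antisymm
    · rintro _ ⟨hy, x, hx, rfl⟩
      have := h.dep _ x hx hy
      rw [add_sub_cancel_right] at this
      exact ⟨x, this, rfl⟩
    · exact le_inf (h.DualA_map_le 0 t) (Submodule.map_mono (h.mono (by omega)))
  have h3 := DualA_finrank_map (S := M t) (Y 0)
  have h4 := DualA_finrank_map (S := M (t + 1)) (Y 0)
  rw [h.DualA_inj, finrank_bot] at h3 h4
  rw [h2] at h1
  omega

theorem FilMod.DualA_step (h : FilMod Y M) {t : ℤ}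
    (hg : M (t + 1 + 1) ≤ M (t + 1) ⊔ (M (t + 1)).map (Y 0) ⊔ (M (t + 1)).map (Y 1)) :
    Module.finrank k (M (t + 1 + 1)) + Module.finrank k ↥(M t ⊔ (M t).map (Y 0)) ≤
      Module.finrank k (M (t + 1)) + Module.finrank k ↥(M (t + 1) ⊔ (M (t + 1)).map (Y 0)) := by
  have := h.fin t
  have := h.fin (t + 1)
  have h1 := Submodule.finrank_sup_add_finrank_inf_eq (M (t + 1) ⊔ (M (t + 1)).map (Y 0))
    ((M (t + 1)).map (Y 1))
  have h2 := Submodule.finrank_mono hg
  have h3 : (M t ⊔ (M t).map (Y 0)).map (Y 1) ≤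
      (M (t + 1) ⊔ (M (t + 1)).map (Y 0)) ⊓ (M (t + 1)).map (Y 1) := by
    refine le_inf ?_ (Submodule.map_mono (h.DualA_P_le t))
    rw [Submodule.map_sup]
    refine sup_le_sup (h.DualA_map_le 1 t) ?_
    rintro _ ⟨_, ⟨x, hx, rfl⟩, rfl⟩
    exact ⟨Y 1 x, h.map 1 t x hx, h.comm x⟩
  have h4 := Submodule.finrank_mono h3
  have h5 := DualA_finrank_map (S := M (t + 1)) (Y 1)
  have h6 := DualA_finrank_map (S := M t ⊔ (M t).map (Y 0)) (Y 1)
  have h7 : Module.finrank k ↥((M t ⊔ (M t).map (Y 0)) ⊓ LinearMap.ker (Y 1)) ≤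
      Module.finrank k ↥(M (t + 1) ⊓ LinearMap.ker (Y 1)) :=
    Submodule.finrank_mono (inf_le_inf_right _ (h.DualA_P_le t))
  omega

theorem DualA_quad (d : ℕ → ℤ) (T : ℕ) (h0 : ∀ n, 0 ≤ d (n + 2) - 2 * d (n + 1) + d n)
    (h1 : ∀ n, T ≤ n → d (n + 3) - 2 * d (n + 2) + d (n + 1) ≤ d (n + 2) - 2 * d (n + 1) + d n) :
    ∃ A B C : ℤ, ∀ᶠ t : ℕ in atTop, 2 * d t = A * (t : ℤ) ^ 2 + B * t + C := by
  set q : ℕ → ℕ := fun n => (d (T + n + 2) - 2 * d (T + n + 1) + d (T + n)).toNat with hq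
  have hanti : Antitone q := antitone_nat_of_succ_le fun n => by
    have a1 := h1 (T + n) (by omega)
    simp only [hq]
    rw [show T + (n + 1) + 2 = T + n + 3 by ring, show T + (n + 1) + 1 = T + n + 2 by ring,
      show T + (n + 1) = T + n + 1 by ring]
    omega
  obtain ⟨N, hN⟩ := WellFoundedLT.antitone_chain_condition hanti
  set c : ℤ := (q N : ℤ) with hc
  set S := T + N with hS
  have h2 : ∀ n, d (S + n + 2) - 2 * d (S + n + 1) + d (S + n) = c := by
    intro n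
    have a1 := hN (N + n) (by omega)
    have a2 := h0 (S + n)
    rw [hc, a1]
    simp only [hq]
    rw [← add_assoc, ← hS]
    omega
  have h3 : ∀ n : ℕ, 2 * d (S + n) = 2 * d S + 2 * (d (S + 1) - d S) * n + c * n * (n - 1) ∧
      d (S + n + 1) - d (S + n) = d (S + 1) - d S + c * n := by
    intro n
    induction n with
    | zero => simp
    | succ n ih =>
      have a1 := h2 n
      rw [← add_assoc]
      push_cast
      constructor
      · linear_combination ih.1 + 2 * ih.2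
      · linear_combination ih.2 + a1
  refine ⟨c, 2 * (d (S + 1) - d S) - c * (2 * S + 1),
    2 * d S - 2 * (d (S + 1) - d S) * S + c * S * (S + 1), ?_⟩
  filter_upwards [eventually_ge_atTop S] with t ht
  obtain ⟨n, rfl⟩ := Nat.exists_eq_add_of_le ht
  rw [(h3 n).1]
  push_cast
  ring

/-- The second difference of the dimension is the dimension of `M t / (M (t-1) + Y 0 (M (t-1)))`,
on which `Y 1` is eventually onto; so it is eventually constant. -/
theorem FilMod.poly (h : FilMod Y M) : ∃ A B C : ℤ, ∀ᶠ t : ℕ in atTop,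
    2 * (Module.finrank k (M t) : ℤ) = A * (t : ℤ) ^ 2 + B * t + C := by
  obtain ⟨t1, ht1⟩ := h.gen
  refine DualA_quad (fun t : ℕ => (Module.finrank k (M t) : ℤ)) t1.toNat (fun n => ?_)
    fun n hn => ?_
  · have h1 := h.DualA_dimP n
    have := h.fin (n + 1 + 1)
    have h2 := Submodule.finrank_mono (h.DualA_P_le (n + 1))
    have e1 : ((n + 2 : ℕ) : ℤ) = n + 1 + 1 := by push_cast; ring
    have e2 : ((n + 1 : ℕ) : ℤ) = n + 1 := by push_cast; ring
    rw [e1, e2]
    omega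
  · have h1 := h.DualA_dimP n
    have h2 := h.DualA_dimP (n + 1)
    have h3 := h.DualA_step (t := n + 1) (ht1 _ (by omega))
    have e0 : ((n + 3 : ℕ) : ℤ) = n + 1 + 1 + 1 := by push_cast; ring
    have e1 : ((n + 2 : ℕ) : ℤ) = n + 1 + 1 := by push_cast; ring
    have e2 : ((n + 1 : ℕ) : ℤ) = n + 1 := by push_cast; ring
    rw [e0, e1, e2]
    omega

/-- Finitely many generators `g i ∈ M (a i)`. -/
theorem FilMod.exists_gens (h : FilMod Y M) : ∃ (m : ℕ) (g : Fin m → V) (a : Fin m → ℤ),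
    (∀ i, g i ∈ M (a i)) ∧ ∀ t, M t ≤ (M (t - 1) ⊔ (M (t - 1)).map (Y 0) ⊔ (M (t - 1)).map (Y 1)) ⊔
      Submodule.span k (g '' {i | a i = t}) := by
  obtain ⟨t0, ht0⟩ := h.bot
  obtain ⟨t1, ht1⟩ := h.gen
  have hfin := h.fin
  let ι : Type := Σ t : Finset.Icc t0 t1, Fin (Module.finrank k (M t))
  let e : Fin (Fintype.card ι) ≃ ι := (Fintype.equivFin ι).symm
  refine ⟨Fintype.card ι, fun i => (Module.finBasis k (M (e i).1) (e i).2 : V), fun i => (e i).1,
    fun i => Subtype.prop _, fun t => ?_⟩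
  by_cases h1 : t ≤ t0
  · refine le_trans (h.mono h1) ?_
    rw [ht0]; exact bot_le
  by_cases h2 : t1 < t
  · have := ht1 (t - 1) (by omega)
    rw [sub_add_cancel] at this
    exact this.trans le_sup_left
  have ht : t ∈ Finset.Icc t0 t1 := Finset.mem_Icc.2 ⟨by omega, by omega⟩
  refine le_trans (fun x hx => ?_) le_sup_right
  have h3 := congrArg Subtype.val ((Module.finBasis k (M t)).sum_repr ⟨x, hx⟩)
  simp only [Submodule.coe_sum, Submodule.coe_smul] at h3
  rw [← h3]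
  refine Submodule.sum_mem _ fun j _ => Submodule.smul_mem _ _ (Submodule.subset_span ?_)
  refine ⟨e.symm ⟨⟨t, ht⟩, j⟩, ?_, ?_⟩
  · simp only [Set.mem_ofPred_eq, Equiv.apply_symm_apply]
  · simp only
    rw [Equiv.apply_symm_apply]

theorem FilMod.fin_HH (h : FilMod Y M) (j : ℤ) : FiniteDimensional k (HH Y M j) := by
  obtain ⟨t1, ht1⟩ := h.gen
  have := h.fin t1
  have := fin_Bd (k := k) (t1 + j)
  let L : HH Y M j →ₗ[k] (M t1 →ₗ[k] Bd k (t1 + j)) :=
    { toFun := fun φ => LinearMap.codRestrict _ (φ.1 ∘ₗ Submodule.inclusion (le_iSup M t1))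
        fun x => φ.2.2 t1 _ x.2
      map_add' := fun φ ψ => by ext x; rfl
      map_smul' := fun c φ => by ext x; rfl }
  refine Module.Finite.of_injective L ?_
  intro φ ψ hφ
  have key : ∀ n : ℕ, ∀ x : ↥(⨆ t, M t), (x : V) ∈ M (t1 + n) → φ.1 x = ψ.1 x := by
    intro n
    induction n with
    | zero =>
      intro x hx
      rw [Nat.cast_zero, add_zero] at hx
      exact congrArg Subtype.val (LinearMap.congr_fun hφ ⟨x, hx⟩)
    | succ n ih =>
      intro x hx
      rw [Nat.cast_succ, ← add_assoc] at hx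
      obtain ⟨y, hy, _, ⟨w, hw, rfl⟩, hx⟩ := Submodule.mem_sup.1 (ht1 _ (by omega) hx)
      obtain ⟨u, hu, _, ⟨v, hv, rfl⟩, rfl⟩ := Submodule.mem_sup.1 hy
      have m : ∀ {t y}, y ∈ M t → y ∈ ⨆ t, M t := fun {t _} hy => le_iSup M t hy
      have e : x = ⟨u, m hu⟩ + ⟨Y 0 v, m (h.map 0 _ v hv)⟩ + ⟨Y 1 w, m (h.map 1 _ w hw)⟩ :=
        Subtype.ext hx.symm
      rw [e, map_add, map_add, map_add, map_add,
        φ.2.1 0 ⟨v, m hv⟩ ⟨Y 0 v, m (h.map 0 _ v hv)⟩ rfl,
        φ.2.1 1 ⟨w, m hw⟩ ⟨Y 1 w, m (h.map 1 _ w hw)⟩ rfl,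
        ψ.2.1 0 ⟨v, m hv⟩ ⟨Y 0 v, m (h.map 0 _ v hv)⟩ rfl,
        ψ.2.1 1 ⟨w, m hw⟩ ⟨Y 1 w, m (h.map 1 _ w hw)⟩ rfl,
        ih ⟨u, m hu⟩ hu, ih ⟨v, m hv⟩ hv, ih ⟨w, m hw⟩ hw]
  refine Subtype.ext (LinearMap.ext fun x => ?_)
  obtain ⟨t, ht⟩ := (Submodule.mem_iSup_of_directed M h.mono.directed_le).1 x.2
  exact key (t - t1).toNat x (h.mono (by omega) ht)

end Crest.Agent.R169
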