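/-
R169/Dual: the bound `χ ≤ h⁰ + h²` for filtered modules of depth two (part 2 of 2)
-/
import Crest.Agent.R169.DualA

set_option autoImplicit false
set_option linter.unusedSectionVars false
set_option linter.unusedVariables false
set_option linter.unusedSimpArgs false

noncomputable section

namespace Crest.Agent.R169

open MvPolynomial Filter
open scoped Pointwise


variable {k V : Type} [Field k] [AddCommGroup V] [Module k V] {Y : Fin 2 → Module.End k V}
  {M : ℤ → Submodule k V}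

/-! ### Polynomials of bounded degree -/

theorem dual_mem_Bd {d : ℤ} {g : PP k} :
    g ∈ Bd k d ↔ ∀ m, coeff m g ≠ 0 → (m 0 : ℤ) + m 1 ≤ d := by
  unfold Bd Wo
  rw [mem_restrictSupport_iff]
  refine forall_congr' fun m => ?_
  simp only [Finset.mem_coe, mem_support_iff, Set.mem_ofPred_eq]
  refine imp_congr_right fun _ => ?_
  omega

theorem dual_Bd_mono {d d' : ℤ} (h : d ≤ d') : Bd k d ≤ Bd k d' := fun _ hg =>
  dual_mem_Bd.2 fun m hm => (dual_mem_Bd.1 hg m hm).trans h

theorem dual_mul_mem_Bd {a b : ℤ} {f g : PP k} (hf : f ∈ Bd k a) (hg : g ∈ Bd k b) :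
    f * g ∈ Bd k (a + b) := by
  classical
  refine dual_mem_Bd.2 fun m hm => ?_
  rw [coeff_mul] at hm
  obtain ⟨p, hp, h⟩ := Finset.exists_ne_zero_of_sum_ne_zero hm
  have h1 := dual_mem_Bd.1 hf _ (left_ne_zero_of_mul h)
  have h2 := dual_mem_Bd.1 hg _ (right_ne_zero_of_mul h)
  rw [← show p.1 + p.2 = m by simpa using hp]
  simp only [Finsupp.add_apply]
  push_cast
  omega

theorem dual_single_deg (i : Fin 2) (m : Fin 2 →₀ ℕ) :
    (((Finsupp.single i 1 + m : Fin 2 →₀ ℕ) 0 : ℕ) : ℤ) +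
      ((Finsupp.single i 1 + m : Fin 2 →₀ ℕ) 1 : ℕ) = (m 0 : ℤ) + m 1 + 1 := by
  fin_cases i <;> simp <;> ring

theorem dual_X_mem_Bd (i : Fin 2) : (X i : PP k) ∈ Bd k 1 := by
  classical
  refine dual_mem_Bd.2 fun m hm => ?_
  rw [coeff_X] at hm
  split_ifs at hm with h
  · have := dual_single_deg i 0
    rw [add_zero, h] at this
    simpa using this.le
  · exact absurd rfl hm

theorem dual_X_mul_mem {d : ℤ} (i : Fin 2) {f : PP k} (hf : f ∈ Bd k d) :
    X i * f ∈ Bd k (d + 1) := by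
  rw [add_comm]; exact dual_mul_mem_Bd (dual_X_mem_Bd i) hf

theorem dual_mem_of_X_mul {d : ℤ} (i : Fin 2) {f : PP k} (hf : X i * f ∈ Bd k (d + 1)) :
    f ∈ Bd k d := by
  refine dual_mem_Bd.2 fun m hm => ?_
  have := dual_mem_Bd.1 hf (Finsupp.single i 1 + m) (by rwa [coeff_X_mul])
  rw [dual_single_deg] at this
  omega

theorem dual_split {d : ℤ} {v w : PP k} (hv : v ∈ Bd k (d + 1))
    (h : X 1 * v - X 0 * w ∈ Bd k (d + 1)) :
    ∃ v' ∈ Bd k d, ∃ s ∈ Bd k d, v = v' + X 0 * s := by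
  classical
  refine ⟨v.modMonomial (Finsupp.single 0 1), dual_mem_Bd.2 fun m hm => ?_,
    v.divMonomial (Finsupp.single 0 1), dual_mem_Bd.2 fun m hm => ?_,
    (modMonomial_add_divMonomial_single v 0).symm⟩
  · have h0 : ¬Finsupp.single (0 : Fin 2) 1 ≤ m := fun hle =>
      hm (coeff_modMonomial_of_le v hle)
    rw [coeff_modMonomial_of_not_le v h0] at hm
    have h1 : m 0 = 0 := by
      by_contra hne
      exact h0 (Finsupp.single_le_iff.2 (by omega))
    have h2 : coeff (Finsupp.single 1 1 + m) (X 1 * v - X 0 * w) ≠ 0 := by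
      rw [coeff_sub, coeff_X_mul, coeff_X_mul', if_neg (by simp [h1]), sub_zero]
      exact hm
    have := dual_mem_Bd.1 h _ h2
    rw [dual_single_deg] at this
    omega
  · rw [coeff_divMonomial] at hm
    have := dual_mem_Bd.1 hv _ hm
    rw [dual_single_deg] at this
    omega

theorem dual_finrank_Bd (a : ℤ) : 2 * (Module.finrank k (Bd k (-a)) : ℤ) +
    2 * Module.finrank k (Bd k (a - 3)) = (a - 1) * (a - 2) := by
  rcases le_or_gt a 0 with h | h
  · rw [finrank_Bd (by omega), Bd_eq_bot (d := a - 3) (by omega)]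
    simp only [finrank_bot]
    push_cast
    ring
  · rw [Bd_eq_bot (d := -a) (by omega), finrank_Bd (d := a - 3) (by omega)]
    simp only [finrank_bot]
    push_cast
    ring

/-! ### Linear algebra -/

theorem dual_rank_null {E E' : Type} [AddCommGroup E] [Module k E] [AddCommGroup E'] [Module k E']
    (L : E →ₗ[k] E') (U : Submodule k E) [FiniteDimensional k U] :
    Module.finrank k (U.map L) + Module.finrank k ↥(U ⊓ LinearMap.ker L) =
      Module.finrank k U := by
  rw [← (L.domRestrict U).finrank_range_add_finrank_ker, LinearMap.range_domRestrict,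
    LinearMap.ker_domRestrict, ← Submodule.finrank_map_subtype_eq U, Submodule.map_comap_subtype]

theorem dual_finrank_map_inj {E : Type} [AddCommGroup E] [Module k E] {L : E →ₗ[k] E}
    (hL : Function.Injective L) (U : Submodule k E) :
    Module.finrank k (U.map L) = Module.finrank k U :=
  (Submodule.equivMapOfInjective L hL U).finrank_eq.symm

/-- Tuples of polynomials of bounded degrees. -/
def dualF {m : ℕ} (k : Type) [Field k] (d : Fin m → ℤ) : Submodule k (Fin m → PP k) :=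
  Submodule.pi Set.univ fun i => Bd k (d i)

theorem mem_dualF {m : ℕ} {d : Fin m → ℤ} {f : Fin m → PP k} :
    f ∈ dualF k d ↔ ∀ i, f i ∈ Bd k (d i) := by
  simp [dualF, Submodule.mem_pi]

/-- `dualF` is a product. -/
def dualFEquiv {m : ℕ} (d : Fin m → ℤ) : dualF k d ≃ₗ[k] ∀ i, Bd k (d i) where
  toFun f i := ⟨f.1 i, mem_dualF.1 f.2 i⟩
  invFun g := ⟨fun i => g i, mem_dualF.2 fun i => (g i).2⟩
  map_add' _ _ := rfl
  map_smul' _ _ := rfl
  left_inv _ := rfl
  right_inv _ := rfl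

instance dual_fin_F {m : ℕ} (d : Fin m → ℤ) : FiniteDimensional k (dualF k d) :=
  have := fun i => fin_Bd (k := k) (d i)
  Module.Finite.equiv (dualFEquiv d).symm

theorem dual_finrank_F {m : ℕ} (d : Fin m → ℤ) :
    Module.finrank k (dualF k d) = ∑ i, Module.finrank k (Bd k (d i)) := by
  have := fun i => fin_Bd (k := k) (d i)
  rw [(dualFEquiv d).finrank_eq, Module.finrank_pi_fintype]

/-- Multiplication of tuples by a variable. -/
def dualX {m : ℕ} (k : Type) [Field k] (i : Fin 2) : (Fin m → PP k) →ₗ[k] (Fin m → PP k) where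
  toFun f j := X i * f j
  map_add' f g := by funext j; simp [mul_add]
  map_smul' c f := by funext j; simp

theorem dualX_apply {m : ℕ} (i : Fin 2) (f : Fin m → PP k) (j : Fin m) :
    dualX k i f j = X i * f j := rfl

theorem dualX_inj {m : ℕ} (i : Fin 2) : Function.Injective (dualX (m := m) k i) := by
  intro f g h
  funext j
  exact mul_left_cancel₀ (X_ne_zero i) (congrFun h j)

/-- The pairing of tuples. -/
def dualΦ {m : ℕ} (k : Type) [Field k] : (Fin m → PP k) →ₗ[k] (Fin m → PP k) →ₗ[k] PP k :=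
  LinearMap.mk₂ k (fun φ f => ∑ i, f i * φ i)
    (fun _ _ _ => by simp [mul_add, Finset.sum_add_distrib])
    (fun _ _ _ => by simp [Finset.smul_sum])
    (fun _ _ _ => by simp [add_mul, Finset.sum_add_distrib])
    (fun _ _ _ => by simp [Finset.smul_sum])

theorem dualΦ_apply {m : ℕ} (φ f : Fin m → PP k) : dualΦ k φ f = ∑ i, f i * φ i := rfl

theorem dualΦ_X {m : ℕ} (φ f : Fin m → PP k) (i : Fin 2) :
    dualΦ k φ (dualX k i f) = X i * dualΦ k φ f := by
  simp [dualΦ_apply, dualX_apply, Finset.mul_sum, mul_assoc]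

theorem dualΦ_mem {m : ℕ} {a : Fin m → ℤ} {t : ℤ} {φ f : Fin m → PP k}
    (hφ : φ ∈ dualF k fun i => a i - 3) (hf : f ∈ dualF k fun i => t - a i) :
    dualΦ k φ f ∈ Bd k (t - 3) := by
  rw [dualΦ_apply]
  refine Submodule.sum_mem _ fun i _ => ?_
  have := dual_mul_mem_Bd (mem_dualF.1 hf i) (mem_dualF.1 hφ i)
  rwa [show t - a i + (a i - 3) = t - 3 by ring] at this

/-! ### The presentation -/

/-- The action of the polynomial ring. -/
def dualAct (Y : Fin 2 → Module.End k V) : PP k →ₗ[k] Module.End k V :=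
  (basisMonomials (Fin 2) k).constr k fun m => Y 0 ^ m 0 * Y 1 ^ m 1

theorem dualAct_monomial (m : Fin 2 →₀ ℕ) :
    dualAct Y (monomial m 1) = Y 0 ^ m 0 * Y 1 ^ m 1 :=
  (basisMonomials (Fin 2) k).constr_basis k _ m

theorem dualAct_one : dualAct Y 1 = 1 := by
  have := dualAct_monomial (Y := Y) 0
  simpa using this

theorem FilMod.dualAct_X (h : FilMod Y M) (i : Fin 2) (f : PP k) :
    dualAct Y (X i * f) = Y i * dualAct Y f := by
  have hc : Commute (Y 0) (Y 1) := LinearMap.ext h.comm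
  have : (dualAct Y).comp (LinearMap.mulLeft k (X i)) =
      (LinearMap.mulLeft k (Y i)).comp (dualAct Y) := by
    refine (basisMonomials (Fin 2) k).ext fun m => ?_
    simp only [LinearMap.comp_apply, LinearMap.mulLeft_apply, coe_basisMonomials]
    rw [← pow_one (X i), ← monomial_single_add, dualAct_monomial, dualAct_monomial]
    fin_cases i
    · simp [pow_add, mul_assoc]
    · simp only [Fin.mk_one, Fin.isValue, Finsupp.coe_add, Pi.add_apply, ne_eq, zero_ne_one,
        not_false_eq_true, Finsupp.single_eq_of_ne, zero_add, Finsupp.single_eq_same, pow_add,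
        pow_one]
      rw [← mul_assoc, ← mul_assoc, (hc.pow_left _).eq]
  exact LinearMap.congr_fun this f

theorem FilMod.dual_pow_mem (h : FilMod Y M) (i : Fin 2) (n : ℕ) {t : ℤ} {x : V} (hx : x ∈ M t) :
    (Y i ^ n) x ∈ M (t + n) := by
  induction n with
  | zero => simpa using hx
  | succ n ih =>
    rw [pow_succ', Module.End.mul_apply, Nat.cast_succ, ← add_assoc]
    exact h.map i _ _ ih

theorem FilMod.dualAct_mem (h : FilMod Y M) {d t : ℤ} {f : PP k} (hf : f ∈ Bd k d) {x : V}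
    (hx : x ∈ M t) : dualAct Y f x ∈ M (t + d) := by
  rw [f.as_sum, map_sum, LinearMap.sum_apply]
  refine Submodule.sum_mem _ fun m hm => ?_
  have e : monomial m (coeff m f) = coeff m f • (monomial m 1 : PP k) := by
    rw [smul_monomial, smul_eq_mul, mul_one]
  rw [e, map_smul, LinearMap.smul_apply, dualAct_monomial, Module.End.mul_apply]
  refine Submodule.smul_mem _ _ (h.mono ?_ (h.dual_pow_mem 0 _ (h.dual_pow_mem 1 _ hx)))
  have := dual_mem_Bd.1 hf m (mem_support_iff.1 hm)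
  omega

/-- The surjection from the free module. -/
def dualπ {m : ℕ} (Y : Fin 2 → Module.End k V) (g : Fin m → V) : (Fin m → PP k) →ₗ[k] V where
  toFun f := ∑ i, dualAct Y (f i) (g i)
  map_add' f f' := by simp [Finset.sum_add_distrib]
  map_smul' c f := by simp [Finset.smul_sum]

theorem dualπ_apply {m : ℕ} (g : Fin m → V) (f : Fin m → PP k) :
    dualπ Y g f = ∑ i, dualAct Y (f i) (g i) := rfl

theorem FilMod.dualπ_X (h : FilMod Y M) {m : ℕ} (g : Fin m → V) (i : Fin 2) (f : Fin m → PP k) :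
    dualπ Y g (dualX k i f) = Y i (dualπ Y g f) := by
  simp [dualπ_apply, dualX_apply, h.dualAct_X]

theorem dualπ_single {m : ℕ} (g : Fin m → V) (i : Fin m) : dualπ Y g (Pi.single i 1) = g i := by
  rw [dualπ_apply, Finset.sum_eq_single i]
  · simp [dualAct_one]
  · intro j _ hj
    simp [Pi.single_eq_of_ne hj]
  · simp

theorem dualX_mem {m : ℕ} {a : Fin m → ℤ} {t : ℤ} (i : Fin 2) {f : Fin m → PP k}
    (hf : f ∈ dualF k fun j => t - 1 - a j) : dualX k i f ∈ dualF k fun j => t - a j :=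
  mem_dualF.2 fun j => by
    have := dual_X_mul_mem i (mem_dualF.1 hf j)
    rwa [show t - 1 - a j + 1 = t - a j by ring] at this

theorem dualF_mono {m : ℕ} {a : Fin m → ℤ} {t t' : ℤ} (h : t ≤ t') :
    (dualF k fun j => t - a j) ≤ dualF k fun j => t' - a j := fun _ hf =>
  mem_dualF.2 fun j => dual_Bd_mono (by omega) (mem_dualF.1 hf j)

theorem FilMod.dual_map_F (h : FilMod Y M) {m : ℕ} {g : Fin m → V} {a : Fin m → ℤ}
    (hg : ∀ i, g i ∈ M (a i))
    (hgen : ∀ t, M t ≤ (M (t - 1) ⊔ (M (t - 1)).map (Y 0) ⊔ (M (t - 1)).map (Y 1)) ⊔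
      Submodule.span k (g '' {i | a i = t})) (t : ℤ) :
    (dualF k fun i => t - a i).map (dualπ Y g) = M t := by
  apply le_antisymm
  · rintro _ ⟨f, hf, rfl⟩
    rw [dualπ_apply]
    refine Submodule.sum_mem _ fun i _ => ?_
    have := h.dualAct_mem (mem_dualF.1 hf i) (hg i)
    rwa [show a i + (t - a i) = t by ring] at this
  · obtain ⟨t0, ht0⟩ := h.bot
    rcases le_total t t0 with ht | ht
    · exact (h.mono ht).trans (ht0.le.trans bot_le)
    induction t, ht using Int.leInduction with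
    | base => exact ht0.le.trans bot_le
    | succ t _ ih =>
      have hX : ∀ i, (M t).map (Y i) ≤ (dualF k fun i => t + 1 - a i).map (dualπ Y g) := by
        rintro i _ ⟨x, hx, rfl⟩
        obtain ⟨f, hf, rfl⟩ := ih hx
        exact ⟨_, dualX_mem i (by simpa using hf), h.dualπ_X g i f⟩
      refine (hgen (t + 1)).trans ?_
      rw [add_sub_cancel_right]
      refine sup_le (sup_le (sup_le (ih.trans (Submodule.map_mono (dualF_mono (by omega))))
        (hX 0)) (hX 1)) (Submodule.span_le.2 ?_)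
      rintro _ ⟨i, hi, rfl⟩
      refine ⟨Pi.single i 1, mem_dualF.2 fun j => ?_, dualπ_single g i⟩
      by_cases hj : j = i
      · subst hj
        rw [Pi.single_eq_same, show a j = t + 1 from hi, sub_self]
        refine dual_mem_Bd.2 fun m hm => ?_
        rw [coeff_one] at hm
        split_ifs at hm with h0
        · simp [← h0]
        · exact absurd rfl hm
      · rw [Pi.single_eq_of_ne hj]; exact zero_mem _

/-! ### The syzygies -/

/-- The filtered module of relations. -/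
def dualN {m : ℕ} (Y : Fin 2 → Module.End k V) (g : Fin m → V) (a : Fin m → ℤ) (t : ℤ) :
    Submodule k (Fin m → PP k) :=
  (dualF k fun i => t - a i) ⊓ LinearMap.ker (dualπ Y g)

instance dual_fin_N {m : ℕ} (g : Fin m → V) (a : Fin m → ℤ) (t : ℤ) :
    FiniteDimensional k (dualN Y g a t) :=
  Submodule.finiteDimensional_of_le inf_le_left

section syz
variable {m : ℕ} {g : Fin m → V} {a : Fin m → ℤ}

theorem dualN_mono {t t' : ℤ} (h : t ≤ t') : dualN Y g a t ≤ dualN Y g a t' :=
  inf_le_inf_right _ (dualF_mono h)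

theorem FilMod.dualN_X (h : FilMod Y M) (i : Fin 2) (t : ℤ) :
    (dualN Y g a (t - 1)).map (dualX k i) ≤ dualN Y g a t := by
  rintro _ ⟨f, ⟨hf, hf'⟩, rfl⟩
  refine ⟨dualX_mem i hf, ?_⟩
  rw [SetLike.mem_coe, LinearMap.mem_ker] at hf' ⊢
  rw [h.dualπ_X, hf', map_zero]

theorem FilMod.dual_rank_D1 (h : FilMod Y M) (t : ℤ) :
    Module.finrank k ↥(dualN Y g a t ⊔ (dualN Y g a t).map (dualX k 0)) +
      Module.finrank k (dualN Y g a (t - 1)) = 2 * Module.finrank k (dualN Y g a t) := by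
  have e : dualN Y g a t ⊓ (dualN Y g a t).map (dualX k 0) =
      (dualN Y g a (t - 1)).map (dualX k 0) := by
    refine le_antisymm ?_ (le_inf (h.dualN_X 0 t) (Submodule.map_mono (dualN_mono (by omega))))
    rintro _ ⟨hx, f, hf, rfl⟩
    refine ⟨f, ⟨mem_dualF.2 fun j => dual_mem_of_X_mul 0 ?_, hf.2⟩, rfl⟩
    rw [show t - 1 - a j + 1 = t - a j by ring]
    exact mem_dualF.1 hx.1 j
  have := Submodule.finrank_sup_add_finrank_inf_eq (dualN Y g a t)
    ((dualN Y g a t).map (dualX k 0))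
  rw [e, dual_finrank_map_inj (dualX_inj 0), dual_finrank_map_inj (dualX_inj 0)] at this
  omega

theorem FilMod.dual_inf_le (h : FilMod Y M)
    (hπ : ∀ t, (dualF k fun i => t - a i).map (dualπ Y g) = M t) (t : ℤ) :
    (dualN Y g a t ⊔ (dualN Y g a t).map (dualX k 0)) ⊓ (dualN Y g a t).map (dualX k 1) ≤
      (dualN Y g a (t - 1) ⊔ (dualN Y g a (t - 1)).map (dualX k 0)).map (dualX k 1) := by
  rintro _ ⟨hx, v, hv, rfl⟩
  refine ⟨v, ?_, rfl⟩
  obtain ⟨u, hu, _, ⟨w, hw, rfl⟩, e⟩ := Submodule.mem_sup.1 hx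
  have hs : ∀ j, ∃ v' ∈ Bd k (t - 1 - a j), ∃ s ∈ Bd k (t - 1 - a j), v j = v' + X 0 * s := by
    intro j
    refine dual_split (w := w j) ?_ ?_
    · rw [show t - 1 - a j + 1 = t - a j by ring]
      exact mem_dualF.1 hv.1 j
    · rw [show t - 1 - a j + 1 = t - a j by ring]
      have := congrFun e j
      rw [Pi.add_apply, dualX_apply, dualX_apply] at this
      rw [← this, add_sub_cancel_right]
      exact mem_dualF.1 hu.1 j
  choose v' hv' s hs hvs using hs
  have e1 : v = v' + dualX k 0 s := funext hvs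
  have hv0 : dualπ Y g v = 0 := hv.2
  have h1 : dualπ Y g s ∈ M (t - 1) := hπ (t - 1) ▸ ⟨s, mem_dualF.2 hs, rfl⟩
  have h2 : Y 0 (dualπ Y g s) ∈ M (t - 1) := by
    rw [e1, map_add, h.dualπ_X, add_eq_zero_iff_neg_eq] at hv0
    rw [← hv0]
    exact neg_mem (hπ (t - 1) ▸ ⟨v', mem_dualF.2 hv', rfl⟩)
  have h3 := h.dep _ _ h1 h2
  rw [← hπ] at h3
  obtain ⟨s', hs', e3⟩ := h3
  have h4 : s - s' ∈ dualN Y g a (t - 1) :=
    ⟨sub_mem (mem_dualF.2 hs) (dualF_mono (by omega) hs'), by
      rw [SetLike.mem_coe, LinearMap.mem_ker, map_sub, e3, sub_self]⟩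
  refine Submodule.mem_sup.2 ⟨v' + dualX k 0 s', ⟨add_mem (mem_dualF.2 hv') (dualX_mem 0 hs'), ?_⟩,
    _, ⟨_, h4, rfl⟩, ?_⟩
  · rw [SetLike.mem_coe, LinearMap.mem_ker, map_add, h.dualπ_X, e3, ← h.dualπ_X, ← map_add, ← e1,
      hv0]
  · rw [e1, map_sub]; abel

theorem FilMod.dual_rank_D (h : FilMod Y M)
    (hπ : ∀ t, (dualF k fun i => t - a i).map (dualπ Y g) = M t) (t : ℤ) :
    3 * Module.finrank k (dualN Y g a t) + Module.finrank k (dualN Y g a (t - 1 - 1)) ≤
      Module.finrank k ↥(dualN Y g a t ⊔ (dualN Y g a t).map (dualX k 0) ⊔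
        (dualN Y g a t).map (dualX k 1)) + 3 * Module.finrank k (dualN Y g a (t - 1)) := by
  have h1 := h.dual_rank_D1 (g := g) (a := a) t
  have h2 := h.dual_rank_D1 (g := g) (a := a) (t - 1)
  have h3 := Submodule.finrank_sup_add_finrank_inf_eq
    (dualN Y g a t ⊔ (dualN Y g a t).map (dualX k 0)) ((dualN Y g a t).map (dualX k 1))
  have h4 := Submodule.finrank_mono (h.dual_inf_le hπ t)
  rw [dual_finrank_map_inj (dualX_inj 1)] at h3 h4
  omega

theorem dual_abs_step {E N P : Type} [AddCommGroup E] [Module k E] [AddCommGroup N] [Module k N]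
    [AddCommGroup P] [Module k P] [FiniteDimensional k N] (Φ : E →ₗ[k] N →ₗ[k] P)
    (K : Submodule k E) [FiniteDimensional k K] (B : Submodule k P) [FiniteDimensional k B]
    (D : Submodule k N) (hB : ∀ φ ∈ K, ∀ v, Φ φ v ∈ B) (hD : ∀ φ ∈ K, ∀ v ∈ D, Φ φ v = 0) :
    ∃ n : ℕ, n + Module.finrank k D = Module.finrank k N ∧
      Module.finrank k K ≤ Module.finrank k ↥(K ⊓ LinearMap.ker Φ) + n * Module.finrank k B := by
  obtain ⟨C, hC⟩ := D.exists_isCompl
  refine ⟨Module.finrank k C, by rw [← Submodule.finrank_add_eq_of_isCompl hC, add_comm], ?_⟩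
  let L := Φ.compl₂ C.subtype
  let ι : (C →ₗ[k] B) →ₗ[k] (C →ₗ[k] P) := LinearMap.llcomp k C B P B.subtype
  have h1 : K.map L ≤ LinearMap.range ι := by
    rintro _ ⟨φ, hφ, rfl⟩
    exact ⟨(L φ).codRestrict _ fun c => hB φ hφ c, rfl⟩
  have h2 : K ⊓ LinearMap.ker L ≤ K ⊓ LinearMap.ker Φ := by
    rintro φ ⟨hφ, hL⟩
    refine ⟨hφ, LinearMap.ext fun v => ?_⟩
    obtain ⟨d, hd, c, hc, rfl⟩ := Submodule.mem_sup.1
      (show v ∈ D ⊔ C from hC.sup_eq_top ▸ Submodule.mem_top)
    have hc0 : Φ φ c = 0 := LinearMap.congr_fun (LinearMap.mem_ker.1 hL) ⟨c, hc⟩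
    rw [map_add, hc0, hD φ hφ d hd, add_zero, LinearMap.zero_apply]
  have h3 := dual_rank_null L K
  have h4 := Submodule.finrank_mono h1
  have h5 := Submodule.finrank_mono h2
  have h6 := ι.finrank_range_le
  rw [Module.finrank_linearMap] at h6
  omega

/-- The tuples that pair to zero with `U`. -/
def dualK (a : Fin m → ℤ) (U : Submodule k (Fin m → PP k)) : Submodule k (Fin m → PP k) :=
  (dualF k fun i => a i - 3) ⊓ LinearMap.ker ((dualΦ k).compl₂ U.subtype)

theorem mem_dualK {U : Submodule k (Fin m → PP k)} {φ : Fin m → PP k} :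
    φ ∈ dualK a U ↔ φ ∈ (dualF k fun i => a i - 3) ∧ ∀ v ∈ U, dualΦ k φ v = 0 := by
  simp [dualK, LinearMap.ext_iff]

instance dual_fin_K (U : Submodule k (Fin m → PP k)) : FiniteDimensional k (dualK a U) :=
  Submodule.finiteDimensional_of_le inf_le_left

theorem FilMod.dual_step (h : FilMod Y M) (t : ℤ) :
    ∃ n : ℕ, n + Module.finrank k ↥(dualN Y g a (t - 1) ⊔ (dualN Y g a (t - 1)).map (dualX k 0) ⊔
        (dualN Y g a (t - 1)).map (dualX k 1)) = Module.finrank k (dualN Y g a t) ∧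
      Module.finrank k (dualK a (dualN Y g a (t - 1))) ≤
        Module.finrank k (dualK a (dualN Y g a t)) + n * Module.finrank k (Bd k (t - 3)) := by
  set D := dualN Y g a (t - 1) ⊔ (dualN Y g a (t - 1)).map (dualX k 0) ⊔
    (dualN Y g a (t - 1)).map (dualX k 1) with hD
  have hDN : D ≤ dualN Y g a t :=
    sup_le (sup_le (dualN_mono (by omega)) (h.dualN_X 0 t)) (h.dualN_X 1 t)
  have := fin_Bd (k := k) (t - 3)
  obtain ⟨n, h1, h2⟩ := dual_abs_step ((dualΦ k).compl₂ (dualN Y g a t).subtype)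
    (dualK a (dualN Y g a (t - 1))) (Bd k (t - 3)) (D.comap (dualN Y g a t).subtype)
    (fun φ hφ v => dualΦ_mem hφ.1 v.2.1) (fun φ hφ v hv => by
      have k2 := (mem_dualK.1 hφ).2
      have hD0 : D ≤ LinearMap.ker (dualΦ k φ) := by
        refine sup_le (sup_le k2 ?_) ?_ <;>
        · rintro _ ⟨f, hf, rfl⟩
          rw [LinearMap.mem_ker, dualΦ_X, k2 f hf, mul_zero]
      exact hD0 hv)
  rw [(Submodule.comapSubtypeEquivOfLe hDN).finrank_eq] at h1
  refine ⟨n, h1, h2.trans (Nat.add_le_add_right (Submodule.finrank_mono ?_) _)⟩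
  exact inf_le_inf_right _ inf_le_left

theorem FilMod.dual_ind (h : FilMod Y M)
    (hπ : ∀ t, (dualF k fun i => t - a i).map (dualπ Y g) = M t) (t : ℤ) (ht : 2 ≤ t) :
    2 * (Module.finrank k (dualF k fun i => a i - 3) : ℤ) +
        2 * Module.finrank k (dualN Y g a 0) ≤ 2 * Module.finrank k (dualK a (dualN Y g a t)) +
      (Module.finrank k (dualN Y g a t) * ((t - 1) * (t - 2)) -
        2 * Module.finrank k (dualN Y g a (t - 1)) * (t * (t - 2)) +
        Module.finrank k (dualN Y g a (t - 1 - 1)) * (t * (t - 1))) := by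
  induction t, ht using Int.leInduction with
  | base =>
    have e : dualK a (dualN Y g a 2) = dualF k fun i => a i - 3 := by
      refine le_antisymm inf_le_left fun φ hφ => mem_dualK.2 ⟨hφ, fun v hv => ?_⟩
      have := dualΦ_mem hφ hv.1
      rwa [Bd_eq_bot (by norm_num), Submodule.mem_bot] at this
    rw [e, show (2 : ℤ) - 1 - 1 = 0 by norm_num]
    linarith
  | succ t ht ih =>
    obtain ⟨n, h1, h2⟩ := h.dual_step (g := g) (a := a) (t + 1)
    have h3 := h.dual_rank_D hπ t
    have h4 := finrank_Bd (k := k) (d := t + 1 - 3) (by omega)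
    rw [add_sub_cancel_right] at h1 h2 ⊢
    have h5 : (n : ℤ) ≤ Module.finrank k (dualN Y g a (t + 1)) -
        3 * Module.finrank k (dualN Y g a t) + 3 * Module.finrank k (dualN Y g a (t - 1)) -
        Module.finrank k (dualN Y g a (t - 1 - 1)) := by omega
    have h6 : (Module.finrank k (dualK a (dualN Y g a t)) : ℤ) ≤
        Module.finrank k (dualK a (dualN Y g a (t + 1))) +
          n * Module.finrank k (Bd k (t + 1 - 3)) := by exact_mod_cast h2
    have h7 := mul_le_mul_of_nonneg_right h5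
      (show (0 : ℤ) ≤ t * (t - 1) from mul_nonneg (by omega) (by omega))
    have h8 : 2 * ((n : ℤ) * Module.finrank k (Bd k (t + 1 - 3))) = n * (t * (t - 1)) := by
      rw [mul_left_comm, h4]; ring
    linarith

theorem dual_K_stab : ∃ T : ℤ, ∀ t, T ≤ t →
    dualK a (dualN Y g a t) ≤ dualK a (LinearMap.ker (dualπ Y g)) := by
  have hanti : ∀ {t t' : ℤ}, t ≤ t' → dualK a (dualN Y g a t') ≤ dualK a (dualN Y g a t) :=
    fun htt' φ hφ => mem_dualK.2 ⟨(mem_dualK.1 hφ).1,
      fun v hv => (mem_dualK.1 hφ).2 v (dualN_mono htt' hv)⟩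
  obtain ⟨_, ⟨T, rfl⟩, hT⟩ := (wellFounded_lt (α := ℕ)).has_min
    (Set.range fun t : ℤ => Module.finrank k (dualK a (dualN Y g a t))) ⟨_, 0, rfl⟩
  refine ⟨T, fun t ht φ hφ => mem_dualK.2 ⟨(mem_dualK.1 hφ).1, fun v hv => ?_⟩⟩
  obtain ⟨s, hs, hv'⟩ : ∃ s, t ≤ s ∧ v ∈ dualF k fun i => s - a i := by
    refine ⟨max t (∑ i, (|a i| + (v i).totalDegree)), le_max_left _ _,
      mem_dualF.2 fun i => dual_mem_Bd.2 fun m hm => ?_⟩
    have h1 : m 0 + m 1 ≤ (v i).totalDegree := by
      have := le_totalDegree (mem_support_iff.2 hm)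
      rwa [Finsupp.sum_fintype _ _ (fun _ => rfl), Fin.sum_univ_two] at this
    have h2 : |a i| + (v i).totalDegree ≤ ∑ i, (|a i| + ((v i).totalDegree : ℤ)) :=
      Finset.single_le_sum (f := fun i => |a i| + ((v i).totalDegree : ℤ))
        (fun j _ => by positivity) (Finset.mem_univ i)
    have h3 := le_abs_self (a i)
    have h4 := le_max_right t (∑ i, (|a i| + ((v i).totalDegree : ℤ)))
    omega
  have e : dualK a (dualN Y g a s) = dualK a (dualN Y g a t) :=
    Submodule.eq_of_le_of_finrank_le (hanti hs)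
      ((Submodule.finrank_mono (hanti ht)).trans (not_lt.1 (hT _ ⟨s, rfl⟩)))
  rw [← e] at hφ
  exact (mem_dualK.1 hφ).2 v ⟨hv', hv⟩

theorem FilMod.dual_K_le (h : FilMod Y M) (hg : ∀ i, g i ∈ M (a i))
    (hπ : ∀ t, (dualF k fun i => t - a i).map (dualπ Y g) = M t) :
    Module.finrank k (dualK a (LinearMap.ker (dualπ Y g))) ≤ Module.finrank k (HH Y M (-3)) := by
  have := h.fin_HH (-3)
  have hex : ∀ x : V, x ∈ ⨆ t, M t → ∃ f, dualπ Y g f = x := by
    intro x hx
    obtain ⟨t, ht⟩ := (Submodule.mem_iSup_of_directed _ h.mono.directed_le).1 hx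
    rw [← hπ] at ht
    obtain ⟨f, -, rfl⟩ := ht
    exact ⟨f, rfl⟩
  obtain ⟨σ, hσ⟩ := (dualπ Y g).rangeRestrict.exists_rightInverse_of_surjective
    (LinearMap.range_rangeRestrict _)
  have hle : (⨆ t, M t) ≤ LinearMap.range (dualπ Y g) := hex
  let τ : ↥(⨆ t, M t) →ₗ[k] (Fin m → PP k) := σ ∘ₗ Submodule.inclusion hle
  have hτ : ∀ x, dualπ Y g (τ x) = x := fun x =>
    congrArg Subtype.val (LinearMap.congr_fun hσ (Submodule.inclusion hle x))
  have key : ∀ φ ∈ dualK a (LinearMap.ker (dualπ Y g)), ∀ (x : ↥(⨆ t, M t)) f,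
      dualπ Y g f = x → dualΦ k φ (τ x) = dualΦ k φ f := by
    intro φ hφ x f hf
    rw [← sub_eq_zero, ← map_sub]
    exact (mem_dualK.1 hφ).2 _ (by rw [LinearMap.mem_ker, map_sub, hτ, hf, sub_self])
  have hmem : ∀ φ ∈ dualK a (LinearMap.ker (dualπ Y g)),
      (dualΦ k).compl₂ τ φ ∈ HH Y M (-3) := by
    intro φ hφ
    refine ⟨fun i x y e => ?_, fun t x hx => ?_⟩
    · rw [LinearMap.compl₂_apply, LinearMap.compl₂_apply,
        key φ hφ y (dualX k i (τ x)) (by rw [h.dualπ_X, hτ, e]), dualΦ_X]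
    · rw [← hπ] at hx
      obtain ⟨f, hf, e⟩ := hx
      rw [LinearMap.compl₂_apply, key φ hφ x f e]
      exact dualΦ_mem hφ.1 hf
  refine (((dualΦ k).compl₂ τ).restrict hmem).finrank_le_finrank_of_injective
    ((injective_iff_map_eq_zero _).2 fun φ hφ => ?_)
  ext1
  funext i
  have h0 : (dualΦ k).compl₂ τ φ = 0 := congrArg Subtype.val hφ
  have h1 := LinearMap.congr_fun h0 ⟨g i, Submodule.mem_iSup_of_mem _ (hg i)⟩
  rw [LinearMap.compl₂_apply, LinearMap.zero_apply] at h1
  rw [key φ φ.2 _ (Pi.single i 1) (dualπ_single g i), dualΦ_apply, Finset.sum_eq_single i] at h1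
  · simpa using h1
  · intro j _ hj
    simp [Pi.single_eq_of_ne hj]
  · simp

end syz

/-- The relations among finitely many generators form a filtered module of depth three; count the
homomorphisms of degree `-3` on the free module that kill the relations degree by degree. -/
theorem FilMod.duality (h : FilMod Y M) {A B C : ℤ} (hp : ∀ᶠ t : ℕ in atTop,
      2 * (Module.finrank k (M t) : ℤ) = A * (t : ℤ) ^ 2 + B * t + C) :
    C ≤ 2 * Module.finrank k (M 0) + 2 * Module.finrank k (HH Y M (-3)) := by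
  obtain ⟨m, g, a, hg, hgen⟩ := h.exists_gens
  have hπ := h.dual_map_F hg hgen
  have hrk : ∀ t, (Module.finrank k (M t) : ℤ) + Module.finrank k (dualN Y g a t) =
      ∑ i, (Module.finrank k (Bd k (t - a i)) : ℤ) := fun t => by
    have := dual_rank_null (dualπ Y g) (dualF k fun i => t - a i)
    rw [hπ, dual_finrank_F] at this
    exact_mod_cast this
  obtain ⟨T, hT⟩ := dual_K_stab (Y := Y) (g := g) (a := a)
  obtain ⟨s0, hs0⟩ := eventually_atTop.1 hp
  obtain ⟨s, hs1, hs2, hs3⟩ : ∃ s : ℕ, s0 ≤ s ∧ T ≤ s ∧ ∀ i, a i ≤ s := by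
    refine ⟨s0 + T.toNat + ∑ i, (a i).toNat, by omega, by omega, fun i => ?_⟩
    have := Finset.single_le_sum (f := fun i => (a i).toNat) (fun j _ => Nat.zero_le _)
      (Finset.mem_univ i)
    omega
  have hN : ∀ j : ℕ, 2 * (Module.finrank k (dualN Y g a (s + j)) : ℤ) =
      ∑ i, ((s + j - a i + 1) * (s + j - a i + 2)) -
        (A * (s + j : ℤ) ^ 2 + B * (s + j) + C) := fun j => by
    have h1 := hs0 (s + j) (by omega)
    have h2 := hrk (s + j)
    push_cast at h1
    rw [← h1, ← Finset.sum_congr rfl fun i _ => finrank_Bd (k := k) (d := s + j - a i)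
      (by have := hs3 i; omega), ← Finset.mul_sum, ← h2]
    ring
  have h1 := h.dual_ind hπ (s + 2) (by omega)
  have h2 := (Submodule.finrank_mono (hT (s + 2) (by omega))).trans (h.dual_K_le hg hπ)
  have h3 := hrk 0
  have h4 : 2 * (∑ i, (Module.finrank k (Bd k (0 - a i)) : ℤ)) +
      2 * (Module.finrank k (dualF k fun i => a i - 3) : ℤ) = ∑ i, (a i - 1) * (a i - 2) := by
    rw [dual_finrank_F]
    push_cast
    rw [Finset.mul_sum, Finset.mul_sum, ← Finset.sum_add_distrib]
    exact Finset.sum_congr rfl fun i _ => by rw [zero_sub, dual_finrank_Bd]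
  have e0 := hN 0
  have e1 := hN 1
  have e2 := hN 2
  rw [show (s : ℤ) + 2 - 1 = s + (1 : ℕ) by push_cast; ring,
    show (s : ℤ) + (1 : ℕ) - 1 = s + (0 : ℕ) by push_cast; ring] at h1
  have h5 : (∑ i, ((s + (2 : ℕ) - a i + 1) * (s + (2 : ℕ) - a i + 2))) * ((s + 1) * s) -
      2 * (∑ i, ((s + (1 : ℕ) - a i + 1) * (s + (1 : ℕ) - a i + 2))) * ((s + 2) * s) +
      (∑ i, ((s + (0 : ℕ) - a i + 1) * (s + (0 : ℕ) - a i + 2))) * ((s + 2) * (s + 1)) =
      2 * ∑ i, (a i - 1) * (a i - 2) := by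
    simp only [Finset.sum_mul, Finset.mul_sum, ← Finset.sum_sub_distrib, ← Finset.sum_add_distrib]
    exact Finset.sum_congr rfl fun i _ => by push_cast; ring
  have h2' : (Module.finrank k (dualK a (dualN Y g a (s + 2))) : ℤ) ≤
    Module.finrank k (HH Y M (-3)) := by exact_mod_cast h2
  push_cast at h1 e0 e1 e2 h5
  have h6 : 2 * ((Module.finrank k (dualN Y g a (s + 2)) : ℤ) * ((s + 1) * (s + 2 - 2)) -
      2 * Module.finrank k (dualN Y g a (s + 1)) * ((s + 2) * (s + 2 - 2)) +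
      Module.finrank k (dualN Y g a (s + 0)) * ((s + 2) * (s + 1))) =
      2 * ∑ i, (a i - 1) * (a i - 2) - 2 * C := by
    rw [← h5]
    linear_combination ((s + 1) * s) * e2 - 2 * ((s + 2) * s) * e1 + ((s + 2) * (s + 1)) * e0
  linarith

end Crest.Agent.R169
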