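/-
R169/H0A: bounds for the sections of a reflexive lattice (part 1 of 2)
-/
import Crest.Agent.R169.RR
import Crest.Agent.R169.Basis

set_option autoImplicit false
set_option linter.unusedSectionVars false
set_option linter.unusedVariables false
set_option linter.unusedSimpArgs false

noncomputable section

namespace Crest.Agent.R169

open MvPolynomial Filter
open scoped Pointwise


variable {k : Type} [Field k] {r : ℕ} {W : Fam k (Fin r → KK k)}

theorem isLat_hull (hW : IsLat W) (hle : W ≤ CCr k (Fin r)) : IsLat (hull W) :=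
  (isLat_CCr r).sub hW.stable.hull (hull_le_CCr hle)

theorem mm_cut_hull (hW : IsLat W) (hle : W ≤ CCr k (Fin r)) (U : Submodule (KK k) (Fin r → KK k)) :
    mm (cut (hull W) U) = mm (cut W U) := by
  have h := eq_of_le_hull (hW.cut U) ((isLat_hull hW hle).cut U)
    (fun α x hx => mem_cut.2 ⟨le_hull W α (mem_cut.1 hx).1, (mem_cut.1 hx).2⟩)
    (hW.stable.cut_hull_le U)
  unfold mm
  rw [h.2.1]

/-- The sectors of a hull have depth two: `z^14` and `u` are coprime (`val_yy0_inl`,
`div_mem_hull`); `fin_params`, `bot_of_deg`. -/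
theorem filMod_hull (hW : IsLat W) (hle : W ≤ CCr k (Fin r)) (α : Dg) :
    FilMod YY (sect (hull W) α) := by
  have hH := isLat_hull hW hle
  have hS := hH.stable
  have hYY : ∀ (i : Fin 2) (x : Fin r → KK k), YY (k := k) i x = yy k i • x := fun _ _ => rfl
  have e1 : ∀ t : ℤ, (14 : ℤ) • ζ + (α + (14 * t) • ζ) = α + (14 * (t + 1)) • ζ := by
    intro t
    rw [mul_add, mul_one, add_smul]
    abel
  refine ⟨fun x => ?_, fun s t hst => ?_, fun i t x hx => ?_, fun t => hH.fin _, ?_, ?_,
    fun t x hx hy => ?_⟩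
  · rw [hYY, hYY, hYY, hYY, smul_comm]
  · refine hS.mono (add_le_add le_rfl ?_)
    intro i
    have := ζ_nonneg i
    simp only [Pi.smul_apply, smul_eq_mul, Pi.zero_apply] at this ⊢
    nlinarith
  · have := hS (yy_mem i) hx
    rwa [e1] at this
  · obtain ⟨d, hd⟩ := hH.bot_of_deg
    refine ⟨-|deg α - d| - 1, hd _ ?_⟩
    rw [deg_add, deg_smul, deg_ζ]
    have := le_abs_self (deg α - d)
    have := abs_nonneg (deg α - d)
    omega
  · obtain ⟨T, hT⟩ := Filter.eventually_atTop.1 (hH.fin_params 14 α)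
    refine ⟨T, fun t ht => ?_⟩
    obtain ⟨n, hn⟩ : ∃ n : ℕ, (n : ℤ) = 14 * (t + 1) := ⟨(14 * (t + 1)).toNat, by omega⟩
    have h1 := hT n (by omega)
    have e2 : α + n • ζ = α + (14 * (t + 1)) • ζ := by rw [← hn, natCast_zsmul]
    have e3 : α + (14 * (t + 1)) • ζ - (14 : ℤ) • ζ = α + (14 * t) • ζ := by
      rw [← e1]; abel
    rw [e2, Nat.cast_ofNat, e3] at h1
    exact h1
  · have e4 : α + (14 * t) • ζ = (14 : ℤ) • ζ + (α + (14 * (t - 1)) • ζ) := by
      rw [e1, sub_add_cancel]
    have h14 : (0 : Dg) ≤ (14 : ℤ) • ζ := smul_nonneg (by norm_num) ζ_nonneg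
    refine hW.stable.div_mem_hull (g := 1) (δ := (14 : ℤ) • ζ) (one_mem_CC h14) one_ne_zero ?_ ?_
    · rw [one_smul, ← e4]; exact hx
    · rintro (i | q) hπ
      · refine ⟨yy k 0, (14 : ℤ) • ζ, yy_mem 0, yy0_ne_zero, ?_, ?_⟩
        · rw [val_one_inl] at hπ
          rw [val_yy0_inl]
          rcases ζ_zero_or_one i with h | h
          · exact absurd (by rw [Pi.smul_apply, h, smul_zero]) hπ
          · rw [h]; norm_num
        · rw [← e4]; exact hy
      · exact absurd (val_one_inr _ _) hπ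

end Crest.Agent.R169
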