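/-
R169/H0: bounds for the sections of a reflexive lattice (part 2 of 2)
-/
import Crest.Agent.R169.H0A

set_option autoImplicit false
set_option linter.unusedSectionVars false
set_option linter.unusedVariables false
set_option linter.unusedSimpArgs false

noncomputable section

namespace Crest.Agent.R169

open MvPolynomial Filter
open scoped Pointwise


variable {k : Type} [Field k] {r : ℕ} {W : Fam k (Fin r → KK k)}

/-- Division of a section of the hull by a general member of the pencil. -/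
theorem H0_div (hW : IsLat W) (hle : W ≤ CCr k (Fin r)) {h g : KK k} {δ : Dg}
    (h0 : h ≠ 0) (hh : ∀ i, Pi.single i h ∈ W δ) (g0 : g ≠ 0) (hg : g ∈ CC k ((14 : ℤ) • ζ))
    (hg1 : ∀ i, val (.inl i) g ((14 : ℤ) • ζ) = 0)
    (hg2 : ∀ q, val (.inr q) g 0 = 0 ∨ val (.inr q) h 0 = 0) {α γ : Dg} {y : Fin r → KK k}
    (hx : g • y ∈ hull W α) (hy : ∀ i, y i ∈ CC k γ) : y ∈ hull W (α - (14 : ℤ) • ζ) := by
  classical
  have hy' : ∀ i, y i ∈ CC k (α - (14 : ℤ) • ζ) := by
    intro i
    by_cases hi : y i = 0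
    · rw [hi]; exact Submodule.zero_mem _
    refine mem_CC.mpr (Or.inr fun π => ?_)
    rcases π with l | q
    · have h1 : g * y i ∈ CC k α := mem_CCr.mp (hull_le_CCr hle α hx) i
      have h2 := (mem_CC.mp h1).resolve_left (mul_ne_zero g0 hi) (.inl l)
      have h3 := val_mul (.inl l) g0 hi ((14 : ℤ) • ζ) (α - (14 : ℤ) • ζ)
      rw [add_sub_cancel, hg1, zero_add] at h3
      rwa [← h3]
    · rw [val_inr_eq q _ _ γ]
      exact (mem_CC.mp (hy i)).resolve_left hi _
  by_cases hy0 : y = 0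
  · rw [hy0]; exact Submodule.zero_mem _
  obtain ⟨i0, -⟩ := Function.ne_iff.mp hy0
  have hhC : h ∈ CC k δ := by
    have := mem_CCr.mp (hle δ (hh i0)) i0
    rwa [Pi.single_eq_same] at this
  refine hW.stable.div_mem_hull hg g0 (by rwa [add_sub_cancel]) fun π hπ => ?_
  rcases π with l | q
  · exact absurd (hg1 l) hπ
  refine ⟨h, δ, hhC, h0, (hg2 q).resolve_left hπ, le_hull W _ ?_⟩
  have e : h • y = ∑ i, y i • (Pi.single i h : Fin r → KK k) := by
    funext j
    rw [Finset.sum_apply, Finset.sum_eq_single j]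
    · simp [mul_comm]
    · intro i _ hij
      simp [Pi.single_eq_of_ne hij.symm]
    · simp
  rw [e, add_comm δ]
  exact Submodule.sum_mem _ fun i _ => hW.stable (hy' i) (hh i)

/-- Restriction to a general member `g` of the pencil (`exists_pencil` for `h`).  Recipe: the map
`hull W α → (CC (7 s 1) / g CC (7 s 1 - 14 ζ))^r` has kernel `g • hull W (α - 14 ζ)`: if `x = g y`
then `y ∈ CCr (α - 14 ζ)` (`mem_CC`; `g` is prime to the lines), and at a prime `π ∣ g` the element
`h` is a unit and `h • y ∈ W`; `div_mem_hull`, `finrank_CC_diff`. -/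
theorem h0_step [Infinite k] (hW : IsLat W) (hle : W ≤ CCr k (Fin r)) {h : KK k} {δ : Dg}
    (h0 : h ≠ 0) (hh : ∀ i, Pi.single i h ∈ W δ) {s : ℕ} (hs : 1 ≤ s) {α : Dg}
    (hα : α ≤ (7 * s : ℤ) • 1) : Module.finrank k (hull W α) ≤
      Module.finrank k (hull W (α - (14 : ℤ) • ζ)) + r * (20 * s) := by
  obtain ⟨g, g0, hg, hg1, hg2⟩ := exists_pencil h0
  have hH := isLat_hull hW hle
  have := hH.fin α
  have := hH.fin (α - (14 : ℤ) • ζ)
  set T : Dg := (7 * s : ℤ) • 1 with hT
  let mg : KK k →ₗ[k] KK k := LinearMap.mulLeft k g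
  have mg_inj : Function.Injective mg := fun a b e => mul_left_cancel₀ g0 e
  let B : Submodule k (KK k) := (CC k (T - (14 : ℤ) • ζ)).map mg
  have hBA : B ≤ CC k T := by
    rintro _ ⟨f, hf, rfl⟩
    have := mul_mem_CC hg hf
    rwa [add_sub_cancel] at this
  have hB : Module.finrank k B = Module.finrank k (CC k (T - (14 : ℤ) • ζ)) :=
    (LinearEquiv.finrank_eq (Submodule.equivMapOfInjective mg mg_inj _)).symm
  let Q := ↥(CC k T) ⧸ B.submoduleOf (CC k T)
  have hQ : Module.finrank k Q ≤ 20 * s := by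
    have h1 := Submodule.finrank_quotient_add_finrank (B.submoduleOf (CC k T))
    have h2 : Module.finrank k (B.submoduleOf (CC k T)) = Module.finrank k B :=
      LinearEquiv.finrank_eq (Submodule.submoduleOfEquivOfLe hBA)
    have h3 := finrank_CC_diff (k := k) hs
    rw [← hT] at h3
    change Module.finrank k Q + _ = _ at h1
    omega
  have hmem : ∀ (x : hull W α) (i : Fin r), (x : Fin r → KK k) i ∈ CC k T := fun x i =>
    CC_mono hα (mem_CCr.mp (hull_le_CCr hle α x.2) i)
  let φ : hull W α →ₗ[k] (Fin r → Q) := LinearMap.pi fun i =>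
    (B.submoduleOf (CC k T)).mkQ ∘ₗ
      LinearMap.codRestrict (CC k T) ((LinearMap.proj i) ∘ₗ (hull W α).subtype) (fun x => hmem x i)
  have hker : ∀ x : LinearMap.ker φ,
      g⁻¹ • ((x : hull W α) : Fin r → KK k) ∈ hull W (α - (14 : ℤ) • ζ) := by
    rintro ⟨x, hx⟩
    refine H0_div hW hle h0 hh g0 hg hg1 hg2 (γ := T - (14 : ℤ) • ζ) ?_ fun i => ?_
    · rw [smul_inv_smul₀ g0]; exact x.2
    · have h1 : φ x i = 0 := by rw [LinearMap.mem_ker.mp hx]; rfl
      have h2 : (x : Fin r → KK k) i ∈ B :=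
        (Submodule.Quotient.mk_eq_zero (B.submoduleOf (CC k T))).mp h1
      obtain ⟨f, hf, e⟩ := h2
      have e' : g * f = (x : Fin r → KK k) i := e
      change g⁻¹ * (x : Fin r → KK k) i ∈ _
      rwa [← e', inv_mul_cancel_left₀ g0]
  let ψ : LinearMap.ker φ →ₗ[k] hull W (α - (14 : ℤ) • ζ) :=
    LinearMap.codRestrict _
      (((LinearMap.lsmul (KK k) (Fin r → KK k) g⁻¹).restrictScalars k) ∘ₗ (hull W α).subtype ∘ₗ
        (LinearMap.ker φ).subtype) hker
  have hψ : Function.Injective ψ := by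
    intro x y e
    have e1 : g⁻¹ • ((x : hull W α) : Fin r → KK k) = g⁻¹ • ((y : hull W α) : Fin r → KK k) :=
      congrArg Subtype.val e
    exact Subtype.ext (Subtype.ext (smul_right_injective _ (inv_ne_zero g0) e1))
  have h1 := LinearMap.finrank_le_finrank_of_injective hψ
  have h2 := LinearMap.finrank_range_add_finrank_ker φ
  have h3 : Module.finrank k (LinearMap.range φ) ≤ r * (20 * s) := by
    refine (Submodule.finrank_le _).trans ?_
    have : Module.Free k Q := Module.Free.of_divisionRing k Q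
    rw [Module.finrank_pi_fintype, Finset.sum_const, Finset.card_univ, Fintype.card_fin,
      smul_eq_mul]
    exact Nat.mul_le_mul_left _ hQ
  omega

/-- A section gives a rank one subsheaf (`mm_gen_single`, `mm_le_of_le`). -/
theorem h0_vanish (hW : IsLat W) (hle : W ≤ CCr k (Fin r)) {μ : ℤ}
    (hμ : ∀ U : Submodule (KK k) (Fin r → KK k), Module.finrank (KK k) U = 1 →
      r * mm (cut W U) ≤ μ) {α : Dg} (hα : r * deg α + μ < 0) : hull W α = ⊥ := by
  rw [Submodule.eq_bot_iff]
  intro x hx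
  by_contra x0
  have hH := isLat_hull hW hle
  let U : Submodule (KK k) (Fin r → KK k) := Submodule.span (KK k) {x}
  have hU : Module.finrank (KK k) U = 1 := finrank_span_singleton x0
  have hF : IsLat (gen k {(x, α)}) := isLat_gen (Set.finite_singleton _)
  have hle' : gen k {(x, α)} ≤ cut (hull W) U := gen_le (hH.stable.cut U) (by
    rintro _ rfl
    exact ⟨hx, Submodule.mem_span_singleton_self x⟩)
  have hrk : rk (gen k {(x, α)}) = rk (cut (hull W) U) := by
    refine le_antisymm ((hH.cut U).rk_mono hle') ?_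
    rw [rk_gen_single x0, rk, hH.stable.spn_cut, ← hU]
    exact Submodule.finrank_mono inf_le_right
  have h1 := mm_le_of_le hF (hH.cut U) hle' hrk
  rw [mm_gen_single x0, mm_cut_hull hW hle] at h1
  have h2 := hμ U hU
  have h3 : (0 : ℤ) ≤ r := Int.natCast_nonneg r
  nlinarith [mul_le_mul_of_nonneg_left h1 h3]

theorem h0_bound [Infinite k] (hW : IsLat W) (hle : W ≤ CCr k (Fin r)) {h : KK k} {δ : Dg}
    (h0 : h ≠ 0) (hh : ∀ i, Pi.single i h ∈ W δ) {μ : ℤ}
    (hμ : ∀ U : Submodule (KK k) (Fin r → KK k), Module.finrank (KK k) U = 1 →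
      r * mm (cut W U) ≤ μ) {s : ℕ} (hs : 1 ≤ s) {α : Dg} (hα : α ≤ (7 * s : ℤ) • 1) {j : ℕ}
    (hj : r * (deg α - 70 * j) + μ < 0) : Module.finrank k (hull W α) ≤ j * (r * (20 * s)) := by
  induction j generalizing α with
  | zero =>
    rw [h0_vanish hW hle hμ (by simpa using hj)]
    simp
  | succ j ih =>
    have h1 := h0_step hW hle h0 hh hs hα
    have h2 : α - (14 : ℤ) • ζ ≤ (7 * s : ℤ) • 1 :=
      (sub_le_self α (smul_nonneg (by norm_num) ζ_nonneg)).trans hα
    have h3 := ih h2 (by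
      rw [deg_sub, deg_smul, deg_ζ]
      push_cast at hj
      linarith)
    rw [add_mul, one_mul]
    omega

end Crest.Agent.R169
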