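/-
R169/H2A: bounds for homomorphisms to the parameter ring (part 1 of 2)
-/
import Crest.Agent.R169.H0
import Crest.Agent.R169.Dual

set_option autoImplicit false
set_option linter.unusedSectionVars false
set_option linter.unusedVariables false
set_option linter.unusedSimpArgs false

noncomputable section

namespace Crest.Agent.R169

open MvPolynomial Filter
open scoped Pointwise


variable {k : Type} [Field k] {r : ℕ} {G : Fam k (Fin r → KK k)}

theorem h2a_mem_Bd {d : ℤ} {p : PP k} : p ∈ Bd k d ↔ p = 0 ∨ (p.totalDegree : ℤ) ≤ d := by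
  have hs : ∀ m : Fin 2 →₀ ℕ, (m.sum fun _ e => e) = m 0 + m 1 := fun m => by
    rw [Finsupp.sum_fintype _ _ fun _ => rfl, Fin.sum_univ_two]
  rw [Bd, Wo, mem_restrictSupport_iff]
  constructor
  · intro h
    by_cases h0 : p = 0
    · exact Or.inl h0
    · obtain ⟨m, hm, he⟩ := Finset.exists_mem_eq_sup p.support (support_nonempty.2 h0)
        fun s => s.sum fun _ e => e
      have h1 : -d ≤ -1 * (m 0 : ℤ) + -1 * (m 1 : ℤ) := h hm
      refine Or.inr ?_
      rw [totalDegree, he, hs]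
      omega
  · rintro (rfl | h) m hm
    · simp at hm
    · have h1 := le_totalDegree (Finset.mem_coe.1 hm)
      rw [hs] at h1
      show -d ≤ -1 * (m 0 : ℤ) + -1 * (m 1 : ℤ)
      omega

/-- Division by `X 0 - c` lowers the degree. -/
theorem h2a_div_mem {d : ℤ} {c : k} {q : PP k} (h : (X 0 - C c) * q ∈ Bd k d) :
    q ∈ Bd k (d - 1) := by
  have hg : (X 0 - C c : PP k).totalDegree = 1 := by
    rw [sub_eq_add_neg, ← map_neg, totalDegree_add_eq_left_of_totalDegree_lt] <;> simp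
  have hg0 : (X 0 - C c : PP k) ≠ 0 := by
    intro h0; rw [h0] at hg; simp at hg
  rw [h2a_mem_Bd] at h ⊢
  by_cases hq : q = 0
  · exact Or.inl hq
  · rcases h with h | h
    · exact absurd h (mul_ne_zero hg0 hq)
    · rw [totalDegree_mul_of_isDomain hg0 hq, hg] at h
      right
      omega

theorem h2a_ne_zero (c : k) : (X 0 - C c : PP k) ≠ 0 := by
  intro h
  have := congrArg (eval fun _ => c + 1) h
  simp at this

/-- Restriction to the line `X 0 = c`. -/
def h2aRes (c : k) : PP k →ₐ[k] Polynomial k := aeval ![Polynomial.C c, Polynomial.X]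

theorem h2a_dvd {c : k} {p : PP k} (h : h2aRes c p = 0) : (X 0 - C c : PP k) ∣ p := by
  have key : ∀ p : PP k, (X 0 - C c : PP k) ∣ p - Polynomial.aeval (X 1 : PP k) (h2aRes c p) := by
    intro p
    induction p using MvPolynomial.induction_on with
    | C a => simp [h2aRes]
    | add p q hp hq =>
      rw [map_add, map_add, add_sub_add_comm]
      exact dvd_add hp hq
    | mul_X p i hp =>
      have h1 : (X 0 - C c : PP k) ∣ X i - Polynomial.aeval (X 1 : PP k) (h2aRes c (X i)) := by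
        fin_cases i <;> simp [h2aRes]
      rw [map_mul, map_mul]
      have h2 : ∀ a b a' b' : PP k, a * b - a' * b' = (a - a') * b + a' * (b - b') := by
        intros; ring
      rw [h2]
      exact dvd_add (hp.mul_right _) (h1.mul_left _)
  simpa [h] using key p

theorem h2a_exists_res [Infinite k] {h : PP k} (h0 : h ≠ 0) : ∃ c : k, h2aRes c h ≠ 0 := by
  by_contra hc
  push Not at hc
  refine h0 (MvPolynomial.funext fun v => ?_)
  obtain ⟨q, hq⟩ := h2a_dvd (hc (v 0))
  rw [hq]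
  simp

theorem h2a_natDegree_le {c : k} {p : PP k} {n : ℕ} {d : ℤ} (h : p ∈ Bd k d) (hd : d ≤ n) :
    (h2aRes c p).natDegree ≤ n := by
  rcases h2a_mem_Bd.1 h with rfl | h
  · simp
  · have := aeval_natDegree_le (m := n) (n := 1) p (by omega) ![Polynomial.C c, Polynomial.X]
      (fun i => by fin_cases i <;> simp)
    rwa [mul_one] at this

theorem h2a_yy_mem (hG : Stable G) {α : Dg} (i : Fin 2) {x : Fin r → KK k}
    (hx : x ∈ ⨆ t, sect G α t) : yy k i • x ∈ ⨆ t, sect G α t := by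
  have : (⨆ t, sect G α t) ≤ (⨆ t, sect G α t).comap (YY i) := by
    refine iSup_le fun t y hy => Submodule.mem_iSup_of_mem (t + 1) ?_
    have h1 := hG (yy_mem i) hy
    have h2 : (14 : ℤ) • ζ + (α + (14 * t) • ζ) = α + (14 * (t + 1)) • ζ := by
      rw [mul_add, add_smul, mul_one]; abel
    rw [h2] at h1
    exact h1
  exact this hx

theorem h2a_aeval_mem (hG : Stable G) {α : Dg} (g : PP k) {x : Fin r → KK k}
    (hx : x ∈ ⨆ t, sect G α t) : aeval (yy k) g • x ∈ ⨆ t, sect G α t := by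
  induction g using MvPolynomial.induction_on generalizing x with
  | C a => rw [aeval_C, algebraMap_smul]; exact Submodule.smul_mem _ _ hx
  | add p q hp hq => rw [map_add, add_smul]; exact Submodule.add_mem _ (hp hx) (hq hx)
  | mul_X p i hp => rw [map_mul, aeval_X, mul_smul]; exact hp (h2a_yy_mem hG i hx)

/-- An element of `HH` is linear over the polynomial ring. -/
theorem HH_aeval (hG : Stable G) {α : Dg} {j : ℤ} {φ} (hφ : φ ∈ HH YY (sect G α) j) (g : PP k)
    (x y : ↥(⨆ t, sect G α t)) (e : (y : Fin r → KK k) = aeval (yy k) g • (x : Fin r → KK k)) :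
    φ y = g * φ x := by
  induction g using MvPolynomial.induction_on generalizing x y with
  | C a =>
    have : y = a • x := Subtype.ext (by rw [e, aeval_C, algebraMap_smul]; rfl)
    rw [this, map_smul, smul_eq_C_mul]
  | add p q hp hq =>
    have : y = ⟨_, h2a_aeval_mem hG p x.2⟩ + ⟨_, h2a_aeval_mem hG q x.2⟩ :=
      Subtype.ext (by rw [e, map_add, add_smul]; rfl)
    rw [this, map_add, hp x ⟨_, h2a_aeval_mem hG p x.2⟩ rfl,
      hq x ⟨_, h2a_aeval_mem hG q x.2⟩ rfl, add_mul]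
  | mul_X p i hp =>
    rw [hp ⟨_, h2a_yy_mem hG i x.2⟩ y (by rw [e, map_mul, aeval_X, mul_smul]),
      hφ.1 i x ⟨_, h2a_yy_mem hG i x.2⟩ rfl, mul_assoc]

theorem h2a_sum (hG : Stable G) {α : Dg} {j : ℤ} {φ} (hφ : φ ∈ HH YY (sect G α) j) {ι : Type}
    [Fintype ι] (g : ι → PP k) (x : ι → ↥(⨆ t, sect G α t)) (y : ↥(⨆ t, sect G α t))
    (e : (y : Fin r → KK k) = ∑ i, aeval (yy k) (g i) • (x i : Fin r → KK k)) :
    φ y = ∑ i, g i * φ (x i) := by
  have : y = ∑ i, (⟨_, h2a_aeval_mem hG (g i) (x i).2⟩ : ↥(⨆ t, sect G α t)) :=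
    Subtype.ext (by rw [e, Submodule.coe_sum])
  rw [this, map_sum]
  exact Finset.sum_congr rfl fun i _ => HH_aeval hG hφ _ _ _ rfl

/-- A common denominator. -/
theorem h2a_den {N : ℕ} {b : Fin N → KK k} (hb : ∀ f : KK k, ∃ h : PP k, h ≠ 0 ∧
    ∃ g : Fin N → PP k, aeval (yy k) h * f = ∑ l, aeval (yy k) (g l) * b l) {ι : Type} [Fintype ι]
    (f : ι → KK k) : ∃ h : PP k, h ≠ 0 ∧ ∃ g : ι → Fin N → PP k,
      ∀ i, aeval (yy k) h * f i = ∑ l, aeval (yy k) (g i l) * b l := by
  classical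
  choose h h0 g hg using fun i => hb (f i)
  refine ⟨∏ i, h i, Finset.prod_ne_zero_iff.2 fun i _ => h0 i,
    fun i l => (∏ i' ∈ Finset.univ.erase i, h i') * g i l, fun i => ?_⟩
  rw [← Finset.prod_erase_mul _ _ (Finset.mem_univ i), map_mul, mul_assoc, hg, Finset.mul_sum]
  exact Finset.sum_congr rfl fun l _ => by rw [map_mul, mul_assoc]

/-- An element of `HH j` with values divisible by `X 0 - c` comes from `HH (j - 1)`. -/
theorem h2a_div {V : Type} [AddCommGroup V] [Module k V] {Y : Fin 2 → Module.End k V}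
    {M : ℤ → Submodule k V} {j : ℤ} {φ} (hφ : φ ∈ HH Y M j) {c : k}
    (h : ∀ y, (X 0 - C c : PP k) ∣ φ y) :
    ∃ ψ ∈ HH Y M (j - 1), LinearMap.mulLeft k (X 0 - C c : PP k) ∘ₗ ψ = φ := by
  choose q hq using h
  have hg := h2a_ne_zero c
  let ψ : ↥(⨆ t, M t) →ₗ[k] PP k :=
    { toFun := q
      map_add' := fun x y => mul_left_cancel₀ hg (by rw [mul_add, ← hq, ← hq, ← hq, map_add])
      map_smul' := fun a x => mul_left_cancel₀ hg (by
        rw [RingHom.id_apply, mul_smul_comm, ← hq, ← hq, map_smul]) }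
  refine ⟨ψ, ⟨fun i x y e => mul_left_cancel₀ hg ?_, fun t x hx => ?_⟩,
    LinearMap.ext fun y => (hq y).symm⟩
  · show _ * q y = _ * (_ * q x)
    rw [← hq, mul_left_comm, ← hq, hφ.1 i x y e]
  · have := hφ.2 t x hx
    rw [hq] at this
    rw [← add_sub_assoc]
    exact h2a_div_mem this

/-- Recipe.  `exists_bas`; the `r N ≤ 20 r` elements `e i l = b l • x i ∈ sect G α (t + 20)` span up
to denominators: there is `h ≠ 0` in `PP k` with `aeval yy h • y ∈ ∑ PP k • e i l` for all
`y ∈ ⨆ sect` (`exists_sect_gens`).  Choose `c : k` with `g = X 0 - C c ∤ h`.  The map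
`φ ↦ (φ (e i l) mod g Bd (t + 20 + j - 1))` has kernel in `g • HH (j - 1)`, and
`dim Bd d - dim Bd (d - 1) ≤ max (d + 1) 0`. -/
theorem h2_step [Infinite k] (hG : IsLat G) {α : Dg} (hM : FilMod YY (sect G α)) {t : ℕ}
    {x : Fin r → Fin r → KK k} (hx : LinearIndependent (KK k) x) (hxt : ∀ i, x i ∈ sect G α t)
    {j : ℤ} (hj : j ≤ 0) : Module.finrank k (HH YY (sect G α) j) ≤
      Module.finrank k (HH YY (sect G α) (j - 1)) + 20 * r * (t + 21) := by
  classical
  have hS := hG.stable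
  obtain ⟨N, b, hN, hb, hbas⟩ := exists_bas (k := k)
  obtain ⟨m, t0, z, hz, hgen⟩ := exists_sect_gens hG α
  have he : ∀ (a : Fin r) (l : Fin N), b l • x a ∈ sect G α (t + 20) := fun a l => by
    have h1 := hS (hb l) (hxt a)
    have h2 : (280 : ℤ) • ζ + (α + (14 * (t : ℤ)) • ζ) = α + (14 * ((t : ℤ) + 20)) • ζ := by
      rw [mul_add, add_smul, show (14 * 20 : ℤ) = 280 by norm_num]; abel
    rw [h2] at h1
    exact h1
  let e : Fin r × Fin N → ↥(⨆ t, sect G α t) := fun p =>
    ⟨b p.2 • x p.1, Submodule.mem_iSup_of_mem _ (he p.1 p.2)⟩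
  let z' : Fin m → ↥(⨆ t, sect G α t) := fun i => ⟨z i, Submodule.mem_iSup_of_mem _ (hz i)⟩
  have hspan := hx.span_eq_top_of_card_eq_finrank' (by simp)
  have hf : ∀ i, ∃ f : Fin r → KK k, ∑ a, f a • x a = z i := fun i =>
    (Submodule.mem_span_range_iff_exists_fun _).1 (hspan ▸ Submodule.mem_top)
  choose f hf using hf
  obtain ⟨h, h0, g, hg⟩ := h2a_den hbas fun p : Fin m × Fin r => f p.1 p.2
  obtain ⟨c, hc⟩ := h2a_exists_res h0
  -- if the restriction kills the `φ (e p)`, it kills all values of `φ`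
  have key : ∀ φ ∈ HH YY (sect G α) j, (∀ p, h2aRes c (φ (e p)) = 0) →
      ∀ y, h2aRes c (φ y) = 0 := by
    intro φ hφ hp y
    have h1 : ∀ i, h2aRes c (φ (z' i)) = 0 := fun i => by
      have h2 := HH_aeval hS hφ h (z' i) ⟨_, h2a_aeval_mem hS h (z' i).2⟩ rfl
      rw [h2a_sum hS hφ (fun p : Fin r × Fin N => g (i, p.1) p.2) e] at h2
      · have h3 := congrArg (h2aRes c) h2
        simp only [map_sum, map_mul, hp, mul_zero, Finset.sum_const_zero] at h3
        exact (mul_eq_zero.1 h3.symm).resolve_left hc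
      · show aeval (yy k) h • z i = ∑ p : Fin r × Fin N, aeval (yy k) (g (i, p.1) p.2) • b p.2 • x p.1
        rw [← hf, Finset.smul_sum, Fintype.sum_prod_type]
        refine Finset.sum_congr rfl fun a _ => ?_
        rw [smul_smul, hg (i, a), Finset.sum_smul]
        exact Finset.sum_congr rfl fun l _ => mul_smul _ _ _
    obtain ⟨s, hs⟩ := (Submodule.mem_iSup_of_directed _ hM.mono.directed_le).1 y.2
    obtain ⟨g', -, hy⟩ := hgen (s - t0).toNat y (hM.mono (by omega) hs)
    rw [h2a_sum hS hφ g' z' y hy]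
    simp only [map_sum, map_mul, h1, mul_zero, Finset.sum_const_zero]
  let Φ : HH YY (sect G α) j →ₗ[k] ((Fin r × Fin N) × Fin (t + 21) → k) :=
    LinearMap.pi fun p => Polynomial.lcoeff k p.2 ∘ₗ (h2aRes c).toLinearMap ∘ₗ
      LinearMap.applyₗ (e p.1) ∘ₗ (HH YY (sect G α) j).subtype
  have hΦ : ∀ φ p, Φ φ p = (h2aRes c (φ.1 (e p.1))).coeff p.2 := fun _ _ => rfl
  have := hM.fin_HH j
  have := hM.fin_HH (j - 1)
  have h1 := LinearMap.finrank_range_add_finrank_ker (K := k) (V := HH YY (sect G α) j) Φ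
  have h2 : Module.finrank k (LinearMap.range Φ) ≤ r * N * (t + 21) := by
    simpa using (LinearMap.range Φ).finrank_le
  let μ : (↥(⨆ t, sect G α t) →ₗ[k] PP k) →ₗ[k] (↥(⨆ t, sect G α t) →ₗ[k] PP k) :=
    LinearMap.llcomp k _ _ _ (LinearMap.mulLeft k (X 0 - C c : PP k))
  have h3 : (LinearMap.ker Φ).map (HH YY (sect G α) j).subtype ≤
      (HH YY (sect G α) (j - 1)).map μ := by
    rintro _ ⟨φ, hφ, rfl⟩
    refine h2a_div φ.2 fun y => h2a_dvd (key φ.1 φ.2 (fun p => ?_) y)
    have hd : (h2aRes c (φ.1 (e p))).natDegree ≤ t + 20 :=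
      h2a_natDegree_le (φ.2.2 _ (e p) (he p.1 p.2)) (by push_cast; omega)
    ext n
    by_cases hn : n < t + 21
    · exact (hΦ φ (p, ⟨n, hn⟩)).symm.trans (congrFun hφ _)
    · exact Polynomial.coeff_eq_zero_of_natDegree_lt (by omega)
  have h4 := (Submodule.finrank_mono h3).trans (Submodule.finrank_map_le _ _)
  rw [Submodule.finrank_map_subtype_eq] at h4
  have h5 : r * N * (t + 21) ≤ 20 * r * (t + 21) := by
    rw [mul_comm 20 r]; gcongr
  omega

end Crest.Agent.R169
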