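/-
R169/H2: bounds for homomorphisms to the parameter ring (part 2 of 2)
-/
import Crest.Agent.R169.H2A

set_option autoImplicit false
set_option linter.unusedSectionVars false
set_option linter.unusedVariables false
set_option linter.unusedSimpArgs false

noncomputable section

namespace Crest.Agent.R169

open MvPolynomial Filter
open scoped Pointwise


variable {k : Type} [Field k] {r : ℕ} {G : Fam k (Fin r → KK k)}

theorem h2_mem_Bd (g : PP k) : ∃ d : ℕ, g ∈ Bd k d := by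
  refine ⟨g.support.sup fun m => m 0 + m 1, ?_⟩
  rw [Bd, Wo, mem_restrictSupport_iff]
  intro m hm
  have := Finset.le_sup (f := fun m : Fin 2 →₀ ℕ => m 0 + m 1) (Finset.mem_coe.1 hm)
  simp only [Set.mem_ofPred_eq]
  omega

theorem h2_sect_mono (hG : Stable G) (α : Dg) : Monotone (sect G α) := by
  intro s t hst
  refine hG.mono ?_
  intro i
  have := ζ_nonneg i
  simp only [Pi.add_apply, Pi.smul_apply, smul_eq_mul, Pi.zero_apply] at this ⊢
  nlinarith

theorem h2_mem_sup (hG : Stable G) {α : Dg} {x : Fin r → KK k} :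
    x ∈ (⨆ t, sect G α t) ↔ ∃ t, x ∈ sect G α t :=
  Submodule.mem_iSup_of_directed _ (h2_sect_mono hG α).directed_le

theorem h2_smul_sect (hG : Stable G) {α : Dg} {x : Fin r → KK k} {t d : ℤ} {f : KK k}
    (hf : f ∈ CC k ((14 * d) • ζ)) (hx : x ∈ sect G α t) : f • x ∈ sect G α (t + d) := by
  have := hG hf hx
  have e : (14 * d) • ζ + (α + (14 * t) • ζ) = α + (14 * (t + d)) • ζ := by
    rw [mul_add, add_smul]; abel
  rw [e] at this
  exact this

theorem h2_smul_sup (hG : Stable G) {α : Dg} {x : Fin r → KK k} {d : ℤ} {f : KK k}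
    (hf : f ∈ CC k ((14 * d) • ζ)) (hx : x ∈ (⨆ t, sect G α t)) : f • x ∈ (⨆ t, sect G α t) := by
  obtain ⟨t, ht⟩ := (h2_mem_sup hG).1 hx
  exact (h2_mem_sup hG).2 ⟨_, h2_smul_sect hG hf ht⟩

theorem h2_aeval_sup (hG : Stable G) {α : Dg} {x : Fin r → KK k} (g : PP k)
    (hx : x ∈ (⨆ t, sect G α t)) : aeval (yy k) g • x ∈ (⨆ t, sect G α t) := by
  obtain ⟨d, hd⟩ := h2_mem_Bd g
  exact h2_smul_sup hG (aeval_yy_mem hd) hx

theorem h2_den (hG : Stable G) (ht : spn G = ⊤) (α : Dg) (x : Fin r → KK k) :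
    ∃ h : PP k, h ≠ 0 ∧ aeval (yy k) h • x ∈ (⨆ t, sect G α t) := by
  obtain ⟨u, β, hu0, hu, hux⟩ := hG.exists_den (x := x) (by rw [ht]; trivial) α
  obtain ⟨s, hs⟩ : ∃ s : ℕ, ∀ i, 0 ≤ (-β) i + 14 * s := by
    refine ⟨Finset.univ.sup fun i => (β i).toNat, fun i => ?_⟩
    have := Finset.le_sup (f := fun i => (β i).toNat) (Finset.mem_univ i)
    simp only [Pi.neg_apply]
    omega
  have h1 := hG (yy0_pow_mem hs) hux
  have e : -β + (28 * s : ℤ) • ζ + (β + α) = α + (14 * (2 * s : ℤ)) • ζ := by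
    rw [← mul_assoc, show (14 * 2 : ℤ) = 28 by norm_num]; abel
  rw [e, smul_smul] at h1
  have h2 : (yy k 0 ^ s * u) • x ∈ (⨆ t, sect G α t) := (h2_mem_sup hG).2 ⟨_, h1⟩
  have hv : yy k 0 ^ s * u ≠ 0 := mul_ne_zero (pow_ne_zero _ yy0_ne_zero) hu0
  obtain ⟨N, b, -, hb, hbas⟩ := exists_bas (k := k)
  obtain ⟨h, h0, g, hg⟩ := hbas (yy k 0 ^ s * u)⁻¹
  refine ⟨h, h0, ?_⟩
  have e2 : aeval (yy k) h • x = ∑ l, aeval (yy k) (g l) • b l • (yy k 0 ^ s * u) • x := by
    simp only [smul_smul, ← mul_assoc _ (b _)]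
    rw [← Finset.sum_smul, ← Finset.sum_mul, ← hg, mul_assoc, inv_mul_cancel₀ hv, mul_one]
  rw [e2]
  refine Submodule.sum_mem _ fun l _ => h2_aeval_sup hG _ (h2_smul_sup hG (d := 20) ?_ h2)
  simpa using hb l

/-- the largest subspace on which `φ` vanishes -/
def h2U (hG : Stable G) (ht : spn G = ⊤) {α : Dg} {j : ℤ} {φ} (hφ : φ ∈ HH YY (sect G α) j) :
    Submodule (KK k) (Fin r → KK k) where
  carrier := {x | ∀ (f : KK k) (hx : f • x ∈ (⨆ t, sect G α t)), φ ⟨f • x, hx⟩ = 0}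
  zero_mem' f hx := by
    have : (⟨f • 0, hx⟩ : ↥(⨆ t, sect G α t)) = 0 := Subtype.ext (smul_zero f)
    rw [this, map_zero]
  smul_mem' c x hx f hf := by
    have h1 : (f * c) • x ∈ (⨆ t, sect G α t) := by rwa [mul_smul]
    have : (⟨f • c • x, hf⟩ : ↥(⨆ t, sect G α t)) = ⟨(f * c) • x, h1⟩ :=
      Subtype.ext (mul_smul f c x).symm
    rw [this]
    exact hx _ _
  add_mem' {x y} hx hy f hf := by
    obtain ⟨h, h0, hh⟩ := h2_den hG ht α (f • x)
    have h1 := h2_aeval_sup hG h hf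
    have h2 : (aeval (yy k) h * f) • x ∈ (⨆ t, sect G α t) := by rwa [mul_smul]
    have h3 : (aeval (yy k) h * f) • y ∈ (⨆ t, sect G α t) := by
      have := Submodule.sub_mem _ h1 h2
      rwa [smul_smul, smul_add, add_sub_cancel_left] at this
    have h4 := HH_aeval hG hφ h ⟨_, hf⟩ (⟨_, h2⟩ + ⟨_, h3⟩) (by
      simp only [Submodule.coe_add, smul_smul, smul_add])
    rw [map_add, hx _ h2, hy _ h3, add_zero] at h4
    exact (mul_eq_zero.1 h4.symm).resolve_left h0

theorem h2_finrank_le {W A B : Type} [AddCommGroup W] [Module k W] [AddCommGroup A] [Module k A]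
    [AddCommGroup B] [Module k B] [FiniteDimensional k W] [FiniteDimensional k A]
    (Λ : W →ₗ[k] A) (P : W →ₗ[k] B) (h : LinearMap.ker Λ ≤ LinearMap.ker P) :
    Module.finrank k (LinearMap.range P) ≤ Module.finrank k A := by
  have h1 := Λ.finrank_range_add_finrank_ker
  have h2 := P.finrank_range_add_finrank_ker
  have h3 := Submodule.finrank_mono h
  have h4 := Submodule.finrank_le (LinearMap.range Λ)
  omega

theorem h2_sector (hG : IsLat G) (ht : spn G = ⊤) {α : Dg} {j : ℤ} {φ}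
    (hφ : φ ∈ HH YY (sect G α) j) (t : ℕ) (β : Fin 5 → Fin 7) :
    Module.finrank k (img (h2U hG.stable ht hφ).mkQ G (α + (14 * t) • ζ + dv fun i => (β i : ℤ)))
      ≤ 20 * Module.finrank k (Bd k (t + 26 + j)) := by
  obtain ⟨N, b, hN, hb, hbas⟩ := exists_bas (k := k)
  set γ : Dg := α + (14 * t) • ζ + dv fun i => (β i : ℤ) with hγ
  have hy : yy k 0 ^ 3 ∈ CC k (-(dv fun i => (β i : ℤ)) + (28 * (3 : ℕ) : ℤ) • ζ) := by
    refine yy0_pow_mem ?_
    have h0 := (β 0).2
    have h1 := (β 1).2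
    have h2 := (β 2).2
    have h3 := (β 3).2
    have h4 := (β 4).2
    simp only [Pi.neg_apply]
    rw [dg_forall]
    simp only [dv_0, dv_1, dv_2, dv_3, dv_4, dv_5, dv_6, dv_7, dv_8, dv_9]
    omega
  have hmem : ∀ l, ∀ x ∈ G γ, (b l * yy k 0 ^ 3) • x ∈ sect G α (t + 26) := by
    intro l x hx
    have h1 := hG.stable hy hx
    have e : -(dv fun i => (β i : ℤ)) + (28 * (3 : ℕ) : ℤ) • ζ + γ
        = α + (14 * ((t : ℤ) + 6)) • ζ := by
      rw [hγ, mul_add, add_smul, ← natCast_zsmul]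
      push_cast
      abel
    rw [e] at h1
    have h2 := h2_smul_sect hG.stable (d := 20) (f := b l) (by simpa using hb l) h1
    rw [smul_smul, add_assoc] at h2
    exact h2
  have hmem' : ∀ l, ∀ x ∈ G γ, (b l * yy k 0 ^ 3) • x ∈ (⨆ t, sect G α t) := fun l x hx =>
    (h2_mem_sup hG.stable).2 ⟨_, hmem l x hx⟩
  let m : Fin N → (G γ →ₗ[k] ↥(⨆ t, sect G α t)) := fun l =>
    LinearMap.codRestrict _ (((LinearMap.lsmul (KK k) (Fin r → KK k)
      (b l * yy k 0 ^ 3)).restrictScalars k) ∘ₗ (G γ).subtype) fun x => hmem' l x x.2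
  let Λ : G γ →ₗ[k] (Fin N → Bd k (t + 26 + j)) := LinearMap.pi fun l =>
    LinearMap.codRestrict _ (φ ∘ₗ m l) fun x => hφ.2 _ _ (hmem l x x.2)
  have := hG.fin γ
  have := fin_Bd (k := k) (t + 26 + j)
  have h1 := h2_finrank_le Λ (((h2U hG.stable ht hφ).mkQ.restrictScalars k) ∘ₗ (G γ).subtype) (by
    intro x hx
    rw [LinearMap.mem_ker] at hx ⊢
    refine (Submodule.Quotient.mk_eq_zero _).2 fun f hf => ?_
    have hz : ∀ l, φ (m l x) = 0 := fun l => congrArg Subtype.val (congrFun hx l)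
    obtain ⟨h, h0, g, hg⟩ := hbas (f / yy k 0 ^ 3)
    have hy0 : yy k 0 ^ 3 ≠ 0 := pow_ne_zero _ yy0_ne_zero
    have h2 := HH_aeval hG.stable hφ h ⟨_, hf⟩
      (∑ l, ⟨aeval (yy k) (g l) • (m l x : Fin r → KK k), h2_aeval_sup hG.stable _ (m l x).2⟩) (by
        rw [Submodule.coe_sum]
        change ∑ l, aeval (yy k) (g l) • (b l * yy k 0 ^ 3) • (x : Fin r → KK k) =
          aeval (yy k) h • f • (x : Fin r → KK k)
        simp only [smul_smul, ← mul_assoc _ (b _)]
        rw [← Finset.sum_smul, ← Finset.sum_mul, ← hg, mul_assoc, div_mul_cancel₀ _ hy0])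
    rw [map_sum, Finset.sum_eq_zero fun l _ => by
      rw [HH_aeval hG.stable hφ (g l) (m l x) _ rfl, hz, mul_zero]] at h2
    exact (mul_eq_zero.1 h2.symm).resolve_left h0)
  rw [LinearMap.range_comp, Submodule.range_subtype, Module.finrank_pi_fintype, Finset.sum_const,
    Finset.card_univ, Fintype.card_fin, smul_eq_mul] at h1
  exact h1.trans (Nat.mul_le_mul_right _ hN)

/-- Recipe.  For `φ ≠ 0` let `U = {x | ∀ f, f • x ∈ ⨆ sect → φ (f • x) = 0}`; it is a proper
subspace (every vector has a multiple `aeval yy h • x` in `⨆ sect`: `Stable.exists_den`,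
`yy0_pow_mem`, `exists_bas`).  For `x ∈ G (α + dv β + 14 t ζ)`, `β ∈ [0,7)^5`, map `x` to
`(φ (b l * yy 0 ^ 3 • x))_l ∈ Bd (t + 6 + 20 + j)^N`; the kernel lies in `U`.  Hence
`hf (img U.mkQ G) (α + 14 t ζ) ≤ 7^5 * 20 * dim Bd (t + 26 + j)`.  With `hp_rhs` (at `14 t`),
`quad_le_of_ev` gives rank `≤ 1`, so `= 1`, and `lin_le_of_ev` gives
`2 deg α - 25 + 2 mm ≤ 70 (2 (j + 26) + 3)`; `mm_add`. -/
theorem h2_vanish (hG : IsLat G) (ht : spn G = ⊤) {α : Dg} {j : ℤ} {φ}
    (hφ : φ ∈ HH YY (sect G α) j) (h0 : φ ≠ 0) :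
    ∃ U : Submodule (KK k) (Fin r → KK k), Module.finrank (KK k) U + 1 = r ∧
      deg α + (mm G - mm (cut G U)) ≤ 70 * j + 2000 := by
  set U := h2U hG.stable ht hφ with hU
  have hUne : U ≠ ⊤ := by
    intro hU'
    refine h0 (LinearMap.ext fun x => ?_)
    have hx : (x : Fin r → KK k) ∈ U := by rw [hU']; trivial
    have := hx 1 (by rw [one_smul]; exact x.2)
    simpa using this
  have hQ := hG.img U.mkQ
  have hrk : rk (img U.mkQ G) + Module.finrank (KK k) U = r := by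
    have h1 := hG.rk_cut_img U.mkQ
    rw [rk_of_top ht, Submodule.ker_mkQ, hG.stable.rk_cut_of_top ht] at h1
    omega
  have hlt : Module.finrank (KK k) U < r := by
    have := Submodule.finrank_lt hUne
    simpa using this
  have hmm := hG.mm_add U.mkQ
  rw [Submodule.ker_mkQ] at hmm
  have htend : Tendsto (fun t : ℕ => 14 * t) atTop atTop :=
    tendsto_atTop_mono (fun t => by simp only [id]; omega) tendsto_id
  have hev : ∀ᶠ t : ℕ in atTop,
      (336140 * rk (img U.mkQ G) : ℤ) * (t : ℤ) ^ 2 +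
        (4802 * (rk (img U.mkQ G) * (2 * deg α - 25) + 2 * mm (img U.mkQ G))) * t +
        (343 * (rk (img U.mkQ G) * chi (cl α) +
          ip (cc (img U.mkQ G)) ((2 : ℤ) • cl α - (5 : ℤ) • Lc)) + ss (img U.mkQ G)) ≤
      336140 * (t : ℤ) ^ 2 + (336140 * (2 * j + 55)) * t + 336140 * ((j + 27) * (j + 28)) := by
    filter_upwards [htend.eventually (hQ.rr α), eventually_ge_atTop j.natAbs] with t h1 h2
    rw [hp_rhs] at h1
    have h3 : hf (img U.mkQ G) (α + (14 * t) • ζ) ≤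
        16807 * (20 * Module.finrank k (Bd k (t + 26 + j))) := by
      refine (Finset.sum_le_card_nsmul _ _ _ fun β _ => h2_sector hG ht hφ t β).trans ?_
      simp
    have h4 := finrank_Bd (k := k) (d := t + 26 + j) (by omega)
    have h5 : (hf (img U.mkQ G) (α + (14 * t) • ζ) : ℤ) ≤
        16807 * (20 * Module.finrank k (Bd k (t + 26 + j))) := by exact_mod_cast h3
    rw [mm]
    push_cast at h1
    nlinarith
  have hr1 := quad_le_of_ev hev
  have hr : rk (img U.mkQ G) = 1 := by omega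
  refine ⟨U, by omega, ?_⟩
  have hl := lin_le_of_ev (B := 4802 * (rk (img U.mkQ G) * (2 * deg α - 25) + 2 * mm (img U.mkQ G)))
    (B' := 336140 * (2 * j + 55)) (C := 343 * (rk (img U.mkQ G) * chi (cl α) +
          ip (cc (img U.mkQ G)) ((2 : ℤ) • cl α - (5 : ℤ) • Lc)) + ss (img U.mkQ G))
    (C' := 336140 * ((j + 27) * (j + 28))) (hev.mono fun t h => by
      rw [hr] at h ⊢
      push_cast at h ⊢
      linarith)
  rw [hr] at hl
  push_cast at hl
  omega

theorem h2_bound [Infinite k] (hG : IsLat G) (ht : spn G = ⊤) {α : Dg}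
    (hM : FilMod YY (sect G α)) {t : ℕ} {x : Fin r → Fin r → KK k}
    (hx : LinearIndependent (KK k) x) (hxt : ∀ i, x i ∈ sect G α t) {μ : ℤ}
    (hμ : ∀ U : Submodule (KK k) (Fin r → KK k), Module.finrank (KK k) U + 1 = r →
      μ ≤ r * (mm G - mm (cut G U))) {j : ℕ} (hj : r * (2000 - 70 * j - deg α) < μ) :
    Module.finrank k (HH YY (sect G α) (-3)) ≤ j * (20 * r * (t + 21)) := by
  have h1 : ∀ i : ℕ, Module.finrank k (HH YY (sect G α) (-3)) ≤
      Module.finrank k (HH YY (sect G α) (-3 - i)) + i * (20 * r * (t + 21)) := by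
    intro i
    induction i with
    | zero => simp
    | succ i ih =>
      have h2 := h2_step hG hM hx hxt (j := -3 - i) (by omega)
      have e : (-3 - ((i + 1 : ℕ) : ℤ)) = -3 - i - 1 := by push_cast; ring
      rw [e, add_mul, one_mul]
      omega
  have h2 : HH YY (sect G α) (-3 - j) = ⊥ := by
    rw [eq_bot_iff]
    intro φ hφ
    by_contra h0
    obtain ⟨U, hU1, hU2⟩ := h2_vanish hG ht hφ h0
    have h3 := hμ U hU1
    have h4 : (r : ℤ) * (mm G - mm (cut G U)) ≤ r * (2000 - 70 * j - deg α) :=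
      mul_le_mul_of_nonneg_left (by omega) (by positivity)
    omega
  have h3 := h1 j
  rw [h2, finrank_bot, zero_add] at h3
  exact h3

end Crest.Agent.R169
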