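/-
R169/GiesA: the Bogomolov inequality up to `O(1/p)` in characteristic `p` (Gieseker) (part 1 of 2)
-/
import Crest.Agent.R169.H2
import Crest.Agent.R169.Conn

set_option autoImplicit false
set_option linter.unusedSectionVars false
set_option linter.unusedVariables false
set_option linter.unusedSimpArgs false

noncomputable section

namespace Crest.Agent.R169

open MvPolynomial Filter
open scoped Pointwise


variable {k : Type} [Field k]

/-- Sum of the sector bounds: compare `∑_β (A_β t² + B_β t + C_β)` with `hp_rhs` at `14 t`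
(`FilMod.poly`, `FilMod.duality`, `quad_unique`). -/
theorem chi_le {V : Type} [AddCommGroup V] [Module k V] [Module (KK k) V]
    [IsScalarTower k (KK k) V] {G : Fam k V} {r : ℕ} {c : Ex} {s : ℤ} (h : HP G r c s) (α : Dg)
    (hM : ∀ β, FilMod YY (sect G (α + dv β))) {b : ℕ}
    (hb : ∀ β : Fin 5 → Fin 7, Module.finrank k (G (α + dv fun j => (β j : ℤ))) +
      Module.finrank k (HH YY (sect G (α + dv fun j => (β j : ℤ))) (-3)) ≤ b) :
    343 * (r * chi (cl α) + ip c ((2 : ℤ) • cl α - (5 : ℤ) • Lc)) + s ≤ 2 * 7 ^ 5 * b := by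
  choose A B C hABC using fun β : Fin 5 → Fin 7 => (hM fun j => (β j : ℤ)).poly
  have hC : ∀ β : Fin 5 → Fin 7, C β ≤ 2 * (b : ℤ) := fun β => by
    have h1 := (hM fun j => (β j : ℤ)).duality (hABC β)
    have h2 : sect G (α + dv fun j => (β j : ℤ)) 0 = G (α + dv fun j => (β j : ℤ)) := by
      unfold sect; rw [mul_zero, zero_smul, add_zero]
    rw [h2] at h1
    have h3 := hb β
    omega
  have h14 : Tendsto (fun t : ℕ => 14 * t) atTop atTop :=
    tendsto_atTop_mono (fun t => by simp only [id]; omega) tendsto_id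
  have hq := quad_unique (A := ∑ β, A β) (B := ∑ β, B β) (C := ∑ β, C β)
    (A' := 1715 * r * 196) (B' := 343 * (r * (2 * deg α - 25) + 2 * ip c Lc) * 14)
    (C' := 343 * (r * chi (cl α) + ip c ((2 : ℤ) • cl α - (5 : ℤ) • Lc)) + s) (by
      filter_upwards [h14.eventually (h α), eventually_all.2 hABC] with t h1 h2
      rw [hp_rhs] at h1
      have h3 : 2 * (hf G (α + (14 * t) • ζ) : ℤ) =
          ∑ β, (A β * (t : ℤ) ^ 2 + B β * t + C β) := by
        unfold hf
        push_cast
        rw [Finset.mul_sum]
        refine Finset.sum_congr rfl fun β _ => ?_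
        rw [← h2 β]
        unfold sect
        rw [add_right_comm, ← natCast_zsmul]
        push_cast
        rfl
      rw [Finset.sum_add_distrib, Finset.sum_add_distrib, ← Finset.sum_mul, ← Finset.sum_mul] at h3
      rw [← h3, h1]
      push_cast
      ring)
  rw [← hq.2.2]
  refine (Finset.sum_le_sum fun β _ => hC β).trans (le_of_eq ?_)
  rw [Finset.sum_const, Finset.card_univ, Fintype.card_fun, Fintype.card_fin, Fintype.card_fin,
    nsmul_eq_mul]
  push_cast
  ring

end Crest.Agent.R169
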