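/-
R169/Gies: the Bogomolov inequality up to `O(1/p)` in characteristic `p` (Gieseker) (part 2 of 2)
-/
import Crest.Agent.R169.GiesA

set_option autoImplicit false
set_option linter.unusedSectionVars false
set_option linter.unusedVariables false
set_option linter.unusedSimpArgs false

noncomputable section

namespace Crest.Agent.R169

open MvPolynomial Filter
open scoped Pointwise


variable {k : Type} [Field k]

theorem Gies_sec_le {D : Ex} {M : ℤ} (h : ∀ i, |D i| ≤ M) (β : Fin 5 → Fin 7) (i : Fin 10) :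
    |(sec D + dv fun j => (β j : ℤ)) i| ≤ 2 * M + 30 := by
  have h0 := abs_le.1 (h 0)
  have h1 := abs_le.1 (h 1)
  have h2 := abs_le.1 (h 2)
  have h3 := abs_le.1 (h 3)
  have h4 := abs_le.1 (h 4)
  have b0 := (β 0).isLt
  have b1 := (β 1).isLt
  have b2 := (β 2).isLt
  have b3 := (β 3).isLt
  have b4 := (β 4).isLt
  have s0 : sec D 0 = 0 := rfl
  have s1 : sec D 1 = 0 := rfl
  have s2 : sec D 2 = 0 := rfl
  have s3 : sec D 3 = 0 := rfl
  have s4 : sec D 4 = 0 := rfl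
  have s5 : sec D 5 = D 1 := rfl
  have s6 : sec D 6 = D 2 := rfl
  have s7 : sec D 7 = D 3 + D 0 := rfl
  have s8 : sec D 8 = D 4 + D 0 := rfl
  have s9 : sec D 9 = D 0 := rfl
  revert i
  rw [dg_forall]
  simp only [abs_le, Pi.add_apply, s0, s1, s2, s3, s4, s5, s6, s7, s8, s9, dv_0, dv_1, dv_2, dv_3,
    dv_4, dv_5, dv_6, dv_7, dv_8, dv_9]
  omega

theorem Gies_ip_Lc (η : Ex) : ip η Lc = 3 * η 0 + η 1 + η 2 + η 3 + η 4 := by
  simp [ip, Lc]; ring

theorem Gies_eta {η : Ex} {r : ℤ} (h : ∀ i, 0 ≤ η i ∧ η i ≤ r) :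
    0 ≤ ip η Lc ∧ ip η Lc ≤ 7 * r ∧ -(4 * r ^ 2) ≤ ip η η := by
  obtain ⟨⟨a0, b0⟩, ⟨a1, b1⟩, ⟨a2, b2⟩, ⟨a3, b3⟩, ⟨a4, b4⟩⟩ := ex_forall.1 h
  rw [Gies_ip_Lc]
  refine ⟨by omega, by omega, ?_⟩
  have c0 := mul_self_nonneg (η 0)
  have c1 := mul_self_le_mul_self a1 b1
  have c2 := mul_self_le_mul_self a2 b2
  have c3 := mul_self_le_mul_self a3 b3
  have c4 := mul_self_le_mul_self a4 b4
  unfold ip
  nlinarith

theorem Gies_identity (r p : ℤ) (D c : Ex) :
    r * (r * chi D + ip (p • c) ((2 : ℤ) • D - (5 : ℤ) • Lc)) =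
      28 * r ^ 2 + ip (r • D + p • c) (r • D + p • c) - p ^ 2 * ip c c -
        5 * r * ip (r • D + p • c) Lc := by
  simp only [chi, ip_add_left, ip_add_right, ip_sub_right, ip_smul_left, ip_smul_right,
    ip_comm D c]
  ring

/-- Recipe.  `W = pull (frob p) p E`, `G = hull W`, `D = fun i => -(p * c i / r)`, `α = sec D`,
`η = r • D + p • c` has entries of absolute value `< r`.  `HP G r (p • c) s'` with `p² ss E ≤ s'`
(`IsFrob.rr`, `eq_of_le_hull`).  Identity:
`r (r chi D + ip (p c) (2 D - 5 L)) = 28 r² + ip η η - p² ip c c - 5 r ip η L`.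
`h0_bound`: `h = det (x i ^ p)` (`single_det_mem`), `μ = p m + 71 r²` (`frob_bound`),
`r deg α + p m = ip η L`, so a fixed `j` works; `s = p * (const + 1)`.
`h2_bound`: `x' i = yy 0 ^ s • frob p (x i) ∈ sect G (α + dv β) (2 s)` (`yy0_pow_mem`),
`μ = p m - 71 r²` (`mm_cut_hull`).  Then `chi_le`. -/
theorem gieseker (r : ℕ) (hr : 1 ≤ r) (c : Ex) (γ : Dg) : ∃ C : ℤ,
    ∀ (k : Type) [Field k] (p : ℕ) [Fact p.Prime] [CharP k p] [PerfectRing k p] [Infinite k]
      (E : Fam k (Fin r → KK k)), IsLat E → E ≤ CCr k (Fin r) → SS E → cc E = c →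
      ∀ x : Fin r → Fin r → KK k, LinearIndependent (KK k) x → (∀ i, x i ∈ E γ) →
        (p : ℤ) ^ 2 * (r * ss E - 343 * ip c c) ≤ C * p := by
  obtain ⟨K, hK⟩ : ∃ K : ℕ, ∀ i, |c i| ≤ K := ⟨∑ i, (c i).natAbs, fun i => by
    rw [← Int.natCast_natAbs]
    exact_mod_cast Finset.single_le_sum (f := fun i => (c i).natAbs) (fun _ _ => Nat.zero_le _)
      (Finset.mem_univ i)⟩
  obtain ⟨Γ, hΓ⟩ : ∃ Γ : ℕ, ∀ i, |γ i| ≤ Γ := ⟨∑ i, (γ i).natAbs, fun i => by
    rw [← Int.natCast_natAbs]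
    exact_mod_cast Finset.single_le_sum (f := fun i => (γ i).natAbs) (fun _ _ => Nat.zero_le _)
      (Finset.mem_univ i)⟩
  obtain ⟨S, hS⟩ : ∃ S : ℕ, S = K + Γ + 5 := ⟨_, rfl⟩
  obtain ⟨B, hB⟩ : ∃ B : ℕ,
      B = 2 * r * (r * (20 * S)) + (2 * r + 29) * (20 * r * (2 * S + 21)) := ⟨_, rfl⟩
  refine ⟨2 * 7 ^ 5 * B * r + 343 * 11 * r ^ 2, ?_⟩
  intro k _ p hp _ _ _ E hE hEle hss hc x hx hxE
  have hp1 : 1 ≤ p := hp.out.one_le
  have hp1' : (1 : ℤ) ≤ p := by exact_mod_cast hp1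
  have hr' : (1 : ℤ) ≤ r := by exact_mod_cast hr
  have hφ : IsFrob k p (frob p : (Fin r → KK k) → Fin r → KK k) := isFrob_frob _
  have hEt : spn E = ⊤ := by
    refine top_unique ?_
    rw [← hx.span_eq_top_of_card_eq_finrank' (by simp), Submodule.span_le]
    rintro _ ⟨i, rfl⟩
    exact mem_spn (hxE i)
  obtain ⟨W, hW⟩ : ∃ W, W = pull (frob p) p E := ⟨_, rfl⟩
  have hWl : IsLat W := hW ▸ hφ.isLat hE
  have hWle : W ≤ CCr k (Fin r) := hW ▸ pull_le_CCr hEle
  have hWt : spn W = ⊤ := hW ▸ spn_pull hE hEt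
  have hWhp : HP W r ((p : ℤ) • c) (p ^ 2 * ss E) := by
    have := hφ.rr hE
    rwa [rk_of_top hEt, hc, ← hW] at this
  obtain ⟨-, hWc, hWs⟩ := hWhp.eq hWl
  have hGl : IsLat (hull W) := isLat_hull hWl hWle
  have hGt : spn (hull W) = ⊤ := top_unique (hWt ▸ spn_mono (le_hull W))
  obtain ⟨-, hGc, hGs⟩ := eq_of_le_hull hWl hGl (le_hull W) le_rfl
  have hGhp : HP (hull W) r ((p : ℤ) • c) (ss (hull W)) := by
    have := hGl.rr
    rwa [rk_of_top hGt, hGc, hWc] at this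
  have hmE : mm E = ip c Lc := by rw [mm, hc]
  have hmG : mm (hull W) = p * ip c Lc := by rw [mm, hGc, hWc, ip_smul_left]
  have hfb := fun U => frob_bound (p := p) hE hEt hss U
  rw [← hW, hmE] at hfb
  -- the twist
  obtain ⟨D, hD⟩ : ∃ D : Ex, D = fun i => -(p * c i / r) := ⟨_, rfl⟩
  have hDle : ∀ i, |D i| ≤ p * K := fun i => by
    rw [hD]
    have h1 : |(p : ℤ) * c i / r| ≤ |(p : ℤ) * c i| := by
      rw [← Int.natCast_natAbs, ← Int.natCast_natAbs]
      exact_mod_cast Int.natAbs_ediv_le_natAbs _ _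
    rw [abs_mul, Nat.abs_cast] at h1
    rw [abs_neg]
    exact h1.trans (mul_le_mul_of_nonneg_left (hK i) (by positivity))
  have hη : ∀ i, 0 ≤ ((r : ℤ) • D + (p : ℤ) • c) i ∧ ((r : ℤ) • D + (p : ℤ) • c) i ≤ r := by
    intro i
    have e : ((r : ℤ) • D + (p : ℤ) • c) i = (p * c i) % r := by
      rw [Int.emod_def, hD]
      simp only [Pi.add_apply, Pi.smul_apply, smul_eq_mul]
      ring
    rw [e]
    exact ⟨Int.emod_nonneg _ (by omega), (Int.emod_lt_of_pos _ (by omega)).le⟩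
  obtain ⟨η1, η2, η3⟩ := Gies_eta hη
  have hid := Gies_identity r p D c
  have hdeg : ∀ β : Ex, r * deg (sec D + dv β) + p * ip c Lc =
      ip ((r : ℤ) • D + (p : ℤ) • c) Lc := fun β => by
    rw [deg_add, deg_dv, add_zero, ← ip_cl_Lc, cl_sec, ip_add_left, ip_smul_left, ip_smul_left]
  generalize ip ((r : ℤ) • D + (p : ℤ) • c) Lc = eL at η1 η2 hid hdeg
  generalize ip ((r : ℤ) • D + (p : ℤ) • c) ((r : ℤ) • D + (p : ℤ) • c) = ee at η3 hid
  -- the pulled back basis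
  have hx1 : LinearIndependent (KK k) fun i => frob p (x i) := hφ.linearIndependent hx
  have hx1W : ∀ i, frob p (x i) ∈ W ((p : ℤ) • γ) := fun i => hW ▸ mem_pull (hxE i)
  have hdet : (Matrix.of fun i => frob p (x i)).det ≠ 0 := by
    rw [← isUnit_iff_ne_zero, ← Matrix.isUnit_iff_isUnit_det,
      ← Matrix.linearIndependent_rows_iff_isUnit]
    exact hx1
  have hS1 : 1 ≤ p * S := Nat.mul_pos hp1 (by omega)
  have hpK : (0 : ℤ) ≤ p * K := by positivity
  have hpΓ : (0 : ℤ) ≤ p * Γ := by positivity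
  have hpS : ((p * S : ℕ) : ℤ) = p * K + p * Γ + 5 * p := by rw [hS]; push_cast; ring
  have hb : ∀ β : Fin 5 → Fin 7,
      Module.finrank k (hull W (sec D + dv fun j => (β j : ℤ))) +
        Module.finrank k (HH YY (sect (hull W) (sec D + dv fun j => (β j : ℤ))) (-3)) ≤ p * B := by
    intro β
    have hαb := fun i => abs_le.1 (Gies_sec_le hDle β i)
    have hd := hdeg fun j => (β j : ℤ)
    generalize (sec D + dv fun j => (β j : ℤ)) = α at hαb hd
    have b0 := h0_bound hWl hWle hdet (hWl.stable.single_det_mem hWle hx1W)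
      (μ := p * ip c Lc + 71 * r ^ 2) (fun U hU => by simpa [hU] using (hfb U).1) hS1 (α := α)
      (fun i => by
        have := (hαb i).2
        simp only [Pi.smul_apply, Pi.one_apply, smul_eq_mul, mul_one]
        omega) (j := 2 * r) (by push_cast; nlinarith)
    have hy : yy k 0 ^ (p * S) ∈ CC k (α - (p : ℤ) • γ + (28 * (p * S : ℕ) : ℤ) • ζ) :=
      yy0_pow_mem fun i => by
        have h1 := (hαb i).1
        have h2 : (p : ℤ) * γ i ≤ p * Γ :=
          mul_le_mul_of_nonneg_left (abs_le.1 (hΓ i)).2 (by positivity)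
        simp only [Pi.sub_apply, Pi.smul_apply, smul_eq_mul]
        omega
    have b2 := h2_bound hGl hGt (filMod_hull hWl hWle α) (t := 2 * (p * S))
      (x := fun i => yy k 0 ^ (p * S) • frob p (x i))
      (hx1.units_smul fun _ => Units.mk0 _ (pow_ne_zero (p * S) yy0_ne_zero))
      (fun i => by
        have h1 := le_hull W _ (hWl.stable hy (hx1W i))
        have e : α - (p : ℤ) • γ + (28 * (p * S : ℕ) : ℤ) • ζ + (p : ℤ) • γ =
            α + (14 * ((2 * (p * S) : ℕ) : ℤ)) • ζ := by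
          rw [show (14 * ((2 * (p * S) : ℕ) : ℤ)) = 28 * (p * S : ℕ) by push_cast; ring]
          abel
        rwa [e] at h1)
      (μ := p * ip c Lc - 71 * r ^ 2) (fun U hU => by
        have h1 := (hfb U).2
        have h2 : (r : ℤ) - Module.finrank (KK k) U = 1 := by omega
        rw [h2, one_mul, ← mm_cut_hull hWl hWle] at h1
        rwa [hmG]) (j := 2 * r + 29)
      (by push_cast; nlinarith)
    refine (add_le_add b0 b2).trans ?_
    rw [hB, mul_add p]
    refine add_le_add (le_of_eq (by ring)) ?_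
    have h1 : 2 * (p * S) + 21 ≤ p * (2 * S + 21) := by nlinarith
    calc (2 * r + 29) * (20 * r * (2 * (p * S) + 21))
        ≤ (2 * r + 29) * (20 * r * (p * (2 * S + 21))) := by gcongr
      _ = _ := by ring
  have key := chi_le hGhp (sec D) (fun β => filMod_hull hWl hWle _) hb
  rw [cl_sec] at key
  have key' := mul_le_mul_of_nonneg_left key (by omega : (0 : ℤ) ≤ r)
  have h1 : (r : ℤ) * (p ^ 2 * ss E) ≤ r * ss (hull W) :=
    mul_le_mul_of_nonneg_left (hWs ▸ hGs) (by omega)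
  have h2 : (r : ℤ) * eL ≤ r * (7 * r) := mul_le_mul_of_nonneg_left η2 (by omega)
  have h3 : (r : ℤ) ^ 2 * 1 ≤ r ^ 2 * p := mul_le_mul_of_nonneg_left hp1' (by positivity)
  push_cast at key'
  linarith

end Crest.Agent.R169
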