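/-
R169/DetA: the degree of a lattice through determinants (part 1 of 3)
-/
import Crest.Agent.R169.RR

set_option autoImplicit false
set_option linter.unusedSectionVars false
set_option linter.unusedVariables false
set_option linter.unusedSimpArgs false

noncomputable section

namespace Crest.Agent.R169

open MvPolynomial Filter
open scoped Pointwise


variable {k : Type} [Field k] {r : ℕ}

theorem DetA_sum_update (α : Fin r → Dg) (i : Fin r) (β : Dg) :
    ∑ j, Function.update α i β j = ∑ j, α j + (β - α i) := by
  rw [Finset.sum_update_of_mem (Finset.mem_univ i), ← Finset.add_sum_erase _ α (Finset.mem_univ i),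
    Finset.sdiff_singleton_eq_erase]
  abel

/-- Local bases: a tuple with minimal valuation of the determinant (Cramer's rule). -/
theorem IsDet.coeff {F : Fam k (Fin r → KK k)} {g : KK k} {γ : Dg} (h : IsDet F g γ) {π : Pr k}
    {x : Fin r → Fin r → KK k} {α : Fin r → Dg} (hx : ∀ i, x i ∈ F (α i))
    (h0 : (Matrix.of x).det ≠ 0) (hv : val π (Matrix.of x).det (∑ i, α i) = val π g γ)
    {y : Fin r → KK k} {β : Dg} (hy : y ∈ F β) :
    ∃ c : Fin r → KK k, y = ∑ i, c i • x i ∧ ∀ i, c i = 0 ∨ 0 ≤ val π (c i) (β - α i) := by
  refine ⟨fun i => (Matrix.of (Function.update x i y)).det / (Matrix.of x).det, ?_, fun i => ?_⟩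
  · funext j
    have h1 := congrFun (Matrix.mulVec_cramer (Matrix.of x).transpose y) j
    simp only [Matrix.mulVec, dotProduct, Matrix.cramer_transpose_apply, Matrix.det_transpose,
      Matrix.transpose_apply, Matrix.of_apply, Pi.smul_apply, smul_eq_mul] at h1
    simp only [Finset.sum_apply, Pi.smul_apply, smul_eq_mul, div_mul_eq_mul_div, ← Finset.sum_div]
    rw [eq_div_iff h0, mul_comm, ← h1]
    exact Finset.sum_congr rfl fun i _ => mul_comm _ _
  · by_cases h1 : (Matrix.of (Function.update x i y)).det = 0
    · exact Or.inl (by simp only [h1, zero_div])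
    have h2 := h.dvd (Function.update x i y) (Function.update α i β) fun j => by
      by_cases hj : j = i
      · subst hj; simpa using hy
      · simpa [hj] using hx j
    have h3 := (mem_CC.1 h2).resolve_left (div_ne_zero h1 h.ne) π
    rw [val_div π h1 h.ne, ← hv, ← val_div π h1 h0, DetA_sum_update, add_sub_cancel_left] at h3
    exact Or.inr h3

/-- It suffices to test the determinants of generators (multilinear expansion,
`Matrix.det` as `MultilinearMap`, or induction on the rows with `Matrix.det_updateRow_add`). -/
theorem det_div_mem_of_gen {S : Set ((Fin r → KK k) × Dg)} {g : KK k} {γ : Dg}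
    (h : ∀ y : Fin r → (Fin r → KK k) × Dg, (∀ i, y i ∈ S) →
      (Matrix.of fun i => (y i).1).det / g ∈ CC k (∑ i, (y i).2 - γ))
    (x : Fin r → Fin r → KK k) (α : Fin r → Dg) (hx : ∀ i, x i ∈ gen k S (α i)) :
    (Matrix.of x).det / g ∈ CC k (∑ i, α i - γ) := by
  suffices H : ∀ (s : Finset (Fin r)) (x : Fin r → Fin r → KK k) (α : Fin r → Dg),
      (∀ i ∈ s, x i ∈ gen k S (α i)) → (∀ i ∉ s, (x i, α i) ∈ S) →
      (Matrix.of x).det / g ∈ CC k (∑ i, α i - γ) from
    H Finset.univ x α (fun i _ => hx i) fun i hi => absurd (Finset.mem_univ i) hi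
  intro s
  induction s using Finset.induction_on with
  | empty => exact fun x α _ h2 => h (fun i => (x i, α i)) fun i => h2 i (Finset.notMem_empty i)
  | insert i s hi ih =>
    intro x α h1 h2
    have key : ∀ v ∈ gen k S (α i), ((Matrix.of x).updateRow i v).det / g ∈
        CC k (∑ i, α i - γ) := by
      intro v hv
      induction hv using Submodule.span_induction with
      | mem v hv =>
        obtain ⟨p, hp, f, hf, rfl⟩ := hv
        have h3 := ih (Function.update x i p.1) (Function.update α i p.2)
          (fun j hj => by
            have : j ≠ i := fun e => hi (e ▸ hj)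
            simpa [this] using h1 j (Finset.mem_insert_of_mem hj))
          (fun j hj => by
            by_cases e : j = i
            · subst e; simpa using hp
            · simpa [e] using h2 j (by simp [e, hj]))
        have h4 := mul_mem_CC hf h3
        rw [DetA_sum_update, show α i - p.2 + (∑ j, α j + (p.2 - α i) - γ) = ∑ j, α j - γ by abel]
          at h4
        rw [Matrix.det_updateRow_smul, mul_div_assoc]
        exact h4
      | zero =>
        rw [Matrix.det_eq_zero_of_row_eq_zero i (by simp), zero_div]
        exact Submodule.zero_mem _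
      | add v w _ _ hv hw =>
        rw [Matrix.det_updateRow_add, add_div]
        exact Submodule.add_mem _ hv hw
      | smul c v _ hv =>
        rw [← algebraMap_smul (KK k), Matrix.det_updateRow_smul, mul_div_assoc, ← Algebra.smul_def]
        exact Submodule.smul_mem _ c hv
    have := key (x i) (h1 i (Finset.mem_insert_self _ _))
    rwa [show x i = Matrix.of x i from rfl, Matrix.updateRow_eq_self] at this

/-- A step at a point does not change the determinant: `u • x ∈ F` with `u` prime to `π`. -/
theorem IsDet.step_pt {F : Fam k (Fin r → KK k)} (hF : IsLat F) {g : KK k} {γ : Dg}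
    (h : IsDet F g γ) (x : Fin r → KK k) (α : Dg) (hp : Pt (colon F x α)) :
    IsDet (F ⊔ gen k {(x, α)}) g γ := by
  refine ⟨h.ne, fun y β hy => ?_, fun π => ?_⟩
  · by_cases h0 : (Matrix.of y).det / g = 0
    · exact mem_CC.2 (Or.inl h0)
    refine mem_CC.2 (Or.inr fun π => ?_)
    obtain ⟨u, δ, hu, hu0, hv⟩ := hp π
    have h1 := h.dvd (fun i => u • y i) (fun i => δ + β i) fun i => by
      obtain ⟨a, ha, b, hb, e⟩ := Submodule.mem_sup.1 (hy i)
      obtain ⟨f, hf, rfl⟩ := mem_gen_single.1 hb
      rw [← e, smul_add, smul_comm]
      refine Submodule.add_mem _ (hF.stable hu.1 ha) ?_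
      have := hF.stable hf (mem_colon.1 hu).2
      rwa [show β i - α + (δ + α) = δ + β i by abel] at this
    have h2 : (Matrix.of fun i => u • y i).det = u ^ r * (Matrix.of y).det := by
      have := Matrix.det_smul (Matrix.of y) u
      rwa [Fintype.card_fin] at this
    rw [h2, mul_div_assoc, Finset.sum_add_distrib, Finset.sum_const, Finset.card_univ,
      Fintype.card_fin, add_sub_assoc, ← natCast_zsmul] at h1
    have h3 := (mem_CC.1 h1).resolve_left (mul_ne_zero (pow_ne_zero _ hu0) h0) π
    rwa [val_mul π (pow_ne_zero _ hu0) h0, val_pow π hu0, hv, mul_zero, zero_add] at h3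
  · obtain ⟨y, β, h1, h2⟩ := h.att π
    exact ⟨y, β, fun i => Submodule.mem_sup_left (h1 i), h2⟩

end Crest.Agent.R169
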