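/-
R169/DetB: the degree of a lattice through determinants (part 2 of 3)
-/
import Crest.Agent.R169.DetA

set_option autoImplicit false
set_option linter.unusedSectionVars false
set_option linter.unusedVariables false
set_option linter.unusedSimpArgs false

noncomputable section

namespace Crest.Agent.R169

open MvPolynomial Filter
open scoped Pointwise


variable {k : Type} [Field k] {r : ℕ}

theorem DetB_sum_update (a : Fin r → Dg) (i : Fin r) (β : Dg) :
    ∑ j, Function.update a i β j = β - a i + ∑ j, a j := by
  rw [Finset.sum_update_of_mem (Finset.mem_univ i), ← Finset.add_sum_erase _ a (Finset.mem_univ i),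
    Finset.sdiff_singleton_eq_erase]
  abel

theorem DetB_mem_update {G : Fam k (Fin r → KK k)} {y : Fin r → Fin r → KK k} {a : Fin r → Dg}
    {i : Fin r} {z : Fin r → KK k} {β : Dg} (hz : z ∈ G β) (hy : ∀ j, j ≠ i → y j ∈ G (a j))
    (j : Fin r) : Function.update y i z j ∈ G (Function.update a i β j) := by
  by_cases h : j = i
  · subst h
    rwa [Function.update_self, Function.update_self]
  · rw [Function.update_of_ne h, Function.update_of_ne h]
    exact hy j h

/-- A step along the divisor `π` divides the determinant by the prime element.  Recipe: a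
determinant of generators contains `x` at most once (else it vanishes), and `g' • x ∈ F`.  At `π`
write `x = ∑ c i • x i` in a local basis (apply `coeff` to `g' • x`); if all `c i` were integral at
`π`, `exists_den_at` would give `u ∈ colon F x α = (g')` prime to `π`. -/
theorem IsDet.step_div {F : Fam k (Fin r → KK k)} (hF : IsLat F) {g : KK k} {γ : Dg}
    (h : IsDet F g γ) (x : Fin r → KK k) (α : Dg) {π : Pr k} {g' : KK k} {δ : Dg}
    (hπ : IsPE π g' δ) (he : colon F x α = gen k {(g', δ)}) :
    IsDet (F ⊔ gen k {(x, α)}) (g / g') (γ - δ) := by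
  have hg0 : g' ≠ 0 := hπ.1
  have hgx : g' • x ∈ F (δ + α) := by
    have : g' ∈ colon F x α δ := by rw [he]; exact mem_gen rfl
    exact (mem_colon.1 this).2
  have hv1 : val π g' δ = 1 := by rw [hπ.2, if_pos rfl]
  refine ⟨div_ne_zero h.ne hg0, ?_, fun π' => ?_⟩
  · obtain ⟨S, -, rfl⟩ := hF
    rw [← gen_union]
    refine det_div_mem_of_gen fun y hy => ?_
    by_cases h1 : ∀ i, y i ∈ S
    · have h2 := mul_mem_CC hπ.mem (h.dvd (fun i => (y i).1) (fun i => (y i).2)
        fun i => mem_gen (h1 i))
      rw [show ∑ i, (y i).2 - (γ - δ) = δ + (∑ i, (y i).2 - γ) by abel, div_div_eq_mul_div,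
        mul_comm, mul_div_assoc]
      exact h2
    · push Not at h1
      obtain ⟨i, hi⟩ := h1
      have hyi : y i = (x, α) := (hy i).resolve_left hi
      by_cases h2 : ∀ j, j ≠ i → y j ∈ S
      · have h3 := h.dvd _ _ (DetB_mem_update (y := fun j => (y j).1) (a := fun j => (y j).2)
          hgx fun j hj => mem_gen (h2 j hj))
        have e1 : (Matrix.of (Function.update (fun j => (y j).1) i (g' • x))).det =
            g' * (Matrix.of fun j => (y j).1).det := by
          have e2 := Matrix.det_updateRow_smul (Matrix.of fun j => (y j).1) i g' x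
          have e3 : x = (Matrix.of fun j => (y j).1) i := by
            change x = (y i).1
            rw [hyi]
          rw [show (Matrix.of fun j => (y j).1).updateRow i x = Matrix.of fun j => (y j).1 by
            rw [e3]; exact Matrix.updateRow_eq_self _ _] at e2
          exact e2
        rw [e1, DetB_sum_update, hyi] at h3
        rw [show ∑ i, (y i).2 - (γ - δ) = δ + α - α + ∑ i, (y i).2 - γ by abel, div_div_eq_mul_div,
          mul_comm]
        exact h3
      · push Not at h2
        obtain ⟨j, hji, hj⟩ := h2
        have hyj : y j = (x, α) := (hy j).resolve_left hj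
        rw [Matrix.det_zero_of_row_eq hji (by
          change (y j).1 = (y i).1
          rw [hyi, hyj]), zero_div]
        exact Submodule.zero_mem _
  · obtain ⟨y, a, hy, hd, hv⟩ := h.att π'
    rw [val_div π' h.ne hg0]
    by_cases hππ : π' = π
    swap
    · refine ⟨y, a, fun i => Submodule.mem_sup_left (hy i), hd, ?_⟩
      rw [hπ.2, if_neg hππ, sub_zero, hv]
    subst hππ
    obtain ⟨c, hc1, hc2⟩ := h.coeff hy hd hv hgx
    have hx : x = ∑ i, (c i / g') • y i := by
      have : x = g'⁻¹ • (g' • x) := by rw [smul_smul, inv_mul_cancel₀ hg0, one_smul]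
      rw [this, hc1, Finset.smul_sum]
      exact Finset.sum_congr rfl fun i _ => by rw [smul_smul, div_eq_inv_mul]
    have hval : ∀ i, c i ≠ 0 →
        val π' (c i / g') (α - a i) = val π' (c i) (δ + α - a i) - 1 := fun i hi => by
      rw [← hv1, ← val_div π' hi hg0]
      congr 1
      abel
    obtain ⟨i, hi0, hi⟩ : ∃ i, c i ≠ 0 ∧ val π' (c i) (δ + α - a i) = 0 := by
      by_contra hcon
      push Not at hcon
      obtain ⟨u, β, hu0, hu, huv, huc⟩ := exists_den_at π' (fun i => c i / g') (fun i => α - a i)
        fun i => by
          by_cases hi : c i = 0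
          · left; rw [hi, zero_div]
          · right
            have h1 := (hc2 i).resolve_left hi
            have h2 := hcon i hi
            rw [hval i hi]
            omega
      have hux : u • x ∈ F (β + α) := by
        rw [hx, Finset.smul_sum]
        refine Submodule.sum_mem _ fun i _ => ?_
        have h1 := hF.stable (huc i) (hy i)
        rwa [show β + (α - a i) + a i = β + α by abel, ← smul_smul] at h1
      have h1 : u ∈ gen k {(g', δ)} β := by rw [← he]; exact mem_colon.2 ⟨hu, hux⟩
      obtain ⟨f, hf, rfl⟩ := mem_gen_single.1 h1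
      rw [smul_eq_mul] at hu0 huv
      have hf0 : f ≠ 0 := left_ne_zero_of_mul hu0
      have h2 := val_mul π' hf0 hg0 (β - δ) δ
      have h3 := (mem_CC.1 hf).resolve_left hf0 π'
      rw [sub_add_cancel] at h2
      omega
    have e1 : (Matrix.of (Function.update y i x)).det = c i / g' * (Matrix.of y).det := by
      have e2 := Matrix.det_updateRow_sum (Matrix.of y) i fun j => c j / g'
      rw [smul_eq_mul] at e2
      rw [← e2]
      congr 1
      rw [hx]
      rfl
    have hc0 : c i / g' ≠ 0 := div_ne_zero hi0 hg0
    refine ⟨Function.update y i x, Function.update a i α,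
      DetB_mem_update (Submodule.mem_sup_right (mem_gen rfl))
        fun j _ => Submodule.mem_sup_left (hy j), by rw [e1]; exact mul_ne_zero hc0 hd, ?_⟩
    rw [e1, DetB_sum_update, val_mul π' hc0 hd, hval i hi0, hi, hv, hv1]
    ring

end Crest.Agent.R169
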