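/-
R169/Det: the degree of a lattice through determinants (part 3 of 3)
-/
import Crest.Agent.R169.DetB

set_option autoImplicit false
set_option linter.unusedSectionVars false
set_option linter.unusedVariables false
set_option linter.unusedSimpArgs false

noncomputable section

namespace Crest.Agent.R169

open MvPolynomial Filter
open scoped Pointwise


variable {k : Type} [Field k] {r : ℕ}

theorem Det_isDet_free {x : Fin r → Fin r → KK k} (hli : LinearIndependent (KK k) x) (γ : Dg) :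
    IsDet (gen k (Set.range fun i => (x i, γ))) (Matrix.of x).det ((r : ℤ) • γ) := by
  have hsum : ∑ _i : Fin r, γ = (r : ℤ) • γ := by
    rw [Finset.sum_const, Finset.card_univ, Fintype.card_fin, natCast_zsmul]
  have h0 : (Matrix.of x).det ≠ 0 :=
    ((Matrix.isUnit_iff_isUnit_det _).1
      ((Matrix.linearIndependent_rows_iff_isUnit (A := Matrix.of x)).1 hli)).ne_zero
  refine ⟨h0, fun y α hy => ?_, fun π => ⟨x, fun _ => γ, fun i => mem_gen ⟨i, rfl⟩, h0, ?_⟩⟩
  · choose f hf hy using fun i => mem_gen_range.1 (hy i)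
    have h1 : Matrix.of y = Matrix.of f * Matrix.of x := by
      ext i j
      rw [Matrix.of_apply, hy i, Matrix.mul_apply, Finset.sum_apply]
      rfl
    rw [h1, Matrix.det_mul, mul_div_cancel_right₀ _ h0, ← hsum, ← Finset.sum_sub_distrib]
    exact det_mem_CC hf
  · rw [hsum]

theorem exists_isDet {F : Fam k (Fin r → KK k)} (hF : IsLat F) (ht : spn F = ⊤) :
    ∃ g γ, IsDet F g γ ∧ mm F = -deg γ := by
  have hfree := hF.exists_free
  rw [rk_of_top ht, ht] at hfree
  obtain ⟨γ₀, x, hx, hli, hsp⟩ := hfree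
  have h0 : IsLat (gen k (Set.range fun i => (x i, γ₀))) := isLat_gen (Set.finite_range _)
  have ht0 : spn (gen k (Set.range fun i => (x i, γ₀))) = ⊤ := by
    rw [spn_gen, ← Set.range_comp]
    exact hsp
  refine devissage h0 hF (gen_le hF.stable ?_) (fun F' => ∃ g γ, IsDet F' g γ ∧ mm F' = -deg γ)
    ⟨_, _, Det_isDet_free hli γ₀, ?_⟩ ?_
  · rintro _ ⟨i, rfl⟩
    exact hx i
  · rw [mm, ((hp_gen_free hli γ₀).eq h0).2.1, ip_neg_left, ip_smul_left, ip_cl_Lc, deg_smul]
  · rintro F' y α hF' hle - - hpr ⟨g, γ, hg, hm⟩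
    have hy : y ∈ spn F' := spn_mono hle (ht0 ▸ Submodule.mem_top)
    obtain ⟨u, β, hu0, hu, huy⟩ := hF'.stable.exists_den hy α
    have hL : IsLat (F' ⊔ gen k {(y, α)}) := hF'.sup (isLat_gen (Set.finite_singleton _))
    rcases hpr.cases (mem_colon.2 ⟨hu, huy⟩) hu0 with ⟨π, g', δ, hπ, he⟩ | hp
    · refine ⟨_, _, hg.step_div hF' y α hπ he, ?_⟩
      have h1 := hF'.rr.step_div hF' y α (δ := δ) hπ.1 fun _ =>
        Eventually.of_forall fun _ => by rw [he]
      rw [mm, (h1.eq hL).2.1, ip_add_left, ip_cl_Lc, ← mm, hm, deg_sub]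
      ring
    · obtain ⟨e, he⟩ := hpr.point_hf hp
      refine ⟨_, _, hg.step_pt hF' y α hp, ?_⟩
      rw [mm, ((hF'.rr.step_pt hF' y α he).eq hL).2.1, ← mm, hm]

theorem mm_le_of_det {S : Set ((Fin r → KK k) × Dg)} (hS : S.Finite) (ht : spn (gen k S) = ⊤)
    {g : KK k} {γ : Dg} (hg : g ≠ 0)
    (h : ∀ y : Fin r → (Fin r → KK k) × Dg, (∀ i, y i ∈ S) →
      (Matrix.of fun i => (y i).1).det / g ∈ CC k (∑ i, (y i).2 - γ)) :
    mm (gen k S) ≤ -deg γ := by
  obtain ⟨g', γ', hd, hm⟩ := exists_isDet (isLat_gen hS) ht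
  have h1 : g' / g ∈ CC k (γ' - γ) := by
    refine mem_CC.2 (Or.inr fun π => ?_)
    obtain ⟨x, α, hx, h0, hv⟩ := hd.att π
    have h2 := (mem_CC.1 (det_div_mem_of_gen h x α hx)).resolve_left (div_ne_zero h0 hg) π
    rw [val_div π h0 hg, hv] at h2
    rwa [val_div π hd.ne hg]
  have h2 := deg_nonneg_of_mem h1 (div_ne_zero hd.ne hg)
  rw [deg_sub] at h2
  linarith

end Crest.Agent.R169
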