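/-
R169/NssA: Nullstellensatz certificates and valuation rings of `ℂ` of large residue characteristic (part 1 of 2)
-/
import Crest.Agent.R169.Num

set_option autoImplicit false
set_option linter.unusedSectionVars false
set_option linter.unusedVariables false
set_option linter.unusedSimpArgs false

noncomputable section

namespace Crest.Agent.R169

open MvPolynomial Filter
open scoped Pointwise


theorem NssA_one {σ J : Type} [Finite σ] (e : J → MvPolynomial σ ℂ) (h : MvPolynomial σ ℂ)
    (hno : ∀ c : σ → ℂ, (∀ j, eval c (e j) = 0) → eval c h = 0) :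
    ∃ S : Finset ℂ, ∀ (O : Type) [CommRing O] (ι0 : O →+* ℂ), Function.Injective ι0 →
      (S : Set ℂ) ⊆ Set.range ι0 →
      ∀ (e' : J → MvPolynomial σ O) (h' : MvPolynomial σ O),
        (∀ j, map ι0 (e' j) = e j) → map ι0 h' = h →
        ∀ (κ : Type) [Field κ] (ρ : O →+* κ) (c : σ → κ),
          (∀ j, eval₂Hom ρ c (e' j) = 0) → eval₂Hom ρ c h' = 0 := by
  classical
  have h1 : h ∈ (Ideal.span (Set.range e)).radical := by
    rw [← vanishingIdeal_zeroLocus_eq_radical (K := ℂ), mem_vanishingIdeal_iff]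
    intro x hx
    rw [zeroLocus_span] at hx
    exact hno x fun j => hx _ ⟨j, rfl⟩
  obtain ⟨N, hN⟩ := h1
  obtain ⟨a, ha⟩ := Finsupp.mem_ideal_span_range_iff_exists_finsupp.mp hN
  refine ⟨a.support.biUnion fun j => (a j).coeffs, ?_⟩
  intro O _ ι0 hι hS e' h' he hh κ _ ρ c hc
  have h2 : ∀ j, ∃ b : MvPolynomial σ O, map ι0 b = a j := fun j => by
    by_cases hj : j ∈ a.support
    · refine mem_range_map_iff_coeffs_subset.mpr fun x hx => hS ?_
      exact Finset.mem_coe.mpr (Finset.mem_biUnion.mpr ⟨j, hj, hx⟩)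
    · exact ⟨0, by rw [Finsupp.notMem_support_iff.mp hj, map_zero]⟩
  choose b hb using h2
  have h3 : ∑ j ∈ a.support, b j * e' j = h' ^ N := by
    apply map_injective ι0 hι
    rw [map_pow, hh, ← ha, map_sum, Finsupp.sum]
    exact Finset.sum_congr rfl fun j _ => by rw [map_mul, hb, he]
  have h4 := congrArg (eval₂Hom ρ c) h3
  rw [map_pow, map_sum, Finset.sum_eq_zero fun j _ => by rw [map_mul, hc, mul_zero]] at h4
  exact eq_zero_of_pow_eq_zero h4.symm

/-- Recipe: Hilbert's Nullstellensatz (`MvPolynomial.vanishingIdeal_zeroLocus_eq_radical`) for each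
coefficient `H_m` of `H` gives `H_m ^ N = ∑ a * (coefficient of some E i)`; let `S` consist of the
coefficients of all `a`.  The identity lifts to `O` (injectivity of `map`) and maps to `κ`. -/
theorem nss {σ ι : Type} [Finite σ] [Finite ι]
    (E : ι → MvPolynomial (Fin 2) (MvPolynomial σ ℂ)) (H : MvPolynomial (Fin 2) (MvPolynomial σ ℂ))
    (hno : ∀ c : σ → ℂ, (∀ i, map (eval c) (E i) = 0) → map (eval c) H = 0) :
    ∃ S : Finset ℂ, ∀ (O : Type) [CommRing O] (ι0 : O →+* ℂ), Function.Injective ι0 →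
      (S : Set ℂ) ⊆ Set.range ι0 →
      ∀ (E' : ι → MvPolynomial (Fin 2) (MvPolynomial σ O))
        (H' : MvPolynomial (Fin 2) (MvPolynomial σ O)),
        (∀ i, map (map ι0 : MvPolynomial σ O →+* MvPolynomial σ ℂ) (E' i) = E i) →
        map (map ι0 : MvPolynomial σ O →+* MvPolynomial σ ℂ) H' = H →
        ∀ (κ : Type) [Field κ] (ρ : O →+* κ) (c : σ → κ),
          (∀ i, map (eval₂Hom ρ c) (E' i) = 0) → map (eval₂Hom ρ c) H' = 0 := by
  classical
  have h1 := fun m : Fin 2 →₀ ℕ => NssA_one (fun p : ι × (Fin 2 →₀ ℕ) => coeff p.2 (E p.1))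
    (coeff m H) fun c hc => by
      have := hno c fun i => by
        ext m'
        rw [coeff_map, coeff_zero]
        exact hc (i, m')
      rw [← coeff_map, this, coeff_zero]
  choose S hS using h1
  refine ⟨H.support.biUnion S, ?_⟩
  intro O _ ι0 hι hsub E' H' hE hH κ _ ρ c hc
  ext m
  rw [coeff_map, coeff_zero]
  have h2 : map ι0 (coeff m H') = coeff m H := by rw [← hH, coeff_map]
  by_cases hm : m ∈ H.support
  · refine hS m O ι0 hι (fun x hx => hsub ?_) (fun p => coeff p.2 (E' p.1)) _ (fun p => ?_) h2 κ ρ c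
      fun p => ?_
    · exact Finset.mem_coe.mpr (Finset.mem_biUnion.mpr ⟨m, hm, hx⟩)
    · rw [← hE, coeff_map]
    · rw [← coeff_map, hc, coeff_zero]
  · rw [notMem_support_iff.mp hm, ← map_zero (MvPolynomial.map (σ := σ) ι0)] at h2
    rw [map_injective ι0 hι h2, map_zero]

end Crest.Agent.R169
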