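/-
R169/Nss: Nullstellensatz certificates and valuation rings of `ℂ` of large residue characteristic (part 2 of 2)
-/
import Crest.Agent.R169.NssA

set_option autoImplicit false
set_option linter.unusedSectionVars false
set_option linter.unusedVariables false
set_option linter.unusedSimpArgs false

noncomputable section

namespace Crest.Agent.R169

open MvPolynomial Filter
open scoped Pointwise


theorem Nss_isJacobsonRing_int : IsJacobsonRing ℤ := by
  refine isJacobsonRing_iff_prime_eq.2 fun P hP => ?_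
  by_cases h : P = ⊥
  · subst h
    refine le_bot_iff.1 fun x hx => ?_
    have h1 := Int.isUnit_iff.1 (Ideal.mem_jacobson_bot.1 hx x)
    rw [Ideal.mem_bot]
    rcases h1 with h1 | h1 <;> nlinarith [mul_self_nonneg x]
  · have := hP.isMaximal h
    exact Ideal.jacobson_eq_self_of_isMaximal

theorem Nss_exists_prime_mem {A : Type} [CommRing A] [Algebra.FiniteType ℤ A] (m : Ideal A)
    [m.IsMaximal] : ∃ p : ℕ, p.Prime ∧ (p : A) ∈ m := by
  let := Ideal.Quotient.field m
  have := Nss_isJacobsonRing_int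
  have : Algebra.FiniteType ℤ (A ⧸ m) :=
    Algebra.FiniteType.of_surjective (Ideal.Quotient.mk m).toIntAlgHom Ideal.Quotient.mk_surjective
  have := finite_of_finite_type_of_isJacobsonRing ℤ (A ⧸ m)
  obtain ⟨p, hp⟩ := CharP.exists (A ⧸ m)
  rcases CharP.char_is_prime_or_zero (A ⧸ m) p with h | rfl
  · refine ⟨p, h, Ideal.Quotient.eq_zero_iff_mem.1 ?_⟩
    rw [map_natCast, CharP.cast_eq_zero]
  · have := CharP.charP_to_charZero (A ⧸ m)
    exact absurd (isField_of_isIntegral_of_isField (R := ℤ) (S := A ⧸ m)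
      (RingHom.injective_int _) (Field.toIsField _)) Int.not_isField

/-- Recipe: `A = Subring.closure (S ∪ {(N!)⁻¹})` is a finitely generated `ℤ`-algebra; a residue field
`A ⧸ 𝔪` is finite over `ℤ` (`finite_of_finite_type_of_isJacobsonRing`), so it has prime
characteristic `p`, and `p > N`.  Take a valuation subring `O ⊇ A` with `𝔪` in its non-units
(`Ideal.image_subset_nonunits_valuationSubring`) and `κ = AlgebraicClosure (ResidueField O)`. -/
theorem exists_val_ring (S : Finset ℂ) (N : ℕ) : ∃ (p : ℕ) (_ : Fact p.Prime)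
    (O : ValuationSubring ℂ) (κ : Type) (_ : Field κ) (_ : IsAlgClosed κ) (_ : CharP κ p)
    (_ : O →+* κ), N < p ∧ (S : Set ℂ) ⊆ O := by
  classical
  set B : Subalgebra ℤ ℂ := Algebra.adjoin ℤ (insert ((N.factorial : ℂ)⁻¹) S : Finset ℂ) with hB
  have : Algebra.FiniteType ℤ B.toSubring :=
    (Subalgebra.fg_iff_finiteType B).1 (Subalgebra.fg_adjoin_finset _)
  obtain ⟨m, hm⟩ := Ideal.exists_maximal B.toSubring
  obtain ⟨p, hp, hpm⟩ := Nss_exists_prime_mem m
  obtain ⟨O, hO, hmO⟩ := Ideal.image_subset_nonunits_valuationSubring m hm.ne_top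
  have hpO : (p : O) ∈ IsLocalRing.maximalIdeal O := by
    rw [← ValuationSubring.coe_mem_nonunits_iff]
    exact hmO ⟨_, hpm, rfl⟩
  let ρ : O →+* AlgebraicClosure (IsLocalRing.ResidueField O) :=
    (algebraMap _ _).comp (IsLocalRing.residue O)
  have hchar : CharP (AlgebraicClosure (IsLocalRing.ResidueField O)) p := by
    rw [CharP.charP_iff_prime_eq_zero hp, ← map_natCast ρ]
    show algebraMap _ _ (IsLocalRing.residue O p) = 0
    rw [(IsLocalRing.residue_eq_zero_iff _).2 hpO, map_zero]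
  refine ⟨p, ⟨hp⟩, O, _, inferInstance, inferInstance, hchar, ρ, ?_, fun x hx => ?_⟩
  · by_contra hle
    obtain ⟨c, hc⟩ := (hp.dvd_factorial).2 (not_lt.1 hle)
    have hmem : ((N.factorial : ℂ)⁻¹) ∈ B.toSubring :=
      Algebra.subset_adjoin (Finset.mem_coe.2 (Finset.mem_insert_self _ _))
    refine hm.ne_top ((Ideal.eq_top_iff_one m).2 ?_)
    have h1 : (1 : B.toSubring) = (p : B.toSubring) * ((c : B.toSubring) * ⟨_, hmem⟩) := by
      refine Subtype.ext ?_
      have h2 : (N.factorial : ℂ) ≠ 0 := by exact_mod_cast N.factorial_ne_zero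
      push_cast
      rw [← mul_assoc, ← Nat.cast_mul, ← hc, mul_inv_cancel₀ h2]
    rw [h1]
    exact Ideal.mul_mem_right _ _ hpm
  · exact hO (Algebra.subset_adjoin (Finset.mem_coe.2 (Finset.mem_insert_of_mem hx)))

theorem Nss_int_basis {K : Type} [Field K] (O : ValuationSubring K) {σ : Type} (n : ℕ) :
    ∀ (X : Submodule K (σ →₀ K)) [FiniteDimensional K X], Module.finrank K X = n →
      ∃ (x : Fin n → σ →₀ K) (s : Fin n → σ), (∀ i m, x i m ∈ O) ∧
        (∀ i j, x i (s j) = if i = j then 1 else 0) ∧ Submodule.span K (Set.range x) = X := by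
  induction n with
  | zero =>
    intro X _ hX
    refine ⟨Fin.elim0, Fin.elim0, fun i => i.elim0, fun i => i.elim0, ?_⟩
    rw [Submodule.finrank_eq_zero.1 hX]
    simp
  | succ n ih =>
    intro X _ hX
    have hne : X ≠ ⊥ := fun h => by
      rw [h, finrank_bot] at hX
      omega
    obtain ⟨x0, hx0, hx0'⟩ := Submodule.exists_mem_ne_zero_of_ne_bot hne
    obtain ⟨s0, hs0, hmax⟩ := Finset.exists_max_image x0.support (fun m => O.valuation (x0 m))
      (Finsupp.support_nonempty_iff.2 hx0')
    have hs0' : x0 s0 ≠ 0 := Finsupp.mem_support_iff.1 hs0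
    set x1 : σ →₀ K := (x0 s0)⁻¹ • x0 with hx1
    have hx1X : x1 ∈ X := X.smul_mem _ hx0
    have hx1s : x1 s0 = 1 := by simp [hx1, hs0']
    have hx1O : ∀ m, x1 m ∈ O := fun m => by
      by_cases hm : m ∈ x0.support
      · rw [← O.valuation_le_one_iff, hx1, Finsupp.smul_apply, smul_eq_mul, map_mul, map_inv₀,
          inv_mul_le_one₀ (zero_lt_iff.2 ((map_ne_zero _).2 hs0'))]
        exact hmax m hm
      · rw [hx1, Finsupp.smul_apply, Finsupp.notMem_support_iff.1 hm, smul_zero]
        exact O.zero_mem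
    set φ : X →ₗ[K] K := (Finsupp.lapply s0).comp X.subtype with hφ
    set X' : Submodule K (σ →₀ K) := (LinearMap.ker φ).map X.subtype with hX'
    have hmem : ∀ y, y ∈ X' ↔ y ∈ X ∧ y s0 = 0 := fun y =>
      ⟨fun ⟨z, hz, hzy⟩ => hzy ▸ ⟨z.2, hz⟩, fun h => ⟨⟨y, h.1⟩, h.2, rfl⟩⟩
    have hrank : Module.finrank K X' = n := by
      have h1 := LinearMap.finrank_range_add_finrank_ker (K := K) (V := X) (V₂ := K) φ
      have h2 : LinearMap.range φ = ⊤ := LinearMap.range_eq_top.2 fun c =>
        ⟨c • ⟨x1, hx1X⟩, by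
          rw [map_smul]
          show c • x1 s0 = c
          rw [hx1s, smul_eq_mul, mul_one]⟩
      rw [h2, finrank_top, Module.finrank_self, hX] at h1
      rw [hX', Submodule.finrank_map_subtype_eq]
      omega
    have : FiniteDimensional K X' := Submodule.finiteDimensional_of_le fun y hy => ((hmem y).1 hy).1
    obtain ⟨x, s, hxO, hxs, hspan⟩ := ih X' hrank
    have hxX : ∀ i, x i ∈ X ∧ x i s0 = 0 := fun i =>
      (hmem _).1 (hspan ▸ Submodule.subset_span ⟨i, rfl⟩)
    set x2 : σ →₀ K := x1 - ∑ j, x1 (s j) • x j with hx2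
    have hx2X : x2 ∈ X := X.sub_mem hx1X (X.sum_mem fun j _ => X.smul_mem _ (hxX j).1)
    have hx2a : ∀ m, x2 m = x1 m - ∑ j, x1 (s j) * x j m := fun m => by
      simp [hx2, Finsupp.finsetSum_apply]
    have hx2s : x2 s0 = 1 := by simp [hx2a, hx1s, (hxX _).2]
    refine ⟨Fin.cons x2 x, Fin.cons s0 s, fun i m => ?_, fun i j => ?_, ?_⟩
    · refine Fin.cases ?_ (fun i => hxO i m) i
      rw [Fin.cons_zero, hx2a]
      exact sub_mem (hx1O m) (sum_mem fun j _ => mul_mem (hx1O _) (hxO j m))
    · refine Fin.cases ?_ (fun i => ?_) i <;> refine Fin.cases ?_ (fun j => ?_) j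
      · simpa using hx2s
      · simp [hx2a, hxs, (Fin.succ_ne_zero j).symm]
      · simp [(hxX i).2]
      · simp [hxs]
    · rw [Fin.range_cons, Submodule.span_insert, hspan]
      refine le_antisymm (sup_le ((Submodule.span_singleton_le_iff_mem _ _).2 hx2X)
        fun y hy => ((hmem y).1 hy).1) fun y hy => ?_
      refine Submodule.mem_sup.2 ⟨y s0 • x2, Submodule.smul_mem _ _
        (Submodule.mem_span_singleton_self _), y - y s0 • x2,
        (hmem _).2 ⟨X.sub_mem hy (X.smul_mem _ hx2X), by simp [hx2s]⟩, by abel⟩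

/-- Echelon bases over a valuation ring.  Recipe: induction on the dimension; scale a nonzero `x` by
a coefficient of maximal valuation to get coefficient `1` at `s`; pass to `X ⊓ {y | y s = 0}`. -/
theorem exists_int_basis (O : ValuationSubring ℂ) {σ : Type} (X : Submodule ℂ (σ →₀ ℂ))
    [FiniteDimensional ℂ X] : ∃ (x : Fin (Module.finrank ℂ X) → σ →₀ ℂ)
      (s : Fin (Module.finrank ℂ X) → σ), (∀ i m, x i m ∈ O) ∧
      (∀ i j, x i (s j) = if i = j then 1 else 0) ∧ Submodule.span ℂ (Set.range x) = X :=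
  Nss_int_basis O _ X rfl

end Crest.Agent.R169
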