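/-
R169/RedA: reduction of lattices modulo a valuation ring (part 1 of 2)
-/
import Crest.Agent.R169.RR
import Crest.Agent.R169.Nss

set_option autoImplicit false
set_option linter.unusedSectionVars false
set_option linter.unusedVariables false
set_option linter.unusedSimpArgs false

noncomputable section

namespace Crest.Agent.R169

open MvPolynomial Filter
open scoped Pointwise


variable {O : ValuationSubring ℂ} {κ : Type} [Field κ] (ρ : O →+* κ) {r : ℕ}

/-- `f'` is the reduction of `f`. -/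
def Rd (f : KK ℂ) (f' : KK κ) : Prop := ∃ (β : Ex) (g : MvPolynomial (Fin 2) O),
  f = mon ℂ β * algebraMap (PP ℂ) (KK ℂ) (map O.subtype g) ∧
    f' = mon κ β * algebraMap (PP κ) (KK κ) (map ρ g)

/-- The reduction of a family. -/
def red (G : Fam ℂ (Fin r → KK ℂ)) : Fam κ (Fin r → KK κ) := fun α =>
  Submodule.span κ {x' | ∃ x ∈ G α, ∀ i, Rd ρ (x i) (x' i)}

variable {ρ}

theorem RedA_lift {σ : Type} (g : MvPolynomial σ ℂ) (h : ∀ m, coeff m g ∈ O) :
    ∃ g0 : MvPolynomial σ O, map O.subtype g0 = g :=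
  ⟨∑ m ∈ g.support, monomial m ⟨coeff m g, h m⟩, by
    simp only [map_sum, map_monomial]
    exact (as_sum g).symm⟩

theorem RedA_inj {σ : Type} :
    Function.Injective (map O.subtype : MvPolynomial σ O → MvPolynomial σ ℂ) :=
  map_injective _ Subtype.val_injective

/-- Gauss lemma over a valuation ring. -/
theorem RedA_gauss {σ : Type} {L h : MvPolynomial σ O}
    (hL : map (IsLocalRing.residue O) L ≠ 0) {g : MvPolynomial σ ℂ}
    (e : map O.subtype L * g = map O.subtype h) :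
    ∃ g0 : MvPolynomial σ O, map O.subtype g0 = g := by
  by_cases hg : g = 0
  · exact ⟨0, by rw [hg, map_zero]⟩
  obtain ⟨m, hm, hmax⟩ := Finset.exists_max_image g.support (fun m => O.valuation (coeff m g))
    (support_nonempty.2 hg)
  have hmax' : ∀ m', O.valuation (coeff m' g) ≤ O.valuation (coeff m g) := fun m' => by
    by_cases h' : m' ∈ g.support
    · exact hmax m' h'
    · rw [notMem_support_iff.1 h', map_zero]
      exact zero_le
  by_cases hc : coeff m g ∈ O
  · exact RedA_lift g fun m' => (O.valuation_le_one_iff _).1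
      ((hmax' m').trans ((O.valuation_le_one_iff _).2 hc))
  exfalso
  have hc0 : coeff m g ≠ 0 := mem_support_iff.1 hm
  have hv0 : 0 < O.valuation (coeff m g) := zero_lt_iff.2 ((map_ne_zero _).2 hc0)
  obtain ⟨g1, hg1⟩ := RedA_lift (O := O) (C (coeff m g)⁻¹ * g) fun m' => by
    rw [coeff_C_mul, ← O.valuation_le_one_iff, map_mul, map_inv₀, ← div_eq_inv_mul,
      div_le_one₀ hv0]
    exact hmax' m'
  have hci : (coeff m g)⁻¹ ∈ O := (O.mem_or_inv_mem _).resolve_left hc
  have h1 : L * g1 = C ⟨_, hci⟩ * h := RedA_inj (by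
    rw [map_mul, map_mul, hg1, map_C, ← e, mul_left_comm]
    rfl)
  have h2 : IsLocalRing.residue O ⟨_, hci⟩ = 0 := by
    rw [IsLocalRing.residue_eq_zero_iff, ValuationSubring.valuation_lt_one_iff]
    show O.valuation (coeff m g)⁻¹ < 1
    rw [map_inv₀, inv_lt_one₀ hv0]
    exact not_le.1 fun h' => hc ((O.valuation_le_one_iff _).1 h')
  have h3 : coeff m g1 = 1 := Subtype.val_injective (by
    have := congrArg (coeff m) hg1
    rw [coeff_map, coeff_C_mul, inv_mul_cancel₀ hc0] at this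
    exact this)
  have h4 := congrArg (MvPolynomial.map (IsLocalRing.residue O)) h1
  rw [map_mul, map_mul, map_C, h2, C_0, zero_mul] at h4
  have h5 := congrArg (coeff m) ((mul_eq_zero.1 h4).resolve_left hL)
  rw [coeff_map, h3, map_one, coeff_zero] at h5
  exact one_ne_zero h5

theorem RedA_map_lin {A B : Type} [CommRing A] [CommRing B] (φ : A →+* B) (e : Fin 5 → ℕ) :
    map φ (∏ j, lin A j ^ e j) = ∏ j, lin B j ^ e j := by
  rw [map_prod]
  refine Finset.prod_congr rfl fun j _ => ?_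
  rw [map_pow]
  congr 1
  fin_cases j <;> simp [lin]

theorem RedA_mon_lower (k : Type) [Field k] {β β' : Ex} (h : β' ≤ β) :
    mon k β = mon k β' * algebraMap (PP k) (KK k) (∏ j, lin k j ^ (β j - β' j).toNat) := by
  rw [← mon_natCast, ← mon_add]
  congr 1
  funext j
  have : β' j ≤ β j := h j
  simp only [Pi.add_apply]
  omega

/-- Changing the monomial.  Recipe: if `mon β * g = mon β' * g'` with `g` over `O` and `g'` over
`ℂ`, then `g'` has coefficients in `O`: a product of lines is a primitive polynomial (Gauss lemma: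
scale `g'` by a coefficient of maximal valuation and reduce to the residue field, where the
polynomial ring is a domain and the lines are not zero). -/
theorem Rd.change {f : KK ℂ} {f' : KK κ} (h : Rd ρ f f') {β : Ex} {g : PP ℂ}
    (e : f = mon ℂ β * algebraMap (PP ℂ) (KK ℂ) g) : ∃ g0 : MvPolynomial (Fin 2) O,
      map O.subtype g0 = g ∧ f' = mon κ β * algebraMap (PP κ) (KK κ) (map ρ g0) := by
  obtain ⟨β0, g1, e1, e2⟩ := h
  have h1 : (∏ j, lin ℂ j ^ (β j - (β ⊓ β0) j).toNat) * g =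
      (∏ j, lin ℂ j ^ (β0 j - (β ⊓ β0) j).toNat) * map O.subtype g1 := by
    refine IsFractionRing.injective (PP ℂ) (KK ℂ) (mul_left_cancel₀ (mon_ne_zero (β ⊓ β0)) ?_)
    rw [map_mul, map_mul, ← mul_assoc, ← mul_assoc, ← RedA_mon_lower ℂ inf_le_left,
      ← RedA_mon_lower ℂ inf_le_right, ← e, ← e1]
  rw [← RedA_map_lin O.subtype, ← RedA_map_lin O.subtype, ← map_mul] at h1
  obtain ⟨g0, rfl⟩ := RedA_gauss (by
    rw [RedA_map_lin]
    exact Finset.prod_ne_zero_iff.2 fun j _ => pow_ne_zero _ (lin_ne_zero j)) h1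
  refine ⟨g0, rfl, ?_⟩
  rw [← map_mul] at h1
  have h2 := congrArg (MvPolynomial.map ρ) (RedA_inj h1)
  rw [map_mul, map_mul, RedA_map_lin, RedA_map_lin] at h2
  rw [e2, RedA_mon_lower κ (inf_le_left : β ⊓ β0 ≤ β), RedA_mon_lower κ (inf_le_right : β ⊓ β0 ≤ β0),
    mul_assoc, mul_assoc, ← map_mul, ← map_mul, h2]

theorem Rd.unique {f : KK ℂ} {f' f'' : KK κ} (h : Rd ρ f f') (h' : Rd ρ f f'') : f' = f'' := by
  obtain ⟨β, g, e1, e2⟩ := h'
  obtain ⟨g0, e3, e4⟩ := h.change e1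
  rw [e2, e4, RedA_inj e3]

theorem Rd.add {f g : KK ℂ} {f' g' : KK κ} (h : Rd ρ f f') (h' : Rd ρ g g') :
    Rd ρ (f + g) (f' + g') := by
  obtain ⟨β, u, e1, e2⟩ := h
  obtain ⟨β', u', e1', e2'⟩ := h'
  refine ⟨β ⊓ β', (∏ j, lin O j ^ (β j - (β ⊓ β') j).toNat) * u +
    (∏ j, lin O j ^ (β' j - (β ⊓ β') j).toNat) * u', ?_, ?_⟩
  · simp only [map_add, map_mul, RedA_map_lin, mul_add, ← mul_assoc]
    rw [← RedA_mon_lower ℂ inf_le_left, ← RedA_mon_lower ℂ inf_le_right, e1, e1']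
  · simp only [map_add, map_mul, RedA_map_lin, mul_add, ← mul_assoc]
    rw [← RedA_mon_lower κ inf_le_left, ← RedA_mon_lower κ inf_le_right, e2, e2']

theorem Rd.mul {f g : KK ℂ} {f' g' : KK κ} (h : Rd ρ f f') (h' : Rd ρ g g') :
    Rd ρ (f * g) (f' * g') := by
  obtain ⟨β, u, e1, e2⟩ := h
  obtain ⟨β', u', e1', e2'⟩ := h'
  refine ⟨β + β', u * u', ?_, ?_⟩
  · rw [e1, e1', mon_add, map_mul, map_mul, mul_mul_mul_comm]
  · rw [e2, e2', mon_add, map_mul, map_mul, mul_mul_mul_comm]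

theorem Rd.mon (β : Ex) : Rd ρ (mon ℂ β) (mon κ β) := by
  exact ⟨β, 1, by rw [map_one, map_one, mul_one], by rw [map_one, map_one, mul_one]⟩

theorem Rd.const (c : O) : Rd ρ (algebraMap ℂ (KK ℂ) c) (algebraMap κ (KK κ) (ρ c)) := by
  refine ⟨0, C c, ?_, ?_⟩
  · rw [mon_zero, one_mul, map_C, IsScalarTower.algebraMap_apply ℂ (PP ℂ) (KK ℂ)]
    rfl
  · rw [mon_zero, one_mul, map_C, IsScalarTower.algebraMap_apply κ (PP κ) (KK κ)]
    rfl

theorem Rd.det {x : Fin r → Fin r → KK ℂ} {x' : Fin r → Fin r → KK κ}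
    (h : ∀ i j, Rd ρ (x i j) (x' i j)) : Rd ρ (Matrix.of x).det (Matrix.of x').det := by
  let S : Subring (KK ℂ × KK κ) :=
    { carrier := {p | Rd ρ p.1 p.2}
      mul_mem' := Rd.mul
      one_mem' := show Rd ρ 1 1 by simpa only [mon_zero] using Rd.mon (ρ := ρ) 0
      add_mem' := Rd.add
      zero_mem' := by simpa using Rd.const (ρ := ρ) 0
      neg_mem' := fun h => by simpa using (Rd.const (ρ := ρ) (-1)).mul h }
  let M : Matrix (Fin r) (Fin r) S := Matrix.of fun i j => ⟨(x i j, x' i j), h i j⟩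
  have h1 := ((RingHom.fst (KK ℂ) (KK κ)).comp S.subtype).map_det M
  have h2 := ((RingHom.snd (KK ℂ) (KK κ)).comp S.subtype).map_det M
  have h3 : Rd ρ (((RingHom.fst (KK ℂ) (KK κ)).comp S.subtype) M.det)
    (((RingHom.snd (KK ℂ) (KK κ)).comp S.subtype) M.det) := M.det.2
  rw [h1, h2] at h3
  exact h3

/-- `mem_CC_poly`, `change`, `mem_Vp_of_map`, `map_mem_Vp`. -/
theorem Rd.mem_CC {f : KK ℂ} {f' : KK κ} (h : Rd ρ f f') {α : Dg} (hf : f ∈ CC ℂ α) :
    f' ∈ CC κ α := by
  obtain ⟨g, hg, e⟩ := mem_CC_poly.1 hf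
  obtain ⟨g0, rfl, e'⟩ := h.change e
  exact mem_CC_poly.2 ⟨_, map_mem_Vp ρ (mem_Vp_of_map Subtype.val_injective hg), e'⟩

end Crest.Agent.R169
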