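/-
R169/Red: reduction of lattices modulo a valuation ring (part 2 of 2)
-/
import Crest.Agent.R169.RedA

set_option autoImplicit false
set_option linter.unusedSectionVars false
set_option linter.unusedVariables false
set_option linter.unusedSimpArgs false

noncomputable section

namespace Crest.Agent.R169

open MvPolynomial Filter
open scoped Pointwise


variable {O : ValuationSubring ℂ} {κ : Type} [Field κ] {ρ : O →+* κ} {r : ℕ}

theorem red_le {G : Fam ℂ (Fin r → KK ℂ)} (h : G ≤ CCr ℂ (Fin r)) : red ρ G ≤ CCr κ (Fin r) := by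
  intro α
  refine Submodule.span_le.2 ?_
  rintro x' ⟨x, hx, hr⟩
  exact mem_CCr.2 fun i => (hr i).mem_CC (mem_CCr.1 (h α hx) i)

theorem red_stable {G : Fam ℂ (Fin r → KK ℂ)} (h : Stable G) : Stable (red ρ G) := by
  intro α β f x hf hx
  induction hf using Submodule.span_induction with
  | mem f hf =>
    obtain ⟨γ, hγ, rfl⟩ := hf
    induction hx using Submodule.span_induction with
    | mem x' hx' =>
      obtain ⟨x, hx, hr⟩ := hx'
      refine Submodule.subset_span ⟨mon ℂ γ • x, h (Submodule.subset_span ⟨γ, hγ, rfl⟩) hx,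
        fun i => ?_⟩
      exact (Rd.mon γ).mul (hr i)
    | zero => rw [smul_zero]; exact Submodule.zero_mem _
    | add x y _ _ hx hy => rw [smul_add]; exact Submodule.add_mem _ hx hy
    | smul c x _ hx => rw [smul_comm]; exact Submodule.smul_mem _ c hx
  | zero => rw [zero_smul]; exact Submodule.zero_mem _
  | add f g _ _ hf hg => rw [add_smul]; exact Submodule.add_mem _ hf hg
  | smul c f _ hf => rw [smul_assoc]; exact Submodule.smul_mem _ c hf

/-- Vectors of polynomials from their coefficients. -/
def redPol (r : ℕ) : ((Fin r × (Fin 2 →₀ ℕ)) →₀ ℂ) →ₗ[ℂ] (Fin r → PP ℂ) :=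
  Finsupp.linearCombination ℂ fun p => Pi.single p.1 (monomial p.2 1)

theorem coeff_redPol (y : (Fin r × (Fin 2 →₀ ℕ)) →₀ ℂ) (i : Fin r) (m : Fin 2 →₀ ℕ) :
    coeff m (redPol r y i) = y (i, m) := by
  induction y using Finsupp.induction_linear with
  | zero => simp
  | add y y' h h' => rw [map_add, Pi.add_apply, coeff_add, h, h', Finsupp.add_apply]
  | single p c =>
    obtain ⟨j, m'⟩ := p
    rw [redPol, Finsupp.linearCombination_single, Pi.smul_apply, coeff_smul, Finsupp.single_apply]
    by_cases hj : j = i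
    · subst hj
      rw [Pi.single_eq_same, coeff_monomial]
      by_cases hm : m' = m
      · simp [hm]
      · simp [hm]
    · rw [Pi.single_eq_of_ne' hj]
      simp [hj]

theorem redPol_surjective : Function.Surjective (redPol r) := by
  intro g
  refine ⟨∑ i, ∑ m ∈ (g i).support, Finsupp.single (i, m) (coeff m (g i)), ?_⟩
  funext i
  ext m
  rw [coeff_redPol, Finsupp.finsetSum_apply, Finset.sum_eq_single i]
  · rw [Finsupp.finsetSum_apply, Finset.sum_eq_single m]
    · simp
    · intro m' _ hm'
      rw [Finsupp.single_apply, if_neg (by simp [hm'])]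
    · intro hm
      rw [notMem_support_iff.1 hm]
      simp
  · intro j _ hj
    rw [Finsupp.finsetSum_apply]
    exact Finset.sum_eq_zero fun m' _ => by rw [Finsupp.single_apply, if_neg (by simp [hj])]
  · intro hi
    exact absurd (Finset.mem_univ i) hi

/-- Multiplication by a monomial, on vectors of polynomials. -/
def redEmb (k : Type) [Field k] (r : ℕ) (β : Ex) : (Fin r → PP k) →ₗ[k] (Fin r → KK k) where
  toFun g i := mon k β * algebraMap (PP k) (KK k) (g i)
  map_add' g g' := by
    funext i
    simp only [Pi.add_apply, map_add, mul_add]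
  map_smul' c g := by
    funext i
    simp only [Pi.smul_apply, RingHom.id_apply]
    rw [Algebra.smul_def, map_mul, ← IsScalarTower.algebraMap_apply, Algebra.smul_def]
    ring

theorem redEmb_apply {k : Type} [Field k] (β : Ex) (g : Fin r → PP k) (i : Fin r) :
    redEmb k r β g i = mon k β * algebraMap (PP k) (KK k) (g i) := rfl

theorem redEmb_injective {k : Type} [Field k] (β : Ex) : Function.Injective (redEmb k r β) := by
  intro g g' h
  funext i
  have := congrFun h i
  rw [redEmb_apply, redEmb_apply] at this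
  exact IsFractionRing.injective (PP k) (KK k) (mul_left_cancel₀ (mon_ne_zero β) this)

theorem red_lift (O : ValuationSubring ℂ) (g : PP ℂ) (h : ∀ m, coeff m g ∈ O) :
    ∃ g0 : MvPolynomial (Fin 2) O, map O.subtype g0 = g := by
  have : g ∈ Set.range (map (σ := Fin 2) O.subtype) := by
    refine mem_range_map_iff_coeffs_subset.2 fun c hc => ?_
    obtain ⟨m, -, rfl⟩ : ∃ m ∈ g.support, coeff m g = c := by
      simpa [coeffs] using hc
    exact ⟨⟨_, h m⟩, rfl⟩
  exact this

/-- Recipe: `G α ≅ X ⊆ (Fin r × (Fin 2 →₀ ℕ)) →₀ ℂ`, the coefficients of `mon (-nrm α) • x`;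
the reductions of the basis of `exists_int_basis` are independent (pivots) and span (an integral
element has its pivot coefficients, which lie in `O`, as coordinates). -/
theorem finrank_red {G : Fam ℂ (Fin r → KK ℂ)} (h : G ≤ CCr ℂ (Fin r)) (α : Dg) :
    Module.finrank κ (red ρ G α) = Module.finrank ℂ (G α) := by
  classical
  set E := redEmb ℂ r (nrm α) ∘ₗ redPol r with hE
  have hEinj : Function.Injective E := by
    refine (redEmb_injective (nrm α)).comp fun y y' hy => ?_
    ext ⟨i, m⟩
    rw [← coeff_redPol, ← coeff_redPol, hy]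
  have hrange : G α ≤ LinearMap.range E := by
    intro x hx
    choose g _ hg using fun i => mem_CC_poly.1 (mem_CCr.1 (h α hx) i)
    obtain ⟨y, hy⟩ := redPol_surjective g
    refine ⟨y, ?_⟩
    funext i
    rw [hE, LinearMap.comp_apply, hy, redEmb_apply, ← hg]
  set X := (G α).comap E with hX
  have hmap : X.map E = G α := Submodule.map_comap_eq_of_le hrange
  have hfinC : FiniteDimensional ℂ (CCr ℂ (Fin r) α) := (isLat_CCr r).fin α
  have hfinG : FiniteDimensional ℂ (G α) := Submodule.finiteDimensional_of_le (h α)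
  have e1 : X ≃ₗ[ℂ] X.map E := Submodule.equivMapOfInjective E hEinj X
  have hfinX : FiniteDimensional ℂ X := by
    have : FiniteDimensional ℂ (X.map E) := hmap.symm ▸ hfinG
    exact Module.Finite.equiv e1.symm
  have hrk : Module.finrank ℂ X = Module.finrank ℂ (G α) := by
    rw [e1.finrank_eq, hmap]
  obtain ⟨x, s, hxO, hpiv, hspan⟩ := exists_int_basis O X
  choose g hg using fun j i => red_lift O (redPol r (x j) i) fun m => by
    rw [coeff_redPol]; exact hxO j _
  have hgc : ∀ j i m, ((coeff m (g j i) : O) : ℂ) = x j (i, m) := fun j i m => by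
    rw [← coeff_redPol, ← hg j i, coeff_map]
    rfl
  set v : Fin (Module.finrank ℂ X) → Fin r → PP κ := fun j i => map ρ (g j i) with hv
  have hvind : LinearIndependent κ v := by
    refine Fintype.linearIndependent_iff.2 fun c hc l => ?_
    have h1 := congrArg (coeff (s l).2) (congrFun hc (s l).1)
    rw [Finset.sum_apply, coeff_sum, Finset.sum_eq_single l] at h1
    · have h2 : coeff (s l).2 (g l (s l).1) = 1 := by
        apply Subtype.ext
        rw [hgc, hpiv, if_pos rfl]
        rfl
      simpa [hv, coeff_map, h2] using h1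
    · intro j _ hj
      have h2 : coeff (s l).2 (g j (s l).1) = 0 := by
        apply Subtype.ext
        rw [hgc, hpiv, if_neg hj]
        rfl
      simp [hv, coeff_map, h2]
    · intro hl
      exact absurd (Finset.mem_univ l) hl
  have hred : red ρ G α = (Submodule.span κ (Set.range v)).map (redEmb κ r (nrm α)) := by
    apply le_antisymm
    · refine Submodule.span_le.2 ?_
      rintro x' ⟨z, hz, hr⟩
      obtain ⟨y, rfl⟩ := hrange hz
      have hy : y ∈ Submodule.span ℂ (Set.range x) := hspan.symm ▸ hz
      obtain ⟨c, hc⟩ := (Submodule.mem_span_range_iff_exists_fun ℂ).1 hy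
      choose g0 hg0 hx' using fun i => (hr i).change (β := nrm α) (g := redPol r y i) rfl
      have hg0c : ∀ i m, ((coeff m (g0 i) : O) : ℂ) = y (i, m) := fun i m => by
        rw [← coeff_redPol, ← hg0 i, coeff_map]
        rfl
      have hyc : ∀ p, y p = ∑ j, c j * x j p := fun p => by
        rw [← hc, Finsupp.finsetSum_apply]
        rfl
      have hcl : ∀ l, c l = ((coeff (s l).2 (g0 (s l).1) : O) : ℂ) := fun l => by
        rw [hg0c, hyc, Finset.sum_eq_single l]
        · rw [hpiv, if_pos rfl, mul_one]
        · intro j _ hj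
          rw [hpiv, if_neg hj, mul_zero]
        · intro hl
          exact absurd (Finset.mem_univ l) hl
      refine ⟨∑ l, ρ (coeff (s l).2 (g0 (s l).1)) • v l, Submodule.sum_mem _ fun l _ =>
        Submodule.smul_mem _ _ (Submodule.subset_span ⟨l, rfl⟩), ?_⟩
      funext i
      rw [redEmb_apply, hx' i]
      congr 2
      ext m
      have h1 : coeff m (g0 i) = ∑ l, coeff (s l).2 (g0 (s l).1) * coeff m (g l i) := by
        apply Subtype.ext
        rw [hg0c, hyc]
        push_cast
        refine Finset.sum_congr rfl fun l _ => ?_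
        rw [hcl l, hgc]
      rw [coeff_map, h1, map_sum, Finset.sum_apply, coeff_sum]
      refine Finset.sum_congr rfl fun l _ => ?_
      simp [hv, coeff_map]
    · rw [Submodule.map_span, Submodule.span_le]
      rintro _ ⟨_, ⟨j, rfl⟩, rfl⟩
      have hxj : x j ∈ X := hspan ▸ Submodule.subset_span ⟨j, rfl⟩
      refine Submodule.subset_span ⟨E (x j), hxj, fun i => ⟨nrm α, g j i, ?_, rfl⟩⟩
      rw [hg]
      rfl
  rw [hred, ← (Submodule.equivMapOfInjective _ (redEmb_injective (nrm α)) _).finrank_eq,
    finrank_span_eq_card hvind, Fintype.card_fin, hrk]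

theorem HP.red {G : Fam ℂ (Fin r → KK ℂ)} (h : G ≤ CCr ℂ (Fin r)) {c : Ex} {s : ℤ}
    (hp : HP G r c s) : HP (red ρ G) r c s := by
  intro α
  simpa only [hf, finrank_red h] using hp α

/-- Finitely many coefficients decide whether an element can be reduced, and to a nonzero one. -/
theorem exists_coeffs {f : KK ℂ} {α : Dg} (hf : f ∈ CC ℂ α) : ∃ S : Finset ℂ,
    ∀ (O : ValuationSubring ℂ), (S : Set ℂ) ⊆ O → ∀ (κ : Type) [Field κ] (ρ : O →+* κ),
      ∃ f' : KK κ, Rd ρ f f' ∧ (f ≠ 0 → f' ≠ 0) := by
  classical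
  obtain ⟨g, -, rfl⟩ := mem_CC_poly.1 hf
  refine ⟨g.support.image (fun m => coeff m g) ∪ g.support.image (fun m => (coeff m g)⁻¹),
    fun O hO κ _ ρ => ?_⟩
  have h1 : ∀ m ∈ g.support, coeff m g ∈ O := fun m hm =>
    hO (Finset.mem_coe.2 (Finset.mem_union_left _ (Finset.mem_image_of_mem _ hm)))
  have h2 : ∀ m ∈ g.support, (coeff m g)⁻¹ ∈ O := fun m hm =>
    hO (Finset.mem_coe.2 (Finset.mem_union_right _ (Finset.mem_image_of_mem _ hm)))
  obtain ⟨g0, hg0⟩ := red_lift O g fun m => by
    by_cases hm : m ∈ g.support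
    · exact h1 m hm
    · rw [notMem_support_iff.1 hm]
      exact O.zero_mem
  refine ⟨mon κ (nrm α) * algebraMap (PP κ) (KK κ) (map ρ g0), ⟨nrm α, g0, by rw [hg0], rfl⟩,
    fun hne => mul_ne_zero (mon_ne_zero _) fun h0 => ?_⟩
  have hg : g ≠ 0 := by
    rintro rfl
    simp at hne
  obtain ⟨m, hm⟩ := exists_coeff_ne_zero hg
  have h3 : map ρ g0 = 0 := IsFractionRing.injective (PP κ) (KK κ) (by rw [h0, map_zero])
  have h4 : ρ (coeff m g0) = 0 := by rw [← coeff_map, h3, coeff_zero]
  have h5 : ((coeff m g0 : O) : ℂ) = coeff m g := by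
    rw [← hg0, coeff_map]
    rfl
  have h6 : coeff m g0 * ⟨_, h2 m (mem_support_iff.2 hm)⟩ = 1 := by
    apply Subtype.ext
    push_cast
    rw [h5, mul_inv_cancel₀ hm]
  have h7 := congrArg ρ h6
  rw [map_mul, h4, zero_mul, map_one] at h7
  exact zero_ne_one h7

end Crest.Agent.R169
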