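/-
R169/TransferA: semistability survives reduction modulo large primes (part 1 of 4)
-/
import Crest.Agent.R169.Red
import Crest.Agent.R169.Det

set_option autoImplicit false
set_option linter.unusedSectionVars false
set_option linter.unusedVariables false
set_option linter.unusedSimpArgs false

noncomputable section

namespace Crest.Agent.R169

open MvPolynomial Filter
open scoped Pointwise


/-- A destabilising quotient of bounded shape: a matrix `ψ` (rows indexed by `Fin s`) with entries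
in `CC e`, equal to `H • 1` in the columns `ι`, whose determinants on the generators `g` are
divisible by `H ^ (s - 1) * h ^ s`. -/
def Destab (k : Type) [Field k] {r m s : ℕ} (g : Fin m → Fin r → KK k) (a : Fin m → Dg) (h : KK k)
    (ι : Fin s → Fin r) (e γ' : Dg) : Prop :=
  ∃ (ψ : Fin s → Fin r → KK k) (H : KK k) (b : (Fin s → Fin m) → KK k), H ≠ 0 ∧ H ∈ CC k e ∧
    (∀ i j, ψ i j ∈ CC k e) ∧ (∀ i j, ψ i (ι j) = if i = j then H else 0) ∧
    (∀ J, b J ∈ CC k (∑ i, a (J i) - γ')) ∧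
    ∀ J : Fin s → Fin m, (Matrix.of fun i j => ∑ l, ψ j l * g (J i) l).det =
      H ^ (s - 1) * h ^ s * b J

/-- A subspace is the kernel of a matrix in reduced row echelon form. -/
theorem TransferA_ker {F : Type} [Field F] {r : ℕ} (U : Submodule F (Fin r → F)) :
    ∃ (s : ℕ) (ι : Fin s → Fin r) (y : Fin s → Fin r → F),
      (∀ i j, y i (ι j) = if i = j then 1 else 0) ∧
        LinearMap.ker (Matrix.mulVecLin (Matrix.of y)) = U := by
  let W : Submodule F (Fin r → F) :=
    { carrier := {w | ∀ x ∈ U, w ⬝ᵥ x = 0}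
      zero_mem' := fun x _ => zero_dotProduct x
      add_mem' := fun h h' x hx => by rw [add_dotProduct, h x hx, h' x hx, add_zero]
      smul_mem' := fun c w h x hx => by rw [smul_dotProduct, h x hx, smul_zero] }
  obtain ⟨ι, y, h1, h2⟩ := exists_rref W
  refine ⟨_, ι, y, h1, le_antisymm (fun x hx => ?_) fun x hx => funext fun i => ?_⟩
  · by_contra hU
    obtain ⟨f, hf, hf'⟩ := Submodule.exists_dual_map_eq_bot_of_notMem hU inferInstance
    have h3 : ∀ z, (fun l => f (Pi.single l 1)) ⬝ᵥ z = f z := fun z => by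
      rw [LinearMap.pi_apply_eq_sum_univ f z]
      refine Finset.sum_congr rfl fun l _ => ?_
      rw [mul_comm, smul_eq_mul]
      refine congrArg (fun v => z l * f v) (funext fun j => ?_)
      simp [Pi.single_apply, eq_comm]
    have h4 : (fun l => f (Pi.single l 1)) ∈ W := fun z hz => by
      rw [h3, ← Submodule.mem_bot F, ← hf']
      exact Submodule.mem_map_of_mem hz
    have h5 : ∀ w ∈ Submodule.span F (Set.range y), w ⬝ᵥ x = 0 := fun w hw => by
      induction hw using Submodule.span_induction with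
      | mem w hw =>
        obtain ⟨i, rfl⟩ := hw
        exact congrFun hx i
      | zero => exact zero_dotProduct x
      | add a b _ _ ha hb => rw [add_dotProduct, ha, hb, add_zero]
      | smul c a _ ha => rw [smul_dotProduct, ha, smul_zero]
    exact hf (by rw [← h3]; exact h5 _ (h2.ge h4))
  · have h3 : y i ∈ W := h2.le (Submodule.subset_span ⟨i, rfl⟩)
    exact h3 x hx

theorem TransferA_det {F : Type} [Field F] {s : ℕ} (h : F) (i : Fin s) (c : Fin s → F) :
    (h • Matrix.updateRow (1 : Matrix (Fin s) (Fin s) F) i c).det = h ^ s * c i := by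
  rw [Matrix.det_smul, Fintype.card_fin, ← Matrix.cramer_transpose_apply, Matrix.transpose_one,
    Matrix.cramer_one]
  rfl

/-- Recipe.  Let `U` destabilise, `s = r - finrank U ≥ 1`, `ψ₀ : K^r → K^s` onto with kernel `U`,
`Q = img ψ₀ G`, `r mm Q < s mm G` (`mm_add`, `rk_cut_of_top`), `(g₀, γ₀)` from `exists_isDet`.
Choose `ι` with `w = det (ψ₀ (e (ι j))) ≠ 0`; `H₀ = h ^ s w / g₀ = det (ψ₀ (h e (ι j))) / g₀` lies in
`CC (s δ - γ₀)`; pick `β` with `e = 7 dv β + s δ - γ₀ ≥ 0` (`exists_mon_of_ne`), replace `(g₀, γ₀)` by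
`(g₀ mon β, γ₀ - 7 dv β)`.  `ψ = H • A⁻¹ ψ₀` has entries `det (ψ₀ (h e ..)) / g₀` (Cramer). -/
theorem destab_of_not_ss {k : Type} [Field k] {r m : ℕ} {G : Fam k (Fin r → KK k)} (hG : IsLat G)
    (ht : spn G = ⊤) (hs : ¬ SS G) {g : Fin m → Fin r → KK k} {a : Fin m → Dg}
    (hg : ∀ j, g j ∈ G (a j)) {h : KK k} {δ : Dg} (h0 : h ≠ 0) (hh : ∀ i, Pi.single i h ∈ G δ) :
    ∃ (s : ℕ) (ι : Fin s → Fin r) (e : Dg), 1 ≤ s ∧ s ≤ r ∧ 0 ≤ e ∧
      r * (deg e - s * deg δ) < s * mm G ∧ Destab k g a h ι e ((s : ℤ) • δ - e) := by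
  unfold SS at hs
  push Not at hs
  obtain ⟨U, hU⟩ := hs
  obtain ⟨s, ι, y, hy, rfl⟩ := TransferA_ker U
  set ψ₀ := Matrix.mulVecLin (Matrix.of y) with hψ₀
  have hsingle : ∀ (l : Fin r) (c : KK k), ψ₀ (Pi.single l c) = fun j => c * y j l := by
    intro l c
    funext j
    simp [hψ₀, Matrix.mulVec_single, mul_comm]
  have hsur : LinearMap.range ψ₀ = ⊤ := by
    refine top_unique fun z _ => ?_
    rw [← Finset.univ_sum_single z]
    refine Submodule.sum_mem _ fun j _ => ⟨Pi.single (ι j) (z j), ?_⟩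
    rw [hsingle]
    funext i
    simp [hy, Pi.single_apply]
  have hQ := hG.img ψ₀
  have hQt : spn (img ψ₀ G) = ⊤ := by rw [spn_img, ht, Submodule.map_top, hsur]
  obtain ⟨g₀, γ₀, hdet, hmm⟩ := exists_isDet hQ hQt
  have hrk := hG.rk_cut_img ψ₀
  have hadd := hG.mm_add ψ₀
  rw [rk_of_top hQt, rk_of_top ht] at hrk
  rw [rk_of_top ht] at hU
  have hlt : (r : ℤ) * (-deg γ₀) < s * mm G := by
    have h1 : (r : ℤ) = rk (cut G (LinearMap.ker ψ₀)) + s := by exact_mod_cast hrk
    have h2 : (rk (cut G (LinearMap.ker ψ₀)) : ℤ) = r - s := by omega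
    rw [h2] at hU
    rw [← hmm]
    have h3 : mm (img ψ₀ G) = mm G - mm (cut G (LinearMap.ker ψ₀)) := by omega
    rw [h3]
    linarith
  have hs1 : 1 ≤ s := by
    by_contra h1
    obtain rfl : s = 0 := by omega
    have h2 := (hQ.of_rk_zero (rk_of_top hQt)).1
    rw [← hmm, mm, h2] at hlt
    simp at hlt
  have hcr : ∀ i l, h ^ s * y i l / g₀ ∈ CC k ((s : ℤ) • δ - γ₀) := by
    intro i l
    have h1 := hdet.dvd (h • Matrix.updateRow (1 : Matrix (Fin s) (Fin s) (KK k)) i fun j => y j l)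
      (fun _ => δ) fun j => ?_
    · have h2 := TransferA_det h i fun j => y j l
      rw [Finset.sum_const, Finset.card_univ, Fintype.card_fin, ← natCast_zsmul] at h1
      rw [← h2]
      exact h1
    · by_cases hj : j = i
      · subst hj
        refine mem_img.2 ⟨_, hh l, ?_⟩
        rw [hsingle]
        funext j'
        simp
      · refine mem_img.2 ⟨_, hh (ι j), ?_⟩
        rw [hsingle]
        funext j'
        simp [Matrix.updateRow_ne hj, hy, Matrix.one_apply, eq_comm]
  have hH₀ : h ^ s / g₀ ∈ CC k ((s : ℤ) • δ - γ₀) := by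
    simpa [hy] using hcr ⟨0, hs1⟩ (ι ⟨0, hs1⟩)
  obtain ⟨β, hβ⟩ := exists_mon_of_ne hH₀ (div_ne_zero (pow_ne_zero _ h0) hdet.ne)
  have hm := mon_ne_zero (k := k) β
  have hg₀ := hdet.ne
  have hper : ∀ {f : KK k} {α : Dg}, f ∈ CC k α → f / mon k β ∈ CC k (α + (7 : ℤ) • dv β) := by
    intro f α hf
    rw [isLat_CC.stable.per, smul_eq_mul, mul_div_cancel₀ _ hm]
    exact hf
  refine ⟨s, ι, (s : ℤ) • δ - γ₀ + (7 : ℤ) • dv β, hs1, by omega, by rwa [add_comm], ?_,
    fun i l => h ^ s / g₀ / mon k β * y i l, h ^ s / g₀ / mon k β,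
    fun J => (Matrix.of fun i => ψ₀ (g (J i))).det / g₀ / mon k β,
    div_ne_zero (div_ne_zero (pow_ne_zero _ h0) hg₀) hm, hper hH₀, fun i l => ?_,
    fun i j => by simp [hy], fun J => ?_, fun J => ?_⟩
  · rw [deg_add, deg_sub, deg_smul, deg_smul, deg_dv]
    linarith
  · have := hper (hcr i l)
    convert this using 1
    ring
  · have := hper (hdet.dvd (fun i => ψ₀ (g (J i))) (fun i => a (J i)) fun i =>
      mem_img.2 ⟨_, hg _, rfl⟩)
    convert this using 2
    abel
  · have h1 : (Matrix.of fun i j => ∑ l, h ^ s / g₀ / mon k β * y j l * g (J i) l) =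
        (h ^ s / g₀ / mon k β) • Matrix.of fun i => ψ₀ (g (J i)) := by
      ext i j
      simp [hψ₀, Matrix.mulVec, dotProduct, Finset.mul_sum, mul_assoc]
    rw [h1, Matrix.det_smul, Fintype.card_fin]
    obtain ⟨n, rfl⟩ : ∃ n, s = n + 1 := ⟨s - 1, by omega⟩
    rw [Nat.add_sub_cancel, pow_succ (h ^ (n + 1) / g₀ / mon k β) n]
    ring

end Crest.Agent.R169
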