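/-
R169/TransferB: semistability survives reduction modulo large primes (part 2 of 4)
-/
import Crest.Agent.R169.TransferA

set_option autoImplicit false
set_option linter.unusedSectionVars false
set_option linter.unusedVariables false
set_option linter.unusedSimpArgs false

noncomputable section

namespace Crest.Agent.R169

open MvPolynomial Filter
open scoped Pointwise


/-- Recipe: `ψ` is onto; `mm_le_of_det` for `img ψ G` with `(H ^ (s-1) h ^ s, γ')`; `mm_add`. -/
theorem not_destab_of_ss {k : Type} [Field k] {r m s : ℕ} {g : Fin m → Fin r → KK k}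
    {a : Fin m → Dg} (ht : spn (gen k (Set.range fun j => (g j, a j))) = ⊤)
    (hs : SS (gen k (Set.range fun j => (g j, a j)))) {h : KK k} (h0 : h ≠ 0) {ι : Fin s → Fin r}
    {e γ' : Dg} (hlt : r * (-deg γ') < s * mm (gen k (Set.range fun j => (g j, a j)))) :
    ¬ Destab k g a h ι e γ' := by
  rintro ⟨ψ, H, b, hH, -, -, hι, hb, hdet⟩
  have hG : IsLat (gen k (Set.range fun j => (g j, a j))) := isLat_gen (Set.finite_range _)
  let Ψ : (Fin r → KK k) →ₗ[KK k] (Fin s → KK k) := (Matrix.of ψ).mulVecLin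
  have hΨ : ∀ x j, Ψ x j = ∑ l, ψ j l * x l := fun x j => rfl
  have honto : LinearMap.range Ψ = ⊤ := by
    rw [eq_top_iff, ← (Pi.basisFun (KK k) (Fin s)).span_eq, Submodule.span_le]
    rintro _ ⟨j, rfl⟩
    refine ⟨Pi.single (ι j) H⁻¹, funext fun i => ?_⟩
    rw [hΨ, Finset.sum_eq_single (ι j) (fun l _ hl => by simp [hl]) (by simp), hι,
      Pi.single_eq_same, Pi.basisFun_apply, Pi.single_apply]
    split_ifs
    · exact mul_inv_cancel₀ hH
    · exact zero_mul _
  have himg : img Ψ (gen k (Set.range fun j => (g j, a j))) =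
      gen k (Set.range fun j => (Ψ (g j), a j)) := by
    funext α
    ext y
    rw [mem_gen_range]
    constructor
    · rintro ⟨z, hz, rfl⟩
      obtain ⟨f, hf, rfl⟩ := mem_gen_range.mp hz
      exact ⟨f, hf, by simp⟩
    · rintro ⟨f, hf, rfl⟩
      exact ⟨∑ i, f i • g i, mem_gen_range.mpr ⟨f, hf, rfl⟩, by simp⟩
  have htop : spn (img Ψ (gen k (Set.range fun j => (g j, a j)))) = ⊤ := by
    rw [spn_img, ht, Submodule.map_top, honto]
  have hne : H ^ (s - 1) * h ^ s ≠ 0 := mul_ne_zero (pow_ne_zero _ hH) (pow_ne_zero _ h0)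
  have h1 : mm (img Ψ (gen k (Set.range fun j => (g j, a j)))) ≤ -deg γ' := by
    rw [himg] at htop ⊢
    refine mm_le_of_det (Set.finite_range _) htop hne fun y hy => ?_
    choose J hJ using hy
    have e1 : (Matrix.of fun i => (y i).1) = Matrix.of fun i j => ∑ l, ψ j l * g (J i) l := by
      ext i j
      rw [Matrix.of_apply, ← hJ i]
      rfl
    have e2 : ∑ i, (y i).2 = ∑ i, a (J i) := Finset.sum_congr rfl fun i _ => by rw [← hJ i]
    rw [e1, e2, hdet, mul_div_cancel_left₀ _ hne]
    exact hb J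
  have h2 := hG.mm_add Ψ
  have h3 := hG.rk_cut_img Ψ
  have h4 := hs (LinearMap.ker Ψ)
  rw [rk_of_top htop, rk_of_top ht] at h3
  rw [rk_of_top ht] at h4
  have h5 : (r : ℤ) = rk (cut (gen k (Set.range fun j => (g j, a j))) (LinearMap.ker Ψ)) + s := by
    exact_mod_cast h3
  have h6 := mul_le_mul_of_nonneg_left h1 (Int.natCast_nonneg r)
  generalize mm (gen k (Set.range fun j => (g j, a j))) = M at *
  generalize mm (cut (gen k (Set.range fun j => (g j, a j))) (LinearMap.ker Ψ)) = M₁ at *
  generalize mm (img Ψ (gen k (Set.range fun j => (g j, a j)))) = M₂ at *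
  generalize (rk (cut (gen k (Set.range fun j => (g j, a j))) (LinearMap.ker Ψ)) : ℤ) = ρ at *
  have h7 : (r : ℤ) * M = r * M₁ + r * M₂ := by rw [h2]; ring
  have h8 : (r : ℤ) * M = ρ * M + s * M := by rw [h5]; ring
  linarith

end Crest.Agent.R169
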