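/-
R169/TransferC: semistability survives reduction modulo large primes (part 3 of 4)
-/
import Crest.Agent.R169.TransferB

set_option autoImplicit false
set_option linter.unusedSectionVars false
set_option linter.unusedVariables false
set_option linter.unusedSimpArgs false

noncomputable section

namespace Crest.Agent.R169

open MvPolynomial Filter
open scoped Pointwise


/-- The slots of the unknown functions. -/
abbrev TCSlot (r m s : ℕ) : Type := (Fin s × Fin r) ⊕ Unit ⊕ (Fin s → Fin m)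

/-- The degrees of the unknown functions. -/
def tcDeg {r m s : ℕ} (a : Fin m → Dg) (e γ' : Dg) : TCSlot r m s → Dg
  | .inl _ => e
  | .inr (.inl _) => e
  | .inr (.inr J) => ∑ i, a (J i) - γ'

/-- The equations. -/
def tcEq {r m s : ℕ} (ι : Fin s → Fin r) {B : Type} [CommRing B] (p : TCSlot r m s → B)
    (G : Fin m → Fin r → B) (h : B) : (Fin s × Fin s) ⊕ (Fin s → Fin m) → B
  | .inl x => p (.inl (x.1, ι x.2)) - if x.1 = x.2 then p (.inr (.inl ())) else 0
  | .inr J => (Matrix.of fun i j => ∑ l, p (.inl (j, l)) * G (J i) l).det -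
      p (.inr (.inl ())) ^ (s - 1) * h ^ s * p (.inr (.inr J))

theorem tcEq_map {r m s : ℕ} (ι : Fin s → Fin r) {B B' : Type} [CommRing B] [CommRing B']
    (f : B →+* B') (p : TCSlot r m s → B) (G : Fin m → Fin r → B) (h : B) (x) :
    f (tcEq ι p G h x) = tcEq ι (fun u => f (p u)) (fun j l => f (G j l)) (f h) x := by
  rcases x with x | J
  · simp only [tcEq, map_sub]
    split_ifs <;> simp
  · simp only [tcEq, map_sub, map_mul, map_pow, RingHom.map_det]
    congr 2
    ext i j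
    simp [map_sum]

theorem tcEq_scale {r m s : ℕ} (hs : 1 ≤ s) (ι : Fin s → Fin r) {B : Type} [Field B]
    (p : TCSlot r m s → B) (G : Fin m → Fin r → B) (h μ : B) (hμ : μ ≠ 0) (x) :
    tcEq ι (fun u => p u * μ) (fun j l => G j l * μ) (h * μ) x = 0 ↔ tcEq ι p G h x = 0 := by
  rcases x with x | J
  · have : tcEq ι (fun u => p u * μ) (fun j l => G j l * μ) (h * μ) (.inl x) =
        tcEq ι p G h (.inl x) * μ := by
      simp only [tcEq]
      split_ifs <;> ring
    rw [this, mul_eq_zero_iff_right hμ]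
  · have : tcEq ι (fun u => p u * μ) (fun j l => G j l * μ) (h * μ) (.inr J) =
        tcEq ι p G h (.inr J) * (μ * μ) ^ s := by
      simp only [tcEq]
      have h1 : (Matrix.of fun i j => ∑ l, p (.inl (j, l)) * μ * (G (J i) l * μ)) =
          (μ * μ) • (Matrix.of fun i j => ∑ l, p (.inl (j, l)) * G (J i) l) := by
        ext i j
        simp only [Matrix.of_apply, Matrix.smul_apply, smul_eq_mul, Finset.mul_sum]
        exact Finset.sum_congr rfl fun l _ => by ring
      rw [h1, Matrix.det_smul, Fintype.card_fin]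
      obtain ⟨t, rfl⟩ : ∃ t, s = t + 1 := ⟨s - 1, by omega⟩
      simp only [Nat.add_sub_cancel]
      ring
    rw [this, mul_eq_zero_iff_right (pow_ne_zero _ (mul_ne_zero hμ hμ))]

theorem tc_destab_iff {k : Type} [Field k] {r m s : ℕ} (g : Fin m → Fin r → KK k) (a : Fin m → Dg)
    (h : KK k) (ι : Fin s → Fin r) (e γ' : Dg) : Destab k g a h ι e γ' ↔
      ∃ p : TCSlot r m s → KK k, (∀ u, p u ∈ CC k (tcDeg a e γ' u)) ∧ p (.inr (.inl ())) ≠ 0 ∧
        ∀ x, tcEq ι p g h x = 0 := by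
  constructor
  · rintro ⟨ψ, H, b, h0, hH, hψ, h1, hb, h2⟩
    refine ⟨Sum.elim (fun x => ψ x.1 x.2) (Sum.elim (fun _ => H) b), ?_, h0, ?_⟩
    · rintro (x | x | J)
      · exact hψ _ _
      · exact hH
      · exact hb J
    · rintro (x | J)
      · exact sub_eq_zero.2 (h1 _ _)
      · exact sub_eq_zero.2 (h2 J)
  · rintro ⟨p, hp, h0, hx⟩
    exact ⟨fun i j => p (.inl (i, j)), p (.inr (.inl ())), fun J => p (.inr (.inr J)), h0,
      hp (.inr (.inl ())), fun i j => hp (.inl (i, j)), fun i j => sub_eq_zero.1 (hx (.inl (i, j))),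
      fun J => hp (.inr (.inr J)), fun J => sub_eq_zero.1 (hx (.inr J))⟩

/-- The monomials of a degree. -/
abbrev TCMon (α : Dg) : Type := {β : Ex | 0 ≤ (7 : ℤ) • dv β + α}

instance tcFintype (α : Dg) : Fintype (TCMon α) := (finite_mons α).fintype

theorem tc_mem_CC_iff {k : Type} [Field k] {α : Dg} {f : KK k} :
    f ∈ CC k α ↔ ∃ c : TCMon α → k, ∑ β, c β • mon k β.1 = f := by
  unfold CC
  rw [Set.image_eq_range]
  exact Submodule.mem_span_range_iff_exists_fun k

/-- The polynomial `mon (β + N)`. -/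
def tcMp (A : Type) [CommRing A] (N : ℕ) (β : Ex) : MvPolynomial (Fin 2) A :=
  ∏ j, lin A j ^ (β j + N).toNat

theorem tc_map_lin {A B : Type} [CommRing A] [CommRing B] (φ : A →+* B) (j : Fin 5) :
    map φ (lin A j) = lin B j := by
  fin_cases j <;> simp [lin]

theorem tc_map_mp {A B : Type} [CommRing A] [CommRing B] (φ : A →+* B) (N : ℕ) (β : Ex) :
    map φ (tcMp A N β) = tcMp B N β := by
  simp only [tcMp, map_prod, map_pow, tc_map_lin]

theorem tc_alg_mp {k : Type} [Field k] (N : ℕ) (β : Ex) (hβ : ∀ j, 0 ≤ β j + N) :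
    algebraMap (PP k) (KK k) (tcMp k N β) = mon k β * mon k (fun _ => (N : ℤ)) := by
  rw [← mon_add, tcMp, ← mon_natCast]
  congr 1
  funext j
  exact Int.toNat_of_nonneg (hβ j)

theorem tc_alg_sum {k : Type} [Field k] (N : ℕ) {α : Dg} (hα : ∀ β : TCMon α, ∀ j, 0 ≤ β.1 j + N)
    (c : TCMon α → k) : algebraMap (PP k) (KK k) (∑ β, C (c β) * tcMp k N β.1) =
      (∑ β, c β • mon k β.1) * mon k (fun _ => (N : ℤ)) := by
  rw [map_sum, Finset.sum_mul]
  refine Finset.sum_congr rfl fun β _ => ?_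
  rw [map_mul, tc_alg_mp N _ (hα β), smul_mul_assoc, Algebra.smul_def,
    IsScalarTower.algebraMap_apply k (PP k) (KK k)]
  rfl

theorem tc_exists_poly {k : Type} [Field k] (N : ℕ) {α : Dg}
    (hα : ∀ β : TCMon α, ∀ j, 0 ≤ β.1 j + N) {f : KK k} (hf : f ∈ CC k α) :
    ∃ P : PP k, f = mon k (-fun _ => (N : ℤ)) * algebraMap (PP k) (KK k) P := by
  obtain ⟨c, rfl⟩ := tc_mem_CC_iff.1 hf
  refine ⟨∑ β, C (c β) * tcMp k N β.1, ?_⟩
  rw [tc_alg_sum N hα, mon_neg]
  have := mon_ne_zero (k := k) (fun _ => (N : ℤ))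
  field_simp

theorem tc_exists_N {U : Type} [Finite U] (d : U → Dg) :
    ∃ N : ℕ, ∀ u, ∀ β : TCMon (d u), ∀ j, 0 ≤ β.1 j + N := by
  obtain ⟨M, hM⟩ := (Set.finite_range fun x : (Σ u, TCMon (d u)) × Fin 5 =>
    (-(x.1.2.1 x.2)).toNat).bddAbove
  refine ⟨M, fun u β j => ?_⟩
  have : (-(β.1 j)).toNat ≤ M := hM ⟨(⟨u, β⟩, j), rfl⟩
  omega

/-- The generic element of a slot. -/
def tcGen (A : Type) [CommRing A] (N : ℕ) {U : Type} (d : U → Dg) (u : U) :
    MvPolynomial (Fin 2) (MvPolynomial (Σ u, TCMon (d u)) A) :=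
  ∑ β : TCMon (d u), C (X (⟨u, β⟩ : Σ u, TCMon (d u))) *
    tcMp (MvPolynomial (Σ u, TCMon (d u)) A) N β.1

theorem tc_map_gen {A B : Type} [CommRing A] [CommRing B] (φ : A →+* B) (N : ℕ) {U : Type}
    (d : U → Dg) (u : U) :
    map (map φ : MvPolynomial (Σ u, TCMon (d u)) A →+* MvPolynomial (Σ u, TCMon (d u)) B)
      (tcGen A N d u) = tcGen B N d u := by
  simp only [tcGen, map_sum, map_mul, map_C, map_X, tc_map_mp]

theorem tc_eval_gen {A k : Type} [CommRing A] [Field k] (ρ : A →+* k) (N : ℕ) {U : Type}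
    (d : U → Dg) (hd : ∀ u, ∀ β : TCMon (d u), ∀ j, 0 ≤ β.1 j + N) (c : (Σ u, TCMon (d u)) → k)
    (u : U) : algebraMap (PP k) (KK k) (map (eval₂Hom ρ c) (tcGen A N d u)) =
      (∑ β, c ⟨u, β⟩ • mon k β.1) * mon k (fun _ => (N : ℤ)) := by
  rw [← tc_alg_sum N (hd u)]
  simp only [tcGen, map_sum, map_mul, map_C, eval₂Hom_X', tc_map_mp]

theorem tc_eval_C {A k σ : Type} [CommRing A] [CommRing k] (ρ : A →+* k) (c : σ → k)
    (P : MvPolynomial (Fin 2) A) :
    map (eval₂Hom ρ c) (map (C : A →+* MvPolynomial σ A) P) = map ρ P := by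
  rw [MvPolynomial.map_map]
  congr 2
  ext x
  simp

theorem tc_map_C {A B σ : Type} [CommRing A] [CommRing B] (φ : A →+* B)
    (P : MvPolynomial (Fin 2) A) :
    map (map φ : MvPolynomial σ A →+* MvPolynomial σ B) (map (C : A →+* MvPolynomial σ A) P) =
      map (C : B →+* MvPolynomial σ B) (map φ P) := by
  rw [MvPolynomial.map_map, MvPolynomial.map_map]
  congr 2
  ext x : 1
  simp

/-- The polynomial system is equivalent to the system of equations in the function field. -/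
theorem tc_key {r m s : ℕ} (hs : 1 ≤ s) (ι : Fin s → Fin r) {A k : Type} [CommRing A] [Field k]
    (ρ : A →+* k) (N : ℕ) (d : TCSlot r m s → Dg)
    (hd : ∀ u, ∀ β : TCMon (d u), ∀ j, 0 ≤ β.1 j + N) (c : (Σ u, TCMon (d u)) → k)
    (G : Fin m → Fin r → MvPolynomial (Fin 2) A) (h0 : MvPolynomial (Fin 2) A)
    (g : Fin m → Fin r → KK k) (h : KK k)
    (hg : ∀ j l, g j l = mon k (-fun _ => (N : ℤ)) * algebraMap (PP k) (KK k) (map ρ (G j l)))
    (hh : h = mon k (-fun _ => (N : ℤ)) * algebraMap (PP k) (KK k) (map ρ h0)) (x) :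
    map (eval₂Hom ρ c) (tcEq ι (tcGen A N d) (fun j l => map C (G j l)) (map C h0) x) = 0 ↔
      tcEq ι (fun u => ∑ β, c ⟨u, β⟩ • mon k β.1) g h x = 0 := by
  have hμ := mon_ne_zero (k := k) (fun _ => (N : ℤ))
  rw [← tcEq_scale hs ι _ g h _ hμ, ← map_eq_zero_iff (algebraMap (PP k) (KK k))
    (IsFractionRing.injective (PP k) (KK k)), tcEq_map, tcEq_map]
  have e1 : (fun u => algebraMap (PP k) (KK k) (map (eval₂Hom ρ c) (tcGen A N d u))) =
      fun u => (∑ β, c ⟨u, β⟩ • mon k β.1) * mon k (fun _ => (N : ℤ)) :=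
    funext fun u => tc_eval_gen ρ N d hd c u
  have e2 : (fun j l => algebraMap (PP k) (KK k) (map (eval₂Hom ρ c)
      (map (C : A →+* MvPolynomial (Σ u, TCMon (d u)) A) (G j l)))) =
      fun j l => g j l * mon k (fun _ => (N : ℤ)) := by
    funext j l
    rw [tc_eval_C, hg, mon_neg]
    field_simp
  have e3 : algebraMap (PP k) (KK k) (map (eval₂Hom ρ c)
      (map (C : A →+* MvPolynomial (Σ u, TCMon (d u)) A) h0)) = h * mon k (fun _ => (N : ℤ)) := by
    rw [tc_eval_C, hh, mon_neg]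
    field_simp
  rw [e1, e2, e3]

/-- Recipe.  Unknowns: the coefficients of `ψ i j`, `H`, `b J` in the monomials of `finite_mons`.
Multiply every function by `mon (N • 1)` for a large `N` to get polynomials; the equations are
homogeneous in this scaling (`2 s` factors on both sides, as `1 ≤ s`), so `Destab` over a field is
equivalent to a system as in `nss`. -/
theorem destab_transfer {r m s : ℕ} (hs : 1 ≤ s) {g : Fin m → Fin r → KK ℂ} {a : Fin m → Dg}
    {h : KK ℂ} {δ : Dg} (hg : ∀ j i, g j i ∈ CC ℂ (a j)) (hh : h ∈ CC ℂ δ) {ι : Fin s → Fin r}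
    {e γ' : Dg} (hno : ¬ Destab ℂ g a h ι e γ') : ∃ S : Finset ℂ,
      ∀ (O : ValuationSubring ℂ), (S : Set ℂ) ⊆ O → ∀ (κ : Type) [Field κ] (ρ : O →+* κ)
        (g' : Fin m → Fin r → KK κ) (h' : KK κ), (∀ j i, Rd ρ (g j i) (g' j i)) → Rd ρ h h' →
        ¬ Destab κ g' a h' ι e γ' := by
  let d : TCSlot r m s → Dg := tcDeg a e γ'
  obtain ⟨N, hN⟩ := tc_exists_N (U := TCSlot r m s ⊕ Option (Fin m))
    (Sum.elim d fun o => o.elim δ a)
  have hd : ∀ u, ∀ β : TCMon (d u), ∀ j, 0 ≤ β.1 j + N := fun u => hN (.inl u)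
  choose G hG using fun j l => tc_exists_poly N (hN (.inr (some j))) (hg j l)
  obtain ⟨h0, hh0⟩ := tc_exists_poly N (hN (.inr none)) hh
  obtain ⟨S, hS⟩ := nss (σ := Σ u, TCMon (d u))
    (tcEq ι (tcGen ℂ N d) (fun j l => map C (G j l)) (map C h0)) (tcGen ℂ N d (.inr (.inl ()))) (by
      intro c hc
      by_contra hne
      apply hno
      refine (tc_destab_iff g a h ι e γ').2 ⟨fun u => ∑ β, c ⟨u, β⟩ • mon ℂ β.1,
        fun u => tc_mem_CC_iff.2 ⟨_, rfl⟩, fun h1 => hne ?_, fun x => ?_⟩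
      · apply IsFractionRing.injective (PP ℂ) (KK ℂ)
        have := tc_eval_gen (RingHom.id ℂ) N d hd c (.inr (.inl ()))
        rw [map_zero]
        refine this.trans ?_
        exact mul_eq_zero_of_left h1 _
      · exact (tc_key hs ι (RingHom.id ℂ) N d hd c G h0 g h
          (fun j l => by rw [MvPolynomial.map_id]; exact hG j l) (by rw [MvPolynomial.map_id]; exact hh0) x).1 (hc x))
  refine ⟨S, fun O hO κ _ ρ g' h' hg' hh' hD => ?_⟩
  choose G0 hG0 hG1 using fun j l => (hg' j l).change (hG j l)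
  obtain ⟨h00, hh00, hh1⟩ := hh'.change hh0
  obtain ⟨p, hp, hp0, hx⟩ := (tc_destab_iff g' a h' ι e γ').1 hD
  choose c0 hc0 using fun u => tc_mem_CC_iff.1 (hp u)
  let c : (Σ u, TCMon (d u)) → κ := fun x => c0 x.1 x.2
  have hpc : (fun u => ∑ β, c ⟨u, β⟩ • mon κ β.1) = p := funext hc0
  have key := hS O O.subtype Subtype.val_injective (fun x hx => ⟨⟨x, hO hx⟩, rfl⟩)
    (tcEq ι (tcGen O N d) (fun j l => map C (G0 j l)) (map C h00)) (tcGen O N d (.inr (.inl ())))
    (fun x => by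
      rw [tcEq_map]
      simp only [tc_map_gen, tc_map_C, hG0, hh00])
    (tc_map_gen _ _ _ _) κ ρ c
    (fun x => (tc_key hs ι ρ N d hd c G0 h00 g' h' hG1 hh1 x).2 (by rw [hpc]; exact hx x))
  have h1 := tc_eval_gen ρ N d hd c (.inr (.inl ()))
  rw [key, map_zero] at h1
  have h2 : (∑ β, c ⟨.inr (.inl ()), β⟩ • mon κ β.1) = p (.inr (.inl ())) := hc0 _
  rw [h2] at h1
  exact mul_ne_zero hp0 (mon_ne_zero _) h1.symm

end Crest.Agent.R169
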