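/-
R169/Transfer: semistability survives reduction modulo large primes (part 4 of 4)
-/
import Crest.Agent.R169.TransferC

set_option autoImplicit false
set_option linter.unusedSectionVars false
set_option linter.unusedVariables false
set_option linter.unusedSimpArgs false

noncomputable section

namespace Crest.Agent.R169

open MvPolynomial Filter
open scoped Pointwise


theorem Transfer_det_ne {F : Type} [Field F] {r : ℕ} {x : Fin r → Fin r → F} :
    LinearIndependent F x ↔ (Matrix.of x).det ≠ 0 := by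
  have h : LinearIndependent F (Matrix.of x).row ↔ IsUnit (Matrix.of x) :=
    Matrix.linearIndependent_rows_iff_isUnit
  rw [Matrix.isUnit_iff_isUnit_det, isUnit_iff_ne_zero] at h
  exact h

theorem Transfer_spn_top {k : Type} [Field k] {r : ℕ} {G : Fam k (Fin r → KK k)} {γ : Dg}
    {x : Fin r → Fin r → KK k} (hx : LinearIndependent (KK k) x) (hxγ : ∀ i, x i ∈ G γ) :
    spn G = ⊤ := by
  have h := hx.span_eq_top_of_card_eq_finrank' (by simp)
  rw [eq_top_iff, ← h, Submodule.span_le]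
  rintro _ ⟨i, rfl⟩
  exact mem_spn (hxγ i)

theorem Transfer_bound {r s : ℕ} (h1 : 1 ≤ s) (h2 : s ≤ r) {e : Dg} (he : 0 ≤ e) {d m : ℤ}
    (h : r * (deg e - s * d) < s * m) : e ∈ Finset.Icc (0 : Dg) fun _ => r * |m + r * d| := by
  rw [Finset.mem_Icc]
  refine ⟨he, fun i => ?_⟩
  have h3 : e i ≤ deg e := Finset.single_le_sum (f := e) (fun j _ => he j) (Finset.mem_univ i)
  have h4 := deg_nonneg he
  have h5 : (1 : ℤ) ≤ r := by exact_mod_cast h1.trans h2
  have h6 : (s : ℤ) ≤ r := by exact_mod_cast h2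
  have h7 : (0 : ℤ) ≤ s := Int.natCast_nonneg s
  have h8 := le_abs_self (m + r * d)
  have h9 := abs_nonneg (m + r * d)
  have h10 : (s : ℤ) * (m + r * d) ≤ s * |m + r * d| := mul_le_mul_of_nonneg_left h8 h7
  have h11 : (s : ℤ) * |m + r * d| ≤ r * |m + r * d| := mul_le_mul_of_nonneg_right h6 h9
  have h12 : deg e ≤ r * deg e := le_mul_of_one_le_left h4 h5
  show e i ≤ r * |m + r * d|
  nlinarith

/-- Recipe: `h = det x`, `δ = r γ`; collect the finite sets of `exists_coeffs` (entries of `g`, `x`,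
and `h`) and of `destab_transfer` for the finitely many `(s, ι, e)` with `0 ≤ e` and
`r (deg e - s deg δ) < s mm E`; `exists_val_ring`; `E' = red ρ E`. -/
theorem transfer {r : ℕ} {E : Fam ℂ (Fin r → KK ℂ)} (hE : IsLat E) (hle : E ≤ CCr ℂ (Fin r))
    (hs : SS E) {γ : Dg} {x : Fin r → Fin r → KK ℂ} (hx : LinearIndependent (KK ℂ) x)
    (hxγ : ∀ i, x i ∈ E γ) (N : ℕ) : ∃ (p : ℕ) (_ : Fact p.Prime) (κ : Type) (_ : Field κ)
      (_ : IsAlgClosed κ) (_ : CharP κ p) (E' : Fam κ (Fin r → KK κ)) (x' : Fin r → Fin r → KK κ),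
      N < p ∧ IsLat E' ∧ E' ≤ CCr κ (Fin r) ∧ SS E' ∧ cc E' = cc E ∧ ss E' = ss E ∧
        LinearIndependent (KK κ) x' ∧ ∀ i, x' i ∈ E' γ := by
  classical
  obtain ⟨m, g, a, hEq⟩ := hE.exists_fin
  have hg : ∀ j, g j ∈ E (a j) := fun j => hEq ▸ mem_gen ⟨j, rfl⟩
  have hgC : ∀ j i, g j i ∈ CC ℂ (a j) := fun j => mem_CCr.mp (hle _ (hg j))
  have hxC : ∀ j i, x j i ∈ CC ℂ γ := fun j => mem_CCr.mp (hle _ (hxγ j))
  have ht : spn E = ⊤ := Transfer_spn_top hx hxγ
  have h0 : (Matrix.of x).det ≠ 0 := Transfer_det_ne.mp hx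
  have hh : (Matrix.of x).det ∈ CC ℂ ((r : ℤ) • γ) := by
    have := det_mem_CC (x := x) (α := fun _ => γ) hxC
    rwa [Finset.sum_const, Finset.card_univ, Fintype.card_fin, ← natCast_zsmul] at this
  choose Sg hSg using fun j i => exists_coeffs (hgC j i)
  choose Sx hSx using fun j i => exists_coeffs (hxC j i)
  obtain ⟨Sh, hSh⟩ := exists_coeffs hh
  have key : ∀ (t : Σ s : Fin (r + 1), (Fin s → Fin r)) (e : Dg), ∃ S : Finset ℂ,
      1 ≤ (t.1 : ℕ) → r * (deg e - (t.1 : ℕ) * deg ((r : ℤ) • γ)) < (t.1 : ℕ) * mm E →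
      ∀ (O : ValuationSubring ℂ), (S : Set ℂ) ⊆ O → ∀ (κ : Type) [Field κ] (ρ : O →+* κ)
        (g' : Fin m → Fin r → KK κ) (h' : KK κ), (∀ j i, Rd ρ (g j i) (g' j i)) →
        Rd ρ (Matrix.of x).det h' →
        ¬ Destab κ g' a h' t.2 e ((((t.1 : ℕ) : ℤ)) • ((r : ℤ) • γ) - e) := by
    intro t e
    by_cases h1 : 1 ≤ (t.1 : ℕ)
    swap
    · exact ⟨∅, fun h => absurd h h1⟩
    by_cases h2 : r * (deg e - (t.1 : ℕ) * deg ((r : ℤ) • γ)) < (t.1 : ℕ) * mm E
    swap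
    · exact ⟨∅, fun _ h => absurd h h2⟩
    have hno : ¬ Destab ℂ g a (Matrix.of x).det t.2 e ((((t.1 : ℕ) : ℤ)) • ((r : ℤ) • γ) - e) := by
      refine not_destab_of_ss (hEq ▸ ht) (hEq ▸ hs) h0 ?_
      rw [← hEq, deg_sub, deg_smul, neg_sub]
      exact h2
    obtain ⟨S, hS⟩ := destab_transfer h1 hgC hh hno
    exact ⟨S, fun _ _ => hS⟩
  choose Sd hSd using key
  let B : Finset Dg := Finset.Icc (0 : Dg) fun _ => r * |mm E + r * deg ((r : ℤ) • γ)|
  let S : Finset ℂ := (Finset.univ.biUnion fun j => Finset.univ.biUnion fun i => Sg j i) ∪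
    (Finset.univ.biUnion fun j => Finset.univ.biUnion fun i => Sx j i) ∪ Sh ∪
    (Finset.univ.biUnion fun t => B.biUnion fun e => Sd t e)
  obtain ⟨p, hp, O, κ, hκ, hac, hch, ρ, hN, hS⟩ := exists_val_ring S N
  have hS1 : ∀ j i, (Sg j i : Set ℂ) ⊆ O := fun j i z hz => hS (by
    simp only [S, Finset.coe_union, Set.mem_union, Finset.mem_coe, Finset.mem_biUnion]
    exact Or.inl (Or.inl (Or.inl ⟨j, Finset.mem_univ _, i, Finset.mem_univ _, hz⟩)))
  have hS2 : ∀ j i, (Sx j i : Set ℂ) ⊆ O := fun j i z hz => hS (by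
    simp only [S, Finset.coe_union, Set.mem_union, Finset.mem_coe, Finset.mem_biUnion]
    exact Or.inl (Or.inl (Or.inr ⟨j, Finset.mem_univ _, i, Finset.mem_univ _, hz⟩)))
  have hS3 : (Sh : Set ℂ) ⊆ O := fun z hz => hS (by
    simp only [S, Finset.coe_union, Set.mem_union, Finset.mem_coe, Finset.mem_biUnion]
    exact Or.inl (Or.inr hz))
  have hS4 : ∀ t, ∀ e ∈ B, (Sd t e : Set ℂ) ⊆ O := fun t e he z hz => hS (by
    simp only [S, Finset.coe_union, Set.mem_union, Finset.mem_coe, Finset.mem_biUnion]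
    exact Or.inr ⟨t, Finset.mem_univ _, e, he, hz⟩)
  choose g' hg' using fun j i => hSg j i O (hS1 j i) κ ρ
  choose x' hx' using fun j i => hSx j i O (hS2 j i) κ ρ
  obtain ⟨h', hh', hne⟩ := hSh O hS3 κ ρ
  have hdet : Rd ρ (Matrix.of x).det (Matrix.of x').det := Rd.det fun i j => (hx' i j).1
  have h0' : (Matrix.of x').det ≠ 0 := by rw [hdet.unique hh']; exact hne h0
  have hle' : red ρ E ≤ CCr κ (Fin r) := red_le hle
  have hst' : Stable (red ρ E) := red_stable hE.stable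
  have hE' : IsLat (red ρ E) := (isLat_CCr r).sub hst' hle'
  have hrr : HP E r (cc E) (ss E) := by
    have := hE.rr
    rwa [rk_of_top ht] at this
  obtain ⟨-, hcc, hss⟩ := (hrr.red (ρ := ρ) hle).eq hE'
  have hx'γ : ∀ i, x' i ∈ red ρ E γ := fun i =>
    Submodule.subset_span ⟨x i, hxγ i, fun j => (hx' i j).1⟩
  have hg'E : ∀ j, g' j ∈ red ρ E (a j) := fun j =>
    Submodule.subset_span ⟨g j, hg j, fun i => (hg' j i).1⟩
  have hli : LinearIndependent (KK κ) x' := Transfer_det_ne.mpr h0'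
  refine ⟨p, hp, κ, hκ, hac, hch, red ρ E, x', hN, hE', hle', ?_, hcc, hss, hli, hx'γ⟩
  by_contra hns
  obtain ⟨s, ι, e, h1, h2, he, hlt, hD⟩ := destab_of_not_ss hE' (Transfer_spn_top hli hx'γ) hns hg'E
    h0' (hst'.single_det_mem hle' hx'γ)
  have hmm : mm (red ρ E) = mm E := by rw [mm, hcc, mm]
  rw [hmm] at hlt
  exact hSd ⟨⟨s, Nat.lt_succ_of_le h2⟩, ι⟩ e h1 hlt O (hS4 _ e (Transfer_bound h1 h2 he hlt)) κ ρ
    g' _ (fun j i => (hg' j i).1) hdet hD

end Crest.Agent.R169
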