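/-
R169/Bogo: the Bogomolov inequality and its version for unstable lattices.
-/
import Crest.Agent.R169.Transfer
import Crest.Agent.R169.Gies

set_option autoImplicit false
set_option linter.unusedSectionVars false
set_option linter.unusedVariables false
set_option linter.unusedSimpArgs false

noncomputable section

namespace Crest.Agent.R169

open MvPolynomial Filter
open scoped Pointwise


theorem bogomolov_std {r : ℕ} {E : Fam ℂ (Fin r → KK ℂ)} (hE : IsLat E) (hle : E ≤ CCr ℂ (Fin r))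
    (ht : spn E = ⊤) (hs : SS E) (hr : 1 ≤ r) : r * ss E ≤ 343 * ip (cc E) (cc E) := by
  obtain ⟨γ, x, hxγ, hx, -⟩ := hE.exists_free
  have e := rk_of_top ht
  obtain ⟨x', hx', hxγ'⟩ : ∃ x' : Fin r → Fin r → KK ℂ, LinearIndependent (KK ℂ) x' ∧
      ∀ i, x' i ∈ E γ :=
    ⟨x ∘ Fin.cast e.symm, hx.comp _ (Fin.cast_injective _), fun i => hxγ _⟩
  obtain ⟨C, hC⟩ := gieseker r hr (cc E) γ
  obtain ⟨p, _, κ, _, _, _, E', y, hN, h1, h2, h3, h4, h5, h6, h7⟩ :=
    transfer hE hle hs hx' hxγ' C.natAbs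
  have := hC κ p E' h1 h2 h3 h4 y h6 h7
  rw [h5] at this
  by_contra hc
  have h8 : 1 ≤ r * ss E - 343 * ip (cc E) (cc E) := by omega
  have h9 : C < p := by omega
  have h10 : (0 : ℤ) < p := by omega
  nlinarith

variable {V : Type} [AddCommGroup V] [Module ℂ V] [Module (KK ℂ) V] [IsScalarTower ℂ (KK ℂ) V]

theorem bogomolov {E : Fam ℂ V} (hE : IsLat E) (hs : SS E) :
    rk E * ss E ≤ 343 * ip (cc E) (cc E) := by
  rcases Nat.eq_zero_or_pos (rk E) with h0 | hr
  · simp [h0, (hE.of_rk_zero h0).1]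
  obtain ⟨δ, ψ, h1, h2, h3⟩ := hE.exists_embed
  have h4 := bogomolov_std ((hE.img ψ).shf δ) h3 (by rw [spn_shf, h2])
    ((hs.img_inj hE h1).shf (hE.img ψ) δ) hr
  obtain ⟨-, e2, e3⟩ := (hE.img ψ).shf_eq δ
  obtain ⟨f1, f2, f3⟩ := hE.img_inj h1
  rw [e2, e3, f1, f2, f3] at h4
  simp only [ip_add_left, ip_add_right, ip_smul_left, ip_smul_right, ip_comm (cl δ) (cc E)] at h4
  nlinarith

theorem Bogo_mm_zero {G : Fam ℂ V} (h : IsLat G) (h0 : rk G = 0) : mm G = 0 := by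
  rw [mm, (h.of_rk_zero h0).1, ip_zero_left]

theorem Bogo_rk_cut_bot {G : Fam ℂ V} (h : IsLat G) : rk (cut G ⊥) = 0 := by
  rw [rk, h.stable.spn_cut, inf_bot_eq, finrank_bot]

theorem Bogo_slope {a b : ℚ} {G : Fam ℂ V} (h : IsLat G)
    (hb : ∀ U, (mm (cut G U) : ℚ) ≤ b * rk (cut G U))
    (ha : ∀ U, a * ((rk G : ℚ) - rk (cut G U)) ≤ mm G - mm (cut G U)) :
    a * rk G ≤ mm G ∧ (mm G : ℚ) ≤ b * rk G := by
  have h1 := hb ⊤
  have h2 := ha ⊥
  rw [cut_top] at h1
  rw [Bogo_mm_zero (h.cut ⊥) (Bogo_rk_cut_bot h), Bogo_rk_cut_bot h] at h2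
  exact ⟨by simpa using h2, h1⟩

theorem Bogo_ss {a b : ℚ} {G : Fam ℂ V} (h : IsLat G) (hs : SS G)
    (h1 : a * rk G ≤ mm G) (h2 : (mm G : ℚ) ≤ b * rk G) :
    5 * (ss G : ℚ) ≤ 343 * ((a + b) * mm G - a * b * rk G) := by
  rcases Nat.eq_zero_or_pos (rk G) with h0 | hr
  · simp [h0, (h.of_rk_zero h0).2, Bogo_mm_zero h h0]
  have h3 := bogomolov h hs
  have h4 := hodge (cc G)
  have h5 : 5 * ((rk G : ℤ) * ss G) ≤ 343 * mm G ^ 2 := by unfold mm; linarith
  have h6 : 5 * ((rk G : ℚ) * ss G) ≤ 343 * (mm G : ℚ) ^ 2 := by exact_mod_cast h5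
  have hr' : (0 : ℚ) < rk G := by exact_mod_cast hr
  have h7 := mul_nonneg (sub_nonneg.2 h1) (sub_nonneg.2 h2)
  refine le_of_mul_le_mul_left ?_ hr'
  nlinarith

/-- Recipe.  Induction on the rank, for all `V`.  If `G` is semistable: `bogomolov`, `hodge`, and
`(b ρ - m) (m - a ρ) ≥ 0` (take `U = ⊤`, `U = ⊥`).  Otherwise choose `U` with `rk (cut G U) ≥ 1`
maximising the slope (`mm_cut_bdd`); `F = cut G U` is semistable of rank `< ρ` (`cut_cut`),
`Q = img U.mkQ G` satisfies the hypotheses (`img_cut_comap`, `mm_add`, `rk_cut_img`), and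
`(5 ρ s - 343 m²) / ρ - 343 (b ρ - m)(m - a ρ) / ρ = 5 s - 343 ((a + b) m - a b ρ)` is additive. -/
theorem bogomolov_unstable (a b : ℚ) (n : ℕ) : ∀ (V : Type) [AddCommGroup V] [Module ℂ V]
    [Module (KK ℂ) V] [IsScalarTower ℂ (KK ℂ) V] (G : Fam ℂ V), IsLat G → rk G ≤ n →
    (∀ U, (mm (cut G U) : ℚ) ≤ b * rk (cut G U)) →
    (∀ U, a * ((rk G : ℚ) - rk (cut G U)) ≤ mm G - mm (cut G U)) →
    5 * (ss G : ℚ) ≤ 343 * ((a + b) * mm G - a * b * rk G) := by
  induction n with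
  | zero =>
    intro V _ _ _ _ G h hr hb ha
    have h0 : rk G = 0 := by omega
    simp [h0, (h.of_rk_zero h0).2, Bogo_mm_zero h h0]
  | succ n ih =>
    intro V _ _ _ _ G h hr hb ha
    obtain ⟨s1, s2⟩ := Bogo_slope h hb ha
    by_cases hs : SS G
    · exact Bogo_ss h hs s1 s2
    obtain ⟨B, hB⟩ := h.mm_cut_bdd
    have hle : ∀ U, rk (cut G U) ≤ rk G := fun U => h.rk_mono (cut_le G U)
    obtain ⟨U₀, hU₀⟩ : ∃ U₀, (rk (cut G U₀) : ℤ) * mm G < rk G * mm (cut G U₀) := by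
      simpa [SS] using hs
    obtain ⟨M, ⟨U, hU⟩, hM⟩ := Int.exists_greatest_of_bdd
      (P := fun z => ∃ U, (rk G : ℤ) * mm (cut G U) - rk (cut G U) * mm G = z)
      ⟨rk G * B + rk G * |mm G|, by
        rintro _ ⟨U, rfl⟩
        have e1 : (rk G : ℤ) * mm (cut G U) ≤ rk G * B :=
          mul_le_mul_of_nonneg_left (hB U) (Int.natCast_nonneg _)
        have e2 : (rk (cut G U) : ℤ) ≤ rk G := by exact_mod_cast hle U
        have e3 : (0 : ℤ) ≤ rk (cut G U) := Int.natCast_nonneg _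
        have e4 := neg_abs_le (mm G)
        have e5 := abs_nonneg (mm G)
        nlinarith⟩ ⟨_, U₀, rfl⟩
    have hmax : ∀ U', (rk G : ℤ) * mm (cut G U') - rk (cut G U') * mm G ≤
        rk G * mm (cut G U) - rk (cut G U) * mm G := fun U' => (hM _ ⟨U', rfl⟩).trans_eq hU.symm
    have hmaxQ : ∀ U', (rk G : ℚ) * mm (cut G U') - rk (cut G U') * mm G ≤
        rk G * mm (cut G U) - rk (cut G U) * mm G := fun U' => by exact_mod_cast hmax U'
    have hpos : 0 < (rk G : ℤ) * mm (cut G U) - rk (cut G U) * mm G := by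
      have := hmax U₀
      linarith
    have hF := h.cut U
    have hQ := h.img U.mkQ
    have r1 := h.rk_cut_img U.mkQ
    have m1 := h.mm_add U.mkQ
    have t1 := (h.add U.mkQ).2
    rw [Submodule.ker_mkQ] at r1 m1 t1
    have rF : rk (cut G U) ≠ 0 := fun h0 => by
      rw [Bogo_mm_zero hF h0, h0] at hpos
      simp at hpos
    have rQ : rk (img U.mkQ G) ≠ 0 := fun h0 => by
      rw [Bogo_mm_zero hQ h0, add_zero] at m1
      rw [h0, add_zero] at r1
      rw [← m1, ← r1] at hpos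
      simp at hpos
    have hr' : (0 : ℚ) < rk G := by
      have : 0 < rk G := by omega
      exact_mod_cast this
    have i1 := ih V (cut G U) hF (by omega) (fun U' => by rw [cut_cut]; exact hb _) (fun U' => by
      have e1 : (rk (cut (cut G U) U') : ℚ) ≤ rk (cut G U) := by
        exact_mod_cast hF.rk_mono (cut_le _ U')
      rw [cut_cut] at e1 ⊢
      have e2 := hmaxQ (U ⊓ U')
      have e3 := mul_le_mul_of_nonneg_right s1 (sub_nonneg.2 e1)
      refine le_of_mul_le_mul_left ?_ hr'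
      nlinarith)
    have key : ∀ U' : Submodule (KK ℂ) (V ⧸ U),
        rk (cut G (U'.comap U.mkQ)) = rk (cut G U) + rk (cut (img U.mkQ G) U') ∧
        mm (cut G (U'.comap U.mkQ)) = mm (cut G U) + mm (cut (img U.mkQ G) U') := fun U' => by
      have e1 := (h.cut (U'.comap U.mkQ)).rk_cut_img U.mkQ
      have e2 := (h.cut (U'.comap U.mkQ)).mm_add U.mkQ
      have e3 : U'.comap U.mkQ ⊓ U = U := inf_eq_right.2 (Submodule.le_comap_mkQ U U')
      rw [Submodule.ker_mkQ, cut_cut, img_cut_comap, e3] at e1 e2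
      exact ⟨e1, e2⟩
    have r1' : (rk G : ℚ) = rk (cut G U) + rk (img U.mkQ G) := by exact_mod_cast r1
    have m1' : (mm G : ℚ) = mm (cut G U) + mm (img U.mkQ G) := by exact_mod_cast m1
    have t1' : (ss G : ℚ) = ss (cut G U) + ss (img U.mkQ G) := by exact_mod_cast t1
    have i2 := ih (V ⧸ U) (img U.mkQ G) hQ (by omega) (fun U' => by
      obtain ⟨e1, e2⟩ := key U'
      have e3 := hmaxQ (U'.comap U.mkQ)
      rw [e1, e2] at e3
      push_cast at e3
      have e4 := mul_le_mul_of_nonneg_right s2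
        (Nat.cast_nonneg (α := ℚ) (rk (cut (img U.mkQ G) U')))
      refine le_of_mul_le_mul_left ?_ hr'
      nlinarith) (fun U' => by
      obtain ⟨e1, e2⟩ := key U'
      have e3 := ha (U'.comap U.mkQ)
      rw [e1, e2, r1', m1'] at e3
      push_cast at e3
      linarith)
    rw [r1', m1', t1']
    linarith

end Crest.Agent.R169
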