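/-
R169/CMA: depth and associated primes.
-/
import Crest.Agent.R169.Defs

set_option autoImplicit false
set_option linter.unusedSectionVars false
set_option linter.unusedVariables false
set_option linter.unusedSimpArgs false

noncomputable section

namespace Crest.Agent.R169

open MvPolynomial Filter
open scoped Pointwise


open RingTheory.Sequence IsLocalRing

variable {R : Type} [CommRing R] [IsLocalRing R] [IsNoetherianRing R]

/-- Bruns-Herzog 1.2.13.  Recipe: induction on `rs`, for all `M`, `p`.  For `x :: rs`:
`N = {m | p m = 0} ≠ 0` is not contained in `x M` (else `N = x N` since `x` is regular, Nakayama).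
For `m ∈ N`, `m ∉ x M` there is an associated prime `q` of `QuotSMulTop x M` containing the
annihilator of the class of `m` (`exists_le_isAssociatedPrime_of_isNoetherianRing`), so `p ≤ q`,
`x ∈ q`, `x ∉ p`; `ringKrullDim_succ_le_of_surjective` for `R ⧸ p → R ⧸ q`. -/
theorem length_le_dim (rs : List R) : ∀ (M : Type) [AddCommGroup M] [Module R M] [Module.Finite R M],
    (∀ r ∈ rs, r ∈ maximalIdeal R) → IsWeaklyRegular M rs → ∀ p : Ideal R, IsAssociatedPrime p M →
      (rs.length : WithBot ℕ∞) ≤ ringKrullDim (R ⧸ p) := by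
  induction rs with
  | nil =>
    intro M _ _ _ _ _ p hp
    have := hp.isPrime
    simpa using ringKrullDim_nonneg_of_nontrivial (R := R ⧸ p)
  | cons x rs ih =>
    intro M _ _ _ hm h p hp
    obtain ⟨hx, hrs⟩ := (isWeaklyRegular_cons_iff M x rs).1 h
    obtain ⟨hpp, m₀, hm₀⟩ := isAssociatedPrime_iff.1 hp
    have hm0 : m₀ ≠ 0 := by
      rintro rfl
      apply hpp.ne_top
      simp [hm₀]
    have hpm : ∀ r, r ∈ p ↔ r • m₀ = 0 := fun r => by
      rw [hm₀, Submodule.mem_colon_singleton, Submodule.mem_bot]
    have hxp : x ∉ p := fun h => hm0 (hx.right_eq_zero_of_smul ((hpm x).1 h))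
    let N : Submodule R M :=
      { carrier := {m | ∀ r ∈ p, r • m = 0}
        zero_mem' := fun r _ => smul_zero r
        add_mem' := fun {a b} ha hb r hr => by rw [smul_add, ha r hr, hb r hr, add_zero]
        smul_mem' := fun c a ha r hr => by rw [smul_comm, ha r hr, smul_zero] }
    have hN : ∃ m ∈ N, m ∉ x • (⊤ : Submodule R M) := by
      by_contra hcon
      push Not at hcon
      have hle : N ≤ Ideal.span {x} • N := by
        intro m hmN
        obtain ⟨m', -, rfl⟩ := (Submodule.mem_smul_pointwise_iff_exists _ _ _).1 (hcon m hmN)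
        refine Submodule.smul_mem_smul (Ideal.mem_span_singleton_self x) fun r hr => ?_
        apply hx.right_eq_zero_of_smul
        rw [smul_comm]
        exact hmN r hr
      have hbot := Submodule.eq_bot_of_le_smul_of_le_jacobson_bot _ N (IsNoetherian.noetherian _)
        hle (by
          rw [Ideal.span_singleton_le_iff_mem, jacobson_eq_maximalIdeal ⊥ bot_ne_top]
          exact hm x List.mem_cons_self)
      have : m₀ ∈ N := fun r hr => (hpm r).1 hr
      rw [hbot] at this
      exact hm0 this
    obtain ⟨m, hmN, hmx⟩ := hN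
    have hne : (Submodule.Quotient.mk m : QuotSMulTop x M) ≠ 0 := fun h =>
      hmx ((Submodule.Quotient.mk_eq_zero _).1 h)
    obtain ⟨q, hq, hle⟩ := exists_le_isAssociatedPrime_of_isNoetherianRing R _ hne
    have hpq : p ≤ q := fun r hr => hle (by
      rw [Submodule.mem_colon_singleton, Submodule.mem_bot, ← Submodule.Quotient.mk_smul,
        hmN r hr, Submodule.Quotient.mk_zero])
    have hxq : x ∈ q := hle (by
      rw [Submodule.mem_colon_singleton, Submodule.mem_bot, ← Submodule.Quotient.mk_smul,
        Submodule.Quotient.mk_eq_zero]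
      exact Submodule.smul_mem_pointwise_smul _ _ _ Submodule.mem_top)
    have h1 := ih (QuotSMulTop x M) (fun r hr => hm r (List.mem_cons_of_mem _ hr)) hrs q hq
    have h2 := ringKrullDim_succ_le_of_surjective (Ideal.Quotient.factor hpq)
      (Ideal.Quotient.factor_surjective hpq) (r := Ideal.Quotient.mk p x)
      (mem_nonZeroDivisors_of_ne_zero fun h => hxp (Ideal.Quotient.eq_zero_iff_mem.1 h))
      (by rw [Ideal.Quotient.factor_mk]; exact Ideal.Quotient.eq_zero_iff_mem.2 hxq)
    rw [List.length_cons, Nat.cast_add, Nat.cast_one]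
    exact le_trans (by gcongr) h2

/-- A module of depth `dim R` over a domain is torsion-free. -/
theorem isSMulRegular_of_depth [IsDomain R] {M : Type} [AddCommGroup M] [Module R M]
    [Module.Finite R M] {rs : List R} (hm : ∀ r ∈ rs, r ∈ maximalIdeal R)
    (h : IsWeaklyRegular M rs) (hd : ringKrullDim R = rs.length) {r : R} (hr : r ≠ 0) :
    IsSMulRegular M r := by
  refine IsSMulRegular.of_right_eq_zero_of_smul fun x hx => ?_
  by_contra hx0
  obtain ⟨P, hP, hle⟩ := exists_le_isAssociatedPrime_of_isNoetherianRing R x hx0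
  have hrP : r ∈ P := hle (by rwa [Submodule.mem_colon_singleton, Submodule.mem_bot])
  have h1 := length_le_dim rs M hm h P hP
  have h2 := ringKrullDim_succ_le_of_surjective (Ideal.Quotient.mk P) Ideal.Quotient.mk_surjective
    (mem_nonZeroDivisors_of_ne_zero hr) (Ideal.Quotient.eq_zero_iff_mem.2 hrP)
  have h3 : ((rs.length : WithBot ℕ∞) + 1) ≤ rs.length := by
    rw [hd] at h2
    exact le_trans (by gcongr) h2
  norm_cast at h3
  omega

/-- A finite torsion-free module over a domain embeds in a finite free module.  Recipe: a maximal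
linearly independent family `b` in `M` (`exists_maximal_linearIndepOn`, or
`Module.Finite.exists_fin` + `LinearIndependent`); some `c ≠ 0` maps `M` into the span of `b`. -/
theorem exists_embedding {A M : Type} [CommRing A] [IsDomain A] [AddCommGroup M] [Module A M]
    [Module.Finite A M] (h : ∀ r : A, r ≠ 0 → IsSMulRegular M r) :
    ∃ (n : ℕ) (e : M →ₗ[A] (Fin n → A)), Function.Injective e := by
  classical
  obtain ⟨n, s, hs⟩ := Module.Finite.exists_fin (R := A) (M := M)
  obtain ⟨I, hI, hI'⟩ := exists_maximal_linearIndepOn A s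
  have indepI : LinearIndependent A (s ∘ (fun x => x) : I → M) := hI
  let N := Submodule.span A (Set.range (s ∘ (fun x => x) : I → M))
  let b : Module.Basis I A N := Module.Basis.span indepI
  have exists_a : ∀ i, ∃ a : A, a ≠ 0 ∧ a • s i ∈ N := by
    intro i
    by_cases hi : i ∈ I
    · exact ⟨1, one_ne_zero, by
        rw [one_smul]; exact Submodule.subset_span (Set.mem_range_self (⟨i, hi⟩ : I))⟩
    · simpa [Set.image_eq_range s I] using! hI' i hi
  choose a ha ha' using exists_a
  have hA : ∏ i, a i ≠ 0 := Finset.prod_ne_zero_iff.2 fun i _ => ha i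
  let φ : M →ₗ[A] M := LinearMap.lsmul A M (∏ i, a i)
  have hφ : ∀ m, φ m ∈ N := by
    have : LinearMap.range φ ≤ N := by
      rw [LinearMap.range_eq_map, ← hs, Submodule.map_span_le]
      rintro _ ⟨i, rfl⟩
      have e : φ (s i) = (∏ j ∈ {i}ᶜ, a j) • a i • s i := by
        rw [← mul_smul, ← Fintype.prod_eq_prod_compl_mul i]; rfl
      rw [e]
      exact N.smul_mem _ (ha' i)
    exact fun m => this ⟨m, rfl⟩
  let b' := b.reindex (Fintype.equivFin I)
  refine ⟨_, b'.equivFun.toLinearMap ∘ₗ φ.codRestrict N hφ, ?_⟩
  refine b'.equivFun.injective.comp fun x y hxy => ?_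
  exact h _ hA (congrArg Subtype.val hxy)

end Crest.Agent.R169
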