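/-
R169/CM: every system of parameters of a Cohen-Macaulay module is regular.
-/
import Crest.Agent.R169.CMA

set_option autoImplicit false
set_option linter.unusedSectionVars false
set_option linter.unusedVariables false
set_option linter.unusedSimpArgs false

noncomputable section

namespace Crest.Agent.R169

open MvPolynomial Filter
open scoped Pointwise


open RingTheory.Sequence IsLocalRing

variable {R : Type} [CommRing R] [IsLocalRing R] [IsNoetherianRing R]

/-- The depth drops by one.  Recipe: `ModuleCat.exists_isRegular_tfae` (conditions 2 and 4) for `M`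
and for `QuotSMulTop y M`, and the long exact sequence of `ModuleCat.smulShortComplex`
(`IsSMulRegular.smulShortComplex_shortExact`, `Ext.covariant_sequence_exact₃'`); see the proof of
`ModuleCat.exists_isRegular_of_exists_subsingleton_ext` in `Mathlib/RingTheory/Depth/Rees.lean`. -/
theorem exists_isRegular_quot {M : Type} [AddCommGroup M] [Module R M] [Module.Finite R M]
    [Nontrivial M] {rs : List R} {n : ℕ} (hl : rs.length = n + 1)
    (hm : ∀ r ∈ rs, r ∈ maximalIdeal R) (h : IsRegular M rs) {y : R} (hy : y ∈ maximalIdeal R)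
    (hreg : IsSMulRegular M y) : ∃ rs' : List R, rs'.length = n ∧ (∀ r ∈ rs', r ∈ maximalIdeal R) ∧
      IsRegular (QuotSMulTop y M) rs' := by
  have lt : ∀ (N : Type) [AddCommGroup N] [Module R N] [Module.Finite R N] [Nontrivial N],
      maximalIdeal R • (⊤ : Submodule R N) < ⊤ := fun N _ _ _ _ =>
    (Submodule.top_ne_ideal_smul_of_le_jacobson_annihilator
      (maximalIdeal_le_jacobson _)).symm.lt_top
  have hs : Module.support R (ModuleCat.of R (R ⧸ maximalIdeal R)) =
      PrimeSpectrum.zeroLocus (maximalIdeal R) := by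
    rw [Module.support_eq_zeroLocus, Ideal.annihilator_quotient]
  have h1 := ModuleCat.subsingleton_ext_of_exists_isRegular (maximalIdeal R)
    (ModuleCat.of R (R ⧸ maximalIdeal R)) hs.subset (ModuleCat.of R M) (lt M) rs hm h
  have := nontrivial_quotSMulTop_of_mem_maximalIdeal M hy
  refine ModuleCat.exists_isRegular_of_exists_subsingleton_ext (maximalIdeal R) n
    (ModuleCat.of R (QuotSMulTop y M)) (lt _) (ModuleCat.of R (R ⧸ maximalIdeal R)) hs
    fun i hi => ?_
  have zero1 := AddCommGrpCat.isZero_of_iff_subsingleton.mpr (h1 i (by omega))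
  have zero2 := AddCommGrpCat.isZero_of_iff_subsingleton.mpr (h1 (i + 1) (by omega))
  exact AddCommGrpCat.subsingleton_of_isZero <|
    CategoryTheory.ShortComplex.Exact.isZero_of_both_zeros
      ((CategoryTheory.Abelian.Ext.covariant_sequence_exact₃' _
        (IsSMulRegular.smulShortComplex_shortExact (M := ModuleCat.of R M) hreg)) i (i + 1) rfl)
      (zero1.eq_zero_of_src _) (zero2.eq_zero_of_tgt _)

theorem dim_quot_le {p : Ideal R} (hp : p.IsPrime) (ys : List R) (hm : ∀ y ∈ ys, y ∈ maximalIdeal R)
    (h : ∀ q : Ideal R, q.IsPrime → p ≤ q → (∀ y ∈ ys, y ∈ q) → q = maximalIdeal R) :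
    ringKrullDim (R ⧸ p) ≤ ys.length := by
  classical
  have : IsLocalRing (R ⧸ p) := IsLocalRing.of_surjective' _ Ideal.Quotient.mk_surjective
  have hl : IsLocalHom (Ideal.Quotient.mk p) := IsLocalHom.of_surjective _ Ideal.Quotient.mk_surjective
  have h1 : maximalIdeal (R ⧸ p) ∈
      (Ideal.span ((ys.toFinset.image (Ideal.Quotient.mk p) : Finset _) : Set (R ⧸ p))).minimalPrimes := by
    refine ⟨⟨inferInstance, Ideal.span_le.mpr fun x hx => ?_⟩, fun q hq _ => ?_⟩
    · obtain ⟨y, hy, rfl⟩ := Finset.mem_image.mp hx
      exact map_nonunit _ _ (hm y (List.mem_toFinset.mp hy))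
    · have := hq.1
      have e := h (q.comap (Ideal.Quotient.mk p)) inferInstance
        (fun x hx => by rw [Ideal.mem_comap, Ideal.Quotient.eq_zero_iff_mem.mpr hx]; exact q.zero_mem)
        fun y hy => hq.2 (Ideal.subset_span (Finset.mem_coe.mpr
          (Finset.mem_image_of_mem _ (List.mem_toFinset.mpr hy))))
      intro x hx
      obtain ⟨x, rfl⟩ := Ideal.Quotient.mk_surjective x
      have : x ∈ maximalIdeal R := fun hu => hx (hu.map _)
      rwa [← e] at this
  rw [← maximalIdeal_height_eq_ringKrullDim]
  have h2 := Ideal.height_le_card_of_mem_minimalPrimes_span_finset h1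
  have h3 : (ys.toFinset.image (Ideal.Quotient.mk p)).card ≤ ys.length :=
    Finset.card_image_le.trans ys.toFinset_card_le
  exact_mod_cast h2.trans (Nat.cast_le.mpr h3)

/-- Recipe: induction on `ys`, for all `M`, `rs`.  If `y` is a zero divisor it lies in an associated
prime `p` (`biUnion_associatedPrimes_eq_compl_regular`), `p ≥ Ann M`; `length_le_dim` gives
`dim R/p ≥ n + 1`, while the only prime of `R/p` containing the `n` remaining elements is the maximal
ideal, so `dim R/p ≤ n` (`ringKrullDim_le_ringKrullDim_add_card`, or Krull's height theorem). -/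
theorem isWeaklyRegular_of_params (ys : List R) : ∀ (M : Type) [AddCommGroup M] [Module R M]
    [Module.Finite R M] [Nontrivial M] (rs : List R), rs.length = ys.length →
    (∀ r ∈ rs, r ∈ maximalIdeal R) → IsRegular M rs → (∀ y ∈ ys, y ∈ maximalIdeal R) →
    (∀ p : Ideal R, p.IsPrime → Module.annihilator R M ≤ p → (∀ y ∈ ys, y ∈ p) →
      p = maximalIdeal R) → IsWeaklyRegular M ys := by
  induction ys with
  | nil => intros; exact IsWeaklyRegular.nil R _
  | cons y ys ih =>
    intro M _ _ _ _ rs hl hm h hy hp
    have hreg : IsSMulRegular M y := by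
      by_contra hc
      have h1 : y ∈ ⋃ p ∈ associatedPrimes R M, (p : Set R) := by
        rw [biUnion_associatedPrimes_eq_compl_regular]; exact hc
      obtain ⟨p, hp1, hp2⟩ := Set.mem_iUnion₂.mp h1
      have h2 := length_le_dim rs M hm h.1 p hp1
      have h3 := dim_quot_le hp1.isPrime ys (fun z hz => hy z (by simp [hz])) fun q hq hpq hys =>
        hp q hq (le_trans (Submodule.annihilator_top.symm.trans_le hp1.annihilator_le) hpq) (by
          simpa using ⟨hpq hp2, hys⟩)
      have h4 := h2.trans h3
      rw [hl, List.length_cons] at h4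
      have : ys.length + 1 ≤ ys.length := by exact_mod_cast h4
      omega
    have := nontrivial_quotSMulTop_of_mem_maximalIdeal M (hy y (by simp))
    obtain ⟨rs', h1, h2, h3⟩ := exists_isRegular_quot hl hm h (hy y (by simp)) hreg
    refine IsWeaklyRegular.cons hreg (ih _ rs' h1 h2 h3 (fun z hz => hy z (by simp [hz]))
      fun p hp1 hp2 hp3 => hp p hp1 (le_trans ?_ hp2) ?_)
    · exact LinearMap.annihilator_le_of_surjective _ (Submodule.mkQ_surjective _)
    · simpa using ⟨hp2 (QuotSMulTop.mem_annihilator M y), hp3⟩

end Crest.Agent.R169
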