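/-
R169/PosA: positivity of the Hilbert polynomial of the lattice of leading coefficients (part 1 of 4)
-/
import Crest.Agent.R169.RR

set_option autoImplicit false
set_option linter.unusedSectionVars false
set_option linter.unusedVariables false
set_option linter.unusedSimpArgs false

noncomputable section

namespace Crest.Agent.R169

open MvPolynomial Filter
open scoped Pointwise


section kos
variable {k N : Type} [Field k] [AddCommGroup N] [Module k N]

/-- Codimension. -/
abbrev cod (X : Submodule k N) : ℕ := Module.finrank k (N ⧸ X)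

theorem cod_of_le {T R : Submodule k N} (h : T ≤ R) [FiniteDimensional k (N ⧸ R)]
    [FiniteDimensional k (R.map T.mkQ)] :
    FiniteDimensional k (N ⧸ T) ∧ cod T = cod R + Module.finrank k (R.map T.mkQ) := by
  have e := Submodule.quotientQuotientEquivQuotient T R h
  have : FiniteDimensional k ((N ⧸ T) ⧸ R.map T.mkQ) := Module.Finite.equiv e.symm
  have hf : FiniteDimensional k (N ⧸ T) := Module.Finite.of_submodule_quotient (R.map T.mkQ)
  refine ⟨hf, ?_⟩
  rw [cod, cod, ← e.finrank_eq, Submodule.finrank_quotient_add_finrank]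

theorem cod_anti {T R : Submodule k N} (h : T ≤ R) [FiniteDimensional k (N ⧸ T)] :
    FiniteDimensional k (N ⧸ R) ∧ cod R ≤ cod T :=
  ⟨Module.Finite.of_surjective _ (Submodule.factor_surjective h),
    LinearMap.finrank_le_finrank_of_surjective (Submodule.factor_surjective h)⟩

/-- The second map of the Koszul complex. -/
def kosθ (a b : Module.End k N) (X : Submodule k N) :
    (N ⧸ X) × (N ⧸ X) →ₗ[k] N ⧸ (X.map a ⊔ X.map b) :=
  (X.mapQ (X.map a ⊔ X.map b) a fun x hx => Submodule.mem_sup_left ⟨x, hx, rfl⟩).coprod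
    (X.mapQ (X.map a ⊔ X.map b) b fun x hx => Submodule.mem_sup_right ⟨x, hx, rfl⟩)

theorem range_kosθ (a b : Module.End k N) (X : Submodule k N) : LinearMap.range (kosθ a b X) =
    (LinearMap.range a ⊔ LinearMap.range b).map (X.map a ⊔ X.map b).mkQ := by
  rw [kosθ, LinearMap.range_coprod, Submodule.map_sup, ← LinearMap.range_comp,
    ← LinearMap.range_comp, Submodule.range_mapQ, Submodule.range_mapQ, ← LinearMap.range_comp,
    ← LinearMap.range_comp]

theorem cod_kos (a b : Module.End k N) (X : Submodule k N) [FiniteDimensional k (N ⧸ X)]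
    [FiniteDimensional k (N ⧸ (LinearMap.range a ⊔ LinearMap.range b))] :
    FiniteDimensional k (N ⧸ (X.map a ⊔ X.map b)) ∧
      cod (X.map a ⊔ X.map b) + Module.finrank k (LinearMap.ker (kosθ a b X)) =
        cod (LinearMap.range a ⊔ LinearMap.range b) + 2 * cod X := by
  have : FiniteDimensional k
      ((LinearMap.range a ⊔ LinearMap.range b).map (X.map a ⊔ X.map b).mkQ) := by
    rw [← range_kosθ]; infer_instance
  obtain ⟨h1, h2⟩ := cod_of_le (T := X.map a ⊔ X.map b)
    (sup_le_sup LinearMap.map_le_range LinearMap.map_le_range)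
  refine ⟨h1, ?_⟩
  have h3 := (kosθ a b X).finrank_range_add_finrank_ker
  rw [Module.finrank_prod, range_kosθ] at h3
  simp only [cod] at *
  omega

/-- `N / (a X + b X)` is an extension of `N / (a N + b N)` by a quotient of `(N / X)²`. -/
theorem cod_le (a b : Module.End k N) (X Y : Submodule k N) [FiniteDimensional k (N ⧸ X)]
    [FiniteDimensional k (N ⧸ (LinearMap.range a ⊔ LinearMap.range b))]
    (h : X.map a ⊔ X.map b ≤ Y) :
    cod Y ≤ cod (LinearMap.range a ⊔ LinearMap.range b) + 2 * cod X := by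
  obtain ⟨h1, h2⟩ := cod_kos a b X
  have := (cod_anti h).2
  omega

/-- The Koszul complex: the kernel of `(N / X)² → (a N + b N) / (a X + b X)` is a quotient of
`N / X₀`. -/
theorem cod_koszul (a b : Module.End k N) (hab : ∀ x, a (b x) = b (a x))
    (ha : Function.Injective a) (hb : ∀ x, b x ∈ LinearMap.range a → x ∈ LinearMap.range a)
    (X0 X : Submodule k N) [FiniteDimensional k (N ⧸ X0)] [FiniteDimensional k (N ⧸ X)]
    [FiniteDimensional k (N ⧸ (LinearMap.range a ⊔ LinearMap.range b))]
    (h0 : X0.map a ⊔ X0.map b ≤ X) :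
    cod (LinearMap.range a ⊔ LinearMap.range b) + 2 * cod X ≤ cod (X.map a ⊔ X.map b) + cod X0 := by
  obtain ⟨h1, h2⟩ := cod_kos a b X
  let κ : (N ⧸ X0) →ₗ[k] (N ⧸ X) × (N ⧸ X) :=
    (-X0.mapQ X b fun x hx => h0 (Submodule.mem_sup_right ⟨x, hx, rfl⟩)).prod
      (X0.mapQ X a fun x hx => h0 (Submodule.mem_sup_left ⟨x, hx, rfl⟩))
  have h3 : LinearMap.ker (kosθ a b X) ≤ LinearMap.range κ := by
    rintro ⟨x, y⟩ hxy
    obtain ⟨x, rfl⟩ := X.mkQ_surjective x
    obtain ⟨y, rfl⟩ := X.mkQ_surjective y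
    have h4 : a x + b y ∈ X.map a ⊔ X.map b := by
      rw [← Submodule.Quotient.mk_eq_zero, Submodule.Quotient.mk_add]
      exact hxy
    obtain ⟨_, ⟨x', hx', rfl⟩, _, ⟨y', hy', rfl⟩, e⟩ := Submodule.mem_sup.mp h4
    obtain ⟨n, hn⟩ := hb (y - y') ⟨x' - x, by
      rw [map_sub, map_sub, sub_eq_sub_iff_add_eq_add, e, add_comm]⟩
    have h5 : b n = x' - x := ha (by
      rw [hab, hn, map_sub, map_sub, sub_eq_sub_iff_add_eq_add, e, add_comm])
    refine ⟨X0.mkQ n, Prod.ext ?_ ?_⟩
    · change -(X.mkQ (b n)) = X.mkQ x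
      rw [h5, map_sub, show X.mkQ x' = 0 from (Submodule.Quotient.mk_eq_zero _).mpr hx']
      simp
    · change X.mkQ (a n) = X.mkQ y
      rw [hn, map_sub, show X.mkQ y' = 0 from (Submodule.Quotient.mk_eq_zero _).mpr hy', sub_zero]
  have h6 := (Submodule.finrank_mono h3).trans κ.finrank_range_le
  simp only [cod] at *
  omega

theorem cod_mul (a b c : Module.End k N) (hab : ∀ x, a (b x) = b (a x))
    [FiniteDimensional k (N ⧸ (LinearMap.range a ⊔ LinearMap.range b))]
    [FiniteDimensional k (N ⧸ (LinearMap.range c ⊔ LinearMap.range b))] :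
    FiniteDimensional k (N ⧸ (LinearMap.range (a * c) ⊔ LinearMap.range b)) ∧
      cod (LinearMap.range (a * c) ⊔ LinearMap.range b) ≤
        cod (LinearMap.range a ⊔ LinearMap.range b) +
          cod (LinearMap.range c ⊔ LinearMap.range b) := by
  let θ := (LinearMap.range c ⊔ LinearMap.range b).mapQ
    (LinearMap.range (a * c) ⊔ LinearMap.range b) a (sup_le
      (by rintro _ ⟨x, rfl⟩; exact Submodule.mem_sup_left ⟨x, rfl⟩)
      (by rintro _ ⟨x, rfl⟩; exact Submodule.mem_sup_right ⟨a x, (hab x).symm⟩))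
  have e : LinearMap.range θ = (LinearMap.range a ⊔ LinearMap.range b).map
      (LinearMap.range (a * c) ⊔ LinearMap.range b).mkQ := by
    rw [Submodule.range_mapQ, Submodule.map_sup, eq_comm, sup_eq_left]
    rintro _ ⟨y, hy, rfl⟩
    rw [show Submodule.mkQ _ y = 0 from
      (Submodule.Quotient.mk_eq_zero _).mpr (Submodule.mem_sup_right hy)]
    exact Submodule.zero_mem _
  have : FiniteDimensional k ((LinearMap.range a ⊔ LinearMap.range b).map
      (LinearMap.range (a * c) ⊔ LinearMap.range b).mkQ) := by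
    rw [← e]; infer_instance
  obtain ⟨h1, h2⟩ := cod_of_le (T := LinearMap.range (a * c) ⊔ LinearMap.range b)
    (R := LinearMap.range a ⊔ LinearMap.range b)
    (sup_le_sup_right (LinearMap.range_comp_le_range c a) _)
  refine ⟨h1, ?_⟩
  rw [h2, ← e]
  exact Nat.add_le_add_left θ.finrank_range_le _

theorem cod_pow_left (a b : Module.End k N) (hab : ∀ x, a (b x) = b (a x))
    [FiniteDimensional k (N ⧸ (LinearMap.range a ⊔ LinearMap.range b))] (s : ℕ) :
    FiniteDimensional k (N ⧸ (LinearMap.range (a ^ s) ⊔ LinearMap.range b)) ∧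
      cod (LinearMap.range (a ^ s) ⊔ LinearMap.range b) ≤
        s * cod (LinearMap.range a ⊔ LinearMap.range b) := by
  induction s with
  | zero =>
    have : LinearMap.range (a ^ 0) ⊔ LinearMap.range b = ⊤ := by
      rw [pow_zero, Module.End.one_eq_id, LinearMap.range_id, top_sup_eq]
    rw [this]
    exact ⟨inferInstance, by simp [cod, Module.finrank_zero_of_subsingleton]⟩
  | succ s ih =>
    obtain ⟨h1, h2⟩ := ih
    obtain ⟨h3, h4⟩ := cod_mul a b (a ^ s) hab
    rw [pow_succ']
    exact ⟨h3, by nlinarith⟩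

theorem cod_pow (a b : Module.End k N) (hab : ∀ x, a (b x) = b (a x))
    [FiniteDimensional k (N ⧸ (LinearMap.range a ⊔ LinearMap.range b))] (s : ℕ) :
    FiniteDimensional k (N ⧸ (LinearMap.range (a ^ s) ⊔ LinearMap.range (b ^ s))) ∧
      cod (LinearMap.range (a ^ s) ⊔ LinearMap.range (b ^ s)) ≤
        s ^ 2 * cod (LinearMap.range a ⊔ LinearMap.range b) := by
  obtain ⟨h1, h2⟩ := cod_pow_left a b hab s
  have hc : Commute b a := LinearMap.ext fun x => (hab x).symm
  rw [sup_comm] at h1 h2
  obtain ⟨h3, h4⟩ := cod_pow_left b (a ^ s) (fun x => LinearMap.congr_fun (hc.pow_right s) x) s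
  rw [sup_comm] at h3 h4
  refine ⟨h3, h4.trans ?_⟩
  rw [sq, mul_assoc]
  exact Nat.mul_le_mul_left _ h2

end kos

end Crest.Agent.R169
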