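/-
R169/PosB: positivity of the Hilbert polynomial of the lattice of leading coefficients (part 2 of 4)
-/
import Crest.Agent.R169.PosA

set_option autoImplicit false
set_option linter.unusedSectionVars false
set_option linter.unusedVariables false
set_option linter.unusedSimpArgs false

noncomputable section

namespace Crest.Agent.R169

open MvPolynomial Filter
open scoped Pointwise


variable {k M V : Type} [Field k] [AddCommGroup M] [Module k M] [AddCommGroup V] [Module k V]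
  [Module (KK k) V] [IsScalarTower k (KK k) V] {Z U W : Module.End k M}

theorem mem_ordGe {ι : M →ₗ[k] (ℕ → V)} {t : ℕ} {x : M} : x ∈ ordGe ι t ↔ ∀ n < t, ι x n = 0 := by
  simp [ordGe]

theorem mem_lead {ι : M →ₗ[k] (ℕ → V)} {t : ℕ} {y : V} :
    y ∈ lead ι t ↔ ∃ x, (∀ n < t, ι x n = 0) ∧ ι x t = y := by
  simp [lead, mem_ordGe]

theorem ordGe_anti (ι : M →ₗ[k] (ℕ → V)) {s t : ℕ} (h : s ≤ t) : ordGe ι t ≤ ordGe ι s :=
  fun _ hx => mem_ordGe.mpr fun n hn => mem_ordGe.mp hx n (hn.trans_le h)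

theorem nonempty_equiv_map {A B : Type} [AddCommGroup A] [Module k A] [AddCommGroup B] [Module k B]
    (S : Submodule k M) (f : M →ₗ[k] A) (g : M →ₗ[k] B) (h : ∀ x ∈ S, f x = 0 ↔ g x = 0) :
    Nonempty (S.map f ≃ₗ[k] S.map g) := by
  rw [← LinearMap.range_domRestrict, ← LinearMap.range_domRestrict]
  exact ⟨(f.domRestrict S).quotKerEquivRange.symm ≪≫ₗ
    Submodule.quotEquivOfEq _ _ (by ext x; exact h x x.2) ≪≫ₗ (g.domRestrict S).quotKerEquivRange⟩

theorem up_of_lt {t n : ℕ} (a : ℕ → V) (h : n < t) : up t a n = 0 := if_neg (by omega)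

theorem up_add (t n : ℕ) (a : ℕ → V) : up t a (n + t) = a n := by simp [up]

namespace Datum
variable (D : Datum V Z U W)

theorem isLat : IsLat D.lat := by
  obtain ⟨H, hH, hb⟩ := D.bd
  refine hH.sub (gen_stable _) (gen_le hH.stable ?_)
  rintro ⟨y, γ⟩ ⟨β, t, hy, rfl⟩
  obtain ⟨x, -, rfl⟩ := mem_lead.mp hy
  exact hb β x t

/-- On the ray the lattice consists of the leading coefficients (`act`, `CC_eq_bot`). -/
theorem lat_ray (β : Ex) (t : ℕ) : D.lat (t • ζ + dv β) = lead (D.ι β) t := by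
  refine le_antisymm (Submodule.span_le.mpr ?_) fun y hy => mem_gen ⟨β, t, hy, add_comm _ _⟩
  rintro _ ⟨⟨y, γ⟩, ⟨β0, t0, hy, rfl⟩, f, hf, rfl⟩
  obtain ⟨x, hx, rfl⟩ := mem_lead.mp hy
  rcases lt_or_ge t t0 with h | h
  · rw [CC_eq_bot (by
      simp only [deg_sub, deg_add, deg_nsmul, deg_dv, deg_ζ]; omega), Submodule.mem_bot] at hf
    rw [hf, zero_smul]
    exact Submodule.zero_mem _
  obtain ⟨t', rfl⟩ := Nat.exists_eq_add_of_le h
  obtain ⟨y, hy⟩ := D.act (β - β0) t' f (by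
    convert hf using 2; simp only [map_sub, add_smul]; abel) x
  have e := hy β0
  rw [add_sub_cancel] at e
  refine mem_lead.mpr ⟨y, fun n hn => ?_, by rw [e, up_add]; rfl⟩
  rw [e]
  rcases lt_or_ge n t' with h' | h'
  · exact up_of_lt _ h'
  · obtain ⟨m, rfl⟩ := Nat.exists_eq_add_of_le' h'
    rw [up_add, Pi.smul_apply, hx m (by omega), smul_zero]

theorem rk_pos [Nontrivial M] : 1 ≤ rk D.lat := by
  classical
  by_contra h
  have h0 := D.isLat.eq_bot_of_rk (by omega)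
  obtain ⟨x, hx⟩ := exists_ne (0 : M)
  have hex : ∃ t, D.ι 0 x t ≠ 0 := by
    by_contra hc
    push Not at hc
    exact hx (D.inj 0 (by rw [map_zero]; exact funext hc))
  have h1 : D.ι 0 x (Nat.find hex) ∈ lead (D.ι 0) (Nat.find hex) :=
    mem_lead.mpr ⟨x, fun n hn => by simpa using Nat.find_min hex hn, rfl⟩
  rw [← D.lat_ray, h0] at h1
  exact Nat.find_spec hex h1

theorem fin_lead (β : Ex) (t : ℕ) : FiniteDimensional k (lead (D.ι β) t) :=
  D.lat_ray β t ▸ D.isLat.fin _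

theorem cod_ordGe_aux (β : Ex) (t : ℕ) [FiniteDimensional k (M ⧸ ordGe (D.ι β) t)] :
    FiniteDimensional k (M ⧸ ordGe (D.ι β) (t + 1)) ∧
      cod (ordGe (D.ι β) (t + 1)) = cod (ordGe (D.ι β) t) + Module.finrank k (lead (D.ι β) t) := by
  obtain ⟨e⟩ := nonempty_equiv_map (ordGe (D.ι β) t)
    ((LinearMap.proj t : (ℕ → V) →ₗ[k] V) ∘ₗ D.ι β) (ordGe (D.ι β) (t + 1)).mkQ fun x hx => by
      rw [Submodule.mkQ_apply, Submodule.Quotient.mk_eq_zero, mem_ordGe]
      refine ⟨fun h n hn => ?_, fun h => h t (by omega)⟩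
      rcases Nat.lt_succ_iff_lt_or_eq.mp hn with h' | rfl
      · exact mem_ordGe.mp hx n h'
      · exact h
  have : Module.Finite k (lead (D.ι β) t) := D.fin_lead β t
  have h1 : FiniteDimensional k ((ordGe (D.ι β) t).map (ordGe (D.ι β) (t + 1)).mkQ) :=
    @Module.Finite.equiv k (lead (D.ι β) t) _ _ _ _ _ _ this e
  rw [show Module.finrank k (lead (D.ι β) t) = _ from e.finrank_eq]
  exact cod_of_le (ordGe_anti _ t.le_succ)

theorem fin_ordGe (β : Ex) (t : ℕ) : FiniteDimensional k (M ⧸ ordGe (D.ι β) t) := by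
  induction t with
  | zero =>
    have : ordGe (D.ι β) 0 = ⊤ := by ext x; simp [mem_ordGe]
    rw [this]; infer_instance
  | succ t ih => exact (D.cod_ordGe_aux β t).1

theorem Z_mem_ordGe (β : Ex) {t : ℕ} {x : M} :
    Z x ∈ ordGe (D.ι β) (t + 1) ↔ x ∈ ordGe (D.ι β) t := by
  rw [mem_ordGe, mem_ordGe, D.hZ]
  refine ⟨fun h n hn => by simpa [up_add] using h (n + 1) (by omega), fun h n hn => ?_⟩
  rcases n with _ | n
  · exact up_of_lt _ one_pos
  · rw [up_add]; exact h n (by omega)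

/-- `dim M / (Φ (t+1) + Z M) = dim lead t`: `Z` is injective, `Z x ∈ Φ (t+1) ↔ x ∈ Φ t`, and
`Φ t / Φ (t+1) ≅ lead t`. -/
theorem cod_eq (β : Ex) (t : ℕ) :
    FiniteDimensional k (M ⧸ (ordGe (D.ι β) (t + 1) ⊔ LinearMap.range Z)) ∧
      cod (ordGe (D.ι β) (t + 1) ⊔ LinearMap.range Z) = Module.finrank k (lead (D.ι β) t) := by
  have := D.fin_ordGe β t
  obtain ⟨h1, h2⟩ := D.cod_ordGe_aux β t
  obtain ⟨h3, -⟩ := cod_anti (le_sup_left (a := ordGe (D.ι β) (t + 1)) (b := LinearMap.range Z))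
  obtain ⟨-, h4⟩ := cod_of_le (le_sup_left (a := ordGe (D.ι β) (t + 1)) (b := LinearMap.range Z))
  refine ⟨h3, ?_⟩
  let θ := (ordGe (D.ι β) t).mapQ (ordGe (D.ι β) (t + 1)) Z fun x hx => (D.Z_mem_ordGe β).mpr hx
  have h5 : Function.Injective θ := by
    rw [← LinearMap.ker_eq_bot, Submodule.ker_mapQ, eq_bot_iff]
    rintro _ ⟨x, hx, rfl⟩
    exact (Submodule.Quotient.mk_eq_zero _).mpr ((D.Z_mem_ordGe β).mp hx)
  have h6 : LinearMap.range θ = (ordGe (D.ι β) (t + 1) ⊔ LinearMap.range Z).map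
      (ordGe (D.ι β) (t + 1)).mkQ := by
    rw [Submodule.range_mapQ, Submodule.map_sup, Submodule.mkQ_map_self, bot_sup_eq]
  rw [← h6, LinearMap.finrank_range_of_inj h5] at h4
  simp only [cod] at *
  omega

/-- Recipe: `fin_params` with `e = 1` gives `Φ (t'+14) ≤ Z M + U Φ t + W Φ t + Φ (t'+15)` for
`t' ≥ t ≥ t0`; iterate up to the `T` of `top`. -/
theorem ord_step (β : Ex) : ∀ᶠ t : ℕ in atTop, ordGe (D.ι β) (t + 14) ≤
    LinearMap.range Z ⊔ (ordGe (D.ι β) t).map U ⊔ (ordGe (D.ι β) t).map W := by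
  obtain ⟨t0, h0⟩ := eventually_atTop.mp (D.isLat.fin_params 1 (dv β))
  refine eventually_atTop.mpr ⟨t0, fun t ht => ?_⟩
  have step : ∀ s, t ≤ s → ordGe (D.ι β) (s + 14) ≤ (LinearMap.range Z ⊔
      (ordGe (D.ι β) t).map U ⊔ (ordGe (D.ι β) t).map W) ⊔ ordGe (D.ι β) (s + 15) := by
    intro s hs x hx
    have h1 := h0 (s + 14) (by omega)
    rw [show dv β + (s + 14) • ζ - ((1 : ℕ) : ℤ) • ζ = (s + 13) • ζ + dv β by
        rw [natCast_zsmul, add_smul, add_smul, show (14 : ℕ) = 13 + 1 from rfl, add_smul]; abel,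
      show dv β + (s + 14) • ζ - (14 : ℤ) • ζ = s • ζ + dv β by
        rw [show (14 : ℤ) • ζ = (14 : ℕ) • ζ from natCast_zsmul ζ 14, add_smul]; abel,
      add_comm (dv β), D.lat_ray, D.lat_ray, D.lat_ray] at h1
    obtain ⟨_, h2, _, ⟨_, ⟨c, hc, rfl⟩, rfl⟩, e⟩ :=
      Submodule.mem_sup.mp (h1 ⟨x, hx, rfl⟩)
    obtain ⟨_, ⟨a, ha, rfl⟩, _, ⟨_, ⟨b, hb, rfl⟩, rfl⟩, rfl⟩ := Submodule.mem_sup.mp h2
    refine Submodule.mem_sup.mpr ⟨Z a + U b + W c, Submodule.add_mem_sup (Submodule.add_mem_sup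
      ⟨a, rfl⟩ ⟨b, ordGe_anti _ hs hb, rfl⟩) ⟨c, ordGe_anti _ hs hc, rfl⟩,
      x - (Z a + U b + W c), mem_ordGe.mpr fun n hn => ?_, by abel⟩
    rw [map_sub, map_add, map_add, D.hZ, D.hU, D.hW]
    simp only [Pi.sub_apply, Pi.add_apply]
    rcases Nat.lt_succ_iff_lt_or_eq.mp hn with h' | rfl
    · have ha' := mem_ordGe.mp ((D.Z_mem_ordGe β).mpr ha) n h'
      rw [D.hZ] at ha'
      rw [mem_ordGe.mp hx n h', ha']
      rcases lt_or_ge n 14 with h14 | h14
      · simp [up_of_lt _ h14]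
      · obtain ⟨m, rfl⟩ := Nat.exists_eq_add_of_le' h14
        simp [up_add, mem_ordGe.mp hb m (by omega), mem_ordGe.mp hc m (by omega)]
    · rw [up_add, up_add, show s + 14 = s + 13 + 1 from rfl, up_add, sub_eq_zero]
      exact e.symm
  have iter : ∀ n, ordGe (D.ι β) (t + 14) ≤ (LinearMap.range Z ⊔
      (ordGe (D.ι β) t).map U ⊔ (ordGe (D.ι β) t).map W) ⊔ ordGe (D.ι β) (t + n + 14) := by
    intro n
    induction n with
    | zero => exact le_sup_right
    | succ n ih =>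
      refine ih.trans (sup_le le_sup_left ((step (t + n) (by omega)).trans (le_of_eq ?_)))
      rw [show t + n + 15 = t + (n + 1) + 14 by omega]
  obtain ⟨T, hT⟩ := D.top β t
  exact (iter T).trans (sup_le le_rfl ((ordGe_anti _ (by omega)).trans hT))

end Datum

end Crest.Agent.R169
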