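/-
R169/PosC: positivity of the Hilbert polynomial of the lattice of leading coefficients (part 3 of 4)
-/
import Crest.Agent.R169.PosB

set_option autoImplicit false
set_option linter.unusedSectionVars false
set_option linter.unusedVariables false
set_option linter.unusedSimpArgs false

noncomputable section

namespace Crest.Agent.R169

open MvPolynomial Filter
open scoped Pointwise


variable {k M V : Type} [Field k] [AddCommGroup M] [Module k M] [AddCommGroup V] [Module k V]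
  [Module (KK k) V] [IsScalarTower k (KK k) V] {Z U W : Module.End k M}

section aux
variable (S : Submodule k M)

/-- Third isomorphism theorem. -/
def PosC_equiv (X : Submodule k M) : ((M ⧸ S) ⧸ X.map S.mkQ) ≃ₗ[k] M ⧸ (X ⊔ S) :=
  Submodule.quotientQuotientEquivQuotientSup S X ≪≫ₗ Submodule.quotEquivOfEq _ _ (sup_comm _ _)

theorem PosC_map (hU : S ≤ S.comap U) (X : Submodule k M) :
    (X.map S.mkQ).map (S.mapQ S U hU) = (X.map U).map S.mkQ := by
  rw [← Submodule.map_comp, Submodule.mapQ_mkQ, Submodule.map_comp]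

/-- The quotient by the parameters. -/
def PosC_equiv' (hU : S ≤ S.comap U) (hW : S ≤ S.comap W) :
    ((M ⧸ S) ⧸ (LinearMap.range (S.mapQ S U hU) ⊔ LinearMap.range (S.mapQ S W hW))) ≃ₗ[k]
      M ⧸ (S ⊔ LinearMap.range U ⊔ LinearMap.range W) :=
  Submodule.quotEquivOfEq _ _ (by
    rw [Submodule.range_mapQ, Submodule.range_mapQ, Submodule.map_sup]) ≪≫ₗ
    Submodule.quotientQuotientEquivQuotientSup S (LinearMap.range U ⊔ LinearMap.range W) ≪≫ₗ
    Submodule.quotEquivOfEq _ _ (sup_assoc _ _ _).symm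

theorem PosC_comm (hU : S ≤ S.comap U) (hW : S ≤ S.comap W) (hc : ∀ x, U (W x) = W (U x))
    (x : M ⧸ S) : S.mapQ S U hU (S.mapQ S W hW x) = S.mapQ S W hW (S.mapQ S U hU x) := by
  obtain ⟨x, rfl⟩ := Submodule.Quotient.mk_surjective S x
  simp only [Submodule.mapQ_apply, hc]

theorem PosC_koszul (hU : S ≤ S.comap U) (hW : S ≤ S.comap W) (hc : ∀ x, U (W x) = W (U x))
    (h1 : ∀ x, U x ∈ S → x ∈ S)
    (h2 : ∀ x, W x ∈ S ⊔ LinearMap.range U → x ∈ S ⊔ LinearMap.range U) (X0 X Y : Submodule k M)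
    [FiniteDimensional k (M ⧸ (X0 ⊔ S))] [FiniteDimensional k (M ⧸ (X ⊔ S))]
    [FiniteDimensional k (M ⧸ (Y ⊔ S))]
    [FiniteDimensional k (M ⧸ (S ⊔ LinearMap.range U ⊔ LinearMap.range W))]
    (h0 : X0.map U ⊔ X0.map W ≤ X) (hY : Y ≤ S ⊔ X.map U ⊔ X.map W) :
    cod (S ⊔ LinearMap.range U ⊔ LinearMap.range W) + 2 * cod (X ⊔ S) ≤
      cod (Y ⊔ S) + cod (X0 ⊔ S) := by
  have := (PosC_equiv S X0).symm.finiteDimensional
  have := (PosC_equiv S X).symm.finiteDimensional
  have := (PosC_equiv S Y).symm.finiteDimensional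
  have := (PosC_equiv' S hU hW).symm.finiteDimensional
  have h := cod_koszul (S.mapQ S U hU) (S.mapQ S W hW) (PosC_comm S hU hW hc)
    ((injective_iff_map_eq_zero _).2 fun x hx => by
      obtain ⟨x, rfl⟩ := Submodule.Quotient.mk_surjective S x
      rw [Submodule.mapQ_apply, Submodule.Quotient.mk_eq_zero] at hx
      exact (Submodule.Quotient.mk_eq_zero _).2 (h1 x hx))
    (fun x hx => by
      obtain ⟨x, rfl⟩ := Submodule.Quotient.mk_surjective S x
      rw [Submodule.range_mapQ] at hx ⊢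
      have h3 := Submodule.comap_map_mkQ S (LinearMap.range U)
      have h4 : W x ∈ S ⊔ LinearMap.range U := h3 ▸ hx
      have h5 := h2 x h4
      rw [← h3] at h5
      exact h5)
    (X0.map S.mkQ) (X.map S.mkQ) (by
      rw [PosC_map, PosC_map, ← Submodule.map_sup]
      exact Submodule.map_mono h0)
  have h6 : Y.map S.mkQ ≤ (X.map S.mkQ).map (S.mapQ S U hU) ⊔ (X.map S.mkQ).map (S.mapQ S W hW) := by
    rw [PosC_map, PosC_map, ← Submodule.map_sup, Submodule.map_le_iff_le_comap,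
      Submodule.comap_map_mkQ, ← sup_assoc]
    exact hY
  have h7 := LinearMap.finrank_le_finrank_of_surjective (Submodule.factor_surjective h6)
  have e0 := (PosC_equiv S X0).finrank_eq
  have e1 := (PosC_equiv S X).finrank_eq
  have e2 := (PosC_equiv S Y).finrank_eq
  have e3 := (PosC_equiv' S hU hW).finrank_eq
  unfold cod at *
  omega

theorem PosC_le (hU : S ≤ S.comap U) (hW : S ≤ S.comap W) (hc : ∀ x, U (W x) = W (U x))
    (X Y : Submodule k M) [FiniteDimensional k (M ⧸ (X ⊔ S))]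
    [FiniteDimensional k (M ⧸ (S ⊔ LinearMap.range U ⊔ LinearMap.range W))] (s : ℕ)
    (h0 : X.map (U ^ s) ⊔ X.map (W ^ s) ≤ Y) :
    cod (Y ⊔ S) ≤ s ^ 2 * cod (S ⊔ LinearMap.range U ⊔ LinearMap.range W) + 2 * cod (X ⊔ S) := by
  have := (PosC_equiv S X).symm.finiteDimensional
  have := (PosC_equiv' S hU hW).symm.finiteDimensional
  obtain ⟨_, h1⟩ := cod_pow (S.mapQ S U hU) (S.mapQ S W hW) (PosC_comm S hU hW hc) s
  have h := cod_le (S.mapQ S U hU ^ s) (S.mapQ S W hW ^ s) (X.map S.mkQ) (Y.map S.mkQ) (by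
    rw [← Submodule.mapQ_pow, ← Submodule.mapQ_pow, PosC_map, PosC_map, ← Submodule.map_sup]
    exact Submodule.map_mono h0)
  have e1 := (PosC_equiv S X).finrank_eq
  have e2 := (PosC_equiv S Y).finrank_eq
  have e3 := (PosC_equiv' S hU hW).finrank_eq
  unfold cod at *
  rw [e3] at h1
  omega

end aux

theorem PosC_up_comm (a b : ℕ) (f g : KK k) (x : ℕ → V) :
    up a (f • up b (g • x)) = up b (g • up a (f • x)) := by
  funext n
  simp only [up, Pi.smul_apply]
  split_ifs <;> first | omega | simp only [smul_zero] | skip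
  rw [smul_comm, Nat.sub_right_comm]

namespace Datum
variable (D : Datum V Z U W)

theorem PosC_stab {T : Module.End k M} {f : KK k} (hT : ∀ x, D.ι 0 (T x) = up 14 (f • D.ι 0 x)) :
    LinearMap.range Z ≤ (LinearMap.range Z).comap T := by
  rintro _ ⟨x, rfl⟩
  refine ⟨T x, D.inj 0 ?_⟩
  have := PosC_up_comm 1 14 1 f (D.ι 0 x)
  simp only [one_smul] at this
  rw [D.hZ, hT, hT, D.hZ, this]

include D in
theorem PosC_UW (x : M) : U (W x) = W (U x) := D.inj 0 (by
  rw [D.hU, D.hW, D.hW, D.hU, PosC_up_comm])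

theorem PosC_ord (β : Ex) {T : Module.End k M} {f : KK k}
    (hT : ∀ x, D.ι β (T x) = up 14 (f • D.ι β x)) (s t : ℕ) :
    (ordGe (D.ι β) t).map (T ^ s) ≤ ordGe (D.ι β) (t + 14 * s) := by
  rintro _ ⟨x, hx, rfl⟩
  induction s with
  | zero => exact hx
  | succ s ih =>
    rw [pow_succ', Module.End.mul_apply, mem_ordGe, hT]
    intro n hn
    simp only [up, Pi.smul_apply]
    split_ifs with h
    · rw [mem_ordGe.1 ih _ (by omega), smul_zero]
    · rfl

theorem PosC_A (h : Reg Z U W) (β : Ex) : ∀ᶠ t : ℕ in atTop,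
    cod (LinearMap.range Z ⊔ LinearMap.range U ⊔ LinearMap.range W) +
      2 * Module.finrank k (lead (D.ι β) (t + 14)) ≤
      Module.finrank k (lead (D.ι β) (t + 28)) + Module.finrank k (lead (D.ι β) t) := by
  filter_upwards [(tendsto_add_atTop_nat 15).eventually (D.ord_step β)] with t ht
  obtain ⟨_, e0⟩ := D.cod_eq β t
  obtain ⟨_, e1⟩ := D.cod_eq β (t + 14)
  obtain ⟨_, e2⟩ := D.cod_eq β (t + 28)
  have := h.fin
  rw [← e0, ← e1, ← e2]
  refine PosC_koszul _ (D.PosC_stab (D.hU 0)) (D.PosC_stab (D.hW 0)) D.PosC_UW h.hU h.hW _ _ _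
    (sup_le ?_ ?_) ht
  · simpa only [pow_one] using D.PosC_ord β (D.hU β) 1 (t + 1)
  · simpa only [pow_one] using D.PosC_ord β (D.hW β) 1 (t + 1)

theorem PosC_B (h : Reg Z U W) (β : Ex) (t s : ℕ) :
    Module.finrank k (lead (D.ι β) (t + 14 * s)) ≤
      s ^ 2 * cod (LinearMap.range Z ⊔ LinearMap.range U ⊔ LinearMap.range W) +
        2 * Module.finrank k (lead (D.ι β) t) := by
  obtain ⟨_, e0⟩ := D.cod_eq β t
  obtain ⟨_, e1⟩ := D.cod_eq β (t + 14 * s)
  have := h.fin
  rw [← e0, ← e1, Nat.add_right_comm]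
  exact PosC_le _ (D.PosC_stab (D.hU 0)) (D.PosC_stab (D.hW 0)) D.PosC_UW _ _ s
    (sup_le (D.PosC_ord β (D.hU β) s (t + 1)) (D.PosC_ord β (D.hW β) s (t + 1)))

theorem PosC_hf (t : ℕ) : hf D.lat (t • ζ) =
    ∑ β : Fin 5 → Fin 7, Module.finrank k (lead (D.ι fun j => (β j : ℤ)) t) := by
  exact Finset.sum_congr rfl fun β _ => by rw [D.lat_ray]

/-- The length of `M / (Z, U, W)` is at most the multiplicity.  Recipe: on `N = M ⧸ range Z` with the
induced `a`, `b` apply `cod_koszul` to the images of `Φ t`, `Φ (t + 14)`; by `ord_step`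
`a X + b X` is the image of `Φ (t + 28)`.  Sum over the sectors (`lat_ray`, `IsLat.ray`): the second
difference with step `14` of `2 hf` is `2 * 1715 * 196 * rk`, and `1715 * 196 = 7^5 * 20`. -/
theorem len_le (h : Reg Z U W) :
    cod (LinearMap.range Z ⊔ LinearMap.range U ⊔ LinearMap.range W) ≤ 20 * rk D.lat := by
  have hr := D.isLat.ray
  obtain ⟨t, ⟨⟨h0, h1⟩, h2⟩, h3⟩ := (((hr.and ((tendsto_add_atTop_nat 14).eventually hr)).and
    ((tendsto_add_atTop_nat 28).eventually hr)).and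
    (eventually_all.2 fun β : Fin 5 → Fin 7 => D.PosC_A h fun j => (β j : ℤ))).exists
  have h4 := Finset.sum_le_sum fun β (_ : β ∈ Finset.univ) => h3 β
  rw [Finset.sum_add_distrib, Finset.sum_add_distrib, ← Finset.mul_sum, ← D.PosC_hf, ← D.PosC_hf,
    ← D.PosC_hf, Finset.sum_const, Finset.card_univ, Fintype.card_fun, Fintype.card_fin,
    Fintype.card_fin, smul_eq_mul] at h4
  zify at h4 ⊢
  push_cast at h1 h2
  linarith

/-- Recipe: `cod_le` for `a ^ s`, `b ^ s`, `X = Φ (t + 1 + 14 s)`, `Y = Φ (t + 1 + 28 s)`, with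
`s` large, `cod_pow`, `len_le`; sum over the sectors. -/
theorem pos (h : Reg Z U W) (t : ℤ) :
    0 ≤ 343 * (rk D.lat * (28 + 5 * t ^ 2 - 25 * t) + (2 * t - 5) * mm D.lat) + ss D.lat := by
  obtain ⟨T, hT⟩ := eventually_atTop.1 D.isLat.ray
  obtain ⟨s, n, hn, hs⟩ : ∃ s n : ℕ, T ≤ n ∧ t = n - 14 * s :=
    ⟨T + t.natAbs, (t + 14 * (T + t.natAbs : ℕ)).toNat, by omega, by omega⟩
  have h0 := hT n hn
  have h1 := hT (n + 14 * s) (by omega)
  have h4 := Finset.sum_le_sum fun (β : Fin 5 → Fin 7) (_ : β ∈ Finset.univ) =>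
    D.PosC_B h (fun j => (β j : ℤ)) n s
  rw [Finset.sum_add_distrib, Finset.sum_const, ← Finset.mul_sum, ← D.PosC_hf, ← D.PosC_hf,
    Finset.card_univ, Fintype.card_fun, Fintype.card_fin, Fintype.card_fin, smul_eq_mul] at h4
  have h5 := Nat.mul_le_mul_left (s ^ 2) (D.len_le h)
  zify at h4 h5
  push_cast at h1
  subst hs
  linarith

end Datum

end Crest.Agent.R169
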