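/-
R169/Pos: positivity of the Hilbert polynomial of the lattice of leading coefficients (part 4 of 4)
-/
import Crest.Agent.R169.PosC

set_option autoImplicit false
set_option linter.unusedSectionVars false
set_option linter.unusedVariables false
set_option linter.unusedSimpArgs false

noncomputable section

namespace Crest.Agent.R169

open MvPolynomial Filter
open scoped Pointwise


variable {k M V : Type} [Field k] [AddCommGroup M] [Module k M] [AddCommGroup V] [Module k V]
  [Module (KK k) V] [IsScalarTower k (KK k) V] {Z U W : Module.End k M}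

theorem Pos_finrank_map {S : Submodule k V} [FiniteDimensional k S] (φ : V →ₗ[k] V) :
    Module.finrank k S =
      Module.finrank k (S.map φ) + Module.finrank k ↥(S ⊓ LinearMap.ker φ) := by
  have h := LinearMap.finrank_range_add_finrank_ker (φ.domRestrict S)
  rw [LinearMap.range_domRestrict, LinearMap.ker_domRestrict,
    ← Submodule.finrank_map_subtype_eq S, Submodule.map_comap_subtype] at h
  exact h.symm

/-- The modification of a coefficient sequence along an idempotent `p`. -/
def posMd (p : V →ₗ[KK k] V) : (ℕ → V) →ₗ[k] (ℕ → V) where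
  toFun a n := (if 1 ≤ n then p (a (n - 1)) else 0) + (a n - p (a n))
  map_add' a b := by
    funext n
    simp only [Pi.add_apply, map_add]
    split_ifs <;> abel
  map_smul' c a := by
    funext n
    simp only [Pi.smul_apply, LinearMap.map_smul_of_tower, RingHom.id_apply, smul_add, smul_sub]
    split_ifs <;> simp

theorem posMd_zero (p : V →ₗ[KK k] V) (a : ℕ → V) : posMd p a 0 = a 0 - p (a 0) := by
  simp [posMd]

theorem posMd_succ (p : V →ₗ[KK k] V) (a : ℕ → V) (n : ℕ) :
    posMd p a (n + 1) = p (a n) + (a (n + 1) - p (a (n + 1))) := by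
  simp [posMd]

theorem posMd_up (p : V →ₗ[KK k] V) (t : ℕ) (f : KK k) (a : ℕ → V) :
    posMd p (up t (f • a)) = up t (f • posMd p a) := by
  funext n
  rcases lt_trichotomy n t with h | h | h
  · have h1 : ∀ m, m ≤ n → up t (f • a) m = 0 := fun m hm => if_neg (by omega)
    have h2 : up t (f • posMd p a) n = 0 := if_neg (by omega)
    rw [h2]
    cases n with
    | zero => rw [posMd_zero, h1 0 le_rfl]; simp
    | succ n => rw [posMd_succ, h1 n (by omega), h1 (n + 1) le_rfl]; simp
  · subst h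
    have h1 : up n (f • a) n = f • a 0 := by simp [up]
    have h2 : up n (f • posMd p a) n = f • posMd p a 0 := by simp [up]
    rw [h2, posMd_zero]
    cases n with
    | zero => rw [posMd_zero, h1]; simp [smul_sub]
    | succ n =>
      have h3 : up (n + 1) (f • a) n = 0 := if_neg (by omega)
      rw [posMd_succ, h1, h3]; simp [smul_sub]
  · obtain ⟨m, rfl⟩ : ∃ m, n = t + m + 1 := ⟨n - t - 1, by omega⟩
    have h1 : up t (f • a) (t + m) = f • a m := by simp [up]
    have h2 : up t (f • a) (t + m + 1) = f • a (m + 1) := by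
      rw [add_assoc]; simp [up]
    have h3 : up t (f • posMd p a) (t + m + 1) = f • posMd p a (m + 1) := by
      rw [add_assoc]; simp [up]
    rw [h3, posMd_succ, posMd_succ, h1, h2]
    simp [smul_sub]

theorem posMd_vanish {p : V →ₗ[KK k] V} (hp : ∀ v, p (p v) = p v) (a : ℕ → V) (t : ℕ) :
    (∀ n < t + 1, posMd p a n = 0) ↔ (∀ n < t, a n = 0) ∧ p (a t) = a t := by
  constructor
  · intro h
    have h1 : ∀ n < t + 1, p (a n) = a n := by
      intro n hn
      have h2 := h n hn
      cases n with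
      | zero => rw [posMd_zero] at h2; exact (sub_eq_zero.1 h2).symm
      | succ n =>
        rw [posMd_succ] at h2
        have h3 := congrArg p h2
        rw [map_add, map_sub, hp, hp, sub_self, add_zero, map_zero] at h3
        rw [h3, zero_add] at h2
        exact (sub_eq_zero.1 h2).symm
    refine ⟨fun n hn => ?_, h1 t (by omega)⟩
    have h2 := h (n + 1) (by omega)
    rw [posMd_succ, h1 (n + 1) (by omega), sub_self, add_zero, h1 n (by omega)] at h2
    exact h2
  · rintro ⟨h1, h2⟩ n hn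
    have h3 : p (a n) = a n := by
      rcases Nat.lt_succ_iff_lt_or_eq.1 hn with h | h
      · rw [h1 n h, map_zero]
      · rw [h, h2]
    cases n with
    | zero => rw [posMd_zero, h3, sub_self]
    | succ n => rw [posMd_succ, h3, sub_self, h1 n (by omega), map_zero, add_zero]

theorem posMd_vanish' (p : V →ₗ[KK k] V) (a : ℕ → V) (t : ℕ) (h : ∀ n < t, a n = 0) :
    ∀ n < t, posMd p a n = 0 := by
  intro n hn
  cases n with
  | zero => rw [posMd_zero, h 0 hn]; simp
  | succ n => rw [posMd_succ, h n (by omega), h (n + 1) hn]; simp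

theorem posMd_lead {p : V →ₗ[KK k] V} (hp : ∀ v, p (p v) = p v) {U0 : Submodule (KK k) V}
    (hU : ∀ v, v ∈ U0 ↔ p v = v) (ι : M →ₗ[k] (ℕ → V)) (t : ℕ)
    [FiniteDimensional k (lead (posMd p ∘ₗ ι) (t + 1))] [FiniteDimensional k (lead ι (t + 1))] :
    Module.finrank k (lead (posMd p ∘ₗ ι) (t + 1)) +
        Module.finrank k ↥(lead ι (t + 1) ⊓ U0.restrictScalars k) =
      Module.finrank k ↥(lead ι t ⊓ U0.restrictScalars k) + Module.finrank k (lead ι (t + 1)) := by
  have e1 : (lead (posMd p ∘ₗ ι) (t + 1)).map (p.restrictScalars k) =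
      lead ι t ⊓ U0.restrictScalars k := by
    ext y
    simp only [Submodule.mem_map, Submodule.mem_inf, mem_lead, Submodule.restrictScalars_mem,
      LinearMap.comp_apply, LinearMap.restrictScalars_apply, posMd_vanish hp, hU]
    constructor
    · rintro ⟨_, ⟨x, ⟨h1, h2⟩, rfl⟩, rfl⟩
      rw [posMd_succ, map_add, map_sub, hp, hp, sub_self, add_zero, h2]
      exact ⟨⟨x, h1, rfl⟩, h2⟩
    · rintro ⟨⟨x, h1, rfl⟩, h2⟩
      refine ⟨_, ⟨x, ⟨h1, h2⟩, rfl⟩, ?_⟩
      rw [posMd_succ, map_add, map_sub, hp, hp, sub_self, add_zero, h2]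
  have e2 : lead (posMd p ∘ₗ ι) (t + 1) ⊓ LinearMap.ker (p.restrictScalars k) =
      (lead ι (t + 1)).map (LinearMap.id - p.restrictScalars k) := by
    ext y
    simp only [Submodule.mem_map, Submodule.mem_inf, mem_lead, LinearMap.mem_ker,
      LinearMap.comp_apply, LinearMap.restrictScalars_apply, posMd_vanish hp, LinearMap.sub_apply,
      LinearMap.id_apply]
    constructor
    · rintro ⟨⟨x, ⟨h1, h2⟩, rfl⟩, h3⟩
      rw [posMd_succ, map_add, map_sub, hp, hp, sub_self, add_zero, h2] at h3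
      refine ⟨_, ⟨x, fun n hn => ?_, rfl⟩, ?_⟩
      · rcases Nat.lt_succ_iff_lt_or_eq.1 hn with h | h
        · exact h1 n h
        · rw [h, h3]
      · rw [posMd_succ, h3, map_zero, zero_add]
    · rintro ⟨_, ⟨x, h1, rfl⟩, rfl⟩
      refine ⟨⟨x, ⟨fun n hn => h1 n (by omega), by rw [h1 t (by omega), map_zero]⟩, ?_⟩, ?_⟩
      · rw [posMd_succ, h1 t (by omega), map_zero, zero_add]
      · rw [map_sub, hp, sub_self]
  have e3 : LinearMap.ker (LinearMap.id - p.restrictScalars k) = U0.restrictScalars k := by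
    ext y
    simp only [LinearMap.mem_ker, LinearMap.sub_apply, LinearMap.id_apply,
      LinearMap.restrictScalars_apply, Submodule.restrictScalars_mem, hU, sub_eq_zero]
    exact eq_comm
  have h1 := Pos_finrank_map (S := lead (posMd p ∘ₗ ι) (t + 1)) (p.restrictScalars k)
  have h2 := Pos_finrank_map (S := lead ι (t + 1)) (LinearMap.id - p.restrictScalars k)
  rw [e1, e2] at h1
  rw [e3] at h2
  omega

namespace Datum
variable (D : Datum V Z U W)

/-- The modified datum. -/
def posModif {p : V →ₗ[KK k] V} (hp : ∀ v, p (p v) = p v) : Datum V Z U W where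
  ι β := posMd p ∘ₗ D.ι β
  inj β := by
    rw [← LinearMap.ker_eq_bot, LinearMap.ker_eq_bot']
    intro x hx
    refine D.inj β ?_
    rw [map_zero]
    funext n
    exact ((posMd_vanish hp (D.ι β x) (n + 1)).1 fun m _ => congrFun hx m).1 n (by omega)
  act β' t' f hf x := by
    obtain ⟨y, hy⟩ := D.act β' t' f hf x
    exact ⟨y, fun β => by rw [LinearMap.comp_apply, hy, posMd_up]; rfl⟩
  hZ β x := by
    have := posMd_up p 1 1 (D.ι β x)
    rw [one_smul, one_smul] at this
    rw [LinearMap.comp_apply, D.hZ, this]; rfl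
  hU β x := by rw [LinearMap.comp_apply, D.hU, posMd_up]; rfl
  hW β x := by rw [LinearMap.comp_apply, D.hW, posMd_up]; rfl
  bd := by
    obtain ⟨H, hH, hb⟩ := D.bd
    refine ⟨img p H ⊔ H, (hH.img p).sup hH, fun β x t => ?_⟩
    have h1 : ∀ t, p (D.ι β x t) ∈ img p H (dv β + t • ζ) := fun t => ⟨_, hb β x t, rfl⟩
    have h2 : ∀ t, D.ι β x t - p (D.ι β x t) ∈ (img p H ⊔ H) (dv β + t • ζ) := fun t =>
      Submodule.sub_mem _ (Submodule.mem_sup_right (hb β x t)) (Submodule.mem_sup_left (h1 t))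
    rw [LinearMap.comp_apply]
    cases t with
    | zero => rw [posMd_zero]; exact h2 0
    | succ t =>
      rw [posMd_succ]
      refine Submodule.add_mem _ (Submodule.mem_sup_left ?_) (h2 (t + 1))
      refine (hH.img p).stable.mono ?_ (h1 t)
      rw [succ_nsmul, ← add_assoc]
      exact le_add_of_nonneg_right ζ_nonneg
  top β t := by
    obtain ⟨T, hT⟩ := D.top β t
    have h1 : ordGe (posMd p ∘ₗ D.ι β) (T + 1) ≤ ordGe (D.ι β) T := fun x hx =>
      mem_ordGe.2 ((posMd_vanish hp (D.ι β x) T).1 ((mem_ordGe (ι := posMd p ∘ₗ D.ι β)).1 hx)).1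
    have h2 : ordGe (D.ι β) t ≤ ordGe (posMd p ∘ₗ D.ι β) t := fun x hx =>
      mem_ordGe.2 (posMd_vanish' p (D.ι β x) t (mem_ordGe.1 hx))
    exact ⟨T + 1, h1.trans (hT.trans (sup_le_sup (sup_le_sup le_rfl (Submodule.map_mono h2))
      (Submodule.map_mono h2)))⟩

/-- Elementary modification.  Recipe: with a complement `U1` of `U0` and the projections `π0`, `π1`
put `ι' β x = up 1 (π0 ∘ ι β x) + π1 ∘ ι β x`.  Then `Φ t ≤ Φ' t`, `Φ' (t + 1) ≤ Φ t`; `π0` maps
`lead' (t+1)` onto `lead t ⊓ U0` with kernel `π1 (lead (t+1))`; and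
`H' = img π0 H ⊔ img π1 H` is a bound. -/
theorem modif (U0 : Submodule (KK k) V) : ∃ D' : Datum V Z U W, ∀ t : ℕ,
    hf D'.lat ((t + 1) • ζ) + hf (cut D.lat U0) ((t + 1) • ζ) =
      hf (cut D.lat U0) (t • ζ) + hf D.lat ((t + 1) • ζ) := by
  obtain ⟨U1, hU1⟩ := U0.exists_isCompl
  let p : V →ₗ[KK k] V := U0.subtype ∘ₗ U0.projectionOnto U1 hU1
  have hU : ∀ v, v ∈ U0 ↔ p v = v := by
    intro v
    constructor
    · intro hv
      exact congrArg Subtype.val (Submodule.projectionOnto_apply_left hU1 ⟨v, hv⟩)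
    · intro hv
      rw [← hv]
      exact (U0.projectionOnto U1 hU1 v).2
  have hp : ∀ v, p (p v) = p v := fun v => (hU _).1 (U0.projectionOnto U1 hU1 v).2
  refine ⟨D.posModif hp, fun t => ?_⟩
  unfold hf
  rw [← Finset.sum_add_distrib, ← Finset.sum_add_distrib]
  refine Finset.sum_congr rfl fun β _ => ?_
  have f1 := (D.posModif hp).isLat.fin ((t + 1) • ζ + dv fun j => (β j : ℤ))
  have f2 := D.isLat.fin ((t + 1) • ζ + dv fun j => (β j : ℤ))
  rw [lat_ray] at f1 f2
  unfold cut
  rw [lat_ray, lat_ray, lat_ray]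
  exact @posMd_lead k M V _ _ _ _ _ _ _ p hp U0 hU (D.ι _) t f1 f2

theorem modif_num (U0 : Submodule (KK k) V) : ∃ D' : Datum V Z U W, rk D'.lat = rk D.lat ∧
    mm D'.lat = mm D.lat - 5 * rk (cut D.lat U0) ∧
    ss D'.lat = ss D.lat + 343 * (5 * rk (cut D.lat U0) - 2 * mm (cut D.lat U0)) := by
  obtain ⟨D', h⟩ := D.modif U0
  refine ⟨D', ?_⟩
  have ht : Tendsto (fun t : ℕ => t + 1) atTop atTop := tendsto_add_atTop_nat 1
  have r1 := ht.eventually D'.isLat.ray
  have r2 := ht.eventually D.isLat.ray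
  have r3 := ht.eventually (D.isLat.cut U0).ray
  have r4 := (D.isLat.cut U0).ray
  generalize rk D'.lat = r' at *
  generalize rk D.lat = r at *
  generalize rk (cut D.lat U0) = r0 at *
  generalize mm D'.lat = m' at *
  generalize mm D.lat = m at *
  generalize mm (cut D.lat U0) = m0 at *
  generalize ss D'.lat = s' at *
  generalize ss D.lat = s at *
  generalize ss (cut D.lat U0) = s0 at *
  have key : ∀ᶠ t : ℕ in atTop,
      (1715 * r' : ℤ) * (t : ℤ) ^ 2 + 343 * (2 * m' - 15 * r') * t + (343 * (8 * r' - 3 * m') + s') =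
      (1715 * r : ℤ) * (t : ℤ) ^ 2 + 343 * (2 * m - 15 * r - 10 * r0) * t +
        (343 * (8 * r - 3 * m + 20 * r0 - 2 * m0) + s) := by
    filter_upwards [r1, r2, r3, r4] with t a1 a2 a3 a4
    have a5 : ((hf D'.lat ((t + 1) • ζ) + hf (cut D.lat U0) ((t + 1) • ζ) : ℕ) : ℤ) =
      ((hf (cut D.lat U0) (t • ζ) + hf D.lat ((t + 1) • ζ) : ℕ) : ℤ) := by rw [h t]
    push_cast at a1 a2 a3 a5
    linear_combination 2 * a5 - a1 - a3 + a4 + a2
  obtain ⟨k1, k2, k3⟩ := quad_unique key
  refine ⟨by omega, by omega, by omega⟩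

end Datum

end Crest.Agent.R169
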