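/-
R169/Core: no datum exists over `ℂ`.  Author: helper14.
-/
import Crest.Agent.R169.Pos
import Crest.Agent.R169.Bogo

set_option autoImplicit false
set_option linter.unusedSectionVars false
set_option linter.unusedVariables false
set_option linter.unusedSimpArgs false

noncomputable section

namespace Crest.Agent.R169

open MvPolynomial Filter
open scoped Pointwise


variable {M V : Type} [AddCommGroup M] [Module ℂ M] [AddCommGroup V] [Module ℂ V]
  [Module (KK ℂ) V] [IsScalarTower ℂ (KK ℂ) V] {Z U W : Module.End ℂ M}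

theorem Datum.theta_ge (D : Datum V Z U W) (h : Reg Z U W) (hr : 1 ≤ rk D.lat) :
    3430 * (rk D.lat : ℤ) ^ 2 ≤ 5 * rk D.lat * ss D.lat - 343 * mm D.lat ^ 2 := by
  have hρ : (1 : ℤ) ≤ rk D.lat := by exact_mod_cast hr
  generalize hm : mm D.lat = m at *
  have hp := D.pos h (-((2 * m - 20 * rk D.lat) / (10 * rk D.lat)))
  rw [hm] at hp
  generalize (rk D.lat : ℤ) = ρ at *
  have h1 := Int.emod_add_mul_ediv (2 * m - 20 * ρ) (10 * ρ)
  have h2 := Int.emod_nonneg (2 * m - 20 * ρ) (b := 10 * ρ) (by omega)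
  have h3 := Int.emod_lt_of_pos (2 * m - 20 * ρ) (b := 10 * ρ) (by omega)
  generalize (2 * m - 20 * ρ) / (10 * ρ) = q at *
  generalize (2 * m - 20 * ρ) % (10 * ρ) = e at *
  have h4 : (e - 5 * ρ) ^ 2 ≤ (5 * ρ) ^ 2 := by nlinarith
  have h5 := mul_nonneg (show (0 : ℤ) ≤ 20 * ρ by omega) hp
  have h6 : e = 2 * m - 20 * ρ - 10 * ρ * q := by linarith
  subst h6
  nlinarith

theorem core [Nontrivial M] (D0 : Datum V Z U W) (h : Reg Z U W) : False := by
  classical
  have hex : ∃ n : ℕ, ∃ D : Datum V Z U W, rk D.lat = rk D0.lat ∧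
      5 * rk D.lat * ss D.lat - 343 * mm D.lat ^ 2 = n := by
    have := D0.theta_ge h D0.rk_pos
    exact ⟨(5 * rk D0.lat * ss D0.lat - 343 * mm D0.lat ^ 2).toNat, D0, rfl,
      (Int.toNat_of_nonneg (le_trans (by positivity) this)).symm⟩
  obtain ⟨D, hD, hn⟩ := Nat.find_spec hex
  have hr := D.rk_pos
  have hρ : (1 : ℤ) ≤ rk D.lat := by exact_mod_cast hr
  have hL := D.isLat
  -- minimality
  have key : ∀ U0 : Submodule (KK ℂ) V, 2 * (rk D.lat : ℤ) * mm (cut D.lat U0) ≤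
      2 * rk (cut D.lat U0) * mm D.lat +
        5 * rk (cut D.lat U0) * (rk D.lat - rk (cut D.lat U0)) := fun U0 => by
    obtain ⟨D', e1, e2, e3⟩ := D.modif_num U0
    have h1 := D'.theta_ge h D'.rk_pos
    have h2 := Nat.find_min' hex (m := (5 * rk D'.lat * ss D'.lat - 343 * mm D'.lat ^ 2).toNat)
      ⟨D', e1.trans hD, (Int.toNat_of_nonneg (le_trans (by positivity) h1)).symm⟩
    have h3 : (Nat.find hex : ℤ) ≤ 5 * rk D'.lat * ss D'.lat - 343 * mm D'.lat ^ 2 := by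
      rw [← Int.toNat_of_nonneg (le_trans (by positivity) h1)]; exact_mod_cast h2
    rw [← hn, e1, e2, e3] at h3
    nlinarith
  have hρ' : (0 : ℚ) < rk D.lat := by exact_mod_cast hr
  have hb := bogomolov_unstable ((mm D.lat : ℚ) / rk D.lat - 5 / 2)
    ((mm D.lat : ℚ) / rk D.lat + 5 / 2) _ V D.lat hL le_rfl (fun U0 => ?_) fun U0 => ?_
  · have h1 := D.theta_ge h hr
    have h2 : 3430 * (rk D.lat : ℚ) ^ 2 ≤ 5 * rk D.lat * ss D.lat - 343 * (mm D.lat : ℚ) ^ 2 := by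
      exact_mod_cast h1
    have h3 := mul_le_mul_of_nonneg_left hb hρ'.le
    have h4 : (rk D.lat : ℚ) * (343 * (((mm D.lat : ℚ) / rk D.lat - 5 / 2 +
        ((mm D.lat : ℚ) / rk D.lat + 5 / 2)) * mm D.lat - ((mm D.lat : ℚ) / rk D.lat - 5 / 2) *
        ((mm D.lat : ℚ) / rk D.lat + 5 / 2) * rk D.lat)) =
        343 * (mm D.lat : ℚ) ^ 2 + 343 * 25 / 4 * (rk D.lat : ℚ) ^ 2 := by
      field_simp; ring
    rw [h4] at h3
    nlinarith
  · have h1 : 2 * (rk D.lat : ℚ) * mm (cut D.lat U0) ≤ 2 * rk (cut D.lat U0) * mm D.lat +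
        5 * rk (cut D.lat U0) * (rk D.lat - rk (cut D.lat U0)) := by exact_mod_cast key U0
    have h2 : (0 : ℚ) ≤ rk (cut D.lat U0) := Nat.cast_nonneg _
    refine le_of_mul_le_mul_left ?_ hρ'
    have : (rk D.lat : ℚ) * (((mm D.lat : ℚ) / rk D.lat + 5 / 2) * rk (cut D.lat U0)) =
        rk (cut D.lat U0) * mm D.lat + 5 / 2 * rk D.lat * rk (cut D.lat U0) := by field_simp
    rw [this]
    nlinarith
  · have h1 : 2 * (rk D.lat : ℚ) * mm (cut D.lat U0) ≤ 2 * rk (cut D.lat U0) * mm D.lat +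
        5 * rk (cut D.lat U0) * (rk D.lat - rk (cut D.lat U0)) := by exact_mod_cast key U0
    have h2 : (rk (cut D.lat U0) : ℚ) ≤ rk D.lat := by
      exact_mod_cast hL.rk_mono (cut_le D.lat U0)
    refine le_of_mul_le_mul_left ?_ hρ'
    have : (rk D.lat : ℚ) * (((mm D.lat : ℚ) / rk D.lat - 5 / 2) *
        (rk D.lat - rk (cut D.lat U0))) =
        (mm D.lat - 5 / 2 * rk D.lat) * (rk D.lat - rk (cut D.lat U0)) := by field_simp
    rw [this]
    nlinarith

end Crest.Agent.R169
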