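/-
R169/FilB: basic facts on section rings and on local rings between `Rp` and `Rh`.
-/
import Crest.Agent.R169.Defs

set_option autoImplicit false
set_option linter.unusedSectionVars false
set_option linter.unusedVariables false
set_option linter.unusedSimpArgs false

noncomputable section

namespace Crest.Agent.R169

open MvPolynomial Filter
open scoped Pointwise


namespace Fil
variable {k F : Type} [Field k] [Field F] [Algebra k F] (𝔉 : Fil k F)

theorem mono {s t : ℕ} (h : s ≤ t) : 𝔉.V s ≤ 𝔉.V t := by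
  induction h with
  | refl => exact le_rfl
  | step _ ih => exact fun x hx => by simpa using 𝔉.mul (ih hx) 𝔉.one

theorem pow_mem {x : F} {t : ℕ} (h : x ∈ 𝔉.V t) (n : ℕ) : x ^ n ∈ 𝔉.V (n * t) := by
  induction n with
  | zero => simpa using 𝔉.one_mem_zero
  | succ n ih => rw [pow_succ, Nat.succ_mul]; exact 𝔉.mul ih h

theorem mem_zero {x : F} : x ∈ 𝔉.V 0 ↔ ∃ c : k, x = algebraMap k F c := by
  rw [𝔉.zero, Submodule.mem_span_singleton]
  simp only [Algebra.algebraMap_eq_smul_one, eq_comm]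

theorem mem_Rh {f : PowerSeries F} : f ∈ 𝔉.Rh ↔ ∀ t, PowerSeries.coeff t f ∈ 𝔉.V t := Iff.rfl

theorem mem_Rp {f : Polynomial F} : f ∈ 𝔉.Rp ↔ ∀ t, f.coeff t ∈ 𝔉.V t := Iff.rfl

theorem monomial_mem_Rh {x : F} {t : ℕ} (h : x ∈ 𝔉.V t) : PowerSeries.monomial t x ∈ 𝔉.Rh := by
  intro n
  rw [PowerSeries.coeff_monomial]
  split_ifs with e
  · exact e ▸ h
  · exact Submodule.zero_mem _

theorem monomial_mem_Rp {x : F} {t : ℕ} (h : x ∈ 𝔉.V t) : Polynomial.monomial t x ∈ 𝔉.Rp := by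
  intro n
  rw [Polynomial.coeff_monomial]
  split_ifs with e
  · exact e ▸ h
  · exact Submodule.zero_mem _

theorem coe_mem_Rh {f : Polynomial F} (h : f ∈ 𝔉.Rp) : (f : PowerSeries F) ∈ 𝔉.Rh := by
  intro n
  rw [Polynomial.coeff_coe]
  exact h n

/-- Strong induction on the coefficient with `PowerSeries.coeff_inv`; the constant coefficient is in
`k` (`mem_zero`). -/
theorem inv_mem_Rh {f : PowerSeries F} (h : f ∈ 𝔉.Rh) : f⁻¹ ∈ 𝔉.Rh := by
  have h0 : (PowerSeries.constantCoeff f)⁻¹ ∈ 𝔉.V 0 := by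
    obtain ⟨c, hc⟩ := 𝔉.mem_zero.mp (h 0)
    rw [PowerSeries.coeff_zero_eq_constantCoeff_apply] at hc
    rw [hc, ← map_inv₀]
    exact 𝔉.algebraMap_mem _
  intro n
  induction n using Nat.strong_induction_on with
  | _ n ih =>
    rw [PowerSeries.coeff_inv]
    split_ifs with e
    · exact e ▸ h0
    · rw [← zero_add n]
      refine 𝔉.mul (Submodule.neg_mem _ h0) ?_
      rw [zero_add]
      refine Submodule.sum_mem _ fun p hp => ?_
      split_ifs with e'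
      · rw [← show p.1 + p.2 = n by simpa using hp]
        exact 𝔉.mul (h _) (ih _ e')
      · exact Submodule.zero_mem _

/-- Coefficientwise division by the parameters; the supports are controlled, so this serves for
polynomials and for power series.  Recipe: choose the decomposition of `gen` for each `a (t + 14)`
(all zero if `a (t + 14) = 0` or `t < T`). -/
theorem decomp : ∃ T0 : ℕ, ∀ T, T0 ≤ T → ∀ a : ℕ → F, (∀ t, a t ∈ 𝔉.V t) → (∀ t < T + 14, a t = 0) →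
    ∃ b c d : ℕ → F, (∀ t, b t ∈ 𝔉.V (t + 13) ∧ c t ∈ 𝔉.V t ∧ d t ∈ 𝔉.V t) ∧
      (∀ t, a (t + 14) = 0 → b t = 0 ∧ c t = 0 ∧ d t = 0) ∧
      ∀ t, a (t + 14) = b t + 𝔉.y 0 * c t + 𝔉.y 1 * d t := by
  obtain ⟨T0, hT0⟩ := 𝔉.gen
  refine ⟨T0, fun T hT a ha h0 => ?_⟩
  have key : ∀ t, ∃ b c d : F, (b ∈ 𝔉.V (t + 13) ∧ c ∈ 𝔉.V t ∧ d ∈ 𝔉.V t) ∧
      (a (t + 14) = 0 → b = 0 ∧ c = 0 ∧ d = 0) ∧ a (t + 14) = b + 𝔉.y 0 * c + 𝔉.y 1 * d := by
    intro t
    by_cases e : a (t + 14) = 0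
    · exact ⟨0, 0, 0, ⟨Submodule.zero_mem _, Submodule.zero_mem _, Submodule.zero_mem _⟩,
        fun _ => ⟨rfl, rfl, rfl⟩, by simp [e]⟩
    · have ht : T0 ≤ t := by
        by_contra hc
        exact e (h0 _ (by omega))
      obtain ⟨x, hx, _, hd, e1⟩ := Submodule.mem_sup.mp (hT0 t ht (ha _))
      obtain ⟨b, hb, _, hc, rfl⟩ := Submodule.mem_sup.mp hx
      obtain ⟨c, hc', rfl⟩ := (Submodule.mem_smul_pointwise_iff_exists _ _ _).mp hc
      obtain ⟨d, hd', rfl⟩ := (Submodule.mem_smul_pointwise_iff_exists _ _ _).mp hd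
      exact ⟨b, c, d, ⟨hb, hc', hd'⟩, fun h => (e h).elim, e1.symm⟩
  choose b c d h1 h2 h3 using key
  exact ⟨b, c, d, h1, h2, h3⟩

theorem FilB_coeff (m n : ℕ) (y : F) (c : ℕ → F) :
    PowerSeries.coeff n (PowerSeries.monomial m y * PowerSeries.mk c) =
      if m ≤ n then y * c (n - m) else 0 := by
  have : PowerSeries.monomial m y = PowerSeries.C y * PowerSeries.X ^ m := by
    ext i
    rw [PowerSeries.coeff_monomial, PowerSeries.coeff_C_mul_X_pow]
  rw [this, mul_assoc, PowerSeries.coeff_C_mul, PowerSeries.coeff_X_pow_mul', PowerSeries.coeff_mk]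
  split_ifs <;> simp

theorem FilB_poly (c : ℕ → F) (n : ℕ) (h : ∀ t, n ≤ t → c t = 0) :
    ∃ P : Polynomial F, (∀ t, P.coeff t = c t) ∧ (P : PowerSeries F) = PowerSeries.mk c := by
  have h1 : ∀ t, (PowerSeries.trunc n (PowerSeries.mk c)).coeff t = c t := fun t => by
    rw [PowerSeries.coeff_trunc, PowerSeries.coeff_mk]
    split_ifs with e
    · rfl
    · exact (h t (not_lt.mp e)).symm
  exact ⟨_, h1, PowerSeries.ext fun t => by rw [Polynomial.coeff_coe, h1, PowerSeries.coeff_mk]⟩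

theorem FilB_decomp (T : ℕ) : ∃ T' : ℕ, ∀ a : ℕ → F, (∀ t, a t ∈ 𝔉.V t) → (∀ t < T', a t = 0) →
    ∃ b c d : ℕ → F, (∀ t, b t ∈ 𝔉.V t ∧ c t ∈ 𝔉.V t ∧ d t ∈ 𝔉.V t) ∧
      (∀ t < T, b t = 0 ∧ c t = 0 ∧ d t = 0) ∧
      (∀ n, (∀ t, n ≤ t → a t = 0) → ∀ t, n ≤ t → b t = 0 ∧ c t = 0 ∧ d t = 0) ∧
      PowerSeries.mk a = PowerSeries.monomial 1 1 * PowerSeries.mk b +
        PowerSeries.monomial 14 (𝔉.y 0) * PowerSeries.mk c +
        PowerSeries.monomial 14 (𝔉.y 1) * PowerSeries.mk d := by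
  obtain ⟨T0, hT0⟩ := 𝔉.decomp
  refine ⟨max T T0 + 14, fun a ha h0 => ?_⟩
  obtain ⟨b, c, d, h1, h2, h3⟩ := hT0 _ (le_max_right T T0) a ha h0
  have hm := le_max_left T T0
  refine ⟨fun t => if 13 ≤ t then b (t - 13) else 0, c, d, fun t => ⟨?_, (h1 t).2⟩,
    fun t ht => ⟨?_, (h2 t (h0 _ (by omega))).2⟩, fun n hn t ht => ⟨?_, (h2 t (hn _ (by omega))).2⟩,
    PowerSeries.ext fun n => ?_⟩
  · dsimp only
    split_ifs with e
    · simpa only [Nat.sub_add_cancel e] using (h1 (t - 13)).1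
    · exact Submodule.zero_mem _
  · dsimp only
    split_ifs with e
    · exact (h2 _ (h0 _ (by omega))).1
    · rfl
  · dsimp only
    split_ifs with e
    · exact (h2 _ (hn _ (by omega))).1
    · rfl
  · rw [map_add, map_add, FilB_coeff, FilB_coeff, FilB_coeff, PowerSeries.coeff_mk]
    by_cases e : 14 ≤ n
    · obtain ⟨t, rfl⟩ : ∃ t, n = t + 14 := ⟨n - 14, by omega⟩
      rw [if_pos e, if_pos e, if_pos (by omega), if_pos (by omega), one_mul, h3]
      rfl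
    · rw [if_neg e, if_neg e, h0 n (by omega)]
      split_ifs with e1 e2
      · omega
      · simp
      · simp

/-- The parameters in `Rp`. -/
def par : Fin 3 → 𝔉.Rp :=
  ![⟨_, 𝔉.monomial_mem_Rp 𝔉.one⟩, ⟨_, 𝔉.monomial_mem_Rp (𝔉.hy 0)⟩, ⟨_, 𝔉.monomial_mem_Rp (𝔉.hy 1)⟩]

/-- The parameters in `Rh`. -/
def parh : Fin 3 → 𝔉.Rh :=
  ![⟨_, 𝔉.monomial_mem_Rh 𝔉.one⟩, ⟨_, 𝔉.monomial_mem_Rh (𝔉.hy 0)⟩, ⟨_, 𝔉.monomial_mem_Rh (𝔉.hy 1)⟩]

/-- Induction on `N` with `decomp`. -/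
theorem Rp_pow (N : ℕ) : ∃ T : ℕ, ∀ f : 𝔉.Rp, (∀ n < T, (f : Polynomial F).coeff n = 0) →
    f ∈ Ideal.span {𝔉.par 0, 𝔉.par 1, 𝔉.par 2} ^ N := by
  induction N with
  | zero => exact ⟨0, fun f _ => by simp⟩
  | succ N ih =>
    obtain ⟨T, hT⟩ := ih
    obtain ⟨T', hT'⟩ := 𝔉.FilB_decomp T
    refine ⟨T', fun f hf => ?_⟩
    obtain ⟨b, c, d, h1, h2, h3, h4⟩ := hT' (f : Polynomial F).coeff f.2 hf
    have h5 := h3 ((f : Polynomial F).natDegree + 1) fun t ht =>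
      Polynomial.coeff_eq_zero_of_natDegree_lt (by omega)
    obtain ⟨B, hB, hB'⟩ := FilB_poly b _ fun t ht => (h5 t ht).1
    obtain ⟨C, hC, hC'⟩ := FilB_poly c _ fun t ht => (h5 t ht).2.1
    obtain ⟨D, hD, hD'⟩ := FilB_poly d _ fun t ht => (h5 t ht).2.2
    have e : f = 𝔉.par 0 * ⟨B, fun t => hB t ▸ (h1 t).1⟩ + 𝔉.par 1 * ⟨C, fun t => hC t ▸ (h1 t).2.1⟩ +
        𝔉.par 2 * ⟨D, fun t => hD t ▸ (h1 t).2.2⟩ := by
      refine Subtype.ext (Polynomial.coe_injective F ?_)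
      change _ = ((Polynomial.monomial 1 1 * B + Polynomial.monomial 14 (𝔉.y 0) * C +
        Polynomial.monomial 14 (𝔉.y 1) * D : Polynomial F) : PowerSeries F)
      rw [Polynomial.coe_add, Polynomial.coe_add, Polynomial.coe_mul, Polynomial.coe_mul,
        Polynomial.coe_mul, Polynomial.coe_monomial, Polynomial.coe_monomial,
        Polynomial.coe_monomial, hB', hC', hD', ← h4]
      rfl
    rw [e, pow_succ']
    refine Ideal.add_mem _ (Ideal.add_mem _ ?_ ?_) ?_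
    · exact Ideal.mul_mem_mul (Ideal.subset_span (by simp))
        (hT _ fun n hn => (hB n).trans (h2 n hn).1)
    · exact Ideal.mul_mem_mul (Ideal.subset_span (by simp))
        (hT _ fun n hn => (hC n).trans (h2 n hn).2.1)
    · exact Ideal.mul_mem_mul (Ideal.subset_span (by simp))
        (hT _ fun n hn => (hD n).trans (h2 n hn).2.2)

/-- Induction on `N` with `decomp`. -/
theorem Rh_pow (N : ℕ) : ∃ T : ℕ, ∀ f : 𝔉.Rh,
    (∀ n < T, PowerSeries.coeff n (f : PowerSeries F) = 0) →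
      f ∈ Ideal.span {𝔉.parh 0, 𝔉.parh 1, 𝔉.parh 2} ^ N := by
  induction N with
  | zero => exact ⟨0, fun f _ => by simp⟩
  | succ N ih =>
    obtain ⟨T, hT⟩ := ih
    obtain ⟨T', hT'⟩ := 𝔉.FilB_decomp T
    refine ⟨T', fun f hf => ?_⟩
    obtain ⟨b, c, d, h1, h2, -, h4⟩ := hT' (fun n => PowerSeries.coeff n (f : PowerSeries F)) f.2 hf
    have e : f = 𝔉.parh 0 * ⟨PowerSeries.mk b, fun t => by simpa using (h1 t).1⟩ +
        𝔉.parh 1 * ⟨PowerSeries.mk c, fun t => by simpa using (h1 t).2.1⟩ +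
        𝔉.parh 2 * ⟨PowerSeries.mk d, fun t => by simpa using (h1 t).2.2⟩ := by
      refine Subtype.ext (Eq.trans ?_ h4)
      ext n
      rw [PowerSeries.coeff_mk]
    rw [e, pow_succ']
    refine Ideal.add_mem _ (Ideal.add_mem _ ?_ ?_) ?_
    · exact Ideal.mul_mem_mul (Ideal.subset_span (by simp))
        (hT _ fun n hn => (PowerSeries.coeff_mk n b).trans (h2 n hn).1)
    · exact Ideal.mul_mem_mul (Ideal.subset_span (by simp))
        (hT _ fun n hn => (PowerSeries.coeff_mk n c).trans (h2 n hn).2.1)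
    · exact Ideal.mul_mem_mul (Ideal.subset_span (by simp))
        (hT _ fun n hn => (PowerSeries.coeff_mk n d).trans (h2 n hn).2.2)

namespace Mid
variable {𝔉} {S : Type} [CommRing S] [IsLocalRing S] [Algebra k S] (μ : 𝔉.Mid S)
include μ

theorem isDomain : IsDomain S := μ.inj.isDomain μ.j.toRingHom

theorem z_mem : μ.z ∈ IsLocalRing.maximalIdeal S := by
  rw [μ.max, μ.hz, ← PowerSeries.coeff_zero_eq_constantCoeff_apply, PowerSeries.coeff_monomial]
  simp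

theorem u_mem : μ.u ∈ IsLocalRing.maximalIdeal S := by
  rw [μ.max, μ.hu, ← PowerSeries.coeff_zero_eq_constantCoeff_apply, PowerSeries.coeff_monomial]
  simp

theorem w_mem : μ.w ∈ IsLocalRing.maximalIdeal S := by
  rw [μ.max, μ.hw, ← PowerSeries.coeff_zero_eq_constantCoeff_apply, PowerSeries.coeff_monomial]
  simp

/-- `PowerSeries.X_pow_dvd_iff`. -/
theorem coeff_eq_zero {N : ℕ} {s : S} (h : s ∈ IsLocalRing.maximalIdeal S ^ N) {n : ℕ}
    (hn : n < N) : PowerSeries.coeff n (μ.j s) = 0 := by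
  have h1 : (IsLocalRing.maximalIdeal S).map μ.j ≤ Ideal.span {PowerSeries.X} :=
    Ideal.map_le_iff_le_comap.mpr fun x hx =>
      Ideal.mem_span_singleton.mpr (PowerSeries.X_dvd_iff.mpr ((μ.max x).mp hx))
  have h2 := Ideal.mem_map_of_mem μ.j h
  rw [Ideal.map_pow] at h2
  have h3 := Ideal.pow_right_mono h1 N h2
  rw [Ideal.span_singleton_pow, Ideal.mem_span_singleton] at h3
  exact PowerSeries.X_pow_dvd_iff.mp h3 n hn

theorem exists_pow_le : ∃ T : ℕ, IsLocalRing.maximalIdeal S ^ T ≤ Ideal.span {μ.z, μ.u, μ.w} := by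
  obtain ⟨T, hT⟩ := μ.prim
  exact ⟨T, fun s hs => hT s fun n hn => μ.coeff_eq_zero hs hn⟩

theorem eq_maximalIdeal {p : Ideal S} (hp : p.IsPrime) (hz : μ.z ∈ p) (hu : μ.u ∈ p)
    (hw : μ.w ∈ p) : p = IsLocalRing.maximalIdeal S := by
  obtain ⟨T, hT⟩ := μ.exists_pow_le
  refine le_antisymm (IsLocalRing.le_maximalIdeal hp.ne_top) (hp.le_of_pow_le (n := T) (hT.trans ?_))
  rw [Ideal.span_le]
  rintro x (rfl | rfl | rfl) <;> assumption

/-- The kernel of `s ↦ (coeff n (j s))_{n < T} ∈ Π V n` is contained in the ideal. -/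
theorem fin_quot : FiniteDimensional k (S ⧸ Ideal.span {μ.z, μ.u, μ.w}) := by
  obtain ⟨T, hT⟩ := μ.prim
  have := 𝔉.fin
  let φ : S →ₗ[k] (∀ n : Fin T, 𝔉.V n) := LinearMap.pi fun n =>
    LinearMap.codRestrict _ (((PowerSeries.coeff (R := F) n).restrictScalars k) ∘ₗ μ.j.toLinearMap)
      fun s => μ.mem s n
  have h1 : Module.Finite k (S ⧸ LinearMap.ker φ) := Module.Finite.equiv φ.quotKerEquivRange.symm
  have h2 : LinearMap.ker φ ≤ LinearMap.ker
      (Ideal.Quotient.mkₐ k (Ideal.span {μ.z, μ.u, μ.w})).toLinearMap := fun s hs =>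
    Ideal.Quotient.eq_zero_iff_mem.mpr (hT s fun n hn =>
      congrArg Subtype.val (congrFun (LinearMap.mem_ker.mp hs) ⟨n, hn⟩))
  refine Module.Finite.of_surjective ((LinearMap.ker φ).liftQ _ h2) fun x => ?_
  obtain ⟨s, rfl⟩ := Ideal.Quotient.mk_surjective x
  exact ⟨Submodule.Quotient.mk s, rfl⟩

theorem residue_bij : Function.Bijective (algebraMap k (IsLocalRing.ResidueField S)) := by
  refine ⟨(algebraMap k (IsLocalRing.ResidueField S)).injective, fun x => ?_⟩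
  obtain ⟨s, rfl⟩ := IsLocalRing.residue_surjective x
  obtain ⟨c, hc⟩ := 𝔉.mem_zero.mp (μ.mem s 0)
  refine ⟨c, ?_⟩
  change IsLocalRing.residue S (algebraMap k S c) = _
  rw [← sub_eq_zero, ← map_sub, IsLocalRing.residue_eq_zero_iff, μ.max, map_sub, map_sub,
    AlgHom.commutes, ← PowerSeries.coeff_zero_eq_constantCoeff_apply (μ.j s), hc,
    PowerSeries.algebraMap_apply, PowerSeries.constantCoeff_C, sub_self]

end Mid

end Fil

end Crest.Agent.R169
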