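/-
R169/Dim: local rings between `Rp` and `Rh` have dimension three.
-/
import Crest.Agent.R169.FilB

set_option autoImplicit false
set_option linter.unusedSectionVars false
set_option linter.unusedVariables false
set_option linter.unusedSimpArgs false

noncomputable section

namespace Crest.Agent.R169

open MvPolynomial Filter
open scoped Pointwise


namespace Fil
variable {k F : Type} [Field k] [Field F] [Algebra k F] (𝔉 : Fil k F)

/-- The union of the `V t`. -/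
def Vinf : Subalgebra k F where
  carrier := {x | ∃ t, x ∈ 𝔉.V t}
  add_mem' := fun ⟨s, hs⟩ ⟨t, ht⟩ =>
    ⟨max s t, Submodule.add_mem _ (𝔉.mono (le_max_left _ _) hs) (𝔉.mono (le_max_right _ _) ht)⟩
  mul_mem' := fun ⟨s, hs⟩ ⟨t, ht⟩ => ⟨s + t, 𝔉.mul hs ht⟩
  algebraMap_mem' c := ⟨0, 𝔉.algebraMap_mem c⟩

/-- The parameters in `Vinf`. -/
def yi (i : Fin 2) : 𝔉.Vinf := ⟨𝔉.y i, 14, 𝔉.hy i⟩

/-- `Vinf` is generated by `V (t0 + 13)` as a module over `k[y 0, y 1]` (`gen`). -/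
theorem finite_yi : (aeval 𝔉.yi : MvPolynomial (Fin 2) k →ₐ[k] 𝔉.Vinf).toRingHom.Finite := by
  classical
  obtain ⟨t0, ht0⟩ := 𝔉.gen
  set φ : MvPolynomial (Fin 2) k →ₐ[k] 𝔉.Vinf := aeval 𝔉.yi with hφ
  let : Algebra (MvPolynomial (Fin 2) k) 𝔉.Vinf := φ.toRingHom.toAlgebra
  have hsm : ∀ (p : MvPolynomial (Fin 2) k) (x : 𝔉.Vinf), p • x = φ p * x := fun _ _ => rfl
  obtain ⟨s, hs⟩ : (𝔉.V (t0 + 13)).FG := (Submodule.fg_iff_finiteDimensional _).2 (𝔉.fin _)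
  have hfin : {x : 𝔉.Vinf | (x : F) ∈ s}.Finite :=
    Set.Finite.preimage (f := fun x : 𝔉.Vinf => (x : F)) Subtype.val_injective.injOn
      s.finite_toSet
  set N : Submodule (MvPolynomial (Fin 2) k) 𝔉.Vinf :=
    Submodule.span _ {x : 𝔉.Vinf | (x : F) ∈ s} with hN
  have base : ∀ x ∈ 𝔉.V (t0 + 13), ∀ h : x ∈ 𝔉.Vinf, (⟨x, h⟩ : 𝔉.Vinf) ∈ N := by
    intro x hx
    rw [← hs] at hx
    induction hx using Submodule.span_induction with
    | mem x hx => exact fun h => Submodule.subset_span hx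
    | zero => exact fun h => N.zero_mem
    | add x y hx hy ihx ihy =>
      intro h
      rw [hs] at hx hy
      exact N.add_mem (ihx ⟨_, hx⟩) (ihy ⟨_, hy⟩)
    | smul c x hx ih =>
      intro h
      rw [hs] at hx
      have h1 := N.smul_mem (C c) (ih ⟨_, hx⟩)
      rw [hsm, hφ, aeval_C, ← Algebra.smul_def] at h1
      exact h1
  have key : ∀ t, ∀ x ∈ 𝔉.V t, ∀ h : x ∈ 𝔉.Vinf, (⟨x, h⟩ : 𝔉.Vinf) ∈ N := by
    intro t
    induction t using Nat.strong_induction_on with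
    | _ t ih =>
      intro x hx h
      by_cases ht : t ≤ t0 + 13
      · exact base x (𝔉.mono ht hx) h
      · obtain ⟨t', rfl⟩ : ∃ t', t = t' + 14 := ⟨t - 14, by omega⟩
        have h1 := ht0 t' (by omega) hx
        obtain ⟨x1, hx1, d', hd', rfl⟩ := Submodule.mem_sup.1 h1
        obtain ⟨b, hb, c', hc', rfl⟩ := Submodule.mem_sup.1 hx1
        obtain ⟨c, hc, rfl⟩ := (Submodule.mem_smul_pointwise_iff_exists _ _ _).1 hc'
        obtain ⟨d, hd, rfl⟩ := (Submodule.mem_smul_pointwise_iff_exists _ _ _).1 hd'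
        have e1 := ih (t' + 13) (by omega) b hb ⟨_, hb⟩
        have e2 := N.smul_mem (X 0) (ih t' (by omega) c hc ⟨_, hc⟩)
        have e3 := N.smul_mem (X 1) (ih t' (by omega) d hd ⟨_, hd⟩)
        rw [hsm, hφ, aeval_X] at e2 e3
        exact N.add_mem (N.add_mem e1 e2) e3
  refine ⟨⟨hfin.toFinset, ?_⟩⟩
  rw [Set.Finite.coe_toFinset, ← hN, eq_top_iff]
  rintro ⟨x, t, ht⟩ -
  exact key t x ht _

theorem dim_inj_yi :
    Function.Injective (aeval 𝔉.yi : MvPolynomial (Fin 2) k →ₐ[k] 𝔉.Vinf) := by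
  have h := algebraicIndependent_iff_injective_aeval.1 𝔉.ind
  have e : (aeval 𝔉.y : MvPolynomial (Fin 2) k →ₐ[k] F) = 𝔉.Vinf.val.comp (aeval 𝔉.yi) := by
    ext i
    simp [yi]
  rw [e] at h
  exact Function.Injective.of_comp (f := 𝔉.Vinf.val) h

/-- Lying over and going up over `(X 0) ⊆ (X 0, X 1)`: the map is injective by `ind`;
`Ideal.exists_ideal_over_prime_of_isIntegral`. -/
theorem exists_primes : ∃ q1 q2 : Ideal 𝔉.Vinf, q1.IsPrime ∧ q2.IsPrime ∧ q1 ≤ q2 ∧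
    𝔉.yi 0 ∈ q1 ∧ 𝔉.yi 1 ∉ q1 ∧ 𝔉.yi 1 ∈ q2 := by
  set φ : MvPolynomial (Fin 2) k →ₐ[k] 𝔉.Vinf := aeval 𝔉.yi with hφ
  let : Algebra (MvPolynomial (Fin 2) k) 𝔉.Vinf := φ.toRingHom.toAlgebra
  have : Module.Finite (MvPolynomial (Fin 2) k) 𝔉.Vinf := 𝔉.finite_yi
  have hal : ∀ i, algebraMap (MvPolynomial (Fin 2) k) 𝔉.Vinf (X i) = 𝔉.yi i := fun i => by
    change φ (X i) = _
    rw [hφ, aeval_X]
  let ψ : MvPolynomial (Fin 2) k →ₐ[k] Polynomial k := aeval ![0, Polynomial.X]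
  have hX : (Ideal.span {(Polynomial.X : Polynomial k)}).IsPrime :=
    (Ideal.span_singleton_prime Polynomial.X_ne_zero).2 Polynomial.prime_X
  obtain ⟨q1, -, hq1, e1⟩ := Ideal.exists_ideal_over_prime_of_isIntegral
    ((⊥ : Ideal (Polynomial k)).comap ψ) (⊥ : Ideal 𝔉.Vinf) (by
      rw [Ideal.comap_bot_of_injective (algebraMap (MvPolynomial (Fin 2) k) 𝔉.Vinf) 𝔉.dim_inj_yi]
      exact bot_le)
  obtain ⟨q2, h12, hq2, e2⟩ := Ideal.exists_ideal_over_prime_of_isIntegral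
    ((Ideal.span {(Polynomial.X : Polynomial k)}).comap ψ) q1 (by
      rw [e1]
      exact Ideal.comap_mono bot_le)
  refine ⟨q1, q2, hq1, hq2, h12, ?_, ?_, ?_⟩
  · rw [← hal, ← Ideal.mem_comap, e1, Ideal.mem_comap]
    simp [ψ]
  · rw [← hal, ← Ideal.mem_comap, e1, Ideal.mem_comap]
    simp [ψ]
  · rw [← hal, ← Ideal.mem_comap, e2, Ideal.mem_comap]
    simp [ψ]

namespace Mid
variable {𝔉} {S : Type} [CommRing S] [IsLocalRing S] [Algebra k S] (μ : 𝔉.Mid S)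
include μ

/-- The kernel of `S → (Vinf ⧸ q)⟦X⟧`. -/
theorem exists_prime (q : Ideal 𝔉.Vinf) (hq : q.IsPrime) : ∃ P : Ideal S, P.IsPrime ∧
    ∀ s, s ∈ P ↔ ∀ t, (⟨PowerSeries.coeff t (μ.j s), t, μ.mem s t⟩ : 𝔉.Vinf) ∈ q := by
  let g : S → PowerSeries 𝔉.Vinf := fun s =>
    PowerSeries.mk fun t => (⟨PowerSeries.coeff t (μ.j s), t, μ.mem s t⟩ : 𝔉.Vinf)
  have hinj : Function.Injective (PowerSeries.map 𝔉.Vinf.val.toRingHom) :=
    PowerSeries.map_injective _ Subtype.val_injective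
  have hg : ∀ s, PowerSeries.map 𝔉.Vinf.val.toRingHom (g s) = μ.j s := fun s => by
    ext t
    simp [g]
  let G : S →+* PowerSeries 𝔉.Vinf :=
    { toFun := g
      map_one' := hinj (by rw [hg, map_one, map_one])
      map_mul' := fun a b => hinj (by rw [map_mul, hg, hg, hg, map_mul])
      map_zero' := hinj (by rw [hg, map_zero, map_zero])
      map_add' := fun a b => hinj (by rw [map_add, hg, hg, hg, map_add]) }
  refine ⟨RingHom.ker ((PowerSeries.map (Ideal.Quotient.mk q)).comp G), RingHom.ker_isPrime _,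
    fun s => ?_⟩
  rw [RingHom.mem_ker, PowerSeries.ext_iff]
  refine forall_congr' fun t => ?_
  rw [RingHom.comp_apply, PowerSeries.coeff_map, map_zero, Ideal.Quotient.eq_zero_iff_mem]
  change PowerSeries.coeff t (g s) ∈ q ↔ _
  rw [PowerSeries.coeff_mk]

theorem dim_mem_iff {q : Ideal 𝔉.Vinf} {P : Ideal S}
    (hP : ∀ s, s ∈ P ↔ ∀ t, (⟨PowerSeries.coeff t (μ.j s), t, μ.mem s t⟩ : 𝔉.Vinf) ∈ q)
    {s : S} {n : ℕ} {x : 𝔉.Vinf} (hs : μ.j s = PowerSeries.monomial n (x : F)) :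
    s ∈ P ↔ x ∈ q := by
  rw [hP]
  constructor
  · intro h
    have h1 := h n
    have e : (⟨PowerSeries.coeff n (μ.j s), n, μ.mem s n⟩ : 𝔉.Vinf) = x :=
      Subtype.ext (by simp [hs])
    rwa [e] at h1
  · intro h t
    by_cases ht : t = n
    · have e : (⟨PowerSeries.coeff t (μ.j s), t, μ.mem s t⟩ : 𝔉.Vinf) = x :=
        Subtype.ext (by simp [hs, ht])
      rwa [e]
    · have e : (⟨PowerSeries.coeff t (μ.j s), t, μ.mem s t⟩ : 𝔉.Vinf) = 0 :=
        Subtype.ext (by simp [hs, PowerSeries.coeff_monomial, ht])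
      rw [e]
      exact q.zero_mem

/-- The chain `⊥ < P1 < P2 < 𝔪`, witnessed by `u`, `w`, `z` (`y 0 ≠ 0` by `ind`). -/
theorem three_le_dim : 3 ≤ ringKrullDim S := by
  have := μ.isDomain
  obtain ⟨q1, q2, hq1, hq2, h12, a0, a1, a2⟩ := 𝔉.exists_primes
  obtain ⟨P1, hP1, e1⟩ := μ.exists_prime q1 hq1
  obtain ⟨P2, hP2, e2⟩ := μ.exists_prime q2 hq2
  have hu : μ.u ∈ P1 := (μ.dim_mem_iff e1 (x := 𝔉.yi 0) μ.hu).2 a0
  have hw1 : μ.w ∉ P1 := fun h => a1 ((μ.dim_mem_iff e1 (x := 𝔉.yi 1) μ.hw).1 h)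
  have hw2 : μ.w ∈ P2 := (μ.dim_mem_iff e2 (x := 𝔉.yi 1) μ.hw).2 a2
  have hz : μ.z ∉ P2 := fun h =>
    hq2.ne_top ((Ideal.eq_top_iff_one _).2 ((μ.dim_mem_iff e2 (x := 1) μ.hz).1 h))
  have hu0 : μ.u ≠ 0 := fun h => by
    have h1 := congrArg (PowerSeries.coeff 14) μ.hu
    rw [h, map_zero, map_zero, PowerSeries.coeff_monomial_same] at h1
    exact 𝔉.ind.ne_zero 0 h1.symm
  have l1 : (⊥ : Ideal S) < P1 := bot_lt_iff_ne_bot.2 fun h => hu0 (by simpa [h] using hu)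
  have l2 : P1 < P2 :=
    lt_of_le_of_ne (fun s hs => (e2 s).2 fun t => h12 ((e1 s).1 hs t)) fun h => hw1 (h ▸ hw2)
  have l3 : P2 < IsLocalRing.maximalIdeal S :=
    lt_of_le_of_ne (IsLocalRing.le_maximalIdeal hP2.ne_top) fun h => hz (h ▸ μ.z_mem)
  have b1 := Ideal.height_add_one_le_of_lt_of_isPrime l1
  have b2 := Ideal.height_add_one_le_of_lt_of_isPrime l2
  have b3 := Ideal.height_add_one_le_of_lt_of_isPrime l3
  have b : (3 : ℕ∞) ≤ (IsLocalRing.maximalIdeal S).height := by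
    calc (3 : ℕ∞) = 0 + 1 + 1 + 1 := by norm_num
      _ ≤ (⊥ : Ideal S).height + 1 + 1 + 1 := by gcongr; exact zero_le
      _ ≤ P1.height + 1 + 1 := by gcongr
      _ ≤ P2.height + 1 := by gcongr
      _ ≤ _ := b3
  rw [← IsLocalRing.maximalIdeal_height_eq_ringKrullDim]
  exact WithBot.coe_le_coe.2 b

/-- Krull's height theorem (`eq_maximalIdeal`, `Ideal.height_le_card_of_mem_minimalPrimes_span_finset`,
`IsLocalRing.maximalIdeal_height_eq_ringKrullDim`). -/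
theorem dim_le_three [IsNoetherianRing S] : ringKrullDim S ≤ 3 := by
  classical
  have hm : IsLocalRing.maximalIdeal S ∈
      (Ideal.span (({μ.z, μ.u, μ.w} : Finset S) : Set S)).minimalPrimes := by
    refine ⟨⟨inferInstance, ?_⟩, fun p hp _ => ?_⟩
    · rw [Ideal.span_le]
      intro x hx
      simp only [Finset.coe_insert, Finset.coe_singleton, Set.mem_insert_iff,
        Set.mem_singleton_iff] at hx
      rcases hx with rfl | rfl | rfl
      exacts [μ.z_mem, μ.u_mem, μ.w_mem]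
    · exact (μ.eq_maximalIdeal hp.1 (hp.2 (Ideal.subset_span (by simp)))
        (hp.2 (Ideal.subset_span (by simp))) (hp.2 (Ideal.subset_span (by simp)))).ge
  have h := Ideal.height_le_card_of_mem_minimalPrimes_span_finset hm
  have h3 : (IsLocalRing.maximalIdeal S).height ≤ 3 :=
    h.trans (by exact_mod_cast (Finset.card_le_three : ({μ.z, μ.u, μ.w} : Finset S).card ≤ 3))
  rw [← IsLocalRing.maximalIdeal_height_eq_ringKrullDim]
  exact WithBot.coe_le_coe.2 h3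

theorem dim_eq [IsNoetherianRing S] : ringKrullDim S = 3 :=
  le_antisymm μ.dim_le_three μ.three_le_dim

end Mid

end Fil

end Crest.Agent.R169
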