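/-
R169/KummerA: the Kummer extension: automorphisms and independence of the monomials.
-/
import Crest.Agent.R169.Basis

set_option autoImplicit false
set_option linter.unusedSectionVars false
set_option linter.unusedVariables false
set_option linter.unusedSimpArgs false

noncomputable section

namespace Crest.Agent.R169

open MvPolynomial Filter
open scoped Pointwise


theorem uu_pow (j : Fin 5) : uu j ^ 7 =
    algebraMap (KK ℂ) (AlgebraicClosure (KK ℂ)) (algebraMap (PP ℂ) (KK ℂ) (lin ℂ j)) :=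
  Classical.choose_spec (IsAlgClosed.exists_pow_nat_eq
    (algebraMap (KK ℂ) (AlgebraicClosure (KK ℂ)) (algebraMap (PP ℂ) (KK ℂ) (lin ℂ j)))
    (by norm_num : 0 < 7))

/-- The exponent vector of a sector. -/
abbrev ex7 (β : Fin 5 → Fin 7) : Ex := fun j => (β j : ℤ)

/-- The generators as elements of `K1`. -/
def KummerA_u (j : Fin 5) : K1 := ⟨uu j, IntermediateField.subset_adjoin _ _ ⟨j, rfl⟩⟩

theorem KummerA_UU (β : Ex) : UU β = ∏ j, KummerA_u j ^ β j := rfl

theorem KummerA_u_pow (j : Fin 5) : KummerA_u j ^ 7 =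
    algebraMap (KK ℂ) K1 (algebraMap (PP ℂ) (KK ℂ) (lin ℂ j)) :=
  Subtype.ext (uu_pow j)

theorem KummerA_lin_ne (j : Fin 5) : algebraMap (PP ℂ) (KK ℂ) (lin ℂ j) ≠ 0 := by
  rw [← mon_single]; exact mon_ne_zero _

theorem KummerA_u_ne (j : Fin 5) : KummerA_u j ≠ 0 := by
  intro h
  have := KummerA_u_pow j
  rw [h, zero_pow (by norm_num)] at this
  exact KummerA_lin_ne j ((algebraMap (KK ℂ) K1).injective (by rw [← this, map_zero]))

theorem KummerA_root {F : Type} [Field F] [Algebra ℂ F] {y z : F} (hz : z ≠ 0)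
    (h : y ^ 7 = z ^ 7) : ∃ c : ℂ, y = c • z := by
  have h1 : IsPrimitiveRoot (Complex.exp (2 * Real.pi * Complex.I / (7 : ℕ))) 7 :=
    Complex.isPrimitiveRoot_exp 7 (by norm_num)
  have h2 := h1.map_of_injective (algebraMap ℂ F).injective
  have h3 : (y / z) ^ 7 = 1 := by rw [div_pow, h, div_self (pow_ne_zero _ hz)]
  obtain ⟨i, -, hi⟩ := h2.eq_pow_of_pow_eq_one h3
  refine ⟨Complex.exp (2 * Real.pi * Complex.I / (7 : ℕ)) ^ i, ?_⟩
  rw [Algebra.smul_def, map_pow, hi, div_mul_cancel₀ _ hz]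

theorem UU_ne_zero (β : Ex) : UU β ≠ 0 := by
  rw [KummerA_UU]
  exact Finset.prod_ne_zero_iff.2 fun j _ => zpow_ne_zero _ (KummerA_u_ne j)

theorem UU_add (β β' : Ex) : UU (β + β') = UU β * UU β' := by
  rw [KummerA_UU, KummerA_UU, KummerA_UU, ← Finset.prod_mul_distrib]
  exact Finset.prod_congr rfl fun j _ => by rw [Pi.add_apply, zpow_add₀ (KummerA_u_ne j)]

@[simp] theorem UU_zero : UU 0 = 1 := by
  rw [KummerA_UU]
  exact Finset.prod_eq_one fun j _ => by rw [Pi.zero_apply, zpow_zero]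

theorem UU_zsmul (n : ℤ) (β : Ex) : UU (n • β) = UU β ^ n := by
  rw [KummerA_UU, KummerA_UU, ← Finset.prod_zpow]
  exact Finset.prod_congr rfl fun j _ => by rw [Pi.smul_apply, smul_eq_mul, mul_comm, zpow_mul]

theorem UU_seven (ν : Ex) : UU ((7 : ℤ) • ν) = algebraMap (KK ℂ) K1 (mon ℂ ν) := by
  rw [KummerA_UU, mon, map_prod]
  refine Finset.prod_congr rfl fun j _ => ?_
  rw [Pi.smul_apply, smul_eq_mul, zpow_mul, map_zpow₀, ← KummerA_u_pow, ← zpow_natCast]
  rfl

/-- The monomials are eigenvectors: `σ (u j) / u j` is a seventh root of unity, hence in `ℂ`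
(`X ^ 7 - 1` splits over `ℂ`; `IsPrimitiveRoot.eq_pow_of_pow_eq_one`). -/
theorem aut_UU (σ : K1 →ₐ[KK ℂ] K1) (β : Ex) : ∃ c : ℂ, σ (UU β) = c • UU β := by
  have h : ∀ j, ∃ c : ℂ, σ (KummerA_u j) = c • KummerA_u j := fun j =>
    KummerA_root (KummerA_u_ne j) (by rw [← map_pow, KummerA_u_pow, AlgHom.commutes])
  choose c hc using h
  refine ⟨∏ j, c j ^ β j, ?_⟩
  rw [KummerA_UU, map_prod, Algebra.smul_def, map_prod, ← Finset.prod_mul_distrib]
  refine Finset.prod_congr rfl fun j _ => ?_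
  rw [map_zpow₀, hc, Algebra.smul_def, mul_zpow, map_zpow₀]

/-- If `UU β = f ∈ KK ℂ` then `f ^ 7 = mon β`; compare `val (.inl j)` (`val_pow`, `val_mon_inl`,
`val_inl_mod`, `dv_castLE`). -/
theorem dvd_of_UU_eq {β : Ex} {f : KK ℂ} (h : UU β = algebraMap (KK ℂ) K1 f) (j : Fin 5) :
    (7 : ℤ) ∣ β j := by
  have hf : f ≠ 0 := by
    rintro rfl
    exact UU_ne_zero β (by rw [h, map_zero])
  have h7 : f ^ 7 = mon ℂ β := by
    apply (algebraMap (KK ℂ) K1).injective
    rw [← UU_seven, UU_zsmul, h, map_pow]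
    rfl
  have h1 := val_pow (.inl (Fin.castLE (by norm_num) j)) hf 0 7
  obtain ⟨v, hv⟩ := val_inl_mod (k := ℂ) (Fin.castLE (by norm_num) j) f
  rw [h7, val_mon_inl, dv_castLE, hv, smul_zero] at h1
  simp only [Pi.zero_apply, add_zero, Nat.cast_ofNat] at h1
  exact ⟨v, by omega⟩

/-- Recipe: `K1` is Galois over `KK ℂ` (it is the splitting field of `∏ (X ^ 7 - lin j)`), or: an
element of the algebraic closure `Ω` fixed by all `Ω ≃ₐ[KK ℂ] Ω` is in `KK ℂ`
(`InfiniteGalois`, `IsGalois (KK ℂ) Ω` in characteristic zero), and such an automorphism maps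
`u j` to a complex multiple of `u j`, so it restricts to `K1`. -/
theorem exists_aut {x : K1} (h : ∀ f : KK ℂ, x ≠ algebraMap (KK ℂ) K1 f) :
    ∃ σ : K1 →ₐ[KK ℂ] K1, σ x ≠ x := by
  have hx : (x : AlgebraicClosure (KK ℂ)) ∉
      Set.range (algebraMap (KK ℂ) (AlgebraicClosure (KK ℂ))) := by
    rintro ⟨f, hf⟩
    exact h f (Subtype.ext hf.symm)
  rw [InfiniteGalois.mem_range_algebraMap_iff_fixed] at hx
  push Not at hx
  obtain ⟨τ, hτ⟩ := hx
  have hle : (IntermediateField.adjoin (KK ℂ) (Set.range uu)).map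
      (τ : AlgebraicClosure (KK ℂ) →ₐ[KK ℂ] AlgebraicClosure (KK ℂ)) ≤
      IntermediateField.adjoin (KK ℂ) (Set.range uu) := by
    rw [IntermediateField.adjoin_map, IntermediateField.adjoin_le_iff]
    rintro _ ⟨_, ⟨j, rfl⟩, rfl⟩
    have hne : uu j ≠ 0 := fun h0 => KummerA_u_ne j (Subtype.ext h0)
    obtain ⟨c, hc⟩ := KummerA_root (y := τ (uu j)) hne
      (by rw [← map_pow, uu_pow, AlgEquiv.commutes])
    change τ (uu j) ∈ _
    rw [hc]
    exact (c • KummerA_u j).2
  have hmem : ∀ y : K1, τ y ∈ IntermediateField.adjoin (KK ℂ) (Set.range uu) := fun y =>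
    hle ⟨y, y.2, rfl⟩
  refine ⟨{ toFun := fun y => ⟨τ y, hmem y⟩
            map_one' := Subtype.ext (map_one τ)
            map_mul' := fun y z => Subtype.ext (map_mul τ y.1 z.1)
            map_zero' := Subtype.ext (map_zero τ)
            map_add' := fun y z => Subtype.ext (map_add τ y.1 z.1)
            commutes' := fun r => Subtype.ext (τ.commutes r) }, fun h' => hτ ?_⟩
  exact congrArg Subtype.val h'

/-- A subspace stable under the automorphisms contains the components of its elements.  Recipe: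
induction on the number of `β'` with `f β' ≠ 0`; for `β' ≠ β` take `σ` moving `UU (ex7 β - ex7 β')`
(`exists_aut`, `dvd_of_UU_eq`); the eigenvalues `c`, `c'` of `σ` on `UU β`, `UU β'` differ, and
`σ x - c' • x` has no `β'` component and the `β` component `(c - c') • f β • UU β`. -/
theorem comp_mem (A : Submodule ℂ K1) (hA : ∀ (σ : K1 →ₐ[KK ℂ] K1), ∀ x ∈ A, σ x ∈ A)
    (f : (Fin 5 → Fin 7) → KK ℂ) (h : ∑ β, f β • UU (ex7 β) ∈ A) (β : Fin 5 → Fin 7) :
    f β • UU (ex7 β) ∈ A := by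
  classical
  suffices H : ∀ (s : Finset (Fin 5 → Fin 7)) (f : (Fin 5 → Fin 7) → KK ℂ),
      (∀ γ, γ ≠ β → γ ∉ s → f γ = 0) → ∑ β, f β • UU (ex7 β) ∈ A → f β • UU (ex7 β) ∈ A from
    H Finset.univ f (fun γ _ hγ => absurd (Finset.mem_univ γ) hγ) h
  intro s
  induction s using Finset.induction_on with
  | empty =>
    intro f hf h
    rwa [Finset.sum_eq_single β (fun γ _ hγ => by rw [hf γ hγ (Finset.notMem_empty _), zero_smul])
      (fun h => absurd (Finset.mem_univ β) h)] at h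
  | insert β' s hs ih =>
    intro f hf h
    by_cases hβ : β' = β
    · exact ih f (fun γ h1 h2 => hf γ h1 fun h3 =>
        (Finset.mem_insert.1 h3).elim (fun h4 => h1 (h4.trans hβ)) h2) h
    have hD : ∀ g : KK ℂ, UU (ex7 β - ex7 β') ≠ algebraMap (KK ℂ) K1 g := by
      intro g hg
      refine hβ (funext fun j => ?_)
      have h1 := dvd_of_UU_eq hg j
      have h2 := (β j).2
      have h3 := (β' j).2
      change (7 : ℤ) ∣ ((β j : ℕ) : ℤ) - ((β' j : ℕ) : ℤ) at h1
      exact Fin.ext (by omega)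
    obtain ⟨σ, hσ⟩ := exists_aut hD
    choose c hc using fun γ : Fin 5 → Fin 7 => aut_UU σ (ex7 γ)
    have hcc : c β - c β' ≠ 0 := by
      intro h0
      rw [sub_eq_zero] at h0
      have h1 : UU (ex7 β) = UU (ex7 β - ex7 β') * UU (ex7 β') := by
        rw [← UU_add, sub_add_cancel]
      have h2 : σ (UU (ex7 β')) ≠ 0 := (map_ne_zero σ).2 (UU_ne_zero _)
      apply hσ
      apply mul_right_cancel₀ h2
      rw [← map_mul, ← h1, hc, hc, h0, h1, mul_smul_comm]
    have h1 : ∑ γ, ((c γ - c β') • f γ) • UU (ex7 γ) ∈ A := by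
      have h2 := A.sub_mem (hA σ _ h) (A.smul_mem (c β') h)
      rw [map_sum, Finset.smul_sum, ← Finset.sum_sub_distrib] at h2
      convert h2 using 2 with γ
      rw [show σ (f γ • UU (ex7 γ)) = f γ • σ (UU (ex7 γ)) by
        rw [Algebra.smul_def, map_mul, AlgHom.commutes, ← Algebra.smul_def],
        hc, smul_assoc, sub_smul, smul_comm (f γ)]
    have h2 := ih (fun γ => (c γ - c β') • f γ) (fun γ h1 h2 => by
      by_cases h3 : γ = β'
      · rw [h3, sub_self, zero_smul]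
      · rw [hf γ h1 fun h4 => (Finset.mem_insert.1 h4).elim h3 h2, smul_zero]) h1
    have h3 := A.smul_mem (c β - c β')⁻¹ h2
    rwa [smul_assoc, smul_smul, inv_mul_cancel₀ hcc, one_smul] at h3

theorem UU_ind {f : (Fin 5 → Fin 7) → KK ℂ} (h : ∑ β, f β • UU (ex7 β) = 0) (β : Fin 5 → Fin 7) :
    f β = 0 := by
  have := comp_mem ⊥ (fun σ x hx => by rw [Submodule.mem_bot] at hx ⊢; rw [hx, map_zero]) f
    (by rw [h]; exact Submodule.zero_mem _) β
  rw [Submodule.mem_bot, smul_eq_zero] at this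
  exact this.resolve_right (UU_ne_zero _)

/-- Division with remainder of exponents. -/
theorem exists_ex7 (β : Ex) : ∃ (β0 : Fin 5 → Fin 7) (ν : Ex), β = ex7 β0 + (7 : ℤ) • ν := by
  refine ⟨fun j => ⟨(β j % 7).toNat, by omega⟩, fun j => β j / 7, funext fun j => ?_⟩
  change β j = (((β j % 7).toNat : ℕ) : ℤ) + 7 * (β j / 7)
  omega

/-- Recipe: `IntermediateField.adjoin_toSubalgebra_of_isAlgebraic` (or `adjoin_algebraic_toSubalgebra`) and
`Algebra.adjoin_induction`; the span of all `UU β` is closed under multiplication. -/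
theorem UU_span (x : K1) : ∃ f : (Fin 5 → Fin 7) → KK ℂ, x = ∑ β, f β • UU (ex7 β) := by
  classical
  have hS : ∀ y ∈ Algebra.adjoin (KK ℂ) (Set.range uu), ∃ z : K1, (z : AlgebraicClosure (KK ℂ)) = y ∧
      z ∈ Submodule.span (KK ℂ) (Set.range UU) := by
    intro y hy
    induction hy using Algebra.adjoin_induction with
    | mem y hy =>
      obtain ⟨j, rfl⟩ := hy
      refine ⟨KummerA_u j, rfl, Submodule.subset_span ⟨Pi.single j 1, ?_⟩⟩
      rw [KummerA_UU, Finset.prod_eq_single j (fun i _ hi => by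
        rw [Pi.single_eq_of_ne hi, zpow_zero]) (fun h => absurd (Finset.mem_univ j) h),
        Pi.single_eq_same, zpow_one]
    | algebraMap r =>
      refine ⟨algebraMap (KK ℂ) K1 r, rfl, ?_⟩
      rw [Algebra.algebraMap_eq_smul_one]
      exact Submodule.smul_mem _ _ (Submodule.subset_span ⟨0, UU_zero⟩)
    | add y y' _ _ h h' =>
      obtain ⟨z, rfl, hz⟩ := h
      obtain ⟨z', rfl, hz'⟩ := h'
      exact ⟨z + z', rfl, Submodule.add_mem _ hz hz'⟩
    | mul y y' _ _ h h' =>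
      obtain ⟨z, rfl, hz⟩ := h
      obtain ⟨z', rfl, hz'⟩ := h'
      refine ⟨z * z', rfl, ?_⟩
      have h1 := Submodule.mul_mem_mul hz hz'
      rw [Submodule.span_mul_span] at h1
      refine Submodule.span_mono ?_ h1
      rintro _ ⟨_, ⟨β, rfl⟩, _, ⟨β', rfl⟩, rfl⟩
      exact ⟨β + β', UU_add β β'⟩
  have hx : (x : AlgebraicClosure (KK ℂ)) ∈ Algebra.adjoin (KK ℂ) (Set.range uu) := by
    rw [← IntermediateField.adjoin_toSubalgebra_of_isAlgebraic
      (fun y _ => Algebra.IsAlgebraic.isAlgebraic y)]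
    exact x.2
  obtain ⟨z, hz, h⟩ := hS _ hx
  obtain rfl : z = x := Subtype.ext hz
  have hle : Submodule.span (KK ℂ) (Set.range UU) ≤
      Submodule.span (KK ℂ) (Set.range fun β => UU (ex7 β)) := by
    rw [Submodule.span_le]
    rintro _ ⟨β, rfl⟩
    obtain ⟨β0, ν, rfl⟩ := exists_ex7 β
    rw [UU_add, UU_seven, mul_comm, ← Algebra.smul_def]
    exact Submodule.smul_mem _ _ (Submodule.subset_span ⟨β0, rfl⟩)
  obtain ⟨f, hf⟩ := (Submodule.mem_span_range_iff_exists_fun _).1 (hle h)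
  exact ⟨f, hf.symm⟩

end Crest.Agent.R169
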