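/-
R169/Kummer: the filtration of the function field of the Kummer cover.
-/
import Crest.Agent.R169.KummerA

set_option autoImplicit false
set_option linter.unusedSectionVars false
set_option linter.unusedVariables false
set_option linter.unusedSimpArgs false

noncomputable section

namespace Crest.Agent.R169

open MvPolynomial Filter
open scoped Pointwise


theorem H1_stable : Stable H1 := gen_stable _

theorem smul_UU_mem {α : Dg} {β : Ex} {f : KK ℂ} (hf : f ∈ CC ℂ (α + dv β)) :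
    f • UU β ∈ H1 α := by
  refine Submodule.subset_span ⟨(UU β, -dv β), ⟨β, rfl⟩, f, ?_, rfl⟩
  rwa [sub_neg_eq_add]

theorem Kummer_smul_UU (f : KK ℂ) (β ν : Ex) :
    f • UU (β + (7 : ℤ) • ν) = (mon ℂ ν * f) • UU β := by
  rw [UU_add, UU_seven, mul_comm (UU β), ← Algebra.smul_def, smul_smul, mul_comm]

theorem Kummer_mem_CC {f : KK ℂ} {α : Dg} {β ν : Ex} :
    f ∈ CC ℂ (α + dv (β + (7 : ℤ) • ν)) ↔ mon ℂ ν * f ∈ CC ℂ (α + dv β) := by
  rw [map_add, map_zsmul, ← add_assoc]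
  exact isLat_CC.stable.per ν

/-- `exists_ex7`, `UU_seven`, `Stable.per` for `CC`. -/
theorem mem_H1 {x : K1} {α : Dg} : x ∈ H1 α ↔ ∃ f : (Fin 5 → Fin 7) → KK ℂ,
    (∀ β, f β ∈ CC ℂ (α + dv (ex7 β))) ∧ x = ∑ β, f β • UU (ex7 β) := by
  classical
  constructor
  · intro hx
    induction hx using Submodule.span_induction with
    | mem y hy =>
      obtain ⟨_, ⟨β, rfl⟩, f, hf, rfl⟩ := hy
      obtain ⟨β0, ν, rfl⟩ := exists_ex7 β
      rw [sub_neg_eq_add, Kummer_mem_CC] at hf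
      refine ⟨Pi.single β0 (mon ℂ ν * f), fun β => ?_, ?_⟩
      · by_cases h : β = β0
        · subst h; rwa [Pi.single_eq_same]
        · rw [Pi.single_eq_of_ne h]; exact Submodule.zero_mem _
      · rw [Finset.sum_eq_single β0 (fun β _ h => by rw [Pi.single_eq_of_ne h, zero_smul])
          (fun h => absurd (Finset.mem_univ _) h), Pi.single_eq_same]
        exact Kummer_smul_UU _ _ _
    | zero => exact ⟨0, fun _ => Submodule.zero_mem _, by simp⟩
    | add y z _ _ hy hz =>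
      obtain ⟨f, hf, rfl⟩ := hy
      obtain ⟨g, hg, rfl⟩ := hz
      refine ⟨f + g, fun β => Submodule.add_mem _ (hf β) (hg β), ?_⟩
      simp only [Pi.add_apply, add_smul, Finset.sum_add_distrib]
    | smul c y _ hy =>
      obtain ⟨f, hf, rfl⟩ := hy
      refine ⟨c • f, fun β => Submodule.smul_mem _ _ (hf β), ?_⟩
      simp only [Pi.smul_apply, smul_assoc, Finset.smul_sum]
  · rintro ⟨f, hf, rfl⟩
    exact Submodule.sum_mem _ fun β _ => smul_UU_mem (hf β)

theorem isLat_H1 : IsLat H1 := by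
  refine ⟨Set.range fun β : Fin 5 → Fin 7 => (UU (ex7 β), -dv (ex7 β)), Set.finite_range _,
    le_antisymm (fun α x hx => ?_) (gen_mono ?_)⟩
  · obtain ⟨f, hf, rfl⟩ := mem_H1.1 hx
    exact mem_gen_range.2 ⟨f, fun β => by rw [sub_neg_eq_add]; exact hf β, rfl⟩
  · rintro _ ⟨β, rfl⟩
    exact ⟨ex7 β, rfl⟩

theorem mul_mem_H1 {x y : K1} {α γ : Dg} (hx : x ∈ H1 α) (hy : y ∈ H1 γ) : x * y ∈ H1 (α + γ) := by
  obtain ⟨f, hf, rfl⟩ := mem_H1.1 hx
  obtain ⟨g, hg, rfl⟩ := mem_H1.1 hy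
  rw [Finset.sum_mul_sum]
  refine Submodule.sum_mem _ fun β _ => Submodule.sum_mem _ fun β' _ => ?_
  rw [smul_mul_smul_comm, ← UU_add]
  refine smul_UU_mem ?_
  rw [map_add, add_add_add_comm]
  exact mul_mem_CC (hf β) (hg β')

theorem UU_mem (β : Ex) : UU β ∈ H1 (-dv β) := mem_gen ⟨β, rfl⟩

theorem algebraMap_mem_H1 {α : Dg} {f : KK ℂ} (hf : f ∈ CC ℂ α) :
    algebraMap (KK ℂ) K1 f ∈ H1 α := by
  have := smul_UU_mem (α := α) (β := 0) (f := f) (by rwa [map_zero, add_zero])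
  rwa [UU_zero, ← Algebra.algebraMap_eq_smul_one] at this

/-- A monomial `mon ν` in `CC (dv β)` has `7 dv ν + dv β ≥ 0` of degree zero, so `β = -7 ν`. -/
theorem H1_zero : H1 0 = Submodule.span ℂ {1} := by
  refine le_antisymm (Submodule.span_le.2 ?_) (Submodule.span_le.2 ?_)
  · rintro _ ⟨_, ⟨β, rfl⟩, f, hf, rfl⟩
    rw [sub_neg_eq_add, zero_add] at hf
    show f • UU β ∈ Submodule.span ℂ {1}
    induction hf using Submodule.span_induction with
    | mem y hy =>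
      obtain ⟨ν, hν, rfl⟩ := hy
      have h1 : (7 : ℤ) • dv ν + dv β = dv (β + (7 : ℤ) • ν) := by
        rw [map_add, map_zsmul, add_comm]
      have h2 : 0 ≤ dv (β + (7 : ℤ) • ν) := h1 ▸ hν
      have h3 : dv (β + (7 : ℤ) • ν) = 0 := funext fun i =>
        (Finset.sum_eq_zero_iff_of_nonneg fun i _ => h2 i).1 (deg_dv _) i (Finset.mem_univ _)
      have h4 : β + (7 : ℤ) • ν = 0 := dv_injective (h3.trans (map_zero _).symm)
      have h5 := Kummer_smul_UU 1 β ν
      rw [h4, UU_zero, mul_one, one_smul] at h5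
      rw [← h5]
      exact Submodule.mem_span_singleton_self _
    | zero => rw [zero_smul]; exact Submodule.zero_mem _
    | add y z _ _ hy hz => rw [add_smul]; exact Submodule.add_mem _ hy hz
    | smul c y _ hy => rw [smul_assoc]; exact Submodule.smul_mem _ _ hy
  · rintro _ rfl
    simpa using algebraMap_mem_H1 (one_mem_CC (k := ℂ) le_rfl)

/-- The homogeneous case `UU_ind`, `mem_H1`. -/
theorem mem_CC_of_smul_UU {α : Dg} {β : Ex} {f : KK ℂ} (h : f • UU β ∈ H1 α) :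
    f ∈ CC ℂ (α + dv β) := by
  classical
  obtain ⟨β0, ν, rfl⟩ := exists_ex7 β
  obtain ⟨g, hg, e⟩ := mem_H1.1 h
  rw [Kummer_smul_UU] at e
  have h1 := UU_ind (f := g - Pi.single β0 (mon ℂ ν * f)) (by
    simp only [Pi.sub_apply, sub_smul, Finset.sum_sub_distrib]
    rw [← e, Finset.sum_eq_single β0 (fun β _ h => by rw [Pi.single_eq_of_ne h, zero_smul])
      (fun h => absurd (Finset.mem_univ _) h), Pi.single_eq_same, sub_self]) β0
  rw [Pi.sub_apply, Pi.single_eq_same, sub_eq_zero] at h1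
  rw [Kummer_mem_CC, ← h1]
  exact hg β0

theorem Kummer_map_smul (σ : K1 →ₐ[KK ℂ] K1) (f : KK ℂ) (x : K1) : σ (f • x) = f • σ x :=
  σ.toLinearMap.map_smul f x

theorem Kummer_mul_mem (S : Submodule ℂ K1) (c : ℂ) {x : K1} (hx : x ∈ S) :
    algebraMap ℂ K1 c * x ∈ S := by
  rw [← Algebra.smul_def]
  exact S.smul_mem c hx

theorem Kummer_smul_smul (f : KK ℂ) (c : ℂ) (x : K1) :
    f • c • x = algebraMap ℂ K1 c * f • x := by
  rw [Algebra.smul_def, Algebra.smul_def, Algebra.smul_def, mul_left_comm]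

theorem aut_mem_H1 (σ : K1 →ₐ[KK ℂ] K1) {α : Dg} {x : K1} (hx : x ∈ H1 α) : σ x ∈ H1 α := by
  obtain ⟨f, hf, rfl⟩ := mem_H1.1 hx
  rw [map_sum]
  refine Submodule.sum_mem _ fun β _ => ?_
  obtain ⟨c, hc⟩ := aut_UU σ (ex7 β)
  rw [Kummer_map_smul, hc, Kummer_smul_smul]
  exact Kummer_mul_mem _ _ (smul_UU_mem (hf β))

/-- The quotient `(S : z)`. -/
def Kummer_quot (S : Submodule ℂ K1) (z : K1) : Submodule ℂ K1 where
  carrier := {y | y * z ∈ S}
  zero_mem' := by
    show (0 : K1) * z ∈ S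
    rw [zero_mul]; exact S.zero_mem
  add_mem' := fun {x y} hx hy => by
    show (x + y) * z ∈ S
    rw [add_mul]; exact S.add_mem hx hy
  smul_mem' := fun c y hy => by
    have h : (c • y) * z ∈ S := by
      rw [Algebra.smul_def, mul_assoc]
      exact Kummer_mul_mem S c hy
    exact h

theorem Kummer_mem_quot {S : Submodule ℂ K1} {z y : K1} : y ∈ Kummer_quot S z ↔ y * z ∈ S :=
  Iff.rfl

theorem Kummer_norm_hom {f : KK ℂ} {β : Ex} {d : K1} {γ α : Dg} (hd : d ≠ 0)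
    (h : ∀ n : ℕ, d * (f • UU β) ^ n ∈ H1 (γ + n • α)) : f ∈ CC ℂ (α + dv β) := by
  rw [mem_CC]
  by_cases hf : f = 0
  · exact Or.inl hf
  refine Or.inr fun π => ?_
  obtain ⟨g, rfl⟩ := UU_span d
  obtain ⟨β', hβ'⟩ : ∃ β', g β' ≠ 0 := by
    by_contra hn
    push Not at hn
    exact hd (Finset.sum_eq_zero fun β _ => by rw [hn β, zero_smul])
  have key : ∀ n : ℕ, 0 ≤ val π (g β') (γ + dv (ex7 β')) + n * val π f (α + dv β) := by
    intro n
    have h1 := comp_mem (Kummer_quot (H1 (γ + n • α)) ((f • UU β) ^ n))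
      (fun σ y hy => by
        obtain ⟨c, hc⟩ := aut_UU σ β
        have hc0 : c ≠ 0 := by
          rintro rfl
          rw [Algebra.smul_def, map_zero, zero_mul, map_eq_zero] at hc
          exact UU_ne_zero β hc
        have h2 := Kummer_mul_mem _ (c⁻¹ ^ n) (aut_mem_H1 σ (Kummer_mem_quot.1 hy))
        rw [map_mul, map_pow σ, Kummer_map_smul, hc, Kummer_smul_smul, mul_pow, mul_left_comm,
          ← mul_assoc (algebraMap ℂ K1 _), ← map_pow, ← map_mul, ← mul_pow, inv_mul_cancel₀ hc0,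
          one_pow, map_one, one_mul] at h2
        exact h2) g (h n) β'
    rw [Kummer_mem_quot, smul_pow, smul_mul_smul_comm,
      ← zpow_natCast (UU β), ← UU_zsmul, ← UU_add] at h1
    have h2 := mem_CC_of_smul_UU h1
    have h3 : γ + n • α + dv (ex7 β' + (n : ℤ) • β) =
        (γ + dv (ex7 β')) + (n : ℤ) • (α + dv β) := by
      rw [map_add, map_zsmul, smul_add, natCast_zsmul α]; abel
    rw [h3] at h2
    have h4 := (mem_CC.1 h2).resolve_left (mul_ne_zero hβ' (pow_ne_zero n hf)) π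
    rwa [val_mul π hβ' (pow_ne_zero n hf), val_pow π hf] at h4
  by_contra hn
  have h5 := key ((val π (g β') (γ + dv (ex7 β'))).natAbs + 1)
  push_cast at h5
  have h6 := le_abs_self (val π (g β') (γ + dv (ex7 β')))
  have h7 := abs_nonneg (val π (g β') (γ + dv (ex7 β')))
  nlinarith

/-- Almost integral elements of degree `α`. -/
def Kummer_alm (α : Dg) : Submodule ℂ K1 where
  carrier := {x | ∃ d : K1, d ≠ 0 ∧ ∃ γ, ∀ n : ℕ, d * x ^ n ∈ H1 (γ + n • α)}
  zero_mem' := ⟨1, one_ne_zero, 0, fun n => by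
    rcases n with _ | n
    · simpa using algebraMap_mem_H1 (one_mem_CC (k := ℂ) le_rfl)
    · rw [zero_pow n.succ_ne_zero, mul_zero]; exact Submodule.zero_mem _⟩
  add_mem' := by
    rintro x y ⟨d, hd, γ, h⟩ ⟨d', hd', γ', h'⟩
    refine ⟨d * d', mul_ne_zero hd hd', γ + γ', fun n => ?_⟩
    rw [add_pow, Finset.mul_sum]
    refine Submodule.sum_mem _ fun m hm => ?_
    have hm' : m + (n - m) = n := Nat.add_sub_cancel' (Nat.lt_succ_iff.1 (Finset.mem_range.1 hm))
    have h1 := mul_mem_H1 (h m) (h' (n - m))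
    rw [add_add_add_comm, ← add_smul, hm'] at h1
    have h2 : d * d' * (x ^ m * y ^ (n - m) * (n.choose m : K1)) =
        n.choose m • (d * x ^ m * (d' * y ^ (n - m))) := by
      rw [nsmul_eq_mul]; ring
    rw [h2]
    exact nsmul_mem h1 _
  smul_mem' := by
    rintro c x ⟨d, hd, γ, h⟩
    refine ⟨d, hd, γ, fun n => ?_⟩
    have h1 : d * (c • x) ^ n ∈ H1 (γ + n • α) := by
      rw [Algebra.smul_def c x, mul_pow, ← map_pow, mul_left_comm]
      exact Kummer_mul_mem _ _ (h n)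
    exact h1

/-- Almost integral elements.  Recipe: `A = {x | ∃ d ≠ 0, ∃ γ, ∀ n, d * x ^ n ∈ H1 (γ + n • α)}` is a
`ℂ`-subspace (binomial theorem, `mul_mem_H1`) stable under all `σ`; by `UU_span`, `comp_mem` assume
`x = f • UU β`.  For `d = ∑ g β' • UU β'` with `g β' ≠ 0` the element `(g β' * f ^ n) • UU (β' + n β)`
lies in `H1 (γ + n α)` (`comp_mem` for `(H1 _).comap (mulRight (x ^ n))`, which is stable because
`σ x = c • x` with `c ≠ 0`).  Then `mem_CC_of_smul_UU`, `mem_CC`, `val_mul`, `val_pow` give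
`0 ≤ val π (g β') _ + n * val π f (α + dv β)` for all `n`. -/
theorem H1_norm {x d : K1} {γ α : Dg} (hd : d ≠ 0) (h : ∀ n : ℕ, d * x ^ n ∈ H1 (γ + n • α)) :
    x ∈ H1 α := by
  obtain ⟨f, rfl⟩ := UU_span x
  refine mem_H1.2 ⟨f, fun β => ?_, rfl⟩
  obtain ⟨d', hd', γ', h'⟩ := comp_mem (Kummer_alm α) (by
    rintro σ x ⟨d, hd, γ, h⟩
    refine ⟨σ d, (map_ne_zero σ).2 hd, γ, fun n => ?_⟩
    rw [← map_pow, ← map_mul]
    exact aut_mem_H1 σ (h n)) f ⟨d, hd, γ, h⟩ β
  exact Kummer_norm_hom hd' h'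

/-- `IsLat.fin_params` with `e = 1`, `α = 0`; `algebraMap_smul`. -/
theorem H1_gen : ∃ t0 : ℕ, ∀ t, t0 ≤ t → H1 ((t + 14) • ζ) ≤ H1 ((t + 13) • ζ) ⊔
    algebraMap (KK ℂ) K1 (yy ℂ 0) • H1 (t • ζ) ⊔ algebraMap (KK ℂ) K1 (yy ℂ 1) • H1 (t • ζ) := by
  obtain ⟨t0, ht0⟩ := eventually_atTop.1 (isLat_H1.fin_params 1 0)
  refine ⟨t0, fun t ht => ?_⟩
  have h := ht0 (t + 14) (by omega)
  have e1 : (0 : Dg) + (t + 14) • ζ - ((1 : ℕ) : ℤ) • ζ = (t + 13) • ζ := by
    rw [zero_add, Nat.cast_one, one_smul, show t + 14 = t + 13 + 1 from rfl, succ_nsmul,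
      add_sub_cancel_right]
  have e2 : (0 : Dg) + (t + 14) • ζ - (14 : ℤ) • ζ = t • ζ := by
    rw [zero_add, add_smul, show (14 : ℤ) • ζ = (14 : ℕ) • ζ from natCast_zsmul ζ 14,
      add_sub_cancel_right]
  rw [e1, e2, zero_add] at h
  have hs : ∀ i, yy ℂ i • H1 (t • ζ) ≤ algebraMap (KK ℂ) K1 (yy ℂ i) • H1 (t • ζ) := by
    intro i y hy
    obtain ⟨x, hx, rfl⟩ := (Submodule.mem_smul_pointwise_iff_exists _ _ _).1 hy
    refine (Submodule.mem_smul_pointwise_iff_exists _ _ _).2 ⟨x, hx, ?_⟩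
    exact (Algebra.smul_def (yy ℂ i) x).symm
  exact h.trans (sup_le_sup (sup_le_sup le_rfl (hs 0)) (hs 1))

/-- `yy_ind`. -/
theorem yy_algInd : AlgebraicIndependent ℂ fun i => algebraMap (KK ℂ) K1 (yy ℂ i) := by
  rw [algebraicIndependent_iff]
  intro g hg
  have h := MvPolynomial.aeval_algebraMap_apply K1 (yy ℂ) g
  exact yy_ind ((map_eq_zero _).1 (h.symm.trans hg))

/-- The section ring of the Kummer cover. -/
def fil : Fil ℂ K1 where
  V t := H1 (t • ζ)
  y i := algebraMap (KK ℂ) K1 (yy ℂ i)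
  mul hx hy := by rw [add_smul]; exact mul_mem_H1 hx hy
  zero := by rw [zero_smul]; exact H1_zero
  one := by simpa using algebraMap_mem_H1 (one_mem_CC (k := ℂ) ζ_nonneg)
  hy i := by
    have := algebraMap_mem_H1 (yy_mem (k := ℂ) i)
    rwa [show (14 : ℤ) • ζ = (14 : ℕ) • ζ from natCast_zsmul ζ 14] at this
  fin t := isLat_H1.fin _
  gen := H1_gen
  ind := yy_algInd
  norm x d c t hd h := H1_norm (γ := c • ζ) hd fun n => by
    have := h n
    rwa [add_smul, mul_smul] at this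

theorem fil_V (t : ℕ) : fil.V t = H1 (t • ζ) := rfl

theorem fil_y (i : Fin 2) : fil.y i = algebraMap (KK ℂ) K1 (yy ℂ i) := rfl

end Crest.Agent.R169
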