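/-
R169/MkDatum: there is no module of depth three.
-/
import Crest.Agent.R169.Core
import Crest.Agent.R169.Kummer
import Crest.Agent.R169.CM
import Crest.Agent.R169.Dim

set_option autoImplicit false
set_option linter.unusedSectionVars false
set_option linter.unusedVariables false
set_option linter.unusedSimpArgs false

noncomputable section

namespace Crest.Agent.R169

open MvPolynomial Filter
open scoped Pointwise


open RingTheory.Sequence IsLocalRing

theorem isLat_pi {k V : Type} [Field k] [AddCommGroup V] [Module k V] [Module (KK k) V]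
    [IsScalarTower k (KK k) V] {G : Fam k V} (h : IsLat G) (n : ℕ) :
    IsLat (k := k) (V := Fin n → V) fun α => Submodule.pi Set.univ fun _ => G α := by
  obtain ⟨m, x, a, rfl⟩ := h.exists_fin
  refine ⟨Set.range fun p : Fin n × Fin m => ((Pi.single p.1 (x p.2) : Fin n → V), a p.2),
    Set.finite_range _, ?_⟩
  funext α
  ext y
  rw [mem_gen_range (x := fun p : Fin n × Fin m => (Pi.single p.1 (x p.2) : Fin n → V))
    (α := fun p => a p.2), Submodule.mem_pi]
  have key : ∀ (f : Fin n × Fin m → KK k) (i : Fin n),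
      (∑ p : Fin n × Fin m, f p • (Pi.single p.1 (x p.2) : Fin n → V)) i =
        ∑ l, f (i, l) • x l := fun f i => by
    rw [Finset.sum_apply, Fintype.sum_prod_type, Finset.sum_eq_single i
      (fun j _ hj => Finset.sum_eq_zero fun l _ => by simp [Pi.single_eq_of_ne hj.symm])
      (by simp)]
    simp
  constructor
  · intro hy
    choose f hf hf' using fun i => mem_gen_range.1 (hy i (Set.mem_univ i))
    exact ⟨fun p => f p.1 p.2, fun p => hf _ _, funext fun i => by rw [key, hf']⟩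
  · rintro ⟨f, hf, rfl⟩ i _
    exact mem_gen_range.2 ⟨fun l => f (i, l), fun l => hf (i, l), key f i⟩

theorem mkDatum_coeff_monomial_mul {F : Type} [CommRing F] (t n : ℕ) (a : F) (g : PowerSeries F) :
    PowerSeries.coeff n (PowerSeries.monomial t a * g) =
      if t ≤ n then a * PowerSeries.coeff (n - t) g else 0 := by
  have : PowerSeries.monomial t a = PowerSeries.C a * PowerSeries.X ^ t := by
    rw [PowerSeries.X_pow_eq, ← PowerSeries.monomial_zero_eq_C_apply,
      PowerSeries.monomial_mul_monomial, zero_add, mul_one]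
  rw [this, mul_assoc, PowerSeries.coeff_C_mul, PowerSeries.coeff_X_pow_mul']
  split_ifs <;> simp

theorem mkDatum_mem_span3 {S M : Type} [CommRing S] [AddCommGroup M] [Module S M] {z u w : S}
    {P : Submodule S M} {x : M} (hx : x ∈ Ideal.span {z, u, w} • P) :
    ∃ a ∈ P, ∃ b ∈ P, ∃ c ∈ P, x = z • a + u • b + w • c := by
  rw [Ideal.span_insert, Ideal.span_insert, Submodule.sup_smul, Submodule.sup_smul,
    Submodule.ideal_span_singleton_smul, Submodule.ideal_span_singleton_smul,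
    Submodule.ideal_span_singleton_smul] at hx
  obtain ⟨y1, h1, y', h', rfl⟩ := Submodule.mem_sup.1 hx
  obtain ⟨y2, h2, y3, h3, rfl⟩ := Submodule.mem_sup.1 h'
  obtain ⟨a, ha, rfl⟩ := (Submodule.mem_smul_pointwise_iff_exists _ _ _).1 h1
  obtain ⟨b, hb, rfl⟩ := (Submodule.mem_smul_pointwise_iff_exists _ _ _).1 h2
  obtain ⟨c, hc, rfl⟩ := (Submodule.mem_smul_pointwise_iff_exists _ _ _).1 h3
  exact ⟨a, ha, b, hb, c, hc, (add_assoc _ _ _).symm⟩

theorem mkDatum_mem_smul_top {S : Type} [CommRing S] {n : ℕ} {I : Ideal S} {v : Fin n → S} :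
    v ∈ I • (⊤ : Submodule S (Fin n → S)) ↔ ∀ i, v i ∈ I := by
  constructor
  · intro hv i
    refine Submodule.smul_induction_on hv (fun r hr y _ => ?_) fun y y' h h' => I.add_mem h h'
    exact I.mul_mem_right _ hr
  · intro hv
    rw [← Finset.univ_sum_single v]
    refine Submodule.sum_mem _ fun i _ => ?_
    have : (Pi.single i (v i) : Fin n → S) = v i • (Pi.single i 1 : Fin n → S) := by
      rw [← Pi.single_smul, smul_eq_mul, mul_one]
    rw [this]
    exact Submodule.smul_mem_smul (hv i) Submodule.mem_top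

variable {S M : Type} [CommRing S] [IsLocalRing S] [Algebra ℂ S] [IsNoetherianRing S]
  [AddCommGroup M] [Module S M] [Module.Finite S M] [Module ℂ M] [IsScalarTower ℂ S M]

/-- Artin-Rees.  Recipe: `Ideal.exists_pow_inf_eq_pow_smul` for `range e ≤ (Fin n → S)`, `Mid.pow`
(and `Submodule.mem_smul_top` coordinatewise / `Ideal.pi`), so elements of high order lie in
`𝔪 ^ N • ⊤`; take `N = T0 + t` with `𝔪 ^ T0 ≤ (z, u, w)` (`exists_pow_le`); elements of
`𝔪 ^ t • ⊤` have order `≥ t` (`coeff_eq_zero`). -/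
theorem exists_ord (μ : fil.Mid S) {n : ℕ} {e : M →ₗ[S] (Fin n → S)} (he : Function.Injective e)
    (t : ℕ) : ∃ T : ℕ, ∀ x : M, (∀ i, ∀ m < T, PowerSeries.coeff m (μ.j (e x i)) = 0) →
      ∃ a b c : M, (∀ i, ∀ m < t, PowerSeries.coeff m (μ.j (e b i)) = 0) ∧
        (∀ i, ∀ m < t, PowerSeries.coeff m (μ.j (e c i)) = 0) ∧
          x = μ.z • a + μ.u • b + μ.w • c := by
  obtain ⟨k0, hk0⟩ := (maximalIdeal S).exists_pow_inf_eq_pow_smul (LinearMap.range e)
  obtain ⟨T0, hT0⟩ := μ.exists_pow_le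
  obtain ⟨T, hT⟩ := μ.pow (T0 + t + k0)
  refine ⟨T, fun x hx => ?_⟩
  have h1 : e x ∈ maximalIdeal S ^ (T0 + t + k0) • ⊤ ⊓ LinearMap.range e :=
    ⟨mkDatum_mem_smul_top.2 fun i => hT _ (hx i), x, rfl⟩
  rw [hk0 _ (Nat.le_add_left _ _), Nat.add_sub_cancel] at h1
  have h2 : e x ∈ (maximalIdeal S ^ (T0 + t) • (⊤ : Submodule S M)).map e := by
    rw [Submodule.map_smul'', Submodule.map_top]
    exact Submodule.smul_mono le_rfl inf_le_right h1
  obtain ⟨x', hx', h3⟩ := h2
  obtain rfl := he h3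
  have h4 : x' ∈ Ideal.span {μ.z, μ.u, μ.w} • (maximalIdeal S ^ t • (⊤ : Submodule S M)) := by
    rw [SetLike.mem_coe, pow_add, Submodule.mul_smul] at hx'
    exact Submodule.smul_mono hT0 le_rfl hx'
  obtain ⟨a, -, b, hb, c, hc, h5⟩ := mkDatum_mem_span3 h4
  have key : ∀ y ∈ maximalIdeal S ^ t • (⊤ : Submodule S M), ∀ i, ∀ m < t,
      PowerSeries.coeff m (μ.j (e y i)) = 0 := fun y hy i m hm => by
    have : e y ∈ maximalIdeal S ^ t • (⊤ : Submodule S (Fin n → S)) := by
      have := Submodule.mem_map_of_mem (f := e) hy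
      rw [Submodule.map_smul''] at this
      exact Submodule.smul_mono le_rfl le_top this
    exact μ.coeff_eq_zero (mkDatum_mem_smul_top.1 this i) hm
  exact ⟨a, b, c, key b hb, key c hc, h5⟩

/-- The expansion in the sector `β`. -/
def mkDatum_ι (μ : fil.Mid S) {n : ℕ} (e : M →ₗ[S] (Fin n → S)) (β : Ex) :
    M →ₗ[ℂ] (ℕ → Fin n → K1) where
  toFun x t i := UU (-β) * PowerSeries.coeff t (μ.j (e x i))
  map_add' x y := by
    funext t i
    simp only [map_add, Pi.add_apply, mul_add]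
  map_smul' c x := by
    funext t i
    simp only [LinearMap.map_smul_of_tower, Pi.smul_apply, map_smul, RingHom.id_apply,
      PowerSeries.coeff_smul, mul_smul_comm]

theorem mkDatum_ι_apply (μ : fil.Mid S) {n : ℕ} (e : M →ₗ[S] (Fin n → S)) (β : Ex) (x : M)
    (t : ℕ) (i : Fin n) :
    mkDatum_ι μ e β x t i = UU (-β) * PowerSeries.coeff t (μ.j (e x i)) := rfl

theorem mkDatum_ι_eq_zero (μ : fil.Mid S) {n : ℕ} (e : M →ₗ[S] (Fin n → S)) (β : Ex) (x : M)
    (t : ℕ) : mkDatum_ι μ e β x t = 0 ↔ ∀ i, PowerSeries.coeff t (μ.j (e x i)) = 0 := by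
  rw [funext_iff]
  refine forall_congr' fun i => ?_
  rw [mkDatum_ι_apply, Pi.zero_apply, mul_eq_zero, or_iff_right (UU_ne_zero _)]

theorem mkDatum_ι_smul (μ : fil.Mid S) {n : ℕ} (e : M →ₗ[S] (Fin n → S)) (β β' : Ex) (x : M)
    {s : S} {t' : ℕ} {f : KK ℂ} (hs : μ.j s = PowerSeries.monomial t' (f • UU β')) :
    mkDatum_ι μ e (β + β') (s • x) = up t' (f • mkDatum_ι μ e β x) := by
  funext t i
  rw [mkDatum_ι_apply, map_smul, Pi.smul_apply, smul_eq_mul, map_mul, hs,
    mkDatum_coeff_monomial_mul, up]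
  split_ifs with h
  · rw [Pi.smul_apply, Pi.smul_apply, mkDatum_ι_apply, ← mul_assoc, mul_smul_comm, ← UU_add,
      smul_mul_assoc, neg_add, neg_add_cancel_right]
  · rw [mul_zero, Pi.zero_apply]

/-- Recipe: `ι β x t i = UU (-β) * coeff t (j (e x i))`.  `act`: `f • UU β' ∈ H1 (t' • ζ)`
(`smul_UU_mem`), `s` from `μ.sur`, `y = s • x`, `PowerSeries.coeff_monomial_mul`.  `bd`: `isLat_pi`,
`UU_mem`, `mul_mem_H1`.  `top`: `exists_ord`, `mem_ordGe`. -/
theorem exists_datum (μ : fil.Mid S) {n : ℕ} {e : M →ₗ[S] (Fin n → S)}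
    (he : Function.Injective e) : Nonempty (Datum (Fin n → K1) (Algebra.lsmul ℂ ℂ M μ.z)
      (Algebra.lsmul ℂ ℂ M μ.u) (Algebra.lsmul ℂ ℂ M μ.w)) := by
  refine ⟨⟨mkDatum_ι μ e, fun β => ?_, fun β' t' f hf x => ?_, fun β x => ?_, fun β x => ?_,
    fun β x => ?_, ⟨_, isLat_pi isLat_H1 n, fun β x t => ?_⟩, fun β t => ?_⟩⟩
  · rw [injective_iff_map_eq_zero]
    intro x hx
    apply he
    rw [map_zero]
    funext i
    apply μ.inj
    rw [Pi.zero_apply, map_zero]
    refine PowerSeries.ext fun t => ?_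
    rw [map_zero]
    exact (mkDatum_ι_eq_zero μ e β x t).1 (congrFun hx t) i
  · obtain ⟨s, hs⟩ := μ.sur t' (f • UU β') (smul_UU_mem (by rwa [add_comm]))
    exact ⟨s • x, fun β => mkDatum_ι_smul μ e β β' x hs⟩
  · have := mkDatum_ι_smul μ e β 0 x (s := μ.z) (t' := 1) (f := 1)
      (by rw [μ.hz, UU_zero, one_smul])
    rwa [add_zero, one_smul] at this
  · have := mkDatum_ι_smul μ e β 0 x (s := μ.u) (t' := 14) (f := yy ℂ 0)
      (by rw [μ.hu, UU_zero, fil_y, Algebra.algebraMap_eq_smul_one])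
    rwa [add_zero] at this
  · have := mkDatum_ι_smul μ e β 0 x (s := μ.w) (t' := 14) (f := yy ℂ 1)
      (by rw [μ.hw, UU_zero, fil_y, Algebra.algebraMap_eq_smul_one])
    rwa [add_zero] at this
  · refine Submodule.mem_pi.2 fun i _ => ?_
    have := mul_mem_H1 (UU_mem (-β)) (μ.mem (e x i) t)
    rwa [map_neg, neg_neg] at this
  · obtain ⟨T, hT⟩ := exists_ord μ he t
    refine ⟨T, fun x hx => ?_⟩
    obtain ⟨a, b, c, hb, hc, rfl⟩ := hT x fun i m hm =>
      (mkDatum_ι_eq_zero μ e β x m).1 (mem_ordGe.1 hx m hm) i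
    refine Submodule.add_mem_sup (Submodule.add_mem_sup ⟨a, rfl⟩ ⟨b, ?_, rfl⟩) ⟨c, ?_, rfl⟩
    · exact mem_ordGe.2 fun m hm => (mkDatum_ι_eq_zero μ e β b m).2 fun i => hb i m hm
    · exact mem_ordGe.2 fun m hm => (mkDatum_ι_eq_zero μ e β c m).2 fun i => hc i m hm

theorem mkDatum_range (r : S) : LinearMap.range (Algebra.lsmul ℂ ℂ M r) =
    (Ideal.span {r} • (⊤ : Submodule S M)).restrictScalars ℂ := by
  ext x
  rw [Submodule.restrictScalars_mem, Submodule.ideal_span_singleton_smul,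
    Submodule.mem_smul_pointwise_iff_exists]
  exact ⟨fun ⟨y, hy⟩ => ⟨y, Submodule.mem_top, hy⟩, fun ⟨y, _, hy⟩ => ⟨y, hy⟩⟩

/-- Recipe: `isWeaklyRegular_cons_iff`, `isWeaklyRegular_iff` (or `IsWeaklyRegular.regular_mod_prev`
at `1`, `2`); `fin`: generators of `M` times a spanning set of `S ⧸ (z, u, w)` (`fin_quot`). -/
theorem reg_of_isWeaklyRegular (μ : fil.Mid S) (h : IsWeaklyRegular M [μ.z, μ.u, μ.w]) :
    Reg (Algebra.lsmul ℂ ℂ M μ.z) (Algebra.lsmul ℂ ℂ M μ.u) (Algebra.lsmul ℂ ℂ M μ.w) := by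
  have key : ∀ (N : Submodule S M) (r : S), IsSMulRegular (M ⧸ N) r → ∀ x, r • x ∈ N → x ∈ N :=
    fun N r hr x hx => by
      rw [← Submodule.Quotient.mk_eq_zero] at hx ⊢
      exact hr.right_eq_zero_of_smul (by rwa [← Submodule.Quotient.mk_smul])
  refine ⟨fun x => ?_, fun x => ?_, ?_⟩
  · have h1 := h.regular_mod_prev 1 (by simp)
    rw [mkDatum_range]
    refine key _ _ ?_ x
    have e : Ideal.ofList (List.take 1 [μ.z, μ.u, μ.w]) = Ideal.span {μ.z} := by simp
    rwa [e] at h1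
  · have h1 := h.regular_mod_prev 2 (by simp)
    rw [mkDatum_range, mkDatum_range, ← Submodule.restrictScalars_sup, ← Submodule.sup_smul]
    refine key _ _ ?_ x
    have e : Ideal.ofList (List.take 2 [μ.z, μ.u, μ.w]) = Ideal.span {μ.z} ⊔ Ideal.span {μ.u} := by
      simp
    rwa [e] at h1
  · rw [mkDatum_range, mkDatum_range, mkDatum_range, ← Submodule.restrictScalars_sup,
      ← Submodule.restrictScalars_sup, ← Submodule.sup_smul, ← Submodule.sup_smul, sup_assoc,
      ← Ideal.span_insert, ← Ideal.span_insert]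
    have := μ.fin_quot
    have : IsScalarTower ℂ (S ⧸ Ideal.span {μ.z, μ.u, μ.w})
        (M ⧸ Ideal.span {μ.z, μ.u, μ.w} • (⊤ : Submodule S M)) :=
      (Module.isTorsionBySet_quotient_ideal_smul M _).isScalarTower
    have : Module.Finite ℂ (M ⧸ Ideal.span {μ.z, μ.u, μ.w} • (⊤ : Submodule S M)) :=
      Module.Finite.trans (S ⧸ Ideal.span {μ.z, μ.u, μ.w}) _
    exact Module.Finite.equiv (Submodule.Quotient.restrictScalarsEquiv ℂ _).symm

theorem no_mcm {S : Type} [CommRing S] [IsLocalRing S] [Algebra ℂ S] [IsNoetherianRing S]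
    (μ : fil.Mid S) (M : Type) [AddCommGroup M] [Module S M] [Module.Finite S M] [Nontrivial M]
    (rs : List S) (h3 : rs.length = 3) (hm : ∀ r ∈ rs, r ∈ maximalIdeal S) : ¬ IsRegular M rs := by
  intro h
  let _ : Module ℂ M := Module.compHom M (algebraMap ℂ S)
  have : IsScalarTower ℂ S M := IsScalarTower.of_algebraMap_smul fun _ _ => rfl
  have := μ.isDomain
  obtain ⟨n, e, he⟩ := exists_embedding (M := M) fun r hr =>
    isSMulRegular_of_depth hm h.1 (by rw [μ.dim_eq, h3]; rfl) hr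
  obtain ⟨D⟩ := exists_datum μ he
  refine core D (reg_of_isWeaklyRegular μ (isWeaklyRegular_of_params _ M rs h3 hm h ?_ ?_))
  · simpa using ⟨μ.z_mem, μ.u_mem, μ.w_mem⟩
  · intro p hp _ hy
    exact μ.eq_maximalIdeal hp (hy _ (by simp)) (hy _ (by simp)) (hy _ (by simp))

end Crest.Agent.R169
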