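/-
R169/RingHA: the complete ring `Rh`: local, complete, normal.
-/
import Crest.Agent.R169.FilB

set_option autoImplicit false
set_option linter.unusedSectionVars false
set_option linter.unusedVariables false
set_option linter.unusedSimpArgs false

noncomputable section

namespace Crest.Agent.R169

open MvPolynomial Filter
open scoped Pointwise


namespace Fil
variable {k F : Type} [Field k] [Field F] [Algebra k F] (𝔉 : Fil k F)

theorem isUnit_Rh {f : 𝔉.Rh} : IsUnit f ↔ PowerSeries.constantCoeff (f : PowerSeries F) ≠ 0 := by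
  constructor
  · intro h
    have h1 : IsUnit (f : PowerSeries F) := h.map 𝔉.Rh.val
    exact (PowerSeries.isUnit_iff_constantCoeff.1 h1).ne_zero
  · intro h
    refine IsUnit.of_mul_eq_one ⟨(f : PowerSeries F)⁻¹, 𝔉.inv_mem_Rh f.2⟩ (Subtype.ext ?_)
    exact PowerSeries.mul_inv_cancel _ h

instance isLocalRing_Rh : IsLocalRing 𝔉.Rh := by
  refine IsLocalRing.of_isUnit_or_isUnit_one_sub_self fun f => ?_
  rw [isUnit_Rh, isUnit_Rh]
  by_cases h : PowerSeries.constantCoeff (f : PowerSeries F) = 0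
  · right
    simp [h]
  · exact Or.inl h

theorem mem_max_Rh {f : 𝔉.Rh} : f ∈ IsLocalRing.maximalIdeal 𝔉.Rh ↔
    PowerSeries.constantCoeff (f : PowerSeries F) = 0 := by
  rw [IsLocalRing.mem_maximalIdeal, mem_nonunits_iff, isUnit_Rh, not_not]

theorem ringHA_span_le :
    Ideal.span {𝔉.parh 0, 𝔉.parh 1, 𝔉.parh 2} ≤ IsLocalRing.maximalIdeal 𝔉.Rh := by
  rw [Ideal.span_le]
  rintro x (rfl | rfl | rfl) <;>
  · rw [SetLike.mem_coe, mem_max_Rh, ← PowerSeries.coeff_zero_eq_constantCoeff]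
    simp [parh, PowerSeries.coeff_monomial]

/-- The complete ring as an intermediate ring. -/
def ringHA_mid : 𝔉.Mid 𝔉.Rh where
  j := 𝔉.Rh.val
  z := 𝔉.parh 0
  u := 𝔉.parh 1
  w := 𝔉.parh 2
  inj := Subtype.val_injective
  mem s := s.2
  sur t x hx := ⟨⟨_, 𝔉.monomial_mem_Rh hx⟩, rfl⟩
  max s := 𝔉.mem_max_Rh
  hz := rfl
  hu := rfl
  hw := rfl
  pow N := by
    obtain ⟨T, hT⟩ := 𝔉.Rh_pow N
    exact ⟨T, fun s hs => Ideal.pow_right_mono 𝔉.ringHA_span_le N (hT s hs)⟩
  prim := by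
    obtain ⟨T, hT⟩ := 𝔉.Rh_pow 1
    exact ⟨T, fun s hs => by simpa using hT s hs⟩

/-- `j = Subalgebra.val`, parameters `parh`, `Rh_pow`. -/
theorem nonempty_mid_Rh : Nonempty (𝔉.Mid 𝔉.Rh) := ⟨𝔉.ringHA_mid⟩

/-- Recipe: elements of `𝔪 ^ n` have order `≥ n`, and elements of order `≥ T N` lie in `𝔪 ^ N`
(`Rh_pow`).  The limit of `f n` has the coefficients `coeff t (f (t + 1))`; `f N - L ∈ 𝔪 ^ N` because
`f N - f M ∈ 𝔪 ^ N` and `f M - L` has order `≥ M` for `M = max N (T N)`. -/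
theorem isAdicComplete_Rh : IsAdicComplete (IsLocalRing.maximalIdeal 𝔉.Rh) 𝔉.Rh := by
  have hsm : ∀ n : ℕ, (IsLocalRing.maximalIdeal 𝔉.Rh ^ n • ⊤ : Submodule 𝔉.Rh 𝔉.Rh) =
      IsLocalRing.maximalIdeal 𝔉.Rh ^ n := fun n => by
    rw [smul_eq_mul, Ideal.mul_top]
  have hz : ∀ {N : ℕ} {s : 𝔉.Rh}, s ∈ IsLocalRing.maximalIdeal 𝔉.Rh ^ N → ∀ {n : ℕ}, n < N →
      PowerSeries.coeff n (s : PowerSeries F) = 0 :=
    fun h _ hn => 𝔉.ringHA_mid.coeff_eq_zero h hn
  refine { haus' := fun x hx => ?_, prec' := fun f hf => ?_ }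
  · refine Subtype.ext (PowerSeries.ext fun n => ?_)
    have := hx (n + 1)
    rw [hsm, SModEq.zero] at this
    simpa using hz this (Nat.lt_succ_self n)
  · have hf' : ∀ {m n : ℕ}, m ≤ n → f m - f n ∈ IsLocalRing.maximalIdeal 𝔉.Rh ^ m := by
      intro m n h
      have := hf h
      rwa [hsm, SModEq.sub_mem] at this
    let L : 𝔉.Rh := ⟨PowerSeries.mk fun t => PowerSeries.coeff t (f (t + 1) : PowerSeries F),
      fun t => by rw [PowerSeries.coeff_mk]; exact (f (t + 1)).2 t⟩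
    refine ⟨L, fun N => ?_⟩
    rw [hsm, SModEq.sub_mem]
    obtain ⟨T, hT⟩ := 𝔉.ringHA_mid.pow N
    have h1 : f (max N T) - L ∈ IsLocalRing.maximalIdeal 𝔉.Rh ^ N := by
      refine hT _ fun n hn => ?_
      have h2 := hz (hf' (show n + 1 ≤ max N T from le_max_of_le_right hn)) (Nat.lt_succ_self n)
      change PowerSeries.coeff n ((f (max N T) - L : 𝔉.Rh) : PowerSeries F) = 0
      simp only [AddSubgroupClass.coe_sub, map_sub, L, PowerSeries.coeff_mk] at h2 ⊢
      rw [sub_eq_zero] at h2 ⊢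
      exact h2.symm
    have := add_mem (hf' (le_max_left N T)) h1
    rwa [sub_add_sub_cancel] at this

/-- Recipe: strong induction on `t`.  If the coefficients below `t` are in `V`, subtract the truncation
`p ∈ Rh`; `d * (q - p) ^ n ∈ Rh` (binomial theorem); with `c` the order of `d`, the coefficient of
`d * (q - p) ^ n` in degree `c + n * t` is `d_c * q_t ^ n`; `norm`. -/
theorem mem_Rh_of_almost {q d : PowerSeries F} (hd : d ≠ 0) (h : ∀ n : ℕ, d * q ^ n ∈ 𝔉.Rh) :
    q ∈ 𝔉.Rh := by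
  intro t
  induction t using Nat.strong_induction_on with
  | _ t ih =>
  set p : PowerSeries F := ((PowerSeries.trunc t q : Polynomial F) : PowerSeries F) with hp
  have hpc : ∀ n, PowerSeries.coeff n p = if n < t then PowerSeries.coeff n q else 0 := fun n => by
    rw [hp, Polynomial.coeff_coe, PowerSeries.coeff_trunc]
  have hpm : p ∈ 𝔉.Rh := fun n => by
    rw [hpc]
    split_ifs with hn
    · exact ih n hn
    · exact Submodule.zero_mem _
  have hmem : ∀ n : ℕ, d * (q - p) ^ n ∈ 𝔉.Rh := fun n => by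
    rw [sub_eq_add_neg, add_pow, Finset.mul_sum]
    refine Subalgebra.sum_mem _ fun m _ => ?_
    rw [← mul_assoc, ← mul_assoc]
    exact Subalgebra.mul_mem _ (Subalgebra.mul_mem _ (h m)
      (Subalgebra.pow_mem _ (Subalgebra.neg_mem _ hpm) _)) (Subalgebra.natCast_mem _ _)
  obtain ⟨g, hg⟩ : (PowerSeries.X : PowerSeries F) ^ t ∣ q - p := by
    rw [PowerSeries.X_pow_dvd_iff]
    intro m hm
    rw [map_sub, hpc, if_pos hm, sub_self]
  have hg0 : PowerSeries.constantCoeff g = PowerSeries.coeff t q := by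
    have := congrArg (PowerSeries.coeff (0 + t)) hg
    rw [PowerSeries.coeff_X_pow_mul, zero_add, map_sub, hpc, if_neg (lt_irrefl t), sub_zero] at this
    rw [this, PowerSeries.coeff_zero_eq_constantCoeff]
  refine 𝔉.norm _ (PowerSeries.constantCoeff d.divXPowOrder) d.order.toNat t
    (fun h0 => hd (PowerSeries.constantCoeff_divXPowOrder_eq_zero_iff.1 h0)) fun n => ?_
  have h1 := hmem n (0 + (d.order.toNat + n * t))
  have e : d * (q - p) ^ n =
      PowerSeries.X ^ (d.order.toNat + n * t) * (d.divXPowOrder * g ^ n) := by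
    conv_lhs => rw [← PowerSeries.X_pow_order_mul_divXPowOrder (f := d), hg]
    ring
  rw [e, PowerSeries.coeff_X_pow_mul, zero_add, PowerSeries.coeff_zero_eq_constantCoeff, map_mul,
    map_pow, hg0] at h1
  exact h1

theorem ringHA_dvd {r a b : PowerSeries F} (hr : r ≠ 0) (hb : b ≠ 0)
    (h : ∀ n : ℕ, ∃ e, r * a ^ n = e * b ^ n) : b ∣ a := by
  rcases eq_or_ne a 0 with rfl | ha
  · exact dvd_zero _
  have hle : b.order.toNat ≤ a.order.toNat := by
    by_contra hlt
    push Not at hlt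
    obtain ⟨e, he⟩ := h (r.order.toNat + 1)
    have h1 := congrArg PowerSeries.order he
    rw [PowerSeries.order_mul, PowerSeries.order_mul, PowerSeries.order_pow, PowerSeries.order_pow,
      ← PowerSeries.coe_toNat_order hr, ← PowerSeries.coe_toNat_order ha,
      ← PowerSeries.coe_toNat_order hb] at h1
    simp only [ENat.toNat_natCast] at h1
    generalize r.order.toNat = ρ at h1
    generalize a.order.toNat = α at h1 hlt
    generalize b.order.toNat = β at h1 hlt
    have h2 : (ρ + 1) • (β : ℕ∞) ≤ (ρ : ℕ∞) + (ρ + 1) • (α : ℕ∞) := by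
      rw [h1]; exact le_add_self
    have h3 : (ρ + 1) * β ≤ ρ + (ρ + 1) * α := by
      simp only [nsmul_eq_mul] at h2
      exact_mod_cast h2
    nlinarith
  have hu : IsUnit b.divXPowOrder := PowerSeries.isUnit_iff_constantCoeff.2
    (Ne.isUnit fun h0 => hb (PowerSeries.constantCoeff_divXPowOrder_eq_zero_iff.1 h0))
  rw [← PowerSeries.X_pow_order_mul_divXPowOrder (f := b), hu.mul_right_dvd]
  exact (pow_dvd_pow _ hle).trans PowerSeries.X_pow_order_dvd

/-- Recipe: for `x = a / b` integral, `IsIntegral.isAlmostIntegral_of_isLocalization` (or `…_of_exists_smul_mem_range`)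
gives `d ≠ 0` with `d * a ^ n = e n * b ^ n`; comparing orders `b ∣ a` in `F⟦X⟧`;
`mem_Rh_of_almost`. -/
theorem isIntegrallyClosed_Rh : IsIntegrallyClosed 𝔉.Rh := by
  rw [isIntegrallyClosed_iff (FractionRing 𝔉.Rh)]
  intro x hx
  obtain ⟨r, hr, hrx⟩ := hx.isAlmostIntegral
  obtain ⟨a, b, hb, rfl⟩ := IsFractionRing.div_surjective (A := 𝔉.Rh) x
  have hb0 : b ≠ 0 := nonZeroDivisors.ne_zero hb
  have hr0 : r ≠ 0 := nonZeroDivisors.ne_zero hr
  have hb1 : algebraMap 𝔉.Rh (FractionRing 𝔉.Rh) b ≠ 0 := by simpa using hb0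
  have hb2 : (b : PowerSeries F) ≠ 0 := fun h => hb0 (Subtype.ext h)
  have hr2 : (r : PowerSeries F) ≠ 0 := fun h => hr0 (Subtype.ext h)
  have key : ∀ n : ℕ, ∃ e : 𝔉.Rh, (r : PowerSeries F) * (a : PowerSeries F) ^ n =
      (e : PowerSeries F) * (b : PowerSeries F) ^ n := by
    intro n
    obtain ⟨e, he⟩ := hrx n
    refine ⟨e, ?_⟩
    have : r * a ^ n = e * b ^ n := by
      apply IsFractionRing.injective 𝔉.Rh (FractionRing 𝔉.Rh)
      rw [map_mul, map_mul, map_pow, map_pow, he, Algebra.smul_def, div_pow]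
      field_simp
    exact_mod_cast congrArg (fun s : 𝔉.Rh => (s : PowerSeries F)) this
  obtain ⟨q, hq⟩ := ringHA_dvd hr2 hb2 fun n => (key n).imp' (fun e : 𝔉.Rh => (e : PowerSeries F))
    fun e he => he
  have hqm : q ∈ 𝔉.Rh := 𝔉.mem_Rh_of_almost hr2 fun n => by
    obtain ⟨e, he⟩ := key n
    rw [hq, mul_pow, mul_comm ((b : PowerSeries F) ^ n), ← mul_assoc] at he
    rw [mul_right_cancel₀ (pow_ne_zero n hb2) he]
    exact e.2
  refine ⟨⟨q, hqm⟩, ?_⟩
  have : a = b * ⟨q, hqm⟩ := Subtype.ext hq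
  rw [this, map_mul, mul_div_cancel_left₀ _ hb1]

end Fil

end Crest.Agent.R169
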