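/-
R169/RingP: the graded ring `Rp` and its localisation.
-/
import Crest.Agent.R169.FilB

set_option autoImplicit false
set_option linter.unusedSectionVars false
set_option linter.unusedVariables false
set_option linter.unusedSimpArgs false

noncomputable section

namespace Crest.Agent.R169

open MvPolynomial Filter
open scoped Pointwise


namespace Fil
variable {k F : Type} [Field k] [Field F] [Algebra k F] (𝔉 : Fil k F)

/-- The monomials of degree `t`. -/
def RingP_mon (t : ℕ) : 𝔉.V t →ₗ[k] 𝔉.Rp where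
  toFun x := ⟨Polynomial.monomial t x.1, 𝔉.monomial_mem_Rp x.2⟩
  map_add' x y := by ext1; simp
  map_smul' c x := Subtype.ext (Polynomial.smul_monomial c t x.1).symm

theorem RingP_mon_coe (t : ℕ) (x : 𝔉.V t) :
    (𝔉.RingP_mon t x : Polynomial F) = Polynomial.monomial t x.1 := rfl

theorem RingP_mon_mem (t : ℕ) (x : 𝔉.V t) : 𝔉.RingP_mon t x ∈ 𝔉.gr t := fun n hn => by
  rw [RingP_mon_coe, Polynomial.coeff_monomial, if_neg (Ne.symm hn)]

theorem RingP_sum (f : 𝔉.Rp) :
    f = ∑ t ∈ (f : Polynomial F).support, 𝔉.RingP_mon t ⟨_, f.2 t⟩ := by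
  ext1
  rw [AddSubmonoidClass.coe_finsetSum]
  exact (f : Polynomial F).as_sum_support

theorem RingP_coeff (x : DirectSum ℕ fun t => 𝔉.gr t) (t : ℕ) :
    ((DirectSum.coeAddMonoidHom 𝔉.gr x : 𝔉.Rp) : Polynomial F).coeff t =
      (((x t : 𝔉.gr t) : 𝔉.Rp) : Polynomial F).coeff t := by
  induction x using DirectSum.induction_on with
  | zero => simp
  | of i x =>
    rw [DirectSum.coeAddMonoidHom_of]
    by_cases h : i = t
    · subst h; rw [DirectSum.of_eq_same]
    · rw [DirectSum.of_eq_of_ne _ _ _ (Ne.symm h), x.2 t (Ne.symm h)]; simp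
  | add x y hx hy => simp [hx, hy]

/-- Recipe: `GradedAlgebra.ofAlgHom`, or `SetLike.GradedMonoid` and `DirectSum.Decomposition.ofLinearMap`
/ `DirectSum.IsInternal.chooseDecomposition`; the component of degree `t` of `f` is
`monomial t (f.coeff t)`. -/
theorem nonempty_gradedAlgebra : Nonempty (GradedAlgebra 𝔉.gr) := by
  have hi : DirectSum.IsInternal 𝔉.gr := by
    refine ⟨fun x y h => ?_, fun f => ?_⟩
    · ext t n
      by_cases hn : n = t
      · subst hn; rw [← RingP_coeff, ← RingP_coeff, h]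
      · rw [(x t).2 n hn, (y t).2 n hn]
    · refine ⟨∑ t ∈ (f : Polynomial F).support,
        DirectSum.of (fun t => 𝔉.gr t) t ⟨_, 𝔉.RingP_mon_mem t ⟨_, f.2 t⟩⟩, ?_⟩
      rw [map_sum]
      simp only [DirectSum.coeAddMonoidHom_of]
      exact (𝔉.RingP_sum f).symm
  have hm : SetLike.GradedMonoid 𝔉.gr :=
    { one_mem := fun n hn => by simp [Polynomial.coeff_one, hn]
      mul_mem := fun i j f g hf hg n hn => by
        rw [Subalgebra.coe_mul, Polynomial.coeff_mul]
        refine Finset.sum_eq_zero fun p hp => ?_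
        replace hp : p.1 + p.2 = n := by simpa using hp
        by_cases h : p.1 = i
        · rw [hg p.2 (fun h' => hn (by rw [← hp, h, h'])), mul_zero]
        · rw [hf p.1 h, zero_mul] }
  exact ⟨{ hm, hi.chooseDecomposition with }⟩

theorem mem_irrelevant [GradedAlgebra 𝔉.gr] (f : 𝔉.Rp) :
    f ∈ (HomogeneousIdeal.irrelevant 𝔉.gr).toIdeal ↔ (f : Polynomial F).coeff 0 = 0 := by
  rw [HomogeneousIdeal.mem_iff, HomogeneousIdeal.mem_irrelevant_iff, GradedRing.proj_apply]
  have h := 𝔉.RingP_coeff (DirectSum.decompose 𝔉.gr f) 0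
  rw [show DirectSum.coeAddMonoidHom 𝔉.gr (DirectSum.decompose 𝔉.gr f) = f from
    (DirectSum.decompose 𝔉.gr).left_inv f] at h
  rw [h]
  refine ⟨fun h => by rw [h]; simp, fun h => ?_⟩
  ext n
  by_cases hn : n = 0
  · subst hn; simpa using h
  · rw [(DirectSum.decompose 𝔉.gr f 0).2 n hn]; simp

theorem bij_quot {P : Ideal 𝔉.Rp} (hP : ∀ f, f ∈ P ↔ (f : Polynomial F).coeff 0 = 0) :
    Function.Bijective (algebraMap k (𝔉.Rp ⧸ P)) := by
  have : Nontrivial (𝔉.Rp ⧸ P) :=
    Ideal.Quotient.nontrivial_iff.2 ((Ideal.ne_top_iff_one _).2 (by simp [hP]))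
  refine ⟨(algebraMap k _).injective, fun x => ?_⟩
  obtain ⟨f, rfl⟩ := Ideal.Quotient.mk_surjective x
  obtain ⟨c, hc⟩ := 𝔉.mem_zero.1 (f.2 0)
  refine ⟨c, ?_⟩
  rw [← Ideal.Quotient.mk_algebraMap, Ideal.Quotient.eq, hP]
  simp [hc]

theorem isMaximal {P : Ideal 𝔉.Rp} (hP : ∀ f, f ∈ P ↔ (f : Polynomial F).coeff 0 = 0) :
    P.IsMaximal :=
  Ideal.Quotient.maximal_of_isField _
    ((RingEquiv.ofBijective _ (𝔉.bij_quot hP)).symm.toMulEquiv.isField (Field.toIsField k))

/-- `Rp` is a finite module over the three parameters.  Recipe: generators `monomial t x`, `x` in a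
basis of `V t`, `t < T0 + 14`; strong induction on `t` with `gen`. -/
theorem finite_par : (aeval 𝔉.par : MvPolynomial (Fin 3) k →ₐ[k] 𝔉.Rp).toRingHom.Finite := by
  set φ := (aeval 𝔉.par : MvPolynomial (Fin 3) k →ₐ[k] 𝔉.Rp) with hφ
  let := φ.toRingHom.toAlgebra
  have : IsScalarTower k (MvPolynomial (Fin 3) k) 𝔉.Rp :=
    IsScalarTower.of_algebraMap_eq fun c => (φ.commutes c).symm
  obtain ⟨t0, ht0⟩ := 𝔉.gen
  let W : Submodule k 𝔉.Rp := ⨆ t : Fin (t0 + 14), LinearMap.range (𝔉.RingP_mon t)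
  have hW : W.FG := Submodule.fg_iSup _ fun t => by
    have := 𝔉.fin t
    exact Module.Finite.iff_fg.1 inferInstance
  let N := Submodule.span (MvPolynomial (Fin 3) k) (W : Set 𝔉.Rp)
  have hX : ∀ i f, f ∈ N → 𝔉.par i * f ∈ N := fun i f hf => by
    have := N.smul_mem (X i) hf
    rwa [Algebra.smul_def, show algebraMap (MvPolynomial (Fin 3) k) 𝔉.Rp (X i) = 𝔉.par i from
      aeval_X _ _] at this
  have key : ∀ t x, 𝔉.RingP_mon t x ∈ N := fun t => by
    induction t using Nat.strong_induction_on with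
    | _ t ih =>
      intro x
      by_cases ht : t < t0 + 14
      · exact Submodule.subset_span (Submodule.mem_iSup_of_mem (⟨t, ht⟩ : Fin _) ⟨x, rfl⟩)
      · obtain ⟨s, rfl⟩ : ∃ s, t = s + 14 := ⟨t - 14, by omega⟩
        obtain ⟨y', hy', y2, hy2, e⟩ := Submodule.mem_sup.1 (ht0 s (by omega) x.2)
        obtain ⟨a, ha, y1, hy1, rfl⟩ := Submodule.mem_sup.1 hy'
        obtain ⟨b, hb, rfl⟩ := (Submodule.mem_smul_pointwise_iff_exists _ _ _).1 hy1
        obtain ⟨c, hc, rfl⟩ := (Submodule.mem_smul_pointwise_iff_exists _ _ _).1 hy2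
        have : 𝔉.RingP_mon _ x = 𝔉.par 0 * 𝔉.RingP_mon _ ⟨a, ha⟩ +
            𝔉.par 1 * 𝔉.RingP_mon _ ⟨b, hb⟩ + 𝔉.par 2 * 𝔉.RingP_mon _ ⟨c, hc⟩ := by
          ext1
          simp [RingP_mon_coe, par, Polynomial.monomial_mul_monomial, ← e, add_comm 14 s,
            show 1 + (s + 13) = s + 14 by omega]
        rw [this]
        exact add_mem (add_mem (hX _ _ (ih _ (by omega) _)) (hX _ _ (ih _ (by omega) _)))
          (hX _ _ (ih _ (by omega) _))
  have hN : N = ⊤ := eq_top_iff.2 fun f _ => by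
    rw [𝔉.RingP_sum f]
    exact Submodule.sum_mem _ fun t _ => key _ _
  exact ⟨hN ▸ hW.span⟩

theorem finiteType : Algebra.FiniteType k 𝔉.Rp := by
  have h := (RingHom.FiniteType.of_finite 𝔉.finite_par).comp
    (RingHom.finiteType_algebraMap.2 (inferInstance : Algebra.FiniteType k (MvPolynomial (Fin 3) k)))
  rw [AlgHom.toRingHom_eq_coe, AlgHom.comp_algebraMap] at h
  exact RingHom.finiteType_algebraMap.1 h

instance isNoetherianRing_Rp : IsNoetherianRing 𝔉.Rp :=
  haveI := 𝔉.finiteType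
  Algebra.FiniteType.isNoetherianRing k _

/-- Incomparability: `PrimeSpectrum.comap` of an integral map is strictly monotone
(`Ideal.comap_lt_comap_of_integral_mem_sdiff`, `Order.krullDim_le_of_strictMono`,
`MvPolynomial.ringKrullDim_of_isNoetherianRing`). -/
theorem dim_Rp_le : ringKrullDim 𝔉.Rp ≤ 3 := by
  let := (aeval 𝔉.par : MvPolynomial (Fin 3) k →ₐ[k] 𝔉.Rp).toRingHom.toAlgebra
  have : Module.Finite (MvPolynomial (Fin 3) k) 𝔉.Rp := 𝔉.finite_par
  have h := Order.krullDim_le_of_strictMono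
    (PrimeSpectrum.comap (algebraMap (MvPolynomial (Fin 3) k) 𝔉.Rp))
    fun p q hpq => Ideal.IsIntegral.comap_lt_comap (I := p.asIdeal) (J := q.asIdeal) hpq
  refine h.trans (le_of_eq ?_)
  change ringKrullDim _ = _
  rw [MvPolynomial.ringKrullDim_of_isNoetherianRing, ringKrullDim_eq_zero_of_field]
  simp

/-- The expansion of a polynomial as a power series. -/
def RingP_exp : 𝔉.Rp →ₐ[k] PowerSeries F :=
  ((Polynomial.coeToPowerSeries.algHom F).restrictScalars k).comp 𝔉.Rp.val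

theorem RingP_exp_apply (f : 𝔉.Rp) : 𝔉.RingP_exp f = ((f : Polynomial F) : PowerSeries F) := by
  simp [RingP_exp]

/-- Recipe: `j = IsLocalization.liftAlgHom` of `Rp → F[X] → F⟦X⟧` (elements outside `P` have a nonzero
constant coefficient); `mem` by `inv_mem_Rh`; `z, u, w` are the images of `par`; `pow`, `prim` by
`Rp_pow` (the numerator of an element of order `≥ T` has order `≥ T`). -/
theorem nonempty_mid_loc (P : Ideal 𝔉.Rp) [P.IsPrime]
    (hP : ∀ f, f ∈ P ↔ (f : Polynomial F).coeff 0 = 0) :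
    Nonempty (𝔉.Mid (Localization.AtPrime P)) := by
  have hc : ∀ y : P.primeCompl, PowerSeries.constantCoeff (𝔉.RingP_exp y) ≠ 0 := fun y h =>
    y.2 ((hP _).2 (by simpa [RingP_exp_apply] using h))
  have hu : ∀ y : P.primeCompl, IsUnit (𝔉.RingP_exp y) := fun y =>
    PowerSeries.isUnit_iff_constantCoeff.2 (hc y).isUnit
  let j : Localization.AtPrime P →ₐ[k] PowerSeries F := IsLocalization.liftAlgHom hu
  have hj : ∀ f : 𝔉.Rp, j (algebraMap _ _ f) = ((f : Polynomial F) : PowerSeries F) := fun f =>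
    (IsLocalization.lift_eq (M := P.primeCompl) (g := 𝔉.RingP_exp.toRingHom) hu f).trans
      (𝔉.RingP_exp_apply f)
  have hmk : ∀ (f : 𝔉.Rp) (y : P.primeCompl),
      j (IsLocalization.mk' _ f y) * 𝔉.RingP_exp y = ((f : Polynomial F) : PowerSeries F) :=
    fun f y => by rw [RingP_exp_apply, ← hj, ← map_mul, IsLocalization.mk'_spec, hj]
  have hpar : ∀ i, 𝔉.par i ∈ P := fun i => by
    fin_cases i <;> simp [hP, par, Polynomial.coeff_monomial]
  have hI : ∀ N : ℕ, ∃ T : ℕ, ∀ s, (∀ n < T, PowerSeries.coeff n (j s) = 0) →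
      s ∈ (Ideal.span {algebraMap _ _ (𝔉.par 0), algebraMap _ _ (𝔉.par 1),
        algebraMap _ _ (𝔉.par 2)} : Ideal (Localization.AtPrime P)) ^ N := fun N => by
    obtain ⟨T, hT⟩ := 𝔉.Rp_pow N
    refine ⟨T, fun s hs => ?_⟩
    obtain ⟨⟨f, y⟩, rfl⟩ := IsLocalization.mk'_surjective P.primeCompl s
    have h1 := hT f fun n hn => by
      rw [← Polynomial.coeff_coe, ← hmk f y]
      exact PowerSeries.X_pow_dvd_iff.1 ((PowerSeries.X_pow_dvd_iff.2 hs).mul_right _) n hn
    have h2 := Ideal.mem_map_of_mem (algebraMap _ (Localization.AtPrime P)) h1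
    rw [Ideal.map_pow, Ideal.map_span, Set.image_insert_eq, Set.image_pair] at h2
    exact IsLocalization.mk'_mem_iff.2 h2
  refine ⟨{
    j := j
    z := algebraMap _ _ (𝔉.par 0)
    u := algebraMap _ _ (𝔉.par 1)
    w := algebraMap _ _ (𝔉.par 2)
    inj := ?_
    mem := fun s => ?_
    sur := fun t x hx => ⟨algebraMap _ _ (𝔉.RingP_mon t ⟨x, hx⟩), ?_⟩
    max := fun s => ?_
    hz := ?_
    hu := ?_
    hw := ?_
    pow := fun N => ?_
    prim := ?_ }⟩
  · rw [injective_iff_map_eq_zero]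
    intro s hs
    obtain ⟨⟨f, y⟩, rfl⟩ := IsLocalization.mk'_surjective P.primeCompl s
    have h := hmk f y
    rw [hs, zero_mul, eq_comm, Polynomial.coe_eq_zero_iff] at h
    rw [show f = 0 from Subtype.ext h]
    exact IsLocalization.mk'_zero _
  · obtain ⟨⟨f, y⟩, rfl⟩ := IsLocalization.mk'_surjective P.primeCompl s
    rw [(PowerSeries.eq_mul_inv_iff_mul_eq (hc y)).2 (hmk f y), RingP_exp_apply]
    exact mul_mem (𝔉.coe_mem_Rh f.2) (𝔉.inv_mem_Rh (𝔉.coe_mem_Rh y.1.2))
  · rw [hj, RingP_mon_coe, Polynomial.coe_monomial]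
  · obtain ⟨⟨f, y⟩, rfl⟩ := IsLocalization.mk'_surjective P.primeCompl s
    have h := congrArg PowerSeries.constantCoeff (hmk f y)
    rw [map_mul, Polynomial.constantCoeff_coe] at h
    rw [IsLocalization.AtPrime.mk'_mem_maximal_iff _ P, hP, ← h, mul_eq_zero, or_iff_left (hc y)]
  · rw [hj]; exact Polynomial.coe_monomial _ _
  · rw [hj]; exact Polynomial.coe_monomial _ _
  · rw [hj]; exact Polynomial.coe_monomial _ _
  · obtain ⟨T, hT⟩ := hI N
    refine ⟨T, fun s hs => Ideal.pow_right_mono ?_ N (hT s hs)⟩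
    rw [Ideal.span_le]
    rintro _ (rfl | rfl | rfl) <;>
      exact (IsLocalization.AtPrime.to_map_mem_maximal_iff _ P _).2 (hpar _)
  · simpa only [pow_one] using hI 1

end Fil

end Crest.Agent.R169
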