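/-
R169/RingH: the complete ring `Rh` is Noetherian.
-/
import Crest.Agent.R169.RingHA
import Crest.Agent.R169.RingP

set_option autoImplicit false
set_option linter.unusedSectionVars false
set_option linter.unusedVariables false
set_option linter.unusedSimpArgs false

noncomputable section

namespace Crest.Agent.R169

open MvPolynomial Filter
open scoped Pointwise


namespace Fil
variable {k F : Type} [Field k] [Field F] [Algebra k F] (𝔉 : Fil k F)

theorem coeff_monomial_mul_ps (n p : ℕ) (c : F) (f : PowerSeries F) :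
    PowerSeries.coeff n (PowerSeries.monomial p c * f) =
      if p ≤ n then c * PowerSeries.coeff (n - p) f else 0 := by
  have : PowerSeries.monomial p c = PowerSeries.C c * PowerSeries.X ^ p := by
    ext m; simp [PowerSeries.coeff_monomial, PowerSeries.coeff_X_pow]
  rw [this, mul_assoc, PowerSeries.coeff_C_mul, PowerSeries.coeff_X_pow_mul']
  split_ifs <;> simp

/-- Finitely many leading terms suffice. -/
theorem noeth_step (I : Ideal 𝔉.Rh) : ∃ (ι : Type) (_ : Fintype ι) (f : ι → 𝔉.Rh) (T : ι → ℕ),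
    (∀ i, f i ∈ I) ∧ (∀ i, ∀ n < T i, PowerSeries.coeff n (f i : PowerSeries F) = 0) ∧
    ∀ (t : ℕ) (g : 𝔉.Rh), g ∈ I → (∀ n < t, PowerSeries.coeff n (g : PowerSeries F) = 0) →
      ∃ a : ι → 𝔉.Rh, (∀ i n, n + T i ≠ t → PowerSeries.coeff n (a i : PowerSeries F) = 0) ∧
        ∀ n < t + 1, PowerSeries.coeff n ((g - ∑ i, a i * f i : 𝔉.Rh) : PowerSeries F) = 0 := by
  classical
  let L : Set 𝔉.Rp := {x | ∃ (g : 𝔉.Rh) (t : ℕ), g ∈ I ∧
    (∀ n < t, PowerSeries.coeff n (g : PowerSeries F) = 0) ∧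
      (x : Polynomial F) = Polynomial.monomial t (PowerSeries.coeff t (g : PowerSeries F))}
  obtain ⟨s, hs, he⟩ := (Submodule.fg_span_iff_fg_span_finset_subset (R := 𝔉.Rp) L).mp
    (IsNoetherian.noetherian _)
  choose f T h1 h2 h3 using fun x : s => hs x.2
  refine ⟨s, inferInstance, f, T, h1, h2, fun t g hg hg' => ?_⟩
  have h4 : (⟨_, 𝔉.monomial_mem_Rp (g.2 t)⟩ : 𝔉.Rp) ∈ Submodule.span 𝔉.Rp (s : Set 𝔉.Rp) :=
    he ▸ Submodule.subset_span ⟨g, t, hg, hg', rfl⟩
  obtain ⟨r, hr⟩ := (Submodule.mem_span_finset' ).mp h4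
  have h5 := congrArg (fun x : 𝔉.Rp => (x : Polynomial F).coeff t) hr
  simp only [smul_eq_mul, AddSubmonoidClass.coe_finsetSum, MulMemClass.coe_mul,
    Polynomial.finsetSum_coeff, h3, Polynomial.coeff_monomial, if_true,
    ← Polynomial.C_mul_X_pow_eq_monomial, ← mul_assoc, Polynomial.coeff_mul_X_pow',
    Polynomial.coeff_mul_C] at h5
  refine ⟨fun i => if T i ≤ t then ⟨_, 𝔉.monomial_mem_Rh ((r i).2 (t - T i))⟩ else 0,
    fun i n hn => ?_, fun n hn => ?_⟩
  · dsimp only
    split_ifs with h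
    · rw [PowerSeries.coeff_monomial, if_neg (by omega)]
    · simp
  · rw [AddSubgroupClass.coe_sub, AddSubmonoidClass.coe_finsetSum, map_sub, map_sum, sub_eq_zero]
    rcases Nat.lt_succ_iff_lt_or_eq.mp hn with h | rfl
    · rw [hg' n h, Finset.sum_eq_zero fun i _ => ?_]
      dsimp only
      split_ifs with h'
      · rw [MulMemClass.coe_mul, coeff_monomial_mul_ps]
        split_ifs with h''
        · rw [h2 i _ (by omega), mul_zero]
        · rfl
      · simp
    · rw [if_pos le_rfl, Nat.sub_self, Polynomial.coeff_C_zero] at h5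
      rw [← h5]
      refine Finset.sum_congr rfl fun i _ => ?_
      dsimp only
      split_ifs with h'
      · rw [MulMemClass.coe_mul, coeff_monomial_mul_ps, if_pos (by omega),
          show n - (n - T i) = T i by omega]
      · simp

/-- Successive approximation. -/
theorem isNoetherianRing_Rh : IsNoetherianRing 𝔉.Rh := by
  classical
  refine (isNoetherianRing_iff_ideal_fg _).mpr fun I => ?_
  obtain ⟨ι, _, f, T, h1, h2, h3⟩ := 𝔉.noeth_step I
  choose a ha ha' using h3
  refine ⟨Finset.univ.image f, le_antisymm (Ideal.span_le.mpr ?_) fun g hg => ?_⟩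
  · intro x hx
    obtain ⟨i, -, rfl⟩ := Finset.mem_image.mp hx
    exact h1 i
  let G : ∀ t : ℕ, {g : 𝔉.Rh // g ∈ I ∧ ∀ n < t, PowerSeries.coeff n (g : PowerSeries F) = 0} :=
    fun t => Nat.rec ⟨g, hg, fun n hn => absurd hn (Nat.not_lt_zero n)⟩
      (fun t x => ⟨x.1 - ∑ i, a t x.1 x.2.1 x.2.2 i * f i,
        I.sub_mem x.2.1 (I.sum_mem fun i _ => I.mul_mem_left _ (h1 i)), ha' t x.1 x.2.1 x.2.2⟩) t
  let b : ℕ → ι → 𝔉.Rh := fun t => a t (G t).1 (G t).2.1 (G t).2.2
  have hb : ∀ t i n, n + T i ≠ t → PowerSeries.coeff n (b t i : PowerSeries F) = 0 :=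
    fun t => ha t _ _ _
  have hG : ∀ N, g = (G N).1 + ∑ i, (∑ t ∈ Finset.range N, b t i) * f i := fun N => by
    induction N with
    | zero => simp [G]
    | succ N ih =>
      have : (G (N + 1)).1 = (G N).1 - ∑ i, b N i * f i := rfl
      simp only [this, Finset.sum_range_succ, add_mul, Finset.sum_add_distrib]
      linear_combination ih
  let A : ι → 𝔉.Rh := fun i => ⟨PowerSeries.mk fun n =>
    PowerSeries.coeff n (b (n + T i) i : PowerSeries F), fun n => by
      rw [PowerSeries.coeff_mk]; exact (b (n + T i) i).2 n⟩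
  have : g = ∑ i, A i * f i := by
    refine Subtype.ext (PowerSeries.ext fun N => ?_)
    rw [hG (N + 1), AddMemClass.coe_add, map_add, (G (N + 1)).2.2 N (by omega), zero_add,
      AddSubmonoidClass.coe_finsetSum, AddSubmonoidClass.coe_finsetSum, map_sum, map_sum]
    refine Finset.sum_congr rfl fun i _ => ?_
    rw [MulMemClass.coe_mul, MulMemClass.coe_mul, PowerSeries.coeff_mul, PowerSeries.coeff_mul]
    refine Finset.sum_congr rfl fun p hp => ?_
    have e : p.1 + p.2 = N := by simpa using hp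
    rcases lt_or_ge p.2 (T i) with h | h
    · rw [h2 i _ h, mul_zero, mul_zero]
    · rw [AddSubmonoidClass.coe_finsetSum, map_sum, Finset.sum_eq_single (p.1 + T i)
        (fun t _ ht => hb t i _ ht.symm) (fun h' => absurd (Finset.mem_range.mpr (by omega)) h')]
      simp [A]
  rw [this]
  exact Ideal.sum_mem _ fun i _ => Ideal.mul_mem_left _ _ (Ideal.subset_span (by simp))

end Fil

end Crest.Agent.R169
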