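/-
R169/Final: the two statements.  Author: helper14.
-/
import Crest.Agent.R169.MkDatum
import Crest.Agent.R169.RingH

set_option autoImplicit false
set_option linter.unusedSectionVars false
set_option linter.unusedVariables false
set_option linter.unusedSimpArgs false

noncomputable section

namespace Crest.Agent.R169

open MvPolynomial Filter
open scoped Pointwise


theorem final256 :
    ∃ (R : Type) (_ : CommRing R) (_ : IsLocalRing R) (_ : Algebra ℂ R),
      IsDomain R ∧ IsNoetherianRing R ∧ IsIntegrallyClosed R ∧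
      IsAdicComplete (IsLocalRing.maximalIdeal R) R ∧ ringKrullDim R = 3 ∧
      Function.Bijective (algebraMap ℂ (IsLocalRing.ResidueField R)) ∧
      ∀ (M : Type) [AddCommGroup M] [Module R M], Module.Finite R M → Nontrivial M →
        ∀ rs : List R, rs.length = 3 → (∀ r ∈ rs, r ∈ IsLocalRing.maximalIdeal R) →
          ¬ RingTheory.Sequence.IsRegular M rs := by
  obtain ⟨μ⟩ := fil.nonempty_mid_Rh
  have := fil.isNoetherianRing_Rh
  exact ⟨fil.Rh, inferInstance, inferInstance, inferInstance, μ.isDomain, inferInstance,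
    fil.isIntegrallyClosed_Rh, fil.isAdicComplete_Rh, μ.dim_eq, μ.residue_bij,
    fun M _ _ _ _ rs h3 hm => no_mcm μ M rs h3 hm⟩

theorem final257 :
    ∃ (T : Type) (_ : CommRing T) (_ : Algebra ℂ T) (𝒜 : ℕ → Submodule ℂ T) (_ : GradedAlgebra 𝒜)
      (_ : (HomogeneousIdeal.irrelevant 𝒜).toIdeal.IsMaximal),
      Algebra.FiniteType ℂ T ∧ IsDomain T ∧ ringKrullDim T = 3 ∧
      Function.Bijective (algebraMap ℂ (T ⧸ (HomogeneousIdeal.irrelevant 𝒜).toIdeal)) ∧
      ringKrullDim (Localization.AtPrime (HomogeneousIdeal.irrelevant 𝒜).toIdeal) = 3 ∧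
      ∀ (M : Type) [AddCommGroup M]
        [Module (Localization.AtPrime (HomogeneousIdeal.irrelevant 𝒜).toIdeal) M],
        Module.Finite (Localization.AtPrime (HomogeneousIdeal.irrelevant 𝒜).toIdeal) M →
        Nontrivial M →
        ∀ rs : List (Localization.AtPrime (HomogeneousIdeal.irrelevant 𝒜).toIdeal), rs.length = 3 →
          (∀ r ∈ rs, r ∈ IsLocalRing.maximalIdeal
            (Localization.AtPrime (HomogeneousIdeal.irrelevant 𝒜).toIdeal)) →
          ¬ RingTheory.Sequence.IsRegular M rs := by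
  obtain ⟨inst⟩ := fil.nonempty_gradedAlgebra
  have hmax := fil.isMaximal fil.mem_irrelevant
  obtain ⟨μ⟩ := fil.nonempty_mid_loc _ fil.mem_irrelevant
  refine ⟨fil.Rp, inferInstance, inferInstance, fil.gr, inst, hmax, fil.finiteType, inferInstance,
    le_antisymm fil.dim_Rp_le ?_, fil.bij_quot fil.mem_irrelevant, μ.dim_eq,
    fun M _ _ _ _ rs h3 hm => no_mcm μ M rs h3 hm⟩
  rw [← μ.dim_eq, IsLocalization.AtPrime.ringKrullDim_eq_height
    (HomogeneousIdeal.irrelevant fil.gr).toIdeal]
  exact Ideal.height_le_ringKrullDim_of_isPrime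

end Crest.Agent.R169
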