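import Mathlib

/-!
# Row 169, part TT: normed bundles on a rational curve.  Definitions (FROZEN, owner helper42).

`Places k K` is an axiomatic description of the places of `K = k(τ)` (integer valued, junk at `0`).
`NB Pl ι` is `K^ι` with a diagonalisable `ℚ`-valued norm at every place:
`ν_p x = min_i (v_p ((g_p x)_i) + a_p i)`.  The degree of the line `K x` is `∑_p d_p ν_p x`, the
degree of the span of the columns of `X` is the same sum for the vector of maximal minors.
All minima are avoided: `V.Ge p x t` says `ν_p x ≥ t`.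
Main theorems: `tensor_lineLe` (file `TTMain`), `NB.SS.dual`, `NB.deg_dual` (file `TTDual`),
`h0_bound` (file `TTH0`), `ratPlaces` (file `TTPlaces`).
-/

set_option autoImplicit false

namespace Crest.Agent.R169.TT

open Matrix

/-- The places of a rational function field, axiomatically. -/
structure Places (k K : Type) [Field k] [Field K] [Algebra k K] where
  P : Type
  v : P → K → ℤ
  d : P → ℕ
  v_mul : ∀ p x y, x ≠ 0 → y ≠ 0 → v p (x * y) = v p x + v p y
  v_add : ∀ p x y, x ≠ 0 → y ≠ 0 → x + y ≠ 0 → min (v p x) (v p y) ≤ v p (x + y)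
  v_const : ∀ p (c : k), c ≠ 0 → v p (algebraMap k K c) = 0
  unif : ∀ p, ∃ π : K, π ≠ 0 ∧ v p π = 1
  fin : ∀ x, x ≠ 0 → {p | v p x ≠ 0}.Finite
  /-- product formula -/
  pf : ∀ x, x ≠ 0 → ∑ᶠ p, (d p : ℤ) * v p x = 0
  /-- the residue field at `p` has dimension at most `d p` over `k` -/
  res : ∀ p (x : Fin (d p + 1) → K), (∀ i, x i ≠ 0 → 0 ≤ v p (x i)) →
    ∃ c : Fin (d p + 1) → k, c ≠ 0 ∧ (∑ i, c i • x i ≠ 0 → 1 ≤ v p (∑ i, c i • x i))
  /-- the place at infinity -/
  inf : P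
  d_inf : d inf = 1
  τ : K
  τ_ne : τ ≠ 0
  v_inf : v inf τ = -1
  v_τ : ∀ p, p ≠ inf → 0 ≤ v p τ
  /-- denominators can be cleared away from infinity -/
  clear : ∀ p, p ≠ inf → ∃ π : K, π ≠ 0 ∧ 0 < v p π ∧ ∀ q, q ≠ inf → 0 ≤ v q π

variable {k K : Type} [Field k] [Field K] [Algebra k K]

/-- Degree of a finitely supported rational divisor. -/
noncomputable def Places.dg (Pl : Places k K) (t : Pl.P → ℚ) : ℚ := ∑ᶠ p, (Pl.d p : ℚ) * t p

/-- A normed bundle. -/
structure NB (Pl : Places k K) (ι : Type) [Fintype ι] [DecidableEq ι] where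
  g : Pl.P → Matrix ι ι K
  a : Pl.P → ι → ℚ
  det_ne : ∀ p, (g p).det ≠ 0
  fin : {p | ¬ (g p = 1 ∧ a p = 0)}.Finite

variable {Pl : Places k K} {ι : Type} [Fintype ι] [DecidableEq ι]

/-- `ν_p x ≥ t`. -/
def NB.Ge (V : NB Pl ι) (p : Pl.P) (x : ι → K) (t : ℚ) : Prop :=
  ∀ i, (V.g p *ᵥ x) i ≠ 0 → t ≤ Pl.v p ((V.g p *ᵥ x) i) + V.a p i

/-- `ν_p (x_1 ∧ ... ∧ x_s) ≥ t` for the columns `x_j` of `X`. -/
def NB.WGe (V : NB Pl ι) (p : Pl.P) {s : ℕ} (X : Matrix ι (Fin s) K) (t : ℚ) : Prop :=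
  ∀ I : Fin s → ι, ((V.g p * X).submatrix I id).det ≠ 0 →
    t ≤ Pl.v p ((V.g p * X).submatrix I id).det + ∑ j, V.a p (I j)

/-- Every subspace has slope at most `μ`. -/
def NB.SS (V : NB Pl ι) (μ : ℚ) : Prop :=
  ∀ (s : ℕ) (X : Matrix ι (Fin s) K), LinearIndependent K Xᵀ →
    ∀ t : Pl.P → ℚ, (Function.support t).Finite → (∀ p, V.WGe p X (t p)) → Pl.dg t ≤ s * μ

/-- Every line has degree at most `μ`. -/
def NB.LineLe (V : NB Pl ι) (μ : ℚ) : Prop :=
  ∀ x : ι → K, x ≠ 0 → ∀ t : Pl.P → ℚ, (Function.support t).Finite → (∀ p, V.Ge p x (t p)) →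
    Pl.dg t ≤ μ

/-- Total degree. -/
noncomputable def NB.deg (V : NB Pl ι) : ℚ :=
  Pl.dg fun p => Pl.v p (V.g p).det + ∑ i, V.a p i

/-- Tensor product of a finite family of (rectangular) matrices. -/
def tensM {R : Type} [CommRing R] {J : Type} [Fintype J] {ι κ : J → Type}
    (g : ∀ j, Matrix (ι j) (κ j) R) : Matrix (∀ j, ι j) (∀ j, κ j) R :=
  Matrix.of fun I I' => ∏ j, g j (I j) (I' j)

theorem tensM_mul {R : Type} [CommRing R] {J : Type} [Fintype J] [DecidableEq J]
    {ι κ o : J → Type} [∀ j, Fintype (κ j)] (g : ∀ j, Matrix (ι j) (κ j) R)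
    (h : ∀ j, Matrix (κ j) (o j) R) :
    tensM g * tensM h = tensM fun j => g j * h j := by
  ext I I'
  simp only [tensM, Matrix.mul_apply, of_apply, ← Finset.prod_mul_distrib]
  rw [Finset.prod_univ_sum]
  simp

theorem tensM_one {R : Type} [CommRing R] {J : Type} [Fintype J] [DecidableEq J] {ι : J → Type}
    [∀ j, DecidableEq (ι j)] : tensM (fun j => (1 : Matrix (ι j) (ι j) R)) = 1 := by
  ext I I'
  simp only [tensM, of_apply, one_apply, Finset.prod_ite_zero, Finset.prod_const_one]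
  congr 1
  simp [funext_iff]

theorem tensM_det_ne {J : Type} [Fintype J] [DecidableEq J] {ι : J → Type} [∀ j, Fintype (ι j)]
    [∀ j, DecidableEq (ι j)] {g : ∀ j, Matrix (ι j) (ι j) K} (h : ∀ j, (g j).det ≠ 0) :
    (tensM g).det ≠ 0 := by
  have : tensM g * tensM (fun j => (g j)⁻¹) = 1 := by
    rw [tensM_mul, ← tensM_one]
    congr 1
    funext j
    exact Matrix.mul_nonsing_inv _ (Ne.isUnit (h j))
  exact (Matrix.isUnit_det_of_right_inverse this).ne_zero

/-- Tensor product of normed bundles. -/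
def NB.tens {J : Type} [Fintype J] [DecidableEq J] {ι : J → Type} [∀ j, Fintype (ι j)]
    [∀ j, DecidableEq (ι j)] (V : ∀ j, NB Pl (ι j)) : NB Pl (∀ j, ι j) where
  g p := tensM fun j => (V j).g p
  a p I := ∑ j, (V j).a p (I j)
  det_ne p := tensM_det_ne fun j => (V j).det_ne p
  fin := by
    refine (Set.finite_iUnion fun j => (V j).fin).subset fun p hp => ?_
    by_contra h
    simp only [Set.mem_iUnion, Set.mem_ofPred_eq, not_exists, not_not] at h
    refine hp ⟨?_, ?_⟩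
    · rw [← tensM_one]; congr 1; funext j; exact (h j).1
    · funext I; simp [fun j => (h j).2]

/-- Dual bundle (in the dual coordinates). -/
noncomputable def NB.dual (V : NB Pl ι) : NB Pl ι where
  g p := ((V.g p)⁻¹)ᵀ
  a p i := - V.a p i
  det_ne p := by
    rw [det_transpose, det_nonsing_inv, Ring.inverse_eq_inv']
    exact inv_ne_zero (V.det_ne p)
  fin := V.fin.subset fun p hp h => hp ⟨by simp [h.1], by funext i; simp [h.2]⟩

end Crest.Agent.R169.TT
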