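import Crest.Agent.R169.TTDegDefs

/-!
# Row 169, part TT: local norms of a normed bundle over the algebraic closure.
-/

set_option autoImplicit false

namespace Crest.Agent.R169.TT

open Matrix
open scoped NNReal

variable {k K : Type} [Field k] [Field K] [Algebra k K] {Pl : Places k K}
  {ι : Type} [Fintype ι] [DecidableEq ι] (V : NB Pl ι) (p : Pl.P)

omit [Fintype ι] [DecidableEq ι] in
theorem degA_det_map {R S : Type} [CommRing R] [CommRing S] (f : R →+* S) {s : ℕ}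
    (Y : Matrix ι (Fin s) R) (I : Fin s → ι) :
    ((Y.map f).submatrix I id).det = f (Y.submatrix I id).det := by
  rw [RingHom.map_det]
  rfl

theorem NB.degA_gt_det : (V.gt p).det = (∏ i, V.c p i) * alg K (V.g p).det := by
  rw [NB.gt, det_mul, det_diagonal, RingHom.map_det]
  rfl

theorem NB.degA_w_prod_c {α : Type} [Fintype α] (I : α → ι) :
    Pl.w p (∏ j, V.c p (I j)) = ex ((∑ j, V.a p (I j) : ℚ) : ℝ) := by
  rw [map_prod, Rat.cast_sum, ex_sum]
  exact Finset.prod_congr rfl fun j _ => V.w_c p _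

theorem degA_key (a t : ℚ) (y : K) :
    ex a * Pl.w p (alg K y) ≤ ex t ↔ (y ≠ 0 → t ≤ Pl.v p y + a) := by
  by_cases hy : y = 0
  · simp [hy]
  · rw [Pl.w_alg p y hy, ← ex_add, ex_le_ex, add_comm]
    simp only [hy, ne_eq, not_false_eq_true, forall_const]
    exact_mod_cast Iff.rfl

theorem NB.gt_det_ne : (V.gt p).det ≠ 0 := by
  rw [V.degA_gt_det p]
  exact mul_ne_zero (Finset.prod_ne_zero_iff.2 fun i _ => V.c_ne p i)
    ((map_ne_zero (alg K)).2 (V.det_ne p))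

theorem NB.w_gt_det :
    Pl.w p (V.gt p).det = ex ((Pl.v p (V.g p).det + ∑ i, V.a p i : ℚ) : ℝ) := by
  rw [V.degA_gt_det p, map_mul, V.degA_w_prod_c p (fun i => i), Pl.w_alg p _ (V.det_ne p), ← ex_add,
    add_comm]
  push_cast
  rfl

/-- `det_submatrix_diagonal_mul`, `ex_sum`. -/
theorem NB.lp_formula {s : ℕ} (Y : Matrix ι (Fin s) (Om K)) :
    V.lp p Y = Finset.univ.sup fun I : Fin s → ι =>
      ex ((∑ j, V.a p (I j) : ℚ) : ℝ) * Pl.w p (((V.g p).map (alg K) * Y).submatrix I id).det := by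
  unfold NB.lp pn NB.gt
  congr 1
  funext I
  rw [Matrix.mul_assoc, det_submatrix_diagonal_mul, map_mul, V.degA_w_prod_c p I]

theorem NB.lv_formula (z : ι → Om K) :
    V.lv p z = Finset.univ.sup fun i => ex (V.a p i) * Pl.w p (((V.g p).map (alg K) *ᵥ z) i) := by
  unfold NB.lv vn NB.gt
  congr 1
  funext i
  rw [← mulVec_mulVec, mulVec_diagonal, map_mul, V.w_c]

theorem NB.lp_col1 (z : ι → Om K) : V.lp p (col1 z) = V.lv p z := by
  rw [NB.lp, NB.lv, mul_col1, pn_col1]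

theorem NB.lp_ne_zero {s : ℕ} (Y : Matrix ι (Fin s) (Om K)) (h : LinearIndependent (Om K) Yᵀ) :
    V.lp p Y ≠ 0 := by
  exact (pn_ne_zero_iff _ _).2 (indep_mul _ (V.gt_det_ne p) Y h)

theorem NB.lv_ne_zero (z : ι → Om K) (h : z ≠ 0) : V.lv p z ≠ 0 := by
  rw [← V.lp_col1]
  exact V.lp_ne_zero p _ ((indep_col1 z).2 h)

theorem NB.lp_mul_right {s : ℕ} (Y : Matrix ι (Fin s) (Om K)) (B : Matrix (Fin s) (Fin s) (Om K)) :
    V.lp p (Y * B) = V.lp p Y * Pl.w p B.det := by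
  rw [NB.lp, NB.lp, ← Matrix.mul_assoc, pn_mul_right]

theorem NB.lp_zero_col (Y : Matrix ι (Fin 0) (Om K)) : V.lp p Y = 1 := by
  exact pn_zero_col _ _

theorem NB.lp_le_prod {s : ℕ} (Y : Matrix ι (Fin s) (Om K)) :
    V.lp p Y ≤ ∏ j, V.lv p (Yᵀ j) := by
  exact pn_le_prod_vn (Pl.w p) (V.gt p * Y)

theorem NB.Ge_iff (x : ι → K) (t : ℚ) : V.Ge p x t ↔ V.lv p (alg K ∘ x) ≤ ex t := by
  rw [V.lv_formula, Finset.sup_le_iff, NB.Ge]
  refine forall_congr' fun i => ?_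
  rw [← RingHom.map_mulVec, degA_key]
  simp

theorem NB.WGe_iff {s : ℕ} (X : Matrix ι (Fin s) K) (t : ℚ) :
    V.WGe p X t ↔ V.lp p (X.map (alg K)) ≤ ex t := by
  rw [V.lp_formula, Finset.sup_le_iff, NB.WGe]
  refine forall_congr' fun I => ?_
  rw [← Matrix.map_mul, degA_det_map, degA_key]
  simp

/-- The supremum in `lp_formula` is attained at some `I` with a nonzero minor. -/
theorem NB.lp_rat {s : ℕ} (X : Matrix ι (Fin s) K) (h : LinearIndependent K Xᵀ) :
    ∃ t : ℚ, V.lp p (X.map (alg K)) = ex t := by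
  obtain ⟨I₀, -⟩ := exists_minor_ne X h
  have h1 := V.lp_ne_zero p _ (indep_map (alg K) X h)
  rw [V.lp_formula] at h1 ⊢
  obtain ⟨I, -, hI⟩ := Finset.exists_mem_eq_sup Finset.univ ⟨I₀, Finset.mem_univ _⟩
    fun I : Fin s → ι => ex ((∑ j, V.a p (I j) : ℚ) : ℝ) *
      Pl.w p (((V.g p).map (alg K) * X.map (alg K)).submatrix I id).det
  rw [hI] at h1 ⊢
  rw [← Matrix.map_mul, degA_det_map] at h1 ⊢
  have h2 : ((V.g p * X).submatrix I id).det ≠ 0 := fun h3 => h1 (by simp [h3])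
  refine ⟨∑ j, V.a p (I j) + Pl.v p ((V.g p * X).submatrix I id).det, ?_⟩
  rw [Pl.w_alg p _ h2, ← ex_add]
  push_cast
  rfl

theorem NB.lp_good (h : V.g p = 1 ∧ V.a p = 0) {s : ℕ} (Y : Matrix ι (Fin s) (Om K)) :
    V.lp p Y = pn (Pl.w p) Y := by
  rw [V.lp_formula, h.1, h.2, pn]
  congr 1
  funext I
  simp [ex_zero]

/-- Outside the bad places and the places where a conjugate of a nonzero minor is not a unit
(`Places.w_fin`; `σ` commutes with `det`). -/
theorem NB.lp_fin {s : ℕ} (Y : Matrix ι (Fin s) (Om K)) (h : LinearIndependent (Om K) Yᵀ) :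
    {p | ∃ σ : Gam K, V.lp p (Y.map σ) ≠ 1}.Finite := by
  obtain ⟨I₀, hI₀⟩ := exists_minor_ne Y h
  refine ((V.fin.union (Pl.w_fin _ hI₀)).union (Set.finite_iUnion fun I : Fin s → ι =>
    Pl.w_fin_gt (Y.submatrix I id).det)).subset fun p hp => ?_
  obtain ⟨σ, hσ⟩ := hp
  by_contra hc
  simp only [Set.mem_union, Set.mem_iUnion, Set.mem_ofPred_eq, not_or, not_not, not_exists,
    not_lt] at hc
  obtain ⟨⟨h1, h2⟩, h3⟩ := hc
  have e : ∀ I : Fin s → ι, ((Y.map σ).submatrix I id).det = σ (Y.submatrix I id).det :=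
    fun I => degA_det_map (σ : Om K →+* Om K) Y I
  refine hσ ?_
  rw [V.lp_good p h1]
  refine le_antisymm ((pn_le_iff _ _ _).2 fun I => ?_) ?_
  · rw [e]
    exact h3 I σ
  · rw [← h2 σ, ← e]
    exact le_pn _ _ I₀

/-- Invariance under the decomposition group of `L` (`lp_formula`; the minors lie in `L`). -/
theorem NB.lp_map_of_fix (L : IntermediateField K (Om K)) (ρ : Gam K)
    (hρ : ∀ y ∈ L, Pl.w p (ρ y) = Pl.w p y) {s : ℕ} (Y : Matrix ι (Fin s) (Om K))
    (hY : ∀ i j, Y i j ∈ L) : V.lp p (Y.map ρ) = V.lp p Y := by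
  rw [V.lp_formula, V.lp_formula]
  congr 1
  funext I
  have e : (V.g p).map (alg K) * Y.map ρ =
      ((V.g p).map (alg K) * Y).map (ρ : Om K →+* Om K) := by
    rw [Matrix.map_mul]
    congr 1
    ext i j
    exact (ρ.commutes _).symm
  rw [e, degA_det_map]
  congr 1
  refine hρ _ ?_
  rw [det_apply']
  refine sum_mem fun σ _ => mul_mem (intCast_mem L _) (prod_mem fun j _ => ?_)
  rw [submatrix_apply, Matrix.mul_apply]
  exact sum_mem fun i _ => mul_mem (L.algebraMap_mem _) (hY _ _)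

/-- Comparison with the standard norm: `Y = (gt)⁻¹ * (gt * Y)` and `pn_mul_le`; the constant is
`1` at good places (`lp_good`). -/
theorem NB.exists_lp_lower : ∃ C : Pl.P → ℝ, (Function.support C).Finite ∧ (∀ p, 0 ≤ C p) ∧
    ∀ (p : Pl.P) (s : ℕ) (Y : Matrix ι (Fin s) (Om K)) (I : Fin s → ι),
      Pl.w p (Y.submatrix I id).det * ex (s * C p) ≤ V.lp p Y := by
  classical
  let B : Pl.P → ℝ≥0 := fun p =>
    max 1 (Finset.univ.sup fun q : ι × ι => Pl.w p ((V.gt p)⁻¹ q.1 q.2))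
  have hB1 : ∀ p, 1 ≤ B p := fun p => le_max_left _ _
  have hB0 : ∀ p, B p ≠ 0 := fun p => (zero_lt_one.trans_le (hB1 p)).ne'
  refine ⟨fun p => if V.g p = 1 ∧ V.a p = 0 then 0 else -nl (B p), V.fin.subset fun p hp h => ?_,
    fun p => ?_, fun p s Y I => ?_⟩
  · exact hp (if_pos h)
  · beta_reduce
    split_ifs
    · exact le_rfl
    · have := nl_le_nl one_ne_zero (hB1 p)
      rw [nl_one] at this
      linarith
  · beta_reduce
    split_ifs with h
    · rw [mul_zero, ex_zero, mul_one, V.lp_good p h]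
      exact le_pn _ _ I
    · have h1 := pn_mul_le (Pl.w p) (V.gt p)⁻¹ (B p) (fun i j => le_max_of_le_right
        (Finset.le_sup (f := fun q : ι × ι => Pl.w p ((V.gt p)⁻¹ q.1 q.2))
          (Finset.mem_univ (i, j)))) (V.gt p * Y)
      rw [← Matrix.mul_assoc, nonsing_inv_mul _ (Ne.isUnit (V.gt_det_ne p)), Matrix.one_mul] at h1
      have h2 : B p ^ s * ex (s * -nl (B p)) = 1 := by
        rw [← ex_nl (pow_ne_zero s (hB0 p)), nl_pow, ← ex_add, mul_neg, add_neg_cancel, ex_zero]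
      calc Pl.w p (Y.submatrix I id).det * ex (s * -nl (B p))
          ≤ B p ^ s * V.lp p Y * ex (s * -nl (B p)) :=
            mul_le_mul_left ((le_pn _ _ I).trans h1) _
        _ = V.lp p Y := by rw [mul_right_comm, h2, one_mul]

/-- Both sides are the sup over `I` of `ex (∑ a) * w (...)` (`lv_formula`,
`tensM (diagonal c * g) = diagonal (∏ c) * tensM g`). -/
theorem lv_tens {J : Type} [Fintype J] [DecidableEq J] {ι : J → Type} [∀ j, Fintype (ι j)]
    [∀ j, DecidableEq (ι j)] (V : ∀ j, NB Pl (ι j)) (p : Pl.P) (z : (∀ j, ι j) → Om K) :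
    (NB.tens V).lv p z = vn (Pl.w p) (tensM (fun j => (V j).gt p) *ᵥ z) := by
  have e : tensM (fun j => (V j).gt p) =
      diagonal (fun I : ∀ j, ι j => ∏ j, (V j).c p (I j)) * ((NB.tens V).g p).map (alg K) := by
    ext I I'
    simp [tensM, NB.gt, NB.tens, Finset.prod_mul_distrib]
  rw [NB.lv_formula, e, vn]
  congr 1
  funext I
  rw [← mulVec_mulVec, mulVec_diagonal, map_mul, map_prod]
  congr 1
  simp only [NB.tens, NB.w_c, Rat.cast_sum, ex_sum]

/-- `(gt)⁻¹ᵀ = diagonal c⁻¹ * (g⁻¹ᵀ).map`; compare with `lp_formula` for the dual. -/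
theorem NB.lp_dual {s : ℕ} (Y : Matrix ι (Fin s) (Om K)) :
    V.dual.lp p Y = pn (Pl.w p) (((V.gt p)⁻¹)ᵀ * Y) := by
  have e : (V.gt p)⁻¹ = ((V.g p)⁻¹).map (alg K) * diagonal fun i => (V.c p i)⁻¹ := by
    refine inv_eq_right_inv ?_
    rw [NB.gt, Matrix.mul_assoc, ← Matrix.mul_assoc ((V.g p).map _), ← Matrix.map_mul,
      mul_nonsing_inv _ (Ne.isUnit (V.det_ne p)), Matrix.map_one _ (map_zero _) (map_one _),
      Matrix.one_mul, diagonal_mul_diagonal, ← diagonal_one]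
    congr 1
    funext i
    exact mul_inv_cancel₀ (V.c_ne p i)
  rw [NB.lp_formula, e, pn, transpose_mul, diagonal_transpose]
  congr 1
  funext I
  rw [Matrix.mul_assoc, det_submatrix_diagonal_mul, map_mul, map_prod]
  congr 1
  simp only [NB.dual, Rat.cast_sum, ex_sum, map_inv₀, NB.w_c]
  refine Finset.prod_congr rfl fun j _ => eq_inv_of_mul_eq_one_left ?_
  rw [← ex_add, Rat.cast_neg, neg_add_cancel, ex_zero]

/-- `tens_lead` applied to the sequences `gt *ᵥ x j i` (`mul_fc`, `tensM_mul`, `lv_tens`). -/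
theorem lead_lp {J : Type} [Fintype J] [DecidableEq J] {ι : J → Type} [∀ j, Fintype (ι j)]
    [∀ j, DecidableEq (ι j)] (V : ∀ j, NB Pl (ι j)) (p : Pl.P)
    (n : J → ℕ) (x : ∀ j, ℕ → ι j → Om K)
    (h : ∀ j, LinearIndependent (Om K) (fc (x j) (n j))ᵀ)
    (y : (∀ j, Fin (n j)) → Om K) (I : ∀ j, Fin (n j))
    (hI : ∀ I', y I' ≠ 0 → (∀ j, I j ≤ I' j) → I' = I) :
    Pl.w p (y I) * ∏ j, (V j).lp p (fc (x j) (I j + 1)) ≤
      (NB.tens V).lv p (tensM (fun j => fc (x j) (n j)) *ᵥ y) *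
        ∏ j, (V j).lp p (fc (x j) (I j)) := by
  have := tens_lead (Pl.w p) n (fun j i => (V j).gt p *ᵥ x j i)
    (fun j => by rw [← mul_fc]; exact indep_mul _ ((V j).gt_det_ne p) _ (h j)) y I hI
  simp only [← mul_fc] at this
  rw [← tensM_mul, ← mulVec_mulVec, ← lv_tens] at this
  exact this

/-- `rank2_local` for `gt * A`, `gt *ᵥ x`, `gt *ᵥ y`. -/
theorem NB.rank2_lp {s : ℕ} (A : Matrix ι (Fin s) (Om K)) (x y : ι → Om K)
    (h : LinearIndependent (Om K) (snoc (snoc A x) y)ᵀ) :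
    ∃ a b d : Om K, a ≠ 0 ∧ d ≠ 0 ∧
      (∀ α β : Om K, V.lp p (snoc A (α • x + β • y)) =
        V.lp p A * max (Pl.w p (a * α + b * β)) (Pl.w p (d * β))) ∧
      V.lp p (snoc (snoc A x) y) = V.lp p A * Pl.w p a * Pl.w p d := by
  obtain ⟨a, b, d, ha, hd, h1, h2⟩ := rank2_local (Pl.w p) (V.gt p * A) (V.gt p *ᵥ x) (V.gt p *ᵥ y)
    (by rw [← mul_snoc, ← mul_snoc]; exact indep_mul _ (V.gt_det_ne p) _ h)
  refine ⟨a, b, d, ha, hd, fun α β => ?_, ?_⟩
  · rw [NB.lp, mul_snoc, mulVec_add, mulVec_smul, mulVec_smul, h1, NB.lp]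
  · rw [NB.lp, mul_snoc, mul_snoc, h2, NB.lp]

end Crest.Agent.R169.TT
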