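import Crest.Agent.R169.TTDegA

/-!
# Row 169, part TT: global degrees over the algebraic closure; lines have degree at most `μ`.
-/

set_option autoImplicit false

namespace Crest.Agent.R169.TT

open Matrix
open scoped NNReal

variable {k K : Type} [Field k] [Field K] [Algebra k K] {Pl : Places k K}
  {ι : Type} [Fintype ι] [DecidableEq ι] (V : NB Pl ι)

theorem NB.finT_lp (p : Pl.P) {s : ℕ} (Y : Matrix ι (Fin s) (Om K)) :
    FinT fun σ : Gam K => nl (V.lp p (Y.map σ)) := by
  exact FinT.matrix (fun Z => nl (V.lp p Z)) Y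

theorem indep_map_gam {s : ℕ} (Y : Matrix ι (Fin s) (Om K)) (h : LinearIndependent (Om K) Yᵀ)
    (σ : Gam K) : LinearIndependent (Om K) (Y.map σ)ᵀ := by
  exact indep_map (σ : Om K →+* Om K) Y h

theorem NB.ld_fin {s : ℕ} (Y : Matrix ι (Fin s) (Om K)) (h : LinearIndependent (Om K) Yᵀ) :
    (Function.support fun p => V.ld p Y).Finite := by
  refine (V.lp_fin Y h).subset fun p hp => ?_
  by_contra hc
  simp only [Set.mem_ofPred_eq, not_exists, not_not] at hc
  refine hp ?_
  simp only [NB.ld, hc, nl_one]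
  exact mean_const 0

theorem NB.ld_alg (p : Pl.P) {s : ℕ} (X : Matrix ι (Fin s) K) :
    V.ld p (X.map (alg K)) = nl (V.lp p (X.map (alg K))) := by
  have e : ∀ σ : Gam K, (X.map (alg K)).map σ = X.map (alg K) := by
    intro σ
    ext i j
    simp
  simp only [NB.ld, e]
  exact mean_const _

theorem NB.mdeg_zero_col (Y : Matrix ι (Fin 0) (Om K)) : V.mdeg Y = 0 := by
  have e : ∀ p, V.ld p Y = 0 := by
    intro p
    simp only [NB.ld, V.lp_zero_col, nl_one]
    exact mean_const 0
  simp only [NB.mdeg, e]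
  exact Pl.dgR_zero

/-- Choose `t p` with `lp_rat`; `t p = ld p`, so it has finite support; `WGe_iff`, `dgR_cast`. -/
theorem NB.mdeg_alg_le {μ : ℚ} (hV : V.SS μ) {s : ℕ} (X : Matrix ι (Fin s) K)
    (h : LinearIndependent K Xᵀ) : V.mdeg (X.map (alg K)) ≤ s * μ := by
  choose t ht using fun p => V.lp_rat p X h
  have e : ∀ p, V.ld p (X.map (alg K)) = (t p : ℝ) := fun p => by rw [V.ld_alg, ht, nl_ex]
  have hfin : (Function.support t).Finite := by
    refine (V.ld_fin _ (indep_map (alg K) X h)).subset fun p hp => ?_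
    simpa [e] using hp
  have h1 := hV s X h t hfin fun p => (V.WGe_iff p X (t p)).2 (ht p).le
  simp only [NB.mdeg, e]
  rw [Pl.dgR_cast t hfin]
  exact_mod_cast h1

/-- Converse bookkeeping: a lower bound of the local weights bounds the degree from below. -/
theorem NB.dg_le_mdeg {s : ℕ} (X : Matrix ι (Fin s) K) (h : LinearIndependent K Xᵀ)
    (t : Pl.P → ℚ) (ht : (Function.support t).Finite) (hX : ∀ p, V.WGe p X (t p)) :
    (Pl.dg t : ℝ) ≤ V.mdeg (X.map (alg K)) := by
  rw [← Pl.dgR_cast t ht]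
  refine Pl.dgR_mono _ _ (ht.subset fun p hp => by simpa using hp)
    (V.ld_fin _ (indep_map (alg K) X h)) fun p => ?_
  rw [V.ld_alg, le_nl_iff (V.lp_ne_zero p _ (indep_map (alg K) X h))]
  exact (V.WGe_iff p X (t p)).1 (hX p)

/-- A square invertible matrix over `K` has degree `V.deg` (`pn_square'`, `w_gt_det`, `dgR_v`). -/
theorem NB.mdeg_full {n : ℕ} (e : Fin n ≃ ι) (X : Matrix ι (Fin n) K)
    (h : LinearIndependent K Xᵀ) : V.mdeg (X.map (alg K)) = V.deg := by
  have h1 : Function.Injective (X.submatrix e id).mulVec := by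
    intro x y hxy
    refine Matrix.mulVec_injective_iff.2 h ?_
    funext i
    have := congrFun hxy (e.symm i)
    simpa [Matrix.mulVec, dotProduct] using this
  have hd : (X.submatrix e id).det ≠ 0 :=
    ((isUnit_iff_isUnit_det _).1 (mulVec_injective_iff_isUnit.1 h1)).ne_zero
  have e1 : ∀ p, V.ld p (X.map (alg K)) =
      ((Pl.v p (V.g p).det + ∑ i, V.a p i : ℚ) : ℝ) + (Pl.v p (X.submatrix e id).det : ℝ) := by
    intro p
    have e2 : (V.gt p * X.map (alg K)).submatrix e id =
        (V.gt p).submatrix e e * (alg K).mapMatrix (X.submatrix e id) := by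
      rw [Matrix.submatrix_mul _ _ _ e _ e.bijective]
      rfl
    rw [V.ld_alg, NB.lp, pn_square' _ e, e2, det_mul, det_submatrix_equiv_self, map_mul,
      V.w_gt_det, ← RingHom.map_det, Pl.w_alg p _ hd, ← ex_add, nl_ex]
  have hfin : (Function.support fun p => (Pl.v p (V.g p).det + ∑ i, V.a p i : ℚ)).Finite := by
    refine V.fin.subset fun p hp hc => hp ?_
    have hv := Pl.v_const p 1 one_ne_zero
    rw [map_one] at hv
    simp [hc.1, hc.2, hv]
  simp only [NB.mdeg, e1]
  rw [Pl.dgR_add _ _ (hfin.subset fun p hp => Rat.cast_ne_zero.1 hp)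
    ((Pl.fin _ hd).subset fun p hp => by simpa using hp), Pl.dgR_v _ hd, Pl.dgR_cast _ hfin,
    add_zero]
  rfl

variable [CharZero K]

/-- `lp_mul_right`, `mean_add`, `dgR_add`, `dgR_lw`. -/
theorem NB.mdeg_mul_right {s : ℕ} (Y : Matrix ι (Fin s) (Om K)) (h : LinearIndependent (Om K) Yᵀ)
    (B : Matrix (Fin s) (Fin s) (Om K)) (hB : B.det ≠ 0) : V.mdeg (Y * B) = V.mdeg Y := by
  have e : ∀ p, V.ld p (Y * B) = V.ld p Y + Pl.lw p B.det := by
    intro p
    rw [NB.ld, NB.ld, Places.lw, ← mean_add (V.finT_lp p Y)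
      (FinT.apply (fun u => nl (Pl.w p u)) B.det)]
    congr 1
    funext σ
    have e1 : (Y * B).map σ = Y.map σ * (σ : Om K →+* Om K).mapMatrix B :=
      Matrix.map_mul (f := (σ : Om K →+* Om K))
    rw [e1, V.lp_mul_right, ← RingHom.map_det,
      nl_mul (V.lp_ne_zero p _ (indep_map_gam Y h σ)) (by simpa using hB)]
    rfl
  simp only [NB.mdeg, e]
  rw [Pl.dgR_add _ _ (V.ld_fin Y h) (Pl.lw_fin _ hB), Pl.dgR_lw _ hB, add_zero]

/-- `mean_right`. -/
theorem NB.mdeg_map {s : ℕ} (Y : Matrix ι (Fin s) (Om K)) (ρ : Gam K) :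
    V.mdeg (Y.map ρ) = V.mdeg Y := by
  have e : ∀ p, V.ld p (Y.map ρ) = V.ld p Y := fun p => mean_right (V.finT_lp p Y) ρ
  simp only [NB.mdeg, e]

/-- `exists_lp_lower` with a nonzero minor, `dgR_lw`. -/
theorem NB.mdeg_bdd : ∃ C : ℝ, ∀ (s : ℕ) (Y : Matrix ι (Fin s) (Om K)),
    LinearIndependent (Om K) Yᵀ → V.mdeg Y ≤ s * C := by
  obtain ⟨C, hC, -, hle⟩ := V.exists_lp_lower
  refine ⟨Pl.dgR C, fun s Y hY => ?_⟩
  obtain ⟨I, hI⟩ := exists_minor_ne Y hY
  have hp : ∀ p, V.ld p Y ≤ Pl.lw p (Y.submatrix I id).det + s * C p := by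
    intro p
    have fy : FinT fun σ : Gam K => nl (Pl.w p (σ (Y.submatrix I id).det)) :=
      FinT.apply (fun u => nl (Pl.w p u)) _
    rw [Places.lw, ← mean_const (K := K) (s * C p), ← mean_add fy (FinT.const _)]
    refine mean_mono (V.finT_lp p Y) (fy.add (FinT.const _)) fun σ => ?_
    have h1 := hle p s (Y.map σ) I
    have e1 : ((Y.map σ).submatrix I id).det = σ (Y.submatrix I id).det :=
      (RingHom.map_det (σ : Om K →+* Om K) (Y.submatrix I id)).symm
    have hw : Pl.w p (σ (Y.submatrix I id).det) ≠ 0 := by simpa using hI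
    rw [e1] at h1
    have h2 := nl_le_nl (mul_ne_zero hw (ex_ne _)) h1
    rwa [nl_mul hw (ex_ne _), nl_ex] at h2
  have h1 := Pl.dgR_mono _ _ (V.ld_fin Y hY) (supp_add (Pl.lw_fin _ hI) (supp_smul _ hC)) hp
  rwa [Pl.dgR_add _ _ (Pl.lw_fin _ hI) (supp_smul _ hC), Pl.dgR_lw _ hI, zero_add,
    Pl.dgR_smul _ _ hC] at h1

omit [CharZero K] in
theorem degB_indep_mul_right {F ι : Type} [Field F] [Fintype ι] {s : ℕ} (Y : Matrix ι (Fin s) F)
    (h : LinearIndependent F Yᵀ) (B : Matrix (Fin s) (Fin s) F) (hB : B.det ≠ 0) :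
    LinearIndependent F (Y * B)ᵀ := by
  have h1 : Function.Injective B.mulVec :=
    mulVec_injective_iff_isUnit.2 ((isUnit_iff_isUnit_det _).2 (Ne.isUnit hB))
  refine Matrix.mulVec_injective_iff.1 fun x y hxy => h1 (Matrix.mulVec_injective_iff.2 h ?_)
  rwa [mulVec_mulVec, mulVec_mulVec]

/-- Conjugates of a `K`-independent family: a dual family for the trace form gives a left inverse
of the matrix `(g β_l)`. -/
theorem degB_exists_conj {s : ℕ} (β : Fin s → Om K) (hβ : LinearIndependent K β) :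
    ∃ ρ : Fin s → Gam K, (Matrix.of fun j l => ρ j (β l)).det ≠ 0 := by
  classical
  obtain ⟨L, _, _, hL⟩ := exists_gal (K := K) (Finset.univ.image β)
  let β' : Fin s → L := fun l => ⟨β l, hL _ (Finset.mem_image_of_mem _ (Finset.mem_univ l))⟩
  have hβ' : LinearIndependent K β' := LinearIndependent.of_comp L.val.toLinearMap hβ
  obtain ⟨ψ, hψ⟩ := LinearMap.exists_leftInverse_of_injective
    (Fintype.linearCombination K β') (LinearMap.ker_eq_bot.2 hβ'.fintypeLinearCombination_injective)
  let γ : Fin s → L := fun m => ((Algebra.traceForm K L).toDual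
    (traceForm_nondegenerate K L)).symm (LinearMap.proj m ∘ₗ ψ)
  have hγ : ∀ m l, Algebra.trace K L (γ m * β' l) = if m = l then 1 else 0 := by
    intro m l
    have h1 := LinearMap.congr_fun hψ (Pi.single l 1)
    rw [← Algebra.traceForm_apply, LinearMap.BilinForm.apply_toDual_symm_apply]
    simp only [LinearMap.comp_apply, Fintype.linearCombination_apply_single, one_smul,
      LinearMap.id_apply] at h1
    simp only [LinearMap.comp_apply, h1, LinearMap.proj_apply, Pi.single_apply]
  let M : Matrix (L ≃ₐ[K] L) (Fin s) L := Matrix.of fun g l => g (β' l)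
  let N : Matrix (Fin s) (L ≃ₐ[K] L) L := Matrix.of fun m g => g (γ m)
  have hNM : N * M = 1 := by
    ext m l
    simp only [Matrix.mul_apply, M, N, of_apply, ← map_mul]
    rw [← trace_eq_sum_automorphisms, hγ, one_apply]
    split_ifs <;> simp
  have hM : LinearIndependent L Mᵀ := by
    refine Matrix.mulVec_injective_iff.1 fun u v huv => ?_
    have := congrArg (N.mulVec) huv
    rwa [mulVec_mulVec, mulVec_mulVec, hNM, one_mulVec, one_mulVec] at this
  obtain ⟨I, hI⟩ := exists_minor_ne M hM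
  choose ρ hρ using fun j => AlgEquiv.restrictNormalHom_surjective (F := K) (K₁ := L) (Om K) (I j)
  refine ⟨ρ, ?_⟩
  have e : (Matrix.of fun j l => ρ j (β l)) =
      (L.val : L →+* Om K).mapMatrix (M.submatrix I id) := by
    ext j l
    have := coe_restrict L (ρ j) (β' l)
    rw [hρ] at this
    exact this.symm
  rw [e, ← RingHom.map_det]
  exact (map_ne_zero _).2 hI

/-- Let `β` be a `K`-basis of the `K`-span of the coordinates of `x`, `x i = ∑ X i j β j`; the rows
of `X` span `K^s`, so its columns are independent.  Extend `β` to a basis of a finite Galois `L`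
(`exists_gal`); the matrix `(g β_j)` of a full basis is invertible (nonzero discriminant,
`Algebra.discr_not_zero_of_basis`, `Algebra.discr_eq_det_embeddingsMatrixReindex_pow_two`; or
Dedekind independence `linearIndependent_monoidHom` plus a dimension count; or directly: if
`∑ c_j g(β_j) = 0` for all `g`, a minimal relation can be normalised to be Galois invariant), so
the matrix `(g β_j)_{g, j}` has independent columns and `exists_minor_ne` selects `s` automorphisms;
lift them to `Gam K`. -/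
theorem exists_conj_basis (x : ι → Om K) (hx : x ≠ 0) :
    ∃ (s : ℕ) (X : Matrix ι (Fin s) K) (B : Matrix (Fin s) (Fin s) (Om K)) (ρ : Fin s → Gam K),
      0 < s ∧ LinearIndependent K Xᵀ ∧ B.det ≠ 0 ∧ ∀ j, (X.map (alg K) * B)ᵀ j = ρ j ∘ x := by
  classical
  let W : Submodule K (Om K) := Submodule.span K (Set.range x)
  have : FiniteDimensional K W := FiniteDimensional.span_of_finite K (Set.finite_range x)
  let b := Module.finBasis K W
  let x' : ι → W := fun i => ⟨x i, Submodule.subset_span ⟨i, rfl⟩⟩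
  have hβ : LinearIndependent K fun l => (b l : Om K) :=
    b.linearIndependent.map' W.subtype (Submodule.ker_subtype W)
  obtain ⟨ρ, hρ⟩ := degB_exists_conj _ hβ
  refine ⟨Module.finrank K W, Matrix.of fun i l => b.repr (x' i) l,
    (Matrix.of fun j l => ρ j (b l : Om K))ᵀ, ρ, ?_, ?_, by rwa [det_transpose], fun j => ?_⟩
  · obtain ⟨i, hi⟩ := Function.ne_iff.1 hx
    have : Nontrivial W := ⟨x' i, 0, fun h0 => hi (congrArg Subtype.val h0)⟩
    exact Module.finrank_pos
  · refine Fintype.linearIndependent_iff.2 fun c hc l => ?_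
    let φ : W →ₗ[K] K := ∑ m, c m • b.coord m
    have h1 : ∀ i, φ (x' i) = 0 := by
      intro i
      have := congrFun hc i
      simpa [φ, Finset.sum_apply] using this
    have h2 : ∀ (y : Om K) (hy : y ∈ W), φ ⟨y, hy⟩ = 0 := by
      intro y hy
      induction hy using Submodule.span_induction with
      | mem y hy =>
        obtain ⟨i, rfl⟩ := hy
        exact h1 i
      | zero => exact map_zero φ
      | add y z hy hz ih1 ih2 =>
        have : (⟨y + z, W.add_mem hy hz⟩ : W) = ⟨y, hy⟩ + ⟨z, hz⟩ := rfl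
        rw [this, map_add, ih1, ih2, add_zero]
      | smul a y hy ih =>
        have : (⟨a • y, W.smul_mem a hy⟩ : W) = a • ⟨y, hy⟩ := rfl
        rw [this, map_smul, ih, smul_zero]
    have h3 := h2 (b l) (b l).2
    simpa [φ, Finsupp.single_apply] using h3
  · funext i
    have h1 : x i = ∑ l, b.repr (x' i) l • (b l : Om K) := by
      have := congrArg W.subtype (b.sum_repr (x' i))
      rw [map_sum] at this
      exact this.symm
    simp only [transpose_apply, Matrix.mul_apply, map_apply, of_apply, Function.comp_apply]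
    rw [h1, map_sum]
    refine Finset.sum_congr rfl fun l _ => ?_
    rw [Algebra.smul_def, map_mul, AlgEquiv.commutes]

/-- Hadamard: `s * mdeg (col1 x) = ∑ mdeg (col1 (ρ j ∘ x)) ≤ mdeg (X.map * B) = mdeg X.map ≤ s μ`. -/
theorem NB.mdeg_col1_le {μ : ℚ} (hV : V.SS μ) (x : ι → Om K) (hx : x ≠ 0) :
    V.mdeg (col1 x) ≤ μ := by
  obtain ⟨s, X, B, ρ, hs, hX, hB, hρ⟩ := exists_conj_basis x hx
  have hX' := indep_map (alg K) X hX
  have hi : LinearIndependent (Om K) (X.map (alg K) * B)ᵀ := degB_indep_mul_right _ hX' B hB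
  have hc : ∀ j, LinearIndependent (Om K) ((col1 x).map (ρ j))ᵀ :=
    fun j => indep_map_gam _ ((indep_col1 x).2 hx) (ρ j)
  have hp : ∀ p, ∑ j, V.ld p ((col1 x).map (ρ j)) ≤ V.ld p (X.map (alg K) * B) := by
    intro p
    have f0 : ∀ j ∈ Finset.univ, FinT fun σ : Gam K => nl (V.lp p (((col1 x).map (ρ j)).map σ)) :=
      fun j _ => V.finT_lp p _
    simp only [NB.ld]
    rw [← mean_sum _ f0]
    refine mean_mono (FinT.sum _ f0) (V.finT_lp p _) fun σ => ?_
    have h1 := V.lp_le_prod p ((X.map (alg K) * B).map σ)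
    have e1 : ∀ j, V.lv p (((X.map (alg K) * B).map σ)ᵀ j) =
        V.lp p (((col1 x).map (ρ j)).map σ) := by
      intro j
      rw [← V.lp_col1]
      congr 1
      ext r l
      exact congrArg σ (congrFun (hρ j) r)
    simp only [e1] at h1
    rw [← nl_prod _ _ fun j _ => V.lp_ne_zero p _ (indep_map_gam _ (hc j) σ)]
    exact nl_le_nl (V.lp_ne_zero p _ (indep_map_gam _ hi σ)) h1
  have h1 := Pl.dgR_mono _ _ (supp_sum _ fun j _ => V.ld_fin _ (hc j)) (V.ld_fin _ hi) hp
  rw [Pl.dgR_sum _ _ fun j _ => V.ld_fin _ (hc j)] at h1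
  have h2 : ∑ j, V.mdeg ((col1 x).map (ρ j)) ≤ V.mdeg (X.map (alg K) * B) := h1
  simp only [V.mdeg_map, Finset.sum_const, Finset.card_univ, Fintype.card_fin, nsmul_eq_mul] at h2
  rw [V.mdeg_mul_right _ hX' B hB] at h2
  have h3 := h2.trans (V.mdeg_alg_le hV X hX)
  have hs' : (0 : ℝ) < s := Nat.cast_pos.2 hs
  exact le_of_mul_le_mul_left h3 hs'

end Crest.Agent.R169.TT
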