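import Crest.Agent.R169.TTLocA

/-!
# Row 169, part TT: Iwasawa decomposition and its consequences.
-/

set_option autoImplicit false

namespace Crest.Agent.R169.TT

open Matrix
open scoped NNReal

variable {F : Type} [Field F] (w : Valuation F ℝ≥0)

theorem lb_snoc_castSucc {R ι : Type} {s : ℕ} (A : Matrix ι (Fin s) R) (x : ι → R) (r : ι)
    (j : Fin s) : snoc A x r (Fin.castSucc j) = A r j := by
  simp [snoc]

theorem lb_snoc_last {R ι : Type} {s : ℕ} (A : Matrix ι (Fin s) R) (x : ι → R) (r : ι) :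
    snoc A x r (Fin.last s) = x r := by
  simp [snoc]

theorem lb_snoc_eta {R ι : Type} {s : ℕ} (Y : Matrix ι (Fin (s + 1)) R) :
    Y = snoc (Y.submatrix id Fin.castSucc) (fun r => Y r (Fin.last s)) := by
  ext r j
  refine Fin.lastCases ?_ (fun j => ?_) j <;> simp [snoc]

/-- The block matrix `(T c; 0 e)`. -/
def lbBlk {s : ℕ} (T : Matrix (Fin s) (Fin s) F) (c : Fin s → F) (e : F) :
    Matrix (Fin (s + 1)) (Fin (s + 1)) F :=
  snoc (snoc Tᵀ 0)ᵀ (Fin.snoc (α := fun _ => F) c e)

theorem lbBlk_cc {s : ℕ} (T : Matrix (Fin s) (Fin s) F) (c : Fin s → F) (e : F) (i j : Fin s) :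
    lbBlk T c e (Fin.castSucc i) (Fin.castSucc j) = T i j := by
  simp [lbBlk, snoc]

theorem lbBlk_cl {s : ℕ} (T : Matrix (Fin s) (Fin s) F) (c : Fin s → F) (e : F) (i : Fin s) :
    lbBlk T c e (Fin.castSucc i) (Fin.last s) = c i := by
  simp [lbBlk, snoc]

theorem lbBlk_lc {s : ℕ} (T : Matrix (Fin s) (Fin s) F) (c : Fin s → F) (e : F) (j : Fin s) :
    lbBlk T c e (Fin.last s) (Fin.castSucc j) = 0 := by
  simp [lbBlk, snoc]

theorem lbBlk_ll {s : ℕ} (T : Matrix (Fin s) (Fin s) F) (c : Fin s → F) (e : F) :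
    lbBlk T c e (Fin.last s) (Fin.last s) = e := by
  simp [lbBlk, snoc]

theorem lb_snoc_mul_blk {ι : Type} {s : ℕ} (U : Matrix ι (Fin s) F) (z : ι → F)
    (T : Matrix (Fin s) (Fin s) F) (c : Fin s → F) (e : F) :
    snoc U z * lbBlk T c e = snoc (U * T) (U *ᵥ c + e • z) := by
  ext r j
  rw [Matrix.mul_apply, Fin.sum_univ_castSucc]
  refine Fin.lastCases ?_ (fun j => ?_) j
  · simp only [lb_snoc_castSucc, lb_snoc_last, lbBlk_cl, lbBlk_ll, Pi.add_apply, Pi.smul_apply,
      smul_eq_mul, mulVec, dotProduct]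
    ring
  · simp only [lb_snoc_castSucc, lb_snoc_last, lbBlk_cc, lbBlk_lc, Matrix.mul_apply]
    ring

theorem lbBlk_det {s : ℕ} (T : Matrix (Fin s) (Fin s) F) (c : Fin s → F) (e : F) :
    (lbBlk T c e).det = T.det * e := by
  rw [Matrix.det_succ_row _ (Fin.last s), Fin.sum_univ_castSucc]
  have h : (lbBlk T c e).submatrix (Fin.last s).succAbove (Fin.last s).succAbove = T := by
    ext i j
    simp only [Fin.succAbove_last, submatrix_apply, lbBlk_cc]
  simp only [lbBlk_lc, mul_zero, zero_mul, Finset.sum_const_zero, zero_add, lbBlk_ll, h]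
  rw [← two_mul, pow_mul]
  ring

/-- The Gram–Schmidt step: an integral matrix with an integral left inverse killing `z ≠ 0` can be
extended by the normalisation of `z`. -/
theorem lb_extend {ι : Type} [Fintype ι] {n : ℕ} (U : Matrix ι (Fin n) F)
    (U' : Matrix (Fin n) ι F) (hU : ∀ i j, w (U i j) ≤ 1) (hU' : ∀ i j, w (U' i j) ≤ 1)
    (inv : U' * U = 1) (z : ι → F) (hz : z ≠ 0) (hz' : U' *ᵥ z = 0) :
    ∃ (e : F) (u : ι → F) (V' : Matrix (Fin (n + 1)) ι F), e ≠ 0 ∧ w e = vn w z ∧ z = e • u ∧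
      (∀ i j, w (snoc U u i j) ≤ 1) ∧ (∀ i j, w (V' i j) ≤ 1) ∧ V' * snoc U u = 1 := by
  classical
  obtain ⟨i₁, hi₁⟩ : ∃ i, z i ≠ 0 := Function.ne_iff.1 hz
  obtain ⟨i₀, -, hi₀⟩ := Finset.exists_max_image Finset.univ (fun i => w (z i))
    ⟨i₁, Finset.mem_univ _⟩
  have he : z i₀ ≠ 0 := by
    intro h0
    have := hi₀ i₁ (Finset.mem_univ _)
    rw [h0, map_zero, nonpos_iff_eq_zero, Valuation.zero_iff] at this
    exact hi₁ this
  have hwe : w (z i₀) ≠ 0 := (Valuation.ne_zero_iff w).2 he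
  set u : ι → F := (z i₀)⁻¹ • z with hu
  have hu0 : u i₀ = 1 := by simp [hu, he]
  have huU : U' *ᵥ u = 0 := by rw [hu, mulVec_smul, hz', smul_zero]
  set ξ : ι → F := Pi.single i₀ 1 - U i₀ ᵥ* U' with hξ
  refine ⟨z i₀, u, (snoc U'ᵀ ξ)ᵀ, he, ?_, ?_, ?_, ?_, ?_⟩
  · exact le_antisymm (le_vn w z i₀) ((vn_le_iff w z _).2 fun i => hi₀ i (Finset.mem_univ _))
  · rw [hu, smul_smul, mul_inv_cancel₀ he, one_smul]
  · intro i j
    refine Fin.lastCases ?_ (fun j => ?_) j
    · rw [lb_snoc_last, hu, Pi.smul_apply, smul_eq_mul, map_mul, map_inv₀,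
        inv_mul_le_iff₀ (pos_iff_ne_zero.2 hwe), mul_one]
      exact hi₀ i (Finset.mem_univ _)
    · rw [lb_snoc_castSucc]; exact hU i j
  · intro i j
    rw [transpose_apply]
    refine Fin.lastCases ?_ (fun i => ?_) i
    · rw [lb_snoc_last, hξ, Pi.sub_apply]
      refine Valuation.map_sub_le w ?_ ?_
      · rw [Pi.single_apply]
        split_ifs <;> simp
      · change w (∑ k, U i₀ k * U' k j) ≤ 1
        refine Valuation.map_sum_le w fun k _ => ?_
        rw [map_mul]
        exact mul_le_one' (hU _ _) (hU' _ _)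
    · rw [lb_snoc_castSucc]; exact hU' i j
  · have h1 : ξ ᵥ* U = 0 := by
      rw [hξ, sub_vecMul, vecMul_vecMul, inv, vecMul_one, single_one_vecMul]
      exact sub_self _
    have h2 : ξ ⬝ᵥ u = 1 := by
      rw [hξ, sub_dotProduct, single_one_dotProduct, hu0, ← dotProduct_mulVec, huU,
        dotProduct_zero, sub_zero]
    ext a b
    rw [Matrix.mul_apply]
    simp only [transpose_apply]
    refine Fin.lastCases ?_ (fun a => ?_) a <;> refine Fin.lastCases ?_ (fun b => ?_) b <;>
      simp only [lb_snoc_castSucc, lb_snoc_last, transpose_apply]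
    · rw [one_apply_eq]; exact h2
    · rw [one_apply_ne (Fin.castSucc_lt_last b).ne']
      exact congrFun h1 b
    · rw [one_apply_ne (Fin.castSucc_lt_last a).ne]
      exact congrFun huU a
    · rw [← Matrix.mul_apply, inv]
      simp only [one_apply, Fin.castSucc_inj]

theorem Iw.det_T {w : Valuation F ℝ≥0} {ι : Type} [Fintype ι] {n : ℕ} {Y : Matrix ι (Fin n) F}
    (D : Iw w Y) : D.T.det = ∏ i, D.T i i :=
  Matrix.det_of_isUpperTriangular fun i j hij => D.tri i j hij

theorem Iw.det_T_ne {w : Valuation F ℝ≥0} {ι : Type} [Fintype ι] {n : ℕ} {Y : Matrix ι (Fin n) F}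
    (D : Iw w Y) : D.T.det ≠ 0 := by
  rw [D.det_T]
  exact Finset.prod_ne_zero_iff.2 fun i _ => D.diag i

theorem Iw.pn_eq {w : Valuation F ℝ≥0} {ι : Type} [Fintype ι] {n : ℕ} {Y : Matrix ι (Fin n) F}
    (D : Iw w Y) : pn w Y = ∏ i, w (D.T i i) := by
  conv_lhs => rw [D.eq]
  rw [pn_mul_of_leftInv w D.U D.U' D.hU D.hU' D.inv, pn_square, D.det_T, map_prod]

/-- Restriction of an Iwasawa decomposition to the first columns. -/
def Iw.res {w : Valuation F ℝ≥0} {ι : Type} [Fintype ι] {n s : ℕ} {Y : Matrix ι (Fin n) F}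
    (D : Iw w Y) (f : Fin s → Fin n) (hf : ∀ i, (f i : ℕ) = i) : Iw w (Y.submatrix id f) where
  U := D.U.submatrix id f
  U' := D.U'.submatrix f id
  T := D.T.submatrix f f
  hU i j := D.hU _ _
  hU' i j := D.hU' _ _
  inv := by
    have hinj : Function.Injective f := fun a b h => Fin.ext (by rw [← hf a, ← hf b, h])
    rw [← Matrix.submatrix_mul _ _ _ _ _ Function.bijective_id, D.inv, submatrix_one _ hinj]
  tri i j hij := D.tri _ _ (by rw [Fin.lt_def, hf, hf]; exact hij)
  diag i := D.diag _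
  eq := by
    have hinj : Function.Injective f := fun a b h => Fin.ext (by rw [← hf a, ← hf b, h])
    ext r j
    rw [submatrix_apply, congrFun (congrFun D.eq _) _, Matrix.mul_apply, Matrix.mul_apply]
    refine (Fintype.sum_of_injective f hinj _ _ (fun k hk => ?_) fun _ => rfl).symm
    rw [D.tri k (f j), mul_zero]
    by_contra hlt
    rw [not_lt, Fin.le_def, hf] at hlt
    exact hk ⟨⟨k, lt_of_le_of_lt hlt j.2⟩, Fin.ext (hf _)⟩

theorem lb_pn_snoc {ι : Type} [Fintype ι] {n : ℕ} (U : Matrix ι (Fin n) F)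
    (U' : Matrix (Fin n) ι F) (hU : ∀ i j, w (U i j) ≤ 1) (hU' : ∀ i j, w (U' i j) ≤ 1)
    (inv : U' * U = 1) (z : ι → F) (hz' : U' *ᵥ z = 0) : pn w (snoc U z) = vn w z := by
  by_cases hz : z = 0
  · have h : snoc U z = snoc U z * lbBlk (1 : Matrix (Fin n) (Fin n) F) 0 0 := by
      rw [lb_snoc_mul_blk, Matrix.mul_one, mulVec_zero, zero_smul, add_zero, hz]
    rw [h, pn_mul_right, lbBlk_det, mul_zero, map_zero, mul_zero, hz]
    exact ((vn_eq_zero w _).2 rfl).symm
  · obtain ⟨e, u, V', -, hwe, hzu, hV, hV', hinv⟩ := lb_extend w U U' hU hU' inv z hz hz'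
    have h : snoc U z = snoc U u * lbBlk (1 : Matrix (Fin n) (Fin n) F) 0 e := by
      rw [lb_snoc_mul_blk, Matrix.mul_one, mulVec_zero, zero_add, ← hzu]
    rw [h, pn_mul_of_leftInv w _ V' hV hV' hinv, pn_square, lbBlk_det, det_one, one_mul, hwe]

theorem Iw.pn_snoc {w : Valuation F ℝ≥0} {ι : Type} [Fintype ι] {n : ℕ} {A : Matrix ι (Fin n) F}
    (D : Iw w A) (c : Fin n → F) (z : ι → F) (hz : D.U' *ᵥ z = 0) :
    pn w (snoc A (D.U *ᵥ c + z)) = pn w A * vn w z := by
  have h : snoc A (D.U *ᵥ c + z) = snoc D.U z * lbBlk D.T c 1 := by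
    rw [lb_snoc_mul_blk, ← D.eq, one_smul]
  rw [h, pn_mul_right, lbBlk_det, mul_one, lb_pn_snoc w D.U D.U' D.hU D.hU' D.inv z hz, D.pn_eq,
    D.det_T, map_prod, mul_comm]

/-- Gram–Schmidt.  Induct on `n`, write `Y = snoc Y' y` and take `Y' = U T`, `U' U = 1`.
Put `y₁ = y - U (U' y)`; then `U' y₁ = 0` and `y₁ ≠ 0` by independence.  Pick `i₀` maximising
`w (y₁ i)`, `u = y₁ / y₁ i₀` (integral, `u i₀ = 1`).  New `U = snoc U u`; new left inverse: `U'` with
the extra last row `ξ = e_{i₀} - (row i₀ of U) U'` (so `ξ u = 1`, `ξ U = 0`, `U' u = 0`);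
new `T` has last column `(U' y, y₁ i₀)` and last row `(0, y₁ i₀)`. -/
theorem exists_iw {ι : Type} [Fintype ι] {n : ℕ} (Y : Matrix ι (Fin n) F)
    (h : LinearIndependent F Yᵀ) : Nonempty (Iw w Y) := by
  induction n with
  | zero =>
    exact ⟨⟨Y, 0, 1, fun _ j => j.elim0, fun i => i.elim0, Subsingleton.elim _ _,
      fun i => i.elim0, fun i => i.elim0, (Matrix.mul_one Y).symm⟩⟩
  | succ n ih =>
    obtain ⟨Y', y, rfl⟩ : ∃ (Y' : Matrix ι (Fin n) F) (y : ι → F), Y = snoc Y' y :=
      ⟨_, _, lb_snoc_eta Y⟩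
    obtain ⟨D⟩ := ih Y' (indep_of_snoc Y' y h)
    set c := D.U' *ᵥ y with hc
    set z := y - D.U *ᵥ c with hz
    have hz' : D.U' *ᵥ z = 0 := by
      rw [hz, mulVec_sub, mulVec_mulVec, D.inv, one_mulVec, sub_self]
    have hy : y = D.U *ᵥ c + z := by rw [hz]; abel
    have hz0 : z ≠ 0 := by
      intro h0
      have := (pn_ne_zero_iff w _).2 h
      rw [hy, D.pn_snoc c z hz', h0, (vn_eq_zero w _).2 rfl, mul_zero] at this
      exact this rfl
    obtain ⟨e, u, V', he, -, hzu, hV, hV', hinv⟩ :=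
      lb_extend w D.U D.U' D.hU D.hU' D.inv z hz0 hz'
    refine ⟨⟨snoc D.U u, V', lbBlk D.T c e, hV, hV', hinv, fun i j => ?_, fun i => ?_, ?_⟩⟩
    · refine Fin.lastCases ?_ (fun i => ?_) i <;> refine Fin.lastCases ?_ (fun j => ?_) j <;>
        intro hij
      · exact absurd hij (lt_irrefl _)
      · exact lbBlk_lc _ _ _ _
      · exact absurd hij (Fin.castSucc_lt_last i).le.not_gt
      · rw [lbBlk_cc]; exact D.tri i j (Fin.castSucc_lt_castSucc_iff.1 hij)
    · refine Fin.lastCases ?_ (fun i => ?_) i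
      · rw [lbBlk_ll]; exact he
      · rw [lbBlk_cc]; exact D.diag i
    · rw [lb_snoc_mul_blk, ← D.eq, ← hzu, ← hy]

/-- The first `s` columns of `Y = U T` are `U * E * T_s` with `E` the inclusion
`Fin s → Fin n` (integral, left inverse `Eᵀ`), `T_s` the upper left block: use
`pn_mul_of_leftInv`, `pn_square`, `Matrix.det_of_upperTriangular`. -/
theorem Iw.pn_fc {ι : Type} [Fintype ι] {n : ℕ} (x : ℕ → ι → F) (D : Iw w (fc x n)) (s : ℕ)
    (hs : s ≤ n) : pn w (fc x s) = ∏ i : Fin s, w (D.T (Fin.castLE hs i) (Fin.castLE hs i)) :=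
  (D.res (Fin.castLE hs) fun _ => rfl).pn_eq

theorem Iw.pn_fc_succ {ι : Type} [Fintype ι] {n : ℕ} (x : ℕ → ι → F) (D : Iw w (fc x n))
    (i : Fin n) : pn w (fc x (i + 1)) = pn w (fc x i) * w (D.T i i) := by
  rw [Iw.pn_fc w x D (i + 1) i.2, Iw.pn_fc w x D i i.2.le, Fin.prod_univ_castSucc]
  rfl

/-- The norm on the rank two quotient.  Take an Iwasawa decomposition of `snoc (snoc A x) y`;
`a, b, d` are the entries `(s,s), (s,s+1), (s+1,s+1)` of `T`.  After removing `U`
(`pn_mul_of_leftInv`) and column operations (`pn_mul_right` with the block matrix that clears the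
first `s` rows of the last column and turns the upper left block into `1`) one has to compute the
Plücker norm of the `(s+2) × (s+1)` matrix with columns `e_0, …, e_{s-1}, p e_s + q e_{s+1}`,
which is `max (w p) (w q)`: factor out the larger of `p`, `q` and use `pn_mul_of_leftInv` again
(the case `p = q = 0` is a zero column). -/
theorem rank2_local {ι : Type} [Fintype ι] {s : ℕ} (A : Matrix ι (Fin s) F) (x y : ι → F)
    (h : LinearIndependent F (snoc (snoc A x) y)ᵀ) :
    ∃ a b d : F, a ≠ 0 ∧ d ≠ 0 ∧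
      (∀ α β : F, pn w (snoc A (α • x + β • y)) = pn w A * max (w (a * α + b * β)) (w (d * β))) ∧
      pn w (snoc (snoc A x) y) = pn w A * w a * w d := by
  obtain ⟨D⟩ := exists_iw w _ h
  let f : Fin s → Fin (s + 1 + 1) := fun i => i.castSucc.castSucc
  let p : Fin (s + 1 + 1) := (Fin.last s).castSucc
  let q : Fin (s + 1 + 1) := Fin.last (s + 1)
  have hA : (snoc (snoc A x) y).submatrix id f = A := by
    ext r j
    simp only [f, submatrix_apply, id, lb_snoc_castSucc]
  let D₀ := D.res f fun _ => rfl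
  have hpn : pn w A = ∏ i, w (D.T (f i) (f i)) :=
    (congrArg (pn w) hA).symm.trans D₀.pn_eq
  refine ⟨D.T p p, D.T p q, D.T q q, D.diag p, D.diag q, fun α β => ?_, ?_⟩
  · have hqp : D.T q p = 0 := D.tri _ _ (Fin.castSucc_lt_last _)
    let t : Fin (s + 1 + 1) → F := Fin.snoc (α := fun _ => F)
      (Fin.snoc (α := fun _ => F) 0 (D.T p p * α + D.T p q * β)) (D.T q q * β)
    have hv : α • x + β • y =
        D₀.U *ᵥ (fun i => D.T (f i) p * α + D.T (f i) q * β) + D.U *ᵥ t := by
      funext r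
      have hx : x r = (D.U * D.T) r p := by
        rw [← D.eq]; simp only [p, lb_snoc_castSucc, lb_snoc_last]
      have hy : y r = (D.U * D.T) r q := by
        rw [← D.eq]; simp only [q, lb_snoc_last]
      simp only [Pi.add_apply, Pi.smul_apply, smul_eq_mul, hx, hy, Matrix.mul_apply, mulVec,
        dotProduct, Fin.sum_univ_castSucc (n := s + 1), Fin.sum_univ_castSucc (n := s), t,
        Fin.snoc_castSucc, Fin.snoc_last, Pi.zero_apply, mul_zero, Finset.sum_const_zero,
        zero_add, D₀, Iw.res, submatrix_apply, id]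
      change α * (∑ i, D.U r (f i) * D.T (f i) p + D.U r p * D.T p p + D.U r q * D.T q p) +
        β * (∑ i, D.U r (f i) * D.T (f i) q + D.U r p * D.T p q + D.U r q * D.T q q) =
        ∑ i, D.U r (f i) * (D.T (f i) p * α + D.T (f i) q * β) +
          (D.U r p * (D.T p p * α + D.T p q * β) + D.U r q * (D.T q q * β))
      have : ∑ i, D.U r (f i) * (D.T (f i) p * α + D.T (f i) q * β) =
          α * ∑ i, D.U r (f i) * D.T (f i) p + β * ∑ i, D.U r (f i) * D.T (f i) q := by
        rw [Finset.mul_sum, Finset.mul_sum, ← Finset.sum_add_distrib]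
        exact Finset.sum_congr rfl fun i _ => by ring
      rw [this, hqp]
      ring
    have hz : D₀.U' *ᵥ (D.U *ᵥ t) = 0 := by
      funext i
      have : (D₀.U' *ᵥ (D.U *ᵥ t)) i = (D.U' *ᵥ (D.U *ᵥ t)) (f i) := rfl
      rw [this, mulVec_mulVec, D.inv, one_mulVec]
      simp only [t, f, Fin.snoc_castSucc, Pi.zero_apply]
    have key := D₀.pn_snoc (fun i => D.T (f i) p * α + D.T (f i) q * β) _ hz
    rw [← hv, hA, vn_mulVec_of_leftInv w D.U D.U' D.hU D.hU' D.inv] at key
    rw [key]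
    congr 1
    apply le_antisymm
    · refine (vn_le_iff w _ _).2 fun i => ?_
      refine Fin.lastCases ?_ (fun i => ?_) i
      · simp only [t, Fin.snoc_last, le_max_right]
      · refine Fin.lastCases ?_ (fun i => ?_) i
        · simp only [t, Fin.snoc_castSucc, Fin.snoc_last, le_max_left]
        · simp only [t, Fin.snoc_castSucc, Pi.zero_apply, map_zero, zero_le]
    · refine max_le ?_ ?_
      · simpa only [t, p, Fin.snoc_castSucc, Fin.snoc_last] using le_vn w t p
      · simpa only [t, q, Fin.snoc_last] using le_vn w t q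
  · rw [D.pn_eq, hpn, Fin.prod_univ_castSucc, Fin.prod_univ_castSucc]

/-- Leading coordinate estimate.  Take Iwasawa decompositions `fc (x j) (n j) = U j * T j`;
`tensM U` is integral with integral left inverse `tensM U'` (`tensM_mul`, `tensM_one`), so the norm
is `vn (tensM T *ᵥ y) ≥ w ((tensM T *ᵥ y) I) = w (∏ j, T j (I j) (I j)) * w (y I)`: a term `I'`
with `y I' ≠ 0` and all `T j (I j) (I' j) ≠ 0` has `I ≤ I'`.  Conclude with `Iw.pn_fc_succ`. -/
theorem tens_lead {J : Type} [Fintype J] [DecidableEq J] {ι : J → Type} [∀ j, Fintype (ι j)]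
    (n : J → ℕ) (x : ∀ j, ℕ → ι j → F) (h : ∀ j, LinearIndependent F (fc (x j) (n j))ᵀ)
    (y : (∀ j, Fin (n j)) → F) (I : ∀ j, Fin (n j))
    (hI : ∀ I', y I' ≠ 0 → (∀ j, I j ≤ I' j) → I' = I) :
    w (y I) * ∏ j, pn w (fc (x j) (I j + 1)) ≤
      vn w (tensM (fun j => fc (x j) (n j)) *ᵥ y) * ∏ j, pn w (fc (x j) (I j)) := by
  have D : ∀ j, Iw w (fc (x j) (n j)) := fun j => (exists_iw w _ (h j)).some
  have hint : ∀ {ι' κ' : J → Type} (g : ∀ j, Matrix (ι' j) (κ' j) F),
      (∀ j a b, w (g j a b) ≤ 1) → ∀ a b, w (tensM g a b) ≤ 1 := by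
    intro ι' κ' g hg a b
    simp only [tensM, of_apply, map_prod]
    exact Finset.prod_le_one' fun j _ => hg j _ _
  have h1 : tensM (fun j => fc (x j) (n j)) = tensM (fun j => (D j).U) * tensM fun j => (D j).T := by
    rw [tensM_mul]
    congr 1
    funext j
    exact (D j).eq
  have h2 : tensM (fun j => (D j).U') * tensM (fun j => (D j).U) = 1 := by
    rw [tensM_mul, ← tensM_one]
    congr 1
    funext j
    exact (D j).inv
  have h3 : ((tensM fun j => (D j).T) *ᵥ y) I = (∏ j, (D j).T (I j) (I j)) * y I := by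
    simp only [mulVec, dotProduct, tensM, of_apply]
    refine Finset.sum_eq_single I (fun I' _ hI' => ?_) fun h => absurd (Finset.mem_univ _) h
    by_contra hne
    obtain ⟨ha, hb⟩ := mul_ne_zero_iff.1 hne
    refine hI' (hI I' hb fun j => ?_)
    by_contra hlt
    exact Finset.prod_ne_zero_iff.1 ha j (Finset.mem_univ _) ((D j).tri _ _ (not_le.1 hlt))
  rw [h1, ← mulVec_mulVec, vn_mulVec_of_leftInv w _ _ (hint _ fun j => (D j).hU)
    (hint _ fun j => (D j).hU') h2]
  simp only [fun j => Iw.pn_fc_succ w (x j) (D j) (I j)]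
  rw [Finset.prod_mul_distrib, mul_comm (∏ j, pn w (fc (x j) (I j))), ← mul_assoc]
  refine mul_le_mul_left ?_ _
  refine le_trans (le_of_eq ?_) (le_vn w _ I)
  rw [h3, map_mul, map_prod, mul_comm]

/-- Complementary minors.  `Z` and `Z'` together form a square invertible matrix `fc z n`
(first `s` vectors `Z`, last `t` vectors `Z'`), `X` pairs to zero with `Z` and to the identity with
`Z'`.  Take `fc z n = U T`; `U` is square so also `U U' = 1` and `w (det U) = 1`; `Xᵀ U T = (0 | 1)`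
forces `Uᵀ X = (0 ; T₂₂⁻ᵀ)`. -/
theorem pn_dual {ι : Type} [Fintype ι] {s t : ℕ} (e : Fin (s + t) ≃ ι) (z : ℕ → ι → F)
    (h : LinearIndependent F (fc z (s + t))ᵀ) (X : Matrix ι (Fin t) F)
    (h0 : ∀ (j : Fin t) (i : ℕ), i < s → Xᵀ j ⬝ᵥ z i = 0)
    (h1 : ∀ j i : Fin t, Xᵀ j ⬝ᵥ z (s + i) = if j = i then 1 else 0) :
    pn w X * w ((fc z (s + t)).submatrix e id).det = pn w (fc z s) := by
  classical
  obtain ⟨D⟩ := exists_iw w _ h
  have i1 : D.U'.submatrix id e * D.U.submatrix e id = 1 := by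
    rw [submatrix_mul_equiv, D.inv, submatrix_id_id]
  have i2 : D.U * D.U' = 1 := by
    have := mul_eq_one_comm.1 i1
    rw [← Matrix.submatrix_mul _ _ _ _ _ Function.bijective_id] at this
    ext a b
    have h' := congrFun (congrFun this (e.symm a)) (e.symm b)
    simpa [one_apply] using h'
  have hdet : w (D.U.submatrix e id).det = 1 := by
    have ha : w (D.U.submatrix e id).det ≤ 1 := by
      simpa using det_le_pow w (D.U.submatrix e id) 1 fun i j => D.hU _ _
    have hb : w (D.U'.submatrix id e).det ≤ 1 := by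
      simpa using det_le_pow w (D.U'.submatrix id e) 1 fun i j => D.hU' _ _
    have hc : w (D.U'.submatrix id e).det * w (D.U.submatrix e id).det = 1 := by
      rw [← map_mul, ← det_mul, i1, det_one, map_one]
    refine le_antisymm ha ?_
    calc (1 : ℝ≥0) = _ := hc.symm
      _ ≤ 1 * w (D.U.submatrix e id).det := mul_le_mul_left hb _
      _ = _ := one_mul _
  have hZ : w ((fc z (s + t)).submatrix e id).det = ∏ i, w (D.T i i) := by
    have : (fc z (s + t)).submatrix e id = D.U.submatrix e id * D.T := by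
      conv_lhs => rw [D.eq]
      rfl
    rw [this, det_mul, map_mul, hdet, one_mul, D.det_T, map_prod]
  set R : Matrix (Fin (s + t)) (Fin t) F := D.Uᵀ * X with hR
  have hX : pn w X = pn w R :=
    (pn_mul_of_leftInv w D.Uᵀ D.U'ᵀ (fun i j => D.hU _ _) (fun i j => D.hU' _ _)
      (by rw [← transpose_mul, i2, transpose_one]) X).symm
  have hTR : ∀ k j, ∑ l, D.T l k * R l j = Xᵀ j ⬝ᵥ z k := by
    intro k j
    have : D.Tᵀ * R = (fc z (s + t))ᵀ * X := by
      rw [hR, ← Matrix.mul_assoc, ← transpose_mul, ← D.eq]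
    have h' := congrFun (congrFun this k) j
    simp only [Matrix.mul_apply (M := D.Tᵀ), Matrix.mul_apply (M := (fc z (s + t))ᵀ),
      transpose_apply] at h'
    rw [h', dotProduct_comm]
    rfl
  have hR1 : ∀ i j, R (Fin.castAdd t i) j = 0 := by
    intro i j
    have hd : (D.T.submatrix (Fin.castAdd t) (Fin.castAdd t))ᵀ.det ≠ 0 := by
      rw [det_transpose]
      exact (D.res (Fin.castAdd t) fun _ => rfl).det_T_ne
    refine congrFun (Matrix.eq_zero_of_mulVec_eq_zero hd
      (v := fun i => R (Fin.castAdd t i) j) ?_) i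
    funext k
    have h' := hTR (Fin.castAdd t k) j
    rw [Fin.sum_univ_add, Fin.val_castAdd, h0 j k k.2,
      Finset.sum_eq_zero (s := Finset.univ)
        (f := fun l : Fin t => D.T (Fin.natAdd s l) (Fin.castAdd t k) * R (Fin.natAdd s l) j)
        (fun l _ => by
          rw [D.tri _ _ (by rw [Fin.lt_def]; simp; omega), zero_mul]), add_zero] at h'
    exact h'
  have hinj : Function.Injective (Fin.natAdd s : Fin t → Fin (s + t)) :=
    fun a b hab => by simpa using hab
  have hR2 : (D.T.submatrix (Fin.natAdd s) (Fin.natAdd s))ᵀ * R.submatrix (Fin.natAdd s) id = 1 := by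
    ext k j
    have h' := hTR (Fin.natAdd s k) j
    rw [Fin.sum_univ_add, Fin.val_natAdd, h1 j k] at h'
    simp only [hR1, mul_zero, Finset.sum_const_zero, zero_add] at h'
    rw [Matrix.mul_apply, one_apply]
    simp only [transpose_apply, submatrix_apply, id, h', eq_comm]
  have hRE : R = (1 : Matrix (Fin (s + t)) (Fin (s + t)) F).submatrix id (Fin.natAdd s) *
      R.submatrix (Fin.natAdd s) id := by
    ext k j
    rw [Matrix.mul_apply]
    simp only [submatrix_apply, id, one_apply]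
    refine Fin.addCases (fun k => ?_) (fun k => ?_) k
    · rw [hR1]
      refine (Finset.sum_eq_zero fun l _ => ?_).symm
      rw [if_neg, zero_mul]
      intro hh
      have := congrArg Fin.val hh
      simp at this
      omega
    · simp only [hinj.eq_iff, ite_mul, one_mul, zero_mul, Finset.sum_ite_eq, Finset.mem_univ,
        if_true]
  have hone : ∀ a b : Fin (s + t), w ((1 : Matrix (Fin (s + t)) (Fin (s + t)) F) a b) ≤ 1 := by
    intro a b
    rw [one_apply]
    split_ifs <;> simp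
  have hpR : pn w R = w (R.submatrix (Fin.natAdd s) id).det := by
    conv_lhs => rw [hRE]
    rw [pn_mul_of_leftInv w
      ((1 : Matrix (Fin (s + t)) (Fin (s + t)) F).submatrix id (Fin.natAdd s))
      ((1 : Matrix (Fin (s + t)) (Fin (s + t)) F).submatrix (Fin.natAdd s) id)
      (fun i j => hone _ _) (fun i j => hone _ _) ?_, pn_square]
    rw [← Matrix.submatrix_mul _ _ _ _ _ Function.bijective_id, Matrix.mul_one,
      submatrix_one _ hinj]
  have hT2 : (D.T.submatrix (Fin.natAdd s) (Fin.natAdd s)).det =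
      ∏ i, D.T (Fin.natAdd s i) (Fin.natAdd s i) :=
    Matrix.det_of_isUpperTriangular fun i j hij => D.tri _ _ (by
      rw [Fin.lt_def]; simpa using hij)
  have hmul : (∏ i, w (D.T (Fin.natAdd s i) (Fin.natAdd s i))) *
      w (R.submatrix (Fin.natAdd s) id).det = 1 := by
    rw [← map_prod, ← hT2, ← det_transpose (D.T.submatrix _ _), ← map_mul, ← det_mul, hR2,
      det_one, map_one]
  rw [hX, hpR, hZ, Fin.prod_univ_add, Iw.pn_fc w z D s (Nat.le_add_right s t), mul_comm,
    mul_assoc, hmul, mul_one]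
  rfl

end Crest.Agent.R169.TT
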