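import Crest.Agent.R169.TTMean
import Crest.Agent.R169.TTLocB

/-!
# Row 169, part TT: degrees over the algebraic closure, definitions (FROZEN, owner helper42).
-/

set_option autoImplicit false

namespace Crest.Agent.R169.TT

open Matrix
open scoped NNReal

variable {k K : Type} [Field k] [Field K] [Algebra k K] {Pl : Places k K}
  {ι : Type} [Fintype ι] [DecidableEq ι]

/-- The structure map to the algebraic closure. -/
noncomputable abbrev alg (K : Type) [Field K] : K →+* Om K := algebraMap K (Om K)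

/-- An element of value `a p i`. -/
noncomputable def NB.c (V : NB Pl ι) (p : Pl.P) (i : ι) : Om K := (Pl.exists_c p (V.a p i)).choose

theorem NB.c_ne (V : NB Pl ι) (p : Pl.P) (i : ι) : V.c p i ≠ 0 :=
  (Pl.exists_c p (V.a p i)).choose_spec.1

theorem NB.w_c (V : NB Pl ι) (p : Pl.P) (i : ι) : Pl.w p (V.c p i) = ex (V.a p i) :=
  (Pl.exists_c p (V.a p i)).choose_spec.2

/-- The matrix with the weights absorbed. -/
noncomputable def NB.gt (V : NB Pl ι) (p : Pl.P) : Matrix ι ι (Om K) :=
  diagonal (V.c p) * (V.g p).map (alg K)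

/-- Local Plücker norm. -/
noncomputable def NB.lp (V : NB Pl ι) (p : Pl.P) {s : ℕ} (Y : Matrix ι (Fin s) (Om K)) : ℝ≥0 :=
  pn (Pl.w p) (V.gt p * Y)

/-- Local norm of a vector. -/
noncomputable def NB.lv (V : NB Pl ι) (p : Pl.P) (z : ι → Om K) : ℝ≥0 :=
  vn (Pl.w p) (V.gt p *ᵥ z)

/-- Local degree. -/
noncomputable def NB.ld (V : NB Pl ι) (p : Pl.P) {s : ℕ} (Y : Matrix ι (Fin s) (Om K)) : ℝ :=
  mean fun σ : Gam K => nl (V.lp p (Y.map σ))

/-- Degree of the span of the columns. -/
noncomputable def NB.mdeg (V : NB Pl ι) {s : ℕ} (Y : Matrix ι (Fin s) (Om K)) : ℝ :=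
  Pl.dgR fun p => V.ld p Y

end Crest.Agent.R169.TT
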