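import Crest.Agent.R169.TTDegB

/-!
# Row 169, part TT: the dual of a semistable bundle.
-/

set_option autoImplicit false

namespace Crest.Agent.R169.TT

open Matrix
open scoped NNReal

variable {k K : Type} [Field k] [Field K] [Algebra k K] {Pl : Places k K}
  {ι : Type} [Fintype ι] [DecidableEq ι] (V : NB Pl ι)

theorem NB.deg_dual : V.dual.deg = -V.deg := by
  have h : ∀ p, (Pl.v p (V.dual.g p).det : ℚ) + ∑ i, V.dual.a p i =
      -((Pl.v p (V.g p).det : ℚ) + ∑ i, V.a p i) := by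
    intro p
    have h1 : Pl.v p 1 = 0 := by
      have := Pl.v_mul p 1 1 one_ne_zero one_ne_zero
      rw [one_mul] at this
      omega
    have h2 := Pl.v_mul p _ _ (V.det_ne p) (inv_ne_zero (V.det_ne p))
    rw [mul_inv_cancel₀ (V.det_ne p), h1] at h2
    have h3 : Pl.v p (V.dual.g p).det = -Pl.v p (V.g p).det := by
      show Pl.v p ((V.g p)⁻¹)ᵀ.det = _
      rw [det_transpose, det_nonsing_inv, Ring.inverse_eq_inv']
      omega
    have h4 : ∑ i, V.dual.a p i = -∑ i, V.a p i := by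
      rw [← Finset.sum_neg_distrib]
      rfl
    rw [h3, h4]
    push_cast
    ring
  unfold NB.deg Places.dg
  simp only [h, mul_neg]
  exact finsum_neg_distrib _

/-- Linear algebra: a basis adapted to the annihilator of `X` (first a basis of the kernel of
`z ↦ Xᵀ z`, of dimension `card ι - t`, then preimages of the standard basis). -/
theorem exists_ann_basis {F : Type} [Field F] {t : ℕ} (X : Matrix ι (Fin t) F)
    (h : LinearIndependent F Xᵀ) :
    ∃ (s : ℕ) (z : ℕ → ι → F), s + t = Fintype.card ι ∧ LinearIndependent F (fc z (s + t))ᵀ ∧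
      (∀ (j : Fin t) (i : ℕ), i < s → Xᵀ j ⬝ᵥ z i = 0) ∧
      (∀ j i : Fin t, Xᵀ j ⬝ᵥ z (s + i) = if j = i then 1 else 0) := by
  have hrank : Module.finrank F (LinearMap.range Xᵀ.mulVecLin) = t := by
    have := LinearIndependent.rank_matrix (M := Xᵀ) h
    rw [Fintype.card_fin] at this
    exact this
  have htop : LinearMap.range Xᵀ.mulVecLin = ⊤ :=
    Submodule.eq_top_of_finrank_eq (by rw [hrank]; simp)
  have hsum := LinearMap.finrank_range_add_finrank_ker Xᵀ.mulVecLin
  rw [hrank, Module.finrank_fintype_fun_eq_card] at hsum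
  set s := Module.finrank F (LinearMap.ker Xᵀ.mulVecLin) with hs
  let b := Module.finBasisOfFinrankEq F (LinearMap.ker Xᵀ.mulVecLin) hs.symm
  choose y hy using fun j : Fin t => LinearMap.range_eq_top.1 htop (Pi.single j 1)
  let z : ℕ → ι → F := fun n =>
    if h : n < s then (b ⟨n, h⟩ : ι → F) else if h' : n - s < t then y ⟨n - s, h'⟩ else 0
  have hz1 : ∀ i : Fin s, z i = (b i : ι → F) := fun i => by simp [z]
  have hz2 : ∀ i : Fin t, z (s + i) = y i := fun i => by simp [z]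
  have hb : ∀ i : Fin s, Xᵀ *ᵥ (b i : ι → F) = 0 := fun i => (b i).2
  have hy' : ∀ i : Fin t, Xᵀ *ᵥ y i = Pi.single i 1 := hy
  refine ⟨s, z, by omega, ?_, ?_, ?_⟩
  · rw [Fintype.linearIndependent_iff]
    intro g hg
    have hg' : ∑ i : Fin s, g (Fin.castAdd t i) • (b i : ι → F) +
        ∑ i : Fin t, g (Fin.natAdd s i) • y i = 0 := by
      rw [← hg, Fin.sum_univ_add]
      congr 1
      · refine Finset.sum_congr rfl fun i _ => ?_
        rw [← hz1]
        rfl
      · refine Finset.sum_congr rfl fun i _ => ?_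
        rw [← hz2]
        rfl
    have h2 : ∀ j : Fin t, g (Fin.natAdd s j) = 0 := by
      intro j
      have h3 := congrFun (congrArg (fun v => Xᵀ *ᵥ v) hg') j
      simp only [mulVec_add, mulVec_sum, mulVec_smul, hb, hy', mulVec_zero, smul_zero,
        Finset.sum_const_zero, zero_add, Finset.sum_apply, Pi.smul_apply, Pi.single_apply,
        smul_eq_mul, mul_ite, mul_one, mul_zero, Finset.sum_ite_eq, Finset.mem_univ, if_true,
        Pi.zero_apply] at h3
      exact h3
    have h3 : ∀ i : Fin s, g (Fin.castAdd t i) = 0 := by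
      simp only [h2, zero_smul, Finset.sum_const_zero, add_zero] at hg'
      have h4 := (b.linearIndependent.map' (LinearMap.ker Xᵀ.mulVecLin).subtype
        (Submodule.ker_subtype _))
      exact Fintype.linearIndependent_iff.1 h4 (fun i => g (Fin.castAdd t i)) hg'
    intro j
    exact Fin.addCases h3 h2 j
  · intro j i hi
    rw [hz1 ⟨i, hi⟩]
    exact congrFun (hb ⟨i, hi⟩) j
  · intro j i
    rw [hz2, ← Pi.single_apply]
    exact congrFun (hy' i) j

/-- `pn_dual` for `(gt⁻¹)ᵀ * X` and the sequence `gt *ᵥ z i` gives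
`dual.lp X * lp (fc z (s+t)) = lp (fc z s)` (`lp_dual`, `pn_square'`); hence
`dual.mdeg X = mdeg (fc z s) - mdeg (fc z (s+t)) ≤ s μ - deg` (`ld_alg`, `mdeg_alg_le`,
`mdeg_full`), and `dg_le_mdeg` concludes. -/
theorem NB.SS.dual {V : NB Pl ι} {μ : ℚ} (hV : V.SS μ) (hdeg : V.deg = Fintype.card ι * μ) :
    V.dual.SS (-μ) := by
  intro t X hX u hu hW
  obtain ⟨s, z, hcard, hz, h0, h1⟩ := exists_ann_basis X hX
  let e : Fin (s + t) ≃ ι := (Fintype.equivFinOfCardEq hcard.symm).symm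
  have hzs : LinearIndependent K (fc z s)ᵀ := indep_fc_mono z (Nat.le_add_right s t) hz
  have hpair : ∀ (p : Pl.P) (j : Fin t) (x : ι → K),
      ((((V.gt p)⁻¹)ᵀ * X.map (alg K))ᵀ j) ⬝ᵥ (V.gt p *ᵥ (alg K ∘ x)) = alg K (Xᵀ j ⬝ᵥ x) := by
    intro p j x
    have e1 : ((((V.gt p)⁻¹)ᵀ * X.map (alg K))ᵀ j) ⬝ᵥ (V.gt p *ᵥ (alg K ∘ x)) =
        ((((V.gt p)⁻¹)ᵀ * X.map (alg K))ᵀ *ᵥ (V.gt p *ᵥ (alg K ∘ x))) j := rfl
    rw [e1, transpose_mul, transpose_transpose, mulVec_mulVec, Matrix.mul_assoc,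
      nonsing_inv_mul _ (Ne.isUnit (V.gt_det_ne p)), Matrix.mul_one, RingHom.map_dotProduct]
    rfl
  have hloc : ∀ p, V.dual.lp p (X.map (alg K)) * V.lp p ((fc z (s + t)).map (alg K)) =
      V.lp p ((fc z s).map (alg K)) := by
    intro p
    have hi : LinearIndependent (Om K) (fc (fun i => V.gt p *ᵥ (alg K ∘ z i)) (s + t))ᵀ := by
      rw [← mul_fc, ← map_fc]
      exact indep_mul _ (V.gt_det_ne p) _ (indep_map (alg K) _ hz)
    have := pn_dual (Pl.w p) e (fun i => V.gt p *ᵥ (alg K ∘ z i)) hi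
      (((V.gt p)⁻¹)ᵀ * X.map (alg K))
      (fun j i hi => by rw [hpair, h0 j i hi, map_zero])
      (fun j i => by rw [hpair, h1 j i]; split_ifs <;> simp)
    rw [← pn_square' (Pl.w p) e, ← V.lp_dual p, ← mul_fc, ← mul_fc] at this
    exact this
  have hld : ∀ p, V.dual.ld p (X.map (alg K)) =
      V.ld p ((fc z s).map (alg K)) - V.ld p ((fc z (s + t)).map (alg K)) := by
    intro p
    rw [NB.ld_alg, NB.ld_alg, NB.ld_alg, ← hloc p,
      nl_mul (V.dual.lp_ne_zero p _ (indep_map (alg K) _ hX))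
        (V.lp_ne_zero p _ (indep_map (alg K) _ hz))]
    ring
  have hm : V.dual.mdeg (X.map (alg K)) =
      V.mdeg ((fc z s).map (alg K)) - V.mdeg ((fc z (s + t)).map (alg K)) := by
    unfold NB.mdeg
    simp only [hld]
    exact Pl.dgR_sub _ _ (V.ld_fin _ (indep_map (alg K) _ hzs)) (V.ld_fin _ (indep_map (alg K) _ hz))
  have h2 := V.dual.dg_le_mdeg X hX u hu hW
  have h3 := V.mdeg_alg_le hV (fc z s) hzs
  rw [hm, V.mdeg_full e _ hz, hdeg, ← hcard] at h2
  have h4 : ((Pl.dg u : ℚ) : ℝ) ≤ ((t * -μ : ℚ) : ℝ) := by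
    push_cast at h2 ⊢
    linarith
  exact_mod_cast h4

end Crest.Agent.R169.TT
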