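import Crest.Agent.R169.TTLocDefs

/-!
# Row 169, part TT: extension of the places to the algebraic closure.
-/

set_option autoImplicit false

namespace Crest.Agent.R169.TT

open scoped NNReal

variable {k K : Type} [Field k] [Field K] [Algebra k K] (Pl : Places k K)

/-- The algebraic closure. -/
abbrev Om (K : Type) [Field K] : Type := AlgebraicClosure K

/-- The absolute Galois group. -/
abbrev Gam (K : Type) [Field K] : Type := Om K ≃ₐ[K] Om K

/-- `exp (-t)` as a nonnegative real. -/
noncomputable def ex (t : ℝ) : ℝ≥0 := NNReal.mk (Real.exp (-t)) (Real.exp_pos _).le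

theorem coe_ex (t : ℝ) : (ex t : ℝ) = Real.exp (-t) := rfl

theorem ext_ex_add (s t : ℝ) : ex (s + t) = ex s * ex t := by
  apply NNReal.eq
  simp only [coe_ex, NNReal.coe_mul, neg_add, Real.exp_add]

theorem ext_ex_anti {s t : ℝ} (h : s ≤ t) : ex t ≤ ex s := by
  rw [← NNReal.coe_le_coe, coe_ex, coe_ex]
  exact Real.exp_le_exp.2 (neg_le_neg h)

open Classical in
/-- The place as a real valuation of `K`. -/
noncomputable def extVal (p : Pl.P) : Valuation K ℝ≥0 where
  toFun x := if x = 0 then 0 else ex (Pl.v p x)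
  map_zero' := if_pos rfl
  map_one' := by
    have h := Pl.v_mul p 1 1 one_ne_zero one_ne_zero
    rw [one_mul] at h
    have h0 : Pl.v p 1 = 0 := by omega
    rw [if_neg one_ne_zero, h0]
    apply NNReal.eq
    simp [coe_ex]
  map_mul' x y := by
    by_cases hx : x = 0
    · simp [hx]
    by_cases hy : y = 0
    · simp [hy]
    rw [if_neg hx, if_neg hy, if_neg (mul_ne_zero hx hy), Pl.v_mul p x y hx hy, Int.cast_add,
      ext_ex_add]
  map_add_le_max' x y := by
    by_cases hx : x = 0
    · simp [hx]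
    by_cases hy : y = 0
    · simp [hy]
    by_cases hxy : x + y = 0
    · simp [hxy]
    rw [if_neg hx, if_neg hy, if_neg hxy]
    rcases min_le_iff.1 (Pl.v_add p x y hx hy hxy) with h | h
    · exact le_max_of_le_left (ext_ex_anti (by exact_mod_cast h))
    · exact le_max_of_le_right (ext_ex_anti (by exact_mod_cast h))

theorem ext_equiv {L : Type} [Field L] [Algebra K L] (w : Valuation K ℝ≥0) :
    ∃ A : ValuationSubring L, ∀ c c' : K,
      A.valuation (algebraMap K L c) ≤ A.valuation (algebraMap K L c') ↔ w c ≤ w c' := by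
  obtain ⟨A, hA, hl⟩ := IsLocalRing.exists_factor_valuationRing
    ((algebraMap K L).comp w.valuationSubring.subtype)
  refine ⟨A, ?_⟩
  have : (A.valuation.comap (algebraMap K L)).IsEquiv w := by
    refine Valuation.isEquiv_iff_val_le_one.2 fun {x} => ⟨fun h => ?_, fun h => ?_⟩
    · by_contra hx
      rw [not_le] at hx
      have hx0 : x ≠ 0 := by rintro rfl; simp at hx
      have h1 : w x⁻¹ < 1 := by rw [map_inv₀]; exact inv_lt_one_of_one_lt₀ hx
      have h2 : ¬ IsUnit (⟨x⁻¹, h1.le⟩ : w.valuationSubring) :=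
        (Valuation.mem_maximalIdeal_iff (v := w) (a := ⟨x⁻¹, h1.le⟩)).2 h1
      refine h2 (hl.map_nonunit _ ?_)
      refine (A.valuation_eq_one_iff ⟨algebraMap K L x⁻¹, hA ⟨x⁻¹, h1.le⟩⟩).2 ?_
      refine le_antisymm (A.valuation_le_one _) ?_
      change 1 ≤ A.valuation (algebraMap K L x⁻¹)
      rw [map_inv₀, map_inv₀]
      exact (one_le_inv₀ (zero_lt_iff.2 (by simpa using hx0))).2 h
    · exact (A.valuation_le_one_iff _).2 (hA ⟨x, h⟩)
  exact this

theorem ext_pow {L Γ : Type} [Field L] [Algebra K L] [Algebra.IsAlgebraic K L]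
    [LinearOrderedCommGroupWithZero Γ] (u : Valuation L Γ) (y : L) :
    ∃ n : ℕ, n ≠ 0 ∧ ∃ c : K, u y ^ n = u (algebraMap K L c) := by
  classical
  by_cases hy : y = 0
  · exact ⟨1, one_ne_zero, 0, by simp [hy]⟩
  obtain ⟨P, hP, hPy⟩ := Algebra.IsAlgebraic.isAlgebraic (R := K) y
  rw [Polynomial.aeval_def, Polynomial.eval₂_eq_sum, Polynomial.sum_def] at hPy
  have hne : ∀ i ∈ P.support, u (algebraMap K L (P.coeff i)) ≠ 0 := fun i hi => by
    simpa using Polynomial.mem_support_iff.1 hi
  have hy' : u y ≠ 0 := by simpa using hy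
  have key : ∀ i ∈ P.support, ∀ j ∈ P.support, i < j →
      u (algebraMap K L (P.coeff i) * y ^ i) = u (algebraMap K L (P.coeff j) * y ^ j) →
      ∃ n : ℕ, n ≠ 0 ∧ ∃ c : K, u y ^ n = u (algebraMap K L c) := by
    intro i _ j hj hij h
    obtain ⟨n, rfl⟩ := Nat.exists_eq_add_of_lt hij
    refine ⟨n + 1, n.succ_ne_zero, P.coeff i / P.coeff (i + n + 1), ?_⟩
    rw [map_div₀, map_div₀, eq_div_iff (hne _ hj)]
    rw [map_mul, map_mul, map_pow, map_pow, add_assoc, pow_add] at h
    refine mul_right_cancel₀ (pow_ne_zero i hy') ?_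
    rw [h, add_assoc]
    ac_rfl
  obtain ⟨j, hj, hmax⟩ := P.support.exists_max_image
    (fun i => u (algebraMap K L (P.coeff i) * y ^ i)) (Polynomial.support_nonempty.2 hP)
  by_contra hcon
  have h1 := u.map_sum_eq_of_lt (f := fun i => algebraMap K L (P.coeff i) * y ^ i) hj fun i hi => by
    obtain ⟨hi1, hi2⟩ := Finset.mem_sdiff.1 hi
    refine lt_of_le_of_ne (hmax i hi1) fun h => hcon ?_
    rcases lt_or_gt_of_ne (Finset.notMem_singleton.1 hi2) with h' | h'
    · exact key i hi1 j hj h' h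
    · exact key j hj i hi1 h' h.symm
  rw [hPy, map_zero, map_mul, map_pow] at h1
  exact mul_ne_zero (hne j hj) (pow_ne_zero j hy') h1.symm

theorem ext_exists {L : Type} [Field L] [Algebra K L] [Algebra.IsAlgebraic K L]
    (w : Valuation K ℝ≥0) : ∃ w' : Valuation L ℝ≥0, ∀ x : K, w' (algebraMap K L x) = w x := by
  obtain ⟨A, hA⟩ := ext_equiv (L := L) w
  set u := A.valuation with hu
  let Rel : L → ℝ≥0 → Prop := fun y r =>
    ∃ n : ℕ, n ≠ 0 ∧ ∃ c : K, u y ^ n = u (algebraMap K L c) ∧ r ^ n = w c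
  have hex : ∀ y, ∃ r, Rel y r := fun y => by
    obtain ⟨n, hn, c, hc⟩ := ext_pow (K := K) u y
    exact ⟨w c ^ ((n : ℝ)⁻¹), n, hn, c, hc, NNReal.rpow_inv_natCast_pow _ hn⟩
  have hmono : ∀ {y y' r r'}, Rel y r → Rel y' r' → u y ≤ u y' → r ≤ r' := by
    rintro y y' r r' ⟨n, hn, c, h1, h2⟩ ⟨n', hn', c', h1', h2'⟩ h
    have h3 : w (c ^ n') ≤ w (c' ^ n) := by
      rw [← hA, map_pow, map_pow, map_pow, map_pow, ← h1, ← h1', ← pow_mul, ← pow_mul, mul_comm n' n]
      exact pow_le_pow_left' h _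
    rw [map_pow, map_pow, ← h2, ← h2', ← pow_mul, ← pow_mul, mul_comm n' n] at h3
    exact (pow_le_pow_iff_left₀ (zero_le) (zero_le) (mul_ne_zero hn hn')).1 h3
  have huniq : ∀ {y r r'}, Rel y r → Rel y r' → r = r' := fun h h' =>
    le_antisymm (hmono h h' le_rfl) (hmono h' h le_rfl)
  have hbase : ∀ x : K, Rel (algebraMap K L x) (w x) := fun x =>
    ⟨1, one_ne_zero, x, pow_one _, pow_one _⟩
  have hmul : ∀ {y y' r r'}, Rel y r → Rel y' r' → Rel (y * y') (r * r') := by
    rintro y y' r r' ⟨n, hn, c, h1, h2⟩ ⟨n', hn', c', h1', h2'⟩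
    refine ⟨n * n', mul_ne_zero hn hn', c ^ n' * c' ^ n, ?_, ?_⟩
    · simp only [map_mul, map_pow, mul_pow]
      rw [← h1, ← h1', ← pow_mul, ← pow_mul, mul_comm n' n]
    · simp only [map_mul, map_pow, mul_pow]
      rw [← h2, ← h2', ← pow_mul, ← pow_mul, mul_comm n' n]
  choose f hf using hex
  have hfx : ∀ x : K, f (algebraMap K L x) = w x := fun x => huniq (hf _) (hbase x)
  refine ⟨{ toFun := f
            map_zero' := by simpa using hfx 0
            map_one' := by simpa using hfx 1
            map_mul' := fun y y' => huniq (hf _) (hmul (hf y) (hf y'))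
            map_add_le_max' := fun y y' => ?_ }, hfx⟩
  rcases le_max_iff.1 (u.map_add y y') with h | h
  · exact le_max_of_le_left (hmono (hf _) (hf _) h)
  · exact le_max_of_le_right (hmono (hf _) (hf _) h)

/-- Extension of a place.  Route A: `|x| = exp (-v p x)` (`0` at `0`) is a non-archimedean absolute
value on `K`; complete `K` for it (`AbsoluteValue.Completion` / `WithAbs`), take the spectral norm
on an algebraic closure of the completion (`spectralMulAlgNorm`, `isNonarchimedean_spectralNorm`,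
`spectralNorm_extends`) and pull back along `IsAlgClosed.lift`.
Route B: the valuation subring `O = {x | x = 0 ∨ 0 ≤ v p x}` of `K` is dominated by a valuation
subring `A` of `Om K` (`LocalSubring.exists_le_valuationSubring` or similar).  For `c, c' ≠ 0` in
`K`, `A.valuation c ≤ A.valuation c' ↔ v c' ≤ v c`.  For `y ≠ 0` two terms of `minpoly K y` evaluated
at `y` have the same valuation, so `A.valuation (y^n) = A.valuation c` with `n > 0`, `c ∈ K`, `c ≠ 0`;
define `w y = exp (-v c / n)`. -/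
theorem exists_ext (p : Pl.P) : ∃ w : Valuation (Om K) ℝ≥0,
    ∀ x : K, x ≠ 0 → w (algebraMap K (Om K) x) = ex (Pl.v p x) := by
  obtain ⟨w, hw⟩ := ext_exists (L := Om K) (extVal Pl p)
  exact ⟨w, fun x hx => (hw x).trans (if_neg hx)⟩

end Crest.Agent.R169.TT
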