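import Crest.Agent.R169.TTRank2

/-!
# Row 169, part TT: absolute Siegel flags.
-/

set_option autoImplicit false

namespace Crest.Agent.R169.TT

open Matrix
open scoped NNReal

variable {k K : Type} [Field k] [Field K] [Algebra k K] {Pl : Places k K}
  {ι : Type} [Fintype ι] [DecidableEq ι] (V : NB Pl ι)

/-- The standard basis as a sequence. -/
noncomputable def e0 (ι R : Type) [Fintype ι] [Zero R] [One R] : ℕ → ι → R :=
  fun n i => if (Fintype.equivFin ι i : ℕ) = n then 1 else 0

theorem indep_e0 (F : Type) [Field F] :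
    LinearIndependent F (fc (e0 ι F) (Fintype.card ι))ᵀ := by
  refine indep_of_minor_ne _ (Fintype.equivFin ι).symm ?_
  have e : (fc (e0 ι F) (Fintype.card ι)).submatrix (Fintype.equivFin ι).symm id = 1 := by
    ext i j
    simp [fc, e0, one_apply, Fin.ext_iff]
  rw [e, det_one]
  exact one_ne_zero

/-- Two independent families with the same span differ by an invertible matrix. -/
theorem flag_exists_change {F ι : Type} [Field F] [Fintype ι] {s : ℕ} (Y' Y : Matrix ι (Fin s) F)
    (h : LinearIndependent F Yᵀ) (h1 : ∀ j, Y'ᵀ j ∈ Submodule.span F (Set.range Yᵀ))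
    (h2 : ∀ j, Yᵀ j ∈ Submodule.span F (Set.range Y'ᵀ)) :
    ∃ B : Matrix (Fin s) (Fin s) F, B.det ≠ 0 ∧ Y' = Y * B := by
  have key : ∀ Z Z' : Matrix ι (Fin s) F, (∀ j, Z'ᵀ j ∈ Submodule.span F (Set.range Zᵀ)) →
      ∃ B : Matrix (Fin s) (Fin s) F, Z' = Z * B := by
    intro Z Z' hZ
    choose c hc using fun j => (Submodule.mem_span_range_iff_exists_fun F).1 (hZ j)
    refine ⟨(Matrix.of c)ᵀ, ?_⟩
    ext r j
    have := congrFun (hc j) r
    simp only [Finset.sum_apply, Pi.smul_apply, transpose_apply, smul_eq_mul] at this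
    rw [← this, Matrix.mul_apply]
    exact Finset.sum_congr rfl fun l _ => mul_comm _ _
  obtain ⟨B, hB⟩ := key Y Y' h1
  obtain ⟨B', hB'⟩ := key Y' Y h2
  refine ⟨B, ?_, hB⟩
  have e : B * B' = 1 := by
    refine Matrix.ext_iff_mulVec.2 fun v => Matrix.mulVec_injective_iff.2 h ?_
    rw [mulVec_mulVec, ← Matrix.mul_assoc, ← hB, ← hB', one_mulVec]
  exact (Matrix.isUnit_det_of_right_inverse e).ne_zero

/-- One move.  By `NB.rank2` for `A = fc x i`, `x i`, `x (i+1)` get `(α, β)`.  If `β = 0` take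
`x' = x` (`snoc A (α • x i) = fc x (i+1) * diagonal (1,…,1,α)`, `mdeg_mul_right`).  Otherwise
`x' i = α • x i + β • x (i+1)`, `x' (i+1) = x i`, `x' j = x j` else; for `s ≤ i` the matrices agree,
for `s ≥ i + 2` `fc x' s = fc x s * B` with `det B ≠ 0`. -/
theorem NB.flag_move [CharZero K] (n : ℕ) (x : ℕ → ι → Om K)
    (h : LinearIndependent (Om K) (fc x n)ᵀ) (i : ℕ) (hi : i + 2 ≤ n) (ε : ℝ) (hε : 0 < ε) :
    ∃ x' : ℕ → ι → Om K, LinearIndependent (Om K) (fc x' n)ᵀ ∧
      (∀ s, s ≤ n → s ≠ i + 1 → V.mdeg (fc x' s) = V.mdeg (fc x s)) ∧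
      (V.mdeg (fc x i) + V.mdeg (fc x (i + 2))) / 2 - ε ≤ V.mdeg (fc x' (i + 1)) := by
  have h2 : LinearIndependent (Om K) (fc x (i + 2))ᵀ := indep_fc_mono x hi h
  have e2 : fc x (i + 2) = snoc (snoc (fc x i) (x i)) (x (i + 1)) := by
    rw [fc_succ, fc_succ]
  obtain ⟨α, β, hab, hle⟩ := V.rank2 (fc x i) (x i) (x (i + 1)) (e2 ▸ h2) ε hε
  rw [← e2] at hle
  by_cases hβ : β = 0
  · have hα : α ≠ 0 := hab.resolve_right (not_not.2 hβ)
    refine ⟨x, h, fun _ _ _ => rfl, hle.trans (le_of_eq ?_)⟩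
    have e3 := lb_snoc_mul_blk (fc x i) (x i) 1 0 α
    rw [← fc_succ, Matrix.mul_one, mulVec_zero, zero_add] at e3
    rw [hβ, zero_smul, add_zero, ← e3, V.mdeg_mul_right _ (indep_fc_mono x (by omega) h)]
    rw [lbBlk_det, det_one, one_mul]
    exact hα
  · let x' : ℕ → ι → Om K := fun j =>
      if j = i then α • x i + β • x (i + 1) else if j = i + 1 then x i else x j
    have hx0 : x' i = α • x i + β • x (i + 1) := by simp [x']
    have hx1 : x' (i + 1) = x i := by simp [x']
    have hx2 : ∀ j, j ≠ i → j ≠ i + 1 → x' j = x j := by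
      intro j h1 h2
      simp [x', h1, h2]
    have hlow : ∀ s, s ≤ i → fc x' s = fc x s := by
      intro s hs
      ext r j
      have := j.2
      simp only [fc, of_apply]
      rw [hx2 j (by omega) (by omega)]
    have hhigh : ∀ s, i + 2 ≤ s → s ≤ n →
        ∃ B : Matrix (Fin s) (Fin s) (Om K), B.det ≠ 0 ∧ fc x' s = fc x s * B := by
      intro s hs hsn
      have m : ∀ (y : ℕ → ι → Om K) (j : ℕ), j < s →
          y j ∈ Submodule.span (Om K) (Set.range (fc y s)ᵀ) :=
        fun y j hj => Submodule.subset_span ⟨⟨j, hj⟩, rfl⟩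
      refine flag_exists_change _ _ (indep_fc_mono x hsn h) (fun j => ?_) (fun j => ?_)
      · change x' j ∈ _
        by_cases h1 : (j : ℕ) = i
        · rw [h1, hx0]
          exact Submodule.add_mem _ (Submodule.smul_mem _ _ (m x i (by omega)))
            (Submodule.smul_mem _ _ (m x (i + 1) (by omega)))
        · by_cases h2 : (j : ℕ) = i + 1
          · rw [h2, hx1]
            exact m x i (by omega)
          · rw [hx2 j h1 h2]
            exact m x j j.2
      · change x j ∈ _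
        by_cases h1 : (j : ℕ) = i
        · rw [h1, ← hx1]
          exact m x' (i + 1) (by omega)
        · by_cases h2 : (j : ℕ) = i + 1
          · have e : x (i + 1) = β⁻¹ • (x' i - α • x' (i + 1)) := by
              rw [hx0, hx1, add_sub_cancel_left, smul_smul, inv_mul_cancel₀ hβ, one_smul]
            rw [h2, e]
            exact Submodule.smul_mem _ _ (Submodule.sub_mem _ (m x' i (by omega))
              (Submodule.smul_mem _ _ (m x' (i + 1) (by omega))))
          · rw [← hx2 j h1 h2]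
            exact m x' j j.2
    refine ⟨x', ?_, fun s hs hs1 => ?_, hle.trans (le_of_eq ?_)⟩
    · obtain ⟨B, hB, e⟩ := hhigh n hi le_rfl
      rw [e]
      exact degB_indep_mul_right _ h B hB
    · by_cases hsi : s ≤ i
      · rw [hlow s hsi]
      · obtain ⟨B, hB, e⟩ := hhigh s (by omega) hs
        rw [e, V.mdeg_mul_right _ (indep_fc_mono x hs h) B hB]
    · rw [fc_succ, hlow i le_rfl, hx0]

/-- Let `n = card ι`, `Φ x = ∑ s ∈ range (n+1), mdeg (fc x s)` on independent sequences; it is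
bounded above (`mdeg_bdd`), the set is nonempty (`indep_e0`).  Take `x` with `Φ x ≥ sup - η`; by
`flag_move`, `D (i+1) ≥ (D i + D (i+2))/2 - 2η` for `D s = mdeg (fc x s)`, so the increments grow by
at most `4η` per step; the first is `≤ μ` (`fc_one`, `mdeg_col1_le`, `mdeg_zero_col`).
Take `η = ε / (4 n + 4)`. -/
theorem NB.exists_flag [CharZero K] {μ : ℚ} (hV : V.SS μ) (ε : ℝ) (hε : 0 < ε) :
    ∃ x : ℕ → ι → Om K, LinearIndependent (Om K) (fc x (Fintype.card ι))ᵀ ∧
      ∀ i, i < Fintype.card ι → V.mdeg (fc x (i + 1)) - V.mdeg (fc x i) ≤ μ + ε := by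
  classical
  set n := Fintype.card ι with hn
  obtain ⟨C, hC⟩ := V.mdeg_bdd
  let Φ : (ℕ → ι → Om K) → ℝ := fun x => ∑ s ∈ Finset.range (n + 1), V.mdeg (fc x s)
  let S : Set ℝ := Φ '' {x | LinearIndependent (Om K) (fc x n)ᵀ}
  have hne : S.Nonempty := ⟨_, e0 ι (Om K), indep_e0 (Om K), rfl⟩
  have hbd : BddAbove S := by
    refine ⟨∑ s ∈ Finset.range (n + 1), (s : ℝ) * C, ?_⟩
    rintro _ ⟨x, hx, rfl⟩
    refine Finset.sum_le_sum fun s hs => hC s _ (indep_fc_mono x ?_ hx)
    have := Finset.mem_range.1 hs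
    omega
  set η : ℝ := ε / (4 * n + 4) with hη
  have hη0 : 0 < η := by positivity
  obtain ⟨_, ⟨x, hx, rfl⟩, hlt⟩ := exists_lt_of_lt_csSup hne (sub_lt_self (sSup S) hη0)
  have hstep : ∀ i, i + 2 ≤ n → V.mdeg (fc x (i + 2)) - V.mdeg (fc x (i + 1)) ≤
      V.mdeg (fc x (i + 1)) - V.mdeg (fc x i) + 4 * η := by
    intro i hi
    obtain ⟨x', hx', hsame, hle⟩ := V.flag_move n x hx i hi η hη0
    have h1 : Φ x' ≤ sSup S := le_csSup hbd ⟨x', hx', rfl⟩
    have hm : i + 1 ∈ Finset.range (n + 1) := Finset.mem_range.2 (by omega)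
    have h2 : Φ x' - V.mdeg (fc x' (i + 1)) = Φ x - V.mdeg (fc x (i + 1)) := by
      simp only [Φ]
      rw [← Finset.sum_erase_eq_sub hm, ← Finset.sum_erase_eq_sub hm]
      refine Finset.sum_congr rfl fun s hs => ?_
      obtain ⟨hs1, hs2⟩ := Finset.mem_erase.1 hs
      have := Finset.mem_range.1 hs2
      exact hsame s (by omega) hs1
    linarith
  have hind : ∀ i, i < n → V.mdeg (fc x (i + 1)) - V.mdeg (fc x i) ≤ μ + 4 * η * i := by
    intro i
    induction i with
    | zero =>
      intro h0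
      have h1 : LinearIndependent (Om K) (fc x 1)ᵀ := indep_fc_mono x h0 hx
      rw [fc_one, indep_col1] at h1
      rw [V.mdeg_zero_col, zero_add, fc_one]
      simpa using V.mdeg_col1_le hV (x 0) h1
    | succ i ih =>
      intro h0
      have h1 := ih (by omega)
      have h2 := hstep i (by omega)
      push_cast
      linarith
  refine ⟨x, hx, fun i hi => (hind i hi).trans (add_le_add_right ?_ _)⟩
  have hi' : (i : ℝ) ≤ n := Nat.cast_le.2 hi.le
  have h4 : η * (4 * n + 4) = ε := by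
    rw [hη]
    field_simp
  nlinarith

end Crest.Agent.R169.TT
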