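import Crest.Agent.R169.TTLocA

/-!
# Row 169, part TT: binary forms and the Gauss lemma.
-/

set_option autoImplicit false

namespace Crest.Agent.R169.TT

open Matrix Polynomial
open scoped NNReal

variable {F : Type} [Field F] (w : Valuation F ℝ≥0)

theorem gauss_natDegree_lin (b d : F) : (C b + C d * X : F[X]).natDegree ≤ 1 := by
  compute_degree

theorem gauss_natDegree_lin_pow (b d : F) (i : ℕ) : ((C b + C d * X : F[X]) ^ i).natDegree ≤ i := by
  simpa using natDegree_pow_le_of_le i (gauss_natDegree_lin b d)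

theorem gauss_coeff_lin_pow (b d : F) (i : ℕ) : ((C b + C d * X : F[X]) ^ i).coeff i = d ^ i := by
  have := coeff_pow_of_natDegree_le (m := i) (gauss_natDegree_lin b d)
  rw [mul_one] at this
  rw [this]
  simp

/-- `symM` is upper triangular with diagonal `a^(m-i) d^i`. -/
theorem symM_det (m : ℕ) (a b d : F) :
    (symM m a b d).det = (a * d) ^ (m * (m + 1) / 2) := by
  have h : (symM m a b d).BlockTriangular id := by
    intro j i hij
    have h1 : (i : ℕ) < j := hij
    simp only [symM, of_apply]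
    rw [coeff_eq_zero_of_natDegree_lt ((gauss_natDegree_lin_pow b d i).trans_lt h1), mul_zero]
  rw [det_of_upperTriangular h]
  simp only [symM, of_apply, gauss_coeff_lin_pow]
  rw [Fin.prod_univ_eq_prod_range (fun i => a ^ (m - i) * d ^ i) (m + 1), Finset.prod_mul_distrib,
    Finset.prod_pow_eq_pow_sum, Finset.prod_pow_eq_pow_sum]
  have h2 : ∑ i ∈ Finset.range (m + 1), (m - i) = ∑ i ∈ Finset.range (m + 1), i := by
    simpa using Finset.sum_range_reflect (fun i => i) (m + 1)
  rw [h2, Finset.sum_range_id, ← mul_pow, Nat.add_sub_cancel, mul_comm (m + 1)]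

theorem symM_one (m : ℕ) : symM m (1 : F) 0 1 = 1 := by
  ext j i
  simp [symM, Matrix.one_apply, coeff_X_pow, Fin.ext_iff]

theorem symM_map {F' : Type} [Field F'] (f : F →+* F') (m : ℕ) (a b d : F) :
    (symM m a b d).map f = symM m (f a) (f b) (f d) := by
  ext j i
  simp only [symM, Matrix.map_apply, of_apply, map_mul, map_pow]
  congr 1
  rw [← coeff_map]
  simp

theorem gauss_factor_aux [IsAlgClosed F] (m : ℕ) (p : F[X]) (hp : p ≠ 0) (hd : p.natDegree ≤ m) :
    ∃ (c : F) (α β : Fin m → F), c ≠ 0 ∧ (∀ l, α l ≠ 0 ∨ β l ≠ 0) ∧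
      p = C c * ∏ l, (C (α l) + C (β l) * X) := by
  induction m generalizing p with
  | zero =>
    have h := eq_C_of_natDegree_le_zero hd
    refine ⟨p.coeff 0, Fin.elim0, Fin.elim0, fun h0 => hp (by rw [h, h0, C_0]),
      fun l => l.elim0, ?_⟩
    simpa using h
  | succ m ih =>
    by_cases h : p.natDegree ≤ m
    · obtain ⟨c, α, β, hc, hab, e⟩ := ih p hp h
      refine ⟨c, Fin.cons 1 α, Fin.cons 0 β, hc, fun l => ?_, ?_⟩
      · refine Fin.cases ?_ (fun l => ?_) l
        · simp
        · simpa using hab l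
      · rw [Fin.prod_univ_succ]
        simpa using e
    · have h1 : p.degree ≠ 0 := by
        intro h0
        rw [natDegree_eq_of_degree_eq_some (n := 0) h0] at h
        exact h (Nat.zero_le _)
      obtain ⟨r, hr⟩ := IsAlgClosed.exists_root p h1
      obtain ⟨q, rfl⟩ := dvd_iff_isRoot.2 hr
      have hq : q ≠ 0 := right_ne_zero_of_mul hp
      rw [natDegree_mul (X_sub_C_ne_zero r) hq, natDegree_X_sub_C] at hd
      obtain ⟨c, α, β, hc, hab, e⟩ := ih q hq (by omega)
      refine ⟨c, Fin.cons (-r) α, Fin.cons 1 β, hc, fun l => ?_, ?_⟩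
      · refine Fin.cases ?_ (fun l => ?_) l
        · simp
        · simpa using hab l
      · rw [Fin.prod_univ_succ, e]
        simp only [Fin.cons_zero, Fin.cons_succ, map_neg, map_one]
        ring

theorem gauss_coeff_sum (m : ℕ) (f : Fin (m + 1) → F) (j : Fin (m + 1)) :
    (∑ i : Fin (m + 1), C (f i) * X ^ (i : ℕ)).coeff j = f j := by
  rw [finsetSum_coeff, Finset.sum_eq_single j]
  · simp
  · intro i _ hij
    rw [coeff_C_mul_X_pow, if_neg fun h => hij (Fin.ext h).symm]
  · simp

/-- Factorisation of a nonzero binary form of degree `m` over an algebraically closed field: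
roots give factors `(α, β) = (-r, 1)`, the missing degree gives factors `(1, 0)`. -/
theorem exists_factor [IsAlgClosed F] (m : ℕ) (f : Fin (m + 1) → F) (hf : f ≠ 0) :
    ∃ (c : F) (α β : Fin m → F), c ≠ 0 ∧ (∀ l, α l ≠ 0 ∨ β l ≠ 0) ∧
      ∑ i : Fin (m + 1), C (f i) * X ^ (i : ℕ) = C c * ∏ l, (C (α l) + C (β l) * X) := by
  refine gauss_factor_aux m _ (fun h => hf (funext fun j => ?_)) ?_
  · rw [← gauss_coeff_sum m f j, h, coeff_zero, Pi.zero_apply]
  · refine natDegree_sum_le_of_forall_le _ _ fun i _ => ?_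
    exact (natDegree_C_mul_X_pow_le _ _).trans (Nat.lt_succ_iff.1 i.2)

/-- The Gauss norm of a polynomial. -/
noncomputable def gaussN (p : F[X]) : ℝ≥0 := p.support.sup fun i => w (p.coeff i)

theorem le_gaussN (p : F[X]) (i : ℕ) : w (p.coeff i) ≤ gaussN w p := by
  by_cases h : i ∈ p.support
  · exact Finset.le_sup (f := fun i => w (p.coeff i)) h
  · rw [notMem_support_iff.1 h, map_zero]; exact zero_le

theorem gaussN_le {p : F[X]} {c : ℝ≥0} (h : ∀ i, w (p.coeff i) ≤ c) : gaussN w p ≤ c :=
  Finset.sup_le fun i _ => h i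

theorem exists_gaussN (p : F[X]) : ∃ i, w (p.coeff i) = gaussN w p := by
  by_cases h : p.support.Nonempty
  · obtain ⟨i, -, hi⟩ := Finset.exists_mem_eq_sup _ h fun i => w (p.coeff i)
    exact ⟨i, hi.symm⟩
  · refine ⟨0, le_antisymm (le_gaussN w p 0) ?_⟩
    rw [gaussN, Finset.not_nonempty_iff_eq_empty.1 h, Finset.sup_empty]
    exact bot_le

theorem gaussN_C (c : F) : gaussN w (C c) = w c := by
  refine le_antisymm (gaussN_le w fun i => ?_) (by simpa using le_gaussN w (C c) 0)
  rw [coeff_C]
  split_ifs <;> simp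

theorem gaussN_mul_lin (p : F[X]) (α β : F) :
    gaussN w (p * (C α + C β * X)) = gaussN w p * max (w α) (w β) := by
  classical
  have e0 : (p * (C α + C β * X)).coeff 0 = p.coeff 0 * α := by simp
  have e1 : ∀ i, (p * (C α + C β * X)).coeff (i + 1) = p.coeff (i + 1) * α + p.coeff i * β := by
    intro i
    rw [mul_add, coeff_add, coeff_mul_C, ← mul_assoc, coeff_mul_X, coeff_mul_C]
  refine le_antisymm (gaussN_le w fun i => ?_) ?_
  · rcases i with _ | i
    · rw [e0, map_mul]
      exact mul_le_mul' (le_gaussN w p 0) (le_max_left _ _)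
    · rw [e1]
      refine w.map_add_le ?_ ?_ <;> rw [map_mul]
      · exact mul_le_mul' (le_gaussN w p _) (le_max_left _ _)
      · exact mul_le_mul' (le_gaussN w p _) (le_max_right _ _)
  · rcases eq_zero_or_pos (gaussN w p) with hG | hG
    · rw [hG, zero_mul]; exact zero_le
    rcases eq_zero_or_pos (max (w α) (w β)) with hM | hM
    · rw [hM, mul_zero]; exact zero_le
    rcases le_total (w β) (w α) with h | h
    · rw [max_eq_left h] at hM ⊢
      have hi := Nat.find_spec (exists_gaussN w p)
      have hmin := fun j => Nat.find_min (exists_gaussN w p) (m := j)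
      generalize Nat.find (exists_gaussN w p) = i at hi hmin
      refine le_trans (le_of_eq ?_) (le_gaussN w _ i)
      rcases i with _ | i
      · rw [e0, map_mul, hi]
      · have h1 : w (p.coeff i) < gaussN w p :=
          lt_of_le_of_ne (le_gaussN w p i) (hmin i (Nat.lt_succ_self i))
        rw [e1, w.map_add_eq_of_lt_left, map_mul, hi]
        rw [map_mul, map_mul, hi]
        exact (mul_le_mul_right h _).trans_lt (mul_lt_mul_of_pos_right h1 hM)
    · rw [max_eq_right h] at hM ⊢
      have hne : (p.support.filter fun i => w (p.coeff i) = gaussN w p).Nonempty := by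
        obtain ⟨i, hi⟩ := exists_gaussN w p
        refine ⟨i, Finset.mem_filter.2 ⟨mem_support_iff.2 fun h0 => ?_, hi⟩⟩
        rw [h0, map_zero] at hi
        exact hG.ne hi
      obtain ⟨i, hi, hmax⟩ := Finset.exists_max_image _ id hne
      have hi' := (Finset.mem_filter.1 hi).2
      have h1 : w (p.coeff (i + 1)) < gaussN w p := by
        refine lt_of_le_of_ne (le_gaussN w p _) fun h2 => ?_
        have := hmax (i + 1) (Finset.mem_filter.2 ⟨mem_support_iff.2 fun h0 => ?_, h2⟩)
        · simp at this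
        · rw [h0, map_zero] at h2
          exact hG.ne h2
      refine le_trans (le_of_eq ?_) (le_gaussN w _ (i + 1))
      rw [e1, w.map_add_eq_of_lt_right, map_mul, hi']
      rw [map_mul, map_mul, hi']
      exact (mul_le_mul_right h _).trans_lt (mul_lt_mul_of_pos_right h1 hM)

theorem gaussN_prod {ι : Type} (s : Finset ι) (c : F) (α β : ι → F) :
    gaussN w (C c * ∏ l ∈ s, (C (α l) + C (β l) * X)) = w c * ∏ l ∈ s, max (w (α l)) (w (β l)) := by
  classical
  induction s using Finset.induction_on with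
  | empty => simp [gaussN_C]
  | insert l s hl ih =>
    rw [Finset.prod_insert hl, Finset.prod_insert hl, mul_comm (C (α l) + _), ← mul_assoc,
      gaussN_mul_lin, ih]
    ring

theorem vn_eq_gaussN (m : ℕ) (p : F[X]) (hd : p.natDegree ≤ m) :
    vn w (fun j : Fin (m + 1) => p.coeff j) = gaussN w p := by
  refine le_antisymm (Finset.sup_le fun j _ => le_gaussN w p j) (gaussN_le w fun i => ?_)
  by_cases h : i ≤ m
  · exact Finset.le_sup (f := fun j : Fin (m + 1) => w (p.coeff j))
      (Finset.mem_univ ⟨i, Nat.lt_succ_of_le h⟩)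
  · rw [coeff_eq_zero_of_natDegree_lt (by omega), map_zero]; exact zero_le

theorem gauss_subst (m : ℕ) (a b d : F) (ha : a ≠ 0) (f : Fin (m + 1) → F) (c : F)
    (α β : Fin m → F)
    (hf : ∑ i : Fin (m + 1), C (f i) * X ^ (i : ℕ) = C c * ∏ l, (C (α l) + C (β l) * X)) :
    ∑ i : Fin (m + 1), C (a ^ (m - (i : ℕ)) * f i) * (C b + C d * X) ^ (i : ℕ) =
      C c * ∏ l, (C (a * α l + b * β l) + C (d * β l) * X) := by
  have h := congrArg (fun p : F[X] => C (a ^ m) * p.comp (C a⁻¹ * (C b + C d * X))) hf
  simp only [Polynomial.sum_comp, mul_comp, C_comp, pow_comp, X_comp, Polynomial.prod_comp,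
    add_comp, Finset.mul_sum] at h
  have hC : (C a : F[X]) * C a⁻¹ = 1 := by rw [← C_mul, mul_inv_cancel₀ ha, C_1]
  convert h using 1
  · refine Finset.sum_congr rfl fun i _ => ?_
    have e : a ^ m = a ^ (m - (i : ℕ)) * a ^ (i : ℕ) := by
      rw [← pow_add, Nat.sub_add_cancel (Nat.lt_succ_iff.1 i.2)]
    have e2 : (C a : F[X]) ^ (i : ℕ) * C a⁻¹ ^ (i : ℕ) = 1 := by rw [← mul_pow, hC, one_pow]
    rw [e, mul_pow, C_mul, C_mul, C_pow (a := a) (n := (i : ℕ))]
    linear_combination (-(C (a ^ (m - (i : ℕ))) * C (f i) * (C b + C d * X) ^ (i : ℕ))) * e2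
  · have e : (C (a ^ m) : F[X]) = ∏ _l : Fin m, C a := by simp
    rw [e, mul_left_comm, ← Finset.prod_mul_distrib]
    congr 1
    refine Finset.prod_congr rfl fun l _ => ?_
    simp only [C_add, C_mul]
    linear_combination (-(C (β l) * (C b + C d * X))) * hC

/-- Gauss lemma.  `symM m a b d *ᵥ f` is the coefficient vector of
`∑ f_i a^(m-i) (b + d X)^i = c ∏ (a α_l + b β_l + d β_l X)` (compose with `(b + d X)/a` and multiply
by `a^m`), a polynomial of degree at most `m`; the sup norm of coefficients is multiplicative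
(`Polynomial.gaussNorm_mul` with `c = 1`, or a direct proof for a product with a linear factor). -/
theorem vn_symM (m : ℕ) (a b d : F) (ha : a ≠ 0) (f : Fin (m + 1) → F) (c : F)
    (α β : Fin m → F)
    (hf : ∑ i : Fin (m + 1), C (f i) * X ^ (i : ℕ) = C c * ∏ l, (C (α l) + C (β l) * X)) :
    vn w (symM m a b d *ᵥ f) = w c * ∏ l, max (w (a * α l + b * β l)) (w (d * β l)) := by
  rw [← gaussN_prod, ← gauss_subst m a b d ha f c α β hf, ← vn_eq_gaussN w m]
  · congr 1
    funext j
    simp only [symM, mulVec, dotProduct, of_apply, finsetSum_coeff, coeff_C_mul]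
    exact Finset.sum_congr rfl fun i _ => by ring
  · exact natDegree_sum_le_of_forall_le _ _ fun i _ => (natDegree_C_mul_le _ _).trans
      ((gauss_natDegree_lin_pow b d i).trans (Nat.lt_succ_iff.1 i.2))

theorem gauss_norm2_le (a b d a' b' d' : F) (ha : a ≠ 0) (h1 : w a' = w a) (hd : w d' = w d)
    (h : w (a' * -b + b' * a) ≤ w (d * a)) (α β : F) :
    max (w (a' * α + b' * β)) (w (d' * β)) ≤ max (w (a * α + b * β)) (w (d * β)) := by
  have hw : 0 < w a := (Valuation.pos_iff w).2 ha
  refine max_le ?_ ?_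
  · refine le_of_mul_le_mul_left ?_ hw
    have e : a * (a' * α + b' * β) = a' * (a * α + b * β) + (a' * -b + b' * a) * β := by ring
    rw [← map_mul, e]
    refine w.map_add_le ?_ ?_
    · rw [map_mul, h1]
      exact mul_le_mul_right (le_max_left _ _) _
    · rw [map_mul]
      refine (mul_le_mul_left h _).trans ?_
      rw [map_mul, mul_comm (w d), mul_assoc, ← map_mul w d]
      exact mul_le_mul_right (le_max_right _ _) _
  · rw [map_mul, hd, ← map_mul]
    exact le_max_right _ _

/-- Two triangular norms on `F²` which agree on the test vectors `(1,0)`, `(-b,a)`, `(-b',a')`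
agree everywhere: `w a' = w a`, `w d' = w d`, `w (a b' - a' b) ≤ w a * w d`. -/
theorem norm2_congr (a b d a' b' d' : F) (ha : a ≠ 0) (ha' : a' ≠ 0)
    (h1 : w a' = w a)
    (h2 : max (w (a' * -b + b' * a)) (w (d' * a)) = w (d * a))
    (h3 : max (w (a * -b' + b * a')) (w (d * a')) = w (d' * a')) (α β : F) :
    max (w (a' * α + b' * β)) (w (d' * β)) = max (w (a * α + b * β)) (w (d * β)) := by
  have hw : 0 < w a := (Valuation.pos_iff w).2 ha
  have hw' : 0 < w a' := (Valuation.pos_iff w).2 ha'
  have hd : w d' = w d := by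
    refine le_antisymm ?_ ?_
    · have := (le_max_right _ _).trans h2.le
      rw [map_mul, map_mul] at this
      exact le_of_mul_le_mul_right this hw
    · have := (le_max_right _ _).trans h3.le
      rw [map_mul, map_mul] at this
      exact le_of_mul_le_mul_right this hw'
  exact le_antisymm
    (gauss_norm2_le w a b d a' b' d' ha h1 hd ((le_max_left _ _).trans h2.le) α β)
    (gauss_norm2_le w a' b' d' a b d ha' h1.symm hd.symm ((le_max_left _ _).trans h3.le) α β)

/-- Equal norms on linear forms give equal norms on forms of degree `m`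
(`exists_factor`, `vn_symM`). -/
theorem vn_symM_congr [IsAlgClosed F] (m : ℕ) (a b d a' b' d' : F) (ha : a ≠ 0) (ha' : a' ≠ 0)
    (h : ∀ α β : F,
      max (w (a' * α + b' * β)) (w (d' * β)) = max (w (a * α + b * β)) (w (d * β)))
    (f : Fin (m + 1) → F) : vn w (symM m a' b' d' *ᵥ f) = vn w (symM m a b d *ᵥ f) := by
  by_cases hf : f = 0
  · rw [hf, mulVec_zero, mulVec_zero]
  · obtain ⟨c, α, β, -, -, e⟩ := exists_factor m f hf
    rw [vn_symM w m a' b' d' ha' f c α β e, vn_symM w m a b d ha f c α β e]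
    simp only [h]

end Crest.Agent.R169.TT
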