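import Crest.Agent.R169.TTFlag

/-!
# Row 169, part TT: an upper bound for spaces of sections of tensor products.
-/

set_option autoImplicit false

namespace Crest.Agent.R169.TT

open Matrix
open scoped NNReal

variable {k K : Type} [Field k] [Field K] [Algebra k K] {Pl : Places k K}

/-- Degrees of the standard flag. -/
noncomputable def NB.fd {ι : Type} [Fintype ι] [DecidableEq ι] (V : NB Pl ι) (i : ℕ) : ℝ :=
  V.mdeg (fc (e0 ι (Om K)) (i + 1)) - V.mdeg (fc (e0 ι (Om K)) i)

/-- A constant of the bundle. -/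
noncomputable def NB.spread {ι : Type} [Fintype ι] [DecidableEq ι] (V : NB Pl ι) : ℝ :=
  ∑ i ∈ Finset.range (Fintype.card ι), |V.fd i - V.deg / Fintype.card ι|

theorem fc_e0_map {ι : Type} [Fintype ι] (s : ℕ) :
    (fc (e0 ι K) s).map (alg K) = fc (e0 ι (Om K)) s := by
  ext r j
  simp only [fc, e0, map_apply, of_apply]
  split_ifs <;> simp

/-- Telescoping. -/
theorem NB.sum_fd {ι : Type} [Fintype ι] [DecidableEq ι] (V : NB Pl ι) :
    ∑ i ∈ Finset.range (Fintype.card ι), V.fd i = V.deg := by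
  simp only [NB.fd]
  rw [Finset.sum_range_sub (fun i => V.mdeg (fc (e0 ι (Om K)) i)), V.mdeg_zero_col, sub_zero,
    ← fc_e0_map, V.mdeg_full (Fintype.equivFin ι).symm _ (indep_e0 K)]

theorem Places.v_zpow' (p : Pl.P) (x : K) (hx : x ≠ 0) (n : ℤ) : Pl.v p (x ^ n) = n * Pl.v p x := by
  have h1 := Pl.w_alg p (x ^ n) (zpow_ne_zero _ hx)
  rw [map_zpow₀, map_zpow₀, Pl.w_alg p x hx] at h1
  have h2 := congrArg nl h1
  rw [nl_ex, nl, NNReal.coe_zpow, Real.log_zpow, coe_ex, Real.log_exp] at h2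
  have : ((Pl.v p (x ^ n) : ℤ) : ℝ) = ((n * Pl.v p x : ℤ) : ℝ) := by
    push_cast
    linarith
  exact_mod_cast this

theorem exists_deep (n : ℕ) (c : ℤ) (W : Submodule k K) [FiniteDimensional k W]
    (hW : ∀ y ∈ W, y ≠ 0 → c ≤ Pl.v Pl.inf y) (hn : n + 1 ≤ Module.finrank k W) :
    ∃ y ∈ W, y ≠ 0 ∧ c + n ≤ Pl.v Pl.inf y := by
  induction n generalizing c W with
  | zero =>
    have : W ≠ ⊥ := by
      rintro rfl
      simp at hn
    obtain ⟨y, hy, hy0⟩ := (Submodule.ne_bot_iff W).1 this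
    exact ⟨y, hy, hy0, by simpa using hW y hy hy0⟩
  | succ n ih =>
    have hτ : Pl.τ ^ c ≠ 0 := zpow_ne_zero _ Pl.τ_ne
    have hv : ∀ y, y ≠ 0 → Pl.v Pl.inf (Pl.τ ^ c * y) = -c + Pl.v Pl.inf y := by
      intro y hy
      rw [Pl.v_mul _ _ _ hτ hy, Places.v_zpow' _ _ Pl.τ_ne, Pl.v_inf]
      ring
    obtain ⟨A, hA, hr, hA'⟩ := Pl.codim_one Pl.inf W (LinearMap.mulLeft k (Pl.τ ^ c)) (by
      intro y hy h0
      have hy0 : y ≠ 0 := by rintro rfl; simp at h0
      have := hW y hy hy0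
      rw [LinearMap.mulLeft_apply, hv y hy0]
      omega)
    have : FiniteDimensional k A := Submodule.finiteDimensional_of_le hA
    rw [Pl.d_inf] at hr
    obtain ⟨y, hy, hy0, h⟩ := ih (c + 1) A (fun y hy hy0 => by
      have := hA' y hy (mul_ne_zero hτ hy0)
      rw [LinearMap.mulLeft_apply, hv y hy0] at this
      omega) (by omega)
    exact ⟨y, hA hy, hy0, by push_cast; omega⟩

/-- Line bundles. -/
theorem h0_line (t : Pl.P → ℝ) (ht : (Function.support t).Finite) (W : Submodule k K)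
    [FiniteDimensional k W] (hW : ∀ y ∈ W, y ≠ 0 → ∀ p, -t p ≤ Pl.v p y) :
    (Module.finrank k W : ℝ) ≤ max 0 (Pl.dgR t + 1) := by
  classical
  rcases Nat.eq_zero_or_eq_succ_pred (Module.finrank k W) with h | h
  · simp [h]
  set n := (Module.finrank k W).pred
  obtain ⟨y, hy, hy0, hv⟩ := exists_deep (Pl := Pl) n ⌈-t Pl.inf⌉ W
    (fun y hy hy0 => Int.ceil_le.2 (hW y hy hy0 _)) h.ge
  have hs : (Function.support fun p : Pl.P => if p = Pl.inf then (n : ℝ) else 0).Finite :=
    (Set.finite_singleton Pl.inf).subset fun p hp => by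
      by_contra h
      exact hp (if_neg h)
  have hvf : (Function.support fun p => (Pl.v p y : ℝ)).Finite :=
    (Pl.fin y hy0).subset fun p hp => by simpa using hp
  have h1 := Pl.dgR_mono _ _ (supp_sub hs ht) hvf fun p => by
    split_ifs with hp
    · subst hp
      have h2 : ((⌈-t Pl.inf⌉ + n : ℤ) : ℝ) ≤ (Pl.v Pl.inf y : ℝ) := by exact_mod_cast hv
      push_cast at h2
      linarith [Int.le_ceil (-t Pl.inf)]
    · simpa using hW y hy hy0 p
  rw [Pl.dgR_sub _ _ hs ht, Pl.dgR_v y hy0,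
    Pl.dgR_eq_sum _ {Pl.inf} fun p hp => if_neg (by simpa using hp)] at h1
  simp only [Finset.sum_singleton, Pl.d_inf, if_true, Nat.cast_one, one_mul] at h1
  rw [h]
  push_cast
  exact le_max_of_le_right (by linarith)

theorem tensM_e0_mulVec {F : Type} [Field F] {J : Type} [Fintype J] [DecidableEq J] {ι : J → Type}
    [∀ j, Fintype (ι j)] (x : (∀ j, ι j) → F) :
    tensM (fun j => fc (e0 (ι j) F) (Fintype.card (ι j))) *ᵥ
      (fun I => x fun j => (Fintype.equivFin (ι j)).symm (I j)) = x := by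
  funext i
  simp only [mulVec, dotProduct, tensM, fc, e0, of_apply]
  rw [Finset.sum_eq_single fun j => Fintype.equivFin (ι j) (i j)]
  · simp
  · intro I _ hI
    obtain ⟨j, hj⟩ := Function.ne_iff.1 hI
    rw [Finset.prod_eq_zero (Finset.mem_univ j) (if_neg fun h => hj (Fin.ext h).symm), zero_mul]
  · simp

theorem lead_v {J : Type} [Fintype J] [DecidableEq J] {ι : J → Type}
    [∀ j, Fintype (ι j)] [∀ j, DecidableEq (ι j)] (V : ∀ j, NB Pl (ι j)) (p : Pl.P) (t : ℚ)
    (x : (∀ j, ι j) → K) (hx : (NB.tens V).Ge p x t) (I : ∀ j, Fin (Fintype.card (ι j)))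
    (h0 : x (fun j => (Fintype.equivFin (ι j)).symm (I j)) ≠ 0)
    (hI : ∀ I' : ∀ j, Fin (Fintype.card (ι j)),
      x (fun j => (Fintype.equivFin (ι j)).symm (I' j)) ≠ 0 → (∀ j, I j ≤ I' j) → I' = I) :
    (t : ℝ) - ∑ j, ((V j).ld p (fc (e0 (ι j) (Om K)) (I j + 1)) -
      (V j).ld p (fc (e0 (ι j) (Om K)) (I j))) ≤
      Pl.v p (x fun j => (Fintype.equivFin (ι j)).symm (I j)) := by
  have h := lead_lp V p (fun j => Fintype.card (ι j)) (fun j => e0 (ι j) (Om K))
    (fun j => indep_e0 _) (fun I => (alg K ∘ x) fun j => (Fintype.equivFin (ι j)).symm (I j)) I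
    (fun I' h1 h2 => hI I' (by simpa using h1) h2)
  rw [tensM_e0_mulVec] at h
  have h1 := h.trans (mul_le_mul_left (((NB.tens V).Ge_iff p x t).1 hx) _)
  have hne : ∀ j s, s ≤ Fintype.card (ι j) → (V j).lp p (fc (e0 (ι j) (Om K)) s) ≠ 0 :=
    fun j s hs => (V j).lp_ne_zero p _ (indep_fc_mono _ hs (indep_e0 _))
  have hld : ∀ j s, (V j).ld p (fc (e0 (ι j) (Om K)) s) =
      nl ((V j).lp p (fc (e0 (ι j) (Om K)) s)) := by
    intro j s
    rw [← fc_e0_map, NB.ld_alg]
  have a1 : ∀ j ∈ (Finset.univ : Finset J), (V j).lp p (fc (e0 (ι j) (Om K)) (I j + 1)) ≠ 0 :=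
    fun j _ => hne j _ (I j).2
  have a2 : ∀ j ∈ (Finset.univ : Finset J), (V j).lp p (fc (e0 (ι j) (Om K)) (I j)) ≠ 0 :=
    fun j _ => hne j _ (I j).2.le
  rw [Function.comp_apply, Pl.w_alg p _ h0] at h1
  have h2 := nl_le_nl (mul_ne_zero (ex_ne _) (Finset.prod_ne_zero_iff.2 a1)) h1
  rw [nl_mul (ex_ne _) (Finset.prod_ne_zero_iff.2 a1),
    nl_mul (ex_ne _) (Finset.prod_ne_zero_iff.2 a2), nl_ex, nl_ex, nl_prod _ _ a1,
    nl_prod _ _ a2] at h2
  simp only [hld, Finset.sum_sub_distrib]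
  linarith only [h2]

/-- Filtration by leading coordinates. -/
theorem h0_le {J : Type} [Fintype J] [DecidableEq J] {ι : J → Type}
    [∀ j, Fintype (ι j)] [∀ j, DecidableEq (ι j)] (V : ∀ j, NB Pl (ι j))
    (b : Pl.P → ℚ) (hb : (Function.support b).Finite) (W : Submodule k ((∀ j, ι j) → K))
    [FiniteDimensional k W] (hW : ∀ x ∈ W, ∀ p, (NB.tens V).Ge p x (-b p)) :
    (Module.finrank k W : ℝ) ≤
      ∑ I : ∀ j, Fin (Fintype.card (ι j)), max 0 (∑ j, (V j).fd (I j) + Pl.dg b + 1) := by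
  classical
  have key : ∀ T : Finset (∀ j, Fin (Fintype.card (ι j))),
      ∀ (W : Submodule k ((∀ j, ι j) → K)) [FiniteDimensional k W],
      (∀ x ∈ W, ∀ p, (NB.tens V).Ge p x (-b p)) →
      (∀ x ∈ W, ∀ I, I ∉ T → x (fun j => (Fintype.equivFin (ι j)).symm (I j)) = 0) →
      (Module.finrank k W : ℝ) ≤ ∑ I ∈ T, max 0 (∑ j, (V j).fd (I j) + Pl.dg b + 1) := by
    intro T
    induction T using Finset.induction_on_max_value
      fun I : ∀ j, Fin (Fintype.card (ι j)) => ∑ j, (I j : ℕ) with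
    | empty =>
      intro W _ _ h
      have : W = ⊥ := by
        refine (Submodule.eq_bot_iff W).2 fun x hx => funext fun i => ?_
        simpa using h x hx (fun j => Fintype.equivFin (ι j) (i j)) (by simp)
      simp [this]
    | insert I T hIT hmax ih =>
      intro W _ hW h
      let φ : ((∀ j, ι j) → K) →ₗ[k] K :=
        LinearMap.proj fun j => (Fintype.equivFin (ι j)).symm (I j)
      have hr := LinearMap.finrank_range_add_finrank_ker (φ.domRestrict W)
      rw [← Submodule.finrank_map_subtype_eq W (LinearMap.ker (φ.domRestrict W))] at hr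
      have h1 := ih ((LinearMap.ker (φ.domRestrict W)).map W.subtype)
        (by rintro _ ⟨x, -, rfl⟩; exact hW x x.2)
        (by
          rintro _ ⟨x, hx, rfl⟩ I' hI'
          by_cases e : I' = I
          · subst e; exact hx
          · exact h x x.2 I' (by simp [e, hI']))
      have hfin : ∀ j s, s ≤ Fintype.card (ι j) →
          (Function.support fun p => (V j).ld p (fc (e0 (ι j) (Om K)) s)).Finite :=
        fun j s hs => (V j).ld_fin _ (indep_fc_mono _ hs (indep_e0 _))
      have hb' : (Function.support fun p => (b p : ℝ)).Finite :=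
        hb.subset fun p hp => by simpa using hp
      have hs : ∀ j ∈ (Finset.univ : Finset J), (Function.support fun p =>
          (V j).ld p (fc (e0 (ι j) (Om K)) (I j + 1)) -
            (V j).ld p (fc (e0 (ι j) (Om K)) (I j))).Finite :=
        fun j _ => supp_sub (hfin j _ (I j).2) (hfin j _ (I j).2.le)
      have h2 := h0_line (Pl := Pl) _ (supp_add (supp_sum _ hs) hb')
        (LinearMap.range (φ.domRestrict W)) (by
          rintro _ ⟨x, rfl⟩ h0 p
          have := lead_v V p (-b p) x (hW x x.2 p) I h0 (fun I' h1 h2 => by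
            have hm : I' ∈ insert I T := by
              by_contra hc
              exact h1 (h x x.2 I' hc)
            rcases Finset.mem_insert.1 hm with e | e
            · exact e
            · have h3 := hmax I' e
              have h4 := (Finset.sum_eq_sum_iff_of_le (s := Finset.univ)
                (f := fun j => (I j : ℕ)) (g := fun j => (I' j : ℕ)) fun j _ => h2 j).1
                (le_antisymm (Finset.sum_le_sum fun j _ => h2 j) h3)
              exact funext fun j => Fin.ext (h4 j (Finset.mem_univ j)).symm)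
          push_cast at this
          refine le_trans (le_of_eq ?_) this
          ring)
      rw [Pl.dgR_add _ _ (supp_sum _ hs) hb', Pl.dgR_sum _ _ hs, Pl.dgR_cast b hb] at h2
      simp only [fun j => Pl.dgR_sub _ _ (hfin j _ (I j).2) (hfin j _ (I j).2.le)] at h2
      rw [Finset.sum_insert hIT, ← hr, Nat.cast_add]
      exact add_le_add h2 h1
  exact key Finset.univ W hW fun x _ I hI => (hI (Finset.mem_univ I)).elim

theorem sum_mixed_zero {J : Type} [Fintype J] [DecidableEq J] (n : J → ℕ)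
    (η : ∀ j, Fin (n j) → ℝ) (h0 : ∀ j, ∑ i, η j i = 0) (a c : J) (hac : a ≠ c) :
    ∑ I : ∀ j, Fin (n j), η a (I a) * η c (I c) = 0 := by
  let g : ∀ j, Fin (n j) → ℝ := fun j i => if j = a ∨ j = c then η j i else 1
  have h1 : ∀ I : ∀ j, Fin (n j), η a (I a) * η c (I c) = ∏ j, g j (I j) := by
    intro I
    rw [← Finset.prod_subset (Finset.subset_univ {a, c}), Finset.prod_pair hac]
    · simp [g]
    · intro j _ hj
      simp only [Finset.mem_insert, Finset.mem_singleton] at hj
      simp [g, hj]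
  simp only [h1]
  rw [← Fintype.piFinset_univ, ← Finset.prod_univ_sum]
  exact Finset.prod_eq_zero (Finset.mem_univ a) (by simp [g, h0])

/-- Second moment and Cauchy–Schwarz. -/
theorem sum_abs_le {J : Type} [Fintype J] [DecidableEq J] (n : J → ℕ) (η : ∀ j, Fin (n j) → ℝ)
    (B : ℝ) (hB0 : 0 ≤ B) (h0 : ∀ j, ∑ i, η j i = 0) (hB : ∀ j i, |η j i| ≤ B) :
    ∑ I : ∀ j, Fin (n j), |∑ j, η j (I j)| ≤ (∏ j, (n j : ℝ)) * (B * √(Fintype.card J)) := by
  have hcard : (Fintype.card (∀ j, Fin (n j)) : ℝ) = ∏ j, (n j : ℝ) := by simp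
  set N : ℝ := ∏ j, (n j : ℝ)
  have hN : 0 ≤ N := by rw [← hcard]; positivity
  have h1 : ∑ I : ∀ j, Fin (n j), |∑ j, η j (I j)| ^ 2 ≤ N * (Fintype.card J * B ^ 2) := by
    simp only [sq, abs_mul_abs_self, Finset.sum_mul_sum]
    rw [Finset.sum_comm]
    have : ∀ a, ∑ I : ∀ j, Fin (n j), ∑ c, η a (I a) * η c (I c) ≤ N * (B * B) := by
      intro a
      rw [Finset.sum_comm, Finset.sum_eq_single a
        (fun c _ hc => sum_mixed_zero n η h0 a c hc.symm) (by simp), ← hcard]
      refine (Finset.sum_le_card_nsmul _ _ (B * B) fun I _ => ?_).trans (by simp)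
      rw [← abs_mul_abs_self]
      exact mul_self_le_mul_self (abs_nonneg _) (hB _ _)
    refine (Finset.sum_le_card_nsmul _ _ _ fun a _ => this a).trans (le_of_eq ?_)
    simp only [Finset.card_univ, nsmul_eq_mul]
    ring
  have h2 := sq_sum_le_card_mul_sum_sq (s := Finset.univ)
    (f := fun I : ∀ j, Fin (n j) => |∑ j, η j (I j)|)
  rw [Finset.card_univ, hcard] at h2
  refine le_of_sq_le_sq (h2.trans ((mul_le_mul_of_nonneg_left h1 hN).trans (le_of_eq ?_)))
    (by positivity)
  rw [mul_pow, mul_pow, Real.sq_sqrt (by positivity)]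
  ring

/-- **Bound for sections.** -/
theorem h0_bound {J : Type} [Fintype J] [DecidableEq J] {ι : J → Type}
    [∀ j, Fintype (ι j)] [∀ j, DecidableEq (ι j)] (V : ∀ j, NB Pl (ι j)) (B : ℝ) (hB0 : 0 ≤ B)
    (hB : ∀ j, (V j).spread ≤ B) (b : Pl.P → ℚ) (hb : (Function.support b).Finite)
    (W : Submodule k ((∀ j, ι j) → K)) [FiniteDimensional k W]
    (hW : ∀ x ∈ W, ∀ p, (NB.tens V).Ge p x (-b p)) :
    (Module.finrank k W : ℝ) ≤ (∏ j, (Fintype.card (ι j) : ℝ)) *
      (max 0 (∑ j, ((V j).deg : ℝ) / Fintype.card (ι j) + Pl.dg b + 1) +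
        B * √(Fintype.card J)) := by
  let η : ∀ j, Fin (Fintype.card (ι j)) → ℝ := fun j i =>
    (V j).fd i - (V j).deg / Fintype.card (ι j)
  have h0 : ∀ j, ∑ i, η j i = 0 := by
    intro j
    rcases Nat.eq_zero_or_pos (Fintype.card (ι j)) with h | h
    · exact Finset.sum_eq_zero fun i _ => absurd i.2 (by omega)
    · have : (Fintype.card (ι j) : ℝ) ≠ 0 := by positivity
      simp only [η, Finset.sum_sub_distrib, Fin.sum_univ_eq_sum_range (fun i => (V j).fd i),
        NB.sum_fd, Finset.sum_const, Finset.card_univ, Fintype.card_fin, nsmul_eq_mul]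
      field_simp
      ring
  have h1 : ∀ j i, |η j i| ≤ B := fun j i =>
    (Finset.single_le_sum (f := fun i => |(V j).fd i - (V j).deg / Fintype.card (ι j)|)
      (fun _ _ => abs_nonneg _) (Finset.mem_range.2 i.2)).trans (hB j)
  have h2 := sum_abs_le _ η B hB0 h0 h1
  refine (h0_le V b hb W hW).trans ?_
  rw [mul_add]
  refine le_trans ?_ (add_le_add le_rfl h2)
  have hcard : (∏ j, (Fintype.card (ι j) : ℝ)) =
      (Finset.univ : Finset (∀ j, Fin (Fintype.card (ι j)))).card := by simp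
  rw [hcard, ← nsmul_eq_mul, ← Finset.sum_const, ← Finset.sum_add_distrib]
  refine Finset.sum_le_sum fun I _ => max_le (by positivity) ?_
  have h3 := le_max_right 0 (∑ j, ((V j).deg : ℝ) / Fintype.card (ι j) + Pl.dg b + 1)
  have h4 := le_abs_self (∑ j, η j (I j))
  simp only [η, Finset.sum_sub_distrib] at h4 ⊢
  linarith only [h3, h4]

end Crest.Agent.R169.TT
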