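import Crest.Agent.R169.TTLocDefs

/-!
# Row 169, part TT: basic properties of `vn` and `pn`.
-/

set_option autoImplicit false

namespace Crest.Agent.R169.TT

open Matrix
open scoped NNReal

variable {F : Type} [Field F] (w : Valuation F ℝ≥0)

theorem locA_sign {κ : Type} [Fintype κ] [DecidableEq κ] (σ : Equiv.Perm κ) :
    w ((Equiv.Perm.sign σ : ℤ) : F) = 1 := by
  rcases Int.units_eq_one_or (Equiv.Perm.sign σ) with h | h <;> simp [h]

theorem locA_det_le {κ : Type} [Fintype κ] [DecidableEq κ] (U : Matrix κ κ F) (c : κ → ℝ≥0)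
    (h : ∀ i j, w (U i j) ≤ c j) : w U.det ≤ ∏ j, c j := by
  rw [det_apply']
  refine w.map_sum_le fun σ _ => ?_
  rw [map_mul, locA_sign, one_mul, map_prod]
  exact Finset.prod_le_prod' fun j _ => h _ j

theorem locA_snoc_transpose {R ι : Type} {s : ℕ} (A : Matrix ι (Fin s) R) (x : ι → R) :
    (snoc A x)ᵀ = Fin.snoc (α := fun _ => ι → R) Aᵀ x := by
  ext j r
  refine Fin.lastCases ?_ (fun j => ?_) j <;> simp [snoc]

theorem le_vn {κ : Type} [Fintype κ] (z : κ → F) (i : κ) : w (z i) ≤ vn w z := by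
  exact Finset.le_sup (f := fun i => w (z i)) (Finset.mem_univ i)

theorem vn_le_iff {κ : Type} [Fintype κ] (z : κ → F) (C : ℝ≥0) :
    vn w z ≤ C ↔ ∀ i, w (z i) ≤ C := by
  simp [vn, Finset.sup_le_iff]

theorem vn_eq_zero {κ : Type} [Fintype κ] (z : κ → F) : vn w z = 0 ↔ z = 0 := by
  rw [← nonpos_iff_eq_zero, vn_le_iff]
  simp only [nonpos_iff_eq_zero, Valuation.zero_iff]
  exact funext_iff.symm

theorem vn_smul {κ : Type} [Fintype κ] (c : F) (z : κ → F) : vn w (c • z) = w c * vn w z := by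
  unfold vn
  rw [NNReal.mul_finset_sup]
  simp only [Pi.smul_apply, smul_eq_mul, map_mul]

theorem vn_add_le {κ : Type} [Fintype κ] (z z' : κ → F) :
    vn w (z + z') ≤ max (vn w z) (vn w z') := by
  rw [vn_le_iff]
  exact fun i => (w.map_add _ _).trans (max_le_max (le_vn w z i) (le_vn w z' i))

/-- Use `Valuation.map_sum_le`. -/
theorem vn_sum_le {κ α : Type} [Fintype κ] (s : Finset α) (z : α → κ → F) (C : ℝ≥0)
    (h : ∀ a ∈ s, vn w (z a) ≤ C) : vn w (∑ a ∈ s, z a) ≤ C := by
  rw [vn_le_iff]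
  intro i
  rw [Finset.sum_apply]
  exact w.map_sum_le fun a ha => (le_vn w _ i).trans (h a ha)

theorem vn_mulVec_le {κ κ' : Type} [Fintype κ] [Fintype κ'] (U : Matrix κ' κ F) (C : ℝ≥0)
    (hU : ∀ i j, w (U i j) ≤ C) (z : κ → F) : vn w (U *ᵥ z) ≤ C * vn w z := by
  rw [vn_le_iff]
  intro i
  refine w.map_sum_le fun j _ => ?_
  rw [map_mul]
  exact mul_le_mul' (hU i j) (le_vn w z j)

/-- A matrix with entries bounded by `C` has determinant bounded by `C ^ card`. -/
theorem det_le_pow {κ : Type} [Fintype κ] [DecidableEq κ] (U : Matrix κ κ F) (C : ℝ≥0)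
    (hU : ∀ i j, w (U i j) ≤ C) : w U.det ≤ C ^ Fintype.card κ := by
  rw [← Finset.card_univ, ← Finset.prod_const]
  exact locA_det_le w U _ fun i j => hU i j

/-- Hadamard: expand the determinant with `Matrix.det_apply`. -/
theorem det_le_prod_vn {κ : Type} [Fintype κ] [DecidableEq κ] (U : Matrix κ κ F) :
    w U.det ≤ ∏ j, vn w (Uᵀ j) := by
  exact locA_det_le w U _ fun i j => le_vn w (Uᵀ j) i

theorem le_pn {ι : Type} [Fintype ι] {s : ℕ} (Y : Matrix ι (Fin s) F) (I : Fin s → ι) :
    w (Y.submatrix I id).det ≤ pn w Y := by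
  exact Finset.le_sup (f := fun I : Fin s → ι => w (Y.submatrix I id).det) (Finset.mem_univ I)

theorem pn_le_iff {ι : Type} [Fintype ι] {s : ℕ} (Y : Matrix ι (Fin s) F) (C : ℝ≥0) :
    pn w Y ≤ C ↔ ∀ I : Fin s → ι, w (Y.submatrix I id).det ≤ C := by
  simp [pn, Finset.sup_le_iff]

/-- Cauchy–Binet in function-indexed form: `det` is multilinear in the rows
(`Matrix.detRowAlternating`, `MultilinearMap.map_sum`, `MultilinearMap.map_smul_univ`). -/
theorem det_submatrix_mul {R ι ι' : Type} [CommRing R] [Fintype ι] {s : ℕ} (U : Matrix ι' ι R)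
    (Y : Matrix ι (Fin s) R) (I : Fin s → ι') :
    ((U * Y).submatrix I id).det =
      ∑ J : Fin s → ι, (∏ j, U (I j) (J j)) * (Y.submatrix J id).det := by
  have h1 : (U * Y).submatrix I id = fun i => ∑ k, U (I i) k • Y k := by
    ext i j
    simp [Matrix.mul_apply, Finset.sum_apply]
  classical
  rw [h1]
  refine ((detRowAlternating : (Fin s → R) [⋀^Fin s]→ₗ[R] R).toMultilinearMap.map_sum
    (fun i k => U (I i) k • Y k)).trans (Finset.sum_congr rfl fun J _ => ?_)
  exact (detRowAlternating : (Fin s → R) [⋀^Fin s]→ₗ[R] R).toMultilinearMap.map_smul_univ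
    (fun i => U (I i) (J i)) (fun i => Y (J i))

theorem pn_mul_le {ι ι' : Type} [Fintype ι] [Fintype ι'] {s : ℕ} (U : Matrix ι' ι F) (C : ℝ≥0)
    (hU : ∀ i j, w (U i j) ≤ C) (Y : Matrix ι (Fin s) F) : pn w (U * Y) ≤ C ^ s * pn w Y := by
  rw [pn_le_iff]
  intro I
  rw [det_submatrix_mul]
  refine w.map_sum_le fun J _ => ?_
  rw [map_mul, map_prod]
  refine mul_le_mul' ?_ (le_pn w Y J)
  refine (Finset.prod_le_prod' fun j _ => hU (I j) (J j)).trans (le_of_eq ?_)
  simp

/-- An integral matrix with an integral left inverse preserves `pn`. -/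
theorem pn_mul_of_leftInv {ι ι' : Type} [Fintype ι] [Fintype ι'] [DecidableEq ι] {s : ℕ}
    (U : Matrix ι' ι F) (U' : Matrix ι ι' F) (hU : ∀ i j, w (U i j) ≤ 1)
    (hU' : ∀ i j, w (U' i j) ≤ 1) (h : U' * U = 1) (Y : Matrix ι (Fin s) F) :
    pn w (U * Y) = pn w Y := by
  have h1 := pn_mul_le w U 1 hU Y
  have h2 := pn_mul_le w U' 1 hU' (U * Y)
  rw [← Matrix.mul_assoc, h, Matrix.one_mul] at h2
  rw [one_pow, one_mul] at h1 h2
  exact le_antisymm h1 h2

theorem vn_mulVec_of_leftInv {ι ι' : Type} [Fintype ι] [Fintype ι'] [DecidableEq ι]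
    (U : Matrix ι' ι F) (U' : Matrix ι ι' F) (hU : ∀ i j, w (U i j) ≤ 1)
    (hU' : ∀ i j, w (U' i j) ≤ 1) (h : U' * U = 1) (z : ι → F) :
    vn w (U *ᵥ z) = vn w z := by
  have h1 := vn_mulVec_le w U 1 hU z
  have h2 := vn_mulVec_le w U' 1 hU' (U *ᵥ z)
  rw [mulVec_mulVec, h, one_mulVec] at h2
  rw [one_mul] at h1 h2
  exact le_antisymm h1 h2

theorem pn_mul_right {ι : Type} [Fintype ι] {s : ℕ} (Y : Matrix ι (Fin s) F)
    (B : Matrix (Fin s) (Fin s) F) : pn w (Y * B) = pn w Y * w B.det := by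
  unfold pn
  rw [NNReal.finset_sup_mul]
  congr 1
  funext I
  rw [← map_mul, ← det_mul]
  rfl

/-- For a square matrix every `I` is either non injective (two equal rows) or a permutation. -/
theorem pn_square {s : ℕ} (B : Matrix (Fin s) (Fin s) F) : pn w B = w B.det := by
  refine le_antisymm ((pn_le_iff w B _).2 fun I => ?_) (le_pn w B id)
  by_cases hI : Function.Injective I
  · have h1 := det_permute (Equiv.ofBijective I (Finite.injective_iff_bijective.1 hI)) B
    rw [show B.submatrix I id = B.submatrix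
      (Equiv.ofBijective I (Finite.injective_iff_bijective.1 hI)) id from rfl, h1, map_mul,
      locA_sign, one_mul]
  · obtain ⟨i, j, h1, h2⟩ := Function.not_injective_iff.1 hI
    rw [det_zero_of_row_eq h2 (by ext k; simp [h1]), map_zero]
    exact zero_le

/-- The same with the rows indexed by any type of the right size. -/
theorem pn_square' {ι : Type} [Fintype ι] {s : ℕ} (e : Fin s ≃ ι) (B : Matrix ι (Fin s) F) :
    pn w B = w (B.submatrix e id).det := by
  rw [← pn_square]
  refine le_antisymm ((pn_le_iff w _ _).2 fun I => ?_) ((pn_le_iff w _ _).2 fun I => ?_)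
  · refine le_trans (le_of_eq ?_) (le_pn w (B.submatrix e id) (e.symm ∘ I))
    congr 2
    ext i j
    simp
  · exact le_pn w B (e ∘ I)

/-- Independent columns have a nonzero maximal minor (row rank = column rank; or induct with
`Matrix.exists_mulVec_eq_zero_iff`; e.g. `Y` has a left inverse `Z`, apply `det_submatrix_mul` to
`Z * Y = 1`). -/
theorem exists_minor_ne {ι : Type} [Fintype ι] {s : ℕ} (Y : Matrix ι (Fin s) F)
    (h : LinearIndependent F Yᵀ) : ∃ I : Fin s → ι, (Y.submatrix I id).det ≠ 0 := by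
  classical
  have hinj : LinearMap.ker (Matrix.toLin' Y) = ⊥ :=
    LinearMap.ker_eq_bot.2 (Matrix.mulVec_injective_iff.2 h)
  obtain ⟨g, hg⟩ := LinearMap.exists_leftInverse_of_injective _ hinj
  have h1 : LinearMap.toMatrix' g * Y = 1 := by
    rw [← LinearMap.toMatrix'_toLin' Y, ← LinearMap.toMatrix'_comp, hg, LinearMap.toMatrix'_id]
  have h2 := det_submatrix_mul (LinearMap.toMatrix' g) Y id
  rw [h1, submatrix_id_id, det_one] at h2
  by_contra hne
  push Not at hne
  simp [hne] at h2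

theorem indep_of_minor_ne {ι : Type} [Fintype ι] {s : ℕ} (Y : Matrix ι (Fin s) F)
    (I : Fin s → ι) (h : (Y.submatrix I id).det ≠ 0) : LinearIndependent F Yᵀ := by
  have h1 : Function.Injective (Y.submatrix I id).mulVec :=
    mulVec_injective_iff_isUnit.2 ((isUnit_iff_isUnit_det _).2 (Ne.isUnit h))
  refine Matrix.mulVec_injective_iff.1 fun x y hxy => h1 ?_
  funext i
  exact congrFun hxy (I i)

theorem pn_ne_zero_iff {ι : Type} [Fintype ι] {s : ℕ} (Y : Matrix ι (Fin s) F) :
    pn w Y ≠ 0 ↔ LinearIndependent F Yᵀ := by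
  constructor
  · intro h
    by_contra hn
    refine h (nonpos_iff_eq_zero.1 ((pn_le_iff w Y 0).2 fun I => le_of_eq ?_))
    by_contra h0
    exact hn (indep_of_minor_ne Y I (w.ne_zero_iff.1 h0))
  · intro h h0
    obtain ⟨I, hI⟩ := exists_minor_ne Y h
    have h1 := le_pn w Y I
    rw [h0, nonpos_iff_eq_zero] at h1
    exact hI (w.zero_iff.1 h1)

/-- Independence of columns is preserved by an invertible matrix on the left. -/
theorem indep_mul {ι : Type} [Fintype ι] [DecidableEq ι] {s : ℕ} (g : Matrix ι ι F)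
    (hg : g.det ≠ 0) (Y : Matrix ι (Fin s) F) (h : LinearIndependent F Yᵀ) :
    LinearIndependent F (g * Y)ᵀ := by
  have h1 : Function.Injective g.mulVec :=
    mulVec_injective_iff_isUnit.2 ((isUnit_iff_isUnit_det _).2 (Ne.isUnit hg))
  refine Matrix.mulVec_injective_iff.1 fun x y hxy => Matrix.mulVec_injective_iff.2 h (h1 ?_)
  rwa [mulVec_mulVec, mulVec_mulVec]

/-- Independence of columns is preserved by a field embedding (use minors). -/
theorem indep_map {F' : Type} [Field F'] (f : F →+* F') {ι : Type} [Fintype ι] {s : ℕ}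
    (Y : Matrix ι (Fin s) F) (h : LinearIndependent F Yᵀ) :
    LinearIndependent F' (Y.map f)ᵀ := by
  obtain ⟨I, hI⟩ := exists_minor_ne Y h
  refine indep_of_minor_ne _ I ?_
  rw [show (Y.map f).submatrix I id = f.mapMatrix (Y.submatrix I id) from rfl, ← RingHom.map_det]
  exact (map_ne_zero f).2 hI

theorem indep_col1 {ι : Type} (x : ι → F) : LinearIndependent F (col1 x)ᵀ ↔ x ≠ 0 := by
  exact linearIndependent_unique_iff

theorem indep_of_snoc {ι : Type} {s : ℕ} (A : Matrix ι (Fin s) F) (x : ι → F)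
    (h : LinearIndependent F (snoc A x)ᵀ) : LinearIndependent F Aᵀ := by
  rw [locA_snoc_transpose, linearIndependent_finSnoc] at h
  exact h.1

theorem indep_fc_mono {ι : Type} (x : ℕ → ι → F) {s n : ℕ} (hs : s ≤ n)
    (h : LinearIndependent F (fc x n)ᵀ) : LinearIndependent F (fc x s)ᵀ := by
  exact h.comp (Fin.castLE hs) (Fin.castLE_injective hs)

/-- `A, x, y` independent and `(α, β) ≠ 0` give `A, α x + β y` independent. -/
theorem indep_snoc_comb {ι : Type} {s : ℕ} (A : Matrix ι (Fin s) F) (x y : ι → F)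
    (h : LinearIndependent F (snoc (snoc A x) y)ᵀ) (α β : F) (hab : α ≠ 0 ∨ β ≠ 0) :
    LinearIndependent F (snoc A (α • x + β • y))ᵀ := by
  rw [locA_snoc_transpose, linearIndependent_finSnoc, locA_snoc_transpose,
    linearIndependent_finSnoc] at h
  obtain ⟨⟨h1, h2⟩, h3⟩ := h
  rw [locA_snoc_transpose, linearIndependent_finSnoc]
  refine ⟨h1, fun hm => ?_⟩
  by_cases hβ : β = 0
  · have hα : α ≠ 0 := hab.resolve_right (not_not.2 hβ)
    rw [hβ, zero_smul, add_zero] at hm
    exact h2 ((Submodule.smul_mem_iff _ hα).1 hm)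
  · refine h3 ((Submodule.smul_mem_iff _ hβ).1 ?_)
    have hle : Submodule.span F (Set.range Aᵀ) ≤ Submodule.span F
        (Set.range (Fin.snoc (α := fun _ => ι → F) Aᵀ x)) := by
      refine Submodule.span_mono ?_
      rintro _ ⟨j, rfl⟩
      exact ⟨j.castSucc, by simp⟩
    have hx : x ∈ Submodule.span F (Set.range (Fin.snoc (α := fun _ => ι → F) Aᵀ x)) :=
      Submodule.subset_span ⟨Fin.last s, by simp⟩
    have h4 := Submodule.sub_mem _ (hle hm) (Submodule.smul_mem _ α hx)
    rwa [add_sub_cancel_left] at h4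

/-- Hadamard for the Plücker norm. -/
theorem pn_le_prod_vn {ι : Type} [Fintype ι] {s : ℕ} (Y : Matrix ι (Fin s) F) :
    pn w Y ≤ ∏ j, vn w (Yᵀ j) := by
  rw [pn_le_iff]
  exact fun I => locA_det_le w _ _ fun i j => le_vn w (Yᵀ j) (I i)

theorem pn_col1 {ι : Type} [Fintype ι] (x : ι → F) : pn w (col1 x) = vn w x := by
  refine le_antisymm ((pn_le_iff w _ _).2 fun I => ?_) ((vn_le_iff w _ _).2 fun i => ?_)
  · rw [det_unique]
    exact le_vn w x _
  · have h1 := le_pn w (col1 x) fun _ => i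
    rwa [det_unique] at h1

theorem pn_zero_col {ι : Type} [Fintype ι] (Y : Matrix ι (Fin 0) F) : pn w Y = 1 := by
  refine le_antisymm ((pn_le_iff w _ _).2 fun I => ?_) ?_
  · rw [det_isEmpty, map_one]
  · have h1 := le_pn w Y Fin.elim0
    rwa [det_isEmpty, map_one] at h1

/-- Row scaling. -/
theorem det_submatrix_diagonal_mul {R ι : Type} [CommRing R] [Fintype ι] [DecidableEq ι] {s : ℕ}
    (c : ι → R) (Y : Matrix ι (Fin s) R) (I : Fin s → ι) :
    ((diagonal c * Y).submatrix I id).det = (∏ j, c (I j)) * (Y.submatrix I id).det := by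
  rw [← det_mul_column]
  congr 1
  ext i j
  simp

end Crest.Agent.R169.TT
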