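import Crest.Agent.R169.TTDefs

/-!
# Row 169, part TT: local definitions over a valued field (FROZEN, owner helper42).

`w : Valuation F ℝ≥0` is a multiplicative non-archimedean absolute value.
* `vn w z` : sup norm of a vector.
* `pn w Y` : Plücker norm of the columns of `Y` (sup of the maximal minors).
* `snoc A x` : append the column `x`.
* `fc x s` : the matrix of the first `s` vectors of the sequence `x`.
* `Iw w Y` : rectangular Iwasawa decomposition `Y = U * T`.
* `symM m a b d` : the matrix of `f(e₁,e₂) ↦ f(a e₁, b e₁ + d e₂)` on binary forms of degree `m`.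
-/

set_option autoImplicit false

namespace Crest.Agent.R169.TT

open Matrix
open scoped NNReal

variable {F : Type} [Field F]

/-- Sup norm. -/
noncomputable def vn (w : Valuation F ℝ≥0) {κ : Type} [Fintype κ] (z : κ → F) : ℝ≥0 :=
  Finset.univ.sup fun i => w (z i)

/-- Plücker norm. -/
noncomputable def pn (w : Valuation F ℝ≥0) {ι : Type} [Fintype ι] {s : ℕ}
    (Y : Matrix ι (Fin s) F) : ℝ≥0 :=
  Finset.univ.sup fun I : Fin s → ι => w (Y.submatrix I id).det

/-- Append a column. -/
def snoc {R ι : Type} {s : ℕ} (A : Matrix ι (Fin s) R) (x : ι → R) : Matrix ι (Fin (s + 1)) R :=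
  Matrix.of fun r => Fin.snoc (α := fun _ => R) (A r) (x r)

/-- The first `s` vectors of a sequence, as columns. -/
def fc {R ι : Type} (x : ℕ → ι → R) (s : ℕ) : Matrix ι (Fin s) R :=
  Matrix.of fun r j => x j r

/-- A single column. -/
def col1 {R ι : Type} (x : ι → R) : Matrix ι (Fin 1) R := Matrix.of fun r _ => x r

theorem fc_succ {R ι : Type} (x : ℕ → ι → R) (s : ℕ) : fc x (s + 1) = snoc (fc x s) (x s) := by
  ext r j
  refine Fin.lastCases ?_ (fun j => ?_) j <;> simp [fc, snoc]

theorem fc_one {R ι : Type} (x : ℕ → ι → R) : fc x 1 = col1 (x 0) := by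
  ext r j
  simp [fc, col1, Fin.fin_one_eq_zero j]

theorem mul_snoc {R ι ι' : Type} [CommRing R] [Fintype ι] {s : ℕ} (g : Matrix ι' ι R)
    (A : Matrix ι (Fin s) R) (x : ι → R) : g * snoc A x = snoc (g * A) (g *ᵥ x) := by
  ext r j
  refine Fin.lastCases ?_ (fun j => ?_) j <;> simp [snoc, Matrix.mul_apply, mulVec, dotProduct]

theorem map_snoc {R R' ι : Type} {s : ℕ} (f : R → R') (A : Matrix ι (Fin s) R) (x : ι → R) :
    (snoc A x).map f = snoc (A.map f) (f ∘ x) := by
  ext r j
  refine Fin.lastCases ?_ (fun j => ?_) j <;> simp [snoc]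

theorem mul_fc {R ι ι' : Type} [CommRing R] [Fintype ι] (g : Matrix ι' ι R) (x : ℕ → ι → R)
    (s : ℕ) : g * fc x s = fc (fun j => g *ᵥ x j) s := by
  ext r j
  simp [fc, Matrix.mul_apply, mulVec, dotProduct]

theorem map_fc {R R' ι : Type} (f : R → R') (x : ℕ → ι → R) (s : ℕ) :
    (fc x s).map f = fc (fun j => f ∘ x j) s := rfl

theorem mul_col1 {R ι ι' : Type} [CommRing R] [Fintype ι] (g : Matrix ι' ι R) (x : ι → R) :
    g * col1 x = col1 (g *ᵥ x) := by
  ext r j
  simp [col1, Matrix.mul_apply, mulVec, dotProduct]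

/-- Rectangular Iwasawa decomposition: `Y = U * T`, `U` integral with an integral left inverse,
`T` upper triangular with nonzero diagonal. -/
structure Iw (w : Valuation F ℝ≥0) {ι : Type} [Fintype ι] {n : ℕ} (Y : Matrix ι (Fin n) F) where
  U : Matrix ι (Fin n) F
  U' : Matrix (Fin n) ι F
  T : Matrix (Fin n) (Fin n) F
  hU : ∀ i j, w (U i j) ≤ 1
  hU' : ∀ i j, w (U' i j) ≤ 1
  inv : U' * U = 1
  tri : ∀ i j, j < i → T i j = 0
  diag : ∀ i, T i i ≠ 0
  eq : Y = U * T

/-- The matrix of `∑ f_i e₁^(m-i) e₂^i ↦ ∑ f_i (a e₁)^(m-i) (b e₁ + d e₂)^i`. -/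
noncomputable def symM (m : ℕ) (a b d : F) : Matrix (Fin (m + 1)) (Fin (m + 1)) F :=
  Matrix.of fun j i => a ^ (m - (i : ℕ)) *
    ((Polynomial.C b + Polynomial.C d * Polynomial.X) ^ (i : ℕ)).coeff j

end Crest.Agent.R169.TT
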