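import Crest.Agent.R169.TTFlag

/-!
# Row 169, part TT: the tensor product theorem.
-/

set_option autoImplicit false

namespace Crest.Agent.R169.TT

open Matrix
open scoped NNReal

variable {k K : Type} [Field k] [Field K] [Algebra k K] {Pl : Places k K}

theorem main_exists_rightInv {F : Type} [Field F] {ι : Type} [Fintype ι] [DecidableEq ι]
    (A : Matrix ι (Fin (Fintype.card ι)) F) (h : LinearIndependent F Aᵀ) :
    ∃ R : Matrix (Fin (Fintype.card ι)) ι F, A * R = 1 := by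
  let e : Fin (Fintype.card ι) ≃ ι := (Fintype.equivFin ι).symm
  have h1 : Function.Injective (A.submatrix e id).mulVec := by
    intro x y hxy
    refine Matrix.mulVec_injective_iff.2 h ?_
    funext i
    have := congrFun hxy (e.symm i)
    simpa [Matrix.mulVec, dotProduct] using this
  have h2 : IsUnit (A.submatrix e id).det :=
    (isUnit_iff_isUnit_det _).1 (mulVec_injective_iff_isUnit.1 h1)
  refine ⟨(A.submatrix e id)⁻¹.submatrix id e.symm, ?_⟩
  have h3 := Matrix.mul_nonsing_inv _ h2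
  ext i j
  have h4 := congrFun (congrFun h3 (e.symm i)) (e.symm j)
  simpa [Matrix.mul_apply, one_apply] using h4

theorem main_map_tens_mulVec {R R' : Type} [CommRing R] [CommRing R'] (f : R →+* R') {J : Type}
    [Fintype J] [DecidableEq J] {ι κ : J → Type} [∀ j, Fintype (κ j)]
    (g : ∀ j, Matrix (ι j) (κ j) R) (y : (∀ j, κ j) → R) :
    tensM (fun j => (g j).map f) *ᵥ (f ∘ y) = f ∘ (tensM g *ᵥ y) := by
  funext I
  simp [tensM, Matrix.mulVec, dotProduct, map_sum, map_mul, map_prod]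

/-- A square matrix with independent columns has a right inverse `R j`; take
`y = tensM R *ᵥ z` (`tensM_mul`, `tensM_one`); a maximiser of `∑ j, (I j : ℕ)` on the support of
`y` is maximal. -/
theorem exists_lead {F : Type} [Field F] {J : Type} [Fintype J] [DecidableEq J] {ι : J → Type}
    [∀ j, Fintype (ι j)] [∀ j, DecidableEq (ι j)] (x : ∀ j, ℕ → ι j → F)
    (h : ∀ j, LinearIndependent F (fc (x j) (Fintype.card (ι j)))ᵀ)
    (z : (∀ j, ι j) → F) (hz : z ≠ 0) :
    ∃ (y : (∀ j, Fin (Fintype.card (ι j))) → F) (I : ∀ j, Fin (Fintype.card (ι j))),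
      tensM (fun j => fc (x j) (Fintype.card (ι j))) *ᵥ y = z ∧ y I ≠ 0 ∧
      ∀ I', y I' ≠ 0 → (∀ j, I j ≤ I' j) → I' = I := by
  choose R hR using fun j => main_exists_rightInv (fc (x j) (Fintype.card (ι j))) (h j)
  have hy : tensM (fun j => fc (x j) (Fintype.card (ι j))) *ᵥ (tensM R *ᵥ z) = z := by
    rw [mulVec_mulVec, tensM_mul]
    simp only [hR]
    rw [tensM_one, one_mulVec]
  have hy0 : tensM R *ᵥ z ≠ 0 := by
    intro h0
    rw [h0, mulVec_zero] at hy
    exact hz hy.symm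
  classical
  have hne : (Finset.univ.filter fun I => (tensM R *ᵥ z) I ≠ 0).Nonempty := by
    obtain ⟨I, hI⟩ := Function.ne_iff.1 hy0
    exact ⟨I, Finset.mem_filter.2 ⟨Finset.mem_univ _, hI⟩⟩
  obtain ⟨I, hI, hmax⟩ := Finset.exists_max_image _ (fun I => ∑ j, ((I j : Fin _) : ℕ)) hne
  refine ⟨tensM R *ᵥ z, I, hy, (Finset.mem_filter.1 hI).2, fun I' hI' hle => ?_⟩
  have h1 := hmax I' (Finset.mem_filter.2 ⟨Finset.mem_univ _, hI'⟩)
  have h2 : ∀ j ∈ Finset.univ, ((I j : Fin _) : ℕ) ≤ (I' j : ℕ) := fun j _ => hle j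
  have h3 := (Finset.sum_eq_sum_iff_of_le h2).1 (le_antisymm (Finset.sum_le_sum h2) h1)
  funext j
  exact (Fin.ext (h3 j (Finset.mem_univ j))).symm

/-- Apply `lead_lp` to the conjugated data `σ ∘ x j i`, `σ ∘ y` (`σ` fixes `alg K ∘ z`), take `nl`,
`mean`, `dgR`: `dg t ≤ dgR (lw (y I)) + ∑ j, (mdeg (fc (x j) (I j + 1)) - mdeg (fc (x j) (I j)))`. -/
theorem dg_le_flag [CharZero K] {J : Type} [Fintype J] [DecidableEq J] {ι : J → Type}
    [∀ j, Fintype (ι j)] [∀ j, DecidableEq (ι j)] (V : ∀ j, NB Pl (ι j))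
    (x : ∀ j, ℕ → ι j → Om K)
    (h : ∀ j, LinearIndependent (Om K) (fc (x j) (Fintype.card (ι j)))ᵀ)
    (z : (∀ j, ι j) → K) (hz : z ≠ 0) (t : Pl.P → ℚ) (ht : (Function.support t).Finite)
    (hge : ∀ p, (NB.tens V).Ge p z (t p)) :
    ∃ I : ∀ j, Fin (Fintype.card (ι j)), (Pl.dg t : ℝ) ≤
      ∑ j, ((V j).mdeg (fc (x j) (I j + 1)) - (V j).mdeg (fc (x j) (I j))) := by
  have hz' : alg K ∘ z ≠ 0 := by
    intro h0
    refine hz (funext fun i => ?_)
    have := congrFun h0 i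
    simpa using this
  obtain ⟨y, I, hy, hyI, hI⟩ := exists_lead x h (alg K ∘ z) hz'
  refine ⟨I, ?_⟩
  have hi1 : ∀ j, LinearIndependent (Om K) (fc (x j) (I j + 1))ᵀ :=
    fun j => indep_fc_mono _ (I j).2 (h j)
  have hi0 : ∀ j, LinearIndependent (Om K) (fc (x j) (I j))ᵀ :=
    fun j => indep_fc_mono _ (I j).2.le (h j)
  have hσ : ∀ (p : Pl.P) (σ : Gam K),
      (t p : ℝ) + ∑ j, nl ((V j).lp p ((fc (x j) (I j)).map σ)) ≤
        nl (Pl.w p (σ (y I))) + ∑ j, nl ((V j).lp p ((fc (x j) (I j + 1)).map σ)) := by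
    intro p σ
    have h1 := lead_lp V p (fun j => Fintype.card (ι j)) (fun j i => σ ∘ x j i)
      (fun j => indep_map_gam _ (h j) σ) (σ ∘ y) I (fun I' hI' => hI I' fun h0 => hI' (by
        simp [h0]))
    have h2 : tensM (fun j => fc (fun i => σ ∘ x j i) (Fintype.card (ι j))) *ᵥ (σ ∘ y) =
        alg K ∘ z := by
      have h3 := main_map_tens_mulVec (σ : Om K →+* Om K)
        (fun j => fc (x j) (Fintype.card (ι j))) y
      rw [hy] at h3
      refine Eq.trans h3 (funext fun i => ?_)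
      simp
    rw [h2] at h1
    have h4 : (NB.tens V).lv p (alg K ∘ z) ≤ ex (t p) := ((NB.tens V).Ge_iff p z (t p)).1 (hge p)
    have hw : Pl.w p (σ (y I)) ≠ 0 := by simpa using hyI
    have hn1 : ∀ j ∈ Finset.univ, (V j).lp p ((fc (x j) (I j + 1)).map σ) ≠ 0 :=
      fun j _ => (V j).lp_ne_zero p _ (indep_map_gam _ (hi1 j) σ)
    have hn0 : ∀ j ∈ Finset.univ, (V j).lp p ((fc (x j) (I j)).map σ) ≠ 0 :=
      fun j _ => (V j).lp_ne_zero p _ (indep_map_gam _ (hi0 j) σ)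
    have h5 : Pl.w p (σ (y I)) * ∏ j, (V j).lp p ((fc (x j) (I j + 1)).map σ) ≤
        ex (t p) * ∏ j, (V j).lp p ((fc (x j) (I j)).map σ) :=
      le_trans h1 (mul_le_mul_left h4 _)
    have h6 := nl_le_nl (mul_ne_zero hw (Finset.prod_ne_zero_iff.2 hn1)) h5
    rwa [nl_mul (ex_ne _) (Finset.prod_ne_zero_iff.2 hn0),
      nl_mul hw (Finset.prod_ne_zero_iff.2 hn1), nl_ex, nl_prod _ _ hn0, nl_prod _ _ hn1] at h6
  have hp : ∀ p : Pl.P, (t p : ℝ) + ∑ j, (V j).ld p (fc (x j) (I j)) ≤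
      Pl.lw p (y I) + ∑ j, (V j).ld p (fc (x j) (I j + 1)) := by
    intro p
    have f0 : ∀ j ∈ Finset.univ, FinT fun σ : Gam K => nl ((V j).lp p ((fc (x j) (I j)).map σ)) :=
      fun j _ => (V j).finT_lp p _
    have f1 : ∀ j ∈ Finset.univ,
        FinT fun σ : Gam K => nl ((V j).lp p ((fc (x j) (I j + 1)).map σ)) :=
      fun j _ => (V j).finT_lp p _
    have fy : FinT fun σ : Gam K => nl (Pl.w p (σ (y I))) :=
      FinT.apply (fun u => nl (Pl.w p u)) (y I)
    have h1 := mean_mono ((FinT.const (t p : ℝ)).add (FinT.sum _ f0)) (fy.add (FinT.sum _ f1))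
      (hσ p)
    rwa [mean_add (FinT.const _) (FinT.sum _ f0), mean_add fy (FinT.sum _ f1), mean_const,
      mean_sum _ f0, mean_sum _ f1] at h1
  have ht' : (Function.support fun p => (t p : ℝ)).Finite :=
    ht.subset fun p hp => by simpa using hp
  have s0 : ∀ j ∈ Finset.univ, (Function.support fun p => (V j).ld p (fc (x j) (I j))).Finite :=
    fun j _ => (V j).ld_fin _ (hi0 j)
  have s1 : ∀ j ∈ Finset.univ,
      (Function.support fun p => (V j).ld p (fc (x j) (I j + 1))).Finite :=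
    fun j _ => (V j).ld_fin _ (hi1 j)
  have h1 := Pl.dgR_mono _ _ (supp_add ht' (supp_sum _ s0))
    (supp_add (Pl.lw_fin _ hyI) (supp_sum _ s1)) hp
  rw [Pl.dgR_add _ _ ht' (supp_sum _ s0), Pl.dgR_add _ _ (Pl.lw_fin _ hyI) (supp_sum _ s1),
    Pl.dgR_cast t ht, Pl.dgR_lw _ hyI, Pl.dgR_sum _ _ s0, Pl.dgR_sum _ _ s1] at h1
  rw [Finset.sum_sub_distrib]
  simp only [NB.mdeg]
  linarith

/-- **Tensor product theorem**: `exists_flag` with `ε → 0` and `dg_le_flag`. -/
theorem tensor_lineLe [CharZero K] {J : Type} [Fintype J] [DecidableEq J] {ι : J → Type}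
    [∀ j, Fintype (ι j)] [∀ j, DecidableEq (ι j)] (V : ∀ j, NB Pl (ι j)) (μ : J → ℚ)
    (h : ∀ j, (V j).SS (μ j)) : (NB.tens V).LineLe (∑ j, μ j) := by
  intro z hz t ht hge
  have key : ∀ ε : ℝ, 0 < ε → (Pl.dg t : ℝ) ≤ ∑ j, (μ j : ℝ) + Fintype.card J * ε := by
    intro ε hε
    choose x hx hb using fun j => (V j).exists_flag (h j) ε hε
    obtain ⟨I, hI⟩ := dg_le_flag V x hx z hz t ht hge
    refine hI.trans ((Finset.sum_le_sum fun j _ => hb j (I j) (I j).2).trans (le_of_eq ?_))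
    rw [Finset.sum_add_distrib]
    simp
  have h2 : (Pl.dg t : ℝ) ≤ ∑ j, (μ j : ℝ) := by
    refine le_of_forall_pos_le_add fun ε hε => ?_
    have hc : (0 : ℝ) < Fintype.card J + 1 := by positivity
    refine (key (ε / (Fintype.card J + 1)) (by positivity)).trans (add_le_add_right ?_ _)
    rw [← mul_div_assoc, div_le_iff₀ hc]
    nlinarith
  exact_mod_cast h2

end Crest.Agent.R169.TT
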