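import Crest.Agent.R169.TTVal

/-!
# Row 169, part TT: the invariant mean on the absolute Galois group.
-/

set_option autoImplicit false

namespace Crest.Agent.R169.TT

open scoped NNReal

variable {k K : Type} [Field k] [Field K] [Algebra k K]

/-- `F σ` depends only on finitely many values of `σ`. -/
def FinT (F : Gam K → ℝ) : Prop :=
  ∃ s : Finset (Om K), ∀ σ σ' : Gam K, (∀ y ∈ s, σ y = σ' y) → F σ = F σ'

/-- `c` is both an average of right translates and an average of left translates of `F`. -/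
def IsMean (F : Gam K → ℝ) (c : ℝ) : Prop :=
  ∃ (α : Type) (_ : Fintype α) (_ : Nonempty α) (ρ : α → Gam K),
    (∀ σ, ∑ i, F (σ * ρ i) = Fintype.card α * c) ∧ (∀ σ, ∑ i, F (ρ i * σ) = Fintype.card α * c)

open Classical in
/-- The mean. -/
noncomputable def mean (F : Gam K → ℝ) : ℝ := if h : ∃ c, IsMean F c then h.choose else 0

/-- Double counting of `∑ i j, F (ρ' j * ρ i)`. -/
theorem IsMean.unique {F : Gam K → ℝ} {c c' : ℝ} (h : IsMean F c) (h' : IsMean F c') :
    c = c' := by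
  obtain ⟨α, _, _, ρ, h1, -⟩ := h
  obtain ⟨α', _, _, ρ', -, h2⟩ := h'
  have e1 : ∑ j, ∑ i, F (ρ' j * ρ i) = Fintype.card α' * (Fintype.card α * c) := by simp [h1]
  have e2 : ∑ i, ∑ j, F (ρ' j * ρ i) = Fintype.card α * (Fintype.card α' * c') := by simp [h2]
  rw [Finset.sum_comm, e2, mul_left_comm] at e1
  have a1 : (Fintype.card α : ℝ) ≠ 0 := Nat.cast_ne_zero.mpr Fintype.card_ne_zero
  have a2 : (Fintype.card α' : ℝ) ≠ 0 := Nat.cast_ne_zero.mpr Fintype.card_ne_zero
  exact (mul_left_cancel₀ a1 (mul_left_cancel₀ a2 e1)).symm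

theorem IsMean.mean_eq {F : Gam K → ℝ} {c : ℝ} (h : IsMean F c) : mean F = c := by
  have h' : ∃ c, IsMean F c := ⟨c, h⟩
  rw [mean, dif_pos h']
  exact h'.choose_spec.unique h

/-- Every finite set lies in a finite Galois extension (normal closure of `K(s)`, or the splitting
field of the product of the minimal polynomials: `IntermediateField.adjoin` of its roots). -/
theorem exists_gal [CharZero K] (s : Finset (Om K)) :
    ∃ (L : IntermediateField K (Om K)) (_ : FiniteDimensional K L) (_ : IsGalois K L),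
      ∀ y ∈ s, y ∈ L := by
  exact ⟨(FiniteGaloisIntermediateField.adjoin K (s : Set (Om K))).toIntermediateField,
    inferInstance, inferInstance,
    fun y hy => FiniteGaloisIntermediateField.subset_adjoin K (s : Set (Om K)) hy⟩

/-- Lift every `g` (`AlgEquiv.restrictNormalHom_surjective`) and use the lifts as translates. -/
theorem mean_eq_avg (L : IntermediateField K (Om K)) [FiniteDimensional K L] [IsGalois K L]
    (F : Gam K → ℝ) (F' : (L ≃ₐ[K] L) → ℝ)
    (h : ∀ σ, F σ = F' (AlgEquiv.restrictNormalHom L σ)) :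
    mean F = (∑ g, F' g) / Fintype.card (L ≃ₐ[K] L) := by
  obtain ⟨ρ, hρ⟩ := (AlgEquiv.restrictNormalHom_surjective (F := K) (K₁ := L)
    (Om K)).hasRightInverse
  have a1 : (Fintype.card (L ≃ₐ[K] L) : ℝ) ≠ 0 := Nat.cast_ne_zero.mpr Fintype.card_ne_zero
  refine IsMean.mean_eq ⟨L ≃ₐ[K] L, inferInstance, inferInstance, ρ, fun σ => ?_, fun σ => ?_⟩
  · simp only [h, map_mul, hρ _]
    rw [mul_div_cancel₀ _ a1]
    exact Equiv.sum_comp (Equiv.mulLeft _) F'
  · simp only [h, map_mul, hρ _]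
    rw [mul_div_cancel₀ _ a1]
    exact Equiv.sum_comp (Equiv.mulRight _) F'

theorem coe_restrict (L : IntermediateField K (Om K)) [Normal K L] (σ : Gam K) (y : L) :
    ((AlgEquiv.restrictNormalHom L σ y : L) : Om K) = σ y := by
  exact AlgEquiv.restrictNormalHom_apply L σ y

/-- A function depending only on values in `L` factors through the Galois group of `L`. -/
theorem exists_factor_gal (L : IntermediateField K (Om K)) [Normal K L] {β : Type}
    (F : Gam K → β) (h : ∀ σ σ' : Gam K, (∀ y ∈ L, σ y = σ' y) → F σ = F σ') :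
    ∃ F' : (L ≃ₐ[K] L) → β, ∀ σ, F σ = F' (AlgEquiv.restrictNormalHom L σ) := by
  obtain ⟨ρ, hρ⟩ := (AlgEquiv.restrictNormalHom_surjective (F := K) (K₁ := L)
    (Om K)).hasRightInverse
  refine ⟨fun g => F (ρ g), fun σ => h _ _ fun y hy => ?_⟩
  have := coe_restrict L (ρ (AlgEquiv.restrictNormalHom L σ)) ⟨y, hy⟩
  rw [hρ, coe_restrict] at this
  exact this

theorem FinT.map₂ {F G : Gam K → ℝ} (hF : FinT F) (hG : FinT G) (φ : ℝ → ℝ → ℝ) :
    FinT fun σ => φ (F σ) (G σ) := by
  classical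
  obtain ⟨s, hs⟩ := hF
  obtain ⟨t, ht⟩ := hG
  refine ⟨s ∪ t, fun σ σ' h => ?_⟩
  simp only [hs σ σ' fun y hy => h y (Finset.mem_union_left _ hy),
    ht σ σ' fun y hy => h y (Finset.mem_union_right _ hy)]

theorem exists_factor₂ [CharZero K] {F G : Gam K → ℝ} (hF : FinT F) (hG : FinT G) :
    ∃ (L : IntermediateField K (Om K)) (_ : FiniteDimensional K L) (_ : IsGalois K L)
      (F' G' : (L ≃ₐ[K] L) → ℝ), (∀ σ, F σ = F' (AlgEquiv.restrictNormalHom L σ)) ∧
      ∀ σ, G σ = G' (AlgEquiv.restrictNormalHom L σ) := by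
  classical
  obtain ⟨s, hs⟩ := hF
  obtain ⟨t, ht⟩ := hG
  obtain ⟨L, _, _, hL⟩ := exists_gal (s ∪ t)
  obtain ⟨F', h1⟩ := exists_factor_gal L F fun σ σ' h =>
    hs σ σ' fun y hy => h y (hL y (Finset.mem_union_left _ hy))
  obtain ⟨G', h2⟩ := exists_factor_gal L G fun σ σ' h =>
    ht σ σ' fun y hy => h y (hL y (Finset.mem_union_right _ hy))
  exact ⟨L, inferInstance, inferInstance, F', G', h1, h2⟩

theorem FinT.const (c : ℝ) : FinT (K := K) fun _ => c := by
  exact ⟨∅, fun _ _ _ => rfl⟩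

theorem FinT.add {F G : Gam K → ℝ} (hF : FinT F) (hG : FinT G) : FinT fun σ => F σ + G σ := by
  exact hF.map₂ hG (· + ·)

theorem FinT.sub {F G : Gam K → ℝ} (hF : FinT F) (hG : FinT G) : FinT fun σ => F σ - G σ := by
  exact hF.map₂ hG (· - ·)

theorem FinT.smul (c : ℝ) {F : Gam K → ℝ} (hF : FinT F) : FinT fun σ => c * F σ := by
  exact hF.map₂ hF fun a _ => c * a

theorem FinT.sum {α : Type} (s : Finset α) {F : α → Gam K → ℝ} (hF : ∀ a ∈ s, FinT (F a)) :
    FinT fun σ => ∑ a ∈ s, F a σ := by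
  classical
  induction s using Finset.induction_on with
  | empty => exact FinT.const 0
  | insert a s ha ih =>
    simp only [Finset.sum_insert ha]
    exact (hF a (Finset.mem_insert_self _ _)).add
      (ih fun b hb => hF b (Finset.mem_insert_of_mem hb))

theorem FinT.apply (φ : Om K → ℝ) (y : Om K) : FinT fun σ : Gam K => φ (σ y) := by
  exact ⟨{y}, fun σ σ' h => by simp only [h y (Finset.mem_singleton_self y)]⟩

theorem FinT.vec {ι : Type} [Finite ι] (φ : (ι → Om K) → ℝ) (y : ι → Om K) :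
    FinT fun σ : Gam K => φ (σ ∘ y) := by
  refine ⟨(Set.finite_range y).toFinset, fun σ σ' h => congrArg φ (funext fun i => ?_)⟩
  exact h _ ((Set.Finite.mem_toFinset _).mpr ⟨i, rfl⟩)

theorem FinT.matrix {ι κ : Type} [Finite ι] [Finite κ] (φ : Matrix ι κ (Om K) → ℝ)
    (Y : Matrix ι κ (Om K)) : FinT fun σ : Gam K => φ (Y.map σ) := by
  exact FinT.vec (fun z : ι × κ → Om K => φ (Matrix.of fun i j => z (i, j))) fun q => Y q.1 q.2

theorem mean_const (c : ℝ) : mean (K := K) (fun _ => c) = c := by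
  exact IsMean.mean_eq ⟨Unit, inferInstance, inferInstance, fun _ => 1, by simp, by simp⟩

variable [CharZero K]

theorem mean_add {F G : Gam K → ℝ} (hF : FinT F) (hG : FinT G) :
    mean (fun σ => F σ + G σ) = mean F + mean G := by
  obtain ⟨L, _, _, F', G', h1, h2⟩ := exists_factor₂ hF hG
  rw [mean_eq_avg L F F' h1, mean_eq_avg L G G' h2,
    mean_eq_avg L _ (fun g => F' g + G' g) fun σ => by rw [h1, h2], Finset.sum_add_distrib, add_div]

theorem mean_sub {F G : Gam K → ℝ} (hF : FinT F) (hG : FinT G) :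
    mean (fun σ => F σ - G σ) = mean F - mean G := by
  obtain ⟨L, _, _, F', G', h1, h2⟩ := exists_factor₂ hF hG
  rw [mean_eq_avg L F F' h1, mean_eq_avg L G G' h2,
    mean_eq_avg L _ (fun g => F' g - G' g) fun σ => by rw [h1, h2], Finset.sum_sub_distrib, sub_div]

theorem mean_smul (c : ℝ) {F : Gam K → ℝ} (hF : FinT F) :
    mean (fun σ => c * F σ) = c * mean F := by
  obtain ⟨L, _, _, F', -, h1, -⟩ := exists_factor₂ hF hF
  rw [mean_eq_avg L F F' h1, mean_eq_avg L _ (fun g => c * F' g) fun σ => by rw [h1],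
    ← Finset.mul_sum, mul_div_assoc]

theorem mean_sum {α : Type} (s : Finset α) {F : α → Gam K → ℝ} (hF : ∀ a ∈ s, FinT (F a)) :
    mean (fun σ => ∑ a ∈ s, F a σ) = ∑ a ∈ s, mean (F a) := by
  classical
  induction s using Finset.induction_on with
  | empty => exact mean_const 0
  | insert a s ha ih =>
    simp only [Finset.sum_insert ha]
    rw [mean_add (hF a (Finset.mem_insert_self _ _))
      (FinT.sum s fun b hb => hF b (Finset.mem_insert_of_mem hb)),
      ih fun b hb => hF b (Finset.mem_insert_of_mem hb)]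

theorem mean_mono {F G : Gam K → ℝ} (hF : FinT F) (hG : FinT G) (h : ∀ σ, F σ ≤ G σ) :
    mean F ≤ mean G := by
  obtain ⟨L, _, _, F', G', h1, h2⟩ := exists_factor₂ hF hG
  rw [mean_eq_avg L F F' h1, mean_eq_avg L G G' h2]
  refine div_le_div_of_nonneg_right (Finset.sum_le_sum fun g _ => ?_) (Nat.cast_nonneg _)
  obtain ⟨σ, rfl⟩ := AlgEquiv.restrictNormalHom_surjective (F := K) (K₁ := L) (Om K) g
  rw [← h1, ← h2]
  exact h σ

theorem mean_right {F : Gam K → ℝ} (hF : FinT F) (ρ : Gam K) :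
    mean (fun σ => F (σ * ρ)) = mean F := by
  obtain ⟨L, _, _, F', -, h1, -⟩ := exists_factor₂ hF hF
  rw [mean_eq_avg L F F' h1, mean_eq_avg L _ (fun g => F' (g * AlgEquiv.restrictNormalHom L ρ))
    fun σ => by rw [h1, map_mul]]
  exact congrArg (· / _) (Equiv.sum_comp (Equiv.mulRight _) F')

variable (Pl : Places k K)

/-- Local degree of an element. -/
noncomputable def Places.lw (p : Pl.P) (y : Om K) : ℝ := mean fun σ : Gam K => nl (Pl.w p (σ y))

omit [CharZero K] in
/-- From `Places.w_fin`. -/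
theorem Places.lw_fin (y : Om K) (hy : y ≠ 0) : (Function.support fun p => Pl.lw p y).Finite := by
  refine (Pl.w_fin y hy).subset fun p hp => ?_
  by_contra hc
  simp only [Set.mem_ofPred_eq, not_exists, not_not] at hc
  refine hp ?_
  simp only [Places.lw, hc, nl_one]
  exact mean_const 0

/-- Product formula over the algebraic closure.  With `L ∋ y` finite Galois,
`card G * lw p y = ∑ g, nl (w (g y)) = nl (w (norm y)) = v p (Algebra.norm K y)`
(`Algebra.norm_eq_prod_automorphisms`), then `Places.dgR_v`. -/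
theorem Places.dgR_lw (y : Om K) (hy : y ≠ 0) : Pl.dgR (fun p => Pl.lw p y) = 0 := by
  obtain ⟨L, _, _, hL⟩ := exists_gal (K := K) {y}
  have hyL : y ∈ L := hL y (Finset.mem_singleton_self y)
  have hy' : (⟨y, hyL⟩ : L) ≠ 0 := fun e => hy (congrArg Subtype.val e)
  have hN : Algebra.norm K (⟨y, hyL⟩ : L) ≠ 0 := Algebra.norm_ne_zero_iff.mpr hy'
  have e : ∀ p, Pl.lw p y = (Fintype.card (L ≃ₐ[K] L) : ℝ)⁻¹ *
      (Pl.v p (Algebra.norm K (⟨y, hyL⟩ : L)) : ℝ) := by
    intro p
    rw [Places.lw, mean_eq_avg L _ (fun g => nl (Pl.w p ((g ⟨y, hyL⟩ : L) : Om K)))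
      fun σ => by rw [coe_restrict], div_eq_inv_mul, ← nl_prod _ _ fun g _ => by
        simpa using hy', ← map_prod, ← IntermediateField.coe_prod,
      ← Algebra.norm_eq_prod_automorphisms, ← nl_ex (Pl.v p _), ← Pl.w_alg p _ hN]
    rfl
  simp only [e]
  rw [Pl.dgR_smul _ _ ((Pl.fin _ hN).subset fun p hp => by simpa using hp), Pl.dgR_v _ hN, mul_zero]

end Crest.Agent.R169.TT
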