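import Crest.Agent.R169.TTDefs

/-!
# Row 169, part TT: a constructor for `Places` on a rational function field `K = k(τ)`.

The user supplies an index type, valuations, and for every finite place an irreducible polynomial.
-/

set_option autoImplicit false

namespace Crest.Agent.R169.TT

open Polynomial

/-- Data of the places of `k(τ)`. -/
structure RatPl (k K : Type) [Field k] [Field K] [Algebra k K] where
  P : Type
  inf : P
  τ : K
  q : P → k[X]
  v : P → K → ℤ
  tr : Transcendental k τ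
  gen : ∀ x : K, ∃ f g : k[X], g ≠ 0 ∧ x * aeval τ g = aeval τ f
  irr : ∀ p, p ≠ inf → Irreducible (q p)
  surj : ∀ f : k[X], Irreducible f → ∃ p, p ≠ inf ∧ Associated f (q p)
  v_mul : ∀ p x y, x ≠ 0 → y ≠ 0 → v p (x * y) = v p x + v p y
  v_add : ∀ p x y, x ≠ 0 → y ≠ 0 → x + y ≠ 0 → min (v p x) (v p y) ≤ v p (x + y)
  v_const : ∀ p (c : k), c ≠ 0 → v p (algebraMap k K c) = 0
  v_self : ∀ p, p ≠ inf → v p (aeval τ (q p)) = 1
  v_other : ∀ p p', p ≠ inf → p' ≠ inf → p ≠ p' → v p (aeval τ (q p')) = 0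
  v_inf : v inf τ = -1

variable {k K : Type} [Field k] [Field K] [Algebra k K] (D : RatPl k K)

open Classical in
/-- Degrees of the places. -/
noncomputable def RatPl.d (p : D.P) : ℕ := if p = D.inf then 1 else (D.q p).natDegree

theorem RatPl.aeval_ne {f : k[X]} (hf : f ≠ 0) : aeval D.τ f ≠ 0 := by
  exact fun h => D.tr ⟨f, hf, h⟩

theorem RatPl.pl_one (p : D.P) : D.v p 1 = 0 := by
  simpa using D.v_const p 1 one_ne_zero

theorem RatPl.pl_neg (p : D.P) {x : K} (hx : x ≠ 0) : D.v p (-x) = D.v p x := by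
  have h := D.v_mul p (algebraMap k K (-1)) x (by simp) hx
  rw [D.v_const p (-1) (by simp)] at h
  simpa using h

theorem RatPl.pl_add_eq (p : D.P) {x y : K} (hx : x ≠ 0) (hy : y ≠ 0) (h : D.v p x < D.v p y) :
    D.v p (x + y) = D.v p x := by
  have h0 : x + y ≠ 0 := fun h0 => by
    rw [eq_neg_of_add_eq_zero_right h0, D.pl_neg p hx] at h
    exact lt_irrefl _ h
  have h1 := D.v_add p x y hx hy h0
  have h2 := D.v_add p (x + y) (-y) h0 (neg_ne_zero.2 hy) (by simpa using hx)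
  rw [add_neg_cancel_right, D.pl_neg p hy] at h2
  omega

theorem RatPl.pl_τ_ne : D.τ ≠ 0 := by simpa using D.aeval_ne (X_ne_zero (R := k))

theorem RatPl.pl_aeval_mul (p : D.P) {f g : k[X]} (hf : f ≠ 0) (hg : g ≠ 0) :
    D.v p (aeval D.τ (f * g)) = D.v p (aeval D.τ f) + D.v p (aeval D.τ g) := by
  rw [map_mul, D.v_mul p _ _ (D.aeval_ne hf) (D.aeval_ne hg)]

theorem RatPl.pl_aeval_C (p : D.P) {c : k} (hc : c ≠ 0) : D.v p (aeval D.τ (C c)) = 0 := by
  rw [aeval_C, D.v_const p c hc]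

theorem RatPl.pl_ind {Φ : k[X] → Prop} (hC : ∀ c, c ≠ 0 → Φ (C c))
    (hq : ∀ p, p ≠ D.inf → Φ (D.q p)) (hm : ∀ f g, f ≠ 0 → g ≠ 0 → Φ f → Φ g → Φ (f * g))
    {f : k[X]} (hf : f ≠ 0) : Φ f := by
  have hu : ∀ u : k[X], IsUnit u → Φ u := fun u hu => by
    obtain ⟨c, hc, rfl⟩ := Polynomial.isUnit_iff.1 hu
    exact hC c hc.ne_zero
  induction f using WfDvdMonoid.induction_on_irreducible with
  | zero => exact absurd rfl hf
  | unit u h => exact hu u h
  | mul a i ha hi ih =>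
    refine hm i a hi.ne_zero ha ?_ (ih ha)
    obtain ⟨p, hp, h⟩ := D.surj i hi
    obtain ⟨u, rfl⟩ := h.symm
    exact hm _ _ (D.irr p hp).ne_zero u.ne_zero (hq p hp) (hu _ u.isUnit)

theorem RatPl.pl_frac {x : K} (hx : x ≠ 0) : ∃ f g : k[X], f ≠ 0 ∧ g ≠ 0 ∧ IsRelPrime f g ∧
    x * aeval D.τ g = aeval D.τ f ∧
    ∀ p, D.v p x + D.v p (aeval D.τ g) = D.v p (aeval D.τ f) := by
  obtain ⟨f, g, hg, h⟩ := D.gen x
  obtain ⟨f', g', c, h1, rfl, rfl⟩ := UniqueFactorizationMonoid.exists_reduced_factors' f g hg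
  have hc := left_ne_zero_of_mul hg
  have hg' := right_ne_zero_of_mul hg
  have h2 : x * aeval D.τ g' = aeval D.τ f' := by
    apply mul_left_cancel₀ (D.aeval_ne hc)
    rw [map_mul, map_mul] at h
    rw [← h]; ring
  refine ⟨f', g', ?_, hg', h1, h2, fun p => by rw [← h2, D.v_mul p _ _ hx (D.aeval_ne hg')]⟩
  rintro rfl
  exact mul_ne_zero hx (D.aeval_ne hg') (by simpa using h2)

/-- The top term has strictly smallest value (if `v x < v y` then `v (x + y) = v x`). -/
theorem RatPl.v_inf_aeval {f : k[X]} (hf : f ≠ 0) : D.v D.inf (aeval D.τ f) = -f.natDegree := by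
  induction hn : f.natDegree generalizing f with
  | zero =>
    rw [eq_C_of_natDegree_eq_zero hn] at hf ⊢
    rw [D.pl_aeval_C _ (C_ne_zero.1 hf)]; simp
  | succ n ih =>
    have h1 : f.divX.natDegree = n := by rw [natDegree_divX_eq_natDegree_tsub_one, hn]; simp
    have h2 : f.divX ≠ 0 := fun h => by
      rw [divX_eq_zero_iff.1 h, natDegree_C] at hn
      omega
    have h3 : D.v D.inf (aeval D.τ (f.divX * X)) = -((n + 1 : ℕ) : ℤ) := by
      rw [D.pl_aeval_mul _ h2 X_ne_zero, ih h2 h1, aeval_X, D.v_inf]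
      push_cast; ring
    rw [← divX_mul_X_add f, map_add]
    by_cases h0 : f.coeff 0 = 0
    · rw [h0, C_0, map_zero, add_zero, h3]
    · rw [D.pl_add_eq _ (D.aeval_ne (mul_ne_zero h2 X_ne_zero)) (D.aeval_ne (C_ne_zero.2 h0)), h3]
      rw [h3, D.pl_aeval_C _ h0]
      omega

/-- Induction on the factorisation (`UniqueFactorizationMonoid.induction_on_prime` or
`WfDvdMonoid.induction_on_irreducible`); units are nonzero constants. -/
theorem RatPl.v_aeval_nonneg (p : D.P) (hp : p ≠ D.inf) {f : k[X]} (hf : f ≠ 0) :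
    0 ≤ D.v p (aeval D.τ f) := by
  refine D.pl_ind (Φ := fun f => 0 ≤ D.v p (aeval D.τ f)) (fun c hc => (D.pl_aeval_C p hc).ge)
    (fun p' hp' => ?_) (fun f g hf hg h1 h2 => ?_) hf
  · by_cases h : p = p'
    · subst h; rw [D.v_self p hp]; norm_num
    · exact (D.v_other p p' hp hp' h).ge
  · rw [D.pl_aeval_mul p hf hg]; omega

theorem RatPl.v_aeval_eq_zero (p : D.P) (hp : p ≠ D.inf) {f : k[X]} (hf : ¬ D.q p ∣ f) :
    D.v p (aeval D.τ f) = 0 := by
  have h0 : f ≠ 0 := by rintro rfl; exact hf (dvd_zero _)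
  refine D.pl_ind (Φ := fun f => ¬ D.q p ∣ f → D.v p (aeval D.τ f) = 0)
    (fun c hc _ => D.pl_aeval_C p hc) (fun p' hp' h => ?_) (fun f g hf hg h1 h2 h => ?_) h0 hf
  · exact D.v_other p p' hp hp' (by rintro rfl; exact h dvd_rfl)
  · rw [D.pl_aeval_mul p hf hg, h1 fun h' => h (h'.mul_right _), h2 fun h' => h (h'.mul_left _)]
    rfl

theorem RatPl.unif (p : D.P) : ∃ π : K, π ≠ 0 ∧ D.v p π = 1 := by
  by_cases hp : p = D.inf
  · subst hp
    refine ⟨D.τ⁻¹, inv_ne_zero D.pl_τ_ne, ?_⟩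
    have h := D.v_mul D.inf D.τ D.τ⁻¹ D.pl_τ_ne (inv_ne_zero D.pl_τ_ne)
    rw [mul_inv_cancel₀ D.pl_τ_ne, D.pl_one, D.v_inf] at h
    omega
  · exact ⟨_, D.aeval_ne (D.irr p hp).ne_zero, D.v_self p hp⟩

theorem RatPl.pl_supp (p : D.P) (hp : p ≠ D.inf) :
    {p' | D.v p' (aeval D.τ (D.q p)) ≠ 0} ⊆ {D.inf, p} := by
  intro p' h
  by_contra hc
  simp only [Set.mem_insert_iff, Set.mem_singleton_iff, not_or] at hc
  exact h (D.v_other p' p hc.1 hp hc.2)

theorem RatPl.pl_fin {f : k[X]} (hf : f ≠ 0) : {p | D.v p (aeval D.τ f) ≠ 0}.Finite := by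
  refine D.pl_ind (Φ := fun f => {p | D.v p (aeval D.τ f) ≠ 0}.Finite) (fun c hc => ?_)
    (fun p hp => (Set.toFinite _).subset (D.pl_supp p hp)) (fun f g hf hg h1 h2 => ?_) hf
  · exact Set.finite_empty.subset fun p hp => hp (D.pl_aeval_C p hc)
  · refine (h1.union h2).subset fun p hp => ?_
    simp only [Set.mem_union, Set.mem_ofPred_eq, D.pl_aeval_mul p hf hg] at hp ⊢
    omega

theorem RatPl.fin (x : K) (hx : x ≠ 0) : {p | D.v p x ≠ 0}.Finite := by
  obtain ⟨f, g, hf, hg, -, -, h⟩ := D.pl_frac hx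
  refine ((D.pl_fin hf).union (D.pl_fin hg)).subset fun p hp => ?_
  have := h p
  simp only [Set.mem_union, Set.mem_ofPred_eq] at hp ⊢
  omega

theorem RatPl.pl_pf_mul {x y : K} (hx : x ≠ 0) (hy : y ≠ 0) :
    ∑ᶠ p, (D.d p : ℤ) * D.v p (x * y)
      = ∑ᶠ p, (D.d p : ℤ) * D.v p x + ∑ᶠ p, (D.d p : ℤ) * D.v p y := by
  rw [← finsum_add_distrib]
  · exact finsum_congr fun p => by rw [D.v_mul p x y hx hy, mul_add]
  · exact (D.fin x hx).subset fun p hp => right_ne_zero_of_mul hp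
  · exact (D.fin y hy).subset fun p hp => right_ne_zero_of_mul hp

theorem RatPl.pl_pf {f : k[X]} (hf : f ≠ 0) : ∑ᶠ p, (D.d p : ℤ) * D.v p (aeval D.τ f) = 0 := by
  classical
  refine D.pl_ind (Φ := fun f => ∑ᶠ p, (D.d p : ℤ) * D.v p (aeval D.τ f) = 0) (fun c hc => ?_)
    (fun p hp => ?_) (fun f g hf hg h1 h2 => ?_) hf
  · simp only [D.pl_aeval_C _ hc, mul_zero, finsum_zero]
  · rw [finsum_eq_sum_of_support_subset (s := {D.inf, p}) _ fun p' hp' => by
      simpa using D.pl_supp p hp (right_ne_zero_of_mul hp'), Finset.sum_pair hp.symm,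
      D.v_inf_aeval (D.irr p hp).ne_zero, D.v_self p hp]
    simp [RatPl.d, hp]
  · rw [map_mul, D.pl_pf_mul (D.aeval_ne hf) (D.aeval_ne hg), h1, h2, add_zero]

theorem RatPl.pf (x : K) (hx : x ≠ 0) : ∑ᶠ p, (D.d p : ℤ) * D.v p x = 0 := by
  obtain ⟨f, g, hf, hg, -, h, -⟩ := D.pl_frac hx
  have h1 := D.pl_pf_mul hx (D.aeval_ne hg)
  rw [h, D.pl_pf hf, D.pl_pf hg, add_zero] at h1
  exact h1.symm

/-- elements of value at least `n` -/
def RatPl.plM (p : D.P) (n : ℤ) : Submodule k K where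
  carrier := {x | x ≠ 0 → n ≤ D.v p x}
  zero_mem' h := absurd rfl h
  add_mem' {x y} hx hy h := by
    by_cases h1 : x = 0
    · rw [h1, zero_add] at h ⊢; exact hy h
    by_cases h2 : y = 0
    · rw [h2, add_zero] at h ⊢; exact hx h
    exact (le_min (hx h1) (hy h2)).trans (D.v_add p x y h1 h2 h)
  smul_mem' c x hx h := by
    have hc : c ≠ 0 := left_ne_zero_of_smul h
    have h1 : x ≠ 0 := right_ne_zero_of_smul h
    rw [Algebra.smul_def, D.v_mul p _ _ (by simpa using hc) h1, D.v_const p c hc, zero_add]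
    exact hx h1

theorem RatPl.plM_mul {p : D.P} {n m : ℤ} {x y : K} (hx : x ∈ D.plM p n) (hy : y ∈ D.plM p m) :
    x * y ∈ D.plM p (n + m) := fun h => by
  rw [D.v_mul p x y (left_ne_zero_of_mul h) (right_ne_zero_of_mul h)]
  exact add_le_add (hx (left_ne_zero_of_mul h)) (hy (right_ne_zero_of_mul h))

theorem RatPl.pl_approx (p : D.P) {x : K} (hx : x ∈ D.plM p 0) :
    ∃ r : degreeLT k (D.d p), x - aeval D.τ (r : k[X]) ∈ D.plM p 1 := by
  by_cases h0 : x = 0
  · exact ⟨0, by simp [h0]⟩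
  obtain ⟨f, g, hf, hg, hfg, h, hv⟩ := D.pl_frac h0
  have hx0 : 0 ≤ D.v p x := hx h0
  by_cases hp : p = D.inf
  · subst hp
    have h1 := hv D.inf
    rw [D.v_inf_aeval hf, D.v_inf_aeval hg] at h1
    obtain ⟨c, hc⟩ : ∃ c, c = f.coeff g.natDegree / g.leadingCoeff := ⟨_, rfl⟩
    refine ⟨⟨C c, mem_degreeLT.2 (degree_C_le.trans_lt (by simp [RatPl.d]))⟩, fun h2 => ?_⟩
    simp only at h2 ⊢
    have h3 : (x - aeval D.τ (C c)) * aeval D.τ g = aeval D.τ (f - C c * g) := by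
      rw [map_sub, map_mul, ← h]; ring
    have h4 : f - C c * g ≠ 0 := fun h4 => by
      rw [h4, map_zero] at h3
      exact mul_ne_zero h2 (D.aeval_ne hg) h3
    have h5 : (f - C c * g).natDegree ≤ g.natDegree :=
      (natDegree_sub_le _ _).trans (max_le (by omega) (natDegree_C_mul_le c g))
    have h6 : (f - C c * g).natDegree ≠ g.natDegree := fun h6 => by
      apply leadingCoeff_ne_zero.2 h4
      rw [leadingCoeff, h6, coeff_sub, coeff_C_mul, hc, coeff_natDegree,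
        div_mul_cancel₀ _ (leadingCoeff_ne_zero.2 hg), sub_self]
    have h7 := D.v_mul D.inf _ _ h2 (D.aeval_ne hg)
    rw [h3, D.v_inf_aeval h4, D.v_inf_aeval hg] at h7
    omega
  · have hq := D.irr p hp
    have hP : ∀ f : k[X], aeval D.τ f ∈ D.plM p 0 := fun f h =>
      D.v_aeval_nonneg p hp (by rintro rfl; exact h (map_zero _))
    have h1 : ¬ D.q p ∣ g := by
      rintro ⟨g', rfl⟩
      have h2 := hv p
      have h3 := D.v_aeval_nonneg p hp (right_ne_zero_of_mul hg)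
      rw [D.pl_aeval_mul p hq.ne_zero (right_ne_zero_of_mul hg), D.v_self p hp,
        D.v_aeval_eq_zero p hp fun h => hq.not_isUnit (hfg h (dvd_mul_right _ _))] at h2
      omega
    obtain ⟨u, w, huw⟩ := hq.coprime_iff_not_dvd.2 h1
    refine ⟨⟨w * f % D.q p, mem_degreeLT.2 ?_⟩, ?_⟩
    · have := degree_mod_lt (w * f) hq.ne_zero
      rw [degree_eq_natDegree hq.ne_zero] at this
      simpa [RatPl.d, hp] using this
    · have e1 := congrArg (aeval D.τ) huw
      have e2 := congrArg (aeval D.τ) (EuclideanDomain.div_add_mod (w * f) (D.q p))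
      simp only [map_add, map_mul, map_one] at e1 e2
      have e : x - aeval D.τ (w * f % D.q p)
          = aeval D.τ (D.q p) * (x * aeval D.τ u + aeval D.τ (w * f / D.q p)) := by
        linear_combination (-x) * e1 - e2 + aeval D.τ w * h
      simp only
      rw [e]
      exact D.plM_mul (n := 1) (m := 0) (fun _ => (D.v_self p hp).ge)
        (add_mem (D.plM_mul (n := 0) (m := 0) hx (hP u)) (hP _))

/-- At a finite place write all `x i = f i / g` with `q p ∤ g` (cancel powers of `q p`), and find a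
relation among the `d + 1` classes of the `f i` in `k[X] / (q p)` (`modByMonic`, or `AdjoinRoot`
finrank).  At infinity compare leading coefficients. -/
theorem RatPl.res (p : D.P) (x : Fin (D.d p + 1) → K) (hx : ∀ i, x i ≠ 0 → 0 ≤ D.v p (x i)) :
    ∃ c : Fin (D.d p + 1) → k, c ≠ 0 ∧ (∑ i, c i • x i ≠ 0 → 1 ≤ D.v p (∑ i, c i • x i)) := by
  choose r hr using fun i => D.pl_approx p (x := x i) (hx i)
  have h1 : ¬ LinearIndependent k r := fun h => by
    have h2 := h.fintype_card_le_finrank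
    rw [(degreeLTEquiv k (D.d p)).finrank_eq] at h2
    simp at h2
  obtain ⟨c, hc, i, hi⟩ := Fintype.not_linearIndependent_iff.1 h1
  refine ⟨c, fun h => hi (congrFun h i), ?_⟩
  have h3 : ∑ i, c i • aeval D.τ (r i : k[X]) = 0 := by
    have := congrArg (fun r : degreeLT k (D.d p) => aeval D.τ (r : k[X])) hc
    simpa using this
  have h4 : ∑ i, c i • x i = ∑ i, c i • (x i - aeval D.τ (r i : k[X])) := by
    simp only [smul_sub, Finset.sum_sub_distrib, h3, sub_zero]
  rw [h4]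
  exact Submodule.sum_mem (D.plM p 1) fun i _ => Submodule.smul_mem _ _ (hr i)

theorem RatPl.v_τ (p : D.P) (hp : p ≠ D.inf) : 0 ≤ D.v p D.τ := by
  simpa using D.v_aeval_nonneg p hp (X_ne_zero (R := k))

theorem RatPl.clear (p : D.P) (hp : p ≠ D.inf) :
    ∃ π : K, π ≠ 0 ∧ 0 < D.v p π ∧ ∀ q, q ≠ D.inf → 0 ≤ D.v q π := by
  refine ⟨_, D.aeval_ne (D.irr p hp).ne_zero, by rw [D.v_self p hp]; norm_num, fun q hq => ?_⟩
  exact D.v_aeval_nonneg q hq (D.irr p hp).ne_zero

/-- The places of `k(τ)`. -/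
noncomputable def RatPl.toPlaces : Places k K where
  P := D.P
  v := D.v
  d := D.d
  v_mul := D.v_mul
  v_add := D.v_add
  v_const := D.v_const
  unif := D.unif
  fin := D.fin
  pf := D.pf
  res := D.res
  inf := D.inf
  d_inf := by simp [RatPl.d]
  τ := D.τ
  τ_ne := by simpa using D.aeval_ne (X_ne_zero (R := k))
  v_inf := D.v_inf
  v_τ := D.v_τ
  clear := D.clear

end Crest.Agent.R169.TT
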