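import Crest.Agent.R169.TTSiegelL
import Crest.Agent.R169.TTDegB
import Crest.Agent.R169.TTGauss

/-!
# Row 169, part TT: the rank two lemma (owner helper42).
-/

set_option autoImplicit false

namespace Crest.Agent.R169.TT

open Matrix
open scoped NNReal

variable {k K : Type} [Field k] [Field K] [Algebra k K] {Pl : Places k K}
  {ι : Type} [Fintype ι] [DecidableEq ι] (V : NB Pl ι)

/-- Triangular description of the norm on the rank two quotient. -/
def NB.R2 (p : Pl.P) {s : ℕ} (A : Matrix ι (Fin s) (Om K)) (x y : ι → Om K)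
    (t : Om K × Om K × Om K) : Prop :=
  t.1 ≠ 0 ∧ t.2.2 ≠ 0 ∧
    (∀ α β : Om K, V.lp p (snoc A (α • x + β • y)) =
      V.lp p A * max (Pl.w p (t.1 * α + t.2.1 * β)) (Pl.w p (t.2.2 * β))) ∧
    V.lp p (snoc (snoc A x) y) = V.lp p A * Pl.w p t.1 * Pl.w p t.2.2

theorem NB.exists_R2 (p : Pl.P) {s : ℕ} (A : Matrix ι (Fin s) (Om K)) (x y : ι → Om K)
    (h : LinearIndependent (Om K) (snoc (snoc A x) y)ᵀ) : ∃ t, V.R2 p A x y t := by
  obtain ⟨a, b, d, h1, h2, h3, h4⟩ := V.rank2_lp p A x y h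
  exact ⟨(a, b, d), h1, h2, h3, h4⟩

theorem NB.R2_good (p : Pl.P) {s : ℕ} (A : Matrix ι (Fin s) (Om K)) (x y : ι → Om K)
    (h : LinearIndependent (Om K) (snoc (snoc A x) y)ᵀ) (h0 : V.lp p A = 1)
    (h1 : V.lp p (snoc A x) = 1) (h2 : V.lp p (snoc A y) = 1)
    (h3 : V.lp p (snoc (snoc A x) y) = 1) : V.R2 p A x y (1, 0, 1) := by
  obtain ⟨a, b, d, ha, hd, hn, hdet⟩ := V.rank2_lp p A x y h
  have e1 := hn 1 0
  have e2 := hn 0 1
  simp only [one_smul, zero_smul, add_zero, zero_add, mul_one, mul_zero, map_zero, h0, h1, h2,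
    one_mul, zero_le, max_eq_left] at e1 e2
  have hd1 : Pl.w p d = 1 := by
    rw [h3, h0, ← e1] at hdet
    simpa using hdet.symm
  have hb : Pl.w p b ≤ 1 := by
    rw [e2]; exact le_max_left _ _
  refine ⟨one_ne_zero, one_ne_zero, fun α β => ?_, by simp [h0, h3]⟩
  rw [hn α β]
  congr 1
  refine (norm2_congr (Pl.w p) a b d 1 0 1 ha one_ne_zero ?_ ?_ ?_ α β).symm
  · simp [← e1]
  · simp [← e1, hd1, hb]
  · simp [hd1, hb]

omit [Fintype ι] [DecidableEq ι] in
theorem snoc_comb_map {s : ℕ} (A : Matrix ι (Fin s) (Om K)) (x y : ι → Om K) (σ : Gam K)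
    (α β : Om K) : (snoc A (α • x + β • y)).map σ =
      snoc (A.map σ) (σ α • (σ ∘ x) + σ β • (σ ∘ y)) := by
  rw [map_snoc]
  congr 1
  funext i
  simp

omit [Fintype ι] [DecidableEq ι] in
theorem snoc_mem (L : IntermediateField K (Om K)) {s : ℕ} (A : Matrix ι (Fin s) (Om K))
    (x : ι → Om K) (hA : ∀ i j, A i j ∈ L) (hx : ∀ i, x i ∈ L) (i : ι) (j : Fin (s + 1)) :
    snoc A x i j ∈ L := by
  refine Fin.lastCases ?_ (fun j => ?_) j <;> simp [snoc, hA, hx]

/-- Equivariance under the decomposition group. -/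
theorem NB.R2_map (p : Pl.P) (L : IntermediateField K (Om K)) [Normal K L] (ρ : Gam K)
    (hρ : ∀ y ∈ L, Pl.w p (ρ y) = Pl.w p y) {s : ℕ} (A : Matrix ι (Fin s) (Om K))
    (x y : ι → Om K) (hi : LinearIndependent (Om K) Aᵀ) (hA : ∀ i j, A i j ∈ L)
    (hx : ∀ i, x i ∈ L) (hy : ∀ i, y i ∈ L) (t t' : Om K × Om K × Om K)
    (ht : V.R2 p A x y t) (ht' : V.R2 p (A.map ρ) (ρ ∘ x) (ρ ∘ y) t')
    (m1 : t.1 ∈ L) (m2 : t.2.1 ∈ L) (m3 : t.2.2 ∈ L) (m1' : t'.1 ∈ L) (m2' : t'.2.1 ∈ L)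
    (α β : Om K) :
    max (Pl.w p (t'.1 * α + t'.2.1 * β)) (Pl.w p (t'.2.2 * β)) =
      max (Pl.w p (ρ t.1 * α + ρ t.2.1 * β)) (Pl.w p (ρ t.2.2 * β)) := by
  obtain ⟨a, b, d⟩ := t
  obtain ⟨a', b', d'⟩ := t'
  obtain ⟨ha, hd, hn, -⟩ := ht
  obtain ⟨ha', hd', hn', -⟩ := ht'
  simp only at ha hd hn ha' hd' hn' m1 m2 m3 m1' m2' ⊢
  have hsymm : ∀ z ∈ L, ρ.symm z ∈ L := by
    intro z hz
    have := coe_restrict L ρ.symm ⟨z, hz⟩
    simp only at this
    rw [← this]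
    exact SetLike.coe_mem _
  have key : ∀ α ∈ L, ∀ β ∈ L, max (Pl.w p (a' * α + b' * β)) (Pl.w p (d' * β)) =
      max (Pl.w p (ρ a * α + ρ b * β)) (Pl.w p (ρ d * β)) := by
    intro α hα β hβ
    have hα' := hsymm α hα
    have hβ' := hsymm β hβ
    have e1 := hn' α β
    have e2 := hn (ρ.symm α) (ρ.symm β)
    have e3 := V.lp_map_of_fix p L ρ hρ (snoc A (ρ.symm α • x + ρ.symm β • y))
      (snoc_mem L A _ hA fun i => by
        simpa using add_mem (mul_mem hα' (hx i)) (mul_mem hβ' (hy i)))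
    rw [snoc_comb_map, AlgEquiv.apply_symm_apply, AlgEquiv.apply_symm_apply, e1, e2,
      V.lp_map_of_fix p L ρ hρ A hA] at e3
    rw [mul_left_cancel₀ (V.lp_ne_zero p A hi) e3,
      ← hρ _ (add_mem (mul_mem m1 hα') (mul_mem m2 hβ')), ← hρ _ (mul_mem m3 hβ')]
    simp
  have hmem : ∀ z ∈ L, ρ z ∈ L := by
    intro z hz
    have := coe_restrict L ρ ⟨z, hz⟩
    simp only at this
    rw [← this]
    exact SetLike.coe_mem _
  refine norm2_congr (Pl.w p) (ρ a) (ρ b) (ρ d) a' b' d' (by simpa using ha) ha' ?_ ?_ ?_ α β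
  · simpa using key 1 (one_mem _) 0 (zero_mem _)
  · rw [key _ (neg_mem (hmem b m2)) _ (hmem a m1)]
    have : ρ a * -ρ b + ρ b * ρ a = 0 := by ring
    rw [this]; simp
  · rw [← key _ (neg_mem m2') _ m1']
    have : a' * -b' + b' * a' = 0 := by ring
    rw [this]; simp

/-- Choice of the triangular data for all places and all conjugates. -/
theorem NB.exists_dat [CharZero K] {s : ℕ} (A : Matrix ι (Fin s) (Om K)) (x y : ι → Om K)
    (h : LinearIndependent (Om K) (snoc (snoc A x) y)ᵀ) :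
    ∃ (S : Finset Pl.P) (L : IntermediateField K (Om K)) (_ : FiniteDimensional K L)
      (_ : IsGalois K L) (D : Pl.P → (L ≃ₐ[K] L) → L × L × L),
      (∀ i j, A i j ∈ L) ∧ (∀ i, x i ∈ L) ∧ (∀ i, y i ∈ L) ∧
      (∀ p, p ∉ S → ∀ g, D p g = (1, 0, 1)) ∧
      ∀ p (σ : Gam K), V.R2 p (A.map σ) (σ ∘ x) (σ ∘ y)
        ((D p (AlgEquiv.restrictNormalHom L σ)).1, (D p (AlgEquiv.restrictNormalHom L σ)).2.1,
          (D p (AlgEquiv.restrictNormalHom L σ)).2.2) := by
  classical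
  have i0 : LinearIndependent (Om K) Aᵀ := indep_of_snoc _ _ (indep_of_snoc _ _ h)
  have i1 : LinearIndependent (Om K) (snoc A x)ᵀ := indep_of_snoc _ _ h
  have i2 : LinearIndependent (Om K) (snoc A y)ᵀ := by
    simpa using indep_snoc_comb A x y h 0 1 (Or.inr one_ne_zero)
  have hσ : ∀ σ : Gam K, LinearIndependent (Om K) (snoc (snoc (A.map σ) (σ ∘ x)) (σ ∘ y))ᵀ := by
    intro σ
    have := indep_map_gam _ h σ
    rwa [map_snoc, map_snoc] at this
  have hfin := (((V.lp_fin A i0).union (V.lp_fin _ i1)).union (V.lp_fin _ i2)).union (V.lp_fin _ h)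
  set S := hfin.toFinset with hS
  have hgood : ∀ p, p ∉ S → ∀ σ : Gam K, V.R2 p (A.map σ) (σ ∘ x) (σ ∘ y) (1, 0, 1) := by
    intro p hp σ
    simp only [hS, Set.Finite.mem_toFinset, Set.mem_union, Set.mem_ofPred_eq, not_or, not_exists,
      not_not, map_snoc] at hp
    exact V.R2_good p _ _ _ (hσ σ) (hp.1.1.1 σ) (hp.1.1.2 σ) (hp.1.2 σ) (hp.2 σ)
  let ch : Pl.P → Matrix ι (Fin s) (Om K) → (ι → Om K) → (ι → Om K) → Om K × Om K × Om K :=
    fun p A' x' y' => if p ∈ S then Classical.epsilon (V.R2 p A' x' y') else (1, 0, 1)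
  let dat : Pl.P → Gam K → Om K × Om K × Om K := fun p σ => ch p (A.map σ) (σ ∘ x) (σ ∘ y)
  have hdat : ∀ p (σ : Gam K), V.R2 p (A.map σ) (σ ∘ x) (σ ∘ y) (dat p σ) := by
    intro p σ
    by_cases hp : p ∈ S
    · simp only [dat, ch, if_pos hp]
      exact Classical.epsilon_spec (V.exists_R2 p _ _ _ (hσ σ))
    · simp only [dat, ch, if_neg hp]
      exact hgood p hp σ
  have hdep : ∀ (L : IntermediateField K (Om K)), (∀ i j, A i j ∈ L) → (∀ i, x i ∈ L) →
      (∀ i, y i ∈ L) → ∀ p, ∀ σ σ' : Gam K, (∀ z ∈ L, σ z = σ' z) → dat p σ = dat p σ' := by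
    intro L hA hx hy p σ σ' hσσ
    have e1 : A.map σ = A.map σ' := by ext i j; exact hσσ _ (hA i j)
    have e2 : σ ∘ x = σ' ∘ x := by funext i; exact hσσ _ (hx i)
    have e3 : σ ∘ y = σ' ∘ y := by funext i; exact hσσ _ (hy i)
    simp only [dat, e1, e2, e3]
  let s0 : Finset (Om K) := (Finset.univ.image fun ij : ι × Fin s => A ij.1 ij.2) ∪
    Finset.univ.image x ∪ Finset.univ.image y
  have hs0 : ∀ L : IntermediateField K (Om K), (∀ z ∈ s0, z ∈ L) →
      (∀ i j, A i j ∈ L) ∧ (∀ i, x i ∈ L) ∧ (∀ i, y i ∈ L) := by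
    intro L hL
    refine ⟨fun i j => hL _ ?_, fun i => hL _ ?_, fun i => hL _ ?_⟩
    · simp only [s0, Finset.mem_union, Finset.mem_image, Finset.mem_univ, true_and]
      exact Or.inl (Or.inl ⟨(i, j), rfl⟩)
    · simp only [s0, Finset.mem_union, Finset.mem_image, Finset.mem_univ, true_and]
      exact Or.inl (Or.inr ⟨i, rfl⟩)
    · simp only [s0, Finset.mem_union, Finset.mem_image, Finset.mem_univ, true_and]
      exact Or.inr ⟨i, rfl⟩
  obtain ⟨L0, _, _, hL0⟩ := exists_gal s0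
  obtain ⟨a0, b0, c0⟩ := hs0 L0 hL0
  choose D0 hD0 using fun p => exists_factor_gal L0 (dat p) (hdep L0 a0 b0 c0 p)
  let T : Finset (Om K × Om K × Om K) := (S ×ˢ Finset.univ).image fun pg => D0 pg.1 pg.2
  let s1 : Finset (Om K) := s0 ∪ (T.image (·.1) ∪ T.image (·.2.1) ∪ T.image (·.2.2))
  obtain ⟨L, _, _, hL⟩ := exists_gal s1
  obtain ⟨a1, b1, c1⟩ := hs0 L fun z hz => hL z (Finset.mem_union_left _ hz)
  have hmem : ∀ p σ, (dat p σ).1 ∈ L ∧ (dat p σ).2.1 ∈ L ∧ (dat p σ).2.2 ∈ L := by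
    intro p σ
    by_cases hp : p ∈ S
    · have hT : dat p σ ∈ T := by
        rw [hD0]
        exact Finset.mem_image.2 ⟨(p, _), Finset.mem_product.2 ⟨hp, Finset.mem_univ _⟩, rfl⟩
      refine ⟨hL _ ?_, hL _ ?_, hL _ ?_⟩ <;> refine Finset.mem_union_right _ ?_
      · exact Finset.mem_union_left _ (Finset.mem_union_left _ (Finset.mem_image_of_mem _ hT))
      · exact Finset.mem_union_left _ (Finset.mem_union_right _ (Finset.mem_image_of_mem _ hT))
      · exact Finset.mem_union_right _ (Finset.mem_image_of_mem _ hT)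
    · simp only [dat, ch, if_neg hp]
      exact ⟨one_mem _, zero_mem _, one_mem _⟩
  let dat' : Pl.P → Gam K → L × L × L := fun p σ =>
    (⟨_, (hmem p σ).1⟩, ⟨_, (hmem p σ).2.1⟩, ⟨_, (hmem p σ).2.2⟩)
  have hdep' : ∀ p, ∀ σ σ' : Gam K, (∀ z ∈ L, σ z = σ' z) → dat' p σ = dat' p σ' := by
    intro p σ σ' hσσ
    have := hdep L a1 b1 c1 p σ σ' hσσ
    simp only [dat', this]
  choose D hD using fun p => exists_factor_gal L (dat' p) (hdep' p)
  refine ⟨S, L, inferInstance, inferInstance, D, a1, b1, c1, fun p hp g => ?_, fun p σ => ?_⟩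
  · obtain ⟨σ, rfl⟩ := AlgEquiv.restrictNormalHom_surjective (F := K) (K₁ := L) (Om K) g
    rw [← hD]
    simp only [dat', dat, ch, if_neg hp]
    rfl
  · rw [← hD]
    exact hdat p σ

omit [DecidableEq ι] in
theorem vn_wL (p : Pl.P) (L : IntermediateField K (Om K)) (z : ι → L) :
    vn (Pl.wL L p) z = vn (Pl.w p) (fun i => (z i : Om K)) := rfl

theorem coe_symM_mulVec (L : IntermediateField K (Om K)) (m : ℕ) (a b d : L)
    (z : Fin (m + 1) → L) : (fun i => ((symM m a b d *ᵥ z) i : Om K)) =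
      symM m (a : Om K) b d *ᵥ fun i => (z i : Om K) := by
  funext i
  have := RingHom.map_mulVec (algebraMap L (Om K)) (symM m a b d) z i
  rw [symM_map] at this
  exact this

theorem gam_symM_mulVec (ρ : Gam K) (m : ℕ) (a b d : Om K) (z : Fin (m + 1) → Om K) :
    symM m (ρ a) (ρ b) (ρ d) *ᵥ (fun i => ρ (z i)) = fun i => ρ ((symM m a b d *ᵥ z) i) := by
  funext i
  have := RingHom.map_mulVec (ρ : Om K →+* Om K) (symM m a b d) z i
  rw [symM_map] at this
  exact this.symm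

/-- Siegel's lemma for binary forms on the rank two quotient. -/
theorem NB.exists_form [CharZero K] {s : ℕ} (A : Matrix ι (Fin s) (Om K)) (x y : ι → Om K)
    (h : LinearIndependent (Om K) (snoc (snoc A x) y)ᵀ) :
    ∃ c : ℝ, ∀ m : ℕ, ∃ f : Fin (m + 1) → Om K, f ≠ 0 ∧ ∃ t : Pl.P → ℝ,
      (Function.support t).Finite ∧
      (∀ p (σ : Gam K), ∃ D, V.R2 p (A.map σ) (σ ∘ x) (σ ∘ y) D ∧
        vn (Pl.w p) (symM m D.1 D.2.1 D.2.2 *ᵥ fun i => σ (f i)) ≤ ex (t p)) ∧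
      m / 2 * (V.mdeg (snoc (snoc A x) y) - V.mdeg A) - c ≤ Pl.dgR t := by
  obtain ⟨S, L, _, _, D, hA, hx, hy, hS, hD⟩ := V.exists_dat A x y h
  obtain ⟨c, hc⟩ := siegelL Pl L S
  have i0 : LinearIndependent (Om K) Aᵀ := indep_of_snoc _ _ (indep_of_snoc _ _ h)
  have surj := AlgEquiv.restrictNormalHom_surjective (F := K) (K₁ := L) (Om K)
  have hmem : ∀ (σ : Gam K), ∀ z ∈ L, σ z ∈ L := by
    intro σ z hz
    have := coe_restrict L σ ⟨z, hz⟩
    simp only at this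
    rw [← this]
    exact SetLike.coe_mem _
  have hne : ∀ p g, (D p g).1 ≠ 0 ∧ (D p g).2.2 ≠ 0 := by
    intro p g
    obtain ⟨σ, rfl⟩ := surj g
    exact ⟨fun e => (hD p σ).1 (by simp [e]), fun e => (hD p σ).2.1 (by simp [e])⟩
  refine ⟨c, fun m => ?_⟩
  obtain ⟨f, hf, t, ht, hft, hdeg⟩ := hc (m + 1)
    (fun p g => symM m (D p g).1 (D p g).2.1 (D p g).2.2) m.succ_pos
    (fun p g => by
      rw [symM_det]
      exact pow_ne_zero _ (mul_ne_zero (hne p g).1 (hne p g).2))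
    (fun p hp g => by rw [hS p hp g]; exact symM_one m)
    (by
      intro p ρ σ z hρ
      obtain ⟨ρ, rfl⟩ := surj ρ
      obtain ⟨σ, rfl⟩ := surj σ
      have hρ' : ∀ y ∈ L, Pl.w p (ρ y) = Pl.w p y := by
        intro y hy
        have := hρ ⟨y, hy⟩
        rwa [Pl.wL_apply, Pl.wL_apply, coe_restrict] at this
      have h2 := hD p (ρ * σ)
      have e1 : A.map (ρ * σ) = (A.map σ).map ρ := rfl
      have e2 : ⇑(ρ * σ) ∘ x = ρ ∘ (σ ∘ x) := rfl
      have e3 : ⇑(ρ * σ) ∘ y = ρ ∘ (σ ∘ y) := rfl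
      rw [e1, e2, e3, map_mul] at h2
      have key := V.R2_map p L ρ hρ' (A.map σ) (σ ∘ x) (σ ∘ y) (indep_map_gam A i0 σ)
        (fun i j => hmem σ _ (hA i j)) (fun i => hmem σ _ (hx i)) (fun i => hmem σ _ (hy i)) _ _
        (hD p σ) h2 (SetLike.coe_mem _) (SetLike.coe_mem _) (SetLike.coe_mem _)
        (SetLike.coe_mem _) (SetLike.coe_mem _)
      rw [vn_wL, vn_wL, coe_symM_mulVec, coe_symM_mulVec,
        vn_symM_congr (Pl.w p) m _ _ _ _ _ _ (by simpa using (hne p _).1) h2.1 key]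
      have e4 : (fun i => (((AlgEquiv.restrictNormalHom L ρ) ∘ z) i : Om K)) =
          fun i => ρ (z i) := by
        funext i
        exact coe_restrict L ρ (z i)
      rw [e4, gam_symM_mulVec, vn_le_iff]
      intro i
      rw [← coe_symM_mulVec, hρ' _ (SetLike.coe_mem _)]
      exact le_vn (Pl.w p) (fun i => ((symM m _ _ _ *ᵥ z) i : Om K)) i)
  refine ⟨fun i => f i, fun e => hf (funext fun i => by simpa using congrFun e i), t, ht,
    fun p σ => ⟨_, hD p σ, ?_⟩, le_trans (le_of_eq ?_) hdeg⟩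
  · have := hft p (AlgEquiv.restrictNormalHom L σ)
    rw [vn_wL, coe_symM_mulVec] at this
    convert this using 3
    funext i
    exact (coe_restrict L σ (f i)).symm
  · have hN : (Fintype.card (L ≃ₐ[K] L) : ℝ) ≠ 0 := by positivity
    have hloc : ∀ p, V.ld p (snoc (snoc A x) y) - V.ld p A =
        (∑ g, nl (Pl.wL L p ((D p g).1 * (D p g).2.2))) / Fintype.card (L ≃ₐ[K] L) := by
      intro p
      rw [NB.ld, NB.ld, ← mean_sub (V.finT_lp p _) (V.finT_lp p _)]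
      refine mean_eq_avg L _ _ fun σ => ?_
      have h1 := hD p σ
      rw [map_snoc, map_snoc, h1.2.2.2, mul_assoc, ← map_mul,
        nl_mul (V.lp_ne_zero p _ (indep_map_gam A i0 σ))
          ((Valuation.ne_zero_iff _).2 (mul_ne_zero h1.1 h1.2.1))]
      simp [Pl.wL_apply]
    rw [NB.mdeg, NB.mdeg, ← Pl.dgR_sub _ _ (V.ld_fin _ h) (V.ld_fin _ i0),
      Pl.dgR_eq_sum _ S fun p hp => by simp [hloc, hS p hp, nl_one]]
    congr 1
    have hm : ((m * (m + 1) / 2 : ℕ) : ℝ) = m * (m + 1) / 2 := by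
      rw [Nat.cast_div (Nat.even_mul_succ_self m).two_dvd (by norm_num)]
      push_cast
      ring
    simp only [hloc, symM_det, map_pow, nl_pow, hm, Finset.mul_sum,
      Finset.sum_div]
    refine Finset.sum_congr rfl fun p _ => Finset.sum_congr rfl fun g _ => ?_
    push_cast
    field_simp

/-- In a rank two subquotient there is a line over the algebraic closure whose degree is almost
the slope. -/
theorem NB.rank2 [CharZero K] {s : ℕ} (A : Matrix ι (Fin s) (Om K)) (x y : ι → Om K)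
    (h : LinearIndependent (Om K) (snoc (snoc A x) y)ᵀ) (ε : ℝ) (hε : 0 < ε) :
    ∃ α β : Om K, (α ≠ 0 ∨ β ≠ 0) ∧
      (V.mdeg A + V.mdeg (snoc (snoc A x) y)) / 2 - ε ≤ V.mdeg (snoc A (α • x + β • y)) := by
  obtain ⟨c, hc⟩ := V.exists_form A x y h
  have i0 : LinearIndependent (Om K) Aᵀ := indep_of_snoc _ _ (indep_of_snoc _ _ h)
  obtain ⟨m, hm⟩ := exists_nat_gt (|c| / ε)
  have hm0 : (0 : ℝ) < m := lt_of_le_of_lt (by positivity) hm
  obtain ⟨f, hf, t, ht, hft, hdeg⟩ := hc m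
  obtain ⟨e, α, β, he, hab, hfac⟩ := exists_factor m f hf
  have il : ∀ l, LinearIndependent (Om K) (snoc A (α l • x + β l • y))ᵀ :=
    fun l => indep_snoc_comb A x y h _ _ (hab l)
  have hloc : ∀ p, t p ≤ Pl.lw p e + ∑ l, (V.ld p (snoc A (α l • x + β l • y)) - V.ld p A) := by
    intro p
    have hF : ∀ l, FinT fun σ : Gam K =>
        nl (V.lp p ((snoc A (α l • x + β l • y)).map σ)) - nl (V.lp p (A.map σ)) :=
      fun l => (V.finT_lp p _).sub (V.finT_lp p _)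
    have hG : FinT fun σ : Gam K => nl (Pl.w p (σ e)) := FinT.apply (fun z => nl (Pl.w p z)) e
    simp only [NB.ld, ← mean_sub (V.finT_lp p _) (V.finT_lp p _)]
    rw [← mean_sum _ fun l _ => hF l, Places.lw, ← mean_add hG (FinT.sum _ fun l _ => hF l),
      ← mean_const (K := K) (t p)]
    refine mean_mono (FinT.const _) (hG.add (FinT.sum _ fun l _ => hF l)) fun σ => ?_
    obtain ⟨D, hD, hv⟩ := hft p σ
    have hfac' := congrArg (Polynomial.map (σ : Om K →+* Om K)) hfac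
    simp only [Polynomial.map_sum, Polynomial.map_mul, Polynomial.map_pow, Polynomial.map_C,
      Polynomial.map_X, Polynomial.map_prod, Polynomial.map_add, RingHom.coe_coe] at hfac'
    rw [vn_symM (Pl.w p) m _ _ _ hD.1 _ _ _ _ hfac'] at hv
    have hA0 := V.lp_ne_zero p _ (indep_map_gam A i0 σ)
    have hl0 : ∀ l, max (Pl.w p (D.1 * σ (α l) + D.2.1 * σ (β l))) (Pl.w p (D.2.2 * σ (β l))) ≠
        0 := by
      intro l e0
      have := V.lp_ne_zero p _ (indep_map_gam _ (il l) σ)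
      rw [snoc_comb_map, hD.2.2.1, e0, mul_zero] at this
      exact this rfl
    have he0 : Pl.w p (σ e) ≠ 0 := (Valuation.ne_zero_iff _).2 (by simpa using he)
    rw [← le_nl_iff (mul_ne_zero he0 (Finset.prod_ne_zero_iff.2 fun l _ => hl0 l)),
      nl_mul he0 (Finset.prod_ne_zero_iff.2 fun l _ => hl0 l), nl_prod _ _ fun l _ => hl0 l] at hv
    refine hv.trans (le_of_eq ?_)
    congr 1
    refine Finset.sum_congr rfl fun l _ => ?_
    rw [snoc_comb_map, hD.2.2.1, nl_mul hA0 (hl0 l)]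
    ring
  have hs : ∀ l, (Function.support fun p =>
      V.ld p (snoc A (α l • x + β l • y)) - V.ld p A).Finite :=
    fun l => supp_sub (V.ld_fin _ (il l)) (V.ld_fin _ i0)
  have hglob := Pl.dgR_mono _ _ ht (supp_add (Pl.lw_fin e he) (supp_sum _ fun l _ => hs l)) hloc
  rw [Pl.dgR_add _ _ (Pl.lw_fin e he) (supp_sum _ fun l _ => hs l), Pl.dgR_lw e he, zero_add,
    Pl.dgR_sum _ _ fun l _ => hs l] at hglob
  simp only [fun l => Pl.dgR_sub _ _ (V.ld_fin _ (il l)) (V.ld_fin _ i0)] at hglob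
  by_contra hcon
  push Not at hcon
  have h1 : ∑ l : Fin m, (V.mdeg (snoc A (α l • x + β l • y)) - V.mdeg A) ≤
      ∑ _l : Fin m, ((V.mdeg (snoc (snoc A x) y) - V.mdeg A) / 2 - ε) :=
    Finset.sum_le_sum fun l _ => by linarith [hcon _ _ (hab l)]
  simp only [Finset.sum_const, Finset.card_univ, Fintype.card_fin, nsmul_eq_mul] at h1
  have h2 : |c| < m * ε := by rwa [div_lt_iff₀ hε] at hm
  have h3 := hdeg.trans (hglob.trans h1)
  have h4 := le_abs_self c
  nlinarith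

end Crest.Agent.R169.TT
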