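import Crest.Agent.R169.TTDefs

/-!
# Row 169, part TT: Siegel's lemma over `K` (the Riemann–Roch inequality on the rational curve).
-/

set_option autoImplicit false

namespace Crest.Agent.R169.TT

open Matrix

variable {k K : Type} [Field k] [Field K] [Algebra k K] (Pl : Places k K)

/-- `x` is integral at `p`. -/
def Places.Int (p : Pl.P) (x : K) : Prop := x ≠ 0 → 0 ≤ Pl.v p x

section basic
variable (p : Pl.P)

theorem Places.sk_v_one : Pl.v p 1 = 0 := by
  have := Pl.v_const p 1 one_ne_zero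
  rwa [map_one] at this

theorem Places.sk_v_inv {x : K} (hx : x ≠ 0) : Pl.v p x⁻¹ = -Pl.v p x := by
  have := Pl.v_mul p x x⁻¹ hx (inv_ne_zero hx)
  rw [mul_inv_cancel₀ hx, Pl.sk_v_one] at this
  omega

theorem Places.sk_v_pow {x : K} (hx : x ≠ 0) (n : ℕ) : Pl.v p (x ^ n) = n * Pl.v p x := by
  induction n with
  | zero => simp [Pl.sk_v_one]
  | succ n ih =>
    rw [pow_succ, Pl.v_mul p _ _ (pow_ne_zero n hx) hx, ih]
    push_cast
    ring

theorem Places.sk_v_zpow {x : K} (hx : x ≠ 0) (n : ℤ) : Pl.v p (x ^ n) = n * Pl.v p x := by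
  obtain ⟨m, rfl | rfl⟩ := n.eq_nat_or_neg
  · rw [zpow_natCast, Pl.sk_v_pow p hx]
  · rw [_root_.zpow_neg, zpow_natCast, Pl.sk_v_inv p (pow_ne_zero m hx), Pl.sk_v_pow p hx, neg_mul]

/-- The elements of value at least `n`. -/
def Places.skGe (n : ℤ) : Submodule k K where
  carrier := {x | x ≠ 0 → n ≤ Pl.v p x}
  zero_mem' h := absurd rfl h
  add_mem' {x y} hx hy hxy := by
    by_cases h1 : x = 0
    · subst h1
      rw [zero_add] at hxy ⊢
      exact hy hxy
    by_cases h2 : y = 0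
    · subst h2
      rw [add_zero]
      exact hx h1
    exact (le_min (hx h1) (hy h2)).trans (Pl.v_add p x y h1 h2 hxy)
  smul_mem' c x hx hcx := by
    have h1 : c ≠ 0 := left_ne_zero_of_smul hcx
    have h2 : x ≠ 0 := right_ne_zero_of_smul hcx
    rw [Algebra.smul_def, Pl.v_mul p _ _ ((_root_.map_ne_zero _).2 h1) h2, Pl.v_const p c h1,
      zero_add]
    exact hx h2

theorem Places.sk_mem {n : ℤ} {x : K} : x ∈ Pl.skGe p n ↔ (x ≠ 0 → n ≤ Pl.v p x) := Iff.rfl

theorem Places.sk_self (x : K) {n : ℤ} (h : n ≤ Pl.v p x) : x ∈ Pl.skGe p n := fun _ => h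

variable {Pl p}

theorem Places.sk_mul {m n : ℤ} {x y : K} (hx : x ∈ Pl.skGe p m) (hy : y ∈ Pl.skGe p n) :
    x * y ∈ Pl.skGe p (m + n) := fun hxy => by
  have h1 := left_ne_zero_of_mul hxy
  have h2 := right_ne_zero_of_mul hxy
  rw [Pl.v_mul p x y h1 h2]
  exact add_le_add (hx h1) (hy h2)

theorem Places.sk_mono {m n : ℤ} {x : K} (hx : x ∈ Pl.skGe p m) (h : n ≤ m) : x ∈ Pl.skGe p n :=
  fun h1 => h.trans (hx h1)

theorem Places.sk_mul0 {x y : K} (hx : x ∈ Pl.skGe p 0) (hy : y ∈ Pl.skGe p 0) :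
    x * y ∈ Pl.skGe p 0 := by
  simpa using Places.sk_mul hx hy

theorem Places.sk_prod {α : Type} (s : Finset α) {x : α → K} (hx : ∀ a ∈ s, x a ∈ Pl.skGe p 0) :
    ∏ a ∈ s, x a ∈ Pl.skGe p 0 :=
  Finset.prod_induction x (· ∈ Pl.skGe p 0) (fun _ _ => Places.sk_mul0)
    (Pl.sk_self p 1 (Pl.sk_v_one p).ge) hx

theorem Places.sk_det {ι : Type} [Fintype ι] [DecidableEq ι] {h : Matrix ι ι K}
    (hi : ∀ i j, h i j ∈ Pl.skGe p 0) : h.det ∈ Pl.skGe p 0 := by
  rw [det_apply]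
  refine Submodule.sum_mem _ fun σ _ => ?_
  have := Places.sk_prod Finset.univ (x := fun i => h (σ i) i) fun i _ => hi _ _
  rcases Int.units_eq_one_or (Equiv.Perm.sign σ) with h | h
  · rwa [h, one_smul]
  · rw [h, Units.neg_smul, one_smul]
    exact Submodule.neg_mem _ this

theorem Places.sk_dot {ι : Type} [Fintype ι] {x y : ι → K} (hx : ∀ i, x i ∈ Pl.skGe p 0)
    (hy : ∀ i, y i ∈ Pl.skGe p 0) : x ⬝ᵥ y ∈ Pl.skGe p 0 :=
  Submodule.sum_mem _ fun i _ => Places.sk_mul0 (hx i) (hy i)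

end basic

/-- The condition `v p (φ x) ≥ 1` has codimension at most `d p` in a finite-dimensional `k`-space
`A` on which the `k`-linear map `φ` takes integral values.  (The set of such `x` is a
`k`-submodule `A'`; if `finrank A > finrank A' + d p` pick `d p + 1` vectors of `A` independent
modulo `A'` and contradict `Pl.res`.) -/
theorem Places.codim_one {M : Type} [AddCommGroup M] [Module k M] (p : Pl.P) (A : Submodule k M)
    [FiniteDimensional k A] (φ : M →ₗ[k] K) (hφ : ∀ x ∈ A, Pl.Int p (φ x)) :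
    ∃ A' : Submodule k M, A' ≤ A ∧ Module.finrank k A ≤ Module.finrank k A' + Pl.d p ∧
      ∀ x ∈ A', φ x ≠ 0 → 1 ≤ Pl.v p (φ x) := by
  let ψ : A →ₗ[k] K ⧸ Pl.skGe p 1 := (Pl.skGe p 1).mkQ ∘ₗ φ ∘ₗ A.subtype
  have hψ : ∀ x : A, ψ x = 0 ↔ φ x ∈ Pl.skGe p 1 := fun x => Submodule.Quotient.mk_eq_zero _
  refine ⟨(LinearMap.ker ψ).map A.subtype, Submodule.map_subtype_le _ _, ?_, ?_⟩
  · rw [Submodule.finrank_map_subtype_eq, ← ψ.finrank_range_add_finrank_ker, add_comm]
    refine Nat.add_le_add_left ?_ _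
    by_contra hlt
    obtain ⟨f, hf⟩ := exists_linearIndependent_of_le_finrank
      (show Pl.d p + 1 ≤ Module.finrank k (LinearMap.range ψ) by omega)
    choose x hx using fun i => (f i).2
    obtain ⟨c, hc, h1⟩ := Pl.res p (fun i => φ (x i)) fun i => hφ _ (x i).2
    have h2 : ψ (∑ i, c i • x i) = 0 := by
      rw [hψ]
      simpa [Pl.sk_mem] using h1
    refine hc (funext (Fintype.linearIndependent_iff.1 hf c (Subtype.ext ?_)))
    simpa [hx] using h2
  · rintro _ ⟨x, hx, rfl⟩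
    exact (hψ x).1 hx

/-- One step of the reduction. -/
theorem Places.sk_step {ι : Type} [Fintype ι] [DecidableEq ι] (p : Pl.P) (h : Matrix ι ι K)
    (hd : h.det ≠ 0) (hn : ¬ ∀ i j, h⁻¹ i j ∈ Pl.skGe p 0) :
    ∃ ξ : ι → K, (∃ i, ξ i = 1) ∧ (∀ c, ξ c ∈ Pl.skGe p 0) ∧ ∀ c, (ξ ᵥ* h) c ∈ Pl.skGe p 1 := by
  classical
  simp only [Pl.sk_mem, not_forall, not_le] at hn
  obtain ⟨j₀, i₀, h0, h1⟩ := hn
  obtain ⟨⟨j, i⟩, h2, h3⟩ := Finset.exists_min_image
    (Finset.univ.filter fun q : ι × ι => h⁻¹ q.1 q.2 ≠ 0) (fun q => Pl.v p (h⁻¹ q.1 q.2))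
    ⟨(j₀, i₀), by simpa using h0⟩
  simp only [Finset.mem_filter, Finset.mem_univ, true_and] at h2 h3
  have h4 := h3 (j₀, i₀) h0
  refine ⟨(h⁻¹ j i)⁻¹ • h⁻¹ j, ⟨i, by simp [h2]⟩, fun c hc => ?_, fun c => ?_⟩
  · have h5 : h⁻¹ j c ≠ 0 := right_ne_zero_of_mul hc
    have h6 := h3 (j, c) h5
    rw [Pi.smul_apply, smul_eq_mul, Pl.v_mul p _ _ (inv_ne_zero h2) h5, Pl.sk_v_inv p h2]
    simp only at h6
    omega
  · have h5 : h⁻¹ j ᵥ* h = (1 : Matrix ι ι K) j := by
      rw [← nonsing_inv_mul h (Ne.isUnit hd)]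
      rfl
    rw [smul_vecMul, h5, Pi.smul_apply, smul_eq_mul, one_apply]
    split_ifs
    · rw [mul_one]
      refine Pl.sk_self p _ ?_
      rw [Pl.sk_v_inv p h2]
      simp only at h4
      omega
    · simp

/-- Local index.  `h` is integral with `v (det h) = e`; `φ` is a `k`-linear map with integral
values on `A`.  Induct on `e`.  If `h⁻¹` is integral take `A' = A`.  Otherwise take an entry of
`h⁻¹` of minimal value `-f < 0`, at `(j, i)`; `ξ = row j of h⁻¹ / (h⁻¹ j i)` is integral,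
`ξ i = 1`, and `ξ h` is `(h⁻¹ j i)⁻¹ e_j`, of value `≥ 1`.  Let `E` be the identity with row `i`
replaced by `ξ / π` (`det E = 1/π`); `h' = E h` is integral with `v (det h') = e - 1`, use
`codim_one` for `x ↦ ξ ⬝ φ x`, then the induction hypothesis for `h'` and `E φ`
(`h'⁻¹ E = h⁻¹`).  (If `e = 0` then `h⁻¹ = adjugate / det` is integral, or: the step above would
produce an integral matrix with determinant of negative value.) -/
theorem Places.codim_local {M ι : Type} [AddCommGroup M] [Module k M] [Fintype ι] [DecidableEq ι]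
    (p : Pl.P) (e : ℕ) (h : Matrix ι ι K) (hd : h.det ≠ 0) (hi : ∀ i j, Pl.Int p (h i j))
    (he : Pl.v p h.det = e) (A : Submodule k M) [FiniteDimensional k A] (φ : M →ₗ[k] (ι → K))
    (hφ : ∀ x ∈ A, ∀ i, Pl.Int p (φ x i)) :
    ∃ A' : Submodule k M, A' ≤ A ∧ Module.finrank k A ≤ Module.finrank k A' + Pl.d p * e ∧
      ∀ x ∈ A', ∀ i, Pl.Int p ((h⁻¹ *ᵥ φ x) i) := by
  induction e generalizing h A φ with
  | zero =>
    refine ⟨A, le_rfl, by simp, fun x hx i => ?_⟩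
    refine Places.sk_dot (fun j => ?_) (hφ x hx)
    rw [inv_def, Ring.inverse_eq_inv', Matrix.smul_apply, smul_eq_mul]
    refine Places.sk_mul0 (Pl.sk_self p _ (by rw [Pl.sk_v_inv p hd, he]; simp)) ?_
    rw [adjugate_apply]
    refine Places.sk_det fun r c => ?_
    rw [updateRow_apply]
    split_ifs
    · rw [Pi.single_apply]
      split_ifs
      · exact Pl.sk_self p 1 (Pl.sk_v_one p).ge
      · exact Submodule.zero_mem _
    · exact hi r c
  | succ e ih =>
    by_cases hn : ∀ i j, h⁻¹ i j ∈ Pl.skGe p 0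
    · exact ⟨A, le_rfl, Nat.le_add_right _ _, fun x hx i => Places.sk_dot (hn i) (hφ x hx)⟩
    obtain ⟨ξ, ⟨i, h1⟩, h2, h3⟩ := Pl.sk_step p h hd hn
    obtain ⟨π, hπ, hπ'⟩ := Pl.unif p
    have hπi : π⁻¹ ∈ Pl.skGe p (-1) := Pl.sk_self p _ (by rw [Pl.sk_v_inv p hπ, hπ'])
    set E : Matrix ι ι K := (1 : Matrix ι ι K).updateRow i (π⁻¹ • ξ) with hE
    have hEd : E.det = π⁻¹ := by
      rw [hE, ← cramer_transpose_apply, transpose_one, cramer_one]
      simp [h1]
    have hEd' : E.det ≠ 0 := hEd ▸ inv_ne_zero hπ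
    let ψ : M →ₗ[k] K :=
      { toFun := fun x => ξ ⬝ᵥ φ x
        map_add' := fun x y => by rw [map_add, dotProduct_add]
        map_smul' := fun c x => by rw [map_smul, dotProduct_smul]; rfl }
    obtain ⟨A₁, h4, h5, h6⟩ := Pl.codim_one p A ψ fun x hx => Places.sk_dot h2 (hφ x hx)
    have : FiniteDimensional k A₁ := Submodule.finiteDimensional_of_le h4
    obtain ⟨A', h7, h8, h9⟩ := ih (E * h) (by rw [det_mul]; exact mul_ne_zero hEd' hd)
      (fun r c => by
        rw [hE, updateRow_mul, Matrix.one_mul, updateRow_apply]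
        split_ifs
        · rw [smul_vecMul, Pi.smul_apply, smul_eq_mul]
          exact (Places.sk_mul hπi (h3 c) :)
        · exact hi r c)
      (by
        rw [det_mul, Pl.v_mul p _ _ hEd' hd, hEd, Pl.sk_v_inv p hπ, hπ', he]
        push_cast
        ring)
      A₁ ((E.mulVecLin.restrictScalars k) ∘ₗ φ) (fun x hx r => by
        change Pl.Int p ((E *ᵥ φ x) r)
        rw [hE, updateRow_mulVec, one_mulVec, Function.update_apply]
        split_ifs
        · rw [smul_dotProduct, smul_eq_mul]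
          exact (Places.sk_mul hπi (h6 x hx) :)
        · exact hφ x (h4 hx) r)
    refine ⟨A', h7.trans h4, by rw [mul_add]; omega, fun x hx r => ?_⟩
    have h10 := h9 x hx r
    change Pl.Int p (((E * h)⁻¹ *ᵥ (E *ᵥ φ x)) r) at h10
    rwa [mulVec_mulVec, Matrix.mul_inv_rev, Matrix.mul_assoc, nonsing_inv_mul _ (Ne.isUnit hEd'),
      Matrix.mul_one] at h10

/-- Several places at once. -/
theorem Places.sk_multi {M ι : Type} [AddCommGroup M] [Module k M] [Fintype ι] [DecidableEq ι]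
    [FiniteDimensional k M] (S : Finset Pl.P) (h : Pl.P → Matrix ι ι K) (hd : ∀ p, (h p).det ≠ 0)
    (hi : ∀ p i j, Pl.Int p (h p i j)) (φ : Pl.P → M →ₗ[k] (ι → K))
    (hφ : ∀ p x i, Pl.Int p (φ p x i)) :
    ∃ A : Submodule k M,
      (Module.finrank k M : ℤ) ≤ Module.finrank k A + ∑ p ∈ S, Pl.d p * Pl.v p (h p).det ∧
      ∀ p ∈ S, ∀ x ∈ A, ∀ i, Pl.Int p (((h p)⁻¹ *ᵥ φ p x) i) := by
  classical
  induction S using Finset.induction_on with
  | empty => exact ⟨⊤, by simp, by simp⟩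
  | insert q S hq ih =>
    obtain ⟨A, h1, h2⟩ := ih
    obtain ⟨e, he⟩ := Int.eq_ofNat_of_zero_le (Places.sk_det (hi q) (hd q))
    obtain ⟨A', h3, h4, h5⟩ := Pl.codim_local q e (h q) (hd q) (hi q) he A (φ q) fun x _ => hφ q x
    refine ⟨A', ?_, fun p hp x hx => ?_⟩
    · rw [Finset.sum_insert hq, he]
      have : (Module.finrank k A : ℤ) ≤ Module.finrank k A' + Pl.d q * e := by exact_mod_cast h4
      omega
    · rcases Finset.mem_insert.1 hp with rfl | hp
      · exact h5 x hx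
      · exact h2 p hp x (h3 hx)

theorem Places.sk_indep (n : ℕ) : LinearIndependent k fun j : Fin n => Pl.τ ^ (j : ℕ) := by
  induction n with
  | zero => exact linearIndependent_empty_type
  | succ n ih =>
    refine linearIndependent_finSucc'.2 ⟨ih, fun h => ?_⟩
    have h1 : Submodule.span k (Set.range (Fin.init fun j : Fin (n + 1) => Pl.τ ^ (j : ℕ))) ≤
        Pl.skGe Pl.inf (1 - n) := by
      rw [Submodule.span_le]
      rintro _ ⟨j, rfl⟩
      refine Pl.sk_self _ _ ?_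
      simp only [Fin.init, Fin.val_castSucc]
      rw [Pl.sk_v_pow _ Pl.τ_ne, Pl.v_inf]
      have := j.2
      omega
    have h2 := h1 h (pow_ne_zero _ Pl.τ_ne)
    rw [Pl.sk_v_pow _ Pl.τ_ne, Pl.v_inf, Fin.val_last] at h2
    omega

/-- Clearing finitely many denominators away from infinity. -/
theorem Places.sk_clear (s : Finset (Pl.P × K)) :
    ∃ D : K, D ≠ 0 ∧ (∀ q, q ≠ Pl.inf → 0 ≤ Pl.v q D) ∧
      ∀ z ∈ s, z.1 ≠ Pl.inf → D * z.2 ∈ Pl.skGe z.1 0 := by
  classical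
  induction s using Finset.induction_on with
  | empty => exact ⟨1, one_ne_zero, fun q _ => (Pl.sk_v_one q).ge, by simp⟩
  | insert z s hz ih =>
    obtain ⟨D, h1, h2, h3⟩ := ih
    by_cases hz' : z.1 = Pl.inf
    · refine ⟨D, h1, h2, fun y hy => ?_⟩
      rcases Finset.mem_insert.1 hy with rfl | hy
      · exact fun h => absurd hz' h
      · exact h3 y hy
    obtain ⟨π, h4, h5, h6⟩ := Pl.clear z.1 hz'
    have h7 : ∀ q, q ≠ Pl.inf → 0 ≤ Pl.v q (π ^ (-Pl.v z.1 z.2).toNat) := fun q hq => by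
      rw [Pl.sk_v_pow q h4]
      exact mul_nonneg (Nat.cast_nonneg _) (h6 q hq)
    refine ⟨π ^ (-Pl.v z.1 z.2).toNat * D, mul_ne_zero (pow_ne_zero _ h4) h1, fun q hq => ?_,
      fun y hy hy' => ?_⟩
    · rw [Pl.v_mul q _ _ (pow_ne_zero _ h4) h1]
      exact add_nonneg (h7 q hq) (h2 q hq)
    · rcases Finset.mem_insert.1 hy with rfl | hy
      · rw [mul_right_comm]
        refine Places.sk_mul0 (fun h => ?_) (Pl.sk_self _ _ (h2 _ hy'))
        rw [Pl.v_mul _ _ _ (pow_ne_zero _ h4) (right_ne_zero_of_mul h), Pl.sk_v_pow _ h4]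
        have h8 : -Pl.v y.1 y.2 ≤ ((-Pl.v y.1 y.2).toNat : ℤ) := Int.self_le_toNat _
        nlinarith [Nat.cast_nonneg (α := ℤ) (-Pl.v y.1 y.2).toNat]
      · rw [mul_assoc]
        exact Places.sk_mul0 (Pl.sk_self _ _ (h7 _ hy')) (h3 y hy hy')

/-- Siegel's lemma.  Let `R = card ι`, `T` an integer with `deg / R - 1 ≤ T < deg / R + 1`
(e.g. the floor).  Choose `D ≠ 0`, a product of powers of `clear` elements, integral away from
`inf`, with `D (g p)⁻¹` integral at every bad `p ≠ inf`.  Ambient space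
`A = {(φ_i(τ) / D)_i : deg φ_i ≤ T'}` of dimension `R (T'+1)` (the powers of `τ` have distinct
values at `inf`).  At `p ≠ inf` in the finite set `S = bad ∪ {v p D ≠ 0}` apply `codim_local` to
`h = D (g p)⁻¹`, `φ x = D x`; at `inf` to `h = τ^(-T-T') D (g inf)⁻¹`, `φ x = τ^(-T') D x` with `T'`
large.  The total codimension is `R ∑ d v(D) - deg + R T + R T' < R (T'+1)` by `Pl.pf`.
Take `t` supported at `inf` with value `T`. -/
theorem siegelK {Pl : Places k K} {ι : Type} [Fintype ι] [DecidableEq ι] [Nonempty ι]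
    (V : NB Pl ι) (ha : ∀ p, V.a p = 0) :
    ∃ x : ι → K, x ≠ 0 ∧ ∃ t : Pl.P → ℚ, (Function.support t).Finite ∧ (∀ p, V.Ge p x (t p)) ∧
      V.deg / Fintype.card ι - 1 ≤ Pl.dg t := by
  classical
  set R := Fintype.card ι with hR
  have hR0 : 0 < R := Fintype.card_pos
  set T : ℤ := ⌊V.deg / R⌋ with hT
  obtain ⟨D, hD, hD1, hD2⟩ := Pl.sk_clear ((V.fin.toFinset ×ˢ (Finset.univ : Finset (ι × ι))).image
    fun z => (z.1, (V.g z.1)⁻¹ z.2.1 z.2.2))
  have hD3 : ∀ p, p ≠ Pl.inf → ∀ i j, D * (V.g p)⁻¹ i j ∈ Pl.skGe p 0 := fun p hp i j => by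
    by_cases hb : V.g p = 1 ∧ V.a p = 0
    · rw [hb.1, inv_one, one_apply]
      split_ifs
      · rw [mul_one]
        exact Pl.sk_self _ _ (hD1 p hp)
      · simp
    · exact hD2 (p, (V.g p)⁻¹ i j)
        (Finset.mem_image.2 ⟨(p, (i, j)), by simpa using (by tauto), rfl⟩) hp
  obtain ⟨T', hT'⟩ : ∃ T' : ℕ, ∀ i j, D * (V.g Pl.inf)⁻¹ i j ∈ Pl.skGe Pl.inf (-T - T') := by
    obtain ⟨T', h⟩ := Finite.exists_le fun q : ι × ι =>
      (-T - Pl.v Pl.inf (D * (V.g Pl.inf)⁻¹ q.1 q.2)).toNat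
    refine ⟨T', fun i j => Pl.sk_self _ _ ?_⟩
    have := h (i, j)
    simp only at this
    omega
  -- the twists
  let α : Pl.P → K := fun p => if p = Pl.inf then Pl.τ ^ (-(T' : ℤ)) else 1
  let β : Pl.P → K := fun p => if p = Pl.inf then Pl.τ ^ (-T) else 1
  have hα : ∀ p, α p ≠ 0 ∧ Pl.v p (α p) = if p = Pl.inf then (T' : ℤ) else 0 := fun p => by
    by_cases hp : p = Pl.inf
    · simp only [α, hp, if_true]
      exact ⟨zpow_ne_zero _ Pl.τ_ne, by rw [Pl.sk_v_zpow _ Pl.τ_ne, Pl.v_inf]; ring⟩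
    · simp only [α, hp, if_false]
      exact ⟨one_ne_zero, Pl.sk_v_one p⟩
  have hβ : ∀ p, β p ≠ 0 ∧ Pl.v p (β p) = if p = Pl.inf then T else 0 := fun p => by
    by_cases hp : p = Pl.inf
    · simp only [β, hp, if_true]
      exact ⟨zpow_ne_zero _ Pl.τ_ne, by rw [Pl.sk_v_zpow _ Pl.τ_ne, Pl.v_inf]; ring⟩
    · simp only [β, hp, if_false]
      exact ⟨one_ne_zero, Pl.sk_v_one p⟩
  have hc : ∀ p, α p * β p * D ≠ 0 := fun p => mul_ne_zero (mul_ne_zero (hα p).1 (hβ p).1) hD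
  let ψ : (ι → Fin (T' + 1) → k) →ₗ[k] (ι → K) :=
    { toFun := fun c i => ∑ j, c i j • Pl.τ ^ (j : ℕ)
      map_add' := fun c c' => by
        funext i
        simp [add_smul, Finset.sum_add_distrib]
      map_smul' := fun c c' => by
        funext i
        simp [Finset.smul_sum, mul_smul] }
  have hψ : ∀ c i, ψ c i = ∑ j, c i j • Pl.τ ^ (j : ℕ) := fun _ _ => rfl
  have hψi : ∀ p c i, α p * ψ c i ∈ Pl.skGe p 0 := fun p c i => by
    have h1 : ψ c i ∈ Pl.skGe p (if p = Pl.inf then -(T' : ℤ) else 0) := by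
      rw [hψ]
      refine Submodule.sum_mem _ fun j _ => Submodule.smul_mem _ _ (Pl.sk_self _ _ ?_)
      rw [Pl.sk_v_pow _ Pl.τ_ne]
      split_ifs with hp
      · rw [hp, Pl.v_inf]
        have := j.2
        omega
      · exact mul_nonneg (Nat.cast_nonneg _) (Pl.v_τ p hp)
    refine Places.sk_mono (Places.sk_mul (Pl.sk_self p _ (hα p).2.ge) h1) ?_
    split_ifs <;> simp
  have hdet : ∀ p, ((α p * β p * D) • (V.g p)⁻¹).det = (α p * β p * D) ^ R * ((V.g p).det)⁻¹ :=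
    fun p => by rw [det_smul, det_nonsing_inv, Ring.inverse_eq_inv']
  have hinv : ∀ p, ((α p * β p * D) • (V.g p)⁻¹)⁻¹ = (α p * β p * D)⁻¹ • V.g p := fun p => by
    refine inv_eq_right_inv ?_
    rw [Matrix.smul_mul, Matrix.mul_smul, smul_smul, mul_inv_cancel₀ (hc p), one_smul,
      nonsing_inv_mul _ (Ne.isUnit (V.det_ne p))]
  let S : Finset Pl.P := insert Pl.inf (V.fin.toFinset ∪ (Pl.fin D hD).toFinset)
  have hS : ∀ p, p ∉ S → p ≠ Pl.inf ∧ V.g p = 1 ∧ Pl.v p D = 0 := fun p hp => by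
    simp only [S, Finset.mem_insert, Finset.mem_union, Set.Finite.mem_toFinset, Set.mem_ofPred_eq,
      not_or, not_not] at hp
    exact ⟨hp.1, hp.2.1.1, hp.2.2⟩
  have hSi : Pl.inf ∈ S := Finset.mem_insert_self _ _
  obtain ⟨A, h1, h2⟩ := Pl.sk_multi S (fun p => (α p * β p * D) • (V.g p)⁻¹)
    (fun p => by
      rw [hdet]
      exact mul_ne_zero (pow_ne_zero _ (hc p)) (inv_ne_zero (V.det_ne p)))
    (fun p i j => by
      change α p * β p * D * (V.g p)⁻¹ i j ∈ Pl.skGe p 0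
      rw [mul_assoc]
      have h3 := Places.sk_mul (Pl.sk_self p _ (hα p).2.ge) (Pl.sk_self p _ (hβ p).2.ge)
      by_cases hp : p = Pl.inf
      · simp only [if_pos hp] at h3
        subst hp
        exact Places.sk_mono (Places.sk_mul h3 (hT' i j)) (by omega)
      · simp only [if_neg hp] at h3
        exact Places.sk_mono (Places.sk_mul h3 (hD3 p hp i j)) (by omega))
    (fun p => α p • ψ) (fun p c i => hψi p c i)
  -- the count
  have e1 : ∑ p ∈ S, (Pl.d p : ℤ) * Pl.v p D = 0 := by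
    rw [← Pl.pf D hD]
    refine (finsum_eq_sum_of_support_subset _ fun p hp => ?_).symm
    by_contra h
    exact hp (by simp [(hS p h).2.2])
  have e2 : V.deg = ((∑ p ∈ S, (Pl.d p : ℤ) * Pl.v p (V.g p).det : ℤ) : ℚ) := by
    rw [NB.deg, Places.dg, finsum_eq_sum_of_support_subset (s := S)]
    · simp [ha]
    · intro p hp
      by_contra h
      exact hp (by simp [(hS p h).2.1, ha, Pl.sk_v_one])
  have e3 : ∑ p ∈ S, (Pl.d p : ℤ) * Pl.v p ((α p * β p * D) • (V.g p)⁻¹).det =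
      R * (T' + T) - ∑ p ∈ S, (Pl.d p : ℤ) * Pl.v p (V.g p).det := by
    have : ∀ p ∈ S, (Pl.d p : ℤ) * Pl.v p ((α p * β p * D) • (V.g p)⁻¹).det =
        (if p = Pl.inf then R * (T' + T) else 0) + R * (Pl.d p * Pl.v p D) -
          Pl.d p * Pl.v p (V.g p).det := fun p _ => by
      rw [hdet, Pl.v_mul p _ _ (pow_ne_zero _ (hc p)) (inv_ne_zero (V.det_ne p)),
        Pl.sk_v_pow p (hc p), Pl.sk_v_inv p (V.det_ne p),
        Pl.v_mul p _ _ (mul_ne_zero (hα p).1 (hβ p).1) hD, Pl.v_mul p _ _ (hα p).1 (hβ p).1,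
        (hα p).2, (hβ p).2]
      split_ifs with hp
      · rw [hp, Pl.d_inf]
        push_cast
        ring
      · ring
    rw [Finset.sum_congr rfl this, Finset.sum_sub_distrib, Finset.sum_add_distrib,
      ← Finset.mul_sum, e1, Finset.sum_ite_eq', if_pos hSi]
    ring
  have e4 : (R : ℤ) * T ≤ ∑ p ∈ S, (Pl.d p : ℤ) * Pl.v p (V.g p).det := by
    have h3 : (T : ℚ) ≤ V.deg / R := Int.floor_le _
    rw [le_div_iff₀ (by exact_mod_cast hR0), e2, mul_comm] at h3
    exact_mod_cast h3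
  have e5 : Module.finrank k (ι → Fin (T' + 1) → k) = R * (T' + 1) := by
    simp [Module.finrank_pi_fintype, hR]
  rw [e3, e5] at h1
  have hA : 0 < Module.finrank k A := by
    have : (0 : ℤ) < Module.finrank k A := by
      push_cast at h1
      nlinarith
    exact_mod_cast this
  obtain ⟨⟨c, hcA⟩, hc0⟩ := Module.finrank_pos_iff_exists_ne_zero.1 hA
  refine ⟨D⁻¹ • ψ c, fun h => hc0 (Subtype.ext ?_), fun p => ((if p = Pl.inf then T else 0 : ℤ) : ℚ), ?_,
    fun p i hi => ?_, ?_⟩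
  · have h3 : ψ c = 0 := (smul_eq_zero.1 h).resolve_left (inv_ne_zero hD)
    funext i
    exact funext (Fintype.linearIndependent_iff.1 (Pl.sk_indep (T' + 1)) (c i) (congrFun h3 i))
  · exact (Set.finite_singleton Pl.inf).subset fun p hp => by
      by_contra h
      exact hp (by simp only [if_neg (show p ≠ Pl.inf from h), Int.cast_zero])
  · have h3 : (β p)⁻¹ * (V.g p *ᵥ (D⁻¹ • ψ c)) i ∈ Pl.skGe p 0 := by
      by_cases hp : p ∈ S
      · have h4 := h2 p hp c hcA i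
        rw [hinv] at h4
        convert (show _ ∈ Pl.skGe p 0 from h4) using 1
        simp only [LinearMap.smul_apply, smul_mulVec, mulVec_smul, Pi.smul_apply, smul_eq_mul]
        have := (hα p).1
        have := (hβ p).1
        field_simp
      · obtain ⟨h4, h5, h6⟩ := hS p hp
        have h7 := hψi p c i
        simp only [α, β, if_neg h4, one_mul, inv_one] at h7 ⊢
        rw [h5, one_mulVec, Pi.smul_apply, smul_eq_mul]
        exact Places.sk_mul0 (Pl.sk_self _ _ (by rw [Pl.sk_v_inv p hD, h6]; simp)) h7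
    have h4 := h3 (mul_ne_zero (inv_ne_zero (hβ p).1) hi)
    rw [Pl.v_mul p _ _ (inv_ne_zero (hβ p).1) hi, Pl.sk_v_inv p (hβ p).1, (hβ p).2] at h4
    have h5 : (if p = Pl.inf then T else 0) ≤ Pl.v p ((V.g p *ᵥ (D⁻¹ • ψ c)) i) := by omega
    rw [ha, Pi.zero_apply, add_zero]
    exact Int.cast_le.2 h5
  · rw [Places.dg, finsum_eq_single _ Pl.inf fun p hp => by simp [hp]]
    simp only [if_true, Pl.d_inf, Nat.cast_one, one_mul]
    exact (Int.sub_one_lt_floor _).le

end Crest.Agent.R169.TT
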