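import Crest.Agent.R169.TTLocA

/-!
# Row 169, part TT: descent of an equivariant family of lattices, up to a bounded error.
-/

set_option autoImplicit false

namespace Crest.Agent.R169.TT

open Matrix
open scoped NNReal Kronecker

variable {K L : Type} [Field K] [Field L] [Algebra K L] [FiniteDimensional K L]
  (w : Valuation L ℝ≥0)

omit [FiniteDimensional K L] in
theorem sep_one_aux (π : K) (hπ0 : π ≠ 0) (hπ : w (algebraMap K L π) < 1) (ρ : L ≃ₐ[K] L)
    (y : L) (hy : y ≠ 0) (h : w (ρ y) < w y) : ∃ z, 1 < w z ∧ w (ρ z) < 1 := by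
  have hq : 0 < w (algebraMap K L π) := by
    rw [pos_iff_ne_zero, Valuation.ne_zero_iff]; simpa using hπ0
  have hB : 0 < w (ρ y) := by
    rw [pos_iff_ne_zero, Valuation.ne_zero_iff]; simpa using hy
  have hA : 0 < w y := hB.trans h
  set q := w (algebraMap K L π) with hqdef
  obtain ⟨M, hM⟩ := exists_pow_lt_of_lt_one hq ((div_lt_one hA).2 h)
  obtain ⟨n, hn1, hn2⟩ := exists_mem_Ico_zpow (pow_pos hB M) ((one_lt_inv₀ hq).2 hπ)
  refine ⟨y ^ M * algebraMap K L π ^ (n + 1), ?_, ?_⟩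
  · rw [map_mul, map_pow, map_zpow₀, ← hqdef, zpow_add_one₀ hq.ne']
    rw [div_pow, div_lt_iff₀ (pow_pos hA M)] at hM
    rw [_root_.inv_zpow, inv_le_iff_one_le_mul₀ (zpow_pos hq n)] at hn1
    calc 1 ≤ w (ρ y) ^ M * q ^ n := hn1
      _ < q * w y ^ M * q ^ n := mul_lt_mul_of_pos_right hM (zpow_pos hq n)
      _ = _ := by ring
  · rw [map_mul, map_pow, map_zpow₀, AlgEquiv.commutes, map_mul, map_pow, map_zpow₀, ← hqdef]
    rwa [_root_.inv_zpow, ← one_div, lt_div_iff₀ (zpow_pos hq _)] at hn2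

omit [FiniteDimensional K L] in
theorem sep_one (π : K) (hπ0 : π ≠ 0) (hπ : w (algebraMap K L π) < 1) (ρ : L ≃ₐ[K] L)
    (h : ¬ ∀ y, w (ρ y) = w y) : ∃ z, 1 < w z ∧ w (ρ z) < 1 := by
  push Not at h
  obtain ⟨y, hy⟩ := h
  have hy0 : y ≠ 0 := by rintro rfl; simp at hy
  rcases lt_or_gt_of_ne hy with h | h
  · exact sep_one_aux w π hπ0 hπ ρ y hy0 h
  · refine sep_one_aux w π hπ0 hπ ρ y⁻¹ (inv_ne_zero hy0) ?_
    rw [map_inv₀, map_inv₀, map_inv₀]
    have hA : 0 < w y := by rwa [pos_iff_ne_zero, Valuation.ne_zero_iff]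
    exact (inv_lt_inv₀ (hA.trans h) hA).2 h

theorem sep_two (hnat : ∀ n : ℕ, n ≠ 0 → w (n : L) = 1) (ρ₀ : L ≃ₐ[K] L) (y : L)
    (h1 : 1 < w y) (h2 : w (ρ₀ y) < 1) :
    ∃ e, w e = 1 ∧ w (ρ₀ e) < 1 ∧ ∀ ρ : L ≃ₐ[K] L, w (ρ e) ≤ 1 := by
  have hlt : ∀ (z : L) (c c' : ℕ), c < c' → w (c + z) < 1 → w (c' + z) < 1 → False := by
    intro z c c' hc a a'
    have := lt_of_le_of_lt (w.map_sub (c' + z) (c + z)) (max_lt a' a)
    rw [add_sub_add_right_eq_sub, ← Nat.cast_sub hc.le, hnat _ (by omega)] at this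
    exact lt_irrefl _ this
  have hfin : (⋃ ρ : L ≃ₐ[K] L, {c : ℕ | w (c + ρ y) < 1}).Finite := by
    refine Set.finite_iUnion fun ρ => Set.Subsingleton.finite fun c hc c' hc' => ?_
    rcases lt_trichotomy c c' with h | h | h
    · exact (hlt _ _ _ h hc hc').elim
    · exact h
    · exact (hlt _ _ _ h hc' hc).elim
  obtain ⟨c, hc⟩ := hfin.exists_notMem
  simp only [Set.mem_iUnion, Set.mem_ofPred_eq, not_exists, not_lt] at hc
  have hc1 : w (c : L) ≤ 1 := by
    rcases eq_or_ne c 0 with rfl | h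
    · simp
    · exact (hnat c h).le
  have hval : ∀ ρ : L ≃ₐ[K] L, w (ρ (y / (c + y))) = w (ρ y) / w (c + ρ y) := by
    intro ρ
    simp [map_div₀]
  have hbig : ∀ z : L, 1 < w z → w z / w (c + z) = 1 := by
    intro z hz
    rw [w.map_add_eq_of_lt_right (lt_of_le_of_lt hc1 hz), div_self (zero_lt_one.trans hz).ne']
  refine ⟨y / (c + y), by rw [map_div₀]; exact hbig y h1, ?_, fun ρ => ?_⟩
  · rw [hval, div_lt_one (zero_lt_one.trans_le (hc ρ₀))]
    exact h2.trans_le (hc ρ₀)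
  · rw [hval]
    rcases le_or_gt (w (ρ y)) 1 with h | h
    · rw [div_le_one (zero_lt_one.trans_le (hc ρ))]
      exact h.trans (hc ρ)
    · exact (hbig _ h).le

/-- Separation of `w` from its conjugates. -/
theorem exists_sep_elt (hnat : ∀ n : ℕ, n ≠ 0 → w (n : L) = 1) (π : K) (hπ0 : π ≠ 0)
    (hπ : w (algebraMap K L π) < 1) (η : ℝ≥0) (hη : 0 < η) :
    ∃ e : L, w e = 1 ∧ ∀ ρ : L ≃ₐ[K] L, (¬ ∀ y, w (ρ y) = w y) → w (ρ e) ≤ η := by
  classical
  have h1 : ∀ ρ₀ : L ≃ₐ[K] L, ∃ e, w e = 1 ∧ ((¬ ∀ y, w (ρ₀ y) = w y) → w (ρ₀ e) < 1) ∧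
      ∀ ρ : L ≃ₐ[K] L, w (ρ e) ≤ 1 := by
    intro ρ₀
    by_cases h : ∀ y, w (ρ₀ y) = w y
    · exact ⟨1, by simp, fun h' => (h' h).elim, by simp⟩
    · obtain ⟨y, a, b⟩ := sep_one w π hπ0 hπ ρ₀ h
      obtain ⟨e, a, b, c⟩ := sep_two w hnat ρ₀ y a b
      exact ⟨e, a, fun _ => b, c⟩
  choose e he1 he2 he3 using h1
  have h2 : ∀ ρ : L ≃ₐ[K] L, ∀ᶠ M : ℕ in Filter.atTop,
      (¬ ∀ y, w (ρ y) = w y) → w (ρ (∏ σ, e σ)) ^ M ≤ η := by
    intro ρ
    by_cases h : ∀ y, w (ρ y) = w y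
    · exact Filter.Eventually.of_forall fun _ h' => (h' h).elim
    · have hlt : w (ρ (∏ σ, e σ)) < 1 := by
        rw [map_prod, map_prod, ← Finset.mul_prod_erase _ _ (Finset.mem_univ ρ)]
        exact mul_lt_one_of_lt_of_le (he2 ρ h) (Finset.prod_le_one' fun σ _ => he3 σ ρ)
      exact ((NNReal.tendsto_pow_atTop_nhds_zero_of_lt_one hlt).eventually
        (eventually_le_nhds hη)).mono fun M hM _ => hM
  obtain ⟨M, hM⟩ := (Filter.eventually_all.2 h2).exists
  refine ⟨(∏ σ, e σ) ^ M, by simp [map_prod, he1], fun ρ hρ => ?_⟩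
  rw [map_pow, map_pow]
  exact hM ρ hρ

/-- Coordinates: a vector over `K` indexed by `Fin r × Fin N` as a vector of `L^r`. -/
noncomputable def toL {N r : ℕ} (b : Module.Basis (Fin N) K L) (u : Fin r × Fin N → K) :
    Fin r → L := fun i => ∑ j, u (i, j) • b j

omit [FiniteDimensional K L] in
theorem toL_ne_zero {N r : ℕ} (b : Module.Basis (Fin N) K L) (u : Fin r × Fin N → K)
    (hu : u ≠ 0) : toL b u ≠ 0 := by
  intro h
  refine hu (funext fun a => ?_)
  exact Fintype.linearIndependent_iff.1 b.linearIndependent (fun j => u (a.1, j))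
    (congrFun h a.1) a.2

omit [FiniteDimensional K L] in
theorem toL_mulVec {N r : ℕ} (b : Module.Basis (Fin N) K L)
    (h : Matrix (Fin r × Fin N) (Fin r × Fin N) K) (u : Fin r × Fin N → K) :
    toL b (h *ᵥ u) = ∑ a, algebraMap K L (u a) • toL b (hᵀ a) := by
  funext i
  simp only [toL, mulVec, dotProduct, Finset.sum_smul, Finset.sum_apply, Pi.smul_apply,
    transpose_apply, Finset.smul_sum, algebraMap_smul, smul_smul]
  rw [Finset.sum_comm]
  simp only [mul_comm]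

omit [FiniteDimensional K L] in
theorem toL_repr {N r : ℕ} (b : Module.Basis (Fin N) K L) (f : Fin r → L) :
    toL b (fun a => b.repr (f a.1) a.2) = f := by
  funext i
  exact b.sum_repr (f i)

/-- Selection of columns. -/
theorem exists_select {κ κ' : Type} [Fintype κ] [DecidableEq κ] [Fintype κ'] (Z : Matrix κ κ' L)
    (Y : Matrix κ' κ L) (h : Z * Y = 1) (C : ℝ≥0) (hC : ∀ i j, w (Y i j) ≤ C) :
    ∃ J : κ → κ', 1 ≤ C ^ Fintype.card κ * w (Z.submatrix id J).det := by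
  let e := (Fintype.equivFin κ).symm
  have h1 := pn_mul_le w Yᵀ C (fun i j => hC j i) (Zᵀ.submatrix id e)
  have h2 : Yᵀ * Zᵀ.submatrix id e = (1 : Matrix κ κ L).submatrix id e := by
    rw [← transpose_one, ← h, transpose_mul]
    rfl
  rw [h2, pn_square' w e, submatrix_submatrix, Function.id_comp, Function.comp_id,
    submatrix_one_equiv, det_one, map_one] at h1
  rcases (Finset.univ : Finset (Fin (Fintype.card κ) → κ')).eq_empty_or_nonempty with h0 | h0
  · simp [pn, h0] at h1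
  · obtain ⟨I, -, hI⟩ := Finset.exists_mem_eq_sup _ h0
      fun I : Fin (Fintype.card κ) → κ' => w ((Zᵀ.submatrix id e).submatrix I id).det
    refine ⟨I ∘ e.symm, h1.trans (le_of_eq ?_)⟩
    rw [pn, hI, ← det_transpose, ← det_submatrix_equiv_self e]
    congr 3
    ext i j
    simp

variable [IsGalois K L]

theorem card_gal_eq {N : ℕ} (b : Module.Basis (Fin N) K L) : Fintype.card (L ≃ₐ[K] L) = N := by
  rw [← Nat.card_eq_fintype_card, IsGalois.card_aut_eq_finrank, Module.finrank_eq_card_basis b,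
    Fintype.card_fin]

open Classical in
/-- Dual family. -/
theorem exists_dual_family {N : ℕ} (b : Module.Basis (Fin N) K L) :
    ∃ b' : Fin N → L, ∀ σ σ' : L ≃ₐ[K] L,
      ∑ j, σ (b j) * σ' (b' j) = if σ = σ' then 1 else 0 := by
  let B : Matrix (L ≃ₐ[K] L) (Fin N) L := Matrix.of fun σ j => σ (b j)
  let B' : Matrix (Fin N) (L ≃ₐ[K] L) L := Matrix.of fun j σ => σ (b.traceDual j)
  have h1 : B' * B = 1 := by
    ext i j
    have := congrArg (algebraMap K L) (b.trace_traceDual_mul i j)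
    rw [trace_eq_sum_automorphisms] at this
    simp only [B, B', Matrix.mul_apply, of_apply, ← map_mul, this, one_apply]
    by_cases hij : i = j
    · simp [hij]
    · simp [hij, Ne.symm hij]
  have h2 : B * B' = 1 :=
    (Matrix.mul_eq_one_comm_of_card_eq _ _ _ (by rw [card_gal_eq b, Fintype.card_fin])).1 h1
  refine ⟨b.traceDual, fun σ σ' => ?_⟩
  have := congrFun (congrFun h2 σ) σ'
  simpa [B, B', Matrix.mul_apply, one_apply] using this

/-- Descent of lattices with a bounded error. -/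
theorem siegel_local (hnat : ∀ n : ℕ, n ≠ 0 → w (n : L) = 1) (π : K) (hπ0 : π ≠ 0)
    (hπ : w (algebraMap K L π) < 1) {N : ℕ} (b : Module.Basis (Fin N) K L) :
    ∃ C : ℝ≥0, 0 < C ∧ ∀ (r : ℕ) (M : (L ≃ₐ[K] L) → Matrix (Fin r) (Fin r) L),
      (∀ σ, (M σ).det ≠ 0) →
      (∀ (ρ σ : L ≃ₐ[K] L) (z : Fin r → L), (∀ y, w (ρ y) = w y) →
        vn w (M (ρ * σ) *ᵥ (ρ ∘ z)) ≤ vn w (M σ *ᵥ z)) →
      ∃ h : Matrix (Fin r × Fin N) (Fin r × Fin N) K, h.det ≠ 0 ∧
        (∀ a (σ : L ≃ₐ[K] L), vn w (M σ *ᵥ (σ ∘ toL b (hᵀ a))) ≤ 1) ∧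
        C ^ r ≤ w (algebraMap K L h.det) * ∏ σ, w (M σ).det := by
  classical
  obtain ⟨b', hb'⟩ := exists_dual_family b
  have hq : 0 < w (algebraMap K L π) := by
    rw [pos_iff_ne_zero, Valuation.ne_zero_iff]; simpa using hπ0
  -- a scalar making the dual family integral
  obtain ⟨c, hc0, hc⟩ : ∃ c : K, c ≠ 0 ∧
      ∀ (σ : L ≃ₐ[K] L) j, w (algebraMap K L c) * w (σ (b' j)) ≤ 1 := by
    set B := (Finset.univ.sup fun a : (L ≃ₐ[K] L) × Fin N => w (a.1 (b' a.2))) + 1 with hB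
    have hBpos : 0 < B := by positivity
    obtain ⟨n, hn⟩ := exists_pow_lt_of_lt_one (inv_pos.2 hBpos) hπ
    refine ⟨π ^ n, pow_ne_zero _ hπ0, fun σ j => ?_⟩
    rw [map_pow, map_pow]
    have h1 : w (σ (b' j)) ≤ B :=
      (Finset.le_sup (f := fun a : (L ≃ₐ[K] L) × Fin N => w (a.1 (b' a.2)))
        (Finset.mem_univ (σ, j))).trans le_self_add
    calc _ ≤ B⁻¹ * B := mul_le_mul' hn.le h1
      _ = 1 := inv_mul_cancel₀ hBpos.ne'
  have hwc : 0 < w (algebraMap K L c) := by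
    rw [pos_iff_ne_zero, Valuation.ne_zero_iff]; simpa using hc0
  let e : Fin N ≃ (L ≃ₐ[K] L) := (Fintype.equivFinOfCardEq (card_gal_eq b)).symm
  let B : Matrix (Fin N) (Fin N) L := Matrix.of fun n j => e n (b j)
  have hBdet : B.det ≠ 0 := by
    have : B * (Matrix.of fun j n => e n (b' j)) = 1 := by
      ext n n'
      simp [B, Matrix.mul_apply, hb', one_apply]
    exact (Matrix.isUnit_det_of_right_inverse this).ne_zero
  have hΔ : 0 < w B.det := by rwa [pos_iff_ne_zero, Valuation.ne_zero_iff]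
  set C₁ := ((Finset.univ.sup fun a : (L ≃ₐ[K] L) × Fin N => w (a.1 (b a.2))) + 1) /
    w (algebraMap K L c) with hC₁
  have hC₁pos : 0 < C₁ := by positivity
  refine ⟨(C₁ ^ N * w B.det)⁻¹, by positivity, fun r M hM hinv => ?_⟩
  let z : (L ≃ₐ[K] L) → Fin r → Fin r → L := fun σ i => (M σ)⁻¹ *ᵥ Pi.single i 1
  have hz : ∀ σ i, M σ *ᵥ z σ i = Pi.single i 1 := by
    intro σ i
    rw [mulVec_mulVec, mul_nonsing_inv _ (Ne.isUnit (hM σ)), one_mulVec]
  set R := (Finset.univ.sup fun a : (L ≃ₐ[K] L) × (L ≃ₐ[K] L) × Fin r =>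
    vn w (M (a.1 * a.2.1) *ᵥ (a.1 ∘ z a.2.1 a.2.2))) + 1 with hR
  have hRpos : 0 < R := by positivity
  obtain ⟨ε, hε1, hε⟩ := exists_sep_elt w hnat π hπ0 hπ R⁻¹ (inv_pos.2 hRpos)
  have hε0 : ε ≠ 0 := by rintro rfl; simp at hε1
  let f : (Fin r × Fin N) × Fin N → Fin r → L := fun a i =>
    algebraMap K L c * b' a.2 * (e a.1.2).symm (ε * z (e a.1.2) a.1.1 i)
  have hf : ∀ a (ρ : L ≃ₐ[K] L), M (ρ * e a.1.2) *ᵥ (⇑(ρ * e a.1.2) ∘ f a) =
      (algebraMap K L c * (ρ * e a.1.2) (b' a.2) * ρ ε) •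
        (M (ρ * e a.1.2) *ᵥ (ρ ∘ z (e a.1.2) a.1.1)) := by
    intro a ρ
    rw [← mulVec_smul]
    congr 1
    funext i
    simp [f, mul_assoc]
  have hfint : ∀ a (σ : L ≃ₐ[K] L), vn w (M σ *ᵥ (σ ∘ f a)) ≤ 1 := by
    intro a σ
    obtain ⟨ρ, rfl⟩ : ∃ ρ, σ = ρ * e a.1.2 := ⟨σ * (e a.1.2)⁻¹, by simp⟩
    rw [hf, vn_smul, map_mul, map_mul, mul_assoc]
    refine mul_le_one' (hc _ _) ?_
    by_cases hρ : ∀ y, w (ρ y) = w y
    · rw [hρ, hε1, one_mul]
      refine (hinv ρ _ _ hρ).trans ?_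
      rw [hz, vn_le_iff]
      intro i
      rw [Pi.single_apply]
      split_ifs <;> simp
    · have h1 : vn w (M (ρ * e a.1.2) *ᵥ (ρ ∘ z (e a.1.2) a.1.1)) ≤ R :=
        (Finset.le_sup (f := fun a : (L ≃ₐ[K] L) × (L ≃ₐ[K] L) × Fin r =>
          vn w (M (a.1 * a.2.1) *ᵥ (a.1 ∘ z a.2.1 a.2.2)))
          (Finset.mem_univ (ρ, e a.1.2, a.1.1))).trans le_self_add
      calc _ ≤ R⁻¹ * R := mul_le_mul' (hε ρ hρ) h1
        _ = 1 := inv_mul_cancel₀ hRpos.ne'
  let H : Matrix (Fin r × Fin N) ((Fin r × Fin N) × Fin N) K :=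
    Matrix.of fun u a => b.repr (f a u.1) u.2
  let Φ : Matrix (Fin r × Fin N) (Fin r × Fin N) L :=
    blockDiagonal (fun n => M (e n)) * ((1 : Matrix (Fin r) (Fin r) L) ⊗ₖ B)
  have hΦ : ∀ u a, (Φ * H.map (algebraMap K L)) u a = (M (e u.2) *ᵥ (e u.2 ∘ f a)) u.1 := by
    intro u a
    have h1 : ∀ v : Fin r × Fin N,
        (((1 : Matrix (Fin r) (Fin r) L) ⊗ₖ B) * H.map (algebraMap K L)) v a =
          e v.2 (f a v.1) := by
      intro v
      conv_rhs => rw [← b.sum_repr (f a v.1)]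
      simp [Matrix.mul_apply, Fintype.sum_prod_type, one_apply, B, H, Algebra.smul_def, mul_comm]
    simp only [Φ, Matrix.mul_assoc]
    rw [Matrix.mul_apply]
    simp [h1, Fintype.sum_prod_type, blockDiagonal_apply, mulVec, dotProduct]
  let Y : Matrix ((Fin r × Fin N) × Fin N) (Fin r × Fin N) L :=
    Matrix.of fun a u => if a.1 = u then e u.2 (b a.2) / (algebraMap K L c * ε) else 0
  have hY : ∀ a u, w (Y a u) ≤ C₁ := by
    intro a u
    simp only [Y, of_apply]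
    split_ifs
    · rw [map_div₀, map_mul, hε1, mul_one, hC₁]
      gcongr
      exact (Finset.le_sup (f := fun a : (L ≃ₐ[K] L) × Fin N => w (a.1 (b a.2)))
        (Finset.mem_univ (e u.2, a.2))).trans le_self_add
    · simp
  have hone : (Φ * H.map (algebraMap K L)) * Y = 1 := by
    ext u u'
    rw [Matrix.mul_apply, Fintype.sum_prod_type, Finset.sum_eq_single u'
      (fun v _ hv => by simp [Y, hv]) (by simp)]
    obtain ⟨ρ, hρ⟩ : ∃ ρ, e u.2 = ρ * e u'.2 := ⟨e u.2 * (e u'.2)⁻¹, by simp⟩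
    have h1 : ∀ j, (Φ * H.map (algebraMap K L)) u (u', j) * Y (u', j) u' =
        (e u'.2 (b j) * e u.2 (b' j)) * (ρ ε / ε * (M (e u.2) *ᵥ (ρ ∘ z (e u'.2) u'.1)) u.1) := by
      intro j
      have := hf (u', j) ρ
      simp only [← hρ] at this
      have hcL : algebraMap K L c ≠ 0 := by simpa using hc0
      rw [hΦ, this]
      simp only [Y, of_apply, if_true, Pi.smul_apply, smul_eq_mul]
      field_simp
    simp only [h1, ← Finset.sum_mul, hb', EmbeddingLike.apply_eq_iff_eq]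
    by_cases h2 : u'.2 = u.2
    · have hρ1 : ρ = 1 := by
        rw [h2] at hρ
        simpa using hρ
      subst hρ1
      have : ⇑(1 : L ≃ₐ[K] L) ∘ z (e u'.2) u'.1 = z (e u'.2) u'.1 := rfl
      rw [if_pos h2, this, ← h2, hz]
      simp [hε0, Pi.single_apply, one_apply, Prod.ext_iff, h2]
    · have : u ≠ u' := fun h => h2 (by rw [h])
      simp [h2, this]
  obtain ⟨J, hJ⟩ := exists_select w _ Y hone C₁ hY
  have hsub : (Φ * H.map (algebraMap K L)).submatrix id J =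
      Φ * (H.submatrix id J).map (algebraMap K L) := rfl
  have hdetΦ : w Φ.det = (∏ σ, w (M σ).det) * w B.det ^ r := by
    simp only [Φ, det_mul, det_blockDiagonal, det_kronecker, det_one, one_pow, one_mul,
      Fintype.card_fin, map_mul, map_prod, map_pow]
    rw [Equiv.prod_comp e fun σ => w (M σ).det]
  have hmap : ((H.submatrix id J).map (algebraMap K L)).det =
      algebraMap K L (H.submatrix id J).det := by
    rw [RingHom.map_det]; rfl
  rw [hsub, det_mul, map_mul, hdetΦ, hmap, Fintype.card_prod, Fintype.card_fin,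
    Fintype.card_fin] at hJ
  refine ⟨H.submatrix id J, fun h0 => by simp [h0] at hJ, fun a σ => ?_, ?_⟩
  · have : toL b ((H.submatrix id J)ᵀ a) = f (J a) := toL_repr b (f (J a))
    rw [this]
    exact hfint _ _
  · rw [inv_pow, inv_le_iff_one_le_mul₀ (by positivity)]
    refine hJ.trans (le_of_eq ?_)
    ring

end Crest.Agent.R169.TT
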