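import Crest.Agent.R169.TTExt

/-!
# Row 169, part TT: valuations on the algebraic closure, real divisors.
-/

set_option autoImplicit false

namespace Crest.Agent.R169.TT

open scoped NNReal

variable {k K : Type} [Field k] [Field K] [Algebra k K] (Pl : Places k K)

/-- The chosen extension. -/
noncomputable def Places.w (p : Pl.P) : Valuation (Om K) ℝ≥0 := (exists_ext Pl p).choose

theorem Places.w_alg (p : Pl.P) (x : K) (hx : x ≠ 0) :
    Pl.w p (algebraMap K (Om K) x) = ex (Pl.v p x) := (exists_ext Pl p).choose_spec x hx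

theorem ex_pos (t : ℝ) : 0 < ex t := Real.exp_pos _

theorem ex_ne (t : ℝ) : ex t ≠ 0 := (ex_pos t).ne'

theorem ex_zero : ex 0 = 1 := by
  ext; simp [coe_ex]

theorem ex_add (s t : ℝ) : ex (s + t) = ex s * ex t := by
  ext; simp [coe_ex, ← Real.exp_add, add_comm]

theorem ex_sum {α : Type} (s : Finset α) (t : α → ℝ) : ex (∑ a ∈ s, t a) = ∏ a ∈ s, ex (t a) := by
  classical
  induction s using Finset.induction_on with
  | empty => simp [ex_zero]
  | insert a s ha ih => rw [Finset.sum_insert ha, Finset.prod_insert ha, ex_add, ih]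

theorem ex_le_ex {s t : ℝ} : ex s ≤ ex t ↔ t ≤ s := by
  rw [← NNReal.coe_le_coe]; simp [coe_ex]

/-- Minus the logarithm. -/
noncomputable def nl (x : ℝ≥0) : ℝ := -Real.log x

theorem nl_ex (t : ℝ) : nl (ex t) = t := by simp [nl, coe_ex]

theorem ex_nl {x : ℝ≥0} (hx : x ≠ 0) : ex (nl x) = x := by
  ext
  have : (0 : ℝ) < x := by positivity
  simp [nl, coe_ex, Real.exp_log this]

theorem nl_one : nl 1 = 0 := by simp [nl]

theorem nl_mul {x y : ℝ≥0} (hx : x ≠ 0) (hy : y ≠ 0) : nl (x * y) = nl x + nl y := by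
  simp only [nl, NNReal.coe_mul]
  rw [Real.log_mul (by exact_mod_cast hx) (by exact_mod_cast hy)]
  ring

theorem nl_prod {α : Type} (s : Finset α) (x : α → ℝ≥0) (hx : ∀ a ∈ s, x a ≠ 0) :
    nl (∏ a ∈ s, x a) = ∑ a ∈ s, nl (x a) := by
  simp only [nl, NNReal.coe_prod]
  rw [Real.log_prod (fun a ha => by exact_mod_cast hx a ha)]
  simp

theorem nl_pow (x : ℝ≥0) (n : ℕ) : nl (x ^ n) = n * nl x := by
  simp [nl]

theorem nl_le_nl {x y : ℝ≥0} (hx : x ≠ 0) (h : x ≤ y) : nl y ≤ nl x := by
  have : (0 : ℝ) < x := by positivity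
  exact neg_le_neg (Real.log_le_log this (by exact_mod_cast h))

theorem le_nl_iff {x : ℝ≥0} (hx : x ≠ 0) (t : ℝ) : t ≤ nl x ↔ x ≤ ex t := by
  rw [← ex_le_ex, ex_nl hx]

/-- Every rational number is a value: take a root of `X^den - π^num`. -/
theorem Places.exists_c (p : Pl.P) (a : ℚ) : ∃ c : Om K, c ≠ 0 ∧ Pl.w p c = ex a := by
  obtain ⟨π, hπ, hv⟩ := Pl.unif p
  have h1 : Pl.w p (algebraMap K (Om K) π) = ex 1 := by
    rw [Pl.w_alg p π hπ, hv]; simp
  have hπ' : algebraMap K (Om K) π ≠ 0 := (map_ne_zero _).mpr hπ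
  obtain ⟨c, hc⟩ := IsAlgClosed.exists_pow_nat_eq (algebraMap K (Om K) π ^ a.num) a.den_pos
  have hc0 : c ≠ 0 := by
    rintro rfl
    rw [zero_pow a.den_nz] at hc
    exact zpow_ne_zero _ hπ' hc.symm
  refine ⟨c, hc0, ?_⟩
  have h2 : Pl.w p c ^ a.den = ex 1 ^ a.num := by rw [← map_pow, hc, map_zpow₀, h1]
  have h3 : ex a ^ a.den = ex 1 ^ a.num := by
    ext
    rw [NNReal.coe_pow, NNReal.coe_zpow, coe_ex, coe_ex, ← Real.exp_nat_mul, ← Real.rpow_intCast,
      ← Real.exp_mul]
    congr 1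
    have : (a : ℝ) * a.den = a.num := by exact_mod_cast Rat.mul_den_eq_num a
    linarith
  exact (pow_left_inj₀ zero_le zero_le a.den_nz).mp (h2.trans h3.symm)

/-- Nonzero natural numbers are units (they come from `k`). -/
theorem Places.w_nat [CharZero K] (p : Pl.P) (n : ℕ) (hn : n ≠ 0) : Pl.w p (n : Om K) = 1 := by
  have h1 : (n : K) ≠ 0 := Nat.cast_ne_zero.mpr hn
  have h2 : (n : k) ≠ 0 := fun h => h1 (by rw [← map_natCast (algebraMap k K), h, map_zero])
  have h3 := Pl.v_const p (n : k) h2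
  rw [map_natCast] at h3
  rw [← map_natCast (algebraMap K (Om K)), Pl.w_alg p _ h1, h3]
  simpa using ex_zero

theorem Places.w_fin_gt (y : Om K) : {p | ∃ σ : Gam K, 1 < Pl.w p (σ y)}.Finite := by
  have hy : IsIntegral K y := Algebra.IsIntegral.isIntegral y
  have hfin : (⋃ i ∈ (minpoly K y).support, {p | Pl.v p ((minpoly K y).coeff i) ≠ 0}).Finite :=
    (minpoly K y).support.finite_toSet.biUnion fun i hi =>
      Pl.fin _ (Polynomial.mem_support_iff.mp hi)
  refine hfin.subset ?_
  rintro p ⟨σ, hσ⟩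
  by_contra hp
  simp only [Set.mem_iUnion, Set.mem_ofPred_eq, not_exists, not_not] at hp
  have hc : ∀ i, Pl.w p (algebraMap K (Om K) ((minpoly K y).coeff i)) ≤ 1 := by
    intro i
    by_cases h : (minpoly K y).coeff i = 0
    · simp [h]
    · rw [Pl.w_alg p _ h, hp i (Polynomial.mem_support_iff.mpr h)]
      simpa using ex_zero.le
  have h0 : Polynomial.aeval (σ y) (minpoly K y) = 0 := by
    rw [Polynomial.aeval_algEquiv, AlgHom.comp_apply, minpoly.aeval, map_zero]
  rw [(minpoly.monic hy).as_sum] at h0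
  simp only [map_add, map_pow, Polynomial.aeval_X, map_sum, map_mul, Polynomial.aeval_C] at h0
  have h1 := congrArg (Pl.w p) (eq_neg_of_add_eq_zero_left h0)
  rw [Valuation.map_neg] at h1
  refine absurd h1 (ne_of_gt (Valuation.map_sum_lt _ ?_ fun i hi => ?_))
  · rw [map_pow]; exact pow_ne_zero _ (zero_lt_one.trans hσ).ne'
  · rw [map_mul, map_pow, map_pow]
    exact (mul_le_of_le_one_left zero_le (hc i)).trans_lt
      (pow_lt_pow_right₀ hσ (Finset.mem_range.mp hi))

/-- Outside the finite set of places where a nonzero coefficient of `minpoly K y` is not a unit,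
every root `z` of it has `w z = 1` (if `w z > 1` the leading term dominates, if `w z < 1` the
constant term dominates). -/
theorem Places.w_fin (y : Om K) (hy : y ≠ 0) :
    {p | ∃ σ : Gam K, Pl.w p (σ y) ≠ 1}.Finite := by
  refine ((Pl.w_fin_gt y).union (Pl.w_fin_gt y⁻¹)).subset ?_
  rintro p ⟨σ, hσ⟩
  rcases lt_or_gt_of_ne hσ with h | h
  · refine Or.inr ⟨σ, ?_⟩
    rw [map_inv₀, map_inv₀]
    exact (one_lt_inv₀ (pos_of_ne_zero ((map_ne_zero _).mpr ((map_ne_zero _).mpr hy)))).mpr h
  · exact Or.inl ⟨σ, h⟩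

/-- Degree of a finitely supported real divisor. -/
noncomputable def Places.dgR (t : Pl.P → ℝ) : ℝ := ∑ᶠ p, (Pl.d p : ℝ) * t p

theorem Places.dgR_eq_sum' (t : Pl.P → ℝ) (S : Finset Pl.P) (h : ∀ p, p ∉ S → t p = 0) :
    Pl.dgR t = ∑ p ∈ S, (Pl.d p : ℝ) * t p :=
  finsum_eq_sum_of_support_subset _ fun p hp => by
    by_contra h'
    exact hp (by simp [h p h'])

theorem Places.dg_eq_sum' (t : Pl.P → ℚ) (S : Finset Pl.P) (h : ∀ p, p ∉ S → t p = 0) :
    Pl.dg t = ∑ p ∈ S, (Pl.d p : ℚ) * t p :=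
  finsum_eq_sum_of_support_subset _ fun p hp => by
    by_contra h'
    exact hp (by simp [h p h'])

theorem Places.supp_dmul {t : Pl.P → ℝ} (ht : (Function.support t).Finite) :
    (Function.support fun p => (Pl.d p : ℝ) * t p).Finite :=
  ht.subset fun _ hp => right_ne_zero_of_mul hp

theorem Places.dgR_cast (t : Pl.P → ℚ) (ht : (Function.support t).Finite) :
    Pl.dgR (fun p => (t p : ℝ)) = (Pl.dg t : ℝ) := by
  rw [Pl.dgR_eq_sum' _ ht.toFinset (fun p hp => by simpa using hp),
    Pl.dg_eq_sum' _ ht.toFinset (fun p hp => by simpa using hp)]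
  push_cast
  rfl

theorem Places.dgR_eq_sum (t : Pl.P → ℝ) (S : Finset Pl.P) (h : ∀ p, p ∉ S → t p = 0) :
    Pl.dgR t = ∑ p ∈ S, (Pl.d p : ℝ) * t p := by
  exact Pl.dgR_eq_sum' t S h

theorem Places.dg_eq_sum (t : Pl.P → ℚ) (S : Finset Pl.P) (h : ∀ p, p ∉ S → t p = 0) :
    Pl.dg t = ∑ p ∈ S, (Pl.d p : ℚ) * t p := by
  exact Pl.dg_eq_sum' t S h

theorem Places.dgR_zero : Pl.dgR (fun _ => 0) = 0 := by
  simp [Places.dgR]

theorem Places.dgR_add (t t' : Pl.P → ℝ) (ht : (Function.support t).Finite)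
    (ht' : (Function.support t').Finite) : Pl.dgR (fun p => t p + t' p) = Pl.dgR t + Pl.dgR t' := by
  simp only [Places.dgR, mul_add]
  exact finsum_add_distrib (Pl.supp_dmul ht) (Pl.supp_dmul ht')

theorem Places.dgR_sub (t t' : Pl.P → ℝ) (ht : (Function.support t).Finite)
    (ht' : (Function.support t').Finite) : Pl.dgR (fun p => t p - t' p) = Pl.dgR t - Pl.dgR t' := by
  simp only [Places.dgR, mul_sub]
  exact finsum_sub_distrib (Pl.supp_dmul ht) (Pl.supp_dmul ht')

theorem Places.dgR_smul (c : ℝ) (t : Pl.P → ℝ) (ht : (Function.support t).Finite) :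
    Pl.dgR (fun p => c * t p) = c * Pl.dgR t := by
  rw [Pl.dgR_eq_sum t ht.toFinset (fun p hp => by simpa using hp),
    Pl.dgR_eq_sum _ ht.toFinset (fun p hp => by
      have : t p = 0 := by simpa using hp
      simp [this]), Finset.mul_sum]
  exact Finset.sum_congr rfl fun p _ => by ring

theorem Places.dgR_sum {α : Type} (s : Finset α) (t : α → Pl.P → ℝ)
    (ht : ∀ a ∈ s, (Function.support (t a)).Finite) :
    Pl.dgR (fun p => ∑ a ∈ s, t a p) = ∑ a ∈ s, Pl.dgR (t a) := by
  classical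
  induction s using Finset.induction_on with
  | empty => simpa using Pl.dgR_zero
  | insert a s ha ih =>
    simp only [Finset.sum_insert ha]
    rw [Pl.dgR_add _ _ (ht a (Finset.mem_insert_self _ _)) ?_,
      ih fun b hb => ht b (Finset.mem_insert_of_mem hb)]
    refine (s.finite_toSet.biUnion fun b hb => ht b (Finset.mem_insert_of_mem hb)).subset ?_
    intro p hp
    obtain ⟨b, hb, hb'⟩ := Finset.exists_ne_zero_of_sum_ne_zero hp
    exact Set.mem_biUnion hb hb'

theorem Places.dgR_mono (t t' : Pl.P → ℝ) (ht : (Function.support t).Finite)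
    (ht' : (Function.support t').Finite) (h : ∀ p, t p ≤ t' p) : Pl.dgR t ≤ Pl.dgR t' := by
  exact finsum_le_finsum' (Pl.supp_dmul ht) (Pl.supp_dmul ht') fun p =>
    mul_le_mul_of_nonneg_left (h p) (Nat.cast_nonneg _)

/-- The product formula over `K`, real form. -/
theorem Places.dgR_v (x : K) (hx : x ≠ 0) : Pl.dgR (fun p => (Pl.v p x : ℝ)) = 0 := by
  have h1 := Pl.pf x hx
  rw [finsum_eq_sum_of_support_subset (s := (Pl.fin x hx).toFinset) _ fun p hp => by
    simpa using right_ne_zero_of_mul hp] at h1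
  rw [Pl.dgR_eq_sum _ (Pl.fin x hx).toFinset fun p hp => by simpa using hp]
  exact_mod_cast h1

theorem supp_add {α : Type} {t t' : α → ℝ} (ht : (Function.support t).Finite)
    (ht' : (Function.support t').Finite) : (Function.support fun p => t p + t' p).Finite := by
  exact (ht.union ht').subset (Function.support_add t t')

theorem supp_sub {α : Type} {t t' : α → ℝ} (ht : (Function.support t).Finite)
    (ht' : (Function.support t').Finite) : (Function.support fun p => t p - t' p).Finite := by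
  exact (ht.union ht').subset (Function.support_sub t t')

theorem supp_smul {α : Type} (c : ℝ) {t : α → ℝ} (ht : (Function.support t).Finite) :
    (Function.support fun p => c * t p).Finite := by
  exact ht.subset fun _ hp => right_ne_zero_of_mul hp

theorem supp_sum {α β : Type} (s : Finset β) {t : β → α → ℝ}
    (ht : ∀ b ∈ s, (Function.support (t b)).Finite) :
    (Function.support fun p => ∑ b ∈ s, t b p).Finite := by
  refine (s.finite_toSet.biUnion fun b hb => ht b hb).subset ?_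
  intro p hp
  obtain ⟨b, hb, hb'⟩ := Finset.exists_ne_zero_of_sum_ne_zero hp
  exact Set.mem_biUnion hb hb'

end Crest.Agent.R169.TT
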