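import Crest.Agent.R169.TTSiegelK
import Crest.Agent.R169.TTSiegelLoc
import Crest.Agent.R169.TTVal

/-!
# Row 169, part TT: Siegel's lemma over a finite Galois extension.
-/

set_option autoImplicit false

namespace Crest.Agent.R169.TT

open Matrix
open scoped NNReal

variable {k K : Type} [Field k] [Field K] [Algebra k K] (Pl : Places k K)

/-- The restriction of `w p` to `L`. -/
noncomputable def Places.wL (L : IntermediateField K (Om K)) (p : Pl.P) : Valuation L ℝ≥0 :=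
  (Pl.w p).comap (algebraMap L (Om K))

theorem Places.wL_apply (L : IntermediateField K (Om K)) (p : Pl.P) (y : L) :
    Pl.wL L p y = Pl.w p (y : Om K) := rfl

theorem Places.wL_alg (L : IntermediateField K (Om K)) (p : Pl.P) (x : K) (hx : x ≠ 0) :
    Pl.wL L p (algebraMap K L x) = ex (Pl.v p x) := by
  rw [← Pl.w_alg p x hx]
  rfl

theorem Places.sgL_v_inv (p : Pl.P) (x : K) (hx : x ≠ 0) : Pl.v p x⁻¹ = - Pl.v p x := by
  have h1 := Pl.v_mul p 1 1 one_ne_zero one_ne_zero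
  have h2 := Pl.v_mul p x x⁻¹ hx (inv_ne_zero hx)
  rw [mul_inv_cancel₀ hx] at h2
  rw [one_mul] at h1
  omega

theorem Places.sgL_fin (L : IntermediateField K (Om K)) [FiniteDimensional K L] [IsGalois K L]
    (y : L) : {p | ∃ σ : L ≃ₐ[K] L, 1 < Pl.wL L p (σ y)}.Finite := by
  refine (Pl.w_fin_gt (y : Om K)).subset ?_
  rintro p ⟨σ, hσ⟩
  refine ⟨σ.liftNormal (Om K), ?_⟩
  have := σ.liftNormal_commutes (Om K) y
  change σ.liftNormal (Om K) (y : Om K) = ((σ y : L) : Om K) at this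
  rw [this]
  exact hσ

/-- Fix a basis `b` of `L/K`, `N = card G`.  Let `S' ⊇ S` be a finite set outside which all
`σ (b j)` are integral (`Places.w_fin`, lift `σ` to `Gam K`).  For `p ∈ S'` take `C p`, `h p` from
`siegel_local` (`Places.w_nat`, `Pl.unif`), for `p ∉ S'` take `h p = 1`.  Apply `siegelK` to the
bundle `g p = (h p)⁻¹`, `a = 0` on `Fin r × Fin N`; its degree is
`- ∑_{S'} d v (det h) ≥ ∑_S d ∑_σ nl (w det M) - r ∑_{S'} d nl (C p)`.
`x = h p *ᵥ (g p *ᵥ x)`, `toL_mulVec`, `vn_sum_le` give the bound for `f = toL b x`. -/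
theorem siegelL [CharZero K] (L : IntermediateField K (Om K)) [FiniteDimensional K L]
    [IsGalois K L] (S : Finset Pl.P) :
    ∃ c : ℝ, ∀ (r : ℕ) (M : Pl.P → (L ≃ₐ[K] L) → Matrix (Fin r) (Fin r) L), 0 < r →
      (∀ p σ, (M p σ).det ≠ 0) →
      (∀ p, p ∉ S → ∀ σ, M p σ = 1) →
      (∀ p (ρ σ : L ≃ₐ[K] L) (z : Fin r → L), (∀ y, Pl.wL L p (ρ y) = Pl.wL L p y) →
        vn (Pl.wL L p) (M p (ρ * σ) *ᵥ (ρ ∘ z)) ≤ vn (Pl.wL L p) (M p σ *ᵥ z)) →
      ∃ f : Fin r → L, f ≠ 0 ∧ ∃ t : Pl.P → ℝ, (Function.support t).Finite ∧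
        (∀ p (σ : L ≃ₐ[K] L), vn (Pl.wL L p) (M p σ *ᵥ (σ ∘ f)) ≤ ex (t p)) ∧
        (∑ p ∈ S, (Pl.d p : ℝ) * ∑ σ, nl (Pl.wL L p (M p σ).det)) /
          (r * Fintype.card (L ≃ₐ[K] L)) - c ≤ Pl.dgR t := by
  classical
  set N := Module.finrank K L with hN
  let b : Module.Basis (Fin N) K L := Module.finBasis K L
  have hN0 : 0 < N := Module.finrank_pos
  have hcard : Fintype.card (L ≃ₐ[K] L) = N := by
    rw [← Nat.card_eq_fintype_card, IsGalois.card_aut_eq_finrank]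
  have hloc := fun p : Pl.P => siegel_local (Pl.wL L p) (fun n hn => by
      rw [Places.wL_apply, ← Pl.w_nat p n hn]
      rfl) (Pl.unif p).choose (Pl.unif p).choose_spec.1 (by
      rw [Pl.wL_alg L p _ (Pl.unif p).choose_spec.1, (Pl.unif p).choose_spec.2, ← ex_zero]
      refine lt_of_le_of_ne (ex_le_ex.2 (by norm_num)) fun h => ?_
      have := ex_le_ex.1 h.ge
      norm_num at this) b
  choose C hC0 hC using hloc
  have hbad : {p | ∃ j, ∃ σ : L ≃ₐ[K] L, 1 < Pl.wL L p (σ (b j))}.Finite :=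
    (Set.finite_iUnion fun j => Pl.sgL_fin L (b j)).subset fun p ⟨j, hj⟩ =>
      Set.mem_iUnion.2 ⟨j, hj⟩
  set S' := S ∪ hbad.toFinset with hS'
  refine ⟨(∑ p ∈ S', (Pl.d p : ℝ) * nl (C p)) / N + 1, fun r M hr hM hM1 hMe => ?_⟩
  have hh : ∀ p, ∃ h : Matrix (Fin r × Fin N) (Fin r × Fin N) K, h.det ≠ 0 ∧
      (∀ a (σ : L ≃ₐ[K] L), vn (Pl.wL L p) (M p σ *ᵥ (σ ∘ toL b (hᵀ a))) ≤ 1) ∧
      (p ∉ S' → h = 1) ∧
      (p ∈ S' → (Pl.v p h.det : ℝ) + ∑ σ, nl (Pl.wL L p (M p σ).det) ≤ r * nl (C p)) := by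
    intro p
    by_cases hp : p ∈ S'
    · obtain ⟨h, h1, h2, h3⟩ := hC p r (M p) (hM p) (hMe p)
      refine ⟨h, h1, h2, fun h' => absurd hp h', fun _ => ?_⟩
      have h4 := nl_le_nl (pow_ne_zero r (hC0 p).ne') h3
      have h5 : ∀ σ ∈ Finset.univ, Pl.wL L p (M p σ).det ≠ 0 := fun σ _ =>
        (Valuation.ne_zero_iff _).2 (hM p σ)
      rwa [Pl.wL_alg L p _ h1, nl_mul (ex_ne _) (Finset.prod_ne_zero_iff.2 h5), nl_ex,
        nl_prod _ _ h5, nl_pow] at h4
    · refine ⟨1, by simp, fun a σ => ?_, fun _ => rfl, fun h' => absurd h' hp⟩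
      rw [hS', Finset.mem_union, not_or, Set.Finite.mem_toFinset] at hp
      rw [hM1 p hp.1, one_mulVec, vn_le_iff]
      intro i
      simp only [Function.comp_apply, toL, map_sum]
      refine Valuation.map_sum_le _ fun j _ => ?_
      rw [transpose_apply, one_apply]
      split_ifs
      · rw [one_smul]
        exact not_lt.1 fun h => hp.2 ⟨j, σ, h⟩
      · simp
  choose h hd hb h1 hS using hh
  let V : NB Pl (Fin r × Fin N) :=
    { g := fun p => (h p)⁻¹
      a := fun _ => 0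
      det_ne := fun p => by
        rw [det_nonsing_inv, Ring.inverse_eq_inv']
        exact inv_ne_zero (hd p)
      fin := S'.finite_toSet.subset fun p hp => by
        by_contra hp'
        exact hp ⟨by rw [h1 p hp', inv_one], rfl⟩ }
  have : Nonempty (Fin r × Fin N) := ⟨(⟨0, hr⟩, ⟨0, hN0⟩)⟩
  obtain ⟨x, hx, t, ht, hge, hdeg⟩ := siegelK V fun _ => rfl
  refine ⟨toL b x, toL_ne_zero b x hx, fun p => (t p : ℝ),
    ht.subset fun p hp => by simpa using hp, fun p σ => ?_, ?_⟩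
  · have e1 : x = h p *ᵥ ((h p)⁻¹ *ᵥ x) := by
      rw [mulVec_mulVec, mul_nonsing_inv _ (Ne.isUnit (hd p)), one_mulVec]
    have e2 : σ ∘ toL b x =
        ∑ a, algebraMap K L (((h p)⁻¹ *ᵥ x) a) • (σ ∘ toL b ((h p)ᵀ a)) := by
      conv_lhs => rw [e1, toL_mulVec]
      funext i
      simp only [Function.comp_apply, Finset.sum_apply, Pi.smul_apply, smul_eq_mul, map_sum,
        map_mul, AlgEquiv.commutes]
    rw [e2, mulVec_sum]
    refine vn_sum_le _ _ _ _ fun a _ => ?_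
    rw [mulVec_smul, vn_smul]
    refine (mul_le_of_le_one_right zero_le (hb p a σ)).trans ?_
    by_cases h0 : ((h p)⁻¹ *ᵥ x) a = 0
    · simp [h0]
    · rw [Pl.wL_alg L p _ h0, ex_le_ex]
      have h2 := hge p a h0
      change t p ≤ (Pl.v p (((h p)⁻¹ *ᵥ x) a) : ℚ) + 0 at h2
      rw [add_zero] at h2
      change (t p : ℝ) ≤ _
      exact_mod_cast h2
  · rw [Pl.dgR_cast t ht, hcard]
    have hv1 : ∀ p, Pl.v p 1 = 0 := fun p => by
      have := Pl.v_mul p 1 1 one_ne_zero one_ne_zero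
      rw [one_mul] at this
      omega
    have e1 : V.deg = ∑ p ∈ S', (Pl.d p : ℚ) * (- Pl.v p (h p).det) := by
      rw [NB.deg, Pl.dg_eq_sum _ S' fun p hp => by simp [V, h1 p hp, hv1]]
      refine Finset.sum_congr rfl fun p _ => ?_
      simp [V, det_nonsing_inv, Pl.sgL_v_inv p _ (hd p)]
    have e2 : ∑ p ∈ S, (Pl.d p : ℝ) * ∑ σ, nl (Pl.wL L p (M p σ).det) =
        ∑ p ∈ S', (Pl.d p : ℝ) * ∑ σ, nl (Pl.wL L p (M p σ).det) :=
      Finset.sum_subset Finset.subset_union_left fun p _ hp => by simp [hM1 p hp, nl_one]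
    have e3 : ∑ p ∈ S', (Pl.d p : ℝ) * ∑ σ, nl (Pl.wL L p (M p σ).det) ≤
        (V.deg : ℝ) + r * ∑ p ∈ S', (Pl.d p : ℝ) * nl (C p) := by
      rw [e1, Finset.mul_sum]
      push_cast
      rw [← Finset.sum_add_distrib]
      refine Finset.sum_le_sum fun p hp => ?_
      have := mul_le_mul_of_nonneg_left (hS p hp) (Nat.cast_nonneg (α := ℝ) (Pl.d p))
      nlinarith
    have h3 : (V.deg : ℝ) / (r * N) - 1 ≤ (Pl.dg t : ℝ) := by
      have : ((V.deg / Fintype.card (Fin r × Fin N) - 1 : ℚ) : ℝ) ≤ (Pl.dg t : ℝ) := by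
        exact_mod_cast hdeg
      simpa using this
    have hr' : (0 : ℝ) < r := by exact_mod_cast hr
    have hN' : (0 : ℝ) < N := by exact_mod_cast hN0
    have h4 := div_le_div_of_nonneg_right e3 (mul_pos hr' hN').le
    rw [add_div, mul_div_mul_left _ _ hr'.ne'] at h4
    rw [e2]
    linarith

end Crest.Agent.R169.TT
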